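import Mathlib
import Crest.Prelude.Def_AsymptoticConvexity

/-!
General lemmas about closed finite-codimensional subspaces and the failure of asymptotic uniform
convexity, used for the row S0166-S0169.
-/

set_option autoImplicit false

open Filter Topology

namespace Crest.Agent.Lib.AUC

variable {X : Type*} [NormedAddCommGroup X] [NormedSpace ℝ X]

/-- Closed finite-codimensional linear subspaces, as sets (unbundled form of `RealBanach.IsCof`). -/
def IsCofSet (F : Set X) : Prop :=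
  ∃ S : Submodule ℝ X, (S : Set X) = F ∧ IsClosed F ∧ FiniteDimensional ℝ (X ⧸ S)

/-- The common kernel of finitely many continuous functionals is closed of finite codimension. -/
theorem isCofSet_ker {ι : Type*} [Finite ι] (φ : ι → (X →L[ℝ] ℝ)) :
    IsCofSet {x : X | ∀ i, φ i x = 0} := by
  classical
  cases nonempty_fintype ι
  let L : X →ₗ[ℝ] (ι → ℝ) := LinearMap.pi (fun i => (φ i).toLinearMap)
  refine ⟨LinearMap.ker L, ?_, ?_, ?_⟩
  · ext x
    simp [L, funext_iff]
  · have : {x : X | ∀ i, φ i x = 0} = ⋂ i, {x : X | φ i x = 0} := by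
      ext x; simp
    rw [this]
    exact isClosed_iInter (fun i => isClosed_eq (φ i).continuous continuous_const)
  · exact Module.Finite.equiv (LinearMap.quotKerEquivRange L).symm

/-- In a closed finite-codimensional subspace: a bounded sequence whose Cesàro means along every
subsequence tend to zero has terms arbitrarily close to `F`. -/
theorem exists_near_cof_of_avg {F : Set X} (hF : IsCofSet F) (w : ℕ → X)
    (hb : ∃ B : ℝ, ∀ i, ‖w i‖ ≤ B)
    (havg : ∀ φ : ℕ → ℕ, StrictMono φ →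
      Tendsto (fun n : ℕ => ‖(n : ℝ)⁻¹ • ∑ i ∈ Finset.range n, w (φ i)‖) atTop (𝓝 0))
    {ε : ℝ} (hε : 0 < ε) : ∃ i, ∃ y ∈ F, ‖w i - y‖ < ε := by
  obtain ⟨S, rfl, hcl, hfd⟩ := hF
  have : IsClosed (S : Set X) := hcl
  have : FiniteDimensional ℝ (X ⧸ S) := hfd
  have : ProperSpace (X ⧸ S) := FiniteDimensional.proper_real _
  obtain ⟨B, hB⟩ := hb
  let q : ℕ → X ⧸ S := fun i => Submodule.Quotient.mk (w i)
  have hqb : ∀ i, q i ∈ Metric.closedBall (0 : X ⧸ S) B := by
    intro i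
    simp only [mem_closedBall_zero_iff]
    exact (Submodule.Quotient.norm_mk_le S (w i)).trans (hB i)
  obtain ⟨a, -, φ, hφ, hlim⟩ := tendsto_subseq_of_bounded Metric.isBounded_closedBall hqb
  have hces := hlim.cesaro_smul
  have hzero : a = 0 := by
    have h1 : Tendsto (fun n : ℕ => ‖(n : ℝ)⁻¹ • ∑ i ∈ Finset.range n, (q ∘ φ) i‖) atTop (𝓝 0) := by
      refine squeeze_zero (fun _ => norm_nonneg _) (fun n => ?_) (havg φ hφ)
      have : (n : ℝ)⁻¹ • ∑ i ∈ Finset.range n, (q ∘ φ) i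
          = Submodule.Quotient.mk ((n : ℝ)⁻¹ • ∑ i ∈ Finset.range n, w (φ i)) := by
        have h0 : ∀ s : Finset ℕ, ∑ i ∈ s, (q ∘ φ) i = Submodule.Quotient.mk (∑ i ∈ s, w (φ i)) := by
          intro s
          induction s using Finset.induction_on with
          | empty => simp
          | insert a s ha ih =>
            rw [Finset.sum_insert ha, Finset.sum_insert ha, ih, Submodule.Quotient.mk_add]
            rfl
        rw [h0, Submodule.Quotient.mk_smul]
      rw [this]
      exact Submodule.Quotient.norm_mk_le S _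
    have h2 := hces.norm
    have := tendsto_nhds_unique h1 h2
    exact norm_eq_zero.mp this.symm
  subst hzero
  have hev : ∀ᶠ n in atTop, ‖(q ∘ φ) n‖ < ε := by
    have := hlim.norm
    simp only [norm_zero] at this
    exact this.eventually (gt_mem_nhds hε)
  obtain ⟨n, hn⟩ := hev.exists
  obtain ⟨m, hm, hm2⟩ := Submodule.Quotient.norm_mk_lt (q (φ n)) (sub_pos.mpr hn)
  refine ⟨φ n, w (φ n) - m, ?_, ?_⟩
  · have : Submodule.Quotient.mk (p := S) m = Submodule.Quotient.mk (w (φ n)) := hm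
    have h3 := (Submodule.Quotient.eq S).mp this.symm
    exact h3
  · simp only [sub_sub_cancel]
    simpa using hm2

/-- In a closed finite-codimensional subspace: two terms of a bounded sequence differ by almost an
element of `F`. -/
theorem exists_pair_near_cof {F : Set X} (hF : IsCofSet F) (w : ℕ → X)
    (hb : ∃ B : ℝ, ∀ i, ‖w i‖ ≤ B) {ε : ℝ} (hε : 0 < ε) :
    ∃ i j, i ≠ j ∧ ∃ y ∈ F, ‖(w i - w j) - y‖ < ε := by
  obtain ⟨S, rfl, hcl, hfd⟩ := hF
  have : IsClosed (S : Set X) := hcl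
  have : FiniteDimensional ℝ (X ⧸ S) := hfd
  have : ProperSpace (X ⧸ S) := FiniteDimensional.proper_real _
  obtain ⟨B, hB⟩ := hb
  let q : ℕ → X ⧸ S := fun i => Submodule.Quotient.mk (w i)
  have hqb : ∀ i, q i ∈ Metric.closedBall (0 : X ⧸ S) B := by
    intro i
    simp only [mem_closedBall_zero_iff]
    exact (Submodule.Quotient.norm_mk_le S (w i)).trans (hB i)
  obtain ⟨a, -, φ, hφ, hlim⟩ := tendsto_subseq_of_bounded Metric.isBounded_closedBall hqb
  have hc := hlim.cauchySeq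
  rw [Metric.cauchySeq_iff] at hc
  obtain ⟨N, hN⟩ := hc ε hε
  have hne : φ N ≠ φ (N + 1) := (hφ (Nat.lt_succ_self N)).ne
  refine ⟨φ N, φ (N + 1), hne, ?_⟩
  have hd := hN N le_rfl (N + 1) (Nat.le_succ N)
  rw [dist_eq_norm] at hd
  obtain ⟨m, hm, hm2⟩ := Submodule.Quotient.norm_mk_lt ((q ∘ φ) N - (q ∘ φ) (N + 1)) (sub_pos.mpr hd)
  refine ⟨(w (φ N) - w (φ (N + 1))) - m, ?_, ?_⟩
  · have : Submodule.Quotient.mk (p := S) m = Submodule.Quotient.mk (w (φ N) - w (φ (N + 1))) := by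
      rw [hm]
      simp [q, Submodule.Quotient.mk_sub]
    exact (Submodule.Quotient.eq S).mp this.symm
  · simp only [sub_sub_cancel]
    simpa using hm2

/-- Convexity of a norm-like function along a ray. -/
theorem ray_step (N : X → ℝ)
    (hNadd : ∀ x y : X, N (x + y) ≤ N x + N y)
    (hNhom : ∀ (a : ℝ) (x : X), N (a • x) = abs a * N x)
    {τ c t' : ℝ} (hτ : 0 < τ) (hc : 0 < c) {wh yh : X} (hNwh : N wh = 1)
    (hcτ : c ≤ N (wh + τ • yh) - 1) (ht' : τ ≤ t') : 1 + c ≤ N (wh + t' • yh) := by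
  have ht'pos : 0 < t' := lt_of_lt_of_le hτ ht'
  have hsplit : wh + τ • yh = (1 - τ / t') • wh + (τ / t') • (wh + t' • yh) := by
    have h0 : τ / t' * t' = τ := by field_simp
    rw [smul_add, smul_smul, h0, sub_smul, one_smul]
    abel
  have h1r : 0 ≤ 1 - τ / t' := by
    have := (div_le_one ht'pos).mpr ht'
    linarith
  have h2r : 0 ≤ τ / t' := by positivity
  have hconv : N (wh + τ • yh) ≤ (1 - τ / t') * N wh + (τ / t') * N (wh + t' • yh) := by
    rw [hsplit]
    refine (hNadd _ _).trans ?_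
    rw [hNhom (1 - τ / t'), hNhom (τ / t'), abs_of_nonneg h1r, abs_of_nonneg h2r]
  rw [hNwh] at hconv
  have h1 : 1 + c ≤ N (wh + τ • yh) := by linarith
  have hr : 0 < τ / t' := by positivity
  have hr1 : τ / t' ≤ 1 := (div_le_one ht'pos).mpr ht'
  have hge1 : 1 ≤ N (wh + t' • yh) := by
    by_contra hlt
    have hlt := not_le.mp hlt
    have : (1 - τ / t') * 1 + τ / t' * N (wh + t' • yh) < 1 := by nlinarith
    linarith
  nlinarith

/-- Rescaling identity for a step. -/
theorem ray_rescale (N : X → ℝ)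
    (hNhom : ∀ (a : ℝ) (x : X), N (a • x) = abs a * N x)
    {w y : X} (hw : 0 < N w) (hy : 0 < N y) :
    N (w + y) = N w * N ((N w)⁻¹ • w + (N y / N w) • ((N y)⁻¹ • y)) := by
  have : w + y = (N w) • ((N w)⁻¹ • w + (N y / N w) • ((N y)⁻¹ • y)) := by
    have h1 : N w * (N w)⁻¹ = 1 := by field_simp
    have h2 : N w * (N y / N w) * (N y)⁻¹ = 1 := by field_simp
    rw [smul_add, smul_smul, smul_smul, smul_smul, h1, one_smul, h2, one_smul]
  conv_lhs => rw [this]
  rw [hNhom, abs_of_pos hw]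

/-- Walks with bounded positions and steps of norm at least `κ`, almost in any prescribed closed
finite-codimensional subspace, forbid asymptotic uniform convexity of any equivalent norm. -/
theorem no_auc_of_walk (N : X → ℝ)
    (hNadd : ∀ x y : X, N (x + y) ≤ N x + N y)
    (hNhom : ∀ (a : ℝ) (x : X), N (a • x) = abs a * N x)
    (hNeq : ∃ a b : ℝ, 0 < a ∧ ∀ x : X, a * ‖x‖ ≤ N x ∧ N x ≤ b * ‖x‖)
    (hA : ∀ t : ℝ, 0 < t → ∃ c : ℝ, 0 < c ∧ ∀ x : X, N x = 1 → ∃ F : Set X, IsCofSet F ∧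
      ∀ y ∈ F, N y = 1 → c ≤ N (x + t • y) - 1)
    {κ C c₁ : ℝ} (hκ : 0 < κ) (hc₁ : 0 < c₁)
    (hwalk : ∀ n : ℕ, ∃ P : ℕ → Set X, (P 0).Nonempty ∧
      (∀ j ≤ n, ∀ x ∈ P j, c₁ ≤ ‖x‖ ∧ ‖x‖ ≤ C) ∧
      ∀ j < n, ∀ x ∈ P j, ∀ F : Set X, IsCofSet F → ∀ ε : ℝ, 0 < ε →
        ∃ x' ∈ P (j + 1), κ ≤ ‖x' - x‖ ∧ ∃ y ∈ F, ‖(x' - x) - y‖ < ε) : False := by
  obtain ⟨a, b, ha, hab⟩ := hNeq
  have hN0 : ∀ x, 0 ≤ N x := fun x => (mul_nonneg ha.le (norm_nonneg x)).trans (hab x).1
  -- `C` is positive since positions exist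
  obtain ⟨P0, hP0ne, hP0b, -⟩ := hwalk 0
  obtain ⟨x00, hx00⟩ := hP0ne
  have hC : 0 < C := by
    have := hP0b 0 le_rfl x00 hx00
    linarith [this.1, this.2]
  have hb : 0 < b := by
    have h1 := hab x00
    have h2 := hP0b 0 le_rfl x00 hx00
    have hx : 0 < ‖x00‖ := by linarith [h2.1]
    have : a * ‖x00‖ ≤ b * ‖x00‖ := h1.1.trans h1.2
    have h3 : 0 < a * ‖x00‖ := mul_pos ha hx
    by_contra hneg
    have hneg := not_lt.mp hneg
    have : b * ‖x00‖ ≤ 0 := mul_nonpos_of_nonpos_of_nonneg hneg hx.le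
    linarith
  set τ : ℝ := a * κ / (2 * b * (C + 1)) with hτdef
  have hτ : 0 < τ := by positivity
  obtain ⟨c, hc, hcA⟩ := hA τ hτ
  -- choose the length of the walk
  have hgrow : ∃ n : ℕ, b * (C + 1) < (1 + c) ^ n * (a * c₁) := by
    have h1 : Tendsto (fun n : ℕ => (1 + c) ^ n) atTop atTop :=
      tendsto_pow_atTop_atTop_of_one_lt (by linarith)
    have h2 := (h1.atTop_mul_const (mul_pos ha hc₁)).eventually_gt_atTop (b * (C + 1))
    exact h2.exists
  obtain ⟨n, hn⟩ := hgrow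
  obtain ⟨P, ⟨x0, hx0⟩, hPb, hstep⟩ := hwalk n
  set ε : ℝ := min (κ / 2) 1 / ((n : ℝ) + 1) with hεdef
  have hε : 0 < ε := by positivity
  have hεk : ∀ k : ℕ, k ≤ n → (k : ℝ) * ε ≤ 1 := by
    intro k hk
    have hk' : (k : ℝ) ≤ (n : ℝ) + 1 := by exact_mod_cast Nat.le_succ_of_le hk
    rw [hεdef]
    have h0 : (0 : ℝ) < (n : ℝ) + 1 := by positivity
    have h1 : min (κ / 2) 1 ≤ 1 := min_le_right _ _
    have h2 : (k : ℝ) * (min (κ / 2) 1 / ((n : ℝ) + 1))
        = (k : ℝ) / ((n : ℝ) + 1) * min (κ / 2) 1 := by ring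
    rw [h2]
    have h3 : (k : ℝ) / ((n : ℝ) + 1) ≤ 1 := (div_le_one h0).mpr hk'
    have h4 : 0 ≤ min (κ / 2) 1 := by positivity
    calc (k : ℝ) / ((n : ℝ) + 1) * min (κ / 2) 1 ≤ 1 * 1 :=
          mul_le_mul h3 h1 h4 zero_le_one
      _ = 1 := one_mul 1
  have hε2 : ε ≤ κ / 2 := by
    rw [hεdef]
    have h0 : (1 : ℝ) ≤ (n : ℝ) + 1 := by
      have : (0 : ℝ) ≤ (n : ℝ) := Nat.cast_nonneg n
      linarith
    calc min (κ / 2) 1 / ((n : ℝ) + 1) ≤ min (κ / 2) 1 := div_le_self (by positivity) h0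
      _ ≤ κ / 2 := min_le_left _ _
  have hNx0 : a * c₁ ≤ N x0 := by
    have := hPb 0 (Nat.zero_le n) x0 hx0
    have h2 := (hab x0).1
    nlinarith [this.1]
  have hinv : ∀ k : ℕ, k ≤ n → ∃ x ∈ P k, ∃ w : X, ‖w - x‖ ≤ (k : ℝ) * ε ∧
      (1 + c) ^ k * (a * c₁) ≤ N w := by
    intro k
    induction k with
    | zero =>
      intro _
      refine ⟨x0, hx0, x0, by simp, by simpa using hNx0⟩
    | succ k ih =>
      intro hk
      obtain ⟨x, hx, w, hw, hNw⟩ := ih (Nat.le_of_succ_le hk)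
      have hNwpos : 0 < N w := by
        refine lt_of_lt_of_le ?_ hNw
        have : 0 < 1 + c := by linarith
        positivity
      have hbdw : ‖w‖ ≤ C + 1 := by
        have h1 := (hPb k (Nat.le_of_succ_le hk) x hx).2
        have h2 := hεk k (Nat.le_of_succ_le hk)
        have h3 : ‖w‖ ≤ ‖w - x‖ + ‖x‖ := by
          simpa using norm_add_le (w - x) x
        linarith
      -- the normalised centre
      set wh : X := (N w)⁻¹ • w with hwh
      have hNwh : N wh = 1 := by
        rw [hwh, hNhom, abs_of_pos (inv_pos.mpr hNwpos)]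
        field_simp
      obtain ⟨F, hF, hFc⟩ := hcA wh hNwh
      obtain ⟨x', hx', hκx', y, hyF, hy⟩ := hstep k (Nat.lt_of_succ_le hk) x hx F hF ε hε
      -- properties of the step
      have hynorm : κ / 2 ≤ ‖y‖ := by
        have h1 : ‖x' - x‖ ≤ ‖(x' - x) - y‖ + ‖y‖ := by
          simpa using norm_add_le ((x' - x) - y) y
        linarith
      have hypos : 0 < ‖y‖ := by linarith
      have hNy : a * (κ / 2) ≤ N y := by
        have h1 := (hab y).1
        have h2 : a * (κ / 2) ≤ a * ‖y‖ := by gcongr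
        linarith
      have hNypos : 0 < N y := lt_of_lt_of_le (by positivity) hNy
      set yh : X := (N y)⁻¹ • y with hyh
      have hNyh : N yh = 1 := by
        rw [hyh, hNhom, abs_of_pos (inv_pos.mpr hNypos)]
        field_simp
      obtain ⟨S, hS, -, -⟩ := hF
      have hyhF : yh ∈ F := by
        have hyS : y ∈ S := by
          rw [← hS] at hyF; exact hyF
        have : yh ∈ S := S.smul_mem _ hyS
        rw [← hS]; exact this
      have hcτ := hFc yh hyhF hNyh
      -- ratio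
      set t' : ℝ := N y / N w with ht'
      have ht'τ : τ ≤ t' := by
        rw [hτdef, ht', div_le_div_iff₀ (by positivity) hNwpos]
        have h1 : N w ≤ b * (C + 1) := by
          have := (hab w).2
          have h2 : b * ‖w‖ ≤ b * (C + 1) := by gcongr
          linarith
        have hC1 : 0 < C + 1 := by linarith
        calc a * κ * N w ≤ a * κ * (b * (C + 1)) := by gcongr
          _ = a * (κ / 2) * (2 * b * (C + 1)) := by ring
          _ ≤ N y * (2 * b * (C + 1)) := by gcongr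
      have ht'pos : 0 < t' := lt_of_lt_of_le hτ ht'τ
      have hNwhy : 1 + c ≤ N (wh + t' • yh) :=
        ray_step N hNadd hNhom hτ hc hNwh hcτ ht'τ
      have hNnew : N (w + y) = N w * N (wh + t' • yh) :=
        ray_rescale N hNhom hNwpos hNypos
      refine ⟨x', hx', w + y, ?_, ?_⟩
      · have : w + y - x' = (w - x) - ((x' - x) - y) := by abel
        rw [this]
        calc ‖(w - x) - ((x' - x) - y)‖ ≤ ‖w - x‖ + ‖(x' - x) - y‖ := norm_sub_le _ _
          _ ≤ (k : ℝ) * ε + ε := by linarith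
          _ = ((k + 1 : ℕ) : ℝ) * ε := by push_cast; ring
      · rw [hNnew, pow_succ]
        have h0 : 0 < 1 + c := by linarith
        calc (1 + c) ^ k * (1 + c) * (a * c₁) = (1 + c) ^ k * (a * c₁) * (1 + c) := by ring
          _ ≤ N w * N (wh + t' • yh) := by
            apply mul_le_mul hNw hNwhy h0.le hNwpos.le
  obtain ⟨x, hx, w, hw, hNw⟩ := hinv n le_rfl
  have h1 : N w ≤ b * (C + 1) := by
    have h2 := (hPb n le_rfl x hx).2
    have h3 := hεk n le_rfl
    have h4 : ‖w‖ ≤ ‖w - x‖ + ‖x‖ := by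
      simpa using norm_add_le (w - x) x
    have h5 : ‖w‖ ≤ C + 1 := by linarith
    have h6 := (hab w).2
    have h7 : b * ‖w‖ ≤ b * (C + 1) := by gcongr
    linarith
  linarith

end Crest.Agent.Lib.AUC
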