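import Mathlib
import Crest.Prelude.Def_ModularData

set_option autoImplicit false

namespace Crest.Agent.Lib.BRCalc

open Crest.OpAlg MeasureTheory
open scoped InnerProductSpace ComplexConjugate

variable {H : Type*} [NormedAddCommGroup H] [InnerProductSpace ℂ H] [CompleteSpace H]

abbrev BCF := BoundedContinuousFunction ℝ ℂ

namespace Calc

variable (D : LineCalculus H)

lemma norm_apply_le (f : BCF) : ‖D.apply f‖ ≤ ‖f‖ :=
  NonUnitalStarAlgHom.norm_apply_le D.apply f

lemma norm_apply_apply_le (f : BCF) (z : H) : ‖D.apply f z‖ ≤ ‖f‖ * ‖z‖ :=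
  (ContinuousLinearMap.le_opNorm _ _).trans (by gcongr; exact norm_apply_le D f)

lemma apply_mul (f g : BCF) (z : H) : D.apply (f * g) z = D.apply f (D.apply g z) := by
  rw [map_mul]; rfl

lemma apply_comm (f g : BCF) (z : H) : D.apply f (D.apply g z) = D.apply g (D.apply f z) := by
  rw [← apply_mul, ← apply_mul, mul_comm]

lemma apply_one (z : H) : D.apply 1 z = z := by
  rw [map_one]; rfl

lemma apply_add (f g : BCF) (z : H) : D.apply (f + g) z = D.apply f z + D.apply g z := by
  rw [map_add]; rfl

lemma apply_sub (f g : BCF) (z : H) : D.apply (f - g) z = D.apply f z - D.apply g z := by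
  rw [map_sub]; rfl

lemma apply_zero (z : H) : D.apply 0 z = 0 := by
  rw [map_zero]; rfl

lemma apply_star (f : BCF) : D.apply (star f) = star (D.apply f) := map_star D.apply f

lemma inner_apply_left (f : BCF) (y z : H) : ⟪D.apply f y, z⟫_ℂ = ⟪y, D.apply (star f) z⟫_ℂ := by
  rw [apply_star, ContinuousLinearMap.star_eq_adjoint, ContinuousLinearMap.adjoint_inner_right]

lemma character_apply (t u : ℝ) : LineCalculus.character t u = Complex.exp (Complex.I * ((t * u : ℝ) : ℂ)) :=
  rfl

lemma character_zero : LineCalculus.character 0 = 1 := by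
  ext u; simp [character_apply]

lemma character_add (s t : ℝ) :
    LineCalculus.character (s + t) = LineCalculus.character s * LineCalculus.character t := by
  ext u
  simp only [character_apply, BoundedContinuousFunction.mul_apply, ← Complex.exp_add]
  congr 1
  push_cast
  ring

lemma character_star (t : ℝ) : star (LineCalculus.character t) = LineCalculus.character (-t) := by
  ext u
  simp only [BoundedContinuousFunction.star_apply, character_apply]
  rw [Complex.star_def, ← Complex.exp_conj]
  congr 1
  simp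

lemma wave_zero : D.wave 0 = 1 := by
  unfold LineCalculus.wave
  rw [character_zero, map_one]

lemma wave_add (s t : ℝ) : D.wave (s + t) = D.wave s * D.wave t := by
  unfold LineCalculus.wave
  rw [character_add, map_mul]

lemma wave_star (t : ℝ) : star (D.wave t) = D.wave (-t) := by
  unfold LineCalculus.wave
  rw [← apply_star, character_star]

lemma wave_neg_mul (t : ℝ) : D.wave (-t) * D.wave t = 1 := by
  rw [← wave_add, neg_add_cancel, wave_zero]

lemma wave_mul_neg (t : ℝ) : D.wave t * D.wave (-t) = 1 := by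
  rw [← wave_add, add_neg_cancel, wave_zero]

lemma wave_apply_neg (t : ℝ) (z : H) : D.wave t (D.wave (-t) z) = z := by
  have := wave_mul_neg D t
  have h2 : (D.wave t * D.wave (-t)) z = z := by rw [this]; rfl
  exact h2

lemma wave_neg_apply (t : ℝ) (z : H) : D.wave (-t) (D.wave t z) = z := by
  have := wave_neg_mul D t
  have h2 : (D.wave (-t) * D.wave t) z = z := by rw [this]; rfl
  exact h2

lemma norm_wave_apply (t : ℝ) (z : H) : ‖D.wave t z‖ = ‖z‖ := by
  have h1 : ‖D.wave t z‖ ^ 2 = ‖z‖ ^ 2 := by
    rw [← @inner_self_eq_norm_sq ℂ, ← @inner_self_eq_norm_sq ℂ]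
    congr 1
    have h2 : ⟪D.wave t z, D.wave t z⟫_ℂ = ⟪z, star (D.wave t) (D.wave t z)⟫_ℂ := by
      rw [ContinuousLinearMap.star_eq_adjoint, ContinuousLinearMap.adjoint_inner_right]
    rw [h2, wave_star, wave_neg_apply]
  exact (sq_eq_sq₀ (norm_nonneg _) (norm_nonneg _)).1 h1

lemma norm_wave_le (t : ℝ) : ‖D.wave t‖ ≤ 1 :=
  ContinuousLinearMap.opNorm_le_bound _ zero_le_one fun z => by
    rw [norm_wave_apply, one_mul]

lemma inner_wave_left (t : ℝ) (y z : H) : ⟪D.wave t y, z⟫_ℂ = ⟪y, D.wave (-t) z⟫_ℂ := by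
  rw [← wave_star, ContinuousLinearMap.star_eq_adjoint, ContinuousLinearMap.adjoint_inner_right]

lemma inner_wave_wave (t : ℝ) (y z : H) : ⟪D.wave t y, D.wave t z⟫_ℂ = ⟪y, z⟫_ℂ := by
  rw [inner_wave_left, wave_neg_apply]

lemma wave_comm_apply (t : ℝ) (f : BCF) (z : H) :
    D.wave t (D.apply f z) = D.apply f (D.wave t z) := by
  unfold LineCalculus.wave
  exact apply_comm D _ _ _

/-- The complex-valued BCF built from a compactly supported continuous function. -/
noncomputable def ofCompact (φ : ℝ → ℂ) (hc : Continuous φ) (hs : HasCompactSupport φ) : BCF :=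
  BoundedContinuousFunction.ofNormedAddCommGroup φ hc
    (hs.exists_bound_of_continuous hc).choose (hs.exists_bound_of_continuous hc).choose_spec

@[simp] lemma ofCompact_apply (φ : ℝ → ℂ) (hc : Continuous φ) (hs : HasCompactSupport φ) (u : ℝ) :
    ofCompact φ hc hs u = φ u := rfl

/-- Continuity of `t ↦ χₜ * g` for compactly supported `g`. -/
lemma continuous_char_mul (g : BCF) (hg : HasCompactSupport (g : ℝ → ℂ)) :
    Continuous (fun t : ℝ => LineCalculus.character t * g) := by
  obtain ⟨R, hR⟩ := hg.isCompact.isBounded.subset_closedBall (0:ℝ)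
  have hlip : ∀ s t : ℝ, ‖LineCalculus.character t * g - LineCalculus.character s * g‖ ≤
      (|R| * ‖g‖) * |t - s| := by
    intro s t
    rw [BoundedContinuousFunction.norm_le (by positivity)]
    intro u
    simp only [BoundedContinuousFunction.coe_sub, BoundedContinuousFunction.coe_mul, Pi.sub_apply,
      Pi.mul_apply, character_apply]
    by_cases hu : u ∈ tsupport (g : ℝ → ℂ)
    · have hu2 : |u| ≤ |R| := by
        have := hR hu
        simp only [Metric.mem_closedBall, dist_zero_right, Real.norm_eq_abs] at this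
        exact this.trans (le_abs_self R)
      have h1 : Complex.exp (Complex.I * ((t * u : ℝ) : ℂ)) * g u -
          Complex.exp (Complex.I * ((s * u : ℝ) : ℂ)) * g u =
          Complex.exp (Complex.I * ((s * u : ℝ) : ℂ)) *
            ((Complex.exp (Complex.I * (((t - s) * u : ℝ) : ℂ)) - 1) * g u) := by
        have : Complex.exp (Complex.I * ((t * u : ℝ) : ℂ)) =
            Complex.exp (Complex.I * ((s * u : ℝ) : ℂ)) *
              Complex.exp (Complex.I * (((t - s) * u : ℝ) : ℂ)) := by
          rw [← Complex.exp_add]; congr 1; push_cast; ring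
        rw [this]; ring
      rw [h1, norm_mul, Complex.norm_exp_I_mul_ofReal, one_mul, norm_mul]
      have h2 : ‖Complex.exp (Complex.I * (((t - s) * u : ℝ) : ℂ)) - 1‖ ≤ |t - s| * |R| := by
        refine Real.norm_exp_I_mul_ofReal_sub_one_le.trans ?_
        rw [Real.norm_eq_abs, abs_mul]
        gcongr
      have h3 : ‖g u‖ ≤ ‖g‖ := g.norm_coe_le_norm u
      calc _ ≤ (|t - s| * |R|) * ‖g‖ := by gcongr
        _ = _ := by ring
    · have : g u = 0 := image_eq_zero_of_notMem_tsupport hu
      simp only [this, mul_zero, sub_self, norm_zero]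
      positivity
  have : LipschitzWith (Real.toNNReal (|R| * ‖g‖)) (fun t : ℝ => LineCalculus.character t * g) := by
    refine LipschitzWith.of_dist_le_mul fun t s => ?_
    rw [dist_eq_norm, Real.coe_toNNReal _ (by positivity), Real.dist_eq]
    exact hlip s t
  exact this.continuous

/-- Strong continuity of the unitary group. -/
lemma continuous_wave (z : H) : Continuous (fun t : ℝ => D.wave t z) := by
  rw [Metric.continuous_iff]
  intro t ε hε
  obtain ⟨g, hgc, hg⟩ := D.window z (ε / 3) (by positivity)
  have hc := continuous_char_mul g hgc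
  have hcz : Continuous (fun s : ℝ => D.apply (LineCalculus.character s * g) z) := by
    have h1 : Continuous (fun c : BCF => D.apply c z) := by
      have : LipschitzWith (Real.toNNReal ‖z‖) (fun c : BCF => D.apply c z) := by
        refine LipschitzWith.of_dist_le_mul fun c d => ?_
        rw [dist_eq_norm, dist_eq_norm, Real.coe_toNNReal _ (norm_nonneg _), ← apply_sub, mul_comm]
        exact norm_apply_apply_le D _ _
      exact this.continuous
    exact h1.comp hc
  rw [Metric.continuous_iff] at hcz
  obtain ⟨δ, hδ, h⟩ := hcz t (ε / 3) (by positivity)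
  refine ⟨δ, hδ, fun s hs => ?_⟩
  have h1 := h s hs
  have hdec : ∀ r : ℝ, D.apply (LineCalculus.character r * g) z = D.wave r (D.apply g z) := by
    intro r
    rw [apply_mul]; rfl
  rw [hdec, hdec, dist_eq_norm] at h1
  rw [dist_eq_norm]
  have h2 : D.wave s z - D.wave t z = D.wave s (z - D.apply g z) +
      (D.wave s (D.apply g z) - D.wave t (D.apply g z)) + D.wave t (D.apply g z - z) := by
    simp only [map_sub]; abel
  rw [h2]
  have h3 : ‖D.wave s (z - D.apply g z)‖ < ε / 3 := by
    rw [norm_wave_apply, norm_sub_rev]; exact hg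
  have h4 : ‖D.wave t (D.apply g z - z)‖ < ε / 3 := by
    rw [norm_wave_apply]; exact hg
  calc _ ≤ ‖D.wave s (z - D.apply g z)‖ + ‖D.wave s (D.apply g z) - D.wave t (D.apply g z)‖ +
        ‖D.wave t (D.apply g z - z)‖ := norm_add₃_le
    _ < ε := by linarith

/-- The functional calculus as a continuous linear map. -/
noncomputable def applyCLM : BCF →L[ℂ] (H →L[ℂ] H) :=
  LinearMap.mkContinuous D.apply.toAlgHom.toLinearMap 1 (fun f => by
    simpa using norm_apply_le D f)

lemma applyCLM_apply (f : BCF) : applyCLM D f = D.apply f := rfl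

lemma continuous_wave_comp {y : ℝ → H} (hy : Continuous y) :
    Continuous (fun t : ℝ => D.wave t (y t)) := by
  rw [Metric.continuous_iff]
  intro t ε hε
  have h1 := continuous_wave D (y t)
  rw [Metric.continuous_iff] at h1 hy
  obtain ⟨δ₁, hδ₁, h1⟩ := h1 t (ε / 2) (by positivity)
  obtain ⟨δ₂, hδ₂, h2⟩ := hy t (ε / 2) (by positivity)
  refine ⟨min δ₁ δ₂, lt_min hδ₁ hδ₂, fun s hs => ?_⟩
  have h3 := h1 s (lt_of_lt_of_le hs (min_le_left _ _))
  have h4 := h2 s (lt_of_lt_of_le hs (min_le_right _ _))
  rw [dist_eq_norm] at h3 h4 ⊢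
  have h5 : D.wave s (y s) - D.wave t (y t) = D.wave s (y s - y t) + (D.wave s (y t) - D.wave t (y t)) := by
    rw [map_sub]; abel
  rw [h5]
  calc _ ≤ ‖D.wave s (y s - y t)‖ + ‖D.wave s (y t) - D.wave t (y t)‖ := norm_add_le _ _
    _ = ‖y s - y t‖ + ‖D.wave s (y t) - D.wave t (y t)‖ := by rw [norm_wave_apply]
    _ < ε := by linarith

lemma continuous_conj (a : H →L[ℂ] H) (z : H) :
    Continuous (fun t : ℝ => D.wave t (a (D.wave (-t) z))) := by
  refine continuous_wave_comp D (a.continuous.comp ?_)
  exact (continuous_wave D z).comp continuous_neg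

lemma integrable_smul_bdd {E : Type*} [NormedAddCommGroup E] [NormedSpace ℂ E]
    {κ : ℝ → ℂ} (hκ : Integrable κ)
    {F : ℝ → E} (hF : Continuous F) {C : ℝ} (hC : ∀ r, ‖F r‖ ≤ C) :
    Integrable (fun r => κ r • F r) := by
  have : MemLp F ⊤ volume := memLp_top_of_bound hF.aestronglyMeasurable C
    (Filter.Eventually.of_forall hC)
  exact hκ.smul_of_top_left this

lemma integrable_kappa_wave {κ : ℝ → ℂ} (hκ : Integrable κ) (b : ℝ) (w : H) :
    Integrable (fun r => κ r • D.wave (b * r) w) := by
  refine integrable_smul_bdd hκ ?_ (C := ‖w‖) (fun r => (norm_wave_apply D _ _).le)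
  exact (continuous_wave D w).comp (continuous_const.mul continuous_id)

lemma norm_integral_kappa_wave_le {κ : ℝ → ℂ} (hκ : Integrable κ) (b : ℝ) (w : H) :
    ‖∫ r, κ r • D.wave (b * r) w‖ ≤ (∫ r, ‖κ r‖) * ‖w‖ := by
  refine (norm_integral_le_of_norm_le (hκ.norm.mul_const ‖w‖)
    (Filter.Eventually.of_forall fun r => ?_)).trans ?_
  · rw [norm_smul, norm_wave_apply]
  · rw [integral_mul_const]

theorem integral_wave_eq (κ : ℝ → ℂ) (hκ : Integrable κ) (b : ℝ) (Ψ : BCF)
    (hΨ : ∀ u : ℝ, Ψ u = ∫ r, κ r * Complex.exp (Complex.I * ((b * r * u : ℝ) : ℂ))) (w : H) :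
    ∫ r, κ r • D.wave (b * r) w = D.apply Ψ w := by
  -- Step A : compactly supported cut-offs
  have hA : ∀ g : BCF, HasCompactSupport (g : ℝ → ℂ) → ∀ w' : H,
      ∫ r, κ r • D.wave (b * r) (D.apply g w') = D.apply Ψ (D.apply g w') := by
    intro g hg w'
    have hGc : Continuous (fun r : ℝ => LineCalculus.character (b * r) * g) :=
      (continuous_char_mul g hg).comp (continuous_const.mul continuous_id)
    have hGb : ∀ r : ℝ, ‖LineCalculus.character (b * r) * g‖ ≤ ‖g‖ := by
      intro r
      rw [BoundedContinuousFunction.norm_le (norm_nonneg _)]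
      intro u
      simp only [BoundedContinuousFunction.coe_mul, Pi.mul_apply, character_apply, norm_mul,
        Complex.norm_exp_I_mul_ofReal, one_mul]
      exact g.norm_coe_le_norm u
    have hFi : Integrable (fun r => κ r • (LineCalculus.character (b * r) * g)) :=
      integrable_smul_bdd hκ hGc hGb
    have hint : ∫ r, κ r • (LineCalculus.character (b * r) * g) = Ψ * g := by
      ext u
      have h1 := (BoundedContinuousFunction.evalCLM ℂ u).integral_comp_comm hFi
      simp only [BoundedContinuousFunction.evalCLM_apply] at h1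
      rw [← h1]
      simp only [BoundedContinuousFunction.coe_smul, character_apply,
        BoundedContinuousFunction.mul_apply]
      rw [hΨ u, ← integral_mul_const]
      refine integral_congr_ae (Filter.Eventually.of_forall fun r => ?_)
      simp only [smul_eq_mul]
      ring
    have h2 := (applyCLM D).integral_comp_comm hFi
    rw [hint] at h2
    have h3 := congrArg (fun T : H →L[ℂ] H => T w') h2
    simp only [applyCLM_apply] at h3
    rw [apply_mul] at h3
    rw [← h3]
    have hi3 : Integrable (fun r => D.apply (κ r • (LineCalculus.character (b * r) * g))) :=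
      (applyCLM D).integrable_comp hFi
    rw [ContinuousLinearMap.integral_apply hi3 w']
    refine integral_congr_ae (Filter.Eventually.of_forall fun r => ?_)
    show κ r • (D.wave (b * r)) ((D.apply g) w') =
      (D.apply (κ r • (LineCalculus.character (b * r) * g))) w'
    rw [map_smul, smul_apply, apply_mul]
    rfl
  -- Step C : density
  refine eq_of_norm_sub_le_zero ?_
  refine le_of_forall_pos_le_add fun ε hε => ?_
  set C : ℝ := (∫ r, ‖κ r‖) + ‖Ψ‖ + 1 with hCdef
  have hCpos : 0 < C := by
    have h1 : 0 ≤ ∫ r, ‖κ r‖ := integral_nonneg fun _ => norm_nonneg _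
    have h2 := norm_nonneg Ψ
    positivity
  obtain ⟨g, hgc, hg⟩ := D.window w (ε / C) (by positivity)
  have h1 := hA g hgc w
  have h2 : (∫ r, κ r • D.wave (b * r) w) - D.apply Ψ w =
      (∫ r, κ r • D.wave (b * r) (w - D.apply g w)) - D.apply Ψ (w - D.apply g w) := by
    have : ∫ r, κ r • D.wave (b * r) (w - D.apply g w) =
        (∫ r, κ r • D.wave (b * r) w) - ∫ r, κ r • D.wave (b * r) (D.apply g w) := by
      rw [← integral_sub (integrable_kappa_wave D hκ b _) (integrable_kappa_wave D hκ b _)]
      refine integral_congr_ae (Filter.Eventually.of_forall fun r => ?_)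
      simp only [map_sub, smul_sub]
    rw [this, h1, map_sub]
    abel
  rw [h2, zero_add]
  have h3 : ‖w - D.apply g w‖ < ε / C := by rw [norm_sub_rev]; exact hg
  have h4 := norm_integral_kappa_wave_le D hκ b (w - D.apply g w)
  have h5 := norm_apply_apply_le D Ψ (w - D.apply g w)
  have h6 : 0 ≤ ∫ r, ‖κ r‖ := integral_nonneg fun _ => norm_nonneg _
  calc _ ≤ ‖∫ r, κ r • D.wave (b * r) (w - D.apply g w)‖ + ‖D.apply Ψ (w - D.apply g w)‖ :=
        norm_sub_le _ _
    _ ≤ ((∫ r, ‖κ r‖) + ‖Ψ‖) * ‖w - D.apply g w‖ := by rw [add_mul]; linarith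
    _ ≤ C * ‖w - D.apply g w‖ := by
        gcongr; rw [hCdef]; linarith
    _ ≤ C * (ε / C) := by gcongr
    _ = ε := by field_simp

lemma apply_eq_of_supported {K : Set ℝ} {h : H} (hh : D.SupportedIn K h) (χ θ : BCF)
    (hχ : ∀ u ∈ K, χ u = θ u) : D.apply χ h = D.apply θ h := by
  have := hh (χ - θ) (fun u hu => by simp [hχ u hu])
  rw [apply_sub, sub_eq_zero] at this
  exact this

lemma supported_of_vanish {K : Set ℝ} (ψ : BCF) (hψ : ∀ u, u ∉ K → ψ u = 0) (w : H) :
    D.SupportedIn K (D.apply ψ w) := by
  intro f hf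
  rw [← apply_mul]
  have : f * ψ = 0 := by
    ext u
    simp only [BoundedContinuousFunction.coe_mul, Pi.mul_apply, BoundedContinuousFunction.coe_zero,
      Pi.zero_apply]
    by_cases hu : u ∈ K
    · rw [hf u hu, zero_mul]
    · rw [hψ u hu, mul_zero]
  rw [this, apply_zero]

end Calc

end Crest.Agent.Lib.BRCalc
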