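import Mathlib
import Crest.Prelude.Def_ModularData

set_option autoImplicit false

namespace Crest.Agent.Lib.BRMean

open MeasureTheory Filter
open scoped Topology

variable {E : Type*} [NormedAddCommGroup E] [NormedSpace ℝ E]

/-- The window average (in a general normed space). -/
noncomputable def wavg (F : ℝ → E) (k : ℕ) : E := ⨍ t in Set.Icc (-(k : ℝ)) (k : ℝ), F t

/-- The mean along an ultrafilter. -/
noncomputable def mean (ω : Ultrafilter ℕ) (F : ℝ → E) : E := limUnder (ω : Filter ℕ) (wavg F)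

lemma mean_eq_ultraMean (ω : Ultrafilter ℕ) (f : ℝ → ℝ) : Crest.OpAlg.ultraMean ω f = mean ω f := rfl

lemma volume_window (k : ℕ) : (volume (Set.Icc (-(k : ℝ)) (k : ℝ))).toReal = 2 * (k : ℝ) := by
  rw [Real.volume_Icc, ENNReal.toReal_ofReal (by
    have : (0:ℝ) ≤ k := Nat.cast_nonneg k
    linarith)]; ring

lemma wavg_eq (F : ℝ → E) (k : ℕ) :
    wavg F k = (2 * (k : ℝ))⁻¹ • ∫ t in (-(k : ℝ))..(k : ℝ), F t := by
  unfold wavg
  rw [setAverage_eq, integral_Icc_eq_integral_Ioc,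
    intervalIntegral.integral_of_le (by
      have : (0:ℝ) ≤ k := by positivity
      linarith)]
  congr 1
  simp only [Measure.real]
  rw [volume_window]

lemma norm_wavg_le {F : ℝ → E} {C : ℝ} (hC : ∀ t, ‖F t‖ ≤ C) (hC0 : 0 ≤ C) (k : ℕ) :
    ‖wavg F k‖ ≤ C := by
  rw [wavg_eq, norm_smul]
  rcases Nat.eq_zero_or_pos k with rfl | hk
  · simpa using hC0
  have hk' : (0:ℝ) < k := by exact_mod_cast hk
  have h1 : ‖∫ t in (-(k : ℝ))..(k : ℝ), F t‖ ≤ C * |(k : ℝ) - (-(k : ℝ))| :=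
    intervalIntegral.norm_integral_le_of_norm_le_const fun t _ => hC t
  have h2 : |(k : ℝ) - (-(k : ℝ))| = 2 * k := by
    rw [sub_neg_eq_add, abs_of_pos (by positivity)]; ring
  rw [h2] at h1
  rw [norm_inv, Real.norm_eq_abs, abs_of_pos (by positivity)]
  calc (2 * (k : ℝ))⁻¹ * ‖∫ t in (-(k : ℝ))..(k : ℝ), F t‖
      ≤ (2 * (k : ℝ))⁻¹ * (C * (2 * k)) := by gcongr
    _ = C := by field_simp

section proper

variable [ProperSpace E]

lemma tendsto_mean (ω : Ultrafilter ℕ) {F : ℝ → E} {C : ℝ} (hC : ∀ t, ‖F t‖ ≤ C) (hC0 : 0 ≤ C) :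
    Tendsto (wavg F) (ω : Filter ℕ) (𝓝 (mean ω F)) := by
  have hcomp : IsCompact (Metric.closedBall (0 : E) C) := isCompact_closedBall _ _
  have hmem : ((ω.map (wavg F) : Ultrafilter E) : Filter E) ≤ 𝓟 (Metric.closedBall (0 : E) C) := by
    rw [le_principal_iff]
    show Metric.closedBall (0 : E) C ∈ (ω.map (wavg F) : Filter E)
    rw [Ultrafilter.coe_map, mem_map]
    refine Filter.univ_mem' fun k => ?_
    simpa using norm_wavg_le hC hC0 k
  obtain ⟨x, _, hx⟩ := hcomp.ultrafilter_le_nhds _ hmem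
  have hx' : Tendsto (wavg F) (ω : Filter ℕ) (𝓝 x) := hx
  unfold mean
  rw [hx'.limUnder_eq]
  exact hx'

lemma mean_eq_of_tendsto (ω : Ultrafilter ℕ) {F : ℝ → E} {x : E}
    (h : Tendsto (wavg F) (ω : Filter ℕ) (𝓝 x)) : mean ω F = x := h.limUnder_eq

end proper

/-- Bounded continuous functions. -/
structure BC (F : ℝ → E) : Prop where
  cont : Continuous F
  bdd : ∃ C, 0 ≤ C ∧ ∀ t, ‖F t‖ ≤ C

lemma BC.intervalIntegrable {F : ℝ → E} (h : BC F) (a b : ℝ) : IntervalIntegrable F volume a b :=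
  h.cont.intervalIntegrable a b

lemma BC.add {F G : ℝ → E} (hF : BC F) (hG : BC G) : BC (fun t => F t + G t) := by
  refine ⟨hF.cont.add hG.cont, ?_⟩
  obtain ⟨C, hC0, hC⟩ := hF.bdd
  obtain ⟨D, hD0, hD⟩ := hG.bdd
  exact ⟨C + D, by positivity, fun t => (norm_add_le _ _).trans (add_le_add (hC t) (hD t))⟩

lemma BC.sub {F G : ℝ → E} (hF : BC F) (hG : BC G) : BC (fun t => F t - G t) := by
  refine ⟨hF.cont.sub hG.cont, ?_⟩
  obtain ⟨C, hC0, hC⟩ := hF.bdd
  obtain ⟨D, hD0, hD⟩ := hG.bdd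
  exact ⟨C + D, by positivity, fun t => (norm_sub_le _ _).trans (add_le_add (hC t) (hD t))⟩

lemma BC.const (c : E) : BC (fun _ : ℝ => c) :=
  ⟨continuous_const, ‖c‖, norm_nonneg _, fun _ => le_rfl⟩

lemma BC.shift {F : ℝ → E} (hF : BC F) (s : ℝ) : BC (fun t => F (t + s)) :=
  ⟨hF.cont.comp (continuous_id.add continuous_const), hF.bdd.imp fun _ h => ⟨h.1, fun t => h.2 _⟩⟩

lemma BC.neg_comp {F : ℝ → E} (hF : BC F) : BC (fun t => F (-t)) :=
  ⟨hF.cont.comp continuous_neg, hF.bdd.imp fun _ h => ⟨h.1, fun t => h.2 _⟩⟩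

lemma BC.clm {E' : Type*} [NormedAddCommGroup E'] [NormedSpace ℝ E'] {F : ℝ → E} (hF : BC F)
    (L : E →L[ℝ] E') : BC (fun t => L (F t)) := by
  refine ⟨L.continuous.comp hF.cont, ?_⟩
  obtain ⟨C, hC0, hC⟩ := hF.bdd
  exact ⟨‖L‖ * C, by positivity, fun t => (L.le_opNorm _).trans (by gcongr; exact hC t)⟩

lemma wavg_add {F G : ℝ → E} (hF : BC F) (hG : BC G) (k : ℕ) :
    wavg (fun t => F t + G t) k = wavg F k + wavg G k := by
  simp only [wavg_eq]
  rw [intervalIntegral.integral_add (hF.intervalIntegrable _ _) (hG.intervalIntegrable _ _), smul_add]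

lemma wavg_sub {F G : ℝ → E} (hF : BC F) (hG : BC G) (k : ℕ) :
    wavg (fun t => F t - G t) k = wavg F k - wavg G k := by
  simp only [wavg_eq]
  rw [intervalIntegral.integral_sub (hF.intervalIntegrable _ _) (hG.intervalIntegrable _ _), smul_sub]

lemma wavg_clm {E' : Type*} [NormedAddCommGroup E'] [NormedSpace ℝ E'] [CompleteSpace E]
    [CompleteSpace E'] {F : ℝ → E} (hF : BC F) (L : E →L[ℝ] E') (k : ℕ) :
    wavg (fun t => L (F t)) k = L (wavg F k) := by
  simp only [wavg_eq]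
  rw [map_smul, L.intervalIntegral_comp_comm (hF.intervalIntegrable _ _)]

section proper2

variable [ProperSpace E]

lemma BC.tendsto {F : ℝ → E} (hF : BC F) (ω : Ultrafilter ℕ) :
    Tendsto (wavg F) (ω : Filter ℕ) (𝓝 (mean ω F)) := by
  obtain ⟨C, hC0, hC⟩ := hF.bdd
  exact tendsto_mean ω hC hC0

lemma mean_add {F G : ℝ → E} (hF : BC F) (hG : BC G) (ω : Ultrafilter ℕ) :
    mean ω (fun t => F t + G t) = mean ω F + mean ω G := by
  refine mean_eq_of_tendsto ω ?_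
  have := (hF.tendsto ω).add (hG.tendsto ω)
  refine this.congr fun k => (wavg_add hF hG k).symm

lemma mean_sub {F G : ℝ → E} (hF : BC F) (hG : BC G) (ω : Ultrafilter ℕ) :
    mean ω (fun t => F t - G t) = mean ω F - mean ω G := by
  refine mean_eq_of_tendsto ω ?_
  have := (hF.tendsto ω).sub (hG.tendsto ω)
  refine this.congr fun k => (wavg_sub hF hG k).symm

lemma mean_clm {E' : Type*} [NormedAddCommGroup E'] [NormedSpace ℝ E'] [ProperSpace E']
    {F : ℝ → E} (hF : BC F) (L : E →L[ℝ] E') (ω : Ultrafilter ℕ) :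
    mean ω (fun t => L (F t)) = L (mean ω F) := by
  haveI : CompleteSpace E := complete_of_proper
  haveI : CompleteSpace E' := complete_of_proper
  refine mean_eq_of_tendsto ω ?_
  have h1 := (hF.tendsto ω)
  have h2 := (L.continuous.tendsto (mean ω F)).comp h1
  refine h2.congr fun k => ?_
  exact (wavg_clm hF L k).symm

lemma norm_mean_le {F : ℝ → E} {C : ℝ} (hC : ∀ t, ‖F t‖ ≤ C) (hC0 : 0 ≤ C) (ω : Ultrafilter ℕ) :
    ‖mean ω F‖ ≤ C := by
  have h1 := (tendsto_mean ω hC hC0).norm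
  exact le_of_tendsto h1 (Filter.univ_mem' fun k => norm_wavg_le hC hC0 k)

lemma wavg_const (c : E) {k : ℕ} (hk : 0 < k) : wavg (fun _ : ℝ => c) k = c := by
  rw [wavg_eq, intervalIntegral.integral_const, smul_smul]
  have hk' : (0:ℝ) < k := by exact_mod_cast hk
  have : (2 * (k:ℝ))⁻¹ * ((k:ℝ) - (-(k:ℝ))) = 1 := by field_simp; ring
  rw [this, one_smul]

lemma mean_const (ω : Ultrafilter ℕ) (hω : (ω : Filter ℕ) ≤ atTop) (c : E) :
    mean ω (fun _ : ℝ => c) = c := by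
  refine mean_eq_of_tendsto ω ?_
  refine tendsto_const_nhds.congr' ?_
  have : ∀ᶠ k : ℕ in (ω : Filter ℕ), 0 < k := hω (eventually_gt_atTop 0)
  filter_upwards [this] with k hk
  exact (wavg_const c hk).symm

lemma wavg_neg_comp (F : ℝ → E) (k : ℕ) : wavg (fun t => F (-t)) k = wavg F k := by
  simp only [wavg_eq]
  rw [intervalIntegral.integral_comp_neg, neg_neg]

lemma mean_neg_comp (ω : Ultrafilter ℕ) (F : ℝ → E) :
    mean ω (fun t => F (-t)) = mean ω F := by
  unfold mean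
  congr 1
  funext k
  exact wavg_neg_comp F k

lemma norm_wavg_shift_sub_le {F : ℝ → E} {C : ℝ} (hF : Continuous F) (hC : ∀ t, ‖F t‖ ≤ C)
    (s : ℝ) {k : ℕ} (hk : 0 < k) :
    ‖wavg (fun t => F (t + s)) k - wavg F k‖ ≤ |s| * C / k := by
  have hk' : (0:ℝ) < k := by exact_mod_cast hk
  simp only [wavg_eq]
  rw [intervalIntegral.integral_comp_add_right (fun t => F t) s, ← smul_sub,
    intervalIntegral.integral_interval_sub_interval_comm
      (hF.intervalIntegrable _ _) (hF.intervalIntegrable _ _) (hF.intervalIntegrable _ _),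
    norm_smul]
  have h1 : ‖∫ t in (-(k:ℝ) + s)..(-(k:ℝ)), F t‖ ≤ C * |(-(k:ℝ)) - (-(k:ℝ) + s)| :=
    intervalIntegral.norm_integral_le_of_norm_le_const fun t _ => hC t
  have h2 : ‖∫ t in ((k:ℝ) + s)..(k:ℝ), F t‖ ≤ C * |(k:ℝ) - ((k:ℝ) + s)| :=
    intervalIntegral.norm_integral_le_of_norm_le_const fun t _ => hC t
  have h3 : |(-(k:ℝ)) - (-(k:ℝ) + s)| = |s| := by
    rw [show (-(k:ℝ)) - (-(k:ℝ) + s) = -s by ring, abs_neg]
  have h4 : |(k:ℝ) - ((k:ℝ) + s)| = |s| := by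
    rw [show (k:ℝ) - ((k:ℝ) + s) = -s by ring, abs_neg]
  rw [h3] at h1
  rw [h4] at h2
  rw [norm_inv, Real.norm_eq_abs, abs_of_pos (by positivity)]
  have h5 := norm_sub_le (∫ t in (-(k:ℝ) + s)..(-(k:ℝ)), F t) (∫ t in ((k:ℝ) + s)..(k:ℝ), F t)
  have h6 : ‖(∫ t in (-(k:ℝ) + s)..(-(k:ℝ)), F t) - ∫ t in ((k:ℝ) + s)..(k:ℝ), F t‖ ≤ 2 * (|s| * C) := by
    linarith
  calc _ ≤ (2 * (k:ℝ))⁻¹ * (2 * (|s| * C)) := mul_le_mul_of_nonneg_left h6 (by positivity)
    _ = |s| * C / k := by field_simp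

lemma mean_shift {F : ℝ → E} (hF : BC F) (s : ℝ) (ω : Ultrafilter ℕ)
    (hω : (ω : Filter ℕ) ≤ atTop) : mean ω (fun t => F (t + s)) = mean ω F := by
  obtain ⟨C, hC0, hC⟩ := hF.bdd
  refine mean_eq_of_tendsto ω ?_
  have h1 := hF.tendsto ω
  have h2 : Tendsto (fun k : ℕ => wavg (fun t => F (t + s)) k - wavg F k) (ω : Filter ℕ) (𝓝 0) := by
    refine Tendsto.mono_left ?_ hω
    refine squeeze_zero_norm' ?_ (?_ : Tendsto (fun k : ℕ => |s| * C / k) atTop (𝓝 0))
    · filter_upwards [eventually_gt_atTop 0] with k hk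
      exact norm_wavg_shift_sub_le hF.cont hC s hk
    · exact tendsto_const_div_atTop_nhds_zero_nat _
  have h3 := h2.add h1
  rw [zero_add] at h3
  refine h3.congr fun k => ?_
  abel

lemma mean_smul {F : ℝ → E} (hF : BC F) (c : ℝ) (ω : Ultrafilter ℕ) :
    mean ω (fun t => c • F t) = c • mean ω F := by
  have := mean_clm (E' := E) hF (c • ContinuousLinearMap.id ℝ E) ω
  simpa using this

lemma BC.smul {F : ℝ → E} (hF : BC F) (c : ℝ) : BC (fun t => c • F t) :=
  hF.clm (c • ContinuousLinearMap.id ℝ E)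

lemma BC.sum {ι : Type*} (s : Finset ι) {F : ι → ℝ → E} (hF : ∀ i ∈ s, BC (F i)) :
    BC (fun t => ∑ i ∈ s, F i t) := by
  classical
  induction s using Finset.induction_on with
  | empty => simpa using BC.const (0 : E)
  | insert a s ha ih =>
    simp only [Finset.sum_insert ha]
    exact (hF a (Finset.mem_insert_self _ _)).add
      (ih fun i hi => hF i (Finset.mem_insert_of_mem hi))

lemma mean_sum {ι : Type*} (s : Finset ι) {F : ι → ℝ → E} (hF : ∀ i ∈ s, BC (F i))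
    (ω : Ultrafilter ℕ) (hω : (ω : Filter ℕ) ≤ atTop) :
    mean ω (fun t => ∑ i ∈ s, F i t) = ∑ i ∈ s, mean ω (F i) := by
  classical
  induction s using Finset.induction_on with
  | empty =>
    simp only [Finset.sum_empty]
    exact mean_const ω hω 0
  | insert a s ha ih =>
    simp only [Finset.sum_insert ha]
    rw [mean_add (hF a (Finset.mem_insert_self _ _))
      (BC.sum s fun i hi => hF i (Finset.mem_insert_of_mem hi)),
      ih fun i hi => hF i (Finset.mem_insert_of_mem hi)]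

end proper2

/-! ### real-valued means -/

lemma wavg_mono {F G : ℝ → ℝ} (hF : BC F) (hG : BC G) (h : ∀ t, F t ≤ G t) (k : ℕ) :
    wavg F k ≤ wavg G k := by
  simp only [wavg_eq, smul_eq_mul]
  have hk : (-(k:ℝ)) ≤ k := by
    have : (0:ℝ) ≤ k := Nat.cast_nonneg k
    linarith
  have h1 : (0:ℝ) ≤ (2 * (k:ℝ))⁻¹ := by positivity
  exact mul_le_mul_of_nonneg_left
    (intervalIntegral.integral_mono_on hk (hF.intervalIntegrable _ _) (hG.intervalIntegrable _ _)
      fun t _ => h t) h1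

lemma mean_mono {F G : ℝ → ℝ} (hF : BC F) (hG : BC G) (h : ∀ t, F t ≤ G t) (ω : Ultrafilter ℕ) :
    mean ω F ≤ mean ω G :=
  le_of_tendsto_of_tendsto' (hF.tendsto ω) (hG.tendsto ω) (wavg_mono hF hG h)

lemma mean_nonneg {F : ℝ → ℝ} (hF : BC F) (h : ∀ t, 0 ≤ F t) (ω : Ultrafilter ℕ)
    (hω : (ω : Filter ℕ) ≤ atTop) : 0 ≤ mean ω F := by
  have := mean_mono (BC.const 0) hF h ω
  rwa [mean_const ω hω] at this

end Crest.Agent.Lib.BRMean
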