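import Mathlib
import Crest.Prelude.Def_ModularData
import Crest.Agent.Lib.BRCalc

set_option autoImplicit false

namespace Crest.Agent.Lib.BRVac

open Crest.OpAlg MeasureTheory Crest.Agent.Lib.BRCalc Crest.Agent.Lib.BRCalc.Calc
open scoped InnerProductSpace ComplexConjugate Topology

variable {H : Type*} [NormedAddCommGroup H] [InnerProductSpace ℂ H] [CompleteSpace H]

/-- Conjugate-linear isometries reverse the inner product. -/
lemma inner_conjIso (J : H ≃ₗᵢ⋆[ℂ] H) (x y : H) : ⟪J x, J y⟫_ℂ = conj ⟪x, y⟫_ℂ := by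
  have hre : ∀ x y : H, RCLike.re ⟪J x, J y⟫_ℂ = RCLike.re ⟪x, y⟫_ℂ := by
    intro x y
    have h1 : ∀ u v : H, RCLike.re ⟪u, v⟫_ℂ = (‖u + v‖ ^ 2 - ‖u‖ ^ 2 - ‖v‖ ^ 2) / 2 := by
      intro u v
      have := @norm_add_sq ℂ H _ _ _ u v
      rw [this]; ring
    rw [h1, h1, ← map_add, J.norm_map, J.norm_map, J.norm_map]
  apply Complex.ext
  · rw [Complex.conj_re]; exact hre x y
  · have h2 := hre x (Complex.I • y)
    have h3 : J (Complex.I • y) = (-Complex.I) • J y := by
      rw [J.map_smulₛₗ]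
      simp
    rw [h3, inner_smul_right, inner_smul_right] at h2
    simp at h2
    rw [Complex.conj_im]
    exact h2

namespace MD

variable (S : ModularDatum H)

/-- Membership in the closed Tomita graph. -/
lemma mem_closure_iff (x w : H) (hw : S.D.HalfExp x w) :
    (x, S.J w) ∈ closure (Set.range fun a : S.M =>
      ((a : H →L[ℂ] H) S.vac, star (a : H →L[ℂ] H) S.vac)) := by
  rw [S.tomita]
  show S.D.HalfExp x (S.J (S.J w))
  rw [S.J_J]
  exact hw

lemma inner_closure {p : H × H} (hp : p ∈ closure (Set.range fun a : S.M =>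
      ((a : H →L[ℂ] H) S.vac, star (a : H →L[ℂ] H) S.vac))) :
    ⟪p.2, S.vac⟫_ℂ = ⟪S.vac, p.1⟫_ℂ := by
  have hcl : IsClosed {p : H × H | ⟪p.2, S.vac⟫_ℂ = ⟪S.vac, p.1⟫_ℂ} :=
    isClosed_eq (by fun_prop) (by fun_prop)
  refine closure_minimal ?_ hcl hp
  rintro _ ⟨a, rfl⟩
  show ⟪star (a : H →L[ℂ] H) S.vac, S.vac⟫_ℂ = ⟪S.vac, (a : H →L[ℂ] H) S.vac⟫_ℂ
  rw [ContinuousLinearMap.star_eq_adjoint, ContinuousLinearMap.adjoint_inner_left]

lemma halfExp_vac : S.D.HalfExp S.vac (S.J S.vac) := by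
  have hmem : (S.vac, S.vac) ∈ closure (Set.range fun a : S.M =>
      ((a : H →L[ℂ] H) S.vac, star (a : H →L[ℂ] H) S.vac)) := by
    refine subset_closure ⟨(1 : S.M), ?_⟩
    simp
  rw [S.tomita] at hmem
  exact hmem

/-- `f ↦ f · e^{u/2}` on compactly supported functions. -/
noncomputable def halfB (f : BCF) (hf : HasCompactSupport (f : ℝ → ℂ)) : BCF :=
  ofCompact (fun u => f u * ((Real.exp (u / 2) : ℝ) : ℂ)) (by
    have : Continuous (fun u : ℝ => ((Real.exp (u / 2) : ℝ) : ℂ)) := by fun_prop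
    exact f.continuous.mul this) (hf.mul_right)

/-- `f ↦ f · e^{u}` on compactly supported functions. -/
noncomputable def fullB (f : BCF) (hf : HasCompactSupport (f : ℝ → ℂ)) : BCF :=
  ofCompact (fun u => f u * ((Real.exp u : ℝ) : ℂ)) (by
    have : Continuous (fun u : ℝ => ((Real.exp u : ℝ) : ℂ)) := by fun_prop
    exact f.continuous.mul this) (hf.mul_right)

lemma star_compact (f : BCF) (hf : HasCompactSupport (f : ℝ → ℂ)) :
    HasCompactSupport ((star f : BCF) : ℝ → ℂ) := by
  refine hf.mono ?_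
  intro u hu h0
  apply hu
  simp [h0]

/-- The KMS-type identity `⟨ξ, f(D) e^{D} ξ⟩ = ⟨ξ, f(D) ξ⟩`. -/
lemma inner_fullB (f : BCF) (hf : HasCompactSupport (f : ℝ → ℂ)) :
    ⟪S.vac, S.D.apply (fullB f hf) S.vac⟫_ℂ = ⟪S.vac, S.D.apply f S.vac⟫_ℂ := by
  set h := halfB f hf with hh
  have h1 : S.D.HalfExp (S.D.apply f S.vac) (S.D.apply h S.vac) := by
    intro f₁ g₁ hg
    rw [← apply_mul, ← apply_mul]
    congr 2
    ext u
    simp only [BoundedContinuousFunction.coe_mul, Pi.mul_apply, hg u, hh, halfB, ofCompact_apply]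
    ring
  have h2 := inner_closure S (mem_closure_iff S _ _ h1)
  simp only at h2
  have h3 : ⟪S.J (S.D.apply h S.vac), S.vac⟫_ℂ = ⟪S.J S.vac, S.D.apply h S.vac⟫_ℂ := by
    calc ⟪S.J (S.D.apply h S.vac), S.vac⟫_ℂ
        = ⟪S.J (S.D.apply h S.vac), S.J (S.J S.vac)⟫_ℂ := by rw [S.J_J]
      _ = conj ⟪S.D.apply h S.vac, S.J S.vac⟫_ℂ := inner_conjIso _ _ _
      _ = ⟪S.J S.vac, S.D.apply h S.vac⟫_ℂ := inner_conj_symm _ _
  rw [h3] at h2
  have h4 : ⟪S.J S.vac, S.D.apply h S.vac⟫_ℂ = ⟪S.D.apply (star h) (S.J S.vac), S.vac⟫_ℂ := by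
    rw [inner_apply_left, star_star]
  have h5 : S.D.apply (star h) (S.J S.vac) = S.D.apply (star (fullB f hf)) S.vac := by
    refine halfExp_vac S (star h) (star (fullB f hf)) ?_
    intro u
    simp only [BoundedContinuousFunction.star_apply, hh, halfB, fullB, ofCompact_apply, star_mul']
    have h6 : ((Real.exp u : ℝ) : ℂ) = ((Real.exp (u / 2) : ℝ) : ℂ) * ((Real.exp (u / 2) : ℝ) : ℂ) := by
      rw [← Complex.ofReal_mul, ← Real.exp_add]; congr 2; ring
    rw [h6]
    simp only [Complex.star_def, Complex.conj_ofReal, map_mul]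
    ring
  rw [h4, h5, inner_apply_left, star_star] at h2
  exact h2

/-- Functions vanishing near zero annihilate the vacuum. -/
lemma apply_vac_eq_zero_of_vanish (g : BCF) (hg : HasCompactSupport (g : ℝ → ℂ)) (ε : ℝ)
    (hε : 0 < ε) (h0 : ∀ u, |u| < ε → g u = 0) : S.D.apply g S.vac = 0 := by
  have hne : ∀ u : ℝ, u ≠ 0 → Real.exp u - 1 ≠ 0 := by
    intro u hu h
    have : Real.exp u = 1 := by linarith
    exact hu (Real.exp_eq_one_iff u |>.1 this)
  set φ : ℝ → ℂ := fun u => star (g u) * g u / (((Real.exp u - 1 : ℝ)) : ℂ) with hφ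
  have hφc : Continuous φ := by
    rw [continuous_iff_continuousAt]
    intro u
    by_cases hu : u = 0
    · subst hu
      have hev : φ =ᶠ[𝓝 (0:ℝ)] fun _ => (0:ℂ) := by
        have : Metric.ball (0:ℝ) ε ∈ 𝓝 (0:ℝ) := Metric.ball_mem_nhds _ hε
        filter_upwards [this] with v hv
        have hv' : |v| < ε := by simpa using hv
        simp [hφ, h0 v hv']
      exact continuousAt_const.congr hev.symm
    · have h1 : Continuous (fun u : ℝ => star (g u) * g u) := by
        have : Continuous (fun u : ℝ => star (g u)) := g.continuous.star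
        exact this.mul g.continuous
      have h2 : Continuous (fun u : ℝ => (((Real.exp u - 1 : ℝ)) : ℂ)) := by fun_prop
      refine h1.continuousAt.div h2.continuousAt ?_
      exact_mod_cast hne u hu
  have hφs : HasCompactSupport φ := by
    refine hg.mono ?_
    intro u hu h1
    apply hu
    simp [hφ, h1]
  set k : BCF := ofCompact φ hφc hφs with hk
  have hkc : HasCompactSupport (k : ℝ → ℂ) := hφs
  have h1 := inner_fullB S k hkc
  have h2 : fullB k hkc - k = star g * g := by
    ext u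
    simp only [BoundedContinuousFunction.coe_sub, Pi.sub_apply, fullB, ofCompact_apply,
      BoundedContinuousFunction.coe_mul, Pi.mul_apply, BoundedContinuousFunction.star_apply, hk, hφ]
    by_cases hu : u = 0
    · subst hu
      simp [h0 0 (by simpa using hε)]
    · have h3 : (((Real.exp u - 1 : ℝ)) : ℂ) ≠ 0 := by exact_mod_cast hne u hu
      push_cast at h3 ⊢
      field_simp
      
  have h3 : ⟪S.vac, S.D.apply (star g * g) S.vac⟫_ℂ = 0 := by
    rw [← h2, apply_sub, inner_sub_right, h1, sub_self]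
  have h4 : ⟪S.D.apply g S.vac, S.D.apply g S.vac⟫_ℂ = 0 := by
    rw [inner_apply_left, ← apply_mul]
    exact h3
  exact inner_self_eq_zero.1 h4

/-- Functions vanishing at zero annihilate the vacuum. -/
lemma apply_vac_eq_zero (g : BCF) (hg : HasCompactSupport (g : ℝ → ℂ)) (h0 : g 0 = 0) :
    S.D.apply g S.vac = 0 := by
  refine norm_le_zero_iff.1 ?_
  refine le_of_forall_pos_le_add fun ε hε => ?_
  rw [zero_add]
  obtain ⟨δ, hδ, hδ2⟩ := Metric.continuous_iff.1 g.continuous 0 ε hε
  set ρ : ℝ → ℂ := fun u => ((min 1 (max 0 (2 * |u| / δ - 1)) : ℝ) : ℂ) with hρ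
  have hρc : Continuous ρ := by fun_prop
  have hgρc : Continuous (fun u => g u * ρ u) := g.continuous.mul hρc
  have hgρs : HasCompactSupport (fun u => g u * ρ u) := hg.mul_right
  set g₁ : BCF := ofCompact _ hgρc hgρs with hg₁
  have h1 : S.D.apply g₁ S.vac = 0 := by
    refine apply_vac_eq_zero_of_vanish S g₁ hgρs (δ / 2) (by positivity) ?_
    intro u hu
    simp only [hg₁, ofCompact_apply, hρ]
    have : 2 * |u| / δ - 1 ≤ 0 := by
      rw [sub_nonpos, div_le_one hδ]
      linarith
    rw [max_eq_left this]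
    simp
  have h2 : S.D.apply g S.vac = S.D.apply (g - g₁) S.vac := by
    rw [apply_sub, h1, sub_zero]
  rw [h2]
  have hb : ‖g - g₁‖ ≤ ε := by
    rw [BoundedContinuousFunction.norm_le hε.le]
    intro u
    simp only [BoundedContinuousFunction.coe_sub, Pi.sub_apply, hg₁, ofCompact_apply]
    by_cases hu : |u| < δ
    · have h3 : ‖g u‖ < ε := by
        have := hδ2 u (by simpa [Real.dist_eq] using hu)
        simpa [dist_eq_norm, h0] using this
      have h4 : g u - g u * ρ u = g u * (1 - ρ u) := by ring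
      rw [h4, norm_mul]
      have h5 : ‖1 - ρ u‖ ≤ 1 := by
        have h6 : (1 : ℂ) - ρ u = ((1 - min 1 (max 0 (2 * |u| / δ - 1)) : ℝ) : ℂ) := by
          simp [hρ]
        rw [h6, Complex.norm_real, Real.norm_eq_abs, abs_le]
        constructor
        · have := min_le_left 1 (max 0 (2 * |u| / δ - 1)); linarith
        · have : 0 ≤ min 1 (max 0 (2 * |u| / δ - 1)) := le_min zero_le_one (le_max_left _ _)
          linarith
      calc _ ≤ ε * 1 := by gcongr
        _ = ε := mul_one _
    · have h3 : 1 ≤ 2 * |u| / δ - 1 := by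
        push Not at hu
        have : 2 ≤ 2 * |u| / δ := by
          rw [le_div_iff₀ hδ]; linarith
        linarith
      have h4 : ρ u = 1 := by
        simp only [hρ]
        rw [max_eq_right (by linarith), min_eq_left h3]
        simp
      simp [h4, hε.le]
  have h6 := norm_apply_apply_le S.D (g - g₁) S.vac
  rw [S.norm_vac, mul_one] at h6
  exact h6.trans hb

/-- The vacuum is fixed by the modular group. -/
theorem wave_vac (t : ℝ) : S.D.wave t S.vac = S.vac := by
  refine eq_of_norm_sub_le_zero ?_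
  refine le_of_forall_pos_le_add fun ε hε => ?_
  rw [zero_add]
  obtain ⟨χ, hχc, hχ⟩ := S.D.window S.vac (ε / 2) (by positivity)
  set g : BCF := (LineCalculus.character t - 1) * χ with hg
  have hgc : HasCompactSupport (g : ℝ → ℂ) := by
    rw [hg, BoundedContinuousFunction.coe_mul]
    exact hχc.mul_left
  have hg0 : g 0 = 0 := by
    simp [hg, character_apply]
  have h1 := apply_vac_eq_zero S g hgc hg0
  have h2 : S.D.wave t (S.D.apply χ S.vac) = S.D.apply χ S.vac := by
    rw [hg, apply_mul, apply_sub, apply_one, sub_eq_zero] at h1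
    exact h1
  have h3 : S.D.wave t S.vac - S.vac = S.D.wave t (S.vac - S.D.apply χ S.vac) +
      (S.D.apply χ S.vac - S.vac) := by
    rw [map_sub, h2]; abel
  rw [h3]
  calc _ ≤ ‖S.D.wave t (S.vac - S.D.apply χ S.vac)‖ + ‖S.D.apply χ S.vac - S.vac‖ := norm_add_le _ _
    _ = ‖S.D.apply χ S.vac - S.vac‖ + ‖S.D.apply χ S.vac - S.vac‖ := by
        rw [norm_wave_apply, norm_sub_rev]
    _ ≤ ε := by linarith

end MD

end Crest.Agent.Lib.BRVac
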