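import Mathlib
import Crest.Prelude.Def_ModularData
import Crest.Agent.Lib.BRCalc
import Crest.Agent.Lib.BRVac
import Crest.Agent.Lib.BRMean

set_option autoImplicit false

namespace Crest.Agent.Lib.BRErg

open Crest.OpAlg MeasureTheory Filter Crest.Agent.Lib.BRCalc Crest.Agent.Lib.BRCalc.Calc
  Crest.Agent.Lib.BRMean Crest.Agent.Lib.BRVac
open scoped InnerProductSpace ComplexConjugate Topology

variable {H : Type*} [NormedAddCommGroup H] [InnerProductSpace ℂ H] [CompleteSpace H]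

/-- A bounded sesquilinear form is given by a bounded operator. -/
lemma exists_op_of_form (β : H → H → ℂ)
    (hadd1 : ∀ y y' z, β (y + y') z = β y z + β y' z)
    (hsmul1 : ∀ (c : ℂ) y z, β (c • y) z = conj c * β y z)
    (hadd2 : ∀ y z z', β y (z + z') = β y z + β y z')
    (hsmul2 : ∀ (c : ℂ) y z, β y (c • z) = c * β y z)
    (C : ℝ) (hC : ∀ y z, ‖β y z‖ ≤ C * ‖y‖ * ‖z‖) :
    ∃ A : H →L[ℂ] H, ∀ y z, ⟪y, A z⟫_ℂ = β y z := by
  let B₀ : H →ₛₗ[starRingEnd ℂ] H →ₗ[ℂ] ℂ :=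
    LinearMap.mk₂'ₛₗ (starRingEnd ℂ) (RingHom.id ℂ) β hadd1 hsmul1 hadd2 hsmul2
  let B : H →L⋆[ℂ] H →L[ℂ] ℂ := LinearMap.mkContinuous₂ B₀ C hC
  refine ⟨ContinuousLinearMap.adjoint (InnerProductSpace.continuousLinearMapOfBilin B), ?_⟩
  intro y z
  rw [ContinuousLinearMap.adjoint_inner_right, InnerProductSpace.continuousLinearMapOfBilin_apply]
  rfl

lemma mean_const_mul {F : ℝ → ℂ} (hF : BC F) (c : ℂ) (ω : Ultrafilter ℕ) :
    mean ω (fun t => c * F t) = c * mean ω F := by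
  have := mean_clm hF (ContinuousLinearMap.mul ℝ ℂ c) ω
  simpa using this

lemma BC.const_mul {F : ℝ → ℂ} (hF : BC F) (c : ℂ) : BC (fun t => c * F t) := by
  simpa using hF.clm (ContinuousLinearMap.mul ℝ ℂ c)

lemma BC.re {F : ℝ → ℂ} (hF : BC F) : BC (fun t => (F t).re) := by
  simpa using hF.clm Complex.reCLM

lemma mean_re {F : ℝ → ℂ} (hF : BC F) (ω : Ultrafilter ℕ) :
    mean ω (fun t => (F t).re) = (mean ω F).re := by
  simpa using mean_clm hF Complex.reCLM ω

namespace MD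

variable (S : ModularDatum H)

lemma flow_apply (t : ℝ) (a : H →L[ℂ] H) (z : H) :
    S.flow t a z = S.D.wave t (a (S.D.wave (-t) z)) := rfl

lemma norm_flow_apply_le (t : ℝ) (a : H →L[ℂ] H) (z : H) : ‖S.flow t a z‖ ≤ ‖a‖ * ‖z‖ := by
  rw [flow_apply, norm_wave_apply]
  calc _ ≤ ‖a‖ * ‖S.D.wave (-t) z‖ := a.le_opNorm _
    _ = ‖a‖ * ‖z‖ := by rw [norm_wave_apply]

lemma norm_flow_le (t : ℝ) (a : H →L[ℂ] H) : ‖S.flow t a‖ ≤ ‖a‖ :=
  ContinuousLinearMap.opNorm_le_bound _ (norm_nonneg _) (norm_flow_apply_le S t a)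

lemma flow_vac (t : ℝ) (a : H →L[ℂ] H) : S.flow t a S.vac = S.D.wave t (a S.vac) := by
  rw [flow_apply, MD.wave_vac]

lemma flow_mem {t : ℝ} {a : H →L[ℂ] H} (ha : a ∈ S.M) : S.flow t a ∈ S.M := S.flow_mem t a ha

lemma flow_zero (a : H →L[ℂ] H) : S.flow 0 a = a := by
  unfold ModularDatum.flow
  rw [neg_zero, wave_zero, one_mul, mul_one]

lemma flow_add (s t : ℝ) (a : H →L[ℂ] H) : S.flow (s + t) a = S.flow s (S.flow t a) := by
  unfold ModularDatum.flow
  rw [wave_add, neg_add, add_comm (-s), wave_add]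
  simp only [mul_assoc]

lemma flow_star (t : ℝ) (a : H →L[ℂ] H) : S.flow t (star a) = star (S.flow t a) := by
  unfold ModularDatum.flow
  rw [star_mul, star_mul, wave_star, wave_star, neg_neg, mul_assoc]

lemma flow_isSelfAdjoint (t : ℝ) {a : H →L[ℂ] H} (ha : IsSelfAdjoint a) :
    IsSelfAdjoint (S.flow t a) := by
  rw [isSelfAdjoint_iff, ← flow_star, ha.star_eq]

lemma flow_mul (t : ℝ) (a b : H →L[ℂ] H) : S.flow t (a * b) = S.flow t a * S.flow t b := by
  unfold ModularDatum.flow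
  have : S.D.wave t * a * S.D.wave (-t) * (S.D.wave t * b * S.D.wave (-t)) =
      S.D.wave t * a * (S.D.wave (-t) * S.D.wave t) * b * S.D.wave (-t) := by
    simp only [mul_assoc]
  rw [this, wave_neg_mul, mul_one]
  simp only [mul_assoc]

lemma inner_flow (s : ℝ) (a : H →L[ℂ] H) (y z : H) :
    ⟪y, S.flow s a z⟫_ℂ = ⟪S.D.wave (-s) y, a (S.D.wave (-s) z)⟫_ℂ := by
  rw [flow_apply, inner_wave_left, neg_neg]

lemma continuous_flow (a : H →L[ℂ] H) (z : H) : Continuous (fun t : ℝ => S.flow t a z) :=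
  continuous_conj S.D a z

lemma bc_inner_flow (a : H →L[ℂ] H) (y z : H) : BC (fun t : ℝ => ⟪y, S.flow t a z⟫_ℂ) := by
  refine ⟨continuous_const.inner (continuous_flow S a z), ‖y‖ * (‖a‖ * ‖z‖), by positivity, ?_⟩
  intro t
  calc _ ≤ ‖y‖ * ‖S.flow t a z‖ := norm_inner_le_norm _ _
    _ ≤ _ := by gcongr; exact norm_flow_apply_le S t a z

section ergodic

variable {S} (herg : S.Ergodic) (ω : Ultrafilter ℕ) (hω : (ω : Filter ℕ) ≤ atTop)

include herg hω in
/-- The ergodic mean of the flow. -/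
theorem mean_inner_flow {x : H →L[ℂ] H} (hx : x ∈ S.M) (y z : H) :
    mean ω (fun t => ⟪y, S.flow t x z⟫_ℂ) = ⟪S.vac, x S.vac⟫_ℂ * ⟪y, z⟫_ℂ := by
  -- the averaged form
  set β : H → H → ℂ := fun y z => mean ω (fun t => ⟪y, S.flow t x z⟫_ℂ) with hβ
  have hC : ∀ y z, ‖β y z‖ ≤ ‖x‖ * ‖y‖ * ‖z‖ := by
    intro y z
    refine norm_mean_le (fun t => ?_) (by positivity) ω
    calc _ ≤ ‖y‖ * ‖S.flow t x z‖ := norm_inner_le_norm _ _
      _ ≤ ‖y‖ * (‖x‖ * ‖z‖) := by gcongr; exact norm_flow_apply_le S t x z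
      _ = _ := by ring
  obtain ⟨A, hA⟩ := exists_op_of_form β
    (fun y y' z => by
      simp only [hβ, inner_add_left]
      exact mean_add (bc_inner_flow S x y z) (bc_inner_flow S x y' z) ω)
    (fun c y z => by
      simp only [hβ, inner_smul_left]
      exact mean_const_mul (bc_inner_flow S x y z) _ ω)
    (fun y z z' => by
      simp only [hβ, map_add, inner_add_right]
      exact mean_add (bc_inner_flow S x y z) (bc_inner_flow S x y z') ω)
    (fun c y z => by
      simp only [hβ, map_smul, inner_smul_right]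
      exact mean_const_mul (bc_inner_flow S x y z) _ ω)
    ‖x‖ hC
  -- `A ∈ M`
  have hAM : A ∈ S.M := by
    rw [← VonNeumannAlgebra.commutant_commutant S.M, VonNeumannAlgebra.mem_commutant_iff]
    intro g hg
    rw [VonNeumannAlgebra.mem_commutant_iff] at hg
    ext z
    refine ext_inner_left ℂ fun y => ?_
    show ⟪y, g (A z)⟫_ℂ = ⟪y, A (g z)⟫_ℂ
    rw [hA y (g z), ← ContinuousLinearMap.adjoint_inner_left, hA]
    simp only [hβ]
    congr 1
    funext t
    have h1 := hg _ (flow_mem S (t := t) hx)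
    have h2 : S.flow t x (g z) = g (S.flow t x z) := by
      have := congrArg (fun T : H →L[ℂ] H => T z) h1
      exact this
    rw [h2, ContinuousLinearMap.adjoint_inner_left]
  -- flow invariance
  have hAfix : ∀ s, S.flow s A = A := by
    intro s
    ext z
    refine ext_inner_left ℂ fun y => ?_
    rw [inner_flow, hA, hA]
    simp only [hβ]
    have h1 : ∀ t, ⟪S.D.wave (-s) y, S.flow t x (S.D.wave (-s) z)⟫_ℂ = ⟪y, S.flow (t + s) x z⟫_ℂ := by
      intro t
      rw [add_comm t s, flow_add, inner_flow S s]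
    simp only [h1]
    exact mean_shift (bc_inner_flow S x y z) s ω hω
  obtain ⟨c, hc⟩ := herg A hAM hAfix
  have hval : c = ⟪S.vac, x S.vac⟫_ℂ := by
    have h1 := hA S.vac S.vac
    rw [hc] at h1
    have h2 : ⟪S.vac, (c • (1 : H →L[ℂ] H)) S.vac⟫_ℂ = c := by
      simp only [ContinuousLinearMap.smul_apply, ContinuousLinearMap.one_apply, inner_smul_right,
        inner_self_eq_norm_sq_to_K, S.norm_vac]
      simp
    rw [h2] at h1
    rw [h1]
    simp only [hβ]
    have h3 : ∀ t, ⟪S.vac, S.flow t x S.vac⟫_ℂ = ⟪S.vac, x S.vac⟫_ℂ := by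
      intro t
      rw [inner_flow, MD.wave_vac]
    simp only [h3]
    exact mean_const ω hω _
  have h4 := hA y z
  rw [hc, hval] at h4
  show β y z = _
  rw [← h4]
  simp [inner_smul_right]

lemma bc_inner_wave (y ζ : H) : BC (fun t : ℝ => ⟪y, S.D.wave t ζ⟫_ℂ) := by
  refine ⟨continuous_const.inner (continuous_wave S.D ζ), ‖y‖ * ‖ζ‖, by positivity, ?_⟩
  intro t
  calc _ ≤ ‖y‖ * ‖S.D.wave t ζ‖ := norm_inner_le_norm _ _
    _ = _ := by rw [norm_wave_apply]

include herg hω in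
/-- The ergodic mean of the unitary group. -/
theorem mean_inner_wave (y ζ : H) :
    mean ω (fun t => ⟪y, S.D.wave t ζ⟫_ℂ) = ⟪S.vac, ζ⟫_ℂ * ⟪y, S.vac⟫_ℂ := by
  have hcl : IsClosed {ζ : H | mean ω (fun t => ⟪y, S.D.wave t ζ⟫_ℂ) = ⟪S.vac, ζ⟫_ℂ * ⟪y, S.vac⟫_ℂ} := by
    refine isClosed_eq ?_ (by fun_prop)
    refine (LipschitzWith.of_dist_le_mul (K := ⟨‖y‖, norm_nonneg _⟩) fun ζ ζ' => ?_).continuous
    rw [dist_eq_norm, ← mean_sub (bc_inner_wave y ζ) (bc_inner_wave y ζ')]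
    refine norm_mean_le (fun t => ?_) (by positivity) ω
    rw [← inner_sub_right, ← map_sub, dist_eq_norm]
    calc _ ≤ ‖y‖ * ‖S.D.wave t (ζ - ζ')‖ := norm_inner_le_norm _ _
      _ = _ := by rw [norm_wave_apply]; rfl
  have hd := S.cyclic
  have : ζ ∈ closure (Set.range fun a : S.M => (a : H →L[ℂ] H) S.vac) := hd ζ
  refine closure_minimal ?_ hcl this
  rintro _ ⟨a, rfl⟩
  show mean ω (fun t => ⟪y, S.D.wave t ((a : H →L[ℂ] H) S.vac)⟫_ℂ) = _
  have h1 : ∀ t, ⟪y, S.D.wave t ((a : H →L[ℂ] H) S.vac)⟫_ℂ = ⟪y, S.flow t (a : H →L[ℂ] H) S.vac⟫_ℂ := by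
    intro t; rw [flow_vac]
  simp only [h1]
  exact mean_inner_flow herg ω hω a.2 y S.vac

include herg hω in
/-- Convex combinations of the unitary group approximating the ergodic projection on two vectors. -/
theorem exists_convex (u₁ u₂ : H) {ε : ℝ} (hε : 0 < ε) :
    ∃ (n : ℕ) (l τ : Fin n → ℝ), (∀ j, 0 ≤ l j) ∧ ∑ j, l j = 1 ∧
      ‖∑ j, (l j : ℂ) • S.D.wave (τ j) u₁ - ⟪S.vac, u₁⟫_ℂ • S.vac‖ < ε ∧
      ‖∑ j, (l j : ℂ) • S.D.wave (τ j) u₂ - ⟪S.vac, u₂⟫_ℂ • S.vac‖ < ε := by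
  set s : ℝ → H × H := fun t => (S.D.wave t u₁, S.D.wave t u₂) with hs
  set p : H × H := (⟪S.vac, u₁⟫_ℂ • S.vac, ⟪S.vac, u₂⟫_ℂ • S.vac) with hp
  have hmem : p ∈ closure (convexHull ℝ (Set.range s)) := by
    by_contra hne
    obtain ⟨f, u, hfu, hfb⟩ := geometric_hahn_banach_point_closed
      (convex_convexHull ℝ (Set.range s)).closure isClosed_closure hne
    -- Riesz representation of the two components
    set f₁ : StrongDual ℝ H := f.comp (ContinuousLinearMap.inl ℝ H H) with hf₁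
    set f₂ : StrongDual ℝ H := f.comp (ContinuousLinearMap.inr ℝ H H) with hf₂
    set y₁ : H := (InnerProductSpace.toDual ℂ H).symm (StrongDual.extendRCLike (𝕜 := ℂ) f₁) with hy₁
    set y₂ : H := (InnerProductSpace.toDual ℂ H).symm (StrongDual.extendRCLike (𝕜 := ℂ) f₂) with hy₂
    have hr₁ : ∀ z, f₁ z = (⟪y₁, z⟫_ℂ).re := by
      intro z
      rw [hy₁, InnerProductSpace.toDual_symm_apply, StrongDual.extendRCLike_apply]
      simp
    have hr₂ : ∀ z, f₂ z = (⟪y₂, z⟫_ℂ).re := by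
      intro z
      rw [hy₂, InnerProductSpace.toDual_symm_apply, StrongDual.extendRCLike_apply]
      simp
    have hsplit : ∀ a b : H, f (a, b) = (⟪y₁, a⟫_ℂ).re + (⟪y₂, b⟫_ℂ).re := by
      intro a b
      rw [← hr₁, ← hr₂, hf₁, hf₂]
      simp only [ContinuousLinearMap.comp_apply, ContinuousLinearMap.inl_apply,
        ContinuousLinearMap.inr_apply]
      rw [← map_add]
      simp
    have h1 : ∀ t, u < (⟪y₁, S.D.wave t u₁⟫_ℂ).re + (⟪y₂, S.D.wave t u₂⟫_ℂ).re := by
      intro t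
      rw [← hsplit]
      exact hfb _ (subset_closure (subset_convexHull ℝ _ ⟨t, rfl⟩))
    have hbc : BC (fun t => (⟪y₁, S.D.wave t u₁⟫_ℂ).re + (⟪y₂, S.D.wave t u₂⟫_ℂ).re) :=
      (BC.re (bc_inner_wave y₁ u₁)).add (BC.re (bc_inner_wave y₂ u₂))
    have h2 : u ≤ mean ω (fun t => (⟪y₁, S.D.wave t u₁⟫_ℂ).re + (⟪y₂, S.D.wave t u₂⟫_ℂ).re) := by
      have := mean_mono (BC.const u) hbc (fun t => (h1 t).le) ω
      rwa [mean_const ω hω] at this
    rw [mean_add (BC.re (bc_inner_wave y₁ u₁)) (BC.re (bc_inner_wave y₂ u₂)),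
      mean_re (bc_inner_wave y₁ u₁), mean_re (bc_inner_wave y₂ u₂),
      mean_inner_wave herg ω hω, mean_inner_wave herg ω hω] at h2
    have h3 := hsplit (⟪S.vac, u₁⟫_ℂ • S.vac) (⟪S.vac, u₂⟫_ℂ • S.vac)
    rw [← hp] at h3
    rw [h3, inner_smul_right, inner_smul_right] at hfu
    linarith
  obtain ⟨x, hx, hdist⟩ := Metric.mem_closure_iff.1 hmem ε hε
  obtain ⟨ι, _, w, z, hw0, hw1, hz, rfl⟩ := mem_convexHull_iff_exists_fintype.1 hx
  choose τ' hτ' using hz
  rw [dist_eq_norm, Prod.norm_def] at hdist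
  have hd := (max_lt_iff.1 hdist)
  let e := Fintype.equivFin ι
  refine ⟨Fintype.card ι, w ∘ e.symm, τ' ∘ e.symm, fun j => hw0 _, ?_, ?_, ?_⟩
  · rw [← hw1]
    exact Equiv.sum_comp e.symm w
  · have h1 := hd.1
    rw [Prod.fst_sub, norm_sub_rev] at h1
    have h2 : ∑ j, ((w ∘ e.symm) j : ℂ) • S.D.wave ((τ' ∘ e.symm) j) u₁ =
        (∑ i, w i • z i).1 := by
      rw [Prod.fst_sum]
      refine (Equiv.sum_comp e.symm (fun i => (w i : ℂ) • S.D.wave (τ' i) u₁)).trans ?_
      refine Finset.sum_congr rfl fun i _ => ?_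
      rw [← hτ' i, Prod.smul_fst]
      simp only [hs]
      exact Complex.coe_smul (w i) _
    rw [h2]
    simpa [hp] using h1
  · have h1 := hd.2
    rw [Prod.snd_sub, norm_sub_rev] at h1
    have h2 : ∑ j, ((w ∘ e.symm) j : ℂ) • S.D.wave ((τ' ∘ e.symm) j) u₂ =
        (∑ i, w i • z i).2 := by
      rw [Prod.snd_sum]
      refine (Equiv.sum_comp e.symm (fun i => (w i : ℂ) • S.D.wave (τ' i) u₂)).trans ?_
      refine Finset.sum_congr rfl fun i _ => ?_
      rw [← hτ' i, Prod.smul_snd]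
      simp only [hs]
      exact Complex.coe_smul (w i) _
    rw [h2]
    simpa [hp] using h1

end ergodic

/-- The flow preserves the commutant. -/
lemma flow_commutant {b : H →L[ℂ] H} (hb : b ∈ S.M.commutant) (t : ℝ) :
    S.flow t b ∈ S.M.commutant := by
  rw [VonNeumannAlgebra.mem_commutant_iff] at hb ⊢
  intro g hg
  have h1 := hb _ (flow_mem S (t := -t) hg)
  have h2 : g = S.flow t (S.flow (-t) g) := by
    rw [← flow_add, add_neg_cancel, flow_zero]
  conv_lhs => rw [h2]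
  conv_rhs => rw [h2]
  rw [← flow_mul, ← flow_mul, h1]

/-- The vacuum is cyclic for the commutant. -/
theorem commutant_cyclic (k : H) {ε : ℝ} (hε : 0 < ε) :
    ∃ b ∈ S.M.commutant, ‖k - b S.vac‖ < ε := by
  classical
  let L₀ : Submodule ℂ H :=
    { carrier := {z | ∃ b ∈ S.M.commutant, b S.vac = z}
      add_mem' := by
        rintro _ _ ⟨a, ha, rfl⟩ ⟨b, hb, rfl⟩
        exact ⟨a + b, add_mem ha hb, rfl⟩
      zero_mem' := ⟨0, zero_mem _, rfl⟩
      smul_mem' := by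
        rintro c _ ⟨a, ha, rfl⟩
        refine ⟨(algebraMap ℂ (H →L[ℂ] H) c) * a, mul_mem (by
          rw [VonNeumannAlgebra.mem_commutant_iff]
          intro g _
          exact (Algebra.commutes c g).symm) ha, ?_⟩
        simp [Algebra.algebraMap_eq_smul_one] }
  let L := L₀.topologicalClosure
  haveI : CompleteSpace L := L₀.isClosed_topologicalClosure.completeSpace_coe
  set e : H →L[ℂ] H := L.starProjection with he
  have hproj : IsStarProjection e := isStarProjection_starProjection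
  have hinv : ∀ y ∈ S.M.commutant, e.range ∈ Module.End.invtSubmodule (y : H →ₗ[ℂ] H) := by
    intro y hy
    have hrange : e.range = L := by
      rw [he]
      exact Submodule.range_starProjection L
    rw [hrange, Module.End.mem_invtSubmodule]
    intro z hz
    have hz' : z ∈ closure (L₀ : Set H) := hz
    show y z ∈ closure (L₀ : Set H)
    refine map_mem_closure y.continuous hz' ?_
    rintro _ ⟨b, hb, rfl⟩
    exact ⟨y * b, mul_mem hy hb, rfl⟩
  have heM : e ∈ S.M := (VonNeumannAlgebra.IsStarProjection.mem_iff hproj S.M).2 hinv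
  have h1 : (1 - e) ∈ S.M := sub_mem (one_mem _) heM
  have hvacL : S.vac ∈ L := by
    apply Submodule.le_topologicalClosure
    exact ⟨1, one_mem _, rfl⟩
  have h2 : (1 - e) S.vac = 0 := by
    have : e S.vac = S.vac := Submodule.starProjection_eq_self_iff.2 hvacL
    simp [this]
  have h3 := S.separating _ h1 h2
  have hkL : k ∈ L := by
    have h4 : e k = k := by
      have := congrArg (fun T : H →L[ℂ] H => T k) h3
      simpa [sub_eq_zero] using (sub_eq_zero.1 this).symm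
    rw [← h4]
    exact Submodule.starProjection_apply_mem L k
  have hkcl : k ∈ closure (L₀ : Set H) := hkL
  obtain ⟨_, ⟨b, hb, rfl⟩, hd⟩ := Metric.mem_closure_iff.1 hkcl ε hε
  exact ⟨b, hb, by rwa [← dist_eq_norm]⟩

/-- The vector states of the commutant. -/
lemma inner_wave_commutant {b : H →L[ℂ] H} (hb : b ∈ S.M.commutant) {x : H →L[ℂ] H} (hx : x ∈ S.M)
    (t : ℝ) :
    ⟪S.D.wave t (b S.vac), x (S.D.wave t (b S.vac))⟫_ℂ =
      ⟪S.D.wave t ((star b * b) S.vac), x S.vac⟫_ℂ := by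
  have h1 : S.D.wave t (b S.vac) = S.flow t b S.vac := (flow_vac S t b).symm
  have h2 := VonNeumannAlgebra.mem_commutant_iff.1 (flow_commutant S hb t) x hx
  have h3 : x (S.flow t b S.vac) = S.flow t b (x S.vac) :=
    congrArg (fun T : H →L[ℂ] H => T S.vac) h2
  have h4 : star (S.flow t b) (S.flow t b S.vac) = S.D.wave t ((star b * b) S.vac) := by
    rw [← flow_vac, flow_mul, flow_star]
    rfl
  rw [h1, h3, ← ContinuousLinearMap.adjoint_inner_left, ← ContinuousLinearMap.star_eq_adjoint, h4]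

end MD

end Crest.Agent.Lib.BRErg
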