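import Mathlib

set_option autoImplicit false

namespace Crest.Agent.Lib.BRGauss

open MeasureTheory ProbabilityTheory
open scoped NNReal RealInnerProductSpace

/-- The standard Gaussian probability measure on `ℝⁿ`. -/
noncomputable def gam (n : ℕ) : Measure (Fin n → ℝ) := Measure.pi (fun _ => gaussianReal 0 1)

instance (n : ℕ) : IsProbabilityMeasure (gam n) := by
  unfold gam; infer_instance

lemma pdf_eq : gaussianPDFReal 0 1 = fun x : ℝ =>
      (√(2 * Real.pi * ((1 : ℝ≥0) : ℝ)))⁻¹ * Real.exp (-(1/2) * x ^ 2) := by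
  ext x; rw [gaussianPDFReal_def]
  have : -(x - 0) ^ 2 / (2 * ((1 : ℝ≥0) : ℝ)) = -(1/2) * x ^ 2 := by
    simp only [sub_zero, NNReal.coe_one]; ring
  show (√(2 * Real.pi * ((1 : ℝ≥0) : ℝ)))⁻¹ * Real.exp (-(x - 0) ^ 2 / (2 * ((1 : ℝ≥0) : ℝ))) = _
  rw [this]

lemma hasDerivAt_pdf (t : ℝ) :
    HasDerivAt (gaussianPDFReal 0 1) (-t * gaussianPDFReal 0 1 t) t := by
  rw [pdf_eq]
  have h1 : HasDerivAt (fun x : ℝ => -(1/2) * x ^ 2) (-t) t := by
    have h0 : HasDerivAt (fun x : ℝ => x ^ 2) (2 * t) t := by simpa using hasDerivAt_pow 2 t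
    exact (h0.const_mul (-(1/2) : ℝ)).congr_deriv (by ring)
  have h2 := (h1.exp).const_mul ((√(2 * Real.pi * ((1 : ℝ≥0) : ℝ)))⁻¹)
  exact h2.congr_deriv (by simp only []; ring)

lemma integrable_mul_pdf : Integrable (fun t : ℝ => t * gaussianPDFReal 0 1 t) := by
  rw [pdf_eq]
  have := (integrable_mul_exp_neg_mul_sq (b := 1/2) (by norm_num)).const_mul
    ((√(2 * Real.pi * ((1 : ℝ≥0) : ℝ)))⁻¹)
  refine this.congr (Filter.Eventually.of_forall fun x => ?_)
  simp only []
  ring

lemma integrable_smul_bdd {E : Type*} [NormedAddCommGroup E] [NormedSpace ℝ E] {φ : ℝ → ℝ}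
    (hφ : Integrable φ) {f : ℝ → E} (hf : Continuous f) {C : ℝ} (hC : ∀ t, ‖f t‖ ≤ C) :
    Integrable (fun t => φ t • f t) := by
  have : MemLp f ⊤ volume := memLp_top_of_bound hf.aestronglyMeasurable C
    (Filter.Eventually.of_forall hC)
  exact hφ.smul_of_top_left this

/-- One-dimensional Gaussian integration by parts. -/
lemma gauss_ibp_1d {E : Type*} [NormedAddCommGroup E] [NormedSpace ℝ E] (f f' : ℝ → E) (C C' : ℝ)
    (hf : ∀ t, HasDerivAt f (f' t) t) (hf'c : Continuous f') (hC : ∀ t, ‖f t‖ ≤ C)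
    (hC' : ∀ t, ‖f' t‖ ≤ C') :
    ∫ t, t • f t ∂(gaussianReal 0 1) = ∫ t, f' t ∂(gaussianReal 0 1) := by
  have hfc : Continuous f := continuous_iff_continuousAt.2 fun t => (hf t).continuousAt
  rw [integral_gaussianReal_eq_integral_smul (by norm_num), integral_gaussianReal_eq_integral_smul (by norm_num)]
  have key := integral_bilinear_hasDerivAt_right_eq_neg_left_of_integrable
    (L := (ContinuousLinearMap.lsmul ℝ ℝ : ℝ →L[ℝ] E →L[ℝ] E))
    (u := gaussianPDFReal 0 1) (v := f) (u' := fun t => -t * gaussianPDFReal 0 1 t) (v' := f')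
    (fun x _ => hasDerivAt_pdf x) (fun x _ => hf x) ?_ ?_ ?_
  · simp only [ContinuousLinearMap.lsmul_apply] at key
    rw [key, ← integral_neg]
    refine integral_congr_ae (Filter.Eventually.of_forall fun t => ?_)
    simp only [neg_mul, neg_smul, neg_neg, smul_smul]
    congr 1
    ring
  · simp only [ContinuousLinearMap.lsmul_apply]
    exact integrable_smul_bdd (integrable_gaussianPDFReal 0 1) hf'c hC'
  · simp only [ContinuousLinearMap.lsmul_apply]
    have h1 : Integrable (fun t : ℝ => -t * gaussianPDFReal 0 1 t) := by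
      simpa [neg_mul] using integrable_mul_pdf.neg
    exact integrable_smul_bdd h1 hfc hC
  · simp only [ContinuousLinearMap.lsmul_apply]
    exact integrable_smul_bdd (integrable_gaussianPDFReal 0 1) hfc hC

lemma hmp_eval {n : ℕ} (j : Fin n) :
    MeasurePreserving (Function.eval j) (gam n) (gaussianReal 0 1) :=
  measurePreserving_eval (fun _ : Fin n => gaussianReal 0 1) j

lemma integrable_id_gauss : Integrable (fun x : ℝ => x) (gaussianReal 0 1) :=
  (memLp_id_gaussianReal (μ := 0) (v := 1) 1).integrable (by norm_num)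

lemma integrable_coord {n : ℕ} (j : Fin n) : Integrable (fun g : Fin n → ℝ => g j) (gam n) :=
  (hmp_eval j).integrable_comp_of_integrable integrable_id_gauss

lemma memLp_coord {n : ℕ} (j : Fin n) : MemLp (fun g : Fin n → ℝ => g j) 2 (gam n) := by
  have h1 : MemLp (fun x : ℝ => x) 2 (gaussianReal 0 1) :=
    memLp_id_gaussianReal (μ := 0) (v := 1) 2
  exact h1.comp_measurePreserving (hmp_eval j)

lemma integrable_coord_mul {n : ℕ} (j k : Fin n) :
    Integrable (fun g : Fin n → ℝ => g j * g k) (gam n) :=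
  (memLp_coord j).integrable_mul (memLp_coord k)

lemma integral_comp_coord {n : ℕ} (j : Fin n) (φ : ℝ → ℝ) (hφ : Continuous φ) :
    ∫ g : Fin n → ℝ, φ (g j) ∂(gam n) = ∫ x, φ x ∂(gaussianReal 0 1) := by
  have hmp := hmp_eval j
  rw [← hmp.map_eq, integral_map hmp.aemeasurable hφ.aestronglyMeasurable]

lemma integral_coord {n : ℕ} (j : Fin n) : ∫ g : Fin n → ℝ, g j ∂(gam n) = 0 := by
  rw [integral_comp_coord j (fun x => x) continuous_id]
  exact integral_id_gaussianReal

lemma integral_coord_sq {n : ℕ} (j : Fin n) : ∫ g : Fin n → ℝ, g j * g j ∂(gam n) = 1 := by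
  rw [integral_comp_coord j (fun x => x * x) (by fun_prop)]
  have h := variance_fun_id_gaussianReal (μ := 0) (v := 1)
  have h2 : MemLp (fun x : ℝ => x) 2 (gaussianReal 0 1) :=
    memLp_id_gaussianReal (μ := 0) (v := 1) 2
  rw [variance_eq_sub h2] at h
  have h3 : ∫ x, x ∂(gaussianReal 0 1) = 0 := integral_id_gaussianReal
  simp only [h3] at h
  norm_num at h
  have h4 : ∫ x, x * x ∂(gaussianReal 0 1) = ∫ x, x ^ 2 ∂(gaussianReal 0 1) := by
    congr 1; ext x; ring
  rw [h4]
  simpa using h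

lemma integral_coord_mul {n : ℕ} (j k : Fin n) :
    ∫ g : Fin n → ℝ, g j * g k ∂(gam n) = if j = k then 1 else 0 := by
  split_ifs with h
  · subst h; exact integral_coord_sq j
  · have hind : iIndepFun (fun (i : Fin n) (g : Fin n → ℝ) => g i) (gam n) := by
      have := iIndepFun_pi (μ := fun _ : Fin n => gaussianReal 0 1) (X := fun _ x => x)
        (fun _ => aemeasurable_id)
      exact this
    have := (hind.indepFun h).integral_fun_mul_eq_mul_integral
      (integrable_coord j).aestronglyMeasurable (integrable_coord k).aestronglyMeasurable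
    rw [this, integral_coord, zero_mul]

/-- Multi-dimensional Gaussian integration by parts for bounded functions. -/
theorem gam_ibp {E : Type*} [NormedAddCommGroup E] [NormedSpace ℝ E] {n : ℕ} (j : Fin n)
    (F F' : (Fin n → ℝ) → E) (C C' : ℝ) (hFc : Continuous F) (hF'c : Continuous F')
    (hC : ∀ g, ‖F g‖ ≤ C) (hC' : ∀ g, ‖F' g‖ ≤ C')
    (hF : ∀ (g : Fin n → ℝ) (t : ℝ), HasDerivAt (fun s => F (Function.update g j s))
      (F' (Function.update g j t)) t) :
    ∫ g, g j • F g ∂(gam n) = ∫ g, F' g ∂(gam n) := by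
  cases n with
  | zero => exact j.elim0
  | succ m =>
    classical
    by_cases hE : CompleteSpace E
    swap
    · simp [integral, hE]
    have hmp : MeasurePreserving (MeasurableEquiv.piFinSuccAbove (fun _ : Fin (m + 1) => ℝ) j)
        (gam (m + 1)) ((gaussianReal 0 1 : Measure ℝ).prod
          (Measure.pi fun _ : Fin m => gaussianReal 0 1)) := measurePreserving_piFinSuccAbove
      (fun _ : Fin (m + 1) => (gaussianReal 0 1 : Measure ℝ)) j
    set e := MeasurableEquiv.piFinSuccAbove (fun _ : Fin (m + 1) => ℝ) j with he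
    have hsymm : ∀ (p : ℝ × (Fin m → ℝ)), e.symm p = Fin.insertNth j p.1 p.2 := fun p => rfl
    have hint1 : Integrable (fun g : Fin (m + 1) → ℝ => g j • F g) (gam (m + 1)) := by
      have hb : MemLp F ⊤ (gam (m + 1)) := memLp_top_of_bound hFc.aestronglyMeasurable C
        (Filter.Eventually.of_forall hC)
      exact (integrable_coord j).smul_of_top_left hb
    have hint2 : Integrable F' (gam (m + 1)) := by
      have hb : MemLp F' ⊤ (gam (m + 1)) := memLp_top_of_bound hF'c.aestronglyMeasurable C'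
        (Filter.Eventually.of_forall hC')
      exact hb.integrable (by norm_num)
    have conv : ∀ φ : (Fin (m + 1) → ℝ) → E, Integrable φ (gam (m + 1)) →
        ∫ g, φ g ∂(gam (m + 1)) = ∫ g', ∫ t, φ (Fin.insertNth j t g') ∂(gaussianReal 0 1)
          ∂(Measure.pi fun _ => gaussianReal 0 1) := by
      intro φ hφ
      have h1 : ∫ g, φ g ∂(gam (m + 1)) = ∫ g, (φ ∘ e.symm) (e g) ∂(gam (m + 1)) := by
        simp
      rw [h1, hmp.integral_comp' (φ ∘ e.symm)]
      have hint : Integrable (φ ∘ e.symm)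
          ((gaussianReal 0 1 : Measure ℝ).prod (Measure.pi fun _ : Fin m => gaussianReal 0 1)) := by
        have h2 := hmp.symm e
        exact h2.integrable_comp_of_integrable hφ
      rw [integral_prod_symm _ hint]
      rfl
    rw [conv _ hint1, conv _ hint2]
    congr 1
    ext g'
    have := gauss_ibp_1d (fun t => F (Fin.insertNth j t g'))
      (fun t => F' (Fin.insertNth j t g')) C C' ?_ ?_ (fun t => hC _) (fun t => hC' _)
    · simpa using this
    · intro t
      have h3 := hF (Fin.insertNth j (0:ℝ) g') t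
      simp only [Fin.update_insertNth] at h3
      exact h3
    · refine hF'c.comp ?_
      refine continuous_pi fun i => ?_
      refine Fin.succAboveCases j ?_ ?_ i
      · simpa using continuous_id'
      · intro l; simpa using continuous_const

/-- `𝔼 ‖∑ gⱼ wⱼ‖² = ∑ ‖wⱼ‖²` -/
lemma integral_norm_sum_sq {K : Type*} [NormedAddCommGroup K] [InnerProductSpace ℝ K] {n : ℕ}
    (w : Fin n → K) :
    ∫ g : Fin n → ℝ, ‖∑ j, g j • w j‖ ^ 2 ∂(gam n) = ∑ j, ‖w j‖ ^ 2 := by
  have h1 : ∀ g : Fin n → ℝ, ‖∑ j, g j • w j‖ ^ 2 = ∑ j, ∑ k, (g j * g k) * ⟪w j, w k⟫ := by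
    intro g
    rw [← real_inner_self_eq_norm_sq, sum_inner]
    refine Finset.sum_congr rfl fun j _ => ?_
    rw [inner_sum]
    refine Finset.sum_congr rfl fun k _ => ?_
    rw [inner_smul_left, inner_smul_right]
    simp
    ring
  simp_rw [h1]
  rw [integral_finsetSum]
  · refine Finset.sum_congr rfl fun j _ => ?_
    rw [integral_finsetSum]
    · simp_rw [integral_mul_const, integral_coord_mul]
      simp [real_inner_self_eq_norm_sq]
    · intro k _
      exact (integrable_coord_mul j k).mul_const _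
  · intro j _
    exact integrable_finsetSum _ fun k _ => (integrable_coord_mul j k).mul_const _

lemma integrable_norm_sum_sq {K : Type*} [NormedAddCommGroup K] [InnerProductSpace ℝ K] {n : ℕ}
    (w : Fin n → K) :
    Integrable (fun g : Fin n → ℝ => ‖∑ j, g j • w j‖ ^ 2) (gam n) := by
  have h1 : ∀ g : Fin n → ℝ, ‖∑ j, g j • w j‖ ^ 2 = ∑ j, ∑ k, (g j * g k) * ⟪w j, w k⟫ := by
    intro g
    rw [← real_inner_self_eq_norm_sq, sum_inner]
    refine Finset.sum_congr rfl fun j _ => ?_
    rw [inner_sum]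
    refine Finset.sum_congr rfl fun k _ => ?_
    rw [inner_smul_left, inner_smul_right]
    simp
    ring
  simp_rw [h1]
  exact integrable_finsetSum _ fun j _ => integrable_finsetSum _ fun k _ =>
    (integrable_coord_mul j k).mul_const _

/-- `𝔼 ‖∑ gⱼ wⱼ‖ ≤ B` when `∑ ‖wⱼ‖² ≤ B²`. -/
lemma integral_norm_sum_le {K : Type*} [NormedAddCommGroup K] [InnerProductSpace ℝ K] {n : ℕ}
    (w : Fin n → K) (B : ℝ) (hB : 0 ≤ B) (h : ∑ j, ‖w j‖ ^ 2 ≤ B ^ 2) :
    ∫ g : Fin n → ℝ, ‖∑ j, g j • w j‖ ∂(gam n) ≤ B := by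
  rcases hB.eq_or_lt with rfl | hB
  · have h0 : ∀ j, w j = 0 := by
      intro j
      have h1 : ‖w j‖ ^ 2 ≤ ∑ j, ‖w j‖ ^ 2 :=
        Finset.single_le_sum (f := fun j => ‖w j‖ ^ 2) (fun _ _ => by positivity) (Finset.mem_univ j)
      have h2 : ‖w j‖ ^ 2 ≤ 0 := by simpa using h1.trans h
      have h3 : ‖w j‖ = 0 := by nlinarith [norm_nonneg (w j)]
      exact norm_eq_zero.1 h3
    simp [h0]
  · have hint := integrable_norm_sum_sq w
    have hle : ∀ g : Fin n → ℝ, ‖∑ j, g j • w j‖ ≤ ‖∑ j, g j • w j‖ ^ 2 / (2 * B) + B / 2 := by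
      intro g
      have := sq_nonneg (‖∑ j, g j • w j‖ - B)
      rw [div_add_div _ _ (by positivity) (by norm_num), le_div_iff₀ (by positivity)]
      nlinarith
    have hm : Integrable (fun g : Fin n → ℝ => ‖∑ j, g j • w j‖) (gam n) := by
      have : Integrable (fun g : Fin n → ℝ => ∑ j, g j • w j) (gam n) :=
        integrable_finsetSum _ fun j _ => (integrable_coord j).smul_const (w j)
      exact this.norm
    calc ∫ g : Fin n → ℝ, ‖∑ j, g j • w j‖ ∂(gam n)
        ≤ ∫ g : Fin n → ℝ, (‖∑ j, g j • w j‖ ^ 2 / (2 * B) + B / 2) ∂(gam n) :=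
          integral_mono hm ((hint.div_const _).add (integrable_const _)) hle
      _ = (∑ j, ‖w j‖ ^ 2) / (2 * B) + B / 2 := by
          rw [integral_add (hint.div_const _) (integrable_const _), integral_div,
            integral_norm_sum_sq]
          simp
      _ ≤ B ^ 2 / (2 * B) + B / 2 := by gcongr
      _ = B := by field_simp; ring

/-- Bessel's inequality in `L²(γ; K)` for the orthonormal coordinates: for a bounded continuous
function, `∑ ‖𝔼[gⱼ G]‖² ≤ 𝔼‖G‖²`. -/
theorem gam_bessel {K : Type*} [NormedAddCommGroup K] [InnerProductSpace ℝ K] [CompleteSpace K]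
    {n : ℕ} (G : (Fin n → ℝ) → K) (C : ℝ) (hG : Continuous G) (hC : ∀ g, ‖G g‖ ≤ C) :
    ∑ j, ‖∫ g, g j • G g ∂(gam n)‖ ^ 2 ≤ C ^ 2 := by
  set c : Fin n → K := fun j => ∫ g, g j • G g ∂(gam n) with hc
  have hintj : ∀ j, Integrable (fun g : Fin n → ℝ => g j • G g) (gam n) := by
    intro j
    have hb : MemLp G ⊤ (gam n) := memLp_top_of_bound hG.aestronglyMeasurable C
      (Filter.Eventually.of_forall hC)
    exact (integrable_coord j).smul_of_top_left hb
  have h1 : ∑ j, ‖c j‖ ^ 2 = ∫ g, ⟪∑ j, g j • c j, G g⟫ ∂(gam n) := by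
    have : ∀ g : Fin n → ℝ, ⟪∑ j, g j • c j, G g⟫ = ∑ j, ⟪c j, g j • G g⟫ := by
      intro g
      rw [sum_inner]
      refine Finset.sum_congr rfl fun j _ => ?_
      rw [inner_smul_left, inner_smul_right]
      simp
    simp_rw [this]
    rw [integral_finsetSum]
    · refine Finset.sum_congr rfl fun j _ => ?_
      rw [integral_inner (hintj j), ← real_inner_self_eq_norm_sq]
    · intro j _
      exact (hintj j).const_inner _
  have hS := integrable_norm_sum_sq c
  have hb : ∀ g : Fin n → ℝ, ⟪∑ j, g j • c j, G g⟫ ≤ ‖∑ j, g j • c j‖ ^ 2 / 2 + C ^ 2 / 2 := by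
    intro g
    have h2 := real_inner_le_norm (∑ j, g j • c j) (G g)
    have h3 := hC g
    have h4 := norm_nonneg (G g)
    have h5 := norm_nonneg (∑ j, g j • c j)
    have h6 : ‖∑ j, g j • c j‖ * ‖G g‖ ≤ ‖∑ j, g j • c j‖ * C := by gcongr
    nlinarith [sq_nonneg (‖∑ j, g j • c j‖ - C)]
  have hI : Integrable (fun g : Fin n → ℝ => ⟪∑ j, g j • c j, G g⟫) (gam n) := by
    have : ∀ g : Fin n → ℝ, ⟪∑ j, g j • c j, G g⟫ = ∑ j, ⟪c j, g j • G g⟫ := by
      intro g
      rw [sum_inner]
      refine Finset.sum_congr rfl fun j _ => ?_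
      rw [inner_smul_left, inner_smul_right]
      simp
    simp_rw [this]
    exact integrable_finsetSum _ fun j _ => (hintj j).const_inner _
  have h7 : ∑ j, ‖c j‖ ^ 2 ≤ (∑ j, ‖c j‖ ^ 2) / 2 + C ^ 2 / 2 := by
    calc ∑ j, ‖c j‖ ^ 2 = ∫ g, ⟪∑ j, g j • c j, G g⟫ ∂(gam n) := h1
      _ ≤ ∫ g : Fin n → ℝ, (‖∑ j, g j • c j‖ ^ 2 / 2 + C ^ 2 / 2) ∂(gam n) :=
          integral_mono hI ((hS.div_const _).add (integrable_const _)) hb
      _ = (∑ j, ‖c j‖ ^ 2) / 2 + C ^ 2 / 2 := by
          rw [integral_add (hS.div_const _) (integrable_const _), integral_div,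
            integral_norm_sum_sq]
          simp
  linarith

/-- Complex Hilbert space version of `integral_norm_sum_le`. -/
lemma integral_norm_sum_le' {K : Type*} [NormedAddCommGroup K] [InnerProductSpace ℂ K] {n : ℕ}
    (w : Fin n → K) (B : ℝ) (hB : 0 ≤ B) (h : ∑ j, ‖w j‖ ^ 2 ≤ B ^ 2) :
    ∫ g : Fin n → ℝ, ‖∑ j, g j • w j‖ ∂(gam n) ≤ B := by
  letI : InnerProductSpace ℝ K := InnerProductSpace.rclikeToReal ℂ K
  exact integral_norm_sum_le w B hB h

/-- Complex Hilbert space version of `gam_bessel`. -/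
theorem gam_bessel' {K : Type*} [NormedAddCommGroup K] [InnerProductSpace ℂ K] [CompleteSpace K]
    {n : ℕ} (G : (Fin n → ℝ) → K) (C : ℝ) (hG : Continuous G) (hC : ∀ g, ‖G g‖ ≤ C) :
    ∑ j, ‖∫ g, g j • G g ∂(gam n)‖ ^ 2 ≤ C ^ 2 := by
  letI : InnerProductSpace ℝ K := InnerProductSpace.rclikeToReal ℂ K
  exact gam_bessel G C hG hC

end Crest.Agent.Lib.BRGauss
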