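import Mathlib
import Crest.Agent.Lib.BRGauss

set_option autoImplicit false

namespace Crest.Agent.Lib.BRLittleGT

open MeasureTheory Crest.Agent.Lib.BRGauss
open scoped InnerProductSpace ComplexConjugate

variable {H : Type*} [NormedAddCommGroup H] [InnerProductSpace ℂ H] [CompleteSpace H]

lemma mulA (S T : H →L[ℂ] H) (z : H) : (S * T) z = S (T z) := rfl

lemma smulA (c : ℂ) (T : H →L[ℂ] H) (z : H) : (c • T) z = c • T z := rfl

/-- Bound on the operator norm by testing on inner products. -/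
lemma opNorm_le_of_inner (T : H →L[ℂ] H) (C : ℝ) (hC : 0 ≤ C)
    (h : ∀ p z : H, ‖⟪p, T z⟫_ℂ‖ ≤ C * ‖p‖ * ‖z‖) : ‖T‖ ≤ C := by
  refine ContinuousLinearMap.opNorm_le_bound _ hC fun z => ?_
  by_cases hz : T z = 0
  · rw [hz, norm_zero]; positivity
  have h1 := h (T z) z
  rw [inner_self_eq_norm_sq_to_K] at h1
  have hpos : 0 < ‖T z‖ := norm_pos_iff.2 hz
  have h3 : ‖T z‖ ^ 2 ≤ C * ‖T z‖ * ‖z‖ := by
    simpa using h1
  have h4 : ‖T z‖ * ‖T z‖ ≤ (C * ‖z‖) * ‖T z‖ := by nlinarith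
  exact le_of_mul_le_mul_right h4 hpos

/-- `A y = 1 - (i/4) y`. -/
noncomputable def resA (y : H →L[ℂ] H) : H →L[ℂ] H := 1 - (Complex.I / 4 : ℂ) • y

lemma resA_apply (y : H →L[ℂ] H) (z : H) : resA y z = z - (Complex.I / 4 : ℂ) • y z := rfl

lemma norm_resA_sq {y : H →L[ℂ] H} (hy : IsSelfAdjoint y) (w : H) :
    ‖resA y w‖ ^ 2 = ‖w‖ ^ 2 + ‖y w‖ ^ 2 / 16 := by
  rw [resA_apply]
  have h1 := @norm_sub_sq ℂ H _ _ _ w ((Complex.I / 4 : ℂ) • y w)
  rw [h1, inner_smul_right, norm_smul]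
  have hsym : (y : H →ₗ[ℂ] H).IsSymmetric := (ContinuousLinearMap.isSelfAdjoint_iff_isSymmetric).1 hy
  have h2 : RCLike.re (((Complex.I / 4 : ℂ)) * ⟪w, y w⟫_ℂ) = 0 := by
    have h3 : ⟪w, y w⟫_ℂ = ((RCLike.re ⟪w, y w⟫_ℂ : ℝ) : ℂ) := by
      have := hsym.coe_re_inner_apply_self w
      have h4 : ⟪y w, w⟫_ℂ = ⟪w, y w⟫_ℂ := hsym w w
      rw [← h4]
      exact this.symm
    rw [h3]
    simp
  rw [h2]
  have h5 : ‖(Complex.I / 4 : ℂ)‖ = 1 / 4 := by simp
  rw [h5]
  ring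

lemma norm_le_resA {y : H →L[ℂ] H} (hy : IsSelfAdjoint y) (w : H) : ‖w‖ ≤ ‖resA y w‖ := by
  have := norm_resA_sq hy w
  have h2 : ‖w‖ ^ 2 ≤ ‖resA y w‖ ^ 2 := by
    rw [this]; have := sq_nonneg ‖y w‖; linarith
  exact le_of_sq_le_sq h2 (norm_nonneg _)

lemma isUnit_resA {y : H →L[ℂ] H} (hy : IsSelfAdjoint y) : IsUnit (resA y) := by
  have h1 : (-4 * Complex.I : ℂ) ∉ spectrum ℂ y := by
    intro hmem
    have := hy.im_eq_zero_of_mem_spectrum hmem
    simp at this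
  rw [spectrum.notMem_iff] at h1
  have h2 : resA y = algebraMap ℂ (H →L[ℂ] H) (Complex.I / 4 : ℂ) *
      (algebraMap ℂ (H →L[ℂ] H) (-4 * Complex.I) - y) := by
    unfold resA
    rw [mul_sub, ← map_mul, ← Algebra.smul_def]
    have : (Complex.I / 4 : ℂ) * (-4 * Complex.I) = 1 := by
      have hI : Complex.I * Complex.I = -1 := Complex.I_mul_I
      field_simp
      linear_combination (-1 : ℂ) * hI
    rw [this, map_one]
  rw [h2]
  have hne : (Complex.I / 4 : ℂ) ≠ 0 := by simp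
  exact ((IsUnit.mk0 _ hne).map (algebraMap ℂ (H →L[ℂ] H))).mul h1

/-- `R y = (1 - (i/4) y)⁻¹`. -/
noncomputable def res (y : H →L[ℂ] H) : H →L[ℂ] H := Ring.inverse (resA y)

lemma res_mul {y : H →L[ℂ] H} (hy : IsSelfAdjoint y) : res y * resA y = 1 :=
  Ring.inverse_mul_cancel _ (isUnit_resA hy)

lemma mul_res {y : H →L[ℂ] H} (hy : IsSelfAdjoint y) : resA y * res y = 1 :=
  Ring.mul_inverse_cancel _ (isUnit_resA hy)

lemma norm_res_apply_le {y : H →L[ℂ] H} (hy : IsSelfAdjoint y) (z : H) : ‖res y z‖ ≤ ‖z‖ := by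
  have h := norm_le_resA hy (res y z)
  have h2 : resA y (res y z) = z := by
    have h3 : (resA y * res y) z = z := by rw [mul_res hy]; rfl
    exact h3
  rwa [h2] at h

lemma norm_res_le {y : H →L[ℂ] H} (hy : IsSelfAdjoint y) : ‖res y‖ ≤ 1 :=
  ContinuousLinearMap.opNorm_le_bound _ zero_le_one fun z => by
    simpa using norm_res_apply_le hy z

lemma res_sub_one_right {y : H →L[ℂ] H} (hy : IsSelfAdjoint y) :
    res y - 1 = (Complex.I / 4 : ℂ) • (res y * y) := by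
  have h := res_mul hy
  unfold resA at h
  rw [mul_sub, mul_one, mul_smul_comm] at h
  rw [← h]
  abel

lemma res_sub_one_left {y : H →L[ℂ] H} (hy : IsSelfAdjoint y) :
    res y - 1 = (Complex.I / 4 : ℂ) • (y * res y) := by
  have h := mul_res hy
  unfold resA at h
  rw [sub_mul, one_mul, smul_mul_assoc] at h
  rw [← h]
  abel

lemma norm_res_sub_one_apply_le {y : H →L[ℂ] H} (hy : IsSelfAdjoint y) (z : H) :
    ‖(res y - 1) z‖ ≤ ‖y z‖ / 4 := by
  rw [res_sub_one_right hy]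
  rw [smulA, mulA, norm_smul]
  have h5 : ‖(Complex.I / 4 : ℂ)‖ = 1 / 4 := by simp
  rw [h5]
  have := norm_res_apply_le hy (y z)
  linarith

lemma norm_star_res_sub_one_apply_le {y : H →L[ℂ] H} (hy : IsSelfAdjoint y) (z : H) :
    ‖star (res y - 1) z‖ ≤ ‖y z‖ / 4 := by
  rw [res_sub_one_left hy, star_smul, star_mul, hy.star_eq]
  rw [smulA, mulA, norm_smul]
  have h5 : ‖star (Complex.I / 4 : ℂ)‖ = 1 / 4 := by simp
  rw [h5]
  have h6 : ‖star (res y) (y z)‖ ≤ ‖y z‖ := by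
    have h7 : ‖star (res y)‖ ≤ 1 := by rw [norm_star]; exact norm_res_le hy
    calc ‖star (res y) (y z)‖ ≤ ‖star (res y)‖ * ‖y z‖ := ContinuousLinearMap.le_opNorm _ _
      _ ≤ 1 * ‖y z‖ := by gcongr
      _ = ‖y z‖ := one_mul _
  linarith

lemma res_mem (M : VonNeumannAlgebra H) {y : H →L[ℂ] H} (hy : IsSelfAdjoint y) (hM : y ∈ M) :
    res y ∈ M := by
  have hA : resA y ∈ M := by
    unfold resA
    exact sub_mem (one_mem _) (M.toStarSubalgebra.smul_mem hM _)
  rw [← SetLike.mem_coe, ← M.centralizer_centralizer, Set.mem_centralizer_iff]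
  intro b hb
  rw [Set.mem_centralizer_iff] at hb
  have h1 : b * resA y = resA y * b := (hb _ hA).symm
  calc b * res y = (res y * resA y) * (b * res y) := by rw [res_mul hy, one_mul]
    _ = res y * (resA y * b) * res y := by noncomm_ring
    _ = res y * (b * resA y) * res y := by rw [h1]
    _ = (res y * b) * (resA y * res y) := by noncomm_ring
    _ = res y * b := by rw [mul_res hy, mul_one]

lemma continuousAt_res {y : H →L[ℂ] H} (hy : IsSelfAdjoint y) : ContinuousAt res y := by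
  have h1 : ContinuousAt resA y := by unfold resA; unfold ContinuousAt; exact
    (Continuous.tendsto (by fun_prop) y)
  have h2 : ContinuousAt Ring.inverse (resA y) := by
    obtain ⟨u, hu⟩ := isUnit_resA hy
    rw [← hu]
    exact NormedRing.inverse_continuousAt u
  exact h2.comp h1

section family

variable {n : ℕ} (a : Fin n → H →L[ℂ] H)

/-- `x(g) = ∑ gⱼ aⱼ`. -/
noncomputable def YY (g : Fin n → ℝ) : H →L[ℂ] H := ∑ j, ((g j : ℝ) : ℂ) • a j

lemma YY_selfAdjoint (hsa : ∀ j, IsSelfAdjoint (a j)) (g : Fin n → ℝ) :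
    IsSelfAdjoint (YY a g) := by
  unfold YY
  rw [IsSelfAdjoint, star_sum]
  refine Finset.sum_congr rfl fun j _ => ?_
  rw [star_smul, (hsa j).star_eq]
  simp

lemma YY_mem (M : VonNeumannAlgebra H) (haM : ∀ j, a j ∈ M) (g : Fin n → ℝ) : YY a g ∈ M := by
  unfold YY
  exact sum_mem fun j _ => M.toStarSubalgebra.smul_mem (haM j) _

lemma continuous_YY : Continuous (YY a) := by
  unfold YY
  fun_prop

lemma YY_apply (g : Fin n → ℝ) (z : H) : YY a g z = ∑ j, g j • a j z := by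
  unfold YY
  rw [ContinuousLinearMap.sum_apply]
  refine Finset.sum_congr rfl fun j _ => ?_
  rw [smulA]
  exact Complex.coe_smul _ _

lemma hasDerivAt_YY (j : Fin n) (g : Fin n → ℝ) (t : ℝ) :
    HasDerivAt (fun s : ℝ => YY a (Function.update g j s)) (a j) t := by
  unfold YY
  have h1 : ∀ k ∈ (Finset.univ : Finset (Fin n)), HasDerivAt
      (fun s : ℝ => ((Function.update g j s k : ℝ) : ℂ) • a k) (if k = j then a j else 0) t := by
    intro k _
    by_cases hk : k = j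
    · subst hk
      simp only [Function.update_self, if_true]
      have := (Complex.ofRealCLM.hasDerivAt (x := t)).smul_const (a k)
      simpa using this
    · simp only [Function.update_of_ne hk, if_neg hk]
      exact hasDerivAt_const _ _
  have h2 := HasDerivAt.fun_sum h1
  simpa using h2

/-- `R(g) = (1 - (i/4) x(g))⁻¹`. -/
noncomputable def RR (g : Fin n → ℝ) : H →L[ℂ] H := res (YY a g)

variable {a}

lemma continuous_RR (hsa : ∀ j, IsSelfAdjoint (a j)) : Continuous (RR a) := by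
  unfold RR
  refine continuous_iff_continuousAt.2 fun g => ?_
  exact ContinuousAt.comp (f := YY a) (continuousAt_res (YY_selfAdjoint a hsa g))
    (continuous_YY a).continuousAt

lemma norm_RR_le (hsa : ∀ j, IsSelfAdjoint (a j)) (g : Fin n → ℝ) : ‖RR a g‖ ≤ 1 :=
  norm_res_le (YY_selfAdjoint a hsa g)

lemma RR_mem (M : VonNeumannAlgebra H) (hsa : ∀ j, IsSelfAdjoint (a j)) (haM : ∀ j, a j ∈ M)
    (g : Fin n → ℝ) : RR a g ∈ M :=
  res_mem M (YY_selfAdjoint a hsa g) (YY_mem a M haM g)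

lemma hasDerivAt_RR (hsa : ∀ j, IsSelfAdjoint (a j)) (j : Fin n) (g : Fin n → ℝ) (t : ℝ) :
    HasDerivAt (fun s : ℝ => RR a (Function.update g j s))
      ((Complex.I / 4 : ℂ) • (RR a (Function.update g j t) * a j * RR a (Function.update g j t)))
      t := by
  have hA : HasDerivAt (fun s : ℝ => resA (YY a (Function.update g j s)))
      (-((Complex.I / 4 : ℂ) • a j)) t := by
    unfold resA
    have := ((hasDerivAt_YY a j g t).const_smul (Complex.I / 4 : ℂ)).const_sub 1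
    exact this
  obtain ⟨u, hu⟩ := isUnit_resA (YY_selfAdjoint a hsa (Function.update g j t))
  have h1 := hasFDerivAt_ringInverse (𝕜 := ℝ) u
  rw [hu] at h1
  have h2 := h1.comp_hasDerivAt t hA
  have h3 : ((u⁻¹ : (H →L[ℂ] H)ˣ) : H →L[ℂ] H) = RR a (Function.update g j t) := by
    unfold RR res
    rw [← hu, Ring.inverse_unit]
  rw [h3] at h2
  refine (h2.congr_deriv ?_)
  simp only [ContinuousLinearMap.neg_apply, ContinuousLinearMap.mulLeftRight_apply, mul_neg, neg_mul,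
    neg_neg, mul_smul_comm, smul_mul_assoc]

/-- The averaging map `L(c) = 𝔼[R c R]`. -/
noncomputable def LL (a : Fin n → H →L[ℂ] H) (c : H →L[ℂ] H) : H →L[ℂ] H :=
  ∫ g, RR a g * c * RR a g ∂(gam n)

lemma continuous_RcR (hsa : ∀ j, IsSelfAdjoint (a j)) (c : H →L[ℂ] H) :
    Continuous (fun g => RR a g * c * RR a g) :=
  ((continuous_RR hsa).mul continuous_const).mul (continuous_RR hsa)

lemma norm_RcR_le (hsa : ∀ j, IsSelfAdjoint (a j)) (c : H →L[ℂ] H) (g : Fin n → ℝ) :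
    ‖RR a g * c * RR a g‖ ≤ ‖c‖ := by
  calc ‖RR a g * c * RR a g‖ ≤ ‖RR a g‖ * ‖c‖ * ‖RR a g‖ := by
        refine (norm_mul_le _ _).trans ?_
        gcongr
        exact norm_mul_le _ _
    _ ≤ 1 * ‖c‖ * 1 := by
        have := norm_RR_le hsa g
        gcongr
    _ = ‖c‖ := by ring

lemma integrable_RcR (hsa : ∀ j, IsSelfAdjoint (a j)) (c : H →L[ℂ] H) :
    Integrable (fun g => RR a g * c * RR a g) (gam n) := by
  have hb : MemLp (fun g => RR a g * c * RR a g) ⊤ (gam n) :=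
    memLp_top_of_bound (continuous_RcR hsa c).aestronglyMeasurable ‖c‖
      (Filter.Eventually.of_forall (norm_RcR_le hsa c))
  exact hb.integrable (by norm_num)

lemma LL_mem (M : VonNeumannAlgebra H) (hsa : ∀ j, IsSelfAdjoint (a j)) (haM : ∀ j, a j ∈ M)
    {c : H →L[ℂ] H} (hc : c ∈ M) : LL a c ∈ M := by
  rw [← SetLike.mem_coe, ← M.centralizer_centralizer, Set.mem_centralizer_iff]
  intro b hb
  rw [Set.mem_centralizer_iff] at hb
  have hint := integrable_RcR hsa c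
  have h1 : b * LL a c = ∫ g, b * (RR a g * c * RR a g) ∂(gam n) := by
    unfold LL
    exact ((ContinuousLinearMap.mul ℂ (H →L[ℂ] H) b).integral_comp_comm hint).symm
  have h2 : LL a c * b = ∫ g, (RR a g * c * RR a g) * b ∂(gam n) := by
    unfold LL
    exact (((ContinuousLinearMap.mul ℂ (H →L[ℂ] H)).flip b).integral_comp_comm hint).symm
  rw [h1, h2]
  congr 1
  ext1 g
  have hm : RR a g * c * RR a g ∈ M :=
    mul_mem (mul_mem (RR_mem M hsa haM g) hc) (RR_mem M hsa haM g)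
  exact (hb _ hm).symm

lemma norm_LL_sub_le (hsa : ∀ j, IsSelfAdjoint (a j))
    (hsum : ∀ z, ∑ j, ‖a j z‖ ^ 2 ≤ ‖z‖ ^ 2) (c : H →L[ℂ] H) :
    ‖LL a c - c‖ ≤ (1 / 2) * ‖c‖ := by
  refine opNorm_le_of_inner _ _ (by positivity) fun p z => ?_
  have hint := integrable_RcR hsa c
  have hYn : ∀ q : H, ∫ g : Fin n → ℝ, ‖YY a g q‖ ∂(gam n) ≤ ‖q‖ := by
    intro q
    simp_rw [YY_apply]
    exact integral_norm_sum_le' (fun j => a j q) ‖q‖ (norm_nonneg _) (hsum q)
  have hYi : ∀ q : H, Integrable (fun g : Fin n → ℝ => ‖YY a g q‖) (gam n) := by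
    intro q
    simp_rw [YY_apply]
    have : Integrable (fun g : Fin n → ℝ => ∑ j, g j • a j q) (gam n) :=
      integrable_finsetSum _ fun j _ => (integrable_coord j).smul_const (a j q)
    exact this.norm
  have h1 : ⟪p, (LL a c - c) z⟫_ℂ =
      ∫ g, ⟪p, (RR a g * c * RR a g) z - c z⟫_ℂ ∂(gam n) := by
    have hev : (LL a c) z = ∫ g, (RR a g * c * RR a g) z ∂(gam n) := by
      unfold LL
      exact ContinuousLinearMap.integral_apply hint z
    have hi2 : Integrable (fun g => (RR a g * c * RR a g) z) (gam n) :=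
      hint.apply_continuousLinearMap z
    have : (LL a c - c) z = ∫ g, ((RR a g * c * RR a g) z - c z) ∂(gam n) := by
      rw [integral_sub hi2 (integrable_const _), ← hev]
      simp
    rw [this]
    exact (integral_inner (hi2.sub (integrable_const _)) p).symm
  rw [h1]
  have hpt : ∀ g : Fin n → ℝ, ‖⟪p, (RR a g * c * RR a g) z - c z⟫_ℂ‖ ≤
      (1 / 4) * ‖c‖ * ‖z‖ * ‖YY a g p‖ + (1 / 4) * ‖c‖ * ‖p‖ * ‖YY a g z‖ := by
    intro g
    have hy := YY_selfAdjoint a hsa g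
    have hdec : (RR a g * c * RR a g) z - c z =
        (RR a g - 1) (c (RR a g z)) + c ((RR a g - 1) z) := by
      simp only [mulA, ContinuousLinearMap.sub_apply, map_sub]
      simp
    rw [hdec, inner_add_right]
    refine (norm_add_le _ _).trans ?_
    refine add_le_add ?_ ?_
    · have hadj : ⟪p, (RR a g - 1) (c (RR a g z))⟫_ℂ =
          ⟪star (RR a g - 1) p, c (RR a g z)⟫_ℂ := by
        rw [ContinuousLinearMap.star_eq_adjoint, ContinuousLinearMap.adjoint_inner_left]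
      rw [hadj]
      refine (norm_inner_le_norm _ _).trans ?_
      have h2 : ‖star (RR a g - 1) p‖ ≤ ‖YY a g p‖ / 4 := norm_star_res_sub_one_apply_le hy p
      have h3 : ‖c (RR a g z)‖ ≤ ‖c‖ * ‖z‖ := by
        refine (ContinuousLinearMap.le_opNorm _ _).trans ?_
        gcongr
        exact norm_res_apply_le hy z
      calc _ ≤ (‖YY a g p‖ / 4) * (‖c‖ * ‖z‖) := by gcongr
        _ = _ := by ring
    · have hadj : ⟪p, c ((RR a g - 1) z)⟫_ℂ = ⟪star c p, (RR a g - 1) z⟫_ℂ := by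
        rw [ContinuousLinearMap.star_eq_adjoint, ContinuousLinearMap.adjoint_inner_left]
      rw [hadj]
      refine (norm_inner_le_norm _ _).trans ?_
      have h2 : ‖(RR a g - 1) z‖ ≤ ‖YY a g z‖ / 4 := norm_res_sub_one_apply_le hy z
      have h3 : ‖star c p‖ ≤ ‖c‖ * ‖p‖ := by
        refine (ContinuousLinearMap.le_opNorm _ _).trans ?_
        rw [norm_star]
      calc _ ≤ (‖c‖ * ‖p‖) * (‖YY a g z‖ / 4) := by gcongr
        _ = _ := by ring
  have hI1 : Integrable (fun g : Fin n → ℝ => (1 / 4) * ‖c‖ * ‖z‖ * ‖YY a g p‖ +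
      (1 / 4) * ‖c‖ * ‖p‖ * ‖YY a g z‖) (gam n) :=
    ((hYi p).const_mul _).add ((hYi z).const_mul _)
  calc ‖∫ g, ⟪p, (RR a g * c * RR a g) z - c z⟫_ℂ ∂(gam n)‖
      ≤ ∫ g, ((1 / 4) * ‖c‖ * ‖z‖ * ‖YY a g p‖ + (1 / 4) * ‖c‖ * ‖p‖ * ‖YY a g z‖) ∂(gam n) :=
        norm_integral_le_of_norm_le hI1 (Filter.Eventually.of_forall hpt)
    _ = (1 / 4) * ‖c‖ * ‖z‖ * (∫ g : Fin n → ℝ, ‖YY a g p‖ ∂(gam n)) +
        (1 / 4) * ‖c‖ * ‖p‖ * (∫ g : Fin n → ℝ, ‖YY a g z‖ ∂(gam n)) := by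
        rw [integral_add ((hYi p).const_mul _) ((hYi z).const_mul _), integral_const_mul,
          integral_const_mul]
    _ ≤ (1 / 4) * ‖c‖ * ‖z‖ * ‖p‖ + (1 / 4) * ‖c‖ * ‖p‖ * ‖z‖ := by
        have := hYn p
        have := hYn z
        gcongr
    _ = (1 / 2) * ‖c‖ * ‖p‖ * ‖z‖ := by ring

variable {K : Type*} [NormedAddCommGroup K] [InnerProductSpace ℂ K] [CompleteSpace K]

lemma sum_norm_LL_le (M : VonNeumannAlgebra H) (hsa : ∀ j, IsSelfAdjoint (a j))
    (haM : ∀ j, a j ∈ M) (v : (H →L[ℂ] H) →L[ℂ] K) (C : ℝ) (hC : 0 ≤ C)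
    (hv : ∀ c ∈ M, ‖v c‖ ≤ C * ‖c‖) :
    ∑ j, ‖v (LL a (a j))‖ ^ 2 ≤ 16 * C ^ 2 := by
  have hGc : Continuous (fun g => v (RR a g)) := v.continuous.comp (continuous_RR hsa)
  have hGb : ∀ g, ‖v (RR a g)‖ ≤ C := by
    intro g
    refine (hv _ (RR_mem M hsa haM g)).trans ?_
    have := norm_RR_le hsa g
    calc C * ‖RR a g‖ ≤ C * 1 := by gcongr
      _ = C := mul_one _
  have hibp : ∀ j, ∫ g, g j • v (RR a g) ∂(gam n) = (Complex.I / 4 : ℂ) • v (LL a (a j)) := by
    intro j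
    have hF'c : Continuous (fun g => (Complex.I / 4 : ℂ) • v (RR a g * a j * RR a g)) :=
      (v.continuous.comp (continuous_RcR hsa (a j))).const_smul _
    have hF'b : ∀ g, ‖(Complex.I / 4 : ℂ) • v (RR a g * a j * RR a g)‖ ≤ ‖v‖ * ‖a j‖ := by
      intro g
      rw [norm_smul]
      have h5 : ‖(Complex.I / 4 : ℂ)‖ = 1 / 4 := by simp
      rw [h5]
      have h6 : ‖v (RR a g * a j * RR a g)‖ ≤ ‖v‖ * ‖a j‖ :=
        (v.le_opNorm _).trans (by gcongr; exact norm_RcR_le hsa (a j) g)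
      have h7 := norm_nonneg (v (RR a g * a j * RR a g))
      linarith
    have h1 := gam_ibp j (fun g => v (RR a g))
      (fun g => (Complex.I / 4 : ℂ) • v (RR a g * a j * RR a g)) C (‖v‖ * ‖a j‖) hGc hF'c hGb hF'b ?_
    · rw [h1, integral_smul]
      congr 1
      exact v.integral_comp_comm (integrable_RcR hsa (a j))
    · intro g t
      have h2 := (hasDerivAt_RR hsa j g t)
      have h3 := (v.restrictScalars ℝ).hasFDerivAt.comp_hasDerivAt t h2
      refine h3.congr_deriv ?_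
      simp
  have hb := gam_bessel' (fun g => v (RR a g)) C hGc hGb
  simp_rw [hibp] at hb
  have h5 : ‖(Complex.I / 4 : ℂ)‖ = 1 / 4 := by simp
  have : ∀ j, ‖(Complex.I / 4 : ℂ) • v (LL a (a j))‖ ^ 2 = ‖v (LL a (a j))‖ ^ 2 / 16 := by
    intro j
    rw [norm_smul, h5]
    ring
  simp_rw [this] at hb
  rw [← Finset.sum_div] at hb
  linarith

/-- `L` as a continuous linear map. -/
noncomputable def LLclm (hsa : ∀ j, IsSelfAdjoint (a j)) : (H →L[ℂ] H) →L[ℂ] (H →L[ℂ] H) :=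
  LinearMap.mkContinuous
    { toFun := LL a
      map_add' := by
        intro c d
        unfold LL
        rw [← integral_add (integrable_RcR hsa c) (integrable_RcR hsa d)]
        congr 1
        ext1 g
        rw [mul_add, add_mul]
      map_smul' := by
        intro r c
        unfold LL
        simp only [RingHom.id_apply]
        rw [← integral_smul]
        congr 1
        ext1 g
        rw [mul_smul_comm, smul_mul_assoc] }
    1
    (by
      intro c
      simp only [LinearMap.coe_mk, AddHom.coe_mk, one_mul]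
      unfold LL
      refine (norm_integral_le_of_norm_le (integrable_const ‖c‖)
        (Filter.Eventually.of_forall (norm_RcR_le hsa c))).trans ?_
      simp)

lemma LLclm_apply (hsa : ∀ j, IsSelfAdjoint (a j)) (c : H →L[ℂ] H) : LLclm hsa c = LL a c := rfl

/-- The `ℓ²` norm of the values of `v` on the family. -/
noncomputable def NN (a : Fin n → H →L[ℂ] H) (v : (H →L[ℂ] H) →L[ℂ] K) : ℝ :=
  ‖(WithLp.toLp 2 (fun j => v (a j)) : PiLp 2 (fun _ : Fin n => K))‖

lemma NN_sq (v : (H →L[ℂ] H) →L[ℂ] K) : NN a v ^ 2 = ∑ j, ‖v (a j)‖ ^ 2 := by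
  unfold NN
  rw [PiLp.norm_sq_eq_of_L2]

lemma NN_nonneg (v : (H →L[ℂ] H) →L[ℂ] K) : 0 ≤ NN a v := norm_nonneg _

lemma NN_add_le (v w : (H →L[ℂ] H) →L[ℂ] K) : NN a (v + w) ≤ NN a v + NN a w := by
  unfold NN
  exact norm_add_le (WithLp.toLp 2 (fun j => v (a j)) : PiLp 2 (fun _ : Fin n => K))
    (WithLp.toLp 2 (fun j => w (a j)) : PiLp 2 (fun _ : Fin n => K))

lemma NN_le_aux (M : VonNeumannAlgebra H) (hsa : ∀ j, IsSelfAdjoint (a j))
    (haM : ∀ j, a j ∈ M) (hsum : ∀ z, ∑ j, ‖a j z‖ ^ 2 ≤ ‖z‖ ^ 2) (m : ℕ) :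
    ∀ (C : ℝ) (_ : 0 ≤ C) (v : (H →L[ℂ] H) →L[ℂ] K) (_ : ∀ c ∈ M, ‖v c‖ ≤ C * ‖c‖),
      NN a v ≤ 8 * C * (1 - (1 / 2) ^ m) + (1 / 2) ^ m * C * √(∑ j, ‖a j‖ ^ 2) := by
  induction m with
  | zero =>
    intro C hC v hv
    simp only [pow_zero, sub_self, mul_zero, zero_add, one_mul]
    refine abs_le_of_sq_le_sq' ?_ (by positivity) |>.2
    rw [NN_sq, mul_pow, Real.sq_sqrt (Finset.sum_nonneg fun _ _ => by positivity), Finset.mul_sum]
    refine Finset.sum_le_sum fun j _ => ?_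
    rw [← mul_pow]
    exact pow_le_pow_left₀ (norm_nonneg _) (hv _ (haM j)) 2
  | succ m ih =>
    intro C hC v hv
    set T : (H →L[ℂ] H) →L[ℂ] (H →L[ℂ] H) := ContinuousLinearMap.id ℂ _ - LLclm hsa with hT
    have hTa : ∀ c, T c = c - LL a c := fun c => rfl
    have hTmem : ∀ c ∈ M, T c ∈ M := fun c hc => by
      rw [hTa]; exact sub_mem hc (LL_mem M hsa haM hc)
    have hTn : ∀ c, ‖T c‖ ≤ (1 / 2) * ‖c‖ := fun c => by
      rw [hTa, norm_sub_rev]; exact norm_LL_sub_le hsa hsum c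
    have hw : ∀ c ∈ M, ‖(v.comp T) c‖ ≤ (C / 2) * ‖c‖ := by
      intro c hc
      refine (hv _ (hTmem c hc)).trans ?_
      have := hTn c
      calc C * ‖T c‖ ≤ C * ((1 / 2) * ‖c‖) := by gcongr
        _ = (C / 2) * ‖c‖ := by ring
    have h1 := ih (C / 2) (by positivity) (v.comp T) hw
    have hdec : v = v.comp T + v.comp (LLclm hsa) := by
      ext c
      simp [hTa, LLclm_apply]
    have h2 : NN a (v.comp (LLclm hsa)) ≤ 4 * C := by
      refine abs_le_of_sq_le_sq' ?_ (by positivity) |>.2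
      rw [NN_sq]
      have := sum_norm_LL_le (K := K) M hsa haM v C hC hv
      calc ∑ j, ‖(v.comp (LLclm hsa)) (a j)‖ ^ 2 = ∑ j, ‖v (LL a (a j))‖ ^ 2 := rfl
        _ ≤ 16 * C ^ 2 := this
        _ = (4 * C) ^ 2 := by ring
    have h3 : NN a v ≤ NN a (v.comp T) + NN a (v.comp (LLclm hsa)) := by
      conv_lhs => rw [hdec]
      exact NN_add_le _ _
    have hp : ((1:ℝ) / 2) ^ (m + 1) = (1 / 2) * (1 / 2) ^ m := by rw [pow_succ]; ring
    rw [hp]
    nlinarith [h1, h2, h3]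

/-- The little Grothendieck inequality for selfadjoint families in a von Neumann algebra. -/
theorem little_gt (M : VonNeumannAlgebra H) (hsa : ∀ j, IsSelfAdjoint (a j))
    (haM : ∀ j, a j ∈ M) (hsum : ∀ z, ∑ j, ‖a j z‖ ^ 2 ≤ ‖z‖ ^ 2)
    (v : (H →L[ℂ] H) →L[ℂ] K) (C : ℝ) (hC : 0 ≤ C) (hv : ∀ c ∈ M, ‖v c‖ ≤ C * ‖c‖) :
    ∑ j, ‖v (a j)‖ ^ 2 ≤ 64 * C ^ 2 := by
  have h1 : NN a v ≤ 8 * C := by
    have hlim : Filter.Tendsto (fun m : ℕ => 8 * C + ((1:ℝ) / 2) ^ m * (C * √(∑ j, ‖a j‖ ^ 2)))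
        Filter.atTop (nhds (8 * C + 0 * (C * √(∑ j, ‖a j‖ ^ 2)))) := by
      refine tendsto_const_nhds.add (Filter.Tendsto.mul_const _ ?_)
      exact tendsto_pow_atTop_nhds_zero_of_lt_one (by norm_num) (by norm_num)
    simp only [zero_mul, add_zero] at hlim
    refine ge_of_tendsto' hlim fun m => ?_
    have := NN_le_aux (K := K) M hsa haM hsum m C hC v hv
    have h2 : (0:ℝ) ≤ 8 * C * (1 / 2) ^ m := by positivity
    nlinarith
  rw [← NN_sq]
  have := NN_nonneg (a := a) v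
  calc NN a v ^ 2 ≤ (8 * C) ^ 2 := pow_le_pow_left₀ this h1 2
    _ = 64 * C ^ 2 := by ring

end family

end Crest.Agent.Lib.BRLittleGT
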