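import Mathlib
import Crest.Prelude.Def_ModularData
import Crest.Agent.Lib.BRCalc
import Crest.Agent.Lib.BRVac
import Crest.Agent.Lib.BRMean
import Crest.Agent.Lib.BRErg
import Crest.Agent.Lib.BRLittleGT

set_option autoImplicit false

namespace Crest.Agent.Lib.BRKey

open Crest.OpAlg MeasureTheory Filter Crest.Agent.Lib.BRCalc Crest.Agent.Lib.BRCalc.Calc
  Crest.Agent.Lib.BRMean Crest.Agent.Lib.BRVac Crest.Agent.Lib.BRErg Crest.Agent.Lib.BRErg.MD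
  Crest.Agent.Lib.BRLittleGT
open scoped InnerProductSpace ComplexConjugate Topology

variable {H : Type*} [NormedAddCommGroup H] [InnerProductSpace ℂ H] [CompleteSpace H]

/-- The resolvent. -/
lemma exists_resolvent (M : VonNeumannAlgebra H) {W : H →L[ℂ] H} (hWM : W ∈ M) (hW : W.IsPositive) :
    ∃ R : H →L[ℂ] H, R ∈ M ∧ IsSelfAdjoint R ∧ R * (1 + W) = 1 ∧ (1 + W) * R = 1 := by
  have h1 : 0 ≤ W := (ContinuousLinearMap.nonneg_iff_isPositive W).2 hW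
  have hu : IsUnit (1 + W) := CStarAlgebra.isUnit_of_le 1 (le_add_of_nonneg_right h1)
  obtain ⟨u, hu⟩ := hu
  refine ⟨((u⁻¹ : (H →L[ℂ] H)ˣ) : H →L[ℂ] H), ?_, ?_, ?_, ?_⟩
  · rw [← VonNeumannAlgebra.commutant_commutant M, VonNeumannAlgebra.mem_commutant_iff]
    intro g hg
    rw [VonNeumannAlgebra.mem_commutant_iff] at hg
    have h2 : g * (1 + W) = (1 + W) * g := by
      rw [mul_add, add_mul, mul_one, one_mul, (hg W hWM).symm]
    rw [← hu] at h2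
    have h3 : (↑u⁻¹ : H →L[ℂ] H) * (g * (u : H →L[ℂ] H)) * ↑u⁻¹ =
      (↑u⁻¹ : H →L[ℂ] H) * ((u : H →L[ℂ] H) * g) * ↑u⁻¹ := by rw [h2]
    simp only [mul_assoc, Units.mul_inv, mul_one, Units.inv_mul_cancel_left] at h3
    exact h3.symm
  · have hs : star (1 + W) = 1 + W := by
      rw [star_add, star_one, hW.isSelfAdjoint.star_eq]
    rw [← hu] at hs
    rw [isSelfAdjoint_iff]
    have h3 : star (↑u⁻¹ : H →L[ℂ] H) * (u : H →L[ℂ] H) = 1 := by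
      have := congrArg star (Units.mul_inv u)
      rwa [star_mul, hs, star_one] at this
    calc star (↑u⁻¹ : H →L[ℂ] H) = star (↑u⁻¹ : H →L[ℂ] H) * ((u : H →L[ℂ] H) * ↑u⁻¹) := by
          rw [Units.mul_inv, mul_one]
      _ = ↑u⁻¹ := by rw [← mul_assoc, h3, one_mul]
  · rw [← hu]; exact Units.inv_mul u
  · rw [← hu]; exact Units.mul_inv u

lemma inner_sa {p : H →L[ℂ] H} (hs : IsSelfAdjoint p) (y z : H) : ⟪y, p z⟫_ℂ = ⟪p y, z⟫_ℂ := by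
  rw [← ContinuousLinearMap.adjoint_inner_left, ← ContinuousLinearMap.star_eq_adjoint, hs.star_eq]

/-- The operator `q = 2 (1+W)⁻¹`. -/
lemma exists_q (M : VonNeumannAlgebra H) {W : H →L[ℂ] H} (hWM : W ∈ M) (hW : W.IsPositive) :
    ∃ q : H →L[ℂ] H, q ∈ M ∧ IsSelfAdjoint q ∧ (∀ z, ‖q z‖ ≤ 2 * ‖z‖) ∧
      (∀ z, (⟪q z, W (q z)⟫_ℂ).re ≤ ‖z‖ ^ 2) ∧ (∀ z, ‖z - q z‖ ≤ ‖z‖) ∧
      (∀ z, ‖z - q z‖ ≤ ‖W z - z‖) := by
  obtain ⟨R, hRM, hRs, hR1, hR2⟩ := exists_resolvent M hWM hW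
  have hpos : ∀ y, 0 ≤ (⟪y, W y⟫_ℂ).re := fun y => hW.re_inner_nonneg_right y
  have hid : ∀ y, ‖W y + y‖ ^ 2 = ‖W y - y‖ ^ 2 + 4 * (⟪y, W y⟫_ℂ).re := by
    intro y
    have h1 := @norm_add_sq ℂ H _ _ _ (W y) y
    have h2 := @norm_sub_sq ℂ H _ _ _ (W y) y
    have h3 : RCLike.re ⟪W y, y⟫_ℂ = (⟪y, W y⟫_ℂ).re := inner_re_symm (𝕜 := ℂ) _ _
    rw [h1, h2, h3]
    ring
  have hz : ∀ z, W (R z) + R z = z := by
    intro z
    have := congrArg (fun T : H →L[ℂ] H => T z) hR2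
    simp only [add_mul, one_mul, add_apply, mulA, one_apply_eq_self] at this
    rw [add_comm]
    exact this
  have hz' : ∀ z, R (W z) + R z = z := by
    intro z
    have := congrArg (fun T : H →L[ℂ] H => T z) hR1
    simp only [mul_add, mul_one, add_apply, mulA, one_apply_eq_self] at this
    rw [add_comm]
    exact this
  have hRnorm : ∀ v, ‖R v‖ ≤ ‖v‖ := by
    intro v
    have h1 := @norm_add_sq ℂ H _ _ _ (W (R v)) (R v)
    rw [hz v] at h1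
    have h3 : RCLike.re ⟪W (R v), R v⟫_ℂ = (⟪R v, W (R v)⟫_ℂ).re := inner_re_symm (𝕜 := ℂ) _ _
    rw [h3] at h1
    have h4 := hpos (R v)
    have h5 : ‖R v‖ ^ 2 ≤ ‖v‖ ^ 2 := by nlinarith [sq_nonneg ‖W (R v)‖]
    exact (sq_le_sq₀ (norm_nonneg _) (norm_nonneg _)).1 h5
  have hq : ∀ z, ((2 : ℂ) • R) z = (2 : ℂ) • R z := fun z => rfl
  have hzq : ∀ z, z - (2 : ℂ) • R z = W (R z) - R z := by
    intro z
    have key : ∀ y w : H, W y + y = w → w - (y + y) = W y - y := by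
      rintro y _ rfl; abel
    rw [two_smul]
    exact key _ _ (hz z)
  refine ⟨(2 : ℂ) • R, M.toStarSubalgebra.smul_mem hRM _, ?_, ?_, ?_, ?_, ?_⟩
  · rw [isSelfAdjoint_iff, star_smul, hRs.star_eq]
    simp
  · intro z
    rw [hq, norm_smul]
    simpa using mul_le_mul_of_nonneg_left (hRnorm z) (by norm_num : (0:ℝ) ≤ 2)
  · intro z
    rw [hq]
    have h1 := hid (R z)
    rw [hz z] at h1
    have h2 : ⟪(2 : ℂ) • R z, W ((2 : ℂ) • R z)⟫_ℂ = 4 * ⟪R z, W (R z)⟫_ℂ := by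
      have h0 : (starRingEnd ℂ) (2:ℂ) = 2 := Complex.conj_eq_iff_real.2 ⟨2, by norm_num⟩
      rw [map_smul, inner_smul_left, inner_smul_right, h0]
      ring
    rw [h2]
    have h3 : (4 * ⟪R z, W (R z)⟫_ℂ).re = 4 * (⟪R z, W (R z)⟫_ℂ).re := by simp
    rw [h3, h1]
    nlinarith [sq_nonneg ‖W (R z) - R z‖]
  · intro z
    rw [hq, hzq]
    have h1 := hid (R z)
    rw [hz z] at h1
    have h5 : ‖W (R z) - R z‖ ^ 2 ≤ ‖z‖ ^ 2 := by nlinarith [hpos (R z)]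
    exact (sq_le_sq₀ (norm_nonneg _) (norm_nonneg _)).1 h5
  · intro z
    rw [hq, hzq]
    have h1 : W (R z) = R (W z) := by
      have h2 : W (R z) + R z = R (W z) + R z := by rw [hz, hz']
      exact add_right_cancel h2
    have h4 : W (R z) - R z = R (W z - z) := by
      rw [map_sub, h1]
    rw [h4]
    exact hRnorm _

/-- The Grothendieck family bound. -/
lemma family_bound {n : ℕ} {K : Type*} [NormedAddCommGroup K] [InnerProductSpace ℂ K]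
    [CompleteSpace K] (M : VonNeumannAlgebra H) (σ : Fin n → H →L[ℂ] H) (l : Fin n → ℝ)
    (hl : ∀ j, 0 ≤ l j) (hσM : ∀ j, σ j ∈ M) (hσs : ∀ j, IsSelfAdjoint (σ j))
    {q : H →L[ℂ] H} (hqM : q ∈ M) (hqs : IsSelfAdjoint q) (hq2 : ∀ z, ‖q z‖ ≤ 2 * ‖z‖)
    (hqW : ∀ z, ∑ j, l j * ‖σ j (q z)‖ ^ 2 ≤ ‖z‖ ^ 2)
    (v : (H →L[ℂ] H) →L[ℂ] K) {η : ℝ} (hη : 0 ≤ η) (hv : ∀ c ∈ M, ‖v c‖ ≤ η * ‖c‖) :
    ∑ j, l j * ‖v (q * σ j * q)‖ ^ 2 ≤ 256 * η ^ 2 := by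
  set c : Fin n → ℝ := fun j => (1 / 2) * √(l j) with hc
  have hc2 : ∀ j, c j ^ 2 = l j / 4 := by
    intro j
    simp only [hc, mul_pow, Real.sq_sqrt (hl j)]
    ring
  set a : Fin n → H →L[ℂ] H := fun j => (c j : ℂ) • (q * σ j * q) with ha
  have h1 := little_gt (a := a) M (fun j => ?_) (fun j => ?_) (fun z => ?_) v η hη hv
  · have h2 : ∀ j, ‖v (a j)‖ ^ 2 = l j / 4 * ‖v (q * σ j * q)‖ ^ 2 := by
      intro j
      simp only [ha]
      rw [map_smul, norm_smul, mul_pow, Complex.norm_real, Real.norm_eq_abs, sq_abs, hc2]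
    simp only [h2] at h1
    have h3 : ∑ j, l j / 4 * ‖v (q * σ j * q)‖ ^ 2 = (∑ j, l j * ‖v (q * σ j * q)‖ ^ 2) / 4 := by
      rw [Finset.sum_div]
      refine Finset.sum_congr rfl fun j _ => by ring
    rw [h3] at h1
    linarith
  · simp only [ha]
    rw [isSelfAdjoint_iff, star_smul, star_mul, star_mul, hqs.star_eq, (hσs j).star_eq]
    simp [mul_assoc]
  · exact M.toStarSubalgebra.smul_mem (mul_mem (mul_mem hqM (hσM j)) hqM) _
  · have h2 : ∀ j, ‖a j z‖ ^ 2 ≤ l j * ‖σ j (q z)‖ ^ 2 := by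
      intro j
      have h3 : a j z = (c j : ℂ) • q (σ j (q z)) := rfl
      rw [h3, norm_smul, mul_pow, Complex.norm_real, Real.norm_eq_abs, sq_abs, hc2]
      have h4 : ‖q (σ j (q z))‖ ^ 2 ≤ (2 * ‖σ j (q z)‖) ^ 2 := by
        gcongr
        exact hq2 _
      have h5 : 0 ≤ l j / 4 := by have := hl j; positivity
      calc _ ≤ l j / 4 * (2 * ‖σ j (q z)‖) ^ 2 := mul_le_mul_of_nonneg_left h4 h5
        _ = _ := by ring
    exact (Finset.sum_le_sum fun j _ => h2 j).trans (hqW z)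

lemma norm_add3_sq_le {E : Type*} [SeminormedAddCommGroup E] (x y z : E) :
    ‖x + y + z‖ ^ 2 ≤ 3 * (‖x‖ ^ 2 + ‖y‖ ^ 2 + ‖z‖ ^ 2) := by
  have h1 : ‖x + y + z‖ ≤ ‖x‖ + ‖y‖ + ‖z‖ := norm_add₃_le
  have h2 : ‖x + y + z‖ ^ 2 ≤ (‖x‖ + ‖y‖ + ‖z‖) ^ 2 := by gcongr
  nlinarith [sq_nonneg (‖x‖ - ‖y‖), sq_nonneg (‖y‖ - ‖z‖), sq_nonneg (‖x‖ - ‖z‖)]

lemma norm_add_sq_le' {E : Type*} [SeminormedAddCommGroup E] (x y : E) :
    ‖x + y‖ ^ 2 ≤ 2 * (‖x‖ ^ 2 + ‖y‖ ^ 2) := by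
  have h1 : ‖x + y‖ ≤ ‖x‖ + ‖y‖ := norm_add_le _ _
  have h2 : ‖x + y‖ ^ 2 ≤ (‖x‖ + ‖y‖) ^ 2 := by gcongr
  nlinarith [sq_nonneg (‖x‖ - ‖y‖)]

namespace MD

variable {S : ModularDatum H} (herg : S.Ergodic) (ω : Ultrafilter ℕ) (hω : (ω : Filter ℕ) ≤ atTop)

lemma bc_norm_sq (P : H →L[ℂ] H) (k : H) : BC (fun r : ℝ => ‖P (S.D.wave r k)‖ ^ 2) := by
  refine ⟨((P.continuous.comp (continuous_wave S.D k)).norm).pow 2, (‖P‖ * ‖k‖) ^ 2, by positivity, ?_⟩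
  intro r
  rw [Real.norm_eq_abs, abs_of_nonneg (by positivity)]
  gcongr
  calc _ ≤ ‖P‖ * ‖S.D.wave r k‖ := P.le_opNorm _
    _ = _ := by rw [norm_wave_apply]

include herg hω in
theorem key_eps (P : H →L[ℂ] H) {η : ℝ} (hη : 0 ≤ η) (hP : ∀ a ∈ S.M, ‖P (a S.vac)‖ ≤ η * ‖a‖)
    {p : H →L[ℂ] H} (hpM : p ∈ S.M) (hps : IsSelfAdjoint p) (hk : ‖p S.vac‖ = 1)
    {ε : ℝ} (hε : 0 < ε) (hε1 : ε ≤ 1) :
    mean ω (fun r => ‖P (S.D.wave r (p S.vac))‖ ^ 2) ≤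
      768 * η ^ 2 + (36 * ‖P‖ ^ 2 + 12 * ‖P‖ ^ 2 * ‖p‖ ^ 2) * ε ^ 2 := by
  classical
  set k := p S.vac with hkdef
  obtain ⟨b, hb, hbk⟩ := commutant_cyclic S k hε
  set g := star b * b with hg
  obtain ⟨n, l, τ, hl, hl1, hA, hB⟩ := exists_convex herg ω hω ((p * p) S.vac) (g S.vac) hε
  have hc1 : ⟪S.vac, (p * p) S.vac⟫_ℂ = 1 := by
    rw [mulA, inner_sa hps, inner_self_eq_norm_sq_to_K, hk]
    simp
  rw [hc1, one_smul] at hA
  have hc2 : ⟪S.vac, g S.vac⟫_ℂ = ((‖b S.vac‖ ^ 2 : ℝ) : ℂ) := by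
    rw [hg, mulA, ContinuousLinearMap.star_eq_adjoint, ContinuousLinearMap.adjoint_inner_right,
      inner_self_eq_norm_sq_to_K]
    simp
  rw [hc2] at hB
  set σ : Fin n → H →L[ℂ] H := fun j => S.flow (τ j) p with hσ
  have hσM : ∀ j, σ j ∈ S.M := fun j => flow_mem S hpM
  have hσs : ∀ j, IsSelfAdjoint (σ j) := fun j => flow_isSelfAdjoint S _ hps
  have hσnorm : ∀ j, ‖σ j‖ ≤ ‖p‖ := fun j => norm_flow_le S _ _
  have hσvac : ∀ j, σ j S.vac = S.D.wave (τ j) k := fun j => flow_vac S _ _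
  set W : H →L[ℂ] H := ∑ j, (l j : ℂ) • S.flow (τ j) (p * p) with hW
  have hWM : W ∈ S.M :=
    sum_mem fun j _ => S.M.toStarSubalgebra.smul_mem (flow_mem S (mul_mem hpM hpM)) _
  have hWapply : ∀ z, W z = ∑ j, (l j : ℂ) • σ j (σ j z) := by
    intro z
    rw [hW, sum_apply]
    refine Finset.sum_congr rfl fun j _ => ?_
    rw [flow_mul]
    rfl
  have hWinner : ∀ y z, ⟪y, W z⟫_ℂ = ∑ j, (l j : ℂ) * ⟪σ j y, σ j z⟫_ℂ := by
    intro y z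
    rw [hWapply, inner_sum]
    refine Finset.sum_congr rfl fun j _ => ?_
    rw [inner_smul_right, inner_sa (hσs j)]
  have hWself : ∀ z, ⟪z, W z⟫_ℂ = ((∑ j, l j * ‖σ j z‖ ^ 2 : ℝ) : ℂ) := by
    intro z
    rw [hWinner, Complex.ofReal_sum]
    refine Finset.sum_congr rfl fun j _ => ?_
    rw [inner_self_eq_norm_sq_to_K]
    simp
  have hWpos : W.IsPositive := by
    rw [ContinuousLinearMap.isPositive_iff_complex]
    intro z
    have h1 : ⟪W z, z⟫_ℂ = conj ⟪z, W z⟫_ℂ := (inner_conj_symm _ _).symm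
    have h2 : ⟪W z, z⟫_ℂ = ((∑ j, l j * ‖σ j z‖ ^ 2 : ℝ) : ℂ) := by
      rw [h1, hWself, Complex.conj_ofReal]
    rw [h2]
    have : 0 ≤ ∑ j, l j * ‖σ j z‖ ^ 2 := Finset.sum_nonneg fun j _ => mul_nonneg (hl j) (by positivity)
    generalize (∑ j, l j * ‖σ j z‖ ^ 2) = A at this
    refine ⟨by simp, by simpa using this⟩
  obtain ⟨q, hqM, hqs, hq2, hqW, hq1, hqA⟩ := exists_q S.M hWM hWpos
  have hqW' : ∀ z, ∑ j, l j * ‖σ j (q z)‖ ^ 2 ≤ ‖z‖ ^ 2 := by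
    intro z
    have h1 := hqW z
    rw [hWself, Complex.ofReal_re] at h1
    exact h1
  -- the defect at the vacuum
  have hWvac : W S.vac = ∑ j, (l j : ℂ) • S.D.wave (τ j) ((p * p) S.vac) := by
    rw [hW, sum_apply]
    refine Finset.sum_congr rfl fun j _ => ?_
    rw [smul_apply, flow_vac]
  have hdefect : ‖S.vac - q S.vac‖ ≤ ε := by
    refine (hqA _).trans ?_
    rw [hWvac]
    exact hA.le
  -- the left defect
  set x := (1 - q) * (1 - q) with hx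
  have hxM : x ∈ S.M := mul_mem (sub_mem (one_mem _) hqM) (sub_mem (one_mem _) hqM)
  have h1q : ∀ z, (1 - q) z = z - q z := fun z => rfl
  have h1qs : IsSelfAdjoint (1 - q) := (IsSelfAdjoint.one _).sub hqs
  have hxinner : ∀ z, ⟪z, x z⟫_ℂ = ((‖z - q z‖ ^ 2 : ℝ) : ℂ) := by
    intro z
    rw [hx, mulA, inner_sa h1qs, h1q, inner_self_eq_norm_sq_to_K]
    simp
  have hbnorm : ‖b S.vac‖ ≤ 2 := by
    have h1 : ‖b S.vac‖ ≤ ‖k‖ + ‖k - b S.vac‖ := by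
      have := norm_sub_le k (k - b S.vac)
      simpa using this
    rw [hk] at h1
    linarith
  have hleft : ∑ j, l j * ‖S.D.wave (τ j) (b S.vac) - q (S.D.wave (τ j) (b S.vac))‖ ^ 2 ≤ 5 * ε ^ 2 := by
    have h1 : ∀ j, ((‖S.D.wave (τ j) (b S.vac) - q (S.D.wave (τ j) (b S.vac))‖ ^ 2 : ℝ) : ℂ) =
        ⟪S.D.wave (τ j) (g S.vac), x S.vac⟫_ℂ := by
      intro j
      rw [← hxinner]
      exact inner_wave_commutant S hb hxM (τ j)
    have h2 : ((∑ j, l j * ‖S.D.wave (τ j) (b S.vac) - q (S.D.wave (τ j) (b S.vac))‖ ^ 2 : ℝ) : ℂ) =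
        ⟪∑ j, (l j : ℂ) • S.D.wave (τ j) (g S.vac), x S.vac⟫_ℂ := by
      rw [Complex.ofReal_sum, sum_inner]
      refine Finset.sum_congr rfl fun j _ => ?_
      rw [Complex.ofReal_mul, h1, inner_smul_left, Complex.conj_ofReal]
    set y := ∑ j, (l j : ℂ) • S.D.wave (τ j) (g S.vac) with hy
    set c : ℝ := ‖b S.vac‖ ^ 2 with hc
    have h3 : y = (y - (c : ℂ) • S.vac) + (c : ℂ) • S.vac := by abel
    have h4 : ⟪y, x S.vac⟫_ℂ = ⟪y - (c : ℂ) • S.vac, x S.vac⟫_ℂ + (c : ℂ) * ⟪S.vac, x S.vac⟫_ℂ := by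
      rw [inner_sub_left, inner_smul_left, Complex.conj_ofReal]
      ring
    rw [h4, hxinner] at h2
    have h5 : ‖x S.vac‖ ≤ ε := by
      have h6 : x S.vac = (1 - q) ((1 - q) S.vac) := rfl
      rw [h6, h1q (((1 - q) S.vac))]
      exact (hq1 _).trans hdefect
    have h7 : ‖⟪y - (c : ℂ) • S.vac, x S.vac⟫_ℂ‖ ≤ ε * ε :=
      (norm_inner_le_norm _ _).trans (mul_le_mul hB.le h5 (norm_nonneg _) hε.le)
    have h8 : (∑ j, l j * ‖S.D.wave (τ j) (b S.vac) - q (S.D.wave (τ j) (b S.vac))‖ ^ 2 : ℝ) =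
        (⟪y - (c : ℂ) • S.vac, x S.vac⟫_ℂ).re + c * ‖S.vac - q S.vac‖ ^ 2 := by
      have := congrArg Complex.re h2
      rw [Complex.ofReal_re] at this
      rw [this, Complex.add_re, ← Complex.ofReal_mul, Complex.ofReal_re]
    rw [h8]
    have h9 : (⟪y - (c : ℂ) • S.vac, x S.vac⟫_ℂ).re ≤ ε * ε := (Complex.re_le_norm _).trans h7
    have h10 : c ≤ 4 := by
      rw [hc]
      nlinarith [norm_nonneg (b S.vac)]
    have h11 : ‖S.vac - q S.vac‖ ^ 2 ≤ ε ^ 2 := by gcongr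
    have h12 : 0 ≤ c := by positivity
    nlinarith [mul_le_mul h10 h11 (by positivity) (by norm_num : (0:ℝ) ≤ 4)]
  have hE : ∑ j, l j * ‖σ j S.vac - q (σ j S.vac)‖ ^ 2 ≤ 12 * ε ^ 2 := by
    have h1 : ∀ j, ‖σ j S.vac - q (σ j S.vac)‖ ^ 2 ≤
        2 * (‖S.D.wave (τ j) (b S.vac) - q (S.D.wave (τ j) (b S.vac))‖ ^ 2 + ε ^ 2) := by
      intro j
      rw [hσvac]
      have h2 : S.D.wave (τ j) k - q (S.D.wave (τ j) k) =
          (S.D.wave (τ j) (b S.vac) - q (S.D.wave (τ j) (b S.vac))) +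
          (S.D.wave (τ j) (k - b S.vac) - q (S.D.wave (τ j) (k - b S.vac))) := by
        rw [map_sub, map_sub]
        abel
      rw [h2]
      refine (norm_add_sq_le' _ _).trans ?_
      have h3 : ‖S.D.wave (τ j) (k - b S.vac) - q (S.D.wave (τ j) (k - b S.vac))‖ ≤ ε := by
        refine (hq1 _).trans ?_
        rw [norm_wave_apply]
        exact hbk.le
      have h4 : ‖S.D.wave (τ j) (k - b S.vac) - q (S.D.wave (τ j) (k - b S.vac))‖ ^ 2 ≤ ε ^ 2 := by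
        gcongr
      linarith
    calc _ ≤ ∑ j, l j * (2 * (‖S.D.wave (τ j) (b S.vac) - q (S.D.wave (τ j) (b S.vac))‖ ^ 2 + ε ^ 2)) :=
          Finset.sum_le_sum fun j _ => mul_le_mul_of_nonneg_left (h1 j) (hl j)
      _ = 2 * (∑ j, l j * ‖S.D.wave (τ j) (b S.vac) - q (S.D.wave (τ j) (b S.vac))‖ ^ 2) +
            2 * ε ^ 2 * ∑ j, l j := by
          rw [Finset.mul_sum, Finset.mul_sum, ← Finset.sum_add_distrib]
          refine Finset.sum_congr rfl fun j _ => by ring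
      _ ≤ 12 * ε ^ 2 := by rw [hl1]; linarith
  -- the pointwise inequality
  have hv : ∀ r : ℝ, ∀ c ∈ S.M, ‖((P * S.D.wave r).comp (ContinuousLinearMap.apply ℂ H S.vac)) c‖ ≤ η * ‖c‖ := by
    intro r c hc
    have h1 : ((P * S.D.wave r).comp (ContinuousLinearMap.apply ℂ H S.vac)) c = P (S.flow r c S.vac) := by
      rw [flow_vac]
      rfl
    rw [h1]
    refine (hP _ (flow_mem S hc)).trans ?_
    gcongr
    exact norm_flow_le S _ _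
  have hpoint : ∀ r : ℝ, ∑ j, l j * ‖P (S.D.wave (r + τ j) k)‖ ^ 2 ≤
      768 * η ^ 2 + (36 * ‖P‖ ^ 2 + 12 * ‖P‖ ^ 2 * ‖p‖ ^ 2) * ε ^ 2 := by
    intro r
    have hfam := family_bound S.M σ l hl hσM hσs hqM hqs hq2 hqW'
      ((P * S.D.wave r).comp (ContinuousLinearMap.apply ℂ H S.vac)) hη (hv r)
    have hfam' : ∑ j, l j * ‖P (S.D.wave r (q (σ j (q S.vac))))‖ ^ 2 ≤ 256 * η ^ 2 := hfam
    have hdec : ∀ j, ‖P (S.D.wave (r + τ j) k)‖ ^ 2 ≤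
        3 * (‖P (S.D.wave r (q (σ j (q S.vac))))‖ ^ 2 +
          ‖P‖ ^ 2 * ‖σ j S.vac - q (σ j S.vac)‖ ^ 2 +
          ‖P‖ ^ 2 * (4 * ‖p‖ ^ 2 * ε ^ 2)) := by
      intro j
      have h1 : S.D.wave (r + τ j) k = S.D.wave r (σ j S.vac) := by
        rw [hσvac, wave_add]
        rfl
      have h2 : P (S.D.wave r (σ j S.vac)) = P (S.D.wave r (q (σ j (q S.vac)))) +
          P (S.D.wave r (σ j S.vac - q (σ j S.vac))) +
          P (S.D.wave r (q (σ j (S.vac - q S.vac)))) := by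
        simp only [map_sub]
        abel
      rw [h1, h2]
      refine (norm_add3_sq_le _ _ _).trans ?_
      have h3 : ‖P (S.D.wave r (σ j S.vac - q (σ j S.vac)))‖ ^ 2 ≤
          ‖P‖ ^ 2 * ‖σ j S.vac - q (σ j S.vac)‖ ^ 2 := by
        rw [← mul_pow]
        gcongr
        calc _ ≤ ‖P‖ * ‖S.D.wave r (σ j S.vac - q (σ j S.vac))‖ := P.le_opNorm _
          _ = _ := by rw [norm_wave_apply]
      have h4 : ‖P (S.D.wave r (q (σ j (S.vac - q S.vac))))‖ ^ 2 ≤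
          ‖P‖ ^ 2 * (4 * ‖p‖ ^ 2 * ε ^ 2) := by
        have h5 : ‖P (S.D.wave r (q (σ j (S.vac - q S.vac))))‖ ≤ ‖P‖ * (2 * ‖p‖ * ε) := by
          calc _ ≤ ‖P‖ * ‖S.D.wave r (q (σ j (S.vac - q S.vac)))‖ := P.le_opNorm _
            _ = ‖P‖ * ‖q (σ j (S.vac - q S.vac))‖ := by rw [norm_wave_apply]
            _ ≤ ‖P‖ * (2 * ‖σ j (S.vac - q S.vac)‖) := by gcongr; exact hq2 _
            _ ≤ ‖P‖ * (2 * (‖σ j‖ * ‖S.vac - q S.vac‖)) := by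
                gcongr; exact (σ j).le_opNorm _
            _ ≤ ‖P‖ * (2 * (‖p‖ * ε)) := by
                gcongr
                exact hσnorm j
            _ = _ := by ring
        have h6 : ‖P (S.D.wave r (q (σ j (S.vac - q S.vac))))‖ ^ 2 ≤ (‖P‖ * (2 * ‖p‖ * ε)) ^ 2 := by
          gcongr
        calc _ ≤ _ := h6
          _ = _ := by ring
      linarith
    calc _ ≤ ∑ j, l j * (3 * (‖P (S.D.wave r (q (σ j (q S.vac))))‖ ^ 2 +
          ‖P‖ ^ 2 * ‖σ j S.vac - q (σ j S.vac)‖ ^ 2 +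
          ‖P‖ ^ 2 * (4 * ‖p‖ ^ 2 * ε ^ 2))) :=
          Finset.sum_le_sum fun j _ => mul_le_mul_of_nonneg_left (hdec j) (hl j)
      _ = 3 * (∑ j, l j * ‖P (S.D.wave r (q (σ j (q S.vac))))‖ ^ 2) +
          3 * ‖P‖ ^ 2 * (∑ j, l j * ‖σ j S.vac - q (σ j S.vac)‖ ^ 2) +
          3 * ‖P‖ ^ 2 * (4 * ‖p‖ ^ 2 * ε ^ 2) * ∑ j, l j := by
          rw [Finset.mul_sum, Finset.mul_sum, Finset.mul_sum, ← Finset.sum_add_distrib,
            ← Finset.sum_add_distrib]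
          refine Finset.sum_congr rfl fun j _ => by ring
      _ ≤ _ := by
          rw [hl1]
          have h7 : 3 * ‖P‖ ^ 2 * (∑ j, l j * ‖σ j S.vac - q (σ j S.vac)‖ ^ 2) ≤
              3 * ‖P‖ ^ 2 * (12 * ε ^ 2) := mul_le_mul_of_nonneg_left hE (by positivity)
          nlinarith
  -- the mean
  have hG := bc_norm_sq (S := S) P k
  have hsum : mean ω (fun r => ∑ j, l j * ‖P (S.D.wave (r + τ j) k)‖ ^ 2) =
      mean ω (fun r => ‖P (S.D.wave r k)‖ ^ 2) := by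
    have h1 : ∀ j, BC (fun r => l j * ‖P (S.D.wave (r + τ j) k)‖ ^ 2) := fun j => by
      simpa using (hG.shift (τ j)).smul (l j)
    rw [mean_sum _ (fun j _ => h1 j) ω hω]
    have h2 : ∀ j, mean ω (fun r => l j * ‖P (S.D.wave (r + τ j) k)‖ ^ 2) =
        l j * mean ω (fun r => ‖P (S.D.wave r k)‖ ^ 2) := by
      intro j
      have h3 := mean_smul (hG.shift (τ j)) (l j) ω
      rw [mean_shift hG (τ j) ω hω] at h3
      simpa using h3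
    simp only [h2]
    rw [← Finset.sum_mul, hl1, one_mul]
  rw [← hsum]
  have h3 := mean_mono (F := fun r => ∑ j, l j * ‖P (S.D.wave (r + τ j) k)‖ ^ 2)
    (G := fun _ => 768 * η ^ 2 + (36 * ‖P‖ ^ 2 + 12 * ‖P‖ ^ 2 * ‖p‖ ^ 2) * ε ^ 2)
    (BC.sum _ fun j _ => by simpa using (hG.shift (τ j)).smul (l j)) (BC.const _) hpoint ω
  rwa [mean_const ω hω] at h3

include herg hω in
theorem key_unit (P : H →L[ℂ] H) {η : ℝ} (hη : 0 ≤ η) (hP : ∀ a ∈ S.M, ‖P (a S.vac)‖ ≤ η * ‖a‖)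
    {p : H →L[ℂ] H} (hpM : p ∈ S.M) (hps : IsSelfAdjoint p) (hk : ‖p S.vac‖ = 1) :
    mean ω (fun r => ‖P (S.D.wave r (p S.vac))‖ ^ 2) ≤ 768 * η ^ 2 := by
  refine le_of_forall_pos_le_add fun δ hδ => ?_
  set C : ℝ := 36 * ‖P‖ ^ 2 + 12 * ‖P‖ ^ 2 * ‖p‖ ^ 2 with hC
  have hC0 : 0 ≤ C := by positivity
  set ε : ℝ := min 1 (√(δ / (C + 1))) with hε
  have hε0 : 0 < ε := lt_min one_pos (Real.sqrt_pos.2 (by positivity))
  have hε1 : ε ≤ 1 := min_le_left _ _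
  refine (key_eps herg ω hω P hη hP hpM hps hk hε0 hε1).trans ?_
  have h1 : ε ^ 2 ≤ δ / (C + 1) := by
    have h2 : ε ≤ √(δ / (C + 1)) := min_le_right _ _
    have h3 : ε ^ 2 ≤ √(δ / (C + 1)) ^ 2 := by gcongr
    rwa [Real.sq_sqrt (by positivity)] at h3
  have h4 : C * ε ^ 2 ≤ δ := by
    calc C * ε ^ 2 ≤ C * (δ / (C + 1)) := by gcongr
      _ = δ * (C / (C + 1)) := by ring
      _ ≤ δ * 1 := by
          gcongr
          rw [div_le_one (by positivity)]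
          linarith
      _ = δ := mul_one _
  linarith

include herg hω in
theorem key_sa (P : H →L[ℂ] H) {η : ℝ} (hη : 0 ≤ η) (hP : ∀ a ∈ S.M, ‖P (a S.vac)‖ ≤ η * ‖a‖)
    {p : H →L[ℂ] H} (hpM : p ∈ S.M) (hps : IsSelfAdjoint p) :
    mean ω (fun r => ‖P (S.D.wave r (p S.vac))‖ ^ 2) ≤ 768 * η ^ 2 * ‖p S.vac‖ ^ 2 := by
  by_cases h0 : p S.vac = 0
  · have h1 : (fun r => ‖P (S.D.wave r (p S.vac))‖ ^ 2) = fun _ : ℝ => (0 : ℝ) := by
      funext r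
      simp [h0]
    rw [h1, mean_const ω hω, h0]
    simp
  set ρ : ℝ := ‖p S.vac‖ with hρ
  have hρ0 : 0 < ρ := norm_pos_iff.2 h0
  set p' : H →L[ℂ] H := ((ρ⁻¹ : ℝ) : ℂ) • p with hp'
  have hp'M : p' ∈ S.M := S.M.toStarSubalgebra.smul_mem hpM _
  have hp's : IsSelfAdjoint p' := by
    rw [isSelfAdjoint_iff, hp', star_smul, hps.star_eq]
    simp
  have hp'v : p' S.vac = ((ρ⁻¹ : ℝ) : ℂ) • p S.vac := rfl
  have hk : ‖p' S.vac‖ = 1 := by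
    rw [hp'v, norm_smul, Complex.norm_real, ← hρ, Real.norm_eq_abs, abs_of_pos (by positivity)]
    field_simp
  have h1 := key_unit herg ω hω P hη hP hp'M hp's hk
  have h2 : (fun r => ‖P (S.D.wave r (p S.vac))‖ ^ 2) =
      fun r => ρ ^ 2 • ‖P (S.D.wave r (p' S.vac))‖ ^ 2 := by
    funext r
    rw [hp'v, map_smul, map_smul, norm_smul, Complex.norm_real, mul_pow, Real.norm_eq_abs, sq_abs,
      smul_eq_mul, ← mul_assoc, ← mul_pow]
    have : ρ * ρ⁻¹ = 1 := by field_simp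
    rw [this]
    simp
  rw [h2, mean_smul (bc_norm_sq P _), smul_eq_mul]
  have h3 : 0 ≤ ρ ^ 2 := by positivity
  nlinarith [mul_le_mul_of_nonneg_left h1 h3]

include herg hω in
theorem key_general (P : H →L[ℂ] H) {η : ℝ} (hη : 0 ≤ η) (hP : ∀ a ∈ S.M, ‖P (a S.vac)‖ ≤ η * ‖a‖)
    {a : H →L[ℂ] H} (haM : a ∈ S.M) :
    mean ω (fun r => ‖P (S.D.wave r (a S.vac))‖ ^ 2) ≤
      768 * η ^ 2 * (‖a S.vac‖ ^ 2 + ‖star a S.vac‖ ^ 2) := by
  set p₁ : H →L[ℂ] H := ((1 / 2 : ℂ)) • (a + star a) with hp₁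
  set p₂ : H →L[ℂ] H := ((-Complex.I / 2 : ℂ)) • (a - star a) with hp₂
  have hstarM : star a ∈ S.M := star_mem haM
  have hp₁M : p₁ ∈ S.M := S.M.toStarSubalgebra.smul_mem (add_mem haM hstarM) _
  have hp₂M : p₂ ∈ S.M := S.M.toStarSubalgebra.smul_mem (sub_mem haM hstarM) _
  have hp₁s : IsSelfAdjoint p₁ := by
    rw [isSelfAdjoint_iff, hp₁, star_smul, star_add, star_star, add_comm (star a)]
    congr 1
    simp
  have hp₂s : IsSelfAdjoint p₂ := by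
    rw [isSelfAdjoint_iff, hp₂, star_smul, star_sub, star_star]
    have h1 : star (-Complex.I / 2 : ℂ) = Complex.I / 2 := by
      simp [Complex.conj_I]
    rw [h1, ← neg_sub a (star a), smul_neg, ← neg_smul]
    congr 1
    ring
  have hv₁ : p₁ S.vac = (1 / 2 : ℂ) • (a S.vac + star a S.vac) := rfl
  have hv₂ : p₂ S.vac = (-Complex.I / 2 : ℂ) • (a S.vac - star a S.vac) := rfl
  have hdec : a S.vac = p₁ S.vac + Complex.I • p₂ S.vac := by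
    rw [hv₁, hv₂, smul_add, smul_smul, smul_sub]
    have h1 : Complex.I * (-Complex.I / 2) = 1 / 2 := by
      rw [mul_div_assoc', mul_neg, Complex.I_mul_I]
      norm_num
    rw [h1]
    have h2 : a S.vac = (1 / 2 : ℂ) • a S.vac + (1 / 2 : ℂ) • a S.vac := by
      rw [← add_smul]
      norm_num
    nth_rewrite 1 [h2]
    abel
  have hpoint : ∀ r, ‖P (S.D.wave r (a S.vac))‖ ^ 2 ≤
      2 * ‖P (S.D.wave r (p₁ S.vac))‖ ^ 2 + 2 * ‖P (S.D.wave r (p₂ S.vac))‖ ^ 2 := by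
    intro r
    rw [hdec]
    simp only [map_add, map_smul]
    refine (norm_add_sq_le' _ _).trans ?_
    rw [norm_smul]
    simp
    linarith
  have hb₁ := bc_norm_sq (S := S) P (p₁ S.vac)
  have hb₂ := bc_norm_sq (S := S) P (p₂ S.vac)
  have h1 := mean_mono (bc_norm_sq (S := S) P (a S.vac)) ((hb₁.smul 2).add (hb₂.smul 2))
    (by simpa using hpoint) ω
  rw [mean_add (hb₁.smul 2) (hb₂.smul 2), mean_smul hb₁, mean_smul hb₂] at h1
  have h2 := key_sa herg ω hω P hη hP hp₁M hp₁s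
  have h3 := key_sa herg ω hω P hη hP hp₂M hp₂s
  have h4 : ‖p₁ S.vac‖ ^ 2 + ‖p₂ S.vac‖ ^ 2 = (‖a S.vac‖ ^ 2 + ‖star a S.vac‖ ^ 2) / 2 := by
    rw [hv₁, hv₂, norm_smul, norm_smul, mul_pow, mul_pow]
    have h5 : ‖(1 / 2 : ℂ)‖ ^ 2 = 1 / 4 := by norm_num
    have h6 : ‖(-Complex.I / 2 : ℂ)‖ ^ 2 = 1 / 4 := by
      rw [norm_div, norm_neg, Complex.norm_I]
      norm_num
    rw [h5, h6]
    have h7 := parallelogram_law_with_norm ℂ (a S.vac) (star a S.vac)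
    nlinarith
  simp only [smul_eq_mul] at h1
  have h5 : 768 * η ^ 2 * ‖p₁ S.vac‖ ^ 2 + 768 * η ^ 2 * ‖p₂ S.vac‖ ^ 2 =
      768 * η ^ 2 * ((‖a S.vac‖ ^ 2 + ‖star a S.vac‖ ^ 2) / 2) := by
    rw [← h4]; ring
  linarith

include herg hω in
theorem key_graph (P : H →L[ℂ] H) {η : ℝ} (hη : 0 ≤ η) (hP : ∀ a ∈ S.M, ‖P (a S.vac)‖ ≤ η * ‖a‖)
    {x y : H} (hxy : (x, y) ∈ closure (Set.range fun a : S.M =>
      ((a : H →L[ℂ] H) S.vac, star (a : H →L[ℂ] H) S.vac))) :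
    mean ω (fun r => ‖P (S.D.wave r x)‖ ^ 2) ≤ 1536 * η ^ 2 * (‖x‖ ^ 2 + ‖y‖ ^ 2) := by
  obtain ⟨u, hu, hlim⟩ := mem_closure_iff_seq_limit.1 hxy
  have hlim₁ : Tendsto (fun k => (u k).1) atTop (𝓝 x) := hlim.fst_nhds
  have hlim₂ : Tendsto (fun k => (u k).2) atTop (𝓝 y) := hlim.snd_nhds
  have hbound : ∀ k, mean ω (fun r => ‖P (S.D.wave r x)‖ ^ 2) ≤
      1536 * η ^ 2 * (‖(u k).1‖ ^ 2 + ‖(u k).2‖ ^ 2) + 2 * ‖P‖ ^ 2 * ‖x - (u k).1‖ ^ 2 := by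
    intro k
    obtain ⟨a, ha⟩ := hu k
    rw [← ha]
    simp only
    set w := (a : H →L[ℂ] H) S.vac with hw
    have h1 := key_general herg ω hω P hη hP a.2
    rw [← hw] at h1
    have hpoint : ∀ r, ‖P (S.D.wave r x)‖ ^ 2 ≤
        2 * ‖P (S.D.wave r w)‖ ^ 2 + 2 * ‖P‖ ^ 2 * ‖x - w‖ ^ 2 := by
      intro r
      have h2 : P (S.D.wave r x) = P (S.D.wave r w) + P (S.D.wave r (x - w)) := by
        simp only [map_sub]
        abel
      rw [h2]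
      refine (norm_add_sq_le' _ _).trans ?_
      have h3 : ‖P (S.D.wave r (x - w))‖ ≤ ‖P‖ * ‖x - w‖ := by
        calc _ ≤ ‖P‖ * ‖S.D.wave r (x - w)‖ := P.le_opNorm _
          _ = _ := by rw [norm_wave_apply]
      have h4 : ‖P (S.D.wave r (x - w))‖ ^ 2 ≤ (‖P‖ * ‖x - w‖) ^ 2 := by gcongr
      rw [mul_pow] at h4
      linarith
    have hb := bc_norm_sq (S := S) P w
    have h5 := mean_mono (bc_norm_sq (S := S) P x) ((hb.smul 2).add (BC.const (2 * ‖P‖ ^ 2 * ‖x - w‖ ^ 2)))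
      (by simpa using hpoint) ω
    rw [mean_add (hb.smul 2) (BC.const _), mean_smul hb, mean_const ω hω, smul_eq_mul] at h5
    linarith
  have h1 : Tendsto (fun k => ‖x - (u k).1‖) atTop (𝓝 0) := by
    have := (tendsto_const_nhds (x := x)).sub hlim₁
    simpa using this.norm
  have h2 : Tendsto (fun k => 1536 * η ^ 2 * (‖(u k).1‖ ^ 2 + ‖(u k).2‖ ^ 2) +
      2 * ‖P‖ ^ 2 * ‖x - (u k).1‖ ^ 2) atTop
      (𝓝 (1536 * η ^ 2 * (‖x‖ ^ 2 + ‖y‖ ^ 2) + 2 * ‖P‖ ^ 2 * 0 ^ 2)) :=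
    (((hlim₁.norm.pow 2).add (hlim₂.norm.pow 2)).const_mul _).add ((h1.pow 2).const_mul _)
  have h3 := ge_of_tendsto' h2 hbound
  simpa using h3

end MD

end Crest.Agent.Lib.BRKey
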