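import Mathlib
import Crest.Prelude.Def_ModularData
import Crest.Agent.Lib.BRCalc
import Crest.Agent.Lib.BRVac
import Crest.Agent.Lib.BRMean
import Crest.Agent.Lib.BRErg

set_option autoImplicit false

namespace Crest.Agent.Lib.BRSmooth

open Crest.OpAlg MeasureTheory Filter Crest.Agent.Lib.BRCalc Crest.Agent.Lib.BRCalc.Calc
  Crest.Agent.Lib.BRMean Crest.Agent.Lib.BRVac Crest.Agent.Lib.BRErg Crest.Agent.Lib.BRErg.MD
open scoped InnerProductSpace ComplexConjugate Topology FourierTransform ContDiff SchwartzMap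
  Real

/-- A Fourier-represented plateau function. -/
lemma exists_kernel : ∃ (f : ℝ → ℂ) (ψ : ℝ → ℂ), Integrable f ∧ Continuous ψ ∧ (∀ u, ‖ψ u‖ ≤ 1) ∧
    (∀ u, |u| ≤ 1 → ψ u = 1) ∧ (∀ u, 2 ≤ |u| → ψ u = 0) ∧
    ∀ w : ℝ, ψ w = ∫ v, f v * Complex.exp (Complex.I * ((-2 * π * v * w : ℝ) : ℂ)) := by
  let bump : ContDiffBump (0 : ℝ) := ⟨1, 2, one_pos, one_lt_two⟩
  let ψ₀ : ℝ → ℂ := fun u => ((bump u : ℝ) : ℂ)
  have hc : HasCompactSupport ψ₀ := by
    have := bump.hasCompactSupport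
    exact this.comp_left (g := fun x : ℝ => (x : ℂ)) (by simp)
  have hs : ContDiff ℝ ∞ ψ₀ := Complex.ofRealCLM.contDiff.comp bump.contDiff
  let Φ : 𝓢(ℝ, ℂ) := hc.toSchwartzMap hs
  let F : 𝓢(ℝ, ℂ) := 𝓕⁻ Φ
  have hF : 𝓕 F = Φ := FourierTransform.fourier_fourierInv_eq Φ
  refine ⟨F, ψ₀, F.integrable, Complex.ofRealCLM.continuous.comp bump.continuous, ?_, ?_, ?_, ?_⟩
  · intro u
    simp only [ψ₀, Complex.norm_real, Real.norm_eq_abs]
    rw [abs_of_nonneg (bump.nonneg' u)]
    exact bump.le_one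
  · intro u hu
    simp only [ψ₀]
    have : u ∈ Metric.closedBall (0:ℝ) bump.rIn := by
      simpa using hu
    rw [bump.one_of_mem_closedBall this]
    simp
  · intro u hu
    simp only [ψ₀]
    have : bump.rOut ≤ dist u (0:ℝ) := by
      simpa using hu
    rw [bump.zero_of_le_dist this]
    simp
  · intro w
    have h1 : ψ₀ w = Φ w := rfl
    rw [h1, ← hF, SchwartzMap.fourier_coe, Real.fourier_eq']
    refine integral_congr_ae (Eventually.of_forall fun v => ?_)
    simp only [smul_eq_mul, mul_comm]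
    congr 2
    simp
    ring

variable {H : Type*} [NormedAddCommGroup H] [InnerProductSpace ℂ H] [CompleteSpace H]

namespace MD

variable (S : ModularDatum H)

lemma integrable_smooth {κ : ℝ → ℂ} (hκ : Integrable κ) (b : ℝ) (a : H →L[ℂ] H) (z : H) :
    Integrable (fun r => κ r • S.flow (b * r) a z) :=
  integrable_smul_bdd hκ ((continuous_flow S a z).comp (continuous_const.mul continuous_id))
    (C := ‖a‖ * ‖z‖) (fun r => norm_flow_apply_le S _ a z)

/-- The smoothing of an operator along the flow. -/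
noncomputable def smoothOp {κ : ℝ → ℂ} (hκ : Integrable κ) (b : ℝ) (a : H →L[ℂ] H) : H →L[ℂ] H :=
  LinearMap.mkContinuous
    { toFun := fun z => ∫ r, κ r • S.flow (b * r) a z
      map_add' := fun z z' => by
        simp only [map_add, smul_add]
        exact integral_add (integrable_smooth S hκ b a z) (integrable_smooth S hκ b a z')
      map_smul' := fun c z => by
        simp only [map_smul, RingHom.id_apply]
        rw [← integral_smul]
        refine integral_congr_ae (Eventually.of_forall fun r => ?_)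
        exact smul_comm _ _ _ }
    ((∫ r, ‖κ r‖) * ‖a‖)
    (fun z => by
      show ‖∫ r, κ r • S.flow (b * r) a z‖ ≤ _
      refine (norm_integral_le_of_norm_le ((hκ.norm).mul_const (‖a‖ * ‖z‖))
        (Eventually.of_forall fun r => ?_)).trans ?_
      · rw [norm_smul]
        gcongr
        exact norm_flow_apply_le S _ a z
      · rw [integral_mul_const]
        exact le_of_eq (by ring))

lemma smoothOp_apply {κ : ℝ → ℂ} (hκ : Integrable κ) (b : ℝ) (a : H →L[ℂ] H) (z : H) :
    smoothOp S hκ b a z = ∫ r, κ r • S.flow (b * r) a z := rfl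

lemma norm_smoothOp_le {κ : ℝ → ℂ} (hκ : Integrable κ) (b : ℝ) (a : H →L[ℂ] H) :
    ‖smoothOp S hκ b a‖ ≤ (∫ r, ‖κ r‖) * ‖a‖ :=
  LinearMap.mkContinuous_norm_le _ (by
    have : 0 ≤ ∫ r, ‖κ r‖ := integral_nonneg fun r => norm_nonneg _
    positivity) _

lemma smoothOp_mem {κ : ℝ → ℂ} (hκ : Integrable κ) (b : ℝ) {a : H →L[ℂ] H} (ha : a ∈ S.M) :
    smoothOp S hκ b a ∈ S.M := by
  rw [← VonNeumannAlgebra.commutant_commutant S.M, VonNeumannAlgebra.mem_commutant_iff]
  intro g hg
  rw [VonNeumannAlgebra.mem_commutant_iff] at hg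
  ext z
  show g (smoothOp S hκ b a z) = smoothOp S hκ b a (g z)
  symm
  rw [smoothOp_apply, smoothOp_apply, ← ContinuousLinearMap.integral_comp_comm _ (integrable_smooth S hκ b a z)]
  refine integral_congr_ae (Eventually.of_forall fun r => ?_)
  have h1 := hg _ (flow_mem S (t := b * r) ha)
  have h2 : S.flow (b * r) a (g z) = g (S.flow (b * r) a z) :=
    congrArg (fun T : H →L[ℂ] H => T z) h1
  simp only [h2, map_smul]

lemma smoothOp_vac {κ : ℝ → ℂ} (hκ : Integrable κ) (b : ℝ) (a : H →L[ℂ] H) (Ψ : BCF)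
    (hΨ : ∀ u : ℝ, Ψ u = ∫ r, κ r * Complex.exp (Complex.I * ((b * r * u : ℝ) : ℂ))) :
    smoothOp S hκ b a S.vac = S.D.apply Ψ (a S.vac) := by
  rw [smoothOp_apply]
  simp only [flow_vac]
  exact integral_wave_eq S.D κ hκ b Ψ hΨ (a S.vac)

/-- The half-exponential on a band. -/
noncomputable def theta (t : ℝ) : BCF :=
  BoundedContinuousFunction.ofNormedAddCommGroup
    (fun u : ℝ => ((Real.exp (min u t / 2) : ℝ) : ℂ)) (by fun_prop) (Real.exp (t / 2)) (fun u => by
      rw [Complex.norm_real, Real.norm_eq_abs, abs_of_pos (Real.exp_pos _)]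
      exact Real.exp_le_exp.2 (by
        have := min_le_right u t
        linarith))

lemma theta_apply (t u : ℝ) : theta t u = ((Real.exp (min u t / 2) : ℝ) : ℂ) := rfl

lemma norm_theta_le (t : ℝ) : ‖theta t‖ ≤ Real.exp (t / 2) :=
  (BoundedContinuousFunction.norm_le (Real.exp_pos _).le).2 fun u => by
    rw [theta_apply, Complex.norm_real, Real.norm_eq_abs, abs_of_pos (Real.exp_pos _)]
    exact Real.exp_le_exp.2 (by
      have := min_le_right u t
      linarith)

lemma halfExp_of_supported {x : H} {l t : ℝ} (hx : S.D.SupportedIn (Set.Icc l t) x) :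
    S.D.HalfExp x (S.D.apply (theta t) x) := by
  intro f g hg
  rw [← apply_mul]
  refine apply_eq_of_supported S.D hx _ _ fun u hu => ?_
  rw [BoundedContinuousFunction.mul_apply, hg u, theta_apply, min_eq_left hu.2]

lemma mem_graph_of_supported {x : H} {l t : ℝ} (hx : S.D.SupportedIn (Set.Icc l t) x) :
    (x, S.J (S.D.apply (theta t) x)) ∈ closure (Set.range fun a : S.M =>
      ((a : H →L[ℂ] H) S.vac, star (a : H →L[ℂ] H) S.vac)) :=
  Crest.Agent.Lib.BRVac.MD.mem_closure_iff S _ _ (halfExp_of_supported S hx)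

lemma norm_J_theta_le {x : H} (t : ℝ) :
    ‖S.J (S.D.apply (theta t) x)‖ ^ 2 ≤ Real.exp t * ‖x‖ ^ 2 := by
  rw [S.J.norm_map]
  have h1 : ‖S.D.apply (theta t) x‖ ≤ Real.exp (t / 2) * ‖x‖ :=
    (norm_apply_apply_le S.D _ _).trans (by
      gcongr
      exact norm_theta_le t)
  have h2 : ‖S.D.apply (theta t) x‖ ^ 2 ≤ (Real.exp (t / 2) * ‖x‖) ^ 2 := by gcongr
  refine h2.trans (le_of_eq ?_)
  rw [mul_pow, ← Real.exp_nat_mul]
  congr 2
  push_cast
  ring

end MD

end Crest.Agent.Lib.BRSmooth
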