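import Mathlib
import Crest.Prelude.Def_ModularData
import Crest.Agent.Lib.BRKey
import Crest.Agent.Lib.BRSmooth

set_option autoImplicit false

namespace Crest.Agent.Lib.BRFinal

open Crest.OpAlg MeasureTheory Filter Crest.Agent.Lib.BRCalc Crest.Agent.Lib.BRCalc.Calc
  Crest.Agent.Lib.BRMean Crest.Agent.Lib.BRVac Crest.Agent.Lib.BRErg Crest.Agent.Lib.BRErg.MD
  Crest.Agent.Lib.BRKey Crest.Agent.Lib.BRKey.MD Crest.Agent.Lib.BRSmooth Crest.Agent.Lib.BRSmooth.MD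
open scoped InnerProductSpace ComplexConjugate Topology Real

variable {H : Type*} [NormedAddCommGroup H] [InnerProductSpace ℂ H] [CompleteSpace H]

theorem exists_v {S : ModularDatum H} (herg : S.Ergodic) (ω : Ultrafilter ℕ)
    (hω : (ω : Filter ℕ) ≤ atTop) (T : H →L[ℂ] H)
    {f ψ : ℝ → ℂ} (hf : Integrable f) (hψc : Continuous ψ) (hψ1 : ∀ u, ‖ψ u‖ ≤ 1)
    (hψone : ∀ u, |u| ≤ 1 → ψ u = 1) (hψzero : ∀ u, 2 ≤ |u| → ψ u = 0)
    (hψF : ∀ w : ℝ, ψ w = ∫ v, f v * Complex.exp (Complex.I * ((-2 * π * v * w : ℝ) : ℂ)))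
    (s δ : ℝ) (hδ : 0 < δ) {h : H} (hh : ‖h‖ = 1)
    (hband : S.D.SupportedIn (Set.Icc (s - δ) (s + δ)) h) {c η₀ : ℝ}
    (hη₀ : 0 < η₀) (hsmall : 1536 * η₀ ^ 2 * (1 + Real.exp (s + δ)) < c)
    (hmean : c ≤ ultraMean ω (fun t : ℝ => ‖T (S.D.wave t h)‖ ^ 2)) :
    ∃ v : H →L[ℂ] H, v ∈ S.M ∧ ‖v‖ ≤ ∫ r, ‖f r‖ ∧ η₀ ≤ ‖T (v S.vac)‖ ∧
      S.D.SupportedIn (Set.Icc (s - 4 * δ) (s + 4 * δ)) (v S.vac) := by
  -- the plateau function of the band
  set Ψ : BCF := BoundedContinuousFunction.ofNormedAddCommGroup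
    (fun u : ℝ => ψ ((u - s) / δ)) (hψc.comp (by fun_prop)) 1 (fun u => hψ1 _) with hΨdef
  have hΨapply : ∀ u, Ψ u = ψ ((u - s) / δ) := fun u => rfl
  set κ : ℝ → ℂ := fun v => f v * Complex.exp (Complex.I * ((2 * π * v * s / δ : ℝ) : ℂ)) with hκdef
  have hκ : Integrable κ := by
    refine integrable_smul_bdd hf (C := 1) (by fun_prop) fun r => ?_
    rw [Complex.norm_exp]
    simp
  have hκnorm : ∀ v, ‖κ v‖ = ‖f v‖ := by
    intro v
    simp only [hκdef]
    rw [norm_mul, Complex.norm_exp]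
    simp
  set b : ℝ := -2 * π / δ with hb
  have hΨF : ∀ u : ℝ, Ψ u = ∫ r, κ r * Complex.exp (Complex.I * ((b * r * u : ℝ) : ℂ)) := by
    intro u
    rw [hΨapply, hψF]
    refine integral_congr_ae (Eventually.of_forall fun r => ?_)
    simp only [hκdef]
    rw [mul_assoc (f r) (Complex.exp _), ← Complex.exp_add, ← mul_add, ← Complex.ofReal_add]
    congr 4
    rw [hb]
    field_simp
    ring
  set P : H →L[ℂ] H := T * S.D.apply Ψ with hP
  have hΨh : S.D.apply Ψ h = h := by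
    have h1 := apply_eq_of_supported S.D hband Ψ 1 (fun u hu => by
      rw [hΨapply, hψone]
      · simp
      · rw [abs_le] 
        have hu1 := hu.1
        have hu2 := hu.2
        constructor
        · rw [le_div_iff₀ hδ]; linarith
        · rw [div_le_iff₀ hδ]; linarith)
    rw [h1, apply_one]
  have hPU : ∀ r, P (S.D.wave r h) = T (S.D.wave r h) := by
    intro r
    show T (S.D.apply Ψ (S.D.wave r h)) = _
    rw [← wave_comm_apply, hΨh]
  -- there is an element seeing `P`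
  have hex : ∃ a ∈ S.M, ‖a‖ ≤ 1 ∧ η₀ ≤ ‖P (a S.vac)‖ := by
    by_contra hcon
    push Not at hcon
    have hPb : ∀ a ∈ S.M, ‖P (a S.vac)‖ ≤ η₀ * ‖a‖ := by
      intro a ha
      by_cases ha0 : a = 0
      · simp [ha0]
      have hn : 0 < ‖a‖ := norm_pos_iff.2 ha0
      set a' : H →L[ℂ] H := ((‖a‖⁻¹ : ℝ) : ℂ) • a with ha'
      have ha'M : a' ∈ S.M := S.M.toStarSubalgebra.smul_mem ha _
      have ha'n : ‖a'‖ ≤ 1 := by
        rw [ha', norm_smul, Complex.norm_real, Real.norm_eq_abs, abs_of_pos (by positivity)]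
        field_simp
        exact le_rfl
      have h1 := (hcon a' ha'M ha'n).le
      have h2 : a' S.vac = ((‖a‖⁻¹ : ℝ) : ℂ) • a S.vac := rfl
      rw [h2, map_smul, norm_smul, Complex.norm_real, Real.norm_eq_abs, abs_of_pos (by positivity)] at h1
      rw [inv_mul_le_iff₀ hn] at h1
      linarith
    have h1 := key_graph herg ω hω P hη₀.le hPb (mem_graph_of_supported S hband)
    have h2 := norm_J_theta_le S (x := h) (s + δ)
    rw [hh] at h2
    rw [hh] at h1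
    have h3 : mean ω (fun r => ‖P (S.D.wave r h)‖ ^ 2) =
        ultraMean ω (fun t : ℝ => ‖T (S.D.wave t h)‖ ^ 2) := by
      simp only [hPU]
      rfl
    rw [h3] at h1
    have h4 : 1536 * η₀ ^ 2 * (1 ^ 2 + ‖S.J (S.D.apply (theta (s + δ)) h)‖ ^ 2) ≤
        1536 * η₀ ^ 2 * (1 + Real.exp (s + δ)) := by
      have h5 : ‖S.J (S.D.apply (theta (s + δ)) h)‖ ^ 2 ≤ Real.exp (s + δ) := by
        simpa using h2
      have h6 : (0:ℝ) ≤ 1536 * η₀ ^ 2 := by positivity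
      refine mul_le_mul_of_nonneg_left ?_ h6
      linarith
    linarith
  obtain ⟨a, haM, han, hae⟩ := hex
  refine ⟨smoothOp S hκ b a, smoothOp_mem S hκ b haM, ?_, ?_, ?_⟩
  · refine (norm_smoothOp_le S hκ b a).trans ?_
    have h1 : ∫ r, ‖κ r‖ = ∫ r, ‖f r‖ := by simp only [hκnorm]
    rw [h1]
    have h2 : 0 ≤ ∫ r, ‖f r‖ := integral_nonneg fun r => norm_nonneg _
    nlinarith
  · rw [smoothOp_vac S hκ b a Ψ hΨF]
    exact hae
  · rw [smoothOp_vac S hκ b a Ψ hΨF]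
    refine supported_of_vanish S.D Ψ (fun u hu => ?_) _
    rw [hΨapply]
    refine hψzero _ ?_
    rw [abs_div, abs_of_pos hδ, le_div_iff₀ hδ]
    rw [Set.mem_Icc, not_and_or, not_le, not_le] at hu
    rcases hu with hu | hu
    · rw [abs_of_neg (by nlinarith)]
      nlinarith
    · rw [abs_of_pos (by nlinarith)]
      nlinarith

end Crest.Agent.Lib.BRFinal
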