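import Crest.Agent.Lib.BiasedCube

set_option autoImplicit false
set_option linter.unusedSectionVars false
set_option linter.unusedSimpArgs false
set_option linter.unusedVariables false

/-!
The (2,4)-hypercontractive (Bonami) inequality on the `p`-biased cube, and its
level inequality.
-/

namespace Crest.Agent.Lib.BiasedBonami

open Finset Crest.Agent.Lib.BiasedCube

variable {ι : Type*} [Fintype ι] [DecidableEq ι]

/-- Cauchy-Schwarz for `Ex`. -/
lemma Ex_cs {p : ℝ} (hp0 : 0 < p) (hp1 : p < 1) (r f h : (ι → Bool) → ℝ)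
    (hf : ∀ x, 0 ≤ f x) (hh : ∀ x, 0 ≤ h x) (hr : ∀ x, r x ^ 2 = f x * h x) :
    Ex p r ^ 2 ≤ Ex p f * Ex p h := by
  unfold Ex
  refine Finset.sum_sq_le_sum_mul_sum_of_sq_le_mul _ ?_ ?_ ?_
  · exact fun x _ => mul_nonneg (weight_nonneg hp0 hp1 x) (hf x)
  · exact fun x _ => mul_nonneg (weight_nonneg hp0 hp1 x) (hh x)
  · intro x _
    rw [mul_pow, hr x, pow_two]
    apply le_of_eq
    ring

/-- the constant in the Bonami lemma. -/
noncomputable def bK (p : ℝ) : ℝ := 9 / (p * (1 - p))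

/-- polynomial with coefficients `c`, supported on subsets of `A`. -/
noncomputable def poly (p : ℝ) (A : Finset ι) (c : Finset ι → ℝ) (x : ι → Bool) : ℝ :=
  ∑ S ∈ A.powerset, c S * phi p S x

lemma nu_le {p : ℝ} : p * (1 - p) ≤ 1 / 4 := by nlinarith [sq_nonneg (p - 1 / 2)]

lemma bK_ge {p : ℝ} (hp0 : 0 < p) (hp1 : p < 1) : 36 ≤ bK p := by
  unfold bK
  have h : 0 < p * (1 - p) := mul_pos hp0 (by linarith)
  rw [le_div_iff₀ h]
  nlinarith [nu_le (p := p)]

lemma sig_le {p : ℝ} (hp0 : 0 < p) (hp1 : p < 1) : sig p ≤ 1 / 2 := by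
  have h := sig_sq hp0 hp1
  have hs := sig_pos hp0 hp1
  nlinarith [nu_le (p := p)]

lemma poly_update {p : ℝ} {A : Finset ι} {e : ι} (he : e ∉ A) (c : Finset ι → ℝ) (x : ι → Bool)
    (b : Bool) : poly p A c (Function.update x e b) = poly p A c x := by
  unfold poly
  refine sum_congr rfl fun S hS => ?_
  have : e ∉ S := fun h => he (mem_powerset.mp hS h)
  rw [phi_update_of_not_mem p this]

lemma poly_insert {p : ℝ} {A : Finset ι} {e : ι} (he : e ∉ A) (c : Finset ι → ℝ) (x : ι → Bool) :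
    poly p (insert e A) c x = poly p A c x +
      chi p (x e) * poly p A (fun S => if e ∈ S then 0 else c (insert e S)) x := by
  unfold poly
  rw [sum_powerset_insert he, mul_sum]
  congr 1
  refine sum_congr rfl fun S hS => ?_
  have : e ∉ S := fun h => he (mem_powerset.mp hS h)
  rw [phi_insert p this]
  simp only [this, if_false]
  ring

lemma sum_sq_insert {A : Finset ι} {e : ι} (he : e ∉ A) (c : Finset ι → ℝ) :
    ∑ S ∈ (insert e A).powerset, c S ^ 2 = ∑ S ∈ A.powerset, c S ^ 2 +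
      ∑ S ∈ A.powerset, (if e ∈ S then 0 else c (insert e S)) ^ 2 := by
  rw [sum_powerset_insert he]
  congr 1
  refine sum_congr rfl fun S hS => ?_
  have : e ∉ S := fun h => he (mem_powerset.mp hS h)
  simp [this]

/-- pointwise estimate for one coin. -/
lemma one_coin {p : ℝ} (hp0 : 0 < p) (hp1 : p < 1) (a b : ℝ) :
    p * (a + chi p true * b) ^ 4 + (1 - p) * (a + chi p false * b) ^ 4 ≤
      a ^ 4 + 2 * (3 / sig p) * (a ^ 2 * b ^ 2) + bK p * b ^ 4 := by
  have hs := sig_pos hp0 hp1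
  have hs2 := sig_sq hp0 hp1
  have hsle := sig_le hp0 hp1
  set s := sig p with hsdef
  set u := chi p true with hu
  set v := chi p false with hv
  have h1 : p * u + (1 - p) * v = 0 := chi_mean
  have h2 : p * u ^ 2 + (1 - p) * v ^ 2 = 1 := chi_var hp0 hp1
  have hu' : u = (1 - p) / s := chi_true p
  have hv' : v = -p / s := chi_false p
  have h3 : p * u ^ 3 + (1 - p) * v ^ 3 = (1 - 2 * p) / s := by
    rw [hu', hv']
    field_simp
    rw [hs2]; ring
  have h4 : p * u ^ 4 + (1 - p) * v ^ 4 = ((1 - p) ^ 3 + p ^ 3) / s ^ 2 := by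
    rw [hu', hv']
    field_simp
    rw [hs2]
  have hexp : p * (a + u * b) ^ 4 + (1 - p) * (a + v * b) ^ 4 =
      a ^ 4 + 4 * (p * u + (1 - p) * v) * (a ^ 3 * b) +
        6 * (p * u ^ 2 + (1 - p) * v ^ 2) * (a ^ 2 * b ^ 2) +
        4 * (p * u ^ 3 + (1 - p) * v ^ 3) * (a * b ^ 3) +
        (p * u ^ 4 + (1 - p) * v ^ 4) * b ^ 4 := by ring
  rw [hexp, h1, h2, h3, h4]
  have hK : bK p = 9 / s ^ 2 := by
    unfold bK; rw [hs2]
  rw [hK]
  have hinv : 2 ≤ 1 / s := by
    rw [le_div_iff₀ hs]; linarith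
  -- `|1 - 2p| ≤ 1`
  have hk3 : |1 - 2 * p| ≤ 1 := by
    rw [abs_le]; constructor <;> linarith
  have hk3' : (1 - 2 * p) * (a * b ^ 3) ≤ (a ^ 2 * b ^ 2 + b ^ 4) / 2 := by
    have h5 : (1 - 2 * p) * (a * b ^ 3) ≤ |1 - 2 * p| * |a * b ^ 3| := by
      calc _ ≤ |(1 - 2 * p) * (a * b ^ 3)| := le_abs_self _
        _ = _ := abs_mul _ _
    have h6 : |a * b ^ 3| ≤ (a ^ 2 * b ^ 2 + b ^ 4) / 2 := by
      rw [abs_le]; constructor
      · nlinarith [sq_nonneg (a * b + b ^ 2)]
      · nlinarith [sq_nonneg (a * b - b ^ 2)]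
    have h7 : |1 - 2 * p| * |a * b ^ 3| ≤ 1 * ((a ^ 2 * b ^ 2 + b ^ 4) / 2) :=
      mul_le_mul hk3 h6 (abs_nonneg _) (by norm_num)
    linarith
  have hk4 : (1 - p) ^ 3 + p ^ 3 ≤ 1 := by
    have : (1 - p) ^ 3 + p ^ 3 = 1 - 3 * (p * (1 - p)) := by ring
    rw [this]
    nlinarith [mul_pos hp0 (sub_pos.mpr hp1)]
  have hm1 : 4 * ((1 - 2 * p) / s) * (a * b ^ 3) ≤ (2 / s) * (a ^ 2 * b ^ 2 + b ^ 4) := by
    have : 4 * ((1 - 2 * p) / s) * (a * b ^ 3) = (4 / s) * ((1 - 2 * p) * (a * b ^ 3)) := by ring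
    rw [this]
    have h0 : 0 ≤ 4 / s := by positivity
    calc _ ≤ (4 / s) * ((a ^ 2 * b ^ 2 + b ^ 4) / 2) := mul_le_mul_of_nonneg_left hk3' h0
      _ = _ := by ring
  have hm2 : ((1 - p) ^ 3 + p ^ 3) / s ^ 2 * b ^ 4 ≤ (1 / s ^ 2) * b ^ 4 := by
    apply mul_le_mul_of_nonneg_right _ (by positivity)
    exact div_le_div_of_nonneg_right hk4 (by positivity)
  -- combine
  have ha2b2 : 0 ≤ a ^ 2 * b ^ 2 := by positivity
  have hb4 : 0 ≤ b ^ 4 := by positivity
  have hi2 : (6 : ℝ) ≤ 3 / s := by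
    have : 3 / s = 3 * (1 / s) := by ring
    rw [this]; linarith
  have hi3 : (2 / s) ≤ 1 / s ^ 2 := by
    have : 1 / s ^ 2 = (1 / s) * (1 / s) := by field_simp
    rw [this]
    have h2s : 2 / s = 2 * (1 / s) := by ring
    rw [h2s]
    nlinarith
  have hbig1 : 6 * 1 * (a ^ 2 * b ^ 2) + (2 / s) * (a ^ 2 * b ^ 2) ≤
      2 * (3 / s) * (a ^ 2 * b ^ 2) := by
    have : 6 + 2 / s ≤ 2 * (3 / s) := by
      have h2s : 2 / s = 2 * (1 / s) := by ring
      have h3s : 3 / s = 3 * (1 / s) := by ring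
      rw [h2s, h3s]; linarith
    have h' := mul_le_mul_of_nonneg_right this ha2b2
    linarith
  have hbig2 : (2 / s) * b ^ 4 + (1 / s ^ 2) * b ^ 4 ≤ (9 / s ^ 2) * b ^ 4 := by
    have : 2 / s + 1 / s ^ 2 ≤ 9 / s ^ 2 := by
      have h9 : 9 / s ^ 2 = 9 * (1 / s ^ 2) := by ring
      rw [h9]
      have : 0 ≤ 1 / s ^ 2 := by positivity
      linarith
    have h' := mul_le_mul_of_nonneg_right this hb4
    linarith
  have hm1' : 4 * ((1 - 2 * p) / s) * (a * b ^ 3) ≤
      (2 / s) * (a ^ 2 * b ^ 2) + (2 / s) * b ^ 4 := by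
    rw [← mul_add]; exact hm1
  have hz : 4 * (0 : ℝ) * (a ^ 3 * b) = 0 := by ring
  rw [hz]
  linarith

/-- The Bonami lemma. -/
theorem bonami {p : ℝ} (hp0 : 0 < p) (hp1 : p < 1) (A : Finset ι) :
    ∀ (d : ℕ) (c : Finset ι → ℝ), (∀ S, d < S.card → c S = 0) →
      Ex p (fun x => poly p A c x ^ 4) ≤ bK p ^ d * (∑ S ∈ A.powerset, c S ^ 2) ^ 2 := by
  have hK36 := bK_ge hp0 hp1
  have hK0 : 0 < bK p := by linarith
  induction A using Finset.induction_on with
  | empty =>
    intro d c hc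
    have hpoly : ∀ x : ι → Bool, poly p (∅ : Finset ι) c x = c ∅ := by
      intro x; simp [poly]
    simp_rw [hpoly]
    rw [Ex_const]
    simp only [powerset_empty, sum_singleton]
    have h1 : (1 : ℝ) ≤ bK p ^ d := one_le_pow₀ (by linarith)
    have h2 : c ∅ ^ 4 = (c ∅ ^ 2) ^ 2 := by ring
    rw [h2]
    nlinarith [sq_nonneg (c ∅ ^ 2)]
  | insert e A he ih =>
    intro d c hc
    set c' : Finset ι → ℝ := fun S => if e ∈ S then 0 else c (insert e S) with hc'
    have hE : Ex p (fun x => poly p (insert e A) c x ^ 4) =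
        Ex p (fun x => p * (poly p A c x + chi p true * poly p A c' x) ^ 4 +
          (1 - p) * (poly p A c x + chi p false * poly p A c' x) ^ 4) := by
      rw [← Ex_update hp0 hp1 e (fun x => poly p (insert e A) c x ^ 4)]
      refine Ex_congr p fun x => ?_
      simp only [poly_insert he, poly_update he, Function.update_self]
      rfl
    rw [hE, sum_sq_insert he]
    have hone : ∀ x, p * (poly p A c x + chi p true * poly p A c' x) ^ 4 +
          (1 - p) * (poly p A c x + chi p false * poly p A c' x) ^ 4 ≤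
        poly p A c x ^ 4 + 2 * (3 / sig p) * (poly p A c x ^ 2 * poly p A c' x ^ 2) +
          bK p * poly p A c' x ^ 4 := fun x => one_coin hp0 hp1 _ _
    have hstep := Ex_mono hp0 hp1 hone
    have hsplit : Ex p (fun x => poly p A c x ^ 4 +
        2 * (3 / sig p) * (poly p A c x ^ 2 * poly p A c' x ^ 2) + bK p * poly p A c' x ^ 4) =
        Ex p (fun x => poly p A c x ^ 4) +
          2 * (3 / sig p) * Ex p (fun x => poly p A c x ^ 2 * poly p A c' x ^ 2) +
          bK p * Ex p (fun x => poly p A c' x ^ 4) := by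
      rw [Ex_add p (fun x => poly p A c x ^ 4 +
        2 * (3 / sig p) * (poly p A c x ^ 2 * poly p A c' x ^ 2)) (fun x => bK p * poly p A c' x ^ 4),
        Ex_add p (fun x => poly p A c x ^ 4)
          (fun x => 2 * (3 / sig p) * (poly p A c x ^ 2 * poly p A c' x ^ 2)),
        Ex_const_mul, Ex_const_mul]
    rw [hsplit] at hstep
    set a4 := Ex p (fun x => poly p A c x ^ 4) with ha4
    set b4 := Ex p (fun x => poly p A c' x ^ 4) with hb4
    set ab := Ex p (fun x => poly p A c x ^ 2 * poly p A c' x ^ 2) with hab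
    set X := ∑ S ∈ A.powerset, c S ^ 2 with hX
    set Y := ∑ S ∈ A.powerset, c' S ^ 2 with hY
    have hX0 : 0 ≤ X := sum_nonneg fun _ _ => sq_nonneg _
    have hY0 : 0 ≤ Y := sum_nonneg fun _ _ => sq_nonneg _
    have ha := ih d c hc
    have hab2 : ab ^ 2 ≤ a4 * b4 := by
      refine Ex_cs hp0 hp1 _ _ _ (fun x => by positivity) (fun x => by positivity) (fun x => by ring)
    have hab0 : 0 ≤ ab := Ex_nonneg hp0 hp1 (fun x => by positivity)
    have hb40 : 0 ≤ b4 := Ex_nonneg hp0 hp1 (fun x => by positivity)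
    have ha40 : 0 ≤ a4 := Ex_nonneg hp0 hp1 (fun x => by positivity)
    rcases d with _ | d
    · -- degree zero: no `b` part
      have hc'0 : ∀ S, c' S = 0 := by
        intro S
        by_cases hS : e ∈ S
        · simp [hc', hS]
        · simp only [hc', hS, if_false]
          exact hc _ (by rw [card_insert_of_notMem hS]; omega)
      have hb0 : ∀ x, poly p A c' x = 0 := by
        intro x; simp [poly, hc'0]
      have hb40' : b4 = 0 := by
        simp only [hb4, hb0]
        simpa using Ex_const (ι := ι) p 0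
      have hab' : ab = 0 := by
        simp only [hab, hb0]
        simpa using Ex_const (ι := ι) p 0
      have hY' : Y = 0 := by simp [hY, hc'0]
      rw [hb40', hab'] at hstep
      simp only [pow_zero, one_mul, mul_zero, add_zero] at ha hstep ⊢
      rw [hY', add_zero]
      exact le_trans hstep ha
    · have hb : b4 ≤ bK p ^ d * Y ^ 2 := by
        refine ih d c' ?_
        intro S hS
        by_cases hSe : e ∈ S
        · simp [hc', hSe]
        · simp only [hc', hSe, if_false]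
          exact hc _ (by rw [card_insert_of_notMem hSe]; omega)
      -- `K = θ²`
      set θ := 3 / sig p with hθ
      have hs := sig_pos hp0 hp1
      have hs2 := sig_sq hp0 hp1
      have hθ0 : 0 < θ := by positivity
      have hKθ : bK p = θ ^ 2 := by
        unfold bK; rw [← hs2, hθ]; field_simp; norm_num
      have hKd : bK p ^ d = θ ^ (2 * d) := by rw [hKθ, pow_mul]
      have hKd1 : bK p ^ (d + 1) = θ ^ (2 * d + 2) := by
        rw [hKθ, ← pow_mul]; congr 1
      -- bound `ab`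
      have hab3 : ab ≤ θ ^ (2 * d + 1) * (X * Y) := by
        have h1 : ab ^ 2 ≤ (θ ^ (2 * d + 1) * (X * Y)) ^ 2 := by
          calc ab ^ 2 ≤ a4 * b4 := hab2
            _ ≤ (bK p ^ (d + 1) * X ^ 2) * (bK p ^ d * Y ^ 2) :=
                mul_le_mul ha hb hb40 (by positivity)
            _ = (θ ^ (2 * d + 1) * (X * Y)) ^ 2 := by
                rw [hKd1, hKd]; ring
        exact abs_le_of_sq_le_sq' h1 (by positivity) |>.2
      have hfinal : a4 + 2 * θ * ab + bK p * b4 ≤ bK p ^ (d + 1) * (X + Y) ^ 2 := by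
        have e1 : 2 * θ * ab ≤ 2 * θ * (θ ^ (2 * d + 1) * (X * Y)) :=
          mul_le_mul_of_nonneg_left hab3 (by positivity)
        have e2 : bK p * b4 ≤ bK p * (bK p ^ d * Y ^ 2) :=
          mul_le_mul_of_nonneg_left hb (by positivity)
        have e3 : 2 * θ * (θ ^ (2 * d + 1) * (X * Y)) = bK p ^ (d + 1) * (2 * (X * Y)) := by
          rw [hKd1]; ring
        have e4 : bK p * (bK p ^ d * Y ^ 2) = bK p ^ (d + 1) * Y ^ 2 := by
          rw [pow_succ]; ring
        rw [e3] at e1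
        rw [e4] at e2
        have e5 : bK p ^ (d + 1) * (X + Y) ^ 2 =
            bK p ^ (d + 1) * X ^ 2 + bK p ^ (d + 1) * (2 * (X * Y)) + bK p ^ (d + 1) * Y ^ 2 := by
          ring
        rw [e5]
        linarith
      exact le_trans hstep hfinal

/-- Level inequality: if `|G| ≤ 1` and `𝒮` is a family of sets of size at most `d` then
`(Σ_{S ∈ 𝒮} \hat G(S)²)² ≤ K^d (E|G|)³`. -/
theorem level_ineq {p : ℝ} (hp0 : 0 < p) (hp1 : p < 1) (G : (ι → Bool) → ℝ)
    (hG : ∀ x, |G x| ≤ 1) (d : ℕ) (𝒮 : Finset (Finset ι)) (h𝒮 : ∀ S ∈ 𝒮, S.card ≤ d) :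
    (∑ S ∈ 𝒮, coeff p G S ^ 2) ^ 2 ≤ bK p ^ d * Ex p (fun x => |G x|) ^ 3 := by
  have hK36 := bK_ge hp0 hp1
  set Y := ∑ S ∈ 𝒮, coeff p G S ^ 2 with hY
  have hY0 : 0 ≤ Y := sum_nonneg fun _ _ => sq_nonneg _
  set g : (ι → Bool) → ℝ := fun x => ∑ S ∈ 𝒮, coeff p G S * phi p S x with hg
  -- `E[G g] = Y`
  have h1 : Ex p (fun x => G x * g x) = Y := by
    have : (fun x => G x * g x) = fun x => ∑ S ∈ 𝒮, coeff p G S * (G x * phi p S x) := by
      funext x
      simp only [hg, mul_sum]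
      refine sum_congr rfl fun S _ => by ring
    rw [this, Ex_sum]
    refine sum_congr rfl fun S _ => ?_
    rw [Ex_const_mul]
    simp only [coeff]
    ring
  -- `E[g²] = Y`
  have h2 : Ex p (fun x => g x ^ 2) = Y := by
    have : (fun x => g x ^ 2) = fun x => ∑ S ∈ 𝒮, ∑ S' ∈ 𝒮,
        coeff p G S * coeff p G S' * (phi p S x * phi p S' x) := by
      funext x
      simp only [hg, pow_two, sum_mul_sum]
      refine sum_congr rfl fun S _ => sum_congr rfl fun S' _ => by ring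
    rw [this, Ex_sum]
    refine sum_congr rfl fun S hS => ?_
    rw [Ex_sum]
    simp_rw [Ex_const_mul, phi_orth hp0 hp1]
    rw [sum_eq_single S]
    · simp [pow_two]
    · intro S' _ hne
      have : ¬ (S = S') := fun h => hne h.symm
      simp [this]
    · intro h; exact absurd hS h
  -- `E[g⁴] ≤ K^d Y²`
  have h3 : Ex p (fun x => g x ^ 4) ≤ bK p ^ d * Y ^ 2 := by
    have hb := bonami hp0 hp1 (univ : Finset ι) d (fun S => if S ∈ 𝒮 then coeff p G S else 0) (by
      intro S hS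
      by_cases h : S ∈ 𝒮
      · have := h𝒮 S h
        omega
      · simp [h])
    have hp' : ∀ x, poly p (univ : Finset ι) (fun S => if S ∈ 𝒮 then coeff p G S else 0) x = g x := by
      intro x
      simp only [poly, powerset_univ, ite_mul, zero_mul, hg]
      rw [sum_ite_mem]
      simp
    simp_rw [hp'] at hb
    have hs : ∑ S ∈ (univ : Finset ι).powerset,
        (if S ∈ 𝒮 then coeff p G S else 0) ^ 2 = Y := by
      rw [powerset_univ, hY]
      simp only [ite_pow, ne_eq, OfNat.ofNat_ne_zero, not_false_eq_true, zero_pow]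
      rw [sum_ite_mem]
      simp
    rw [hs] at hb
    exact hb
  set EG := Ex p (fun x => |G x|) with hEG
  have hEG0 : 0 ≤ EG := Ex_nonneg hp0 hp1 (fun x => abs_nonneg _)
  set EGg2 := Ex p (fun x => |G x| * g x ^ 2) with hEGg2
  have hEGg20 : 0 ≤ EGg2 := Ex_nonneg hp0 hp1 (fun x => by positivity)
  have h4 : Y ≤ Ex p (fun x => |G x| * |g x|) := by
    rw [← h1]
    refine Ex_mono hp0 hp1 fun x => ?_
    rw [← abs_mul]; exact le_abs_self _
  have h5 : Ex p (fun x => |G x| * |g x|) ^ 2 ≤ EG * EGg2 := by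
    refine Ex_cs hp0 hp1 _ _ _ (fun x => abs_nonneg _) (fun x => by positivity) (fun x => ?_)
    have h1 : |G x| * (|G x| * g x ^ 2) = G x ^ 2 * g x ^ 2 := by
      rw [← mul_assoc, abs_mul_abs_self]; ring
    rw [h1, mul_pow, sq_abs, sq_abs]
  have h6 : EGg2 ^ 2 ≤ Ex p (fun x => G x ^ 2) * Ex p (fun x => g x ^ 4) := by
    refine Ex_cs hp0 hp1 _ _ _ (fun x => by positivity) (fun x => by positivity) (fun x => ?_)
    rw [mul_pow, sq_abs]; ring
  have h7 : Ex p (fun x => G x ^ 2) ≤ EG := by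
    refine Ex_mono hp0 hp1 fun x => ?_
    have h := hG x
    have h0 := abs_nonneg (G x)
    rw [← sq_abs]
    nlinarith
  -- combine
  have h8 : Y ^ 2 ≤ EG * EGg2 := by
    have : Y ^ 2 ≤ Ex p (fun x => |G x| * |g x|) ^ 2 := by
      exact pow_le_pow_left₀ hY0 h4 2
    exact le_trans this h5
  have h9 : EGg2 ^ 2 ≤ EG * (bK p ^ d * Y ^ 2) := by
    refine le_trans h6 ?_
    exact mul_le_mul h7 h3 (Ex_nonneg hp0 hp1 fun x => by positivity) hEG0
  have hKd : 0 ≤ bK p ^ d := by positivity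
  by_cases hY00 : Y = 0
  · rw [hY00]; simp; positivity
  · have hYpos : 0 < Y := lt_of_le_of_ne hY0 (Ne.symm hY00)
    have h10 : Y ^ 2 * Y ^ 2 ≤ (bK p ^ d * EG ^ 3) * Y ^ 2 := by
      have : (Y ^ 2) ^ 2 ≤ (EG * EGg2) ^ 2 := pow_le_pow_left₀ (by positivity) h8 2
      calc Y ^ 2 * Y ^ 2 = (Y ^ 2) ^ 2 := by ring
        _ ≤ (EG * EGg2) ^ 2 := this
        _ = EG ^ 2 * EGg2 ^ 2 := by ring
        _ ≤ EG ^ 2 * (EG * (bK p ^ d * Y ^ 2)) :=
            mul_le_mul_of_nonneg_left h9 (by positivity)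
        _ = _ := by ring
    exact le_of_mul_le_mul_right h10 (by positivity)

end Crest.Agent.Lib.BiasedBonami
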