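import Mathlib
import Crest.Prelude.Def_FinProb

set_option autoImplicit false
set_option linter.unusedSectionVars false
set_option linter.unusedSimpArgs false
set_option linter.unusedVariables false

/-!
Fourier analysis on the `p`-biased cube `ι → Bool`, by explicit finite sums.
-/

namespace Crest.Agent.Lib.BiasedCube

open Finset

variable {ι : Type*} [Fintype ι] [DecidableEq ι]

/-- expectation under the product measure of bias `p`. -/
noncomputable def Ex (p : ℝ) (F : (ι → Bool) → ℝ) : ℝ :=
  ∑ x, Crest.FinProb.bernoulliWeight p x * F x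

lemma Ex_add (p : ℝ) (F G : (ι → Bool) → ℝ) :
    Ex p (fun x => F x + G x) = Ex p F + Ex p G := by
  simp only [Ex, mul_add, sum_add_distrib]

lemma Ex_sub (p : ℝ) (F G : (ι → Bool) → ℝ) :
    Ex p (fun x => F x - G x) = Ex p F - Ex p G := by
  simp only [Ex, mul_sub, sum_sub_distrib]

lemma Ex_const_mul (p c : ℝ) (F : (ι → Bool) → ℝ) :
    Ex p (fun x => c * F x) = c * Ex p F := by
  simp only [Ex, mul_sum]
  refine sum_congr rfl fun x _ => by ring

lemma Ex_mul_const (p c : ℝ) (F : (ι → Bool) → ℝ) :
    Ex p (fun x => F x * c) = Ex p F * c := by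
  simp only [Ex, sum_mul]
  refine sum_congr rfl fun x _ => by ring

lemma Ex_sum {κ : Type*} (p : ℝ) (s : Finset κ) (F : κ → (ι → Bool) → ℝ) :
    Ex p (fun x => ∑ k ∈ s, F k x) = ∑ k ∈ s, Ex p (F k) := by
  simp only [Ex, mul_sum]
  rw [sum_comm]

lemma Ex_congr (p : ℝ) {F G : (ι → Bool) → ℝ} (h : ∀ x, F x = G x) :
    Ex p F = Ex p G := by
  simp only [Ex, h]

lemma weight_nonneg {p : ℝ} (hp0 : 0 < p) (hp1 : p < 1) (x : ι → Bool) :
    0 ≤ Crest.FinProb.bernoulliWeight p x := by
  unfold Crest.FinProb.bernoulliWeight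
  refine prod_nonneg fun i _ => ?_
  split_ifs <;> linarith

lemma Ex_mono {p : ℝ} (hp0 : 0 < p) (hp1 : p < 1) {F G : (ι → Bool) → ℝ} (h : ∀ x, F x ≤ G x) :
    Ex p F ≤ Ex p G := by
  unfold Ex
  exact sum_le_sum fun x _ => mul_le_mul_of_nonneg_left (h x) (weight_nonneg hp0 hp1 x)

lemma Ex_nonneg {p : ℝ} (hp0 : 0 < p) (hp1 : p < 1) {F : (ι → Bool) → ℝ} (h : ∀ x, 0 ≤ F x) :
    0 ≤ Ex p F := by
  unfold Ex
  exact sum_nonneg fun x _ => mul_nonneg (weight_nonneg hp0 hp1 x) (h x)

/-- Expectation of a product function. -/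
lemma Ex_prod (p : ℝ) (g : ι → Bool → ℝ) :
    Ex p (fun x => ∏ e, g e (x e)) = ∏ e, (p * g e true + (1 - p) * g e false) := by
  unfold Ex Crest.FinProb.bernoulliWeight
  have h1 : ∀ e : ι, p * g e true + (1 - p) * g e false =
      ∑ b : Bool, (if b then p else 1 - p) * g e b := by
    intro e
    simp [Fintype.sum_bool]
  simp_rw [h1]
  rw [Finset.prod_univ_sum, Fintype.piFinset_univ]
  refine sum_congr rfl fun x _ => ?_
  rw [prod_mul_distrib]

lemma Ex_one (p : ℝ) : Ex p (fun _ : ι → Bool => (1 : ℝ)) = 1 := by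
  have := Ex_prod (ι := ι) p (fun _ _ => 1)
  simpa using this

lemma Ex_const (p c : ℝ) : Ex p (fun _ : ι → Bool => c) = c := by
  have := Ex_const_mul (F := fun _ : ι → Bool => (1 : ℝ)) p c
  rw [Ex_one] at this
  simpa using this

/-- standard deviation of one coin. -/
noncomputable def sig (p : ℝ) : ℝ := Real.sqrt (p * (1 - p))

lemma sig_pos {p : ℝ} (hp0 : 0 < p) (hp1 : p < 1) : 0 < sig p :=
  Real.sqrt_pos.mpr (mul_pos hp0 (by linarith))

lemma sig_sq {p : ℝ} (hp0 : 0 < p) (hp1 : p < 1) : sig p ^ 2 = p * (1 - p) :=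
  Real.sq_sqrt (mul_pos hp0 (by linarith)).le

/-- normalised one-coin character. -/
noncomputable def chi (p : ℝ) (b : Bool) : ℝ := if b then (1 - p) / sig p else -p / sig p

lemma chi_true (p : ℝ) : chi p true = (1 - p) / sig p := by simp [chi]
lemma chi_false (p : ℝ) : chi p false = -p / sig p := by simp [chi]

lemma chi_mean {p : ℝ} : p * chi p true + (1 - p) * chi p false = 0 := by
  rw [chi_true, chi_false]; ring

lemma chi_var {p : ℝ} (hp0 : 0 < p) (hp1 : p < 1) :
    p * chi p true ^ 2 + (1 - p) * chi p false ^ 2 = 1 := by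
  have hs := sig_pos hp0 hp1
  have hs2 := sig_sq hp0 hp1
  rw [chi_true, chi_false]
  field_simp
  rw [hs2]; ring

/-- the Walsh function of `T`. -/
noncomputable def phi (p : ℝ) (T : Finset ι) (x : ι → Bool) : ℝ := ∏ e ∈ T, chi p (x e)

lemma phi_eq_prod (p : ℝ) (T : Finset ι) (x : ι → Bool) :
    phi p T x = ∏ e, (if e ∈ T then chi p (x e) else 1) := by
  unfold phi
  rw [Finset.prod_ite_mem]
  simp

@[simp] lemma phi_empty (p : ℝ) (x : ι → Bool) : phi p ∅ x = 1 := by simp [phi]

lemma phi_insert (p : ℝ) {e : ι} {S : Finset ι} (he : e ∉ S) (x : ι → Bool) :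
    phi p (insert e S) x = chi p (x e) * phi p S x := by
  simp [phi, prod_insert he]

lemma phi_mul_phi (p : ℝ) (S T : Finset ι) (x : ι → Bool) :
    phi p S x * phi p T x =
      ∏ e, ((if e ∈ S then chi p (x e) else 1) * (if e ∈ T then chi p (x e) else 1)) := by
  rw [phi_eq_prod, phi_eq_prod, prod_mul_distrib]

lemma phi_orth {p : ℝ} (hp0 : 0 < p) (hp1 : p < 1) (S T : Finset ι) :
    Ex p (fun x => phi p S x * phi p T x) = if S = T then 1 else 0 := by
  have h := Ex_prod (ι := ι) p
    (fun e b => (if e ∈ S then chi p b else 1) * (if e ∈ T then chi p b else 1))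
  have h' : (fun x => phi p S x * phi p T x) =
      fun x : ι → Bool => ∏ e, ((if e ∈ S then chi p (x e) else 1) *
        (if e ∈ T then chi p (x e) else 1)) := by
    funext x; exact phi_mul_phi p S T x
  rw [h', h]
  split_ifs with hST
  · subst hST
    refine prod_eq_one fun e _ => ?_
    by_cases he : e ∈ S
    · simp only [he, if_true]
      have := chi_var hp0 hp1
      nlinarith
    · simp [he]
  · obtain ⟨e, he⟩ : ∃ e, ¬ (e ∈ S ↔ e ∈ T) := by
      by_contra hcon
      push Not at hcon
      exact hST (Finset.ext hcon)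
    refine prod_eq_zero (mem_univ e) ?_
    by_cases h1 : e ∈ S <;> by_cases h2 : e ∈ T
    · exact absurd (iff_of_true h1 h2) he
    · simp only [h1, h2, if_true, if_false, mul_one]
      exact chi_mean
    · simp only [h1, h2, if_true, if_false, one_mul]
      exact chi_mean
    · exact absurd (iff_of_false h1 h2) he

lemma Ex_phi {p : ℝ} (hp0 : 0 < p) (hp1 : p < 1) (T : Finset ι) :
    Ex p (phi p T) = if T = ∅ then 1 else 0 := by
  have := phi_orth hp0 hp1 (∅ : Finset ι) T
  simp only [phi_empty, one_mul] at this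
  rw [show (phi p T) = fun x => phi p T x from rfl, this]
  by_cases h : T = ∅
  · simp [h]
  · have : ¬ (∅ = T) := fun h' => h h'.symm
    simp [h, this]

/-- Fourier coefficient. -/
noncomputable def coeff (p : ℝ) (F : (ι → Bool) → ℝ) (T : Finset ι) : ℝ :=
  Ex p (fun x => F x * phi p T x)

/-- the kernel identity. -/
lemma kernel {p : ℝ} (hp0 : 0 < p) (hp1 : p < 1) (x y : ι → Bool) :
    Crest.FinProb.bernoulliWeight p y * ∑ T : Finset ι, phi p T x * phi p T y =
      if x = y then 1 else 0 := by
  have hs := sig_pos hp0 hp1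
  have hs2 := sig_sq hp0 hp1
  have h1 : ∑ T : Finset ι, phi p T x * phi p T y =
      ∏ e, (1 + chi p (x e) * chi p (y e)) := by
    rw [Finset.prod_one_add, Finset.powerset_univ]
    refine sum_congr rfl fun T _ => ?_
    simp only [phi, prod_mul_distrib]
  rw [h1]
  unfold Crest.FinProb.bernoulliWeight
  rw [← prod_mul_distrib]
  have h2 : ∀ a b : Bool, (if b then p else 1 - p) * (1 + chi p a * chi p b) =
      if a = b then 1 else 0 := by
    intro a b
    cases a <;> cases b <;> simp only [chi_true, chi_false, if_true, if_false, Bool.false_eq_true,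
      reduceCtorEq, if_true]
    · field_simp; rw [hs2]; ring
    · field_simp; rw [hs2]; ring
    · field_simp; rw [hs2]; ring
    · field_simp; rw [hs2]; ring
  simp_rw [h2]
  split_ifs with hxy
  · subst hxy
    simp
  · obtain ⟨e, he⟩ := Function.ne_iff.mp hxy
    exact prod_eq_zero (mem_univ e) (by simp [he])

/-- Fourier expansion. -/
lemma expansion {p : ℝ} (hp0 : 0 < p) (hp1 : p < 1) (F : (ι → Bool) → ℝ) (x : ι → Bool) :
    F x = ∑ T : Finset ι, coeff p F T * phi p T x := by
  unfold coeff Ex
  simp_rw [sum_mul]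
  rw [sum_comm]
  have : ∀ y : ι → Bool, ∑ T : Finset ι,
      Crest.FinProb.bernoulliWeight p y * (F y * phi p T y) * phi p T x =
      F y * (Crest.FinProb.bernoulliWeight p y * ∑ T : Finset ι, phi p T x * phi p T y) := by
    intro y
    rw [mul_sum, mul_sum]
    refine sum_congr rfl fun T _ => ?_
    ring
  simp_rw [this, kernel hp0 hp1]
  simp

/-- Parseval. -/
lemma parseval {p : ℝ} (hp0 : 0 < p) (hp1 : p < 1) (F G : (ι → Bool) → ℝ) :
    Ex p (fun x => F x * G x) = ∑ T : Finset ι, coeff p F T * coeff p G T := by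
  have h1 : (fun x => F x * G x) = fun x => ∑ T : Finset ι, coeff p F T * (G x * phi p T x) := by
    funext x
    conv_lhs => rw [expansion hp0 hp1 F x]
    rw [sum_mul]
    refine sum_congr rfl fun T _ => by ring
  rw [h1, Ex_sum]
  refine sum_congr rfl fun T _ => ?_
  rw [Ex_const_mul]
  rfl

lemma parseval_sq {p : ℝ} (hp0 : 0 < p) (hp1 : p < 1) (F : (ι → Bool) → ℝ) :
    Ex p (fun x => F x ^ 2) = ∑ T : Finset ι, coeff p F T ^ 2 := by
  have := parseval hp0 hp1 F F
  simp only [← pow_two] at this
  exact this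

lemma coeff_empty (p : ℝ) (F : (ι → Bool) → ℝ) : coeff p F ∅ = Ex p F := by
  simp [coeff]

/-- single coordinate tower. -/
lemma Ex_update {p : ℝ} (hp0 : 0 < p) (hp1 : p < 1) (e : ι) (F : (ι → Bool) → ℝ) :
    Ex p (fun x => p * F (Function.update x e true) + (1 - p) * F (Function.update x e false))
      = Ex p F := by
  -- reduce to Walsh functions
  have hup : ∀ (b : Bool) (x : ι → Bool), F (Function.update x e b) =
      ∑ T : Finset ι, coeff p F T * phi p T (Function.update x e b) := by
    intro b x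
    exact expansion hp0 hp1 F _
  have hF : Ex p F = ∑ T : Finset ι, coeff p F T * (if T = ∅ then 1 else 0) := by
    have : F = fun x => ∑ T : Finset ι, coeff p F T * phi p T x := by
      funext x; exact expansion hp0 hp1 F x
    conv_lhs => rw [this]
    rw [Ex_sum]
    refine sum_congr rfl fun T _ => ?_
    rw [Ex_const_mul, Ex_phi hp0 hp1]
  rw [hF]
  simp_rw [hup, mul_sum, ← sum_add_distrib]
  rw [Ex_sum]
  refine sum_congr rfl fun T _ => ?_
  by_cases heT : e ∈ T
  · -- the update kills
    have hT : T ≠ ∅ := by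
      intro h; rw [h] at heT; simp at heT
    simp only [hT, if_false, mul_zero]
    have hz : ∀ x : ι → Bool, p * (coeff p F T * phi p T (Function.update x e true)) +
        (1 - p) * (coeff p F T * phi p T (Function.update x e false)) = 0 := by
      intro x
      obtain ⟨S, heS, rfl⟩ : ∃ S, e ∉ S ∧ T = insert e S :=
        ⟨T.erase e, by simp, (insert_erase heT).symm⟩
      have hS : ∀ b, phi p S (Function.update x e b) = phi p S x := by
        intro b
        unfold phi
        refine prod_congr rfl fun i hi => ?_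
        have : i ≠ e := fun h => heS (h ▸ hi)
        simp [Function.update_of_ne this]
      rw [phi_insert p heS, phi_insert p heS, hS, hS]
      simp only [Function.update_self]
      have := chi_mean (p := p)
      calc _ = coeff p F (insert e S) * phi p S x * (p * chi p true + (1 - p) * chi p false) := by
            ring
        _ = 0 := by rw [this, mul_zero]
    simp_rw [hz]
    exact Ex_const p 0
  · have hS : ∀ (b : Bool) (x : ι → Bool), phi p T (Function.update x e b) = phi p T x := by
      intro b x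
      unfold phi
      refine prod_congr rfl fun i hi => ?_
      have : i ≠ e := fun h => heT (h ▸ hi)
      simp [Function.update_of_ne this]
    have : (fun x => p * (coeff p F T * phi p T (Function.update x e true)) +
        (1 - p) * (coeff p F T * phi p T (Function.update x e false))) =
        fun x => coeff p F T * phi p T x := by
      funext x
      rw [hS, hS]; ring
    rw [this, Ex_const_mul, Ex_phi hp0 hp1]

/-- discrete derivative. -/
noncomputable def dd (e : ι) (F : (ι → Bool) → ℝ) (x : ι → Bool) : ℝ :=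
  F (Function.update x e true) - F (Function.update x e false)

lemma dd_update (e : ι) (F : (ι → Bool) → ℝ) (x : ι → Bool) (b : Bool) :
    dd e F (Function.update x e b) = dd e F x := by
  simp [dd]

lemma phi_update_of_not_mem (p : ℝ) {e : ι} {S : Finset ι} (he : e ∉ S) (x : ι → Bool) (b : Bool) :
    phi p S (Function.update x e b) = phi p S x := by
  unfold phi
  refine prod_congr rfl fun i hi => ?_
  have : i ≠ e := fun h => he (h ▸ hi)
  simp [Function.update_of_ne this]

/-- coefficient of `insert e S` in terms of the derivative. -/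
lemma coeff_insert {p : ℝ} (hp0 : 0 < p) (hp1 : p < 1) (F : (ι → Bool) → ℝ) {e : ι} {S : Finset ι}
    (he : e ∉ S) : coeff p F (insert e S) = sig p * coeff p (dd e F) S := by
  have hs := sig_pos hp0 hp1
  have hs2 := sig_sq hp0 hp1
  unfold coeff
  rw [← Ex_update hp0 hp1 e (fun x => F x * phi p (insert e S) x), ← Ex_const_mul]
  refine Ex_congr p fun x => ?_
  simp only [phi_insert p he, phi_update_of_not_mem p he, Function.update_self, dd, chi_true,
    chi_false]
  field_simp
  rw [hs2]
  ring

/-- the coefficient of `dd e F` vanishes on sets containing `e`. -/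
lemma coeff_dd_of_mem {p : ℝ} (hp0 : 0 < p) (hp1 : p < 1) (F : (ι → Bool) → ℝ) {e : ι}
    {S : Finset ι} (he : e ∈ S) : coeff p (dd e F) S = 0 := by
  obtain ⟨S', heS, rfl⟩ : ∃ S', e ∉ S' ∧ S = insert e S' :=
    ⟨S.erase e, by simp, (insert_erase he).symm⟩
  unfold coeff
  rw [← Ex_update hp0 hp1 e]
  have : ∀ x, p * (dd e F (Function.update x e true) * phi p (insert e S') (Function.update x e true))
      + (1 - p) * (dd e F (Function.update x e false) * phi p (insert e S') (Function.update x e false))
      = 0 := by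
    intro x
    simp only [phi_insert p heS, phi_update_of_not_mem p heS, Function.update_self, dd_update]
    have := chi_mean (p := p)
    calc _ = dd e F x * phi p S' x * (p * chi p true + (1 - p) * chi p false) := by ring
      _ = 0 := by rw [this, mul_zero]
  simp_rw [this]
  exact Ex_const p 0

/-- `ν · E[(D_e F)²] = Σ_{T ∋ e} \hat F(T)²`. -/
lemma sum_coeff_sq_mem {p : ℝ} (hp0 : 0 < p) (hp1 : p < 1) (F : (ι → Bool) → ℝ) (e : ι) :
    ∑ T ∈ (univ : Finset (Finset ι)).filter (fun T => e ∈ T), coeff p F T ^ 2 =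
      p * (1 - p) * Ex p (fun x => dd e F x ^ 2) := by
  have hs2 := sig_sq hp0 hp1
  rw [parseval_sq hp0 hp1, mul_sum]
  -- split the RHS
  have hsplit : ∑ T : Finset ι, p * (1 - p) * coeff p (dd e F) T ^ 2 =
      ∑ S ∈ (univ : Finset (Finset ι)).filter (fun T => e ∉ T),
        p * (1 - p) * coeff p (dd e F) S ^ 2 := by
    rw [← sum_filter_add_sum_filter_not univ (fun T => e ∉ T)]
    have : ∑ T ∈ (univ : Finset (Finset ι)).filter (fun T => ¬ e ∉ T),
        p * (1 - p) * coeff p (dd e F) T ^ 2 = 0 := by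
      refine sum_eq_zero fun T hT => ?_
      have : e ∈ T := by simpa using (mem_filter.mp hT).2
      rw [coeff_dd_of_mem hp0 hp1 F this]; simp
    rw [this, add_zero]
  rw [hsplit]
  refine sum_bij' (fun T _ => T.erase e) (fun S _ => insert e S) ?_ ?_ ?_ ?_ ?_
  · intro T hT; simp
  · intro S hS; simp
  · intro T hT
    have : e ∈ T := (mem_filter.mp hT).2
    exact insert_erase this
  · intro S hS
    have : e ∉ S := (mem_filter.mp hS).2
    exact erase_insert this
  · intro T hT
    have hmem : e ∈ T := (mem_filter.mp hT).2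
    have hne : e ∉ T.erase e := by simp
    conv_lhs => rw [← insert_erase hmem]
    rw [coeff_insert hp0 hp1 F hne, mul_pow, hs2]

/-- `ν · Σ_e E[(D_e F)²] = Σ_T |T| \hat F(T)²`. -/
lemma sum_card_coeff_sq {p : ℝ} (hp0 : 0 < p) (hp1 : p < 1) (F : (ι → Bool) → ℝ) :
    ∑ T : Finset ι, (T.card : ℝ) * coeff p F T ^ 2 =
      p * (1 - p) * ∑ e : ι, Ex p (fun x => dd e F x ^ 2) := by
  rw [mul_sum]
  simp_rw [← sum_coeff_sq_mem hp0 hp1 F]
  simp_rw [sum_filter]
  rw [sum_comm]
  refine sum_congr rfl fun T _ => ?_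
  rw [← sum_filter]
  simp only [sum_const, nsmul_eq_mul]
  have : (univ : Finset ι).filter (fun e => e ∈ T) = T := by
    ext; simp
  rw [this]

end Crest.Agent.Lib.BiasedCube
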