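import Crest.Agent.Lib.BiasedBonami

set_option autoImplicit false
set_option linter.unusedSectionVars false
set_option linter.unusedSimpArgs false
set_option linter.unusedVariables false

/-!
Blocks permuted by symmetries of a Boolean function: low-level Fourier weight on a block is small.
-/

namespace Crest.Agent.Lib.BlockSym

open Finset Crest.Agent.Lib.BiasedCube Crest.Agent.Lib.BiasedBonami

variable {ι : Type*} [Fintype ι] [DecidableEq ι]

/-- influence of `e`, as the `L¹` norm of the derivative. -/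
noncomputable def Inf (p : ℝ) (h : (ι → Bool) → ℝ) (e : ι) : ℝ := Ex p (fun z => |dd e h z|)

lemma Inf_nonneg {p : ℝ} (hp0 : 0 < p) (hp1 : p < 1) (h : (ι → Bool) → ℝ) (e : ι) :
    0 ≤ Inf p h e := Ex_nonneg hp0 hp1 fun _ => abs_nonneg _

/-- `F` takes values in `{0,1}`. -/
def IsBool (F : (ι → Bool) → ℝ) : Prop := ∀ x, F x = 0 ∨ F x = 1

lemma IsBool.abs_dd_le {F : (ι → Bool) → ℝ} (hF : IsBool F) (e : ι) (x : ι → Bool) :
    |dd e F x| ≤ 1 := by
  unfold dd
  rcases hF (Function.update x e true) with h1 | h1 <;>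
    rcases hF (Function.update x e false) with h2 | h2 <;> simp [h1, h2]

lemma IsBool.dd_sq {F : (ι → Bool) → ℝ} (hF : IsBool F) (e : ι) (x : ι → Bool) :
    dd e F x ^ 2 = |dd e F x| := by
  unfold dd
  rcases hF (Function.update x e true) with h1 | h1 <;>
    rcases hF (Function.update x e false) with h2 | h2 <;> simp [h1, h2]

lemma IsBool.sq_le_one {F : (ι → Bool) → ℝ} (hF : IsBool F) (x : ι → Bool) : F x ^ 2 ≤ 1 := by
  rcases hF x with h | h <;> simp [h]

lemma IsBool.sq_eq {F : (ι → Bool) → ℝ} (hF : IsBool F) (x : ι → Bool) : F x ^ 2 = F x := by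
  rcases hF x with h | h <;> simp [h]

/-- expectation is invariant under permuting the coordinates. -/
lemma Ex_comp_perm (p : ℝ) (τ : Equiv.Perm ι) (F : (ι → Bool) → ℝ) :
    Ex p (fun x => F (x ∘ τ)) = Ex p F := by
  unfold Ex
  have hw : ∀ x : ι → Bool, Crest.FinProb.bernoulliWeight p (x ∘ τ) =
      Crest.FinProb.bernoulliWeight p x := by
    intro x
    unfold Crest.FinProb.bernoulliWeight
    exact Equiv.prod_comp τ (fun i => if x i then p else 1 - p)
  have := Equiv.sum_comp (Equiv.arrowCongr τ.symm (Equiv.refl Bool))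
    (fun y : ι → Bool => Crest.FinProb.bernoulliWeight p y * F y)
  rw [← this]
  refine sum_congr rfl fun x _ => ?_
  have he : (Equiv.arrowCongr τ.symm (Equiv.refl Bool)) x = x ∘ τ := by
    funext i; simp [Equiv.arrowCongr]
  rw [he, hw]

lemma phi_map (p : ℝ) (τ : Equiv.Perm ι) (S : Finset ι) (x : ι → Bool) :
    phi p (S.map τ.toEmbedding) x = phi p S (x ∘ τ) := by
  unfold phi
  rw [prod_map]
  rfl

/-- coefficient invariance. -/
lemma coeff_map (p : ℝ) (τ : Equiv.Perm ι) (h : (ι → Bool) → ℝ) (hτ : ∀ x, h (x ∘ τ) = h x)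
    (S : Finset ι) : coeff p h (S.map τ.toEmbedding) = coeff p h S := by
  unfold coeff
  rw [← Ex_comp_perm p τ (fun x => h x * phi p S x)]
  refine Ex_congr p fun x => ?_
  rw [phi_map, hτ]

/-- the family of non-empty subsets of `B` of size at most `t`. -/
def lowSets (B : Finset ι) (t : ℕ) : Finset (Finset ι) :=
  (univ : Finset (Finset ι)).filter (fun S => S.Nonempty ∧ S ⊆ B ∧ S.card ≤ t)

lemma mem_lowSets {B : Finset ι} {t : ℕ} {S : Finset ι} :
    S ∈ lowSets B t ↔ S.Nonempty ∧ S ⊆ B ∧ S.card ≤ t := by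
  simp [lowSets]

/-- the low-level Fourier weight of `h` on the block `B`. -/
noncomputable def blockWeight (p : ℝ) (h : (ι → Bool) → ℝ) (B : Finset ι) (t : ℕ) : ℝ :=
  ∑ S ∈ lowSets B t, coeff p h S ^ 2

lemma blockWeight_nonneg (p : ℝ) (h : (ι → Bool) → ℝ) (B : Finset ι) (t : ℕ) :
    0 ≤ blockWeight p h B t := sum_nonneg fun _ _ => sq_nonneg _

/-- elementary inequality used to sum over a block. -/
lemma sum_bound_aux (B : Finset ι) (I Y : ι → ℝ) (M : ℝ) (hM : 0 ≤ M)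
    (hI : ∀ e ∈ B, 0 ≤ I e) (hY : ∀ e ∈ B, 0 ≤ Y e) (h : ∀ e ∈ B, Y e ^ 2 ≤ M * I e ^ 3) :
    (∑ e ∈ B, Y e) ^ 2 ≤ M * (∑ e ∈ B, I e) ^ 3 := by
  set η := ∑ e ∈ B, I e with hη
  have hη0 : 0 ≤ η := sum_nonneg hI
  set c := Real.sqrt (M * η) with hc
  have hc0 : 0 ≤ c := Real.sqrt_nonneg _
  have hc2 : c ^ 2 = M * η := Real.sq_sqrt (mul_nonneg hM hη0)
  have hYle : ∀ e ∈ B, Y e ≤ c * I e := by
    intro e he
    have hIe : I e ≤ η := single_le_sum hI he
    have hIe0 := hI e he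
    have : Y e ^ 2 ≤ (c * I e) ^ 2 := by
      rw [mul_pow, hc2]
      calc Y e ^ 2 ≤ M * I e ^ 3 := h e he
        _ = M * (I e * I e ^ 2) := by ring
        _ ≤ M * (η * I e ^ 2) :=
            mul_le_mul_of_nonneg_left (mul_le_mul_of_nonneg_right hIe (by positivity)) hM
        _ = M * η * I e ^ 2 := by ring
    exact (pow_le_pow_iff_left₀ (hY e he) (by positivity) (by norm_num)).mp this
  have hsum : ∑ e ∈ B, Y e ≤ c * η := by
    rw [hη, mul_sum]
    exact sum_le_sum hYle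
  have hsum0 : 0 ≤ ∑ e ∈ B, Y e := sum_nonneg hY
  calc (∑ e ∈ B, Y e) ^ 2 ≤ (c * η) ^ 2 := pow_le_pow_left₀ hsum0 hsum 2
    _ = M * η ^ 3 := by rw [mul_pow, hc2]; ring

/-- Low-level weight of a block is controlled by the influences in the block. -/
lemma blockWeight_sq_le {p : ℝ} (hp0 : 0 < p) (hp1 : p < 1) (h : (ι → Bool) → ℝ)
    (hdd : ∀ e x, |dd e h x| ≤ 1) (B : Finset ι) (t : ℕ) :
    blockWeight p h B t ^ 2 ≤ (p * (1 - p)) ^ 2 * bK p ^ t * (∑ e ∈ B, Inf p h e) ^ 3 := by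
  have hν : 0 < p * (1 - p) := mul_pos hp0 (by linarith)
  have hK : 0 < bK p := by linarith [bK_ge hp0 hp1]
  have hs2 := sig_sq hp0 hp1
  -- the derived families
  set Y : ι → ℝ := fun e => ∑ S ∈ ((lowSets B t).filter (fun S => e ∈ S)).image (fun S => S.erase e),
      coeff p (dd e h) S ^ 2 with hY
  have hYnn : ∀ e ∈ B, 0 ≤ Y e := fun e _ => sum_nonneg fun _ _ => sq_nonneg _
  have hYbound : ∀ e ∈ B, Y e ^ 2 ≤ bK p ^ t * Inf p h e ^ 3 := by
    intro e he
    refine level_ineq hp0 hp1 (dd e h) (fun x => hdd e x) t _ ?_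
    intro S hS
    obtain ⟨S', hS', rfl⟩ := mem_image.mp hS
    have h1 := (mem_lowSets.mp (mem_filter.mp hS').1).2.2
    exact le_trans (card_erase_le) h1
  have hAe : ∀ e ∈ B, ∑ S ∈ (lowSets B t).filter (fun S => e ∈ S), coeff p h S ^ 2 =
      p * (1 - p) * Y e := by
    intro e he
    simp only [hY]
    rw [sum_image, mul_sum]
    · refine sum_congr rfl fun S hS => ?_
      have hmem : e ∈ S := (mem_filter.mp hS).2
      have hne : e ∉ S.erase e := by simp
      conv_lhs => rw [← insert_erase hmem]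
      rw [coeff_insert hp0 hp1 h hne, mul_pow, hs2]
    · intro S hS S' hS' hEq
      have h1 : e ∈ S := (mem_filter.mp (mem_coe.mp hS)).2
      have h2 : e ∈ S' := (mem_filter.mp (mem_coe.mp hS')).2
      have : insert e (S.erase e) = insert e (S'.erase e) := by
        simpa using congrArg (insert e) hEq
      rwa [insert_erase h1, insert_erase h2] at this
  have hle : blockWeight p h B t ≤ ∑ e ∈ B, p * (1 - p) * Y e := by
    unfold blockWeight
    have h1 : ∑ e ∈ B, p * (1 - p) * Y e =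
        ∑ e ∈ B, ∑ S ∈ (lowSets B t).filter (fun S => e ∈ S), coeff p h S ^ 2 :=
      sum_congr rfl fun e he => (hAe e he).symm
    rw [h1]
    simp_rw [sum_filter]
    rw [sum_comm]
    refine sum_le_sum fun S hS => ?_
    obtain ⟨hne, hsub, -⟩ := mem_lowSets.mp hS
    obtain ⟨e₀, he₀⟩ := hne
    have hs := single_le_sum (f := fun e => if e ∈ S then coeff p h S ^ 2 else 0)
      (fun e _ => by positivity) (hsub he₀)
    simp only [he₀, if_true] at hs
    exact hs
  have hbound := sum_bound_aux B (fun e => Inf p h e) Y (bK p ^ t) (by positivity)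
    (fun e _ => Inf_nonneg hp0 hp1 h e) hYnn hYbound
  have hle' : blockWeight p h B t ≤ p * (1 - p) * ∑ e ∈ B, Y e := by
    rw [mul_sum]; exact hle
  have h0 := blockWeight_nonneg p h B t
  calc blockWeight p h B t ^ 2 ≤ (p * (1 - p) * ∑ e ∈ B, Y e) ^ 2 := pow_le_pow_left₀ h0 hle' 2
    _ = (p * (1 - p)) ^ 2 * (∑ e ∈ B, Y e) ^ 2 := by ring
    _ ≤ (p * (1 - p)) ^ 2 * (bK p ^ t * (∑ e ∈ B, Inf p h e) ^ 3) :=
        mul_le_mul_of_nonneg_left hbound (by positivity)
    _ = _ := by ring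

/-- Symmetric blocks share the total weight, which is at most one. -/
lemma blockWeight_mul_le {β : Type*} [DecidableEq β] {p : ℝ} (hp0 : 0 < p) (hp1 : p < 1)
    (h : (ι → Bool) → ℝ) (hbdd : ∀ x, h x ^ 2 ≤ 1) (U : Finset β) (B : β → Finset ι) (t : ℕ)
    (hdisj : ∀ u ∈ U, ∀ u' ∈ U, u ≠ u' → Disjoint (B u) (B u'))
    (hsym : ∀ u ∈ U, ∀ u' ∈ U, ∃ τ : Equiv.Perm ι, (∀ e ∈ B u, τ e ∈ B u') ∧ ∀ x, h (x ∘ τ) = h x)
    (u : β) (hu : u ∈ U) :
    (U.card : ℝ) * blockWeight p h (B u) t ≤ 1 := by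
  -- all blocks have at least the weight of `B u`
  have hle : ∀ u' ∈ U, blockWeight p h (B u) t ≤ blockWeight p h (B u') t := by
    intro u' hu'
    obtain ⟨τ, hτ1, hτ2⟩ := hsym u hu u' hu'
    unfold blockWeight
    have h1 : ∑ S ∈ lowSets (B u) t, coeff p h S ^ 2 =
        ∑ S ∈ (lowSets (B u) t).image (fun S => S.map τ.toEmbedding), coeff p h S ^ 2 := by
      rw [sum_image]
      · refine sum_congr rfl fun S _ => ?_
        rw [coeff_map p τ h hτ2]
      · intro S _ S' _ hEq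
        exact map_injective τ.toEmbedding hEq
    rw [h1]
    refine sum_le_sum_of_subset_of_nonneg ?_ (fun _ _ _ => sq_nonneg _)
    intro S' hS'
    obtain ⟨S, hS, rfl⟩ := mem_image.mp hS'
    obtain ⟨h1, h2, h3⟩ := mem_lowSets.mp hS
    refine mem_lowSets.mpr ⟨h1.map, ?_, by simpa using h3⟩
    intro e he
    obtain ⟨e', he', rfl⟩ := mem_map.mp he
    exact hτ1 e' (h2 he')
  -- the total weight is at most one
  have hsum : ∑ u' ∈ U, blockWeight p h (B u') t ≤ 1 := by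
    unfold blockWeight
    rw [← sum_biUnion]
    · have h1 : Ex p (fun x => h x ^ 2) ≤ 1 := by
        calc Ex p (fun x => h x ^ 2) ≤ Ex p (fun _ => (1 : ℝ)) := Ex_mono hp0 hp1 hbdd
          _ = 1 := Ex_one p
      rw [parseval_sq hp0 hp1] at h1
      refine le_trans ?_ h1
      exact sum_le_sum_of_subset_of_nonneg (subset_univ _) (fun _ _ _ => sq_nonneg _)
    · intro u₁ hu₁ u₂ hu₂ hne
      simp only [Function.onFun]
      rw [Finset.disjoint_left]
      intro S hS1 hS2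
      obtain ⟨⟨e, he⟩, h1, -⟩ := mem_lowSets.mp hS1
      obtain ⟨-, h2, -⟩ := mem_lowSets.mp hS2
      exact (Finset.disjoint_left.mp (hdisj u₁ hu₁ u₂ hu₂ hne)) (h1 he) (h2 he)
  calc (U.card : ℝ) * blockWeight p h (B u) t
      = ∑ _u' ∈ U, blockWeight p h (B u) t := by simp
    _ ≤ ∑ u' ∈ U, blockWeight p h (B u') t := sum_le_sum hle
    _ ≤ 1 := hsum

/-- The block estimate. -/
theorem block_estimate {β : Type*} [DecidableEq β] {p : ℝ} (hp0 : 0 < p) (hp1 : p < 1)
    (h : (ι → Bool) → ℝ) (hb : IsBool h) (U : Finset β) (hU : U.Nonempty) (B : β → Finset ι) (t : ℕ)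
    (hdisj : ∀ u ∈ U, ∀ u' ∈ U, u ≠ u' → Disjoint (B u) (B u'))
    (hsym : ∀ u ∈ U, ∀ u' ∈ U, ∃ τ : Equiv.Perm ι, (∀ e ∈ B u, τ e ∈ B u') ∧ ∀ x, h (x ∘ τ) = h x)
    (c : ℝ) (hc0 : 0 ≤ c) (hc3 : (p * (1 - p)) ^ 2 * bK p ^ t / U.card ≤ c ^ 3)
    (u : β) (hu : u ∈ U) :
    blockWeight p h (B u) t ≤ c * ∑ e ∈ B u, Inf p h e := by
  have hm : (0 : ℝ) < U.card := by exact_mod_cast hU.card_pos
  set A := blockWeight p h (B u) t with hA
  set η := ∑ e ∈ B u, Inf p h e with hη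
  have hA0 : 0 ≤ A := blockWeight_nonneg _ _ _ _
  have hη0 : 0 ≤ η := sum_nonneg fun e _ => Inf_nonneg hp0 hp1 h e
  have h1 : (U.card : ℝ) * A ≤ 1 := blockWeight_mul_le hp0 hp1 h hb.sq_le_one U B t hdisj hsym u hu
  have h2 : A ^ 2 ≤ (p * (1 - p)) ^ 2 * bK p ^ t * η ^ 3 :=
    blockWeight_sq_le hp0 hp1 h (hb.abs_dd_le) (B u) t
  have hA1 : A ≤ 1 / U.card := by
    rw [le_div_iff₀ hm]; linarith
  have h3 : A ^ 3 ≤ (c * η) ^ 3 := by
    have hK : 0 < bK p := by linarith [bK_ge hp0 hp1]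
    have hν : 0 ≤ (p * (1 - p)) ^ 2 * bK p ^ t := by positivity
    calc A ^ 3 = A * A ^ 2 := by ring
      _ ≤ (1 / U.card) * ((p * (1 - p)) ^ 2 * bK p ^ t * η ^ 3) :=
          mul_le_mul hA1 h2 (by positivity) (by positivity)
      _ = ((p * (1 - p)) ^ 2 * bK p ^ t / U.card) * η ^ 3 := by ring
      _ ≤ c ^ 3 * η ^ 3 := mul_le_mul_of_nonneg_right hc3 (by positivity)
      _ = (c * η) ^ 3 := by ring
  exact (pow_le_pow_iff_left₀ hA0 (by positivity) (by norm_num)).mp h3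

end Crest.Agent.Lib.BlockSym
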