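import Mathlib
import Crest.Prelude.Def_DaugavetL1
import Crest.Agent.Lib.AUC

/-!
Consequences of the Daugavet property: every closed finite-codimensional subspace contains unit
vectors `y` with `‖x + 2 y‖` arbitrarily close to `1` (for a prescribed unit vector `x`).
The proof goes through a convexity argument in a finite-dimensional quotient and "farthest points",
which replaces Bourgain's lemma on convex combinations of slices.
-/

set_option autoImplicit false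

open Filter Topology

namespace Crest.Agent.Lib.Daugavet

open Crest.Agent.Lib.AUC Crest.AnalysisR.L1Subspace

variable {X : Type*} [NormedAddCommGroup X] [NormedSpace ℝ X]

theorem slice_lemma (hD : HasDaugavetProperty X) (f : X →L[ℝ] ℝ) {u : X} (hu : ‖u‖ = 1) {δ : ℝ}
    (hδ : 0 < δ) : ∃ z : X, ‖z‖ ≤ 1 ∧ ‖f‖ - δ ≤ f z ∧ 2 - δ ≤ ‖u + z‖ := by
  by_cases hf : f = 0
  · refine ⟨u, hu.le, by simp [hf, hδ.le], ?_⟩
    have : ‖u + u‖ = 2 := by
      rw [← two_smul ℝ u, norm_smul, hu]; norm_num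
    rw [this]; linarith
  have hn : 0 < ‖f‖ := norm_pos_iff.mpr hf
  set n := ‖f‖ with hndef
  set g : X →L[ℝ] ℝ := n⁻¹ • f with hg
  have hgn : ‖g‖ = 1 := by
    rw [hg, norm_smul, norm_inv, Real.norm_eq_abs, abs_of_pos hn, ← hndef]
    field_simp
  have hT : ‖g.smulRight u‖ = 1 := by
    rw [ContinuousLinearMap.norm_smulRight_apply, hgn, hu, one_mul]
  have hDg := hD g u
  rw [hT] at hDg
  set δ₁ : ℝ := min (δ / 2) (δ / n) with hδ₁
  have hδ₁pos : 0 < δ₁ := lt_min (by positivity) (by positivity)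
  have hlt : (2 - δ₁ : ℝ) < ‖ContinuousLinearMap.id ℝ X + g.smulRight u‖ := by
    rw [hDg]; linarith
  obtain ⟨z₀, hz₀, hz₀2⟩ := ContinuousLinearMap.exists_lt_apply_of_lt_opNorm _ hlt
  have happly : (ContinuousLinearMap.id ℝ X + g.smulRight u) z₀ = z₀ + g z₀ • u := by
    simp
  rw [happly] at hz₀2
  have hgz : |g z₀| ≤ 1 := by
    have := g.le_opNorm z₀
    rw [hgn, Real.norm_eq_abs] at this
    nlinarith [norm_nonneg z₀]
  have hlow : 1 - δ₁ < |g z₀| := by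
    have h1 : ‖z₀ + g z₀ • u‖ ≤ ‖z₀‖ + |g z₀| := by
      refine (norm_add_le _ _).trans ?_
      rw [norm_smul, hu, mul_one, Real.norm_eq_abs]
    linarith
  have hδ₁1 : δ₁ ≤ δ / 2 := min_le_left _ _
  have hδ₁2 : δ₁ * n ≤ δ := by
    have : δ₁ ≤ δ / n := min_le_right _ _
    calc δ₁ * n ≤ δ / n * n := by gcongr
      _ = δ := by field_simp
  have hfg : ∀ z, f z = n * g z := by
    intro z
    simp only [hg, ContinuousLinearMap.smul_apply, smul_eq_mul]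
    field_simp
  rcases le_or_gt 0 (g z₀) with hs | hs
  · refine ⟨z₀, hz₀.le, ?_, ?_⟩
    · rw [hfg]
      rw [abs_of_nonneg hs] at hlow
      nlinarith
    · rw [abs_of_nonneg hs] at hgz hlow
      have h2 : u + z₀ = (z₀ + g z₀ • u) + (1 - g z₀) • u := by
        rw [sub_smul, one_smul]; abel
      have h3 : ‖z₀ + g z₀ • u‖ ≤ ‖u + z₀‖ + ‖(1 - g z₀) • u‖ := by
        have : z₀ + g z₀ • u = (u + z₀) - (1 - g z₀) • u := by
          rw [sub_smul, one_smul]; abel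
        rw [this]
        exact norm_sub_le _ _
      rw [norm_smul, hu, mul_one, Real.norm_eq_abs, abs_of_nonneg (by linarith)] at h3
      linarith
  · refine ⟨-z₀, by simpa using hz₀.le, ?_, ?_⟩
    · rw [hfg, map_neg]
      rw [abs_of_neg hs] at hlow
      nlinarith
    · rw [abs_of_neg hs] at hgz hlow
      have h3 : ‖z₀ + g z₀ • u‖ ≤ ‖u + -z₀‖ + ‖(1 + g z₀) • u‖ := by
        have : z₀ + g z₀ • u = -(u + -z₀) + (1 + g z₀) • u := by
          rw [add_smul, one_smul]; abel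
        rw [this]
        refine (norm_add_le _ _).trans ?_
        rw [norm_neg]
      rw [norm_smul, hu, mul_one, Real.norm_eq_abs, abs_of_nonneg (by linarith)] at h3
      linarith

variable {V : Type*} [NormedAddCommGroup V] [InnerProductSpace ℝ V] [FiniteDimensional ℝ V]

/-- A point `q` of the finite-dimensional target is good if it is approximated by images of
unit-ball points far from any prescribed unit vector. -/
def Good (Q : X →L[ℝ] V) (q : V) : Prop :=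
  ∀ ε : ℝ, 0 < ε → ∀ u : X, ‖u‖ = 1 → ∃ z : X, ‖z‖ ≤ 1 ∧ ‖Q z - q‖ < ε ∧ 2 - ε ≤ ‖u + z‖

theorem good_convex (Q : X →L[ℝ] V) : Convex ℝ {q | Good Q q} := by
  intro q₁ h₁ q₂ h₂ a b ha hb hab
  intro ε hε u hu
  set ε' : ℝ := min (ε / 4) (1 / 2) with hε'
  have hε'pos : 0 < ε' := lt_min (by positivity) (by norm_num)
  have hε'1 : ε' ≤ ε / 4 := min_le_left _ _
  have hε'2 : ε' ≤ 1 / 2 := min_le_right _ _
  obtain ⟨z₁, hz₁, hQ₁, hf₁⟩ := h₁ ε' hε'pos u hu
  obtain ⟨ν₁, hν₁, hν₁2⟩ := exists_dual_vector'' ℝ (u + z₁)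
  have hle : ∀ (ν : X →L[ℝ] ℝ), ‖ν‖ ≤ 1 → ∀ w : X, ν w ≤ ‖w‖ := by
    intro ν hν w
    have := ν.le_opNorm w
    have h2 := le_abs_self (ν w)
    rw [Real.norm_eq_abs] at this
    nlinarith [norm_nonneg w]
  have hν₁2' : ν₁ (u + z₁) = ‖u + z₁‖ := by simpa using hν₁2
  have hνu : 1 - ε' ≤ ν₁ u := by
    have h1 := hle ν₁ hν₁ z₁
    rw [map_add] at hν₁2'
    linarith
  have hνz : 1 - ε' ≤ ν₁ z₁ := by
    have h1 := hle ν₁ hν₁ u
    rw [map_add] at hν₁2'
    linarith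
  set w : X := u + a • z₁ with hw
  have hwlow : (1 + a) * (1 - ε') ≤ ‖w‖ := by
    have h1 := hle ν₁ hν₁ w
    have h2 : ν₁ w = ν₁ u + a * ν₁ z₁ := by
      simp [hw]
    rw [h2] at h1
    nlinarith
  have hwpos : 0 < ‖w‖ := by
    have : 0 < (1 + a) * (1 - ε') := by
      apply mul_pos <;> linarith
    linarith
  set uh : X := ‖w‖⁻¹ • w with huh
  have huhn : ‖uh‖ = 1 := by
    rw [huh, norm_smul, norm_inv, norm_norm]
    field_simp
  obtain ⟨z₂, hz₂, hQ₂, hf₂⟩ := h₂ ε' hε'pos uh huhn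
  obtain ⟨ν₂, hν₂, hν₂2⟩ := exists_dual_vector'' ℝ (uh + z₂)
  have hν₂2' : ν₂ (uh + z₂) = ‖uh + z₂‖ := by simpa using hν₂2
  have hνuh : 1 - ε' ≤ ν₂ uh := by
    have h1 := hle ν₂ hν₂ z₂
    rw [map_add] at hν₂2'
    linarith
  have hνz2 : 1 - ε' ≤ ν₂ z₂ := by
    have h1 := hle ν₂ hν₂ uh
    rw [map_add] at hν₂2'
    linarith
  refine ⟨a • z₁ + b • z₂, ?_, ?_, ?_⟩
  · calc ‖a • z₁ + b • z₂‖ ≤ ‖a • z₁‖ + ‖b • z₂‖ := norm_add_le _ _
      _ = a * ‖z₁‖ + b * ‖z₂‖ := by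
        rw [norm_smul, norm_smul, Real.norm_eq_abs, Real.norm_eq_abs, abs_of_nonneg ha,
          abs_of_nonneg hb]
      _ ≤ a * 1 + b * 1 := by gcongr
      _ = 1 := by linarith
  · have h1 : Q (a • z₁ + b • z₂) - (a • q₁ + b • q₂) = a • (Q z₁ - q₁) + b • (Q z₂ - q₂) := by
      simp only [map_add, map_smul, smul_sub]
      abel
    rw [h1]
    have h2 : ‖a • (Q z₁ - q₁) + b • (Q z₂ - q₂)‖ ≤ a * ‖Q z₁ - q₁‖ + b * ‖Q z₂ - q₂‖ := by
      refine (norm_add_le _ _).trans ?_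
      rw [norm_smul, norm_smul, Real.norm_eq_abs, Real.norm_eq_abs, abs_of_nonneg ha,
        abs_of_nonneg hb]
    have h3 : a * ‖Q z₁ - q₁‖ + b * ‖Q z₂ - q₂‖ ≤ a * ε' + b * ε' := by gcongr
    have h4 : a * ε' + b * ε' = ε' := by
      rw [← add_mul, hab, one_mul]
    have h5 : ε' < ε := by linarith
    have h6 : a * ‖Q z₁ - q₁‖ + b * ‖Q z₂ - q₂‖ ≤ ε' := by linarith
    linarith
  · have h1 := hle ν₂ hν₂ (u + (a • z₁ + b • z₂))
    have h2 : u + (a • z₁ + b • z₂) = ‖w‖ • uh + b • z₂ := by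
      rw [huh, smul_smul]
      have : ‖w‖ * ‖w‖⁻¹ = 1 := by field_simp
      rw [this, one_smul, hw]
      abel
    have h3 : ν₂ (u + (a • z₁ + b • z₂)) = ‖w‖ * ν₂ uh + b * ν₂ z₂ := by
      rw [h2]; simp
    rw [h3] at h1
    have h4 : ‖w‖ * (1 - ε') ≤ ‖w‖ * ν₂ uh := by gcongr
    have h5 : b * (1 - ε') ≤ b * ν₂ z₂ := by gcongr
    have hε'3 : 0 ≤ 1 - ε' := by linarith
    have h6 : (1 + a) * (1 - ε') * (1 - ε') ≤ ‖w‖ * (1 - ε') := by gcongr
    have h7 : 2 * (1 - ε') * (1 - ε') ≤ (1 + a) * (1 - ε') * (1 - ε') + b * (1 - ε') := by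
      have hb' : b = 1 - a := by linarith
      subst hb'
      nlinarith [mul_nonneg hε'pos.le hb, mul_nonneg (mul_nonneg hε'pos.le hb) hε'3]
    nlinarith

theorem good_closed (Q : X →L[ℝ] V) : IsClosed {q | Good Q q} := by
  refine isClosed_of_closure_subset ?_
  intro q hq ε hε u hu
  obtain ⟨q', hq', hd⟩ := Metric.mem_closure_iff.mp hq (ε / 2) (by positivity)
  obtain ⟨z, hz, hQ, hf⟩ := hq' (ε / 2) (by positivity) u hu
  refine ⟨z, hz, ?_, by linarith⟩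
  have : Q z - q = (Q z - q') - (q - q') := by abel
  rw [this]
  calc ‖(Q z - q') - (q - q')‖ ≤ ‖Q z - q'‖ + ‖q - q'‖ := norm_sub_le _ _
    _ < ε / 2 + ε / 2 := by
      rw [dist_eq_norm] at hd
      linarith
    _ = ε := by ring

theorem good_farthest (hD : HasDaugavetProperty X) (Q : X →L[ℝ] V) {e c : V}
    (he : e ∈ closure (Q '' Metric.closedBall 0 1))
    (hfar : ∀ k ∈ closure (Q '' Metric.closedBall 0 1), ‖k - c‖ ≤ ‖e - c‖) : Good Q e := by
  set K := closure (Q '' Metric.closedBall (0 : X) 1) with hK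
  set R := ‖e - c‖ with hR
  set ψ : V →L[ℝ] ℝ := innerSL ℝ (e - c) with hψ
  set f : X →L[ℝ] ℝ := ψ.comp Q with hf
  have hψapp : ∀ v, ψ v = inner ℝ (e - c) v := fun v => rfl
  have hle : ∀ k ∈ K, ψ k ≤ ‖f‖ := by
    have hcl : IsClosed {k : V | ψ k ≤ ‖f‖} := isClosed_le ψ.continuous continuous_const
    refine closure_minimal ?_ hcl
    rintro _ ⟨z, hz, rfl⟩
    have hz' : ‖z‖ ≤ 1 := by simpa using hz
    have h1 := f.le_opNorm z
    have h2 : ψ (Q z) = f z := rfl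
    have h3 := le_abs_self (f z)
    rw [Real.norm_eq_abs] at h1
    show ψ (Q z) ≤ ‖f‖
    rw [h2]
    nlinarith [norm_nonneg f]
  intro ε hε u hu
  set δ : ℝ := min ε (ε ^ 2 / 4) with hδdef
  have hδ : 0 < δ := lt_min hε (by positivity)
  obtain ⟨z, hz, hfz, hfar2⟩ := slice_lemma hD f hu hδ
  refine ⟨z, hz, ?_, ?_⟩
  · have hkK : Q z ∈ K := subset_closure ⟨z, by simpa using hz, rfl⟩
    have h1 := hfar _ hkK
    have h2 := hle e he
    have h3 : ψ (Q z) = f z := rfl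
    -- expand
    have h4 : ‖Q z - e‖ ^ 2 = ‖Q z - c‖ ^ 2 - 2 * inner ℝ (e - c) (Q z - c) + ‖e - c‖ ^ 2 := by
      have : Q z - e = (Q z - c) - (e - c) := by abel
      rw [this, @norm_sub_sq_real, real_inner_comm]
    have h5 : inner ℝ (e - c) (Q z - c) = ψ (Q z) - ψ c := by
      rw [hψapp, hψapp, inner_sub_right]
    have h6 : inner ℝ (e - c) (e - c) = ψ e - ψ c := by
      rw [hψapp, hψapp, inner_sub_right]
    have h7 : inner ℝ (e - c) (e - c) = R ^ 2 := by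
      rw [real_inner_self_eq_norm_sq]
    have h8 : R ^ 2 - δ ≤ inner ℝ (e - c) (Q z - c) := by
      rw [h5]
      rw [h6] at h7
      linarith
    have h9 : ‖Q z - c‖ ^ 2 ≤ R ^ 2 := by
      have h0 := norm_nonneg (Q z - c)
      nlinarith
    have h10 : ‖Q z - e‖ ^ 2 ≤ 2 * δ := by
      rw [h4]
      nlinarith
    have h11 : δ ≤ ε ^ 2 / 4 := min_le_right _ _
    have h12 : ‖Q z - e‖ ^ 2 < ε ^ 2 := by
      have : 0 < ε ^ 2 := by positivity
      linarith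
    exact lt_of_pow_lt_pow_left₀ 2 hε.le h12
  · have : δ ≤ ε := min_le_left _ _
    linarith

theorem all_good (hD : HasDaugavetProperty X) (Q : X →L[ℝ] V) {z₀ : X} (hz₀ : ‖z₀‖ ≤ 1) :
    Good Q (Q z₀) := by
  by_contra hbad
  obtain ⟨f, u₀, hG, hq⟩ := geometric_hahn_banach_closed_point (good_convex Q) (good_closed Q) hbad
  set q := Q z₀ with hqdef
  set K := closure (Q '' Metric.closedBall (0 : X) 1) with hK
  have : ProperSpace V := FiniteDimensional.proper_real V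
  set B : ℝ := ‖Q‖ with hB
  have hBnn : 0 ≤ B := norm_nonneg _
  have hKB : K ⊆ Metric.closedBall (0 : V) B := by
    refine closure_minimal ?_ Metric.isClosed_closedBall
    rintro _ ⟨z, hz, rfl⟩
    have hz' : ‖z‖ ≤ 1 := by simpa using hz
    simp only [mem_closedBall_zero_iff]
    calc ‖Q z‖ ≤ ‖Q‖ * ‖z‖ := Q.le_opNorm z
      _ ≤ ‖Q‖ * 1 := by gcongr
      _ = B := mul_one _
  have hKc : IsCompact K :=
    Metric.isCompact_of_isClosed_isBounded isClosed_closure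
      (Metric.isBounded_closedBall.subset hKB)
  have hqK : q ∈ K := subset_closure ⟨z₀, by simpa using hz₀, rfl⟩
  have hKne : K.Nonempty := ⟨q, hqK⟩
  set w : V := (InnerProductSpace.toDual ℝ V).symm f with hw
  have hwapp : ∀ v, inner ℝ w v = f v := fun v => InnerProductSpace.toDual_symm_apply
  set D : ℝ := (2 * B) ^ 2 with hD2
  have hgap : 0 < f q - u₀ := by linarith
  set R : ℝ := D / (f q - u₀) + 1 with hR
  have hRpos : 0 < R := by
    have : 0 ≤ D / (f q - u₀) := by positivity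
    linarith
  set c : V := q - R • w with hc
  obtain ⟨e, heK, hemax⟩ := hKc.exists_isMaxOn hKne
    (f := fun k => ‖k - c‖) (by fun_prop)
  have hfar : ∀ k ∈ K, ‖k - c‖ ≤ ‖e - c‖ := fun k hk => hemax hk
  have hge : Good Q e := good_farthest hD Q heK hfar
  have h1 := hG e hge
  -- computation
  have h2 := hfar q hqK
  set h : V := e - q with hh
  have h3 : e - c = h + R • w := by
    rw [hh, hc]; abel
  have h4 : q - c = R • w := by
    rw [hc]; abel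
  rw [h3, h4] at h2
  have h5 : ‖R • w‖ ^ 2 ≤ ‖h + R • w‖ ^ 2 := by
    have := norm_nonneg (R • w)
    gcongr
  rw [@norm_add_sq_real] at h5
  have h6 : inner ℝ h (R • w) = R * f h := by
    rw [real_inner_smul_right, real_inner_comm, hwapp]
  rw [h6] at h5
  have h7 : ‖h‖ ≤ 2 * B := by
    have h8 : ‖e‖ ≤ B := by simpa using hKB heK
    have h9 : ‖q‖ ≤ B := by simpa using hKB hqK
    calc ‖h‖ = ‖e - q‖ := rfl
      _ ≤ ‖e‖ + ‖q‖ := norm_sub_le _ _
      _ ≤ 2 * B := by linarith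
  have h8 : ‖h‖ ^ 2 ≤ D := by
    rw [hD2]
    gcongr
  have h9 : f h = f e - f q := by
    rw [hh, map_sub]
  -- `2 * R * f h + ‖h‖^2 ≥ 0`
  have h10 : 0 ≤ 2 * (R * f h) + D := by nlinarith
  have h11 : f q - u₀ < f h + (f q - u₀) := by
    -- we show `f h > -(f q - u₀)`
    have h12 : D < R * (f q - u₀) * 2 := by
      have h13 : R * (f q - u₀) = D + (f q - u₀) := by
        rw [hR]; field_simp
      have hD0 : 0 ≤ D := by positivity
      nlinarith
    have h14 : 0 < R * (f h + (f q - u₀)) := by nlinarith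
    have h15 : 0 < f h + (f q - u₀) := by
      by_contra hneg
      have hneg := not_lt.mp hneg
      have : R * (f h + (f q - u₀)) ≤ 0 := mul_nonpos_of_nonneg_of_nonpos hRpos.le hneg
      linarith
    linarith
  rw [h9] at h11
  linarith

/-- The main consequence of the Daugavet property. -/
theorem exists_far_in_cof (hD : HasDaugavetProperty X) {x : X} (hx : ‖x‖ = 1) {F : Set X}
    (hF : IsCofSet F) {η : ℝ} (hη : 0 < η) : ∃ y ∈ F, ‖y‖ = 1 ∧ ‖x + (2 : ℝ) • y‖ ≤ 1 + η := by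
  obtain ⟨S, rfl, hcl, hfd⟩ := hF
  have : IsClosed (S : Set X) := hcl
  have : FiniteDimensional ℝ (X ⧸ S) := hfd
  let e := toEuclidean (E := X ⧸ S)
  let mkL : X →L[ℝ] (X ⧸ S) := S.mkQ.mkContinuous 1 (fun x => by
    rw [one_mul]
    exact Submodule.Quotient.norm_mk_le S x)
  let Q : X →L[ℝ] EuclideanSpace ℝ (Fin (Module.finrank ℝ (X ⧸ S))) :=
    (e : (X ⧸ S) →L[ℝ] _).comp mkL
  set C₀ : ℝ := ‖(e.symm : EuclideanSpace ℝ (Fin (Module.finrank ℝ (X ⧸ S))) →L[ℝ] (X ⧸ S))‖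
    with hC₀
  have hC₀nn : 0 ≤ C₀ := ContinuousLinearMap.opNorm_nonneg _
  set ε₁ : ℝ := min (1 / 4) (min (η / 8) ((min (1 / 4) (η / 8)) / (C₀ + 1))) with hε₁
  have hm0 : 0 < min (1 / 4) (η / 8) := lt_min (by norm_num) (by positivity)
  have hε₁pos : 0 < ε₁ := by
    refine lt_min (by norm_num) (lt_min (by positivity) (by positivity))
  have hε₁a : ε₁ ≤ 1 / 4 := min_le_left _ _
  have hε₁b : ε₁ ≤ η / 8 := (min_le_right _ _).trans (min_le_left _ _)
  have hε₁c : (C₀ + 1) * ε₁ ≤ min (1 / 4) (η / 8) := by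
    have : ε₁ ≤ (min (1 / 4) (η / 8)) / (C₀ + 1) := (min_le_right _ _).trans (min_le_right _ _)
    have hpos : 0 < C₀ + 1 := by linarith
    calc (C₀ + 1) * ε₁ ≤ (C₀ + 1) * ((min (1 / 4) (η / 8)) / (C₀ + 1)) := by gcongr
      _ = _ := by field_simp
  have hmu1 : (C₀ + 1) * ε₁ ≤ 1 / 4 := hε₁c.trans (min_le_left _ _)
  have hmu2 : (C₀ + 1) * ε₁ ≤ η / 8 := hε₁c.trans (min_le_right _ _)
  have hxn : ‖-x‖ = 1 := by rw [norm_neg, hx]
  obtain ⟨z, hz, hQ, hfar⟩ := all_good hD Q hx.le ε₁ hε₁pos (-x) hxn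
  -- the halved difference
  set y₁ : X := (1 / 2 : ℝ) • (z - x) with hy₁
  have hQy₁ : ‖Q y₁‖ ≤ ε₁ / 2 := by
    have h1 : Q y₁ = (1 / 2 : ℝ) • (Q z - Q x) := by
      rw [hy₁, map_smul, map_sub]
    rw [h1, norm_smul, Real.norm_eq_abs, abs_of_pos (by norm_num : (0 : ℝ) < 1 / 2)]
    linarith
  have hmk : ‖(Submodule.Quotient.mk y₁ : X ⧸ S)‖ ≤ C₀ * (ε₁ / 2) := by
    have h1 : (Submodule.Quotient.mk y₁ : X ⧸ S) = e.symm (Q y₁) := by
      show _ = e.symm (e (mkL y₁))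
      rw [ContinuousLinearEquiv.symm_apply_apply]
      rfl
    rw [h1]
    calc ‖e.symm (Q y₁)‖
        = ‖(e.symm : EuclideanSpace ℝ (Fin (Module.finrank ℝ (X ⧸ S))) →L[ℝ] (X ⧸ S)) (Q y₁)‖ := rfl
      _ ≤ C₀ * ‖Q y₁‖ := ContinuousLinearMap.le_opNorm _ _
      _ ≤ C₀ * (ε₁ / 2) := by gcongr
  obtain ⟨m, hm, hmn⟩ := Submodule.Quotient.norm_mk_lt
    (Submodule.Quotient.mk y₁ : X ⧸ S) (show 0 < ε₁ / 2 by positivity)
  set μ : ℝ := (C₀ + 1) * ε₁ with hμ
  have hmμ : ‖m‖ ≤ μ := by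
    rw [hμ]
    nlinarith
  have hy₂S : y₁ - m ∈ S := (Submodule.Quotient.eq S).mp hm.symm
  set y₂ : X := y₁ - m with hy₂
  -- bounds
  have hy₁up : ‖y₁‖ ≤ 1 := by
    rw [hy₁, norm_smul, Real.norm_eq_abs, abs_of_pos (by norm_num : (0 : ℝ) < 1 / 2)]
    have : ‖z - x‖ ≤ ‖z‖ + ‖x‖ := norm_sub_le _ _
    rw [hx] at this
    linarith
  have hy₁low : 1 - ε₁ / 2 ≤ ‖y₁‖ := by
    rw [hy₁, norm_smul, Real.norm_eq_abs, abs_of_pos (by norm_num : (0 : ℝ) < 1 / 2)]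
    have : -x + z = z - x := by abel
    rw [this] at hfar
    linarith
  have hy₂up : ‖y₂‖ ≤ 1 + μ := by
    have : ‖y₂‖ ≤ ‖y₁‖ + ‖m‖ := norm_sub_le _ _
    linarith
  have hy₂low : 1 - ε₁ / 2 - μ ≤ ‖y₂‖ := by
    have : ‖y₁‖ ≤ ‖y₂‖ + ‖m‖ := by
      have h1 : y₁ = y₂ + m := by rw [hy₂]; abel
      conv_lhs => rw [h1]
      exact norm_add_le _ _
    linarith
  have hy₂pos : 0 < ‖y₂‖ := by linarith
  refine ⟨‖y₂‖⁻¹ • y₂, ?_, ?_, ?_⟩
  · exact S.smul_mem _ hy₂S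
  · rw [norm_smul, norm_inv, norm_norm]
    field_simp
  · have hxy : x + (2 : ℝ) • y₂ = z - (2 : ℝ) • m := by
      rw [hy₂, smul_sub, hy₁, smul_smul]
      norm_num
      abel
    have h1 : ‖x + (2 : ℝ) • y₂‖ ≤ 1 + 2 * μ := by
      rw [hxy]
      have h2 : ‖z - (2 : ℝ) • m‖ ≤ ‖z‖ + ‖(2 : ℝ) • m‖ := norm_sub_le _ _
      rw [norm_smul] at h2
      norm_num at h2
      linarith
    have h2 : ‖‖y₂‖⁻¹ • y₂ - y₂‖ ≤ ε₁ / 2 + μ := by
      have h3 : ‖y₂‖⁻¹ • y₂ - y₂ = (‖y₂‖⁻¹ - 1) • y₂ := by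
        rw [sub_smul, one_smul]
      rw [h3, norm_smul, Real.norm_eq_abs]
      have h4 : |‖y₂‖⁻¹ - 1| * ‖y₂‖ = |1 - ‖y₂‖| := by
        have h5 : (‖y₂‖⁻¹ - 1) * ‖y₂‖ = 1 - ‖y₂‖ := by field_simp
        rw [← h5, abs_mul, abs_of_pos hy₂pos]
      rw [h4, abs_le]
      constructor <;> linarith
    have h3 : ∀ A B : X, x + (2 : ℝ) • A = (x + (2 : ℝ) • B) + (2 : ℝ) • (A - B) := by
      intro A B
      rw [smul_sub]; abel
    rw [h3 _ y₂]
    refine (norm_add_le _ _).trans ?_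
    rw [norm_smul]
    norm_num
    have hfinal : 4 * μ + ε₁ ≤ η := by
      have : μ ≤ η / 8 := hmu2
      linarith
    linarith

end Crest.Agent.Lib.Daugavet
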