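import Mathlib
import Crest.Prelude.Def_Diamond
import Crest.Agent.Lib.AUC

/-!
Distortion of countably branching diamonds in a space with a lower bound on the maximum-based
midpoint modulus.
-/

set_option autoImplicit false

open Crest.AnalysisR

namespace Crest.Agent.Lib.Diamond

open Crest.Agent.Lib.AUC

/-! ### The graphs -/

lemma src_ne_tgt : ∀ (k : ℕ) (e : DiamondEdge k), diamondSrc k e ≠ diamondTgt k e
  | 0, _ => by
    simp [diamondSrc, diamondTgt]
  | k + 1, (e, i, b) => by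
    cases b
    · simp [diamondSrc, diamondTgt]
    · simp [diamondSrc, diamondTgt]

lemma adj_edge (k : ℕ) (e : DiamondEdge k) :
    (diamondGraph k).Adj (diamondSrc k e) (diamondTgt k e) :=
  (SimpleGraph.fromRel_adj _ _ _).mpr ⟨src_ne_tgt k e, Or.inl ⟨e, rfl, rfl⟩⟩

lemma adj_left (k : ℕ) (e : DiamondEdge k) (i : ℕ) :
    (diamondGraph (k + 1)).Adj (Sum.inl (diamondSrc k e)) (Sum.inr (e, i)) :=
  adj_edge (k + 1) (e, i, false)

lemma adj_right (k : ℕ) (e : DiamondEdge k) (i : ℕ) :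
    (diamondGraph (k + 1)).Adj (Sum.inr (e, i)) (Sum.inl (diamondTgt k e)) :=
  adj_edge (k + 1) (e, i, true)

lemma reachable_lift (k : ℕ) {a b : DiamondVertex k} (h : (diamondGraph k).Reachable a b) :
    (diamondGraph (k + 1)).Reachable (Sum.inl a) (Sum.inl b) := by
  obtain ⟨p⟩ := h
  induction p with
  | nil => exact SimpleGraph.Reachable.refl _
  | @cons u v w huv _ ih =>
    refine SimpleGraph.Reachable.trans ?_ ih
    obtain ⟨-, h | h⟩ := (SimpleGraph.fromRel_adj _ _ _).mp huv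
    · obtain ⟨e, rfl, rfl⟩ := h
      exact (adj_left k e 0).reachable.trans (adj_right k e 0).reachable
    · obtain ⟨e, rfl, rfl⟩ := h
      exact (adj_right k e 0).symm.reachable.trans (adj_left k e 0).symm.reachable

theorem preconnected : ∀ (k : ℕ) (u v : DiamondVertex k), (diamondGraph k).Reachable u v
  | 0, u, v => by
    have h : (diamondGraph 0).Adj false true := adj_edge 0 ()
    cases u <;> cases v
    · exact SimpleGraph.Reachable.refl _
    · exact h.reachable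
    · exact h.symm.reachable
    · exact SimpleGraph.Reachable.refl _
  | k + 1, u, v => by
    have H := preconnected k
    have hinr : ∀ (e : DiamondEdge k) (i : ℕ), (diamondGraph (k + 1)).Reachable
        (Sum.inr (e, i)) (Sum.inl (diamondSrc k e)) := fun e i => (adj_left k e i).symm.reachable
    have hinl : ∀ x : DiamondVertex (k + 1), ∃ a : DiamondVertex k,
        (diamondGraph (k + 1)).Reachable x (Sum.inl a) := by
      rintro (a | ⟨e, i⟩)
      · exact ⟨a, SimpleGraph.Reachable.refl _⟩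
      · exact ⟨_, hinr e i⟩
    obtain ⟨a, ha⟩ := hinl u
    obtain ⟨b, hb⟩ := hinl v
    exact ha.trans ((reachable_lift k (H a b)).trans hb.symm)

theorem connected (k : ℕ) : (diamondGraph k).Connected := by
  have hne : Nonempty (DiamondVertex k) := by
    induction k with
    | zero => exact ⟨false⟩
    | succ k ih =>
      obtain ⟨a⟩ := ih
      exact ⟨Sum.inl a⟩
  exact { preconnected := preconnected k, nonempty := hne }

lemma dist_edge (k : ℕ) (e : DiamondEdge k) : diamondDist k (diamondSrc k e) (diamondTgt k e) = 1 :=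
  SimpleGraph.dist_eq_one_iff_adj.mpr (adj_edge k e)

/-- The potential used to compare distances before and after subdivision. -/
noncomputable def liftPot (k : ℕ) (u : DiamondVertex k) : DiamondVertex (k + 1) → ℤ
  | Sum.inl w => 2 * (diamondDist k u w : ℤ)
  | Sum.inr (e, _) => (diamondDist k u (diamondSrc k e) : ℤ) + (diamondDist k u (diamondTgt k e) : ℤ)

lemma dist_edge_diff (k : ℕ) (u : DiamondVertex k) (e : DiamondEdge k) :
    |(diamondDist k u (diamondSrc k e) : ℤ) - (diamondDist k u (diamondTgt k e) : ℤ)| ≤ 1 := by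
  have h1 : (diamondGraph k).dist u (diamondTgt k e)
      ≤ (diamondGraph k).dist u (diamondSrc k e)
        + (diamondGraph k).dist (diamondSrc k e) (diamondTgt k e) :=
    (connected k).dist_triangle
  have h2 : (diamondGraph k).dist u (diamondSrc k e)
      ≤ (diamondGraph k).dist u (diamondTgt k e)
        + (diamondGraph k).dist (diamondTgt k e) (diamondSrc k e) :=
    (connected k).dist_triangle
  have h3 : (diamondGraph k).dist (diamondSrc k e) (diamondTgt k e) = 1 := dist_edge k e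
  have h4 : (diamondGraph k).dist (diamondTgt k e) (diamondSrc k e) = 1 := by
    rw [SimpleGraph.dist_comm]; exact h3
  simp only [diamondDist]
  rw [h3] at h1
  rw [h4] at h2
  rw [abs_le]
  constructor <;> omega

lemma liftPot_adj (k : ℕ) (u : DiamondVertex k) {a b : DiamondVertex (k + 1)}
    (h : (diamondGraph (k + 1)).Adj a b) : |liftPot k u a - liftPot k u b| ≤ 1 := by
  obtain ⟨-, h | h⟩ := (SimpleGraph.fromRel_adj _ _ _).mp h
  · obtain ⟨⟨e, i, c⟩, rfl, rfl⟩ := h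
    have hd := dist_edge_diff k u e
    rw [abs_le] at hd ⊢
    cases c
    · simp only [diamondSrc, diamondTgt, cond_false, liftPot]
      constructor <;> linarith [hd.1, hd.2]
    · simp only [diamondSrc, diamondTgt, cond_true, liftPot]
      constructor <;> linarith [hd.1, hd.2]
  · obtain ⟨⟨e, i, c⟩, rfl, rfl⟩ := h
    have hd := dist_edge_diff k u e
    rw [abs_le] at hd ⊢
    cases c
    · simp only [diamondSrc, diamondTgt, cond_false, liftPot]
      constructor <;> linarith [hd.1, hd.2]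
    · simp only [diamondSrc, diamondTgt, cond_true, liftPot]
      constructor <;> linarith [hd.1, hd.2]

lemma liftPot_walk (k : ℕ) (u : DiamondVertex k) {a b : DiamondVertex (k + 1)}
    (p : (diamondGraph (k + 1)).Walk a b) : |liftPot k u a - liftPot k u b| ≤ p.length := by
  induction p with
  | nil => simp
  | @cons v w x hvw _ ih =>
    have h1 := liftPot_adj k u hvw
    rw [SimpleGraph.Walk.length_cons]
    push_cast
    rw [abs_le] at h1 ih ⊢
    constructor <;> linarith [h1.1, h1.2, ih.1, ih.2]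

/-- Subdivision doubles distances between old vertices. -/
lemma dist_inl (k : ℕ) (u v : DiamondVertex k) :
    2 * diamondDist k u v ≤ diamondDist (k + 1) (Sum.inl u) (Sum.inl v) := by
  obtain ⟨p, hp⟩ := (connected (k + 1)).exists_walk_length_eq_dist
    (Sum.inl u : DiamondVertex (k + 1)) (Sum.inl v)
  have h := liftPot_walk k u p
  rw [hp] at h
  simp only [liftPot, diamondDist, SimpleGraph.dist_self] at h
  simp only [diamondDist]
  have h2 := (abs_le.mp h).1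
  simp only [Nat.cast_zero, mul_zero, zero_sub] at h2
  have h3 : (2 * ((diamondGraph k).dist u v : ℤ)) ≤ ((diamondGraph (k + 1)).dist (Sum.inl u) (Sum.inl v) : ℤ) := by
    linarith
  exact_mod_cast h3

lemma not_adj_inr (k : ℕ) (e e' : DiamondEdge k × ℕ) :
    ¬ (diamondGraph (k + 1)).Adj (Sum.inr e) (Sum.inr e') := by
  intro h
  obtain ⟨-, h | h⟩ := (SimpleGraph.fromRel_adj _ _ _).mp h
  · obtain ⟨⟨e1, i, c⟩, h1, h2⟩ := h
    cases c
    · simp [diamondSrc] at h1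
    · simp [diamondTgt] at h2
  · obtain ⟨⟨e1, i, c⟩, h1, h2⟩ := h
    cases c
    · simp [diamondSrc] at h1
    · simp [diamondTgt] at h2

/-- Two middle vertices are at distance at least two. -/
lemma dist_inr (k : ℕ) (e : DiamondEdge k) {i j : ℕ} (hij : i ≠ j) :
    2 ≤ diamondDist (k + 1) (Sum.inr (e, i)) (Sum.inr (e, j)) := by
  have h : (Sum.inr (e, i) : DiamondVertex (k + 1)) ≠ Sum.inr (e, j) := by
    intro h
    exact hij (Prod.mk.inj (Sum.inr.inj h)).2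
  exact (connected (k + 1)).one_lt_dist_of_ne_of_not_adj h (not_adj_inr k _ _)

/-! ### The metric step -/

lemma sqrt_lipschitz {c v w : ℝ} (hw : 0 ≤ w) (hwv : w ≤ v) :
    Real.sqrt (c ^ 2 + v ^ 2 / 4) ≤ Real.sqrt (c ^ 2 + (v - w) ^ 2 / 4) + w / 2 := by
  set a := Real.sqrt (c ^ 2 + (v - w) ^ 2 / 4) with ha
  have h0 : 0 ≤ c ^ 2 + (v - w) ^ 2 / 4 := by positivity
  have h1 : a ^ 2 = c ^ 2 + (v - w) ^ 2 / 4 := Real.sq_sqrt h0
  have h2 : 0 ≤ a := Real.sqrt_nonneg _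
  have h3 : (v - w) / 2 ≤ a := by
    apply Real.le_sqrt_of_sq_le
    nlinarith [sq_nonneg c]
  apply Real.sqrt_le_iff.mpr
  refine ⟨by positivity, ?_⟩
  nlinarith

variable {X : Type*} [NormedAddCommGroup X] [NormedSpace ℝ X]

/-- The quantity `max (‖x + t y‖) (‖x - t y‖)` increases with `t ≥ 0`. -/
lemma max_mono (x y : X) {t₀ t₁ : ℝ} (h0 : 0 ≤ t₀) (h1 : t₀ ≤ t₁) :
    max ‖x + t₀ • y‖ ‖x - t₀ • y‖ ≤ max ‖x + t₁ • y‖ ‖x - t₁ • y‖ := by
  rcases eq_or_lt_of_le (h0.trans h1) with h | h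
  · have : t₀ = 0 := by linarith
    rw [this, ← h]
  set M := max ‖x + t₁ • y‖ ‖x - t₁ • y‖ with hM
  have hp : ‖x + t₁ • y‖ ≤ M := le_max_left _ _
  have hm : ‖x - t₁ • y‖ ≤ M := le_max_right _ _
  have hl : 0 ≤ (1 + t₀ / t₁) / 2 := by positivity
  have hl2 : 0 ≤ (1 - t₀ / t₁) / 2 := by
    have : t₀ / t₁ ≤ 1 := (div_le_one h).mpr h1
    linarith
  have hr : t₀ = t₀ / t₁ * t₁ := by field_simp
  generalize t₀ / t₁ = l at hr hl hl2
  have e1 : x + t₀ • y = ((1 + l) / 2) • (x + t₁ • y) + ((1 - l) / 2) • (x - t₁ • y) := by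
    rw [hr]
    module
  have e2 : x - t₀ • y = ((1 + l) / 2) • (x - t₁ • y) + ((1 - l) / 2) • (x + t₁ • y) := by
    rw [hr]
    module
  have b1 : ‖x + t₀ • y‖ ≤ M := by
    rw [e1]
    refine (norm_add_le _ _).trans ?_
    rw [norm_smul, norm_smul, Real.norm_eq_abs, Real.norm_eq_abs, abs_of_nonneg hl, abs_of_nonneg hl2]
    nlinarith
  have b2 : ‖x - t₀ • y‖ ≤ M := by
    rw [e2]
    refine (norm_add_le _ _).trans ?_
    rw [norm_smul, norm_smul, Real.norm_eq_abs, Real.norm_eq_abs, abs_of_nonneg hl, abs_of_nonneg hl2]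
    nlinarith
  exact max_le b1 b2

/-- The hypothesis: a lower bound for the maximum-based midpoint quantity at every unit vector. -/
def MaxMod (X : Type*) [NormedAddCommGroup X] [NormedSpace ℝ X] : Prop :=
  ∀ t : ℝ, 0 < t → ∀ x : X, ‖x‖ = 1 → ∀ η : ℝ, 0 < η → ∃ F : Set X, IsCofSet F ∧
    ∀ y ∈ F, ‖y‖ = 1 → Real.sqrt (1 + t ^ 2 / 4) - η ≤ max ‖x + t • y‖ ‖x - t • y‖

lemma midpoint_step (hmod : MaxMod X) {p q : X} {m : ℕ → X} {σ : ℝ} (hσ : 0 < σ)
    (hm : ∀ i j, i ≠ j → 2 * σ ≤ ‖m i - m j‖) (hu : 0 < ‖(1 / 2 : ℝ) • (q - p)‖) {ε : ℝ}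
    (hε : 0 < ε) :
    ∃ i, ‖(1 / 2 : ℝ) • (q - p)‖ ^ 2 + σ ^ 2 / 4 - ε ≤ (max ‖m i - p‖ ‖q - m i‖) ^ 2 := by
  by_contra hcon
  have hcon' : ∀ i, (max ‖m i - p‖ ‖q - m i‖) ^ 2 <
      ‖(1 / 2 : ℝ) • (q - p)‖ ^ 2 + σ ^ 2 / 4 - ε := by
    intro i
    by_contra h
    exact hcon ⟨i, not_lt.mp h⟩
  set u : X := (1 / 2 : ℝ) • (q - p) with hudef
  set T : ℝ := ‖u‖ ^ 2 + σ ^ 2 / 4 - ε with hT
  have hTpos : 0 < T := lt_of_le_of_lt (sq_nonneg _) (hcon' 0)
  set r : ℝ := Real.sqrt T with hr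
  have hrpos : 0 < r := Real.sqrt_pos.mpr hTpos
  have hbd : ∀ i, max ‖m i - p‖ ‖q - m i‖ < r := by
    intro i
    apply Real.lt_sqrt_of_sq_lt
    exact hcon' i
  set A : ℝ := Real.sqrt (‖u‖ ^ 2 + σ ^ 2 / 4) with hA
  have hAr : r < A := by
    apply Real.sqrt_lt_sqrt hTpos.le
    linarith
  set gap : ℝ := A - r with hgap
  have hgappos : 0 < gap := by linarith
  set ε₁ : ℝ := min (gap / 4) (σ / 2) with hε₁
  have hε₁pos : 0 < ε₁ := lt_min (by positivity) (by positivity)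
  have hε₁a : ε₁ ≤ gap / 4 := min_le_left _ _
  have hε₁b : ε₁ ≤ σ / 2 := min_le_right _ _
  set η₀ : ℝ := gap / (4 * ‖u‖) with hη₀
  have hη₀pos : 0 < η₀ := by positivity
  set t₀ : ℝ := (σ - ε₁) / ‖u‖ with ht₀
  have ht₀pos : 0 < t₀ := div_pos (by linarith) hu
  set xh : X := ‖u‖⁻¹ • u with hxh
  have hxhn : ‖xh‖ = 1 := by
    rw [hxh, norm_smul, norm_inv, norm_norm]
    field_simp
  obtain ⟨F, hF, hFb⟩ := hmod t₀ ht₀pos xh hxhn η₀ hη₀pos
  have hbm : ∃ B : ℝ, ∀ i, ‖m i‖ ≤ B := by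
    refine ⟨r + ‖p‖, fun i => ?_⟩
    have h1 : ‖m i - p‖ < r := lt_of_le_of_lt (le_max_left _ _) (hbd i)
    have h2 : ‖m i‖ ≤ ‖m i - p‖ + ‖p‖ := by simpa using norm_add_le (m i - p) p
    linarith
  obtain ⟨i, j, hij, y, hyF, hy⟩ := exists_pair_near_cof hF m hbm hε₁pos
  have hyl : 2 * σ - ε₁ ≤ ‖y‖ := by
    have h1 := hm i j hij
    have h2 : ‖m i - m j‖ ≤ ‖(m i - m j) - y‖ + ‖y‖ := by
      simpa using norm_add_le ((m i - m j) - y) y
    linarith
  have hypos : 0 < ‖y‖ := by linarith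
  set yh : X := ‖y‖⁻¹ • y with hyh
  have hyhn : ‖yh‖ = 1 := by
    rw [hyh, norm_smul, norm_inv, norm_norm]
    field_simp
  have hyhF : yh ∈ F := by
    obtain ⟨S, hS, -, -⟩ := hF
    rw [← hS] at hyF ⊢
    exact S.smul_mem _ hyF
  have hkey := hFb yh hyhF hyhn
  set t₁ : ℝ := ‖y‖ / (2 * ‖u‖) with ht₁
  have ht₀₁ : t₀ ≤ t₁ := by
    rw [ht₀, ht₁, div_le_div_iff₀ hu (by positivity)]
    nlinarith
  have hmono := max_mono xh yh ht₀pos.le ht₀₁
  -- rescale
  have hscale1 : ‖u‖ • (xh + t₁ • yh) = u + (1 / 2 : ℝ) • y := by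
    rw [smul_add, hxh, smul_smul, mul_inv_cancel₀ hu.ne', one_smul, hyh, smul_smul, smul_smul]
    congr 2
    rw [ht₁]
    field_simp
  have hscale2 : ‖u‖ • (xh - t₁ • yh) = u - (1 / 2 : ℝ) • y := by
    rw [smul_sub, hxh, smul_smul, mul_inv_cancel₀ hu.ne', one_smul, hyh, smul_smul, smul_smul]
    congr 2
    rw [ht₁]
    field_simp
  -- the upper bounds
  have hi1 : ‖m i - p‖ < r := lt_of_le_of_lt (le_max_left _ _) (hbd i)
  have hi2 : ‖q - m i‖ < r := lt_of_le_of_lt (le_max_right _ _) (hbd i)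
  have hj1 : ‖m j - p‖ < r := lt_of_le_of_lt (le_max_left _ _) (hbd j)
  have hj2 : ‖q - m j‖ < r := lt_of_le_of_lt (le_max_right _ _) (hbd j)
  have hhalf : ‖(1 / 2 : ℝ) • ((m i - m j) - y)‖ ≤ ε₁ / 2 := by
    rw [norm_smul, Real.norm_eq_abs, abs_of_pos (by norm_num : (0 : ℝ) < 1 / 2)]
    linarith
  have hup1 : ‖u + (1 / 2 : ℝ) • y‖ ≤ r + ε₁ / 2 := by
    have e : u + (1 / 2 : ℝ) • y = (1 / 2 : ℝ) • ((m i - p) + (q - m j))
        - (1 / 2 : ℝ) • ((m i - m j) - y) := by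
      rw [hudef]
      module
    rw [e]
    refine (norm_sub_le _ _).trans ?_
    have h1 : ‖(1 / 2 : ℝ) • ((m i - p) + (q - m j))‖ ≤ r := by
      rw [norm_smul, Real.norm_eq_abs, abs_of_pos (by norm_num : (0 : ℝ) < 1 / 2)]
      have := norm_add_le (m i - p) (q - m j)
      linarith
    linarith
  have hup2 : ‖u - (1 / 2 : ℝ) • y‖ ≤ r + ε₁ / 2 := by
    have e : u - (1 / 2 : ℝ) • y = (1 / 2 : ℝ) • ((m j - p) + (q - m i))
        + (1 / 2 : ℝ) • ((m i - m j) - y) := by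
      rw [hudef]
      module
    rw [e]
    refine (norm_add_le _ _).trans ?_
    have h1 : ‖(1 / 2 : ℝ) • ((m j - p) + (q - m i))‖ ≤ r := by
      rw [norm_smul, Real.norm_eq_abs, abs_of_pos (by norm_num : (0 : ℝ) < 1 / 2)]
      have := norm_add_le (m j - p) (q - m i)
      linarith
    linarith
  have hmax1 : ‖u‖ * max ‖xh + t₁ • yh‖ ‖xh - t₁ • yh‖ ≤ r + ε₁ / 2 := by
    rcases max_cases ‖xh + t₁ • yh‖ ‖xh - t₁ • yh‖ with ⟨h, _⟩ | ⟨h, _⟩
    · have h3 : ‖u‖ * ‖xh + t₁ • yh‖ = ‖‖u‖ • (xh + t₁ • yh)‖ :=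
        (norm_smul_of_nonneg (norm_nonneg u) _).symm
      rw [h, h3, hscale1]
      exact hup1
    · have h3 : ‖u‖ * ‖xh - t₁ • yh‖ = ‖‖u‖ • (xh - t₁ • yh)‖ :=
        (norm_smul_of_nonneg (norm_nonneg u) _).symm
      rw [h, h3, hscale2]
      exact hup2
  -- the lower bound
  have hval : ‖u‖ * Real.sqrt (1 + t₀ ^ 2 / 4) = Real.sqrt (‖u‖ ^ 2 + (σ - ε₁) ^ 2 / 4) := by
    have h1 : ‖u‖ ^ 2 + (σ - ε₁) ^ 2 / 4 = ‖u‖ ^ 2 * (1 + t₀ ^ 2 / 4) := by
      rw [ht₀]
      field_simp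
    rw [h1, Real.sqrt_mul (by positivity), Real.sqrt_sq hu.le]
  have hlip := sqrt_lipschitz (c := ‖u‖) (v := σ) (w := ε₁) hε₁pos.le (by linarith)
  have hfinal : ‖u‖ * (Real.sqrt (1 + t₀ ^ 2 / 4) - η₀) ≤ r + ε₁ / 2 := by
    have h1 : Real.sqrt (1 + t₀ ^ 2 / 4) - η₀ ≤ max ‖xh + t₁ • yh‖ ‖xh - t₁ • yh‖ :=
      hkey.trans hmono
    have h2 := mul_le_mul_of_nonneg_left h1 hu.le
    linarith
  have hη₀u : ‖u‖ * η₀ = gap / 4 := by
    rw [hη₀]
    field_simp
  rw [mul_sub, hval, hη₀u] at hfinal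
  have hAdef : A = Real.sqrt (‖u‖ ^ 2 + σ ^ 2 / 4) := rfl
  rw [← hAdef] at hlip
  linarith

/-- Lower bound for the longest edge of a map of the diamond with a lower Lipschitz bound. -/
theorem diamond_lower (hmod : MaxMod X) :
    ∀ (k : ℕ) (f : DiamondVertex k → X) (s : ℝ), 0 < s →
      (∀ u v, s * (diamondDist k u v : ℝ) ≤ ‖f u - f v‖) → ∀ ε : ℝ, 0 < ε →
      ∃ e : DiamondEdge k, (1 + (k : ℝ) / 4) * s ^ 2 - ε ≤ ‖f (diamondSrc k e) - f (diamondTgt k e)‖ ^ 2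
  | 0, f, s, hs, hf, ε, hε => by
    refine ⟨(), ?_⟩
    have h1 := hf (diamondSrc 0 ()) (diamondTgt 0 ())
    rw [dist_edge, Nat.cast_one, mul_one] at h1
    have h2 : s ^ 2 ≤ ‖f (diamondSrc 0 ()) - f (diamondTgt 0 ())‖ ^ 2 := by
      gcongr
    simp only [Nat.cast_zero, zero_div, add_zero, one_mul]
    linarith
  | k + 1, f, s, hs, hf, ε, hε => by
    -- restrict to the old vertices
    set g : DiamondVertex k → X := fun w => f (Sum.inl w) with hg
    have hgl : ∀ u v, (2 * s) * (diamondDist k u v : ℝ) ≤ ‖g u - g v‖ := by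
      intro u v
      have h1 := hf (Sum.inl u) (Sum.inl v)
      have h2 : ((2 * diamondDist k u v : ℕ) : ℝ) ≤ (diamondDist (k + 1) (Sum.inl u) (Sum.inl v) : ℝ) := by
        exact_mod_cast dist_inl k u v
      push_cast at h2
      calc (2 * s) * (diamondDist k u v : ℝ) = s * (2 * (diamondDist k u v : ℝ)) := by ring
        _ ≤ s * (diamondDist (k + 1) (Sum.inl u) (Sum.inl v) : ℝ) := by gcongr
        _ ≤ _ := h1
    set ε₀ : ℝ := min (ε / 2) (s ^ 2) with hε₀
    have hε₀pos : 0 < ε₀ := lt_min (by positivity) (by positivity)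
    obtain ⟨e, he⟩ := diamond_lower hmod k g (2 * s) (by positivity) hgl ε₀ hε₀pos
    set p : X := g (diamondSrc k e) with hp
    set q : X := g (diamondTgt k e) with hq
    have hpq : ‖p - q‖ = ‖q - p‖ := norm_sub_rev _ _
    rw [hpq] at he
    have hε₀a : ε₀ ≤ ε / 2 := min_le_left _ _
    have hε₀b : ε₀ ≤ s ^ 2 := min_le_right _ _
    have hk : (0 : ℝ) ≤ (k : ℝ) := Nat.cast_nonneg k
    have hnu : ‖(1 / 2 : ℝ) • (q - p)‖ ^ 2 = ‖q - p‖ ^ 2 / 4 := by
      rw [norm_smul, Real.norm_eq_abs, abs_of_pos (by norm_num : (0 : ℝ) < 1 / 2)]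
      ring
    have hspos : 0 < s ^ 2 := by positivity
    have hpos : 0 < ‖(1 / 2 : ℝ) • (q - p)‖ := by
      have h1 : 0 < ‖(1 / 2 : ℝ) • (q - p)‖ ^ 2 := by
        rw [hnu]
        nlinarith
      by_contra h
      have h0 : ‖(1 / 2 : ℝ) • (q - p)‖ = 0 :=
        le_antisymm (not_lt.mp h) (norm_nonneg _)
      rw [h0] at h1
      simp at h1
    have hmi : ∀ i j, i ≠ j → 2 * s ≤ ‖f (Sum.inr (e, i)) - f (Sum.inr (e, j))‖ := by
      intro i j hij
      have h1 := hf (Sum.inr (e, i)) (Sum.inr (e, j))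
      have h2 : (2 : ℝ) ≤ (diamondDist (k + 1) (Sum.inr (e, i)) (Sum.inr (e, j)) : ℝ) := by
        exact_mod_cast dist_inr k e hij
      calc 2 * s = s * 2 := by ring
        _ ≤ s * (diamondDist (k + 1) (Sum.inr (e, i)) (Sum.inr (e, j)) : ℝ) := by gcongr
        _ ≤ _ := h1
    obtain ⟨i, hi⟩ := midpoint_step hmod hs hmi hpos (show 0 < ε / 2 by positivity)
    rw [hnu] at hi
    have hgoal : (1 + ((k + 1 : ℕ) : ℝ) / 4) * s ^ 2 - ε
        ≤ (max ‖f (Sum.inr (e, i)) - p‖ ‖q - f (Sum.inr (e, i))‖) ^ 2 := by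
      refine le_trans ?_ hi
      push_cast
      nlinarith
    rcases max_cases ‖f (Sum.inr (e, i)) - p‖ ‖q - f (Sum.inr (e, i))‖ with ⟨h, _⟩ | ⟨h, _⟩
    · refine ⟨(e, i, false), ?_⟩
      rw [h] at hgoal
      have h1 : ‖f (diamondSrc (k + 1) (e, i, false)) - f (diamondTgt (k + 1) (e, i, false))‖
          = ‖f (Sum.inr (e, i)) - p‖ := by
        rw [norm_sub_rev]
        rfl
      rw [h1]
      exact hgoal
    · refine ⟨(e, i, true), ?_⟩
      rw [h] at hgoal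
      have h1 : ‖f (diamondSrc (k + 1) (e, i, true)) - f (diamondTgt (k + 1) (e, i, true))‖
          = ‖q - f (Sum.inr (e, i))‖ := by
        rw [norm_sub_rev]
        rfl
      rw [h1]
      exact hgoal

/-- The distortion bound. -/
theorem distortion_bound (hmod : MaxMod X) (k : ℕ) (f : DiamondVertex k → X) (D : ℝ)
    (h : ∃ s : ℝ, 0 < s ∧ ∀ u v : DiamondVertex k,
      s * (diamondDist k u v : ℝ) ≤ ‖f u - f v‖ ∧ ‖f u - f v‖ ≤ D * s * (diamondDist k u v : ℝ)) :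
    1 + (k : ℝ) / 4 ≤ D ^ 2 := by
  obtain ⟨s, hs, hf⟩ := h
  refine le_of_forall_pos_le_add fun ε hε => ?_
  obtain ⟨e, he⟩ := diamond_lower hmod k f s hs (fun u v => (hf u v).1) (ε * s ^ 2)
    (by positivity)
  have h1 := (hf (diamondSrc k e) (diamondTgt k e)).2
  rw [dist_edge, Nat.cast_one, mul_one] at h1
  have h2 : ‖f (diamondSrc k e) - f (diamondTgt k e)‖ ^ 2 ≤ (D * s) ^ 2 := by
    gcongr
  have hs2 : 0 < s ^ 2 := by positivity
  have h3 : (1 + (k : ℝ) / 4) * s ^ 2 - ε * s ^ 2 ≤ D ^ 2 * s ^ 2 := by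
    calc _ ≤ _ := he
      _ ≤ (D * s) ^ 2 := h2
      _ = D ^ 2 * s ^ 2 := by ring
  have h4 : (1 + (k : ℝ) / 4 - ε) * s ^ 2 ≤ D ^ 2 * s ^ 2 := by linarith
  have h5 := le_of_mul_le_mul_right h4 hs2
  linarith

end Crest.Agent.Lib.Diamond
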