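/-
Definitions for the stochastic-localization proof of the factor-of-iid theorems
(statements S0254 and S0255).  See the mathematical plan in departures/helper14.md.
-/
import Mathlib

set_option autoImplicit false

namespace Crest.Agent.Lib.Loc

open MeasureTheory ProbabilityTheory Filter Topology
open scoped ENNReal NNReal

variable {I : Type*}

/-- A Boolean as a real number. -/
def bv (b : Bool) : ℝ := if b then 1 else 0

/-- A path skeleton: `y n k` is the value at the dyadic time `k / 2 ^ n`. -/
abbrev Sk := ℕ → ℕ → ℝ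

/-- The dyadic time `k / 2 ^ n`. -/
noncomputable def tm (n k : ℕ) : ℝ := (k : ℝ) / 2 ^ n

/-- Mass of the cylinder "occupied exactly at `S` within `F`". -/
noncomputable def mass (ν : Measure (I → Bool)) (F S : Finset I) : ℝ :=
  (ν {ω | ∀ i ∈ F, (ω i = true ↔ i ∈ S)}).toReal

/-- Exponential tilt of the configuration `S` at time `t` and observation `v`. -/
noncomputable def wt (S : Finset I) (t : ℝ) (v : I → ℝ) : ℝ :=
  Real.exp (∑ l ∈ S, (v l - t / 2))

/-- Partition function of the tilted marginal on `F`. -/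
noncomputable def Zfin (ν : Measure (I → Bool)) (F : Finset I) (t : ℝ) (v : I → ℝ) : ℝ :=
  ∑ S ∈ F.powerset, mass ν F S * wt S t v

open Classical in
/-- Numerator of the posterior mean of site `e`. -/
noncomputable def Nfin (ν : Measure (I → Bool)) (F : Finset I) (e : I) (t : ℝ) (v : I → ℝ) : ℝ :=
  ∑ S ∈ F.powerset.filter (fun S => e ∈ S), mass ν F S * wt S t v

/-- Posterior mean of site `e` given the observation `v` (on `F`) at time `t`. -/
noncomputable def Mfin (ν : Measure (I → Bool)) (F : Finset I) (e : I) (t : ℝ) (v : I → ℝ) : ℝ :=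
  Nfin ν F e t v / Zfin ν F t v

/-- Posterior mean of `e` along the exhaustion `Fs e`. -/
noncomputable def mlim (ν : Measure (I → Bool)) (Fs : I → ℕ → Finset I) (e : I) (t : ℝ)
    (v : I → ℝ) : ℝ :=
  limsup (fun N => Mfin ν (Fs e N) e t v) atTop

/-- Left Riemann sum of the drift of site `e` up to time `k/2^n`, on the grid of level `n + r`. -/
noncomputable def Rsum (ν : Measure (I → Bool)) (Fs : I → ℕ → Finset I) (y : I → Sk) (e : I)
    (n k r : ℕ) : ℝ :=
  ∑ j ∈ Finset.range (k * 2 ^ r),
    (1 / 2 ^ (n + r) : ℝ) * mlim ν Fs e (tm (n + r) j) (fun l => y l (n + r) j)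

/-- The limit of the Riemann sums (as a `limsup`, so total and Borel). -/
noncomputable def Rlim (ν : Measure (I → Bool)) (Fs : I → ℕ → Finset I) (y : I → Sk) (e : I)
    (n k : ℕ) : ℝ :=
  limsup (fun r => Rsum ν Fs y e n k r) atTop

/-- The Borel set of skeletons on which all the Riemann sums converge. -/
def Good (ν : Measure (I → Bool)) (Fs : I → ℕ → Finset I) : Set (I → Sk) :=
  {y | ∀ e n k, ∃ L, Tendsto (fun r => Rsum ν Fs y e n k r) atTop (𝓝 L)}

/-- The innovation map `y ↦ y - ∫ m(y)`. -/
noncomputable def Wmap (ν : Measure (I → Bool)) (Fs : I → ℕ → Finset I) (y : I → Sk) : I → Sk :=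
  fun e n k => y e n k - Rlim ν Fs y e n k

/-- Recovery of the configuration from the observation process. -/
noncomputable def hatω (y : I → Sk) : I → Bool := fun e =>
  open Classical in decide ((1 / 2 : ℝ) < limsup (fun k : ℕ => y e 0 k / k) atTop)

/-- Dimension-free Lipschitz property of the posterior means of a law `ν`. -/
def LipLaw (ν : Measure (I → Bool)) (L : ℝ) : Prop :=
  ∀ (F : Finset I) (e : I) (t : ℝ) (v v' : I → ℝ) (δ : ℝ), e ∈ F →
    (∀ l ∈ F, |v l - v' l| ≤ δ) → |Mfin ν F e t v - Mfin ν F e t v'| ≤ L * δ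

/-- The Lévy midpoint recursion: increments at level `r` from i.i.d. standard normals `ξ`. -/
noncomputable def levX (ξ : ℕ × ℕ → ℝ) : ℕ → ℕ → ℝ
  | 0, k => ξ (0, k)
  | r + 1, j =>
      levX ξ r (j / 2) / 2 +
        (if j % 2 = 0 then (1 : ℝ) else -1) * (Real.sqrt (1 / 2 ^ (r + 2))) * ξ (r + 1, j / 2)

/-- The skeleton built from the increments. -/
noncomputable def skOf (ξ : ℕ × ℕ → ℝ) : Sk := fun n k => ∑ j ∈ Finset.range k, levX ξ n j

/-- I.i.d. standard normals on `ℕ × ℕ`. -/
noncomputable def stdG : Measure (ℕ × ℕ → ℝ) :=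
  Measure.infinitePi (fun _ : ℕ × ℕ => gaussianReal 0 1)

/-- The law of the Brownian skeleton. -/
noncomputable def muBM : Measure Sk := stdG.map skOf

end Crest.Agent.Lib.Loc
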