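/-
Gaussian shift (finite-support Cameron–Martin) on the product space `J → ℝ`.
-/
import Crest.Agent.Lib.LocDefs

set_option autoImplicit false

namespace Crest.Agent.Lib.Loc

open MeasureTheory ProbabilityTheory Filter Topology
open scoped ENNReal NNReal

variable {J : Type*}

/-- One-dimensional density ratio of `N(c,h)` with respect to `N(0,h)`. -/
noncomputable def shiftR (h : ℝ≥0) (c x : ℝ) : ℝ := Real.exp (c * x / h - c ^ 2 / (2 * h))

lemma shiftR_pos (h : ℝ≥0) (c x : ℝ) : 0 < shiftR h c x := Real.exp_pos _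

lemma measurable_shiftR (h : ℝ≥0) (c : ℝ) : Measurable (shiftR h c) := by
  unfold shiftR; fun_prop

lemma gaussianPDFReal_shift (h : ℝ≥0) (hh : h ≠ 0) (c x : ℝ) :
    gaussianPDFReal c h x = gaussianPDFReal 0 h x * shiftR h c x := by
  have hh' : (h : ℝ) ≠ 0 := by exact_mod_cast hh
  simp only [gaussianPDFReal, shiftR]
  rw [mul_assoc _ (Real.exp _) (Real.exp _), ← Real.exp_add]
  congr 2
  field_simp
  ring

lemma gaussianReal_eq_withDensity (h : ℝ≥0) (hh : h ≠ 0) (c : ℝ) :
    gaussianReal c h =
      (gaussianReal 0 h).withDensity (fun x => ENNReal.ofReal (shiftR h c x)) := by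
  rw [gaussianReal_of_var_ne_zero _ hh, gaussianReal_of_var_ne_zero _ hh]
  have hm : Measurable (fun x => ENNReal.ofReal (shiftR h c x)) :=
    ENNReal.measurable_ofReal.comp (measurable_shiftR h c)
  rw [← withDensity_mul _ (measurable_gaussianPDF _ _) hm]
  congr 1
  funext x
  simp only [gaussianPDF, Pi.mul_apply]
  rw [gaussianPDFReal_shift h hh c x,
    ENNReal.ofReal_mul (gaussianPDFReal_nonneg _ _ _)]

/-- White noise on `J` with variance `h`. -/
noncomputable def noiseLaw (J : Type*) (h : ℝ≥0) : Measure (J → ℝ) :=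
  Measure.infinitePi (fun _ : J => gaussianReal 0 h)

instance (h : ℝ≥0) : IsProbabilityMeasure (noiseLaw J h) := by
  unfold noiseLaw; infer_instance

/-- Shift of white noise by a finitely supported vector. -/
lemma noiseLaw_map_add (h : ℝ≥0) (c : J → ℝ) :
    (noiseLaw J h).map (fun x a => c a + x a) =
      Measure.infinitePi (fun a : J => gaussianReal (c a) h) := by
  unfold noiseLaw
  have := Measure.infinitePi_map_pi (μ := fun _ : J => gaussianReal 0 h)
    (f := fun a x => c a + x) (fun a => by fun_prop)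
  rw [this]
  congr 1
  funext a
  rw [gaussianReal_map_const_add]
  simp

/-- The density of the shifted white noise, `B` containing the support of `c`. -/
noncomputable def shiftD (h : ℝ≥0) (c : J → ℝ) (B : Finset J) (x : J → ℝ) : ℝ :=
  ∏ a ∈ B, shiftR h (c a) (x a)

lemma shiftD_pos (h : ℝ≥0) (c : J → ℝ) (B : Finset J) (x : J → ℝ) : 0 < shiftD h c B x :=
  Finset.prod_pos fun _ _ => shiftR_pos _ _ _

lemma measurable_shiftD (h : ℝ≥0) (c : J → ℝ) (B : Finset J) : Measurable (shiftD h c B) := by
  unfold shiftD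
  refine Finset.measurable_fun_prod _ fun a _ => ?_
  exact (measurable_shiftR h (c a)).comp (measurable_pi_apply a)

lemma shiftR_zero (h : ℝ≥0) (x : ℝ) : shiftR h 0 x = 1 := by
  simp [shiftR]

lemma lintegral_shiftR (h : ℝ≥0) (hh : h ≠ 0) (c : ℝ) (t : Set ℝ) (ht : MeasurableSet t) :
    ∫⁻ x, t.indicator (fun x => ENNReal.ofReal (shiftR h c x)) x ∂(gaussianReal 0 h)
      = gaussianReal c h t := by
  rw [gaussianReal_eq_withDensity h hh c, withDensity_apply _ ht, lintegral_indicator ht]

lemma infinitePi_gaussian_eq_withDensity (h : ℝ≥0) (hh : h ≠ 0) (c : J → ℝ) (B : Finset J)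
    (hB : ∀ a, a ∉ B → c a = 0) :
    Measure.infinitePi (fun a : J => gaussianReal (c a) h) =
      (noiseLaw J h).withDensity (fun x => ENNReal.ofReal (shiftD h c B x)) := by
  classical
  symm
  refine Measure.eq_infinitePi (μ := fun a : J => gaussianReal (c a) h) ?_
  intro s t ht
  have hpi : MeasurableSet (Set.pi (s : Set J) t) :=
    MeasurableSet.pi s.countable_toSet fun a _ => ht a
  rw [withDensity_apply _ hpi, ← lintegral_indicator hpi]
  set f : J → ℝ → ℝ≥0∞ := fun a y => ENNReal.ofReal (shiftR h (c a) y) with hf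
  have hfm : ∀ a, Measurable (f a) := fun a =>
    ENNReal.measurable_ofReal.comp (measurable_shiftR h (c a))
  set t' : J → Set ℝ := fun a => if a ∈ s then t a else Set.univ with ht'
  have ht'm : ∀ a, MeasurableSet (t' a) := by
    intro a
    by_cases ha : a ∈ s
    · simp [ht', ha, ht a]
    · simp [ht', ha]
  set g : J → ℝ → ℝ≥0∞ := fun a => (t' a).indicator (f a) with hg
  have hgm : ∀ a, Measurable (g a) := fun a => (hfm a).indicator (ht'm a)
  have hD : ∀ x : J → ℝ, (Set.pi (s : Set J) t).indicator
      (fun x => ENNReal.ofReal (shiftD h c B x)) x = ∏ a ∈ s ∪ B, g a (x a) := by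
    intro x
    by_cases hx : x ∈ Set.pi (s : Set J) t
    · rw [Set.indicator_of_mem hx]
      have h1 : ∀ a ∈ s ∪ B, g a (x a) = f a (x a) := by
        intro a _
        apply Set.indicator_of_mem
        by_cases ha : a ∈ s
        · simpa [ht', ha] using hx a ha
        · simp [ht', ha]
      rw [Finset.prod_congr rfl h1]
      unfold shiftD
      rw [ENNReal.ofReal_prod_of_nonneg fun a _ => (shiftR_pos _ _ _).le]
      refine Finset.prod_subset Finset.subset_union_right ?_
      intro a _ ha
      simp [hB a ha, shiftR_zero]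
    · rw [Set.indicator_of_notMem hx]
      simp only [Set.mem_pi, not_forall] at hx
      obtain ⟨a, ha, hxa⟩ := hx
      symm
      refine Finset.prod_eq_zero (Finset.mem_union_left _ ha) ?_
      apply Set.indicator_of_notMem
      simpa [ht', show a ∈ s from ha] using hxa
  simp_rw [hD]
  have hind : iIndepFun (fun (a : J) (x : J → ℝ) => g a (x a)) (noiseLaw J h) :=
    iIndepFun_infinitePi (P := fun _ : J => gaussianReal 0 h) (X := g) hgm
  rw [lintegral_prod_eq_prod_lintegral_of_indepFun _ _ hind
    (fun a => (hgm a).comp (measurable_pi_apply a))]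
  have hone : ∀ a, ∫⁻ x : J → ℝ, g a (x a) ∂(noiseLaw J h) = gaussianReal (c a) h (t' a) := by
    intro a
    have hmp := measurePreserving_eval_infinitePi (fun _ : J => gaussianReal 0 h) a
    have := hmp.lintegral_comp (hgm a)
    calc ∫⁻ x : J → ℝ, g a (x a) ∂(noiseLaw J h) = ∫⁻ y, g a y ∂(gaussianReal 0 h) := this
      _ = _ := lintegral_shiftR h hh (c a) (t' a) (ht'm a)
  simp_rw [hone]
  symm
  have hsub : ∏ i ∈ s, gaussianReal (c i) h (t i) = ∏ i ∈ s, gaussianReal (c i) h (t' i) := by
    refine Finset.prod_congr rfl fun a ha => ?_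
    simp [ht', ha]
  rw [hsub]
  refine Finset.prod_subset Finset.subset_union_left ?_
  intro a _ ha
  simp [ht', ha]

/-- Cameron–Martin for finitely supported shifts of white noise. -/
theorem noise_shift_integral (h : ℝ≥0) (hh : h ≠ 0) (c : J → ℝ) (B : Finset J)
    (hB : ∀ a, a ∉ B → c a = 0) (Z : (J → ℝ) → ℝ) (hZ : Measurable Z) :
    ∫ x, Z (fun a => c a + x a) ∂(noiseLaw J h) = ∫ x, shiftD h c B x * Z x ∂(noiseLaw J h) := by
  have h1 : ∫ x, Z (fun a => c a + x a) ∂(noiseLaw J h) =
      ∫ y, Z y ∂((noiseLaw J h).map (fun x a => c a + x a)) := by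
    rw [integral_map (measurable_pi_lambda _ fun a => (measurable_pi_apply a).const_add _).aemeasurable
      hZ.aestronglyMeasurable]
  rw [h1, noiseLaw_map_add, infinitePi_gaussian_eq_withDensity h hh c B hB]
  have hm : Measurable (fun x => (shiftD h c B x).toNNReal) :=
    (measurable_shiftD h c B).real_toNNReal
  have : (fun x => ENNReal.ofReal (shiftD h c B x)) = fun x => (((shiftD h c B x).toNNReal : ℝ≥0) : ℝ≥0∞) := by
    funext x; rfl
  rw [this, integral_withDensity_eq_integral_smul hm]
  refine integral_congr_ae (Eventually.of_forall fun x => ?_)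
  simp [NNReal.smul_def, Real.coe_toNNReal _ (shiftD_pos h c B x).le]

end Crest.Agent.Lib.Loc
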