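/-
Finite Bayes formula on the canonical space of one level.
-/
import Crest.Agent.Lib.LocGauss

set_option autoImplicit false

namespace Crest.Agent.Lib.Loc

open MeasureTheory ProbabilityTheory Filter Topology
open scoped ENNReal NNReal

variable {I : Type*}

/-! ### Elementary facts on the Gibbs weights -/

/-- The occupied sites of `ω` inside `F`. -/
noncomputable def occ (F : Finset I) (ω : I → Bool) : Finset I :=
  F.filter (fun l => ω l = true)

lemma occ_subset (F : Finset I) (ω : I → Bool) : occ F ω ⊆ F := Finset.filter_subset _ _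

lemma mem_occ {F : Finset I} {ω : I → Bool} {l : I} : l ∈ occ F ω ↔ l ∈ F ∧ ω l = true := by
  simp [occ]

lemma occ_eq_iff {F S : Finset I} (hS : S ⊆ F) (ω : I → Bool) :
    occ F ω = S ↔ ∀ i ∈ F, (ω i = true ↔ i ∈ S) := by
  constructor
  · rintro rfl i hi
    simp [mem_occ, hi]
  · intro h
    ext l
    simp only [mem_occ]
    constructor
    · rintro ⟨hl, hω⟩
      exact (h l hl).1 hω
    · intro hl
      exact ⟨hS hl, (h l (hS hl)).2 hl⟩

lemma measurableSet_cyl (F S : Finset I) :
    MeasurableSet {ω : I → Bool | ∀ i ∈ F, (ω i = true ↔ i ∈ S)} := by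
  have : {ω : I → Bool | ∀ i ∈ F, (ω i = true ↔ i ∈ S)} =
      ⋂ i ∈ F, {ω | (ω i = true ↔ i ∈ S)} := by
    ext ω; simp
  rw [this]
  refine Finset.measurableSet_biInter _ fun i _ => ?_
  by_cases hi : i ∈ S
  · simp only [hi, iff_true]
    have : {ω : I → Bool | ω i = true} = (fun ω : I → Bool => ω i) ⁻¹' {true} := by
      ext ω; simp
    rw [this]
    exact (measurable_pi_apply i) (measurableSet_singleton true)
  · simp only [hi, iff_false]
    have : {ω : I → Bool | ¬ω i = true} = (fun ω : I → Bool => ω i) ⁻¹' {false} := by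
      ext ω; simp
    rw [this]
    exact (measurable_pi_apply i) (measurableSet_singleton false)

lemma mass_nonneg (ν : Measure (I → Bool)) (F S : Finset I) : 0 ≤ mass ν F S :=
  ENNReal.toReal_nonneg

lemma wt_pos (S : Finset I) (t : ℝ) (v : I → ℝ) : 0 < wt S t v := Real.exp_pos _

lemma measurable_occ_indicator (F S : Finset I) (hS : S ⊆ F) :
    MeasurableSet {ω : I → Bool | occ F ω = S} := by
  have : {ω : I → Bool | occ F ω = S} = {ω | ∀ i ∈ F, (ω i = true ↔ i ∈ S)} := by
    ext ω; exact occ_eq_iff hS ω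
  rw [this]; exact measurableSet_cyl F S

lemma mass_eq_occ (ν : Measure (I → Bool)) {F S : Finset I} (hS : S ⊆ F) :
    mass ν F S = (ν {ω | occ F ω = S}).toReal := by
  unfold mass
  congr 2
  ext ω; exact (occ_eq_iff hS ω).symm

lemma sum_mass (ν : Measure (I → Bool)) [IsProbabilityMeasure ν] (F : Finset I) :
    ∑ S ∈ F.powerset, mass ν F S = 1 := by
  classical
  have h1 : ∀ S ∈ F.powerset, mass ν F S = (ν {ω | occ F ω = S}).toReal := fun S hS =>
    mass_eq_occ ν (Finset.mem_powerset.1 hS)
  rw [Finset.sum_congr rfl h1]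
  rw [← ENNReal.toReal_sum (fun S _ => measure_ne_top _ _)]
  have h2 : (⋃ S ∈ F.powerset, {ω : I → Bool | occ F ω = S}) = Set.univ := by
    ext ω
    simp only [Set.mem_iUnion, Set.mem_univ, iff_true]
    exact ⟨occ F ω, Finset.mem_powerset.2 (occ_subset F ω), rfl⟩
  have h3 := measure_biUnion_finset (μ := ν) (s := F.powerset)
    (f := fun S => {ω : I → Bool | occ F ω = S})
    (fun S _ S' _ hne => by
      simp only [Function.onFun]
      rw [Set.disjoint_left]
      intro ω h1 h2
      exact hne (h1.symm.trans h2))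
    (fun S hS => measurable_occ_indicator F S (Finset.mem_powerset.1 hS))
  rw [← h3, h2]
  simp

lemma Zfin_pos (ν : Measure (I → Bool)) [IsProbabilityMeasure ν] (F : Finset I) (t : ℝ)
    (v : I → ℝ) : 0 < Zfin ν F t v := by
  unfold Zfin
  have hne : ∃ S ∈ F.powerset, 0 < mass ν F S := by
    by_contra hcon
    push Not at hcon
    have : ∑ S ∈ F.powerset, mass ν F S ≤ 0 := Finset.sum_nonpos hcon
    rw [sum_mass] at this
    linarith
  obtain ⟨S, hS, hpos⟩ := hne
  refine Finset.sum_pos' (fun S _ => mul_nonneg (mass_nonneg _ _ _) (wt_pos _ _ _).le)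
    ⟨S, hS, mul_pos hpos (wt_pos _ _ _)⟩

lemma Nfin_eq_sum_ite (ν : Measure (I → Bool)) (F : Finset I) (e : I) (t : ℝ) (v : I → ℝ) :
    Nfin ν F e t v = ∑ S ∈ F.powerset, (open Classical in if e ∈ S then 1 else 0 : ℝ) * (mass ν F S * wt S t v) := by
  classical
  unfold Nfin
  rw [Finset.sum_filter]
  refine Finset.sum_congr rfl fun S _ => ?_
  by_cases h : e ∈ S <;> simp [h]

lemma Nfin_nonneg (ν : Measure (I → Bool)) (F : Finset I) (e : I) (t : ℝ) (v : I → ℝ) :
    0 ≤ Nfin ν F e t v :=
  Finset.sum_nonneg fun S _ => mul_nonneg (mass_nonneg _ _ _) (wt_pos _ _ _).le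

lemma Nfin_le_Zfin (ν : Measure (I → Bool)) (F : Finset I) (e : I) (t : ℝ) (v : I → ℝ) :
    Nfin ν F e t v ≤ Zfin ν F t v := by
  classical
  unfold Nfin Zfin
  exact Finset.sum_le_sum_of_subset_of_nonneg (Finset.filter_subset _ _)
    fun S _ _ => mul_nonneg (mass_nonneg _ _ _) (wt_pos _ _ _).le

lemma Mfin_nonneg (ν : Measure (I → Bool)) (F : Finset I) (e : I) (t : ℝ) (v : I → ℝ) :
    0 ≤ Mfin ν F e t v := by
  unfold Mfin
  refine div_nonneg (Nfin_nonneg _ _ _ _ _) ?_
  exact Finset.sum_nonneg fun S _ => mul_nonneg (mass_nonneg _ _ _) (wt_pos _ _ _).le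

lemma Mfin_le_one (ν : Measure (I → Bool)) (F : Finset I) (e : I) (t : ℝ) (v : I → ℝ) :
    Mfin ν F e t v ≤ 1 :=
  div_le_one_of_le₀ (Nfin_le_Zfin _ _ _ _ _)
    (Finset.sum_nonneg fun S _ => mul_nonneg (mass_nonneg _ _ _) (wt_pos _ _ _).le)

lemma wt_congr {S : Finset I} {t : ℝ} {v v' : I → ℝ} (h : ∀ l ∈ S, v l = v' l) :
    wt S t v = wt S t v' := by
  unfold wt
  congr 1
  exact Finset.sum_congr rfl fun l hl => by rw [h l hl]

lemma Mfin_congr (ν : Measure (I → Bool)) (F : Finset I) (e : I) (t : ℝ) {v v' : I → ℝ}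
    (h : ∀ l ∈ F, v l = v' l) : Mfin ν F e t v = Mfin ν F e t v' := by
  classical
  have hw : ∀ S ∈ F.powerset, wt S t v = wt S t v' := fun S hS =>
    wt_congr fun l hl => h l (Finset.mem_powerset.1 hS hl)
  unfold Mfin Nfin Zfin
  congr 1
  · exact Finset.sum_congr rfl fun S hS => by
      rw [hw S (Finset.mem_of_mem_filter _ hS)]
  · exact Finset.sum_congr rfl fun S hS => by rw [hw S hS]

lemma measurable_wt (S : Finset I) (t : ℝ) : Measurable (fun v : I → ℝ => wt S t v) := by
  unfold wt
  refine Real.measurable_exp.comp ?_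
  refine Finset.measurable_fun_sum _ fun l _ => ?_
  exact (measurable_pi_apply l).sub_const _

lemma measurable_Mfin (ν : Measure (I → Bool)) (F : Finset I) (e : I) (t : ℝ) :
    Measurable (fun v : I → ℝ => Mfin ν F e t v) := by
  unfold Mfin Nfin Zfin
  refine Measurable.div ?_ ?_
  · exact Finset.measurable_fun_sum _ fun S _ => (measurable_wt S t).const_mul _
  · exact Finset.measurable_fun_sum _ fun S _ => (measurable_wt S t).const_mul _

lemma Mfin_mul_Zfin (ν : Measure (I → Bool)) [IsProbabilityMeasure ν] (F : Finset I) (e : I)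
    (t : ℝ) (v : I → ℝ) : Mfin ν F e t v * Zfin ν F t v = Nfin ν F e t v :=
  div_mul_cancel₀ _ (Zfin_pos ν F t v).ne'

/-! ### The canonical space of one level -/

/-- Canonical space: a configuration and a white noise on sites × time indices. -/
abbrev LevΩ (I : Type*) := (I → Bool) × (I × ℕ → ℝ)

/-- Canonical law at one level: `ν` and an independent white noise of variance `h`. -/
noncomputable def levP (ν : Measure (I → Bool)) (h : ℝ≥0) : Measure (LevΩ I) :=
  ν.prod (noiseLaw (I × ℕ) h)

instance (ν : Measure (I → Bool)) [IsProbabilityMeasure ν] (h : ℝ≥0) :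
    IsProbabilityMeasure (levP ν h) := by
  unfold levP; infer_instance

/-- The observation at step `j`: `Y_l(j) = j h ω_l + ∑_{i<j} x_{l,i}`. -/
noncomputable def Ypos (h : ℝ) (a : LevΩ I) (l : I) (j : ℕ) : ℝ :=
  j * h * bv (a.1 l) + ∑ i ∈ Finset.range j, a.2 (l, i)

/-- Sum of the first `j` increments at site `l`. -/
noncomputable def Vsum (j : ℕ) (g : I × ℕ → ℝ) (l : I) : ℝ := ∑ i ∈ Finset.range j, g (l, i)

open Classical in
/-- Restriction to the block `F × [0,j)`, set to zero elsewhere. -/
noncomputable def blockP (F : Finset I) (j : ℕ) (x : I × ℕ → ℝ) : I × ℕ → ℝ :=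
  fun q => if q.1 ∈ F ∧ q.2 < j then x q else 0

/-- Observed increments on the block `F × [0,j)`. -/
noncomputable def obsF (h : ℝ) (F : Finset I) (j : ℕ) (a : LevΩ I) : I × ℕ → ℝ :=
  blockP F j (fun q => h * bv (a.1 q.1) + a.2 q)

open Classical in
/-- The drift on the block `F × [0,j)` of the configuration `η`. -/
noncomputable def driftC (h : ℝ) (η : Finset I) (j : ℕ) : I × ℕ → ℝ :=
  fun q => if q.1 ∈ η ∧ q.2 < j then h else 0

lemma measurable_blockP (F : Finset I) (j : ℕ) : Measurable (blockP F j) := by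
  refine measurable_pi_lambda _ fun q => ?_
  unfold blockP
  by_cases hq : q.1 ∈ F ∧ q.2 < j
  · simp only [hq, and_self, if_true]
    exact measurable_pi_apply q
  · simp only [hq, if_false]
    exact measurable_const

lemma obsF_eq (h : ℝ) (F : Finset I) (j : ℕ) (a : LevΩ I) :
    obsF h F j a = blockP F j (fun q => driftC h (occ F a.1) j q + a.2 q) := by
  classical
  funext q
  unfold obsF blockP driftC
  by_cases hq : q.1 ∈ F ∧ q.2 < j
  · simp only [hq, and_self, if_true]
    congr 1
    by_cases hω : a.1 q.1 = true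
    · have : q.1 ∈ occ F a.1 := mem_occ.2 ⟨hq.1, hω⟩
      simp [bv, hω, this, hq.2]
    · have : q.1 ∉ occ F a.1 := fun hh => hω (mem_occ.1 hh).2
      simp [bv, hω, this]
  · simp [hq]

lemma Vsum_blockP (F : Finset I) (j : ℕ) (x : I × ℕ → ℝ) {l : I} (hl : l ∈ F) :
    Vsum j (blockP F j x) l = Vsum j x l := by
  classical
  unfold Vsum blockP
  refine Finset.sum_congr rfl fun i hi => ?_
  simp [hl, Finset.mem_range.1 hi]

lemma Vsum_obsF (h : ℝ) (F : Finset I) (j : ℕ) (a : LevΩ I) {l : I} (hl : l ∈ F) :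
    Vsum j (obsF h F j a) l = Ypos h a l j := by
  unfold obsF
  rw [Vsum_blockP F j _ hl]
  unfold Vsum Ypos
  rw [Finset.sum_add_distrib]
  simp only [Finset.sum_const, Finset.card_range, nsmul_eq_mul]
  ring

/-- The shift density of the drift of `η` is the Gibbs weight. -/
lemma shiftD_driftC (h : ℝ≥0) (hh : h ≠ 0) {F η : Finset I} (hη : η ⊆ F) (j : ℕ)
    (x : I × ℕ → ℝ) :
    shiftD h (driftC h η j) (F ×ˢ Finset.range j) x =
      wt η (j * h) (Vsum j (blockP F j x)) := by
  classical
  have hh' : (h : ℝ) ≠ 0 := by exact_mod_cast hh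
  unfold shiftD wt
  rw [Finset.prod_product]
  have h1 : ∀ l ∈ F, ∏ i ∈ Finset.range j, shiftR h (driftC h η j (l, i)) (x (l, i)) =
      if l ∈ η then Real.exp (Vsum j (blockP F j x) l - (j * h) / 2) else 1 := by
    intro l hl
    by_cases hlη : l ∈ η
    · rw [if_pos hlη, Vsum_blockP F j x hl]
      have h2 : ∀ i ∈ Finset.range j, shiftR h (driftC h η j (l, i)) (x (l, i)) =
          Real.exp (x (l, i) - h / 2) := by
        intro i hi
        have hi' := Finset.mem_range.1 hi
        unfold shiftR driftC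
        simp only [hlη, hi', and_self, if_true]
        congr 1
        field_simp
      rw [Finset.prod_congr rfl h2, ← Real.exp_sum]
      congr 1
      unfold Vsum
      rw [Finset.sum_sub_distrib, Finset.sum_const, Finset.card_range, nsmul_eq_mul]
      ring
    · rw [if_neg hlη]
      refine Finset.prod_eq_one fun i _ => ?_
      have : driftC (h : ℝ) η j (l, i) = 0 := by
        unfold driftC; simp [hlη]
      rw [this, shiftR_zero]
  rw [Finset.prod_congr rfl h1, Finset.prod_ite, Finset.prod_const_one, mul_one,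
    ← Real.exp_sum]
  congr 1
  have : F.filter (fun l => l ∈ η) = η := by
    ext l; simp only [Finset.mem_filter]; exact ⟨fun h => h.2, fun h => ⟨hη h, h⟩⟩
  rw [this]

lemma driftC_support (h : ℝ) {F η : Finset I} (hη : η ⊆ F) (j : ℕ) (q : I × ℕ)
    (hq : q ∉ F ×ˢ Finset.range j) : driftC h η j q = 0 := by
  classical
  unfold driftC
  rw [if_neg]
  rintro ⟨h1, h2⟩
  exact hq (Finset.mem_product.2 ⟨hη h1, Finset.mem_range.2 h2⟩)

lemma integrable_shiftD {J : Type*} (h : ℝ≥0) (hh : h ≠ 0) (c : J → ℝ) (B : Finset J)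
    (hB : ∀ a, a ∉ B → c a = 0) : Integrable (shiftD h c B) (noiseLaw J h) := by
  refine ⟨(measurable_shiftD h c B).aestronglyMeasurable, ?_⟩
  rw [hasFiniteIntegral_iff_ofReal (ae_of_all _ fun x => (shiftD_pos h c B x).le)]
  have h1 := infinitePi_gaussian_eq_withDensity h hh c B hB
  have h2 : ((noiseLaw J h).withDensity (fun x => ENNReal.ofReal (shiftD h c B x))) Set.univ = 1 := by
    rw [← h1]; simp
  rw [withDensity_apply _ MeasurableSet.univ, Measure.restrict_univ] at h2
  rw [h2]; simp

lemma integrable_wt_mul (h : ℝ≥0) (hh : h ≠ 0) {F S : Finset I} (hS : S ⊆ F) (j : ℕ)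
    (W : (I × ℕ → ℝ) → ℝ) (hW : Measurable W) (C : ℝ) (hC : ∀ x, |W x| ≤ C) :
    Integrable (fun x => wt S (j * h) (Vsum j (blockP F j x)) * W x) (noiseLaw (I × ℕ) h) := by
  have h1 : (fun x => wt S (j * h) (Vsum j (blockP F j x)) * W x) =
      fun x => shiftD h (driftC h S j) (F ×ˢ Finset.range j) x * W x := by
    funext x
    rw [shiftD_driftC h hh hS]
  rw [h1]
  refine (integrable_shiftD h hh _ _ (driftC_support h hS j)).mul_bdd (c := C)
    hW.aestronglyMeasurable ?_
  exact ae_of_all _ fun x => by simpa using hC x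

lemma integrable_of_bdd {α : Type*} [MeasurableSpace α] {μ : Measure α} [IsFiniteMeasure μ]
    {f : α → ℝ} (hf : Measurable f) (C : ℝ) (hC : ∀ x, |f x| ≤ C) : Integrable f μ :=
  Integrable.of_bound hf.aestronglyMeasurable C (ae_of_all _ fun x => by simpa using hC x)

/-- Law of the observed block on the event `occ = S`. -/
theorem master_one (ν : Measure (I → Bool)) [IsProbabilityMeasure ν] (h : ℝ≥0) (hh : h ≠ 0)
    {F S : Finset I} (hS : S ⊆ F) (j : ℕ) (Z : (I × ℕ → ℝ) → ℝ) (hZ : Measurable Z) :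
    ∫ a, (open Classical in if occ F a.1 = S then 1 else 0 : ℝ) * Z (obsF h F j a) ∂(levP ν h) =
      mass ν F S * ∫ x, wt S (j * h) (Vsum j (blockP F j x)) * Z (blockP F j x)
        ∂(noiseLaw (I × ℕ) h) := by
  classical
  have h1 : ∀ a : LevΩ I, (if occ F a.1 = S then 1 else 0 : ℝ) * Z (obsF h F j a) =
      (if occ F a.1 = S then 1 else 0 : ℝ) *
        Z (blockP F j (fun q => driftC h S j q + a.2 q)) := by
    intro a
    by_cases ha : occ F a.1 = S
    · simp only [ha, if_true, obsF_eq]
    · simp [ha]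
  simp_rw [h1]
  unfold levP
  rw [integral_prod_mul (fun ω : I → Bool => (if occ F ω = S then 1 else 0 : ℝ))
    (fun x : I × ℕ → ℝ => Z (blockP F j (fun q => driftC h S j q + x q)))]
  congr 1
  · have h2 : (fun ω : I → Bool => (if occ F ω = S then 1 else 0 : ℝ)) =
        Set.indicator {ω | occ F ω = S} 1 := by
      funext ω
      by_cases hω : occ F ω = S <;> simp [Set.indicator, hω]
    rw [h2, integral_indicator (measurable_occ_indicator F S hS), mass_eq_occ ν hS]
    simp [Measure.real]
  · have := noise_shift_integral h hh (driftC h S j) (F ×ˢ Finset.range j)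
      (driftC_support h hS j) (Z ∘ blockP F j) (hZ.comp (measurable_blockP F j))
    simp only [Function.comp] at this
    rw [this]
    refine integral_congr_ae (ae_of_all _ fun x => ?_)
    simp only
    rw [shiftD_driftC h hh hS]

/-- Decomposition of a function of `occ` over all possible values. -/
lemma sum_occ_ite {F : Finset I} (f : Finset I → ℝ) (ω : I → Bool) :
    f (occ F ω) = ∑ S ∈ F.powerset, f S * (open Classical in if occ F ω = S then 1 else 0 : ℝ) := by
  classical
  simp only [mul_ite, mul_one, mul_zero]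
  rw [Finset.sum_ite_eq]
  simp [occ_subset]

lemma measurable_obsF (h : ℝ) (F : Finset I) (j : ℕ) : Measurable (obsF h F j) := by
  classical
  unfold obsF
  refine (measurable_blockP F j).comp ?_
  refine measurable_pi_lambda _ fun q => ?_
  refine Measurable.add (Measurable.const_mul ?_ h) ?_
  · have : Measurable (fun a : LevΩ I => a.1 q.1) :=
      (measurable_pi_apply q.1).comp measurable_fst
    exact (measurable_from_top (f := bv)).comp this
  · exact (measurable_pi_apply q).comp measurable_snd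

lemma measurable_occ_fn {F : Finset I} (f : Finset I → ℝ) :
    Measurable (fun ω : I → Bool => f (occ F ω)) := by
  classical
  have : (fun ω : I → Bool => f (occ F ω)) =
      fun ω => ∑ S ∈ F.powerset, f S * (if occ F ω = S then 1 else 0 : ℝ) := by
    funext ω
    convert sum_occ_ite f ω
  rw [this]
  refine Finset.measurable_fun_sum _ fun S hS => Measurable.const_mul ?_ _
  exact Measurable.ite (measurable_occ_indicator F S (Finset.mem_powerset.1 hS))
    measurable_const measurable_const

theorem master_sum (ν : Measure (I → Bool)) [IsProbabilityMeasure ν] (h : ℝ≥0) (hh : h ≠ 0)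
    (F : Finset I) (j : ℕ) (f : Finset I → ℝ) (Z : (I × ℕ → ℝ) → ℝ) (hZ : Measurable Z)
    (C : ℝ) (hC : ∀ x, |Z x| ≤ C) :
    ∫ a, f (occ F a.1) * Z (obsF h F j a) ∂(levP ν h) =
      ∫ x, (∑ S ∈ F.powerset, f S * (mass ν F S * wt S (j * h) (Vsum j (blockP F j x)))) *
        Z (blockP F j x) ∂(noiseLaw (I × ℕ) h) := by
  classical
  have hZo : Measurable (fun a : LevΩ I => Z (obsF h F j a)) := hZ.comp (measurable_obsF _ F j)
  have hC0 : 0 ≤ C := (abs_nonneg _).trans (hC 0)
  have hindm : ∀ S ∈ F.powerset, Measurable (fun a : LevΩ I => (if occ F a.1 = S then 1 else 0 : ℝ)) := by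
    intro S hS
    refine Measurable.ite ?_ measurable_const measurable_const
    exact measurable_fst (measurable_occ_indicator F S (Finset.mem_powerset.1 hS))
  have hint : ∀ S ∈ F.powerset, Integrable (fun a : LevΩ I =>
      f S * ((if occ F a.1 = S then 1 else 0 : ℝ) * Z (obsF h F j a))) (levP ν h) := by
    intro S hS
    refine (integrable_of_bdd ((hindm S hS).mul hZo) C fun a => ?_).const_mul _
    by_cases ha : occ F a.1 = S
    · simp [ha, hC]
    · simp [ha, hC0]
  have h1 : ∀ a : LevΩ I, f (occ F a.1) * Z (obsF h F j a) =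
      ∑ S ∈ F.powerset, f S * ((if occ F a.1 = S then 1 else 0 : ℝ) * Z (obsF h F j a)) := by
    intro a
    rw [sum_occ_ite f a.1, Finset.sum_mul]
    refine Finset.sum_congr rfl fun S _ => ?_
    ring
  simp_rw [h1]
  rw [integral_finsetSum _ hint]
  have h2 : ∀ S ∈ F.powerset, ∫ a : LevΩ I,
      f S * ((if occ F a.1 = S then 1 else 0 : ℝ) * Z (obsF h F j a)) ∂(levP ν h) =
      ∫ x, f S * (mass ν F S * wt S (j * h) (Vsum j (blockP F j x))) * Z (blockP F j x)
        ∂(noiseLaw (I × ℕ) h) := by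
    intro S hS
    rw [integral_const_mul, master_one ν h hh (Finset.mem_powerset.1 hS) j Z hZ,
      ← integral_const_mul, ← integral_const_mul]
    refine integral_congr_ae (ae_of_all _ fun x => ?_)
    simp only
    ring
  rw [Finset.sum_congr rfl h2, ← integral_finsetSum]
  · refine integral_congr_ae (ae_of_all _ fun x => ?_)
    simp only
    rw [Finset.sum_mul]
  · intro S hS
    have h3 := integrable_wt_mul h hh (Finset.mem_powerset.1 hS) j
      (fun x => Z (blockP F j x)) (hZ.comp (measurable_blockP F j)) C (fun x => hC _)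
    have h4 := h3.const_mul (f S * mass ν F S)
    refine h4.congr (ae_of_all _ fun x => ?_)
    simp only
    ring

/-- Bayes formula on a finite block. -/
theorem bayes_fin (ν : Measure (I → Bool)) [IsProbabilityMeasure ν] (h : ℝ≥0) (hh : h ≠ 0)
    {F : Finset I} {e : I} (he : e ∈ F) (j : ℕ) (Z : (I × ℕ → ℝ) → ℝ) (hZ : Measurable Z)
    (C : ℝ) (hC : ∀ x, |Z x| ≤ C) :
    ∫ a, bv (a.1 e) * Z (obsF h F j a) ∂(levP ν h) =
      ∫ a, Mfin ν F e (j * h) (fun l => Ypos h a l j) * Z (obsF h F j a) ∂(levP ν h) := by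
  classical
  set f₁ : Finset I → ℝ := fun S => if e ∈ S then 1 else 0 with hf₁
  have hbv : ∀ a : LevΩ I, bv (a.1 e) = f₁ (occ F a.1) := by
    intro a
    by_cases hω : a.1 e = true
    · simp [bv, hω, hf₁, mem_occ, he]
    · simp [bv, hω, hf₁, mem_occ]
  simp_rw [hbv]
  rw [master_sum ν h hh F j f₁ Z hZ C hC]
  set Mt : (I × ℕ → ℝ) → ℝ := fun g => Mfin ν F e (j * h) (Vsum j g) with hMt
  have hMtm : Measurable Mt := by
    refine (measurable_Mfin ν F e _).comp ?_
    refine measurable_pi_lambda _ fun l => ?_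
    unfold Vsum
    exact Finset.measurable_fun_sum _ fun i _ => measurable_pi_apply _
  have hMtb : ∀ g, |Mt g| ≤ 1 := fun g => by
    rw [abs_le]
    exact ⟨by linarith [Mfin_nonneg ν F e (j * h) (Vsum j g)], Mfin_le_one _ _ _ _ _⟩
  have hR : ∀ a : LevΩ I, Mfin ν F e (j * h) (fun l => Ypos h a l j) = Mt (obsF h F j a) := by
    intro a
    exact Mfin_congr ν F e _ fun l hl => (Vsum_obsF h F j a hl).symm
  simp_rw [hR]
  have hC0 : 0 ≤ C := (abs_nonneg _).trans (hC 0)
  have := master_sum ν h hh F j (fun _ => 1) (fun g => Mt g * Z g) (hMtm.mul hZ) C (fun g => by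
    rw [abs_mul]
    calc |Mt g| * |Z g| ≤ 1 * C := mul_le_mul (hMtb g) (hC g) (abs_nonneg _) zero_le_one
      _ = C := one_mul C)
  simp only [one_mul] at this
  rw [this]
  refine integral_congr_ae (ae_of_all _ fun x => ?_)
  simp only
  rw [← mul_assoc]
  congr 1
  have hZf : ∑ S ∈ F.powerset, mass ν F S * wt S (j * h) (Vsum j (blockP F j x)) =
      Zfin ν F (j * h) (Vsum j (blockP F j x)) := rfl
  rw [hZf, mul_comm (Zfin _ _ _ _), hMt]
  simp only
  rw [Mfin_mul_Zfin, Nfin_eq_sum_ite]

end Crest.Agent.Lib.Loc
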