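/-
The posterior mean along an exhaustion: Lévy upward theorem on the canonical space of one level.
-/
import Crest.Agent.Lib.LocBayes

set_option autoImplicit false

namespace Crest.Agent.Lib.Loc

open MeasureTheory ProbabilityTheory Filter Topology
open scoped ENNReal NNReal

variable {I : Type*}

/-- Requirements on the exhaustions. -/
structure GoodExh (Fs : I → ℕ → Finset I) : Prop where
  mem : ∀ e N, e ∈ Fs e N
  mono : ∀ e, Monotone (Fs e)
  exh : ∀ e l, ∃ N, l ∈ Fs e N

lemma isBounded_Mfin (ν : Measure (I → Bool)) (Fs : ℕ → Finset I) (e : I) (t : ℝ) (v : I → ℝ) :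
    IsBoundedUnder (· ≤ ·) atTop (fun N => Mfin ν (Fs N) e t v) :=
  isBoundedUnder_of ⟨1, fun N => Mfin_le_one _ _ _ _ _⟩

lemma isCobounded_Mfin (ν : Measure (I → Bool)) (Fs : ℕ → Finset I) (e : I) (t : ℝ) (v : I → ℝ) :
    IsCoboundedUnder (· ≤ ·) atTop (fun N => Mfin ν (Fs N) e t v) :=
  (isBoundedUnder_of (f := atTop) (u := fun N => Mfin ν (Fs N) e t v)
    ⟨0, fun N => Mfin_nonneg _ _ _ _ _⟩ : IsBoundedUnder (· ≥ ·) atTop _).isCoboundedUnder_le

lemma mlim_nonneg (ν : Measure (I → Bool)) (Fs : I → ℕ → Finset I) (e : I) (t : ℝ) (v : I → ℝ) :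
    0 ≤ mlim ν Fs e t v :=
  le_limsup_of_frequently_le (Frequently.of_forall fun N => Mfin_nonneg _ _ _ _ _)
    (isBounded_Mfin ν (Fs e) e t v)

lemma mlim_le_one (ν : Measure (I → Bool)) (Fs : I → ℕ → Finset I) (e : I) (t : ℝ) (v : I → ℝ) :
    mlim ν Fs e t v ≤ 1 :=
  limsup_le_of_le (isCobounded_Mfin ν (Fs e) e t v) (Eventually.of_forall fun N => Mfin_le_one _ _ _ _ _)

lemma abs_mlim_le_one (ν : Measure (I → Bool)) (Fs : I → ℕ → Finset I) (e : I) (t : ℝ)
    (v : I → ℝ) : |mlim ν Fs e t v| ≤ 1 := by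
  rw [abs_le]
  exact ⟨by linarith [mlim_nonneg ν Fs e t v], mlim_le_one ν Fs e t v⟩

lemma measurable_mlim (ν : Measure (I → Bool)) (Fs : I → ℕ → Finset I) (e : I) (t : ℝ) :
    Measurable (fun v : I → ℝ => mlim ν Fs e t v) :=
  Measurable.limsup fun N => measurable_Mfin ν (Fs e N) e t

/-- The posterior mean on the canonical space. -/
noncomputable def mC (ν : Measure (I → Bool)) (Fs : I → ℕ → Finset I) (h : ℝ) (e : I) (j : ℕ)
    (a : LevΩ I) : ℝ :=
  mlim ν Fs e (j * h) (fun l => Ypos h a l j)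

/-- The observed increments of all sites before the step `j`. -/
noncomputable def obsAll (h : ℝ) (j : ℕ) (a : LevΩ I) : I × ℕ → ℝ :=
  fun q => if q.2 < j then h * bv (a.1 q.1) + a.2 q else 0

/-- The sigma-algebra of the observed past before the step `j`. -/
noncomputable def pastσ (h : ℝ) (j : ℕ) : MeasurableSpace (LevΩ I) :=
  MeasurableSpace.comap (obsAll h j) inferInstance

lemma measurable_bv_site (e : I) : Measurable (fun a : LevΩ I => bv (a.1 e)) :=
  (measurable_from_top (f := bv)).comp ((measurable_pi_apply e).comp measurable_fst)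

lemma measurable_obsAll (h : ℝ) (j : ℕ) : Measurable (obsAll (I := I) h j) := by
  refine measurable_pi_lambda _ fun q => ?_
  unfold obsAll
  by_cases hq : q.2 < j
  · simp only [hq, if_true]
    exact ((measurable_bv_site q.1).const_mul h).add ((measurable_pi_apply q).comp measurable_snd)
  · simp only [hq, if_false]
    exact measurable_const

lemma pastσ_le (h : ℝ) (j : ℕ) : pastσ (I := I) h j ≤ (inferInstance : MeasurableSpace (LevΩ I)) :=
  (measurable_obsAll h j).comap_le

lemma Vsum_obsAll (h : ℝ) (j : ℕ) (a : LevΩ I) (l : I) :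
    Vsum j (obsAll h j a) l = Ypos h a l j := by
  unfold Vsum Ypos obsAll
  have h1 : ∀ i ∈ Finset.range j, (if (l, i).2 < j then h * bv (a.1 (l, i).1) + a.2 (l, i) else 0)
      = h * bv (a.1 l) + a.2 (l, i) := by
    intro i hi
    simp [Finset.mem_range.1 hi]
  rw [Finset.sum_congr rfl h1, Finset.sum_add_distrib]
  simp only [Finset.sum_const, Finset.card_range, nsmul_eq_mul]
  ring

lemma measurable_Vsum (j : ℕ) : Measurable (Vsum (I := I) j) := by
  refine measurable_pi_lambda _ fun l => ?_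
  unfold Vsum
  exact Finset.measurable_fun_sum _ fun i _ => measurable_pi_apply _

lemma measurable_mC_past (ν : Measure (I → Bool)) (Fs : I → ℕ → Finset I) (h : ℝ) (e : I)
    (j : ℕ) : Measurable[pastσ h j] (mC ν Fs h e j) := by
  have h1 : mC ν Fs h e j = (fun g => mlim ν Fs e (j * h) (Vsum j g)) ∘ obsAll h j := by
    funext a
    simp only [mC, Function.comp]
    congr 1
    funext l
    exact (Vsum_obsAll h j a l).symm
  rw [h1]
  exact ((measurable_mlim ν Fs e _).comp (measurable_Vsum j)).comp (comap_measurable _)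

lemma measurable_mC (ν : Measure (I → Bool)) (Fs : I → ℕ → Finset I) (h : ℝ) (e : I) (j : ℕ) :
    Measurable (mC ν Fs h e j) :=
  (measurable_mC_past ν Fs h e j).mono (pastσ_le h j) le_rfl

lemma abs_mC_le_one (ν : Measure (I → Bool)) (Fs : I → ℕ → Finset I) (h : ℝ) (e : I) (j : ℕ)
    (a : LevΩ I) : |mC ν Fs h e j a| ≤ 1 := abs_mlim_le_one _ _ _ _ _

lemma abs_bv_le_one (b : Bool) : |bv b| ≤ 1 := by
  cases b <;> simp [bv]

lemma obsF_eq_blockP_comp (h : ℝ) {F F' : Finset I} (hF : F ⊆ F') (j : ℕ) :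
    obsF h F j = blockP F j ∘ obsF h F' j := by
  classical
  funext a q
  simp only [obsF, blockP, Function.comp]
  by_cases hq : q.1 ∈ F ∧ q.2 < j
  · have : q.1 ∈ F' ∧ q.2 < j := ⟨hF hq.1, hq.2⟩
    simp [hq, this]
  · simp [hq]

/-- The filtration of the observations on the blocks of the exhaustion. -/
noncomputable def obsFilt (h : ℝ) (Fs : ℕ → Finset I) (hFs : Monotone Fs) (j : ℕ) :
    Filtration ℕ (inferInstance : MeasurableSpace (LevΩ I)) where
  seq N := MeasurableSpace.comap (obsF h (Fs N) j) inferInstance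
  mono' := by
    intro N N' hN
    simp only
    rw [obsF_eq_blockP_comp h (hFs hN) j, ← MeasurableSpace.comap_comp]
    exact MeasurableSpace.comap_mono (measurable_blockP _ j).comap_le
  le' N := (measurable_obsF h (Fs N) j).comap_le

section
variable (ν : Measure (I → Bool)) [IsProbabilityMeasure ν] (h : ℝ≥0) (hh : h ≠ 0)
include hh

theorem Mfin_ae_condExp {F : Finset I} {e : I} (he : e ∈ F) (j : ℕ) :
    (fun a : LevΩ I => Mfin ν F e (j * h) (fun l => Ypos h a l j)) =ᵐ[levP ν h]
      (levP ν h)[fun a => bv (a.1 e) | MeasurableSpace.comap (obsF h F j) inferInstance] := by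
  classical
  have hm : MeasurableSpace.comap (obsF (I := I) h F j) inferInstance ≤ (inferInstance : MeasurableSpace (LevΩ I)) :=
    (measurable_obsF h F j).comap_le
  set Mt : (I × ℕ → ℝ) → ℝ := fun g => Mfin ν F e (j * h) (Vsum j g) with hMt
  have hMtm : Measurable Mt := (measurable_Mfin ν F e _).comp (measurable_Vsum j)
  have hR : (fun a : LevΩ I => Mfin ν F e (j * h) (fun l => Ypos h a l j)) = Mt ∘ obsF h F j := by
    funext a
    exact Mfin_congr ν F e _ fun l hl => (Vsum_obsF h F j a hl).symm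
  have hgm : Measurable (fun a : LevΩ I => Mfin ν F e (j * h) (fun l => Ypos h a l j)) := by
    rw [hR]; exact hMtm.comp (measurable_obsF _ _ _)
  have hgb : ∀ a : LevΩ I, |Mfin ν F e (j * h) (fun l => Ypos h a l j)| ≤ 1 := fun a => by
    rw [abs_le]; exact ⟨by linarith [Mfin_nonneg ν F e (j * h) (fun l => Ypos h a l j)],
      Mfin_le_one _ _ _ _ _⟩
  refine ae_eq_condExp_of_forall_setIntegral_eq hm ?_ ?_ ?_ ?_
  · exact integrable_of_bdd (measurable_bv_site e) 1 fun a => abs_bv_le_one _
  · intro s _ _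
    exact (integrable_of_bdd hgm 1 hgb).integrableOn
  · rintro s ⟨T, hT, rfl⟩ _
    have hZm : Measurable (T.indicator (1 : (I × ℕ → ℝ) → ℝ)) := measurable_one.indicator hT
    have hZb : ∀ x, |T.indicator (1 : (I × ℕ → ℝ) → ℝ) x| ≤ 1 := fun x => by
      by_cases hx : x ∈ T <;> simp [hx]
    have := bayes_fin ν h hh he j _ hZm 1 hZb
    have hs : MeasurableSet (obsF (I := I) h F j ⁻¹' T) := measurable_obsF _ _ _ hT
    rw [← integral_indicator hs, ← integral_indicator hs]
    convert this.symm using 2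
    · funext a
      by_cases ha : a ∈ obsF h F j ⁻¹' T
      · have ha' : obsF h F j a ∈ T := ha
        simp [Set.indicator_of_mem ha, ha']
      · have ha' : obsF h F j a ∉ T := ha
        simp [Set.indicator_of_notMem ha, ha']
    · funext a
      by_cases ha : a ∈ obsF h F j ⁻¹' T
      · have ha' : obsF h F j a ∈ T := ha
        simp [Set.indicator_of_mem ha, ha']
      · have ha' : obsF h F j a ∉ T := ha
        simp [Set.indicator_of_notMem ha, ha']
  · rw [hR]
    exact (hMtm.comp (comap_measurable _)).stronglyMeasurable.aestronglyMeasurable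

/-- Bayes formula along an exhaustion, for all the observed past. -/
theorem bayes_lim {Fs : I → ℕ → Finset I} (hFs : GoodExh Fs) (e : I) (j : ℕ)
    (Z : LevΩ I → ℝ) (hZ : Measurable[pastσ h j] Z) (C : ℝ) (hC : ∀ a, |Z a| ≤ C) :
    ∫ a, mC ν Fs h e j a * Z a ∂(levP ν h) = ∫ a, bv (a.1 e) * Z a ∂(levP ν h) := by
  classical
  set ℱ := obsFilt (I := I) h (Fs e) (hFs.mono e) j with hℱ
  set g : LevΩ I → ℝ := fun a => bv (a.1 e) with hg
  have hgi : Integrable g (levP ν h) :=
    integrable_of_bdd (measurable_bv_site e) 1 fun a => abs_bv_le_one _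
  have h1 : ∀ N, (fun a : LevΩ I => Mfin ν (Fs e N) e (j * h) (fun l => Ypos h a l j))
      =ᵐ[levP ν h] (levP ν h)[g | ℱ N] := fun N => Mfin_ae_condExp ν h hh (hFs.mem e N) j
  have h2 := tendsto_ae_condExp (μ := levP ν h) (ℱ := ℱ) g
  have h3 : mC ν Fs h e j =ᵐ[levP ν h] (levP ν h)[g | ⨆ N, ℱ N] := by
    filter_upwards [ae_all_iff.2 h1, h2] with a ha1 ha2
    have h4 : Tendsto (fun N => Mfin ν (Fs e N) e (j * h) (fun l => Ypos h a l j)) atTop
        (𝓝 (((levP ν h)[g | ⨆ N, ℱ N]) a)) := by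
      refine ha2.congr fun N => (ha1 N).symm
    exact h4.limsup_eq
  have hpast : pastσ (I := I) h j ≤ ⨆ N, ℱ N := by
    have hmeas : Measurable[⨆ N, ℱ N] (obsAll (I := I) h j) := by
      refine @measurable_pi_lambda _ _ _ (⨆ N, ℱ N) _ _ fun q => ?_
      by_cases hq : q.2 < j
      · obtain ⟨N, hN⟩ := hFs.exh e q.1
        have h5 : (fun a : LevΩ I => obsAll h j a q) =
            (fun g => g q) ∘ obsF h (Fs e N) j := by
          funext a
          simp [obsAll, obsF, blockP, hq, hN]
        rw [h5]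
        have h6 : Measurable[ℱ N] (obsF (I := I) h (Fs e N) j) := comap_measurable _
        exact ((measurable_pi_apply q).comp h6).mono (le_iSup (fun N => (ℱ N)) N) le_rfl
      · have h5 : (fun a : LevΩ I => obsAll h j a q) = fun _ => 0 := by
          funext a
          simp [obsAll, hq]
        rw [h5]
        exact @measurable_const _ _ _ (⨆ N, ℱ N) _
    exact hmeas.comap_le
  have hle : (⨆ N, ℱ N) ≤ (inferInstance : MeasurableSpace (LevΩ I)) := iSup_le fun N => ℱ.le N
  have hZs : StronglyMeasurable[⨆ N, ℱ N] Z := (hZ.mono hpast le_rfl).stronglyMeasurable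
  have h7 := condExp_stronglyMeasurable_mul_of_bound hle (μ := levP ν h) hZs hgi C
    (ae_of_all _ fun a => by simpa using hC a)
  have hZm : Measurable Z := hZ.mono (pastσ_le h j) le_rfl
  have h8 : ∫ a, Z a * g a ∂(levP ν h) = ∫ a, ((levP ν h)[Z * g | ⨆ N, ℱ N]) a ∂(levP ν h) :=
    (integral_condExp hle).symm
  have h9 : ∫ a, mC ν Fs h e j a * Z a ∂(levP ν h) = ∫ a, Z a * ((levP ν h)[g | ⨆ N, ℱ N]) a ∂(levP ν h) := by
    refine integral_congr_ae ?_
    filter_upwards [h3] with a ha
    rw [ha, mul_comm]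
  have h10 : ∫ a, bv (a.1 e) * Z a ∂(levP ν h) = ∫ a, Z a * g a ∂(levP ν h) := by
    refine integral_congr_ae (ae_of_all _ fun a => ?_)
    simp only [hg]
    ring
  rw [h9, h10, h8]
  refine integral_congr_ae ?_
  filter_upwards [h7] with a ha
  rw [ha]
  rfl

end

end Crest.Agent.Lib.Loc
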