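/-
Martingale orthogonality of the posterior means on the canonical space of one level.
-/
import Crest.Agent.Lib.LocLevy

set_option autoImplicit false

namespace Crest.Agent.Lib.Loc

open MeasureTheory ProbabilityTheory Filter Topology
open scoped ENNReal NNReal

variable {I : Type*}

/-- Bounded functions. -/
def BddF {α : Type*} (f : α → ℝ) : Prop := ∃ C, ∀ a, |f a| ≤ C

lemma BddF.add {α : Type*} {f g : α → ℝ} (hf : BddF f) (hg : BddF g) :
    BddF (fun a => f a + g a) := by
  obtain ⟨C, hC⟩ := hf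
  obtain ⟨D, hD⟩ := hg
  exact ⟨C + D, fun a => (abs_add_le _ _).trans (add_le_add (hC a) (hD a))⟩

lemma BddF.sub {α : Type*} {f g : α → ℝ} (hf : BddF f) (hg : BddF g) :
    BddF (fun a => f a - g a) := by
  obtain ⟨C, hC⟩ := hf
  obtain ⟨D, hD⟩ := hg
  exact ⟨C + D, fun a => (abs_sub _ _).trans (add_le_add (hC a) (hD a))⟩

lemma BddF.mul {α : Type*} {f g : α → ℝ} (hf : BddF f) (hg : BddF g) :
    BddF (fun a => f a * g a) := by
  obtain ⟨C, hC⟩ := hf
  obtain ⟨D, hD⟩ := hg
  refine ⟨C * D, fun a => ?_⟩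
  rw [abs_mul]
  exact mul_le_mul (hC a) (hD a) (abs_nonneg _) ((abs_nonneg _).trans (hC a))

lemma BddF.sum {α κ : Type*} (s : Finset κ) {f : κ → α → ℝ} (hf : ∀ i ∈ s, BddF (f i)) :
    BddF (fun a => ∑ i ∈ s, f i a) := by
  classical
  induction s using Finset.induction_on with
  | empty => exact ⟨0, fun a => by simp⟩
  | insert i s hi ih =>
    have h1 := hf i (Finset.mem_insert_self _ _)
    have h2 := ih fun j hj => hf j (Finset.mem_insert_of_mem hj)
    obtain ⟨C, hC⟩ := h1.add h2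
    refine ⟨C, fun a => ?_⟩
    simp only [Finset.sum_insert hi]
    exact hC a

lemma integrable_of_bddF {α : Type*} [MeasurableSpace α] {μ : Measure α} [IsFiniteMeasure μ]
    {f : α → ℝ} (hf : Measurable f) (hb : BddF f) : Integrable f μ := by
  obtain ⟨C, hC⟩ := hb
  exact integrable_of_bdd hf C hC

lemma pastσ_mono (h : ℝ) {j j' : ℕ} (hj : j ≤ j') : pastσ (I := I) h j ≤ pastσ h j' := by
  have hm : Measurable[pastσ h j'] (obsAll (I := I) h j) := by
    refine @measurable_pi_lambda _ _ _ (pastσ h j') _ _ fun q => ?_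
    by_cases hq : q.2 < j
    · have h1 : (fun a : LevΩ I => obsAll h j a q) = (fun g => g q) ∘ obsAll h j' := by
        funext a
        simp [obsAll, hq, lt_of_lt_of_le hq hj]
      rw [h1]
      exact (measurable_pi_apply q).comp (comap_measurable _)
    · have h1 : (fun a : LevΩ I => obsAll h j a q) = fun _ => 0 := by
        funext a
        simp [obsAll, hq]
      rw [h1]
      exact @measurable_const _ _ _ (pastσ h j') _
  exact hm.comap_le

section
variable (ν : Measure (I → Bool)) [IsProbabilityMeasure ν] (h : ℝ≥0) (hh : h ≠ 0)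
  {Fs : I → ℕ → Finset I} (hFs : GoodExh Fs) (e : I)
include hh hFs

/-- Martingale property of the posterior means. -/
theorem mC_martingale {j j' : ℕ} (hj : j ≤ j') (Z : LevΩ I → ℝ) (hZ : Measurable[pastσ h j] Z)
    (hb : BddF Z) :
    ∫ a, mC ν Fs h e j' a * Z a ∂(levP ν h) = ∫ a, mC ν Fs h e j a * Z a ∂(levP ν h) := by
  obtain ⟨C, hC⟩ := hb
  rw [bayes_lim ν h hh hFs e j' Z (hZ.mono (pastσ_mono h hj) le_rfl) C hC,
    bayes_lim ν h hh hFs e j Z hZ C hC]

/-- The bound on the square of a sum of martingale differences. -/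
theorem mart_orth_aux (J : ℕ) :
    ∫ a, (∑ i ∈ Finset.range J, (mC ν Fs h e (2 * i + 1) a - mC ν Fs h e (2 * i) a)) ^ 2
        ∂(levP ν h) ≤
      ∫ a, (mC ν Fs h e (2 * J) a) ^ 2 ∂(levP ν h) - ∫ a, (mC ν Fs h e 0 a) ^ 2 ∂(levP ν h) := by
  set m : ℕ → LevΩ I → ℝ := fun j => mC ν Fs h e j with hm
  have hmm : ∀ j, Measurable (m j) := fun j => measurable_mC ν Fs h e j
  have hmp : ∀ j, Measurable[pastσ h j] (m j) := fun j => measurable_mC_past ν Fs h e j
  have hmb : ∀ j, BddF (m j) := fun j => ⟨1, abs_mC_le_one ν Fs h e j⟩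
  have hint : ∀ {f : LevΩ I → ℝ}, Measurable f → BddF f → Integrable f (levP ν h) :=
    fun hf hb => integrable_of_bddF hf hb
  set v : ℕ → ℝ := fun j => ∫ a, (m j a) ^ 2 ∂(levP ν h) with hv
  have hprod : ∀ {j j' : ℕ}, j ≤ j' → ∫ a, m j' a * m j a ∂(levP ν h) = v j := by
    intro j j' hj
    have := mC_martingale ν h hh hFs e hj (m j) (hmp j) (hmb j)
    simp only [hv, sq]
    exact this
  have hdiff : ∀ j, ∫ a, (m (j + 1) a - m j a) ^ 2 ∂(levP ν h) = v (j + 1) - v j := by
    intro j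
    have h1 : ∀ a, (m (j + 1) a - m j a) ^ 2 =
        (m (j + 1) a) ^ 2 - 2 * (m (j + 1) a * m j a) + (m j a) ^ 2 := fun a => by ring
    simp_rw [h1]
    have i1 : Integrable (fun a => (m (j + 1) a) ^ 2) (levP ν h) := by
      simp only [sq]
      exact hint ((hmm _).mul (hmm _)) ((hmb _).mul (hmb _))
    have i2 : Integrable (fun a => (m j a) ^ 2) (levP ν h) := by
      simp only [sq]
      exact hint ((hmm _).mul (hmm _)) ((hmb _).mul (hmb _))
    have i3 : Integrable (fun a => m (j + 1) a * m j a) (levP ν h) :=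
      hint ((hmm _).mul (hmm _)) ((hmb _).mul (hmb _))
    have i4 : Integrable (fun a => 2 * (m (j + 1) a * m j a)) (levP ν h) := i3.const_mul 2
    have i5 : Integrable (fun a => (m (j + 1) a) ^ 2 - 2 * (m (j + 1) a * m j a)) (levP ν h) :=
      i1.sub i4
    rw [integral_add i5 i2, integral_sub i1 i4,
      integral_const_mul, hprod (Nat.le_succ j)]
    simp only [hv]
    ring
  have hmono : ∀ j, v j ≤ v (j + 1) := by
    intro j
    have h1 : 0 ≤ ∫ a, (m (j + 1) a - m j a) ^ 2 ∂(levP ν h) :=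
      integral_nonneg fun a => sq_nonneg _
    rw [hdiff] at h1
    linarith
  change ∫ a, (∑ i ∈ Finset.range J, (m (2 * i + 1) a - m (2 * i) a)) ^ 2 ∂(levP ν h) ≤
    ∫ a, (m (2 * J) a) ^ 2 ∂(levP ν h) - ∫ a, (m 0 a) ^ 2 ∂(levP ν h)
  induction J with
  | zero =>
    simp
  | succ J ih =>
    set T : LevΩ I → ℝ := fun a => ∑ i ∈ Finset.range J, (m (2 * i + 1) a - m (2 * i) a) with hT
    have hTm : Measurable T :=
      Finset.measurable_fun_sum _ fun i _ => (hmm _).sub (hmm _)
    have hTp : Measurable[pastσ h (2 * J)] T := by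
      refine @Finset.measurable_fun_sum _ _ _ _ _ _ (pastσ h (2 * J)) _ _ fun i hi => ?_
      have hi' := Finset.mem_range.1 hi
      exact Measurable.sub ((hmp _).mono (pastσ_mono h (by omega)) le_rfl)
        ((hmp _).mono (pastσ_mono h (by omega)) le_rfl)
    have hTb : BddF T := BddF.sum _ fun i _ => (hmb _).sub (hmb _)
    have hsum : ∀ a, (∑ i ∈ Finset.range (J + 1), (m (2 * i + 1) a - m (2 * i) a)) ^ 2 =
        (T a) ^ 2 + 2 * (m (2 * J + 1) a * T a - m (2 * J) a * T a) +
          (m (2 * J + 1) a - m (2 * J) a) ^ 2 := by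
      intro a
      rw [Finset.sum_range_succ]
      simp only [hT]
      ring
    simp_rw [hsum]
    have iT : Integrable (fun a => (T a) ^ 2) (levP ν h) := by
      simp only [sq]
      exact hint (hTm.mul hTm) (hTb.mul hTb)
    have i1 : Integrable (fun a => m (2 * J + 1) a * T a) (levP ν h) :=
      hint ((hmm _).mul hTm) ((hmb _).mul hTb)
    have i2 : Integrable (fun a => m (2 * J) a * T a) (levP ν h) :=
      hint ((hmm _).mul hTm) ((hmb _).mul hTb)
    have iD : Integrable (fun a => (m (2 * J + 1) a - m (2 * J) a) ^ 2) (levP ν h) := by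
      simp only [sq]
      exact hint (((hmm _).sub (hmm _)).mul ((hmm _).sub (hmm _)))
        (((hmb _).sub (hmb _)).mul ((hmb _).sub (hmb _)))
    have i3 : Integrable (fun a => m (2 * J + 1) a * T a - m (2 * J) a * T a) (levP ν h) :=
      i1.sub i2
    have i4 : Integrable (fun a => 2 * (m (2 * J + 1) a * T a - m (2 * J) a * T a)) (levP ν h) :=
      i3.const_mul 2
    have i5 : Integrable (fun a => (T a) ^ 2 + 2 * (m (2 * J + 1) a * T a - m (2 * J) a * T a))
        (levP ν h) := iT.add i4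
    have hz : ∫ a, m (2 * J + 1) a * T a ∂(levP ν h) = ∫ a, m (2 * J) a * T a ∂(levP ν h) :=
      mC_martingale ν h hh hFs e (Nat.le_succ (2 * J)) T hTp hTb
    rw [integral_add i5 iD, integral_add iT i4, integral_const_mul, integral_sub i1 i2,
      hz, hdiff, sub_self, mul_zero, add_zero]
    have h2 : v (2 * J + 1) ≤ v (2 * (J + 1)) := hmono _
    have ih' : ∫ a, (T a) ^ 2 ∂(levP ν h) ≤ v (2 * J) - v 0 := ih
    show ∫ a, (T a) ^ 2 ∂(levP ν h) + (v (2 * J + 1) - v (2 * J)) ≤ v (2 * (J + 1)) - v 0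
    linarith

theorem mart_orth (J : ℕ) :
    ∫ a, (∑ i ∈ Finset.range J, (mC ν Fs h e (2 * i + 1) a - mC ν Fs h e (2 * i) a)) ^ 2
        ∂(levP ν h) ≤ 1 := by
  refine (mart_orth_aux ν h hh hFs e J).trans ?_
  have h1 : ∫ a, (mC ν Fs h e (2 * J) a) ^ 2 ∂(levP ν h) ≤ 1 := by
    have : ∫ a, (mC ν Fs h e (2 * J) a) ^ 2 ∂(levP ν h) ≤ ∫ _a, (1 : ℝ) ∂(levP ν h) := by
      refine integral_mono_of_nonneg (ae_of_all _ fun a => sq_nonneg _) (integrable_const _)
        (ae_of_all _ fun a => ?_)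
      simp only
      have := abs_mC_le_one ν Fs h e (2 * J) a
      rw [sq_le_one_iff_abs_le_one]
      exact this
    simpa using this
  have h2 : 0 ≤ ∫ a, (mC ν Fs h e 0 a) ^ 2 ∂(levP ν h) := integral_nonneg fun a => sq_nonneg _
  linarith

end

end Crest.Agent.Lib.Loc
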