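/-
Characteristic function of the approximate innovations on the canonical space of one level.
-/
import Crest.Agent.Lib.LocMart

set_option autoImplicit false

namespace Crest.Agent.Lib.Loc

open MeasureTheory ProbabilityTheory Filter Topology
open scoped ENNReal NNReal

/-- `e^{i r}`. -/
noncomputable def cexpI (r : ℝ) : ℂ := Complex.exp (Complex.I * r)

lemma norm_cexpI (r : ℝ) : ‖cexpI r‖ = 1 := by
  unfold cexpI
  rw [mul_comm]
  exact Complex.norm_exp_ofReal_mul_I r

lemma cexpI_add (r s : ℝ) : cexpI (r + s) = cexpI r * cexpI s := by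
  unfold cexpI
  rw [← Complex.exp_add]
  congr 1
  push_cast
  ring

lemma cexpI_zero : cexpI 0 = 1 := by simp [cexpI]

lemma measurable_cexpI : Measurable cexpI := by
  unfold cexpI
  fun_prop

lemma cexpI_eq (r : ℝ) : cexpI r = (Real.cos r : ℂ) + Complex.I * (Real.sin r : ℂ) := by
  unfold cexpI
  rw [mul_comm, Complex.exp_mul_I]
  push_cast
  ring

lemma norm_cexpI_sub_one_sub (r : ℝ) : ‖cexpI r - 1 - Complex.I * r‖ ≤ 2 * r ^ 2 := by
  by_cases hr : |r| ≤ 1
  · have h1 : ‖Complex.I * (r : ℂ)‖ = |r| := by simp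
    have h2 := Complex.norm_exp_sub_one_sub_id_le (x := Complex.I * (r : ℂ)) (by rw [h1]; exact hr)
    rw [h1, sq_abs] at h2
    unfold cexpI
    nlinarith [sq_nonneg r]
  · push Not at hr
    have h1 : ‖cexpI r - 1‖ ≤ |r| := by
      have := Real.norm_exp_I_mul_ofReal_sub_one_le (x := r)
      simpa [cexpI] using this
    have h2 : ‖cexpI r - 1 - Complex.I * r‖ ≤ ‖cexpI r - 1‖ + ‖Complex.I * (r : ℂ)‖ := norm_sub_le _ _
    have h3 : ‖Complex.I * (r : ℂ)‖ = |r| := by simp
    rw [h3] at h2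
    have h4 : |r| ≤ r ^ 2 := by
      rw [← sq_abs]
      nlinarith [abs_nonneg r]
    linarith

lemma integrable_of_norm_bdd {α : Type*} [MeasurableSpace α] {μ : Measure α} [IsFiniteMeasure μ]
    {f : α → ℂ} (hf : Measurable f) (C : ℝ) (hC : ∀ x, ‖f x‖ ≤ C) : Integrable f μ :=
  Integrable.of_bound hf.aestronglyMeasurable C (ae_of_all _ hC)

section noise
variable {J : Type*}

/-- Characteristic function of a finite linear combination of the white noise. -/
lemma noise_char (h : ℝ≥0) (B : Finset J) (c : J → ℝ) :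
    ∫ x, cexpI (∑ q ∈ B, c q * x q) ∂(noiseLaw J h) =
      ((Real.exp (-((h : ℝ) / 2) * ∑ q ∈ B, (c q) ^ 2) : ℝ) : ℂ) := by
  have hind : iIndepFun (fun (q : J) (x : J → ℝ) => c q * x q) (noiseLaw J h) :=
    iIndepFun_infinitePi (P := fun _ : J => gaussianReal 0 h) (X := fun q y => c q * y)
      (fun q => by fun_prop)
  have hm : ∀ q ∈ B, AEMeasurable (fun x : J → ℝ => c q * x q) (noiseLaw J h) := fun q _ =>
    ((measurable_pi_apply q).const_mul _).aemeasurable
  have h1 := (hind.restrict B).charFun_map_fun_finsetSum_eq_prod (s := B)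
    (X := fun (q : J) (x : J → ℝ) => c q * x q) hm
  have hsumm : Measurable (fun x : J → ℝ => ∑ q ∈ B, c q * x q) :=
    Finset.measurable_fun_sum _ fun q _ => (measurable_pi_apply q).const_mul _
  have h2 := congrFun h1 (1 : ℝ)
  rw [charFun_apply_real, integral_map hsumm.aemeasurable (by fun_prop)] at h2
  have h3 : ∀ q ∈ B, charFun ((noiseLaw J h).map (fun x : J → ℝ => c q * x q)) 1 =
      Complex.exp (-(((h : ℝ) / 2) * (c q) ^ 2 : ℝ)) := by
    intro q _
    have h4 : (noiseLaw J h).map (fun x : J → ℝ => c q * x q) =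
        gaussianReal 0 (.mk ((c q) ^ 2) (sq_nonneg _) * h) := by
      have h5 : (fun x : J → ℝ => c q * x q) = (c q * ·) ∘ (fun x : J → ℝ => x q) := rfl
      rw [h5, ← Measure.map_map (measurable_const_mul (c q)) (measurable_pi_apply q)]
      have h6 : (noiseLaw J h).map (fun x : J → ℝ => x q) = gaussianReal 0 h :=
        Measure.infinitePi_map_eval _ q
      rw [h6, gaussianReal_map_const_mul, mul_zero]
    rw [h4, charFun_gaussianReal]
    congr 1
    simp only [NNReal.coe_mul, NNReal.coe_mk]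
    push_cast
    ring
  rw [Finset.prod_apply, Finset.prod_congr rfl h3, ← Complex.exp_sum] at h2
  have h7 : ∀ x : J → ℝ, cexpI (∑ q ∈ B, c q * x q) =
      Complex.exp (((1 : ℝ) : ℂ) * ((∑ q ∈ B, c q * x q : ℝ) : ℂ) * Complex.I) := by
    intro x
    unfold cexpI
    congr 1
    push_cast
    ring
  simp_rw [h7]
  rw [h2]
  push_cast
  congr 1
  rw [Finset.mul_sum]
  refine Finset.sum_congr rfl fun q _ => ?_
  ring

end noise

variable {I : Type*}

/-- Keep only the coordinates of time index `< j`. -/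
noncomputable def pastBlock (j : ℕ) (x : I × ℕ → ℝ) : I × ℕ → ℝ :=
  fun q => if q.2 < j then x q else 0

lemma measurable_pastBlock (j : ℕ) : Measurable (pastBlock (I := I) j) := by
  refine measurable_pi_lambda _ fun q => ?_
  unfold pastBlock
  by_cases hq : q.2 < j
  · simp only [hq, if_true]; exact measurable_pi_apply q
  · simp only [hq, if_false]; exact measurable_const

lemma indep_pastBlock (h : ℝ≥0) (j : ℕ) (E : Finset I) (c : I → ℝ) :
    IndepFun (pastBlock j) (fun x : I × ℕ → ℝ => ∑ e ∈ E, c e * x (e, j))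
      (noiseLaw (I × ℕ) h) := by
  set m : I × ℕ → MeasurableSpace (I × ℕ → ℝ) :=
    fun q => MeasurableSpace.comap (fun x => x q) inferInstance with hm
  have h_le : ∀ q, m q ≤ MeasurableSpace.pi := fun q => (measurable_pi_apply q).comap_le
  have h_indep : iIndep m (noiseLaw (I × ℕ) h) := by
    have := iIndepFun_infinitePi (P := fun _ : I × ℕ => gaussianReal 0 h)
      (X := fun _ y => y) (fun _ => measurable_id)
    exact this
  have hdisj : Disjoint {q : I × ℕ | q.2 < j} {q : I × ℕ | q.2 = j} := by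
    rw [Set.disjoint_left]
    intro q h1 h2
    have h1' : q.2 < j := h1
    have h2' : q.2 = j := h2
    omega
  have hI := indep_iSup_of_disjoint h_le h_indep hdisj
  have hmeas1 : Measurable[⨆ q ∈ {q : I × ℕ | q.2 < j}, m q] (pastBlock (I := I) j) := by
    refine @measurable_pi_lambda _ _ _ (⨆ q ∈ {q : I × ℕ | q.2 < j}, m q) _ _ fun q => ?_
    by_cases hq : q.2 < j
    · have h1 : (fun x : I × ℕ → ℝ => pastBlock j x q) = fun x => x q := by
        funext x; simp [pastBlock, hq]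
      rw [h1]
      have h2 : Measurable[m q] (fun x : I × ℕ → ℝ => x q) := comap_measurable _
      exact h2.mono (le_iSup₂_of_le q hq le_rfl) le_rfl
    · have h1 : (fun x : I × ℕ → ℝ => pastBlock j x q) = fun _ => 0 := by
        funext x; simp [pastBlock, hq]
      rw [h1]
      exact @measurable_const _ _ _ (⨆ q ∈ {q : I × ℕ | q.2 < j}, m q) _
  have hmeas2 : Measurable[⨆ q ∈ {q : I × ℕ | q.2 = j}, m q]
      (fun x : I × ℕ → ℝ => ∑ e ∈ E, c e * x (e, j)) := by
    refine @Finset.measurable_fun_sum _ _ _ _ _ _ (⨆ q ∈ {q : I × ℕ | q.2 = j}, m q) _ _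
      fun e _ => ?_
    refine Measurable.const_mul ?_ _
    have h2 : Measurable[m (e, j)] (fun x : I × ℕ → ℝ => x (e, j)) := comap_measurable _
    exact h2.mono (le_iSup₂_of_le (e, j) rfl le_rfl) le_rfl
  rw [IndepFun_iff_Indep]
  exact indep_of_indep_of_le_left (indep_of_indep_of_le_right hI hmeas2.comap_le) hmeas1.comap_le

section
variable (ν : Measure (I → Bool)) (Fs : I → ℕ → Finset I)

/-- One increment of the approximate innovation. -/
noncomputable def Dterm (h : ℝ) (e : I) (i : ℕ) (a : LevΩ I) : ℝ :=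
  a.2 (e, i) + h * (bv (a.1 e) - mC ν Fs h e i a)

/-- A linear form in the approximate innovation increments before `j`. -/
noncomputable def Sc (h : ℝ) (E : Finset I) (ξ : ℕ → I → ℝ) (j : ℕ) (a : LevΩ I) : ℝ :=
  ∑ i ∈ Finset.range j, ∑ e ∈ E, ξ i e * Dterm ν Fs h e i a

/-- The drift error at step `j`. -/
noncomputable def deltaC (h : ℝ) (E : Finset I) (ξ : ℕ → I → ℝ) (j : ℕ) (a : LevΩ I) : ℝ :=
  ∑ e ∈ E, ξ j e * (h * (bv (a.1 e) - mC ν Fs h e j a))

/-- The Gaussian factor at step `i`. -/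
noncomputable def gammaC (h : ℝ) (E : Finset I) (ξ : ℕ → I → ℝ) (i : ℕ) : ℝ :=
  Real.exp (-(h / 2) * ∑ e ∈ E, (ξ i e) ^ 2)

lemma Ypos_pastBlock (h : ℝ) (ω : I → Bool) (x : I × ℕ → ℝ) (l : I) {i j : ℕ} (hij : i ≤ j) :
    Ypos h (ω, pastBlock j x) l i = Ypos h (ω, x) l i := by
  unfold Ypos pastBlock
  simp only
  congr 1
  refine Finset.sum_congr rfl fun k hk => ?_
  have : k < j := lt_of_lt_of_le (Finset.mem_range.1 hk) hij
  simp [this]

lemma mC_pastBlock (h : ℝ) (e : I) (ω : I → Bool) (x : I × ℕ → ℝ) {i j : ℕ} (hij : i ≤ j) :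
    mC ν Fs h e i (ω, pastBlock j x) = mC ν Fs h e i (ω, x) := by
  unfold mC
  simp_rw [Ypos_pastBlock h ω x _ hij]

lemma Dterm_pastBlock (h : ℝ) (e : I) (ω : I → Bool) (x : I × ℕ → ℝ) {i j : ℕ} (hij : i < j) :
    Dterm ν Fs h e i (ω, pastBlock j x) = Dterm ν Fs h e i (ω, x) := by
  unfold Dterm
  rw [mC_pastBlock ν Fs h e ω x hij.le]
  simp [pastBlock, hij]

lemma Sc_pastBlock (h : ℝ) (E : Finset I) (ξ : ℕ → I → ℝ) (j : ℕ) (ω : I → Bool)
    (x : I × ℕ → ℝ) : Sc ν Fs h E ξ j (ω, pastBlock j x) = Sc ν Fs h E ξ j (ω, x) := by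
  unfold Sc
  refine Finset.sum_congr rfl fun i hi => Finset.sum_congr rfl fun e _ => ?_
  rw [Dterm_pastBlock ν Fs h e ω x (Finset.mem_range.1 hi)]

lemma deltaC_pastBlock (h : ℝ) (E : Finset I) (ξ : ℕ → I → ℝ) (j : ℕ) (ω : I → Bool)
    (x : I × ℕ → ℝ) : deltaC ν Fs h E ξ j (ω, pastBlock j x) = deltaC ν Fs h E ξ j (ω, x) := by
  unfold deltaC
  refine Finset.sum_congr rfl fun e _ => ?_
  rw [mC_pastBlock ν Fs h e ω x le_rfl]

lemma measurable_Dterm (h : ℝ) (e : I) (i : ℕ) : Measurable (Dterm ν Fs h e i) := by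
  unfold Dterm
  refine ((measurable_pi_apply (e, i)).comp measurable_snd).add (Measurable.const_mul ?_ _)
  exact (measurable_bv_site e).sub (measurable_mC ν Fs h e i)

lemma measurable_Sc (h : ℝ) (E : Finset I) (ξ : ℕ → I → ℝ) (j : ℕ) :
    Measurable (Sc ν Fs h E ξ j) := by
  unfold Sc
  refine Finset.measurable_fun_sum _ fun i _ => Finset.measurable_fun_sum _ fun e _ => ?_
  exact (measurable_Dterm ν Fs h e i).const_mul _

lemma measurable_deltaC (h : ℝ) (E : Finset I) (ξ : ℕ → I → ℝ) (j : ℕ) :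
    Measurable (deltaC ν Fs h E ξ j) := by
  unfold deltaC
  refine Finset.measurable_fun_sum _ fun e _ => Measurable.const_mul (Measurable.const_mul ?_ _) _
  exact (measurable_bv_site e).sub (measurable_mC ν Fs h e j)

lemma measurable_Sc_past (h : ℝ) (E : Finset I) (ξ : ℕ → I → ℝ) (j : ℕ) :
    Measurable[pastσ h j] (Sc ν Fs h E ξ j) := by
  unfold Sc
  refine @Finset.measurable_fun_sum _ _ _ _ _ _ (pastσ h j) _ _ fun i hi => ?_
  refine @Finset.measurable_fun_sum _ _ _ _ _ _ (pastσ h j) _ _ fun e _ => ?_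
  have hi' := Finset.mem_range.1 hi
  have h1 : Dterm ν Fs h e i = fun a => obsAll h j a (e, i) - h * mC ν Fs h e i a := by
    funext a
    simp only [Dterm, obsAll, hi', if_true]
    ring
  rw [h1]
  refine Measurable.const_mul (Measurable.sub ?_ (Measurable.const_mul ?_ _)) _
  · have h2 : Measurable[pastσ h j] (obsAll (I := I) h j) := comap_measurable _
    exact (measurable_pi_apply (e, i)).comp h2
  · exact (measurable_mC_past ν Fs h e i).mono (pastσ_mono h hi'.le) le_rfl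

lemma abs_bv_sub_mC_le (h : ℝ) (e : I) (j : ℕ) (a : LevΩ I) :
    |bv (a.1 e) - mC ν Fs h e j a| ≤ 1 := by
  have h1 : 0 ≤ mC ν Fs h e j a := mlim_nonneg _ _ _ _ _
  have h2 : mC ν Fs h e j a ≤ 1 := mlim_le_one _ _ _ _ _
  have h3 : 0 ≤ bv (a.1 e) := by cases a.1 e <;> simp [bv]
  have h4 : bv (a.1 e) ≤ 1 := by cases a.1 e <;> simp [bv]
  rw [abs_le]
  constructor <;> linarith

lemma abs_deltaC_le (h : ℝ≥0) (E : Finset I) (ξ : ℕ → I → ℝ) (j : ℕ) (C : ℝ)
    (hC : ∑ e ∈ E, |ξ j e| ≤ C) (a : LevΩ I) : |deltaC ν Fs h E ξ j a| ≤ h * C := by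
  unfold deltaC
  refine (Finset.abs_sum_le_sum_abs _ _).trans ?_
  calc ∑ e ∈ E, |ξ j e * (h * (bv (a.1 e) - mC ν Fs h e j a))| ≤ ∑ e ∈ E, (h * |ξ j e|) := by
        refine Finset.sum_le_sum fun e _ => ?_
        rw [abs_mul, abs_mul, abs_of_nonneg (show (0 : ℝ) ≤ h from h.2)]
        have := abs_bv_sub_mC_le ν Fs h e j a
        have h5 := abs_nonneg (ξ j e)
        have h6 : (0 : ℝ) ≤ h := h.2
        calc |ξ j e| * ((h : ℝ) * |bv (a.1 e) - mC ν Fs h e j a|)
            = (h * |ξ j e|) * |bv (a.1 e) - mC ν Fs h e j a| := by ring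
          _ ≤ (h * |ξ j e|) * 1 := mul_le_mul_of_nonneg_left this (mul_nonneg h6 h5)
          _ = h * |ξ j e| := mul_one _
    _ = h * ∑ e ∈ E, |ξ j e| := by rw [Finset.mul_sum]
    _ ≤ h * C := mul_le_mul_of_nonneg_left hC h.2

variable [IsProbabilityMeasure ν]

/-- The linear term vanishes, by the martingale property. -/
lemma integral_cexpI_Sc_mul_deltaC (h : ℝ≥0) (hh : h ≠ 0) (hFs : GoodExh Fs) (E : Finset I)
    (ξ : ℕ → I → ℝ) (j : ℕ) :
    ∫ a, cexpI (Sc ν Fs h E ξ j a) * (Complex.I * (deltaC ν Fs h E ξ j a : ℂ)) ∂(levP ν h) = 0 := by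
  set S := Sc ν Fs h E ξ j with hS
  have hSm : Measurable S := measurable_Sc ν Fs h E ξ j
  have hSp : Measurable[pastσ h j] S := measurable_Sc_past ν Fs h E ξ j
  -- one term
  have hone : ∀ e, ∫ a, cexpI (S a) * ((bv (a.1 e) - mC ν Fs h e j a : ℝ) : ℂ) ∂(levP ν h) = 0 := by
    intro e
    set r : LevΩ I → ℝ := fun a => bv (a.1 e) - mC ν Fs h e j a with hr
    have hrm : Measurable r := (measurable_bv_site e).sub (measurable_mC ν Fs h e j)
    have hrb : ∀ a, |r a| ≤ 1 := abs_bv_sub_mC_le ν Fs h e j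
    have hcos : ∫ a, Real.cos (S a) * r a ∂(levP ν h) = 0 := by
      have hZ : Measurable[pastσ h j] (fun a => Real.cos (S a)) :=
        Real.measurable_cos.comp hSp
      have h1 := bayes_lim ν h hh hFs e j _ hZ 1 (fun a => Real.abs_cos_le_one _)
      have i1 : Integrable (fun a => mC ν Fs h e j a * Real.cos (S a)) (levP ν h) :=
        integrable_of_bddF ((measurable_mC ν Fs h e j).mul (Real.measurable_cos.comp hSm))
          (BddF.mul ⟨1, abs_mC_le_one ν Fs h e j⟩ ⟨1, fun a => Real.abs_cos_le_one _⟩)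
      have i2 : Integrable (fun a : LevΩ I => bv (a.1 e) * Real.cos (S a)) (levP ν h) :=
        integrable_of_bddF ((measurable_bv_site e).mul (Real.measurable_cos.comp hSm))
          (BddF.mul ⟨1, fun a => abs_bv_le_one _⟩ ⟨1, fun a => Real.abs_cos_le_one _⟩)
      have h2 : ∀ a, Real.cos (S a) * r a =
          bv (a.1 e) * Real.cos (S a) - mC ν Fs h e j a * Real.cos (S a) := fun a => by
        simp only [hr]; ring
      simp_rw [h2]
      rw [integral_sub i2 i1, h1, sub_self]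
    have hsin : ∫ a, Real.sin (S a) * r a ∂(levP ν h) = 0 := by
      have hZ : Measurable[pastσ h j] (fun a => Real.sin (S a)) :=
        Real.measurable_sin.comp hSp
      have h1 := bayes_lim ν h hh hFs e j _ hZ 1 (fun a => Real.abs_sin_le_one _)
      have i1 : Integrable (fun a => mC ν Fs h e j a * Real.sin (S a)) (levP ν h) :=
        integrable_of_bddF ((measurable_mC ν Fs h e j).mul (Real.measurable_sin.comp hSm))
          (BddF.mul ⟨1, abs_mC_le_one ν Fs h e j⟩ ⟨1, fun a => Real.abs_sin_le_one _⟩)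
      have i2 : Integrable (fun a : LevΩ I => bv (a.1 e) * Real.sin (S a)) (levP ν h) :=
        integrable_of_bddF ((measurable_bv_site e).mul (Real.measurable_sin.comp hSm))
          (BddF.mul ⟨1, fun a => abs_bv_le_one _⟩ ⟨1, fun a => Real.abs_sin_le_one _⟩)
      have h2 : ∀ a, Real.sin (S a) * r a =
          bv (a.1 e) * Real.sin (S a) - mC ν Fs h e j a * Real.sin (S a) := fun a => by
        simp only [hr]; ring
      simp_rw [h2]
      rw [integral_sub i2 i1, h1, sub_self]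
    have h3 : ∀ a, cexpI (S a) * (r a : ℂ) =
        ((Real.cos (S a) * r a : ℝ) : ℂ) + Complex.I * ((Real.sin (S a) * r a : ℝ) : ℂ) := by
      intro a
      rw [cexpI_eq]
      push_cast
      ring
    change ∫ a, cexpI (S a) * ((r a : ℝ) : ℂ) ∂(levP ν h) = 0
    simp_rw [h3]
    have i3 : Integrable (fun a => Real.cos (S a) * r a) (levP ν h) :=
      integrable_of_bddF ((Real.measurable_cos.comp hSm).mul hrm)
        (BddF.mul ⟨1, fun a => Real.abs_cos_le_one _⟩ ⟨1, hrb⟩)
    have i4 : Integrable (fun a => Real.sin (S a) * r a) (levP ν h) :=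
      integrable_of_bddF ((Real.measurable_sin.comp hSm).mul hrm)
        (BddF.mul ⟨1, fun a => Real.abs_sin_le_one _⟩ ⟨1, hrb⟩)
    rw [integral_add i3.ofReal (i4.ofReal.const_mul _), integral_const_mul,
      integral_complex_ofReal, integral_complex_ofReal, hcos, hsin]
    simp
  have hexp : ∀ a, cexpI (S a) * (Complex.I * (deltaC ν Fs h E ξ j a : ℂ)) =
      ∑ e ∈ E, (Complex.I * ((ξ j e : ℂ) * (h : ℂ))) *
        (cexpI (S a) * ((bv (a.1 e) - mC ν Fs h e j a : ℝ) : ℂ)) := by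
    intro a
    unfold deltaC
    push_cast
    rw [Finset.mul_sum, Finset.mul_sum]
    refine Finset.sum_congr rfl fun e _ => ?_
    ring
  simp_rw [hexp]
  rw [integral_finsetSum]
  · refine Finset.sum_eq_zero fun e _ => ?_
    rw [integral_const_mul, hone e, mul_zero]
  · intro e _
    refine Integrable.const_mul ?_ _
    refine integrable_of_norm_bdd ?_ 1 ?_
    · exact (measurable_cexpI.comp hSm).mul (Complex.measurable_ofReal.comp
        ((measurable_bv_site e).sub (measurable_mC ν Fs h e j)))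
    · intro a
      rw [norm_mul, norm_cexpI, one_mul, Complex.norm_real]
      exact abs_bv_sub_mC_le ν Fs h e j a

omit [IsProbabilityMeasure ν] in
lemma norm_gammaC_le (h : ℝ≥0) (E : Finset I) (ξ : ℕ → I → ℝ) (i : ℕ) :
    ‖((gammaC (h : ℝ) E ξ i : ℝ) : ℂ)‖ ≤ 1 := by
  rw [Complex.norm_real, Real.norm_eq_abs]
  unfold gammaC
  rw [abs_of_pos (Real.exp_pos _)]
  apply Real.exp_le_one_iff.2
  have h1 : 0 ≤ ∑ e ∈ E, (ξ i e) ^ 2 := Finset.sum_nonneg fun e _ => sq_nonneg _
  have h2 : (0 : ℝ) ≤ h := h.2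
  nlinarith [mul_nonneg h2 h1]

/-- The noise at the step `j` factors out. -/
lemma integral_mul_noise_step (h : ℝ≥0) (E : Finset I) (ξ : ℕ → I → ℝ) (j : ℕ)
    (U : LevΩ I → ℂ) (hU : Measurable U) (hUb : ∀ a, ‖U a‖ ≤ 1)
    (hinv : ∀ ω x, U (ω, pastBlock j x) = U (ω, x)) :
    ∫ a, U a * cexpI (∑ e ∈ E, ξ j e * a.2 (e, j)) ∂(levP ν h) =
      (∫ a, U a ∂(levP ν h)) * ((gammaC h E ξ j : ℝ) : ℂ) := by
  classical
  set Θ : (I × ℕ → ℝ) → ℝ := fun x => ∑ e ∈ E, ξ j e * x (e, j) with hΘ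
  have hΘm : Measurable Θ :=
    Finset.measurable_fun_sum _ fun e _ => (measurable_pi_apply _).const_mul _
  have hnoise : ∫ x, cexpI (Θ x) ∂(noiseLaw (I × ℕ) h) = ((gammaC h E ξ j : ℝ) : ℂ) := by
    have hinj : Function.Injective (fun e : I => (e, j)) := fun a b hab => (Prod.ext_iff.1 hab).1
    have := noise_char h (E.map ⟨fun e : I => (e, j), hinj⟩) (fun q => ξ j q.1)
    simp only [Finset.sum_map, Function.Embedding.coeFn_mk] at this
    exact this
  have hint : Integrable (fun a : LevΩ I => U a * cexpI (Θ a.2)) ((ν).prod (noiseLaw (I × ℕ) h)) := by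
    refine integrable_of_norm_bdd (hU.mul (measurable_cexpI.comp (hΘm.comp measurable_snd))) 1 ?_
    intro a
    rw [norm_mul, norm_cexpI, mul_one]
    exact hUb a
  have hintU : Integrable U ((ν).prod (noiseLaw (I × ℕ) h)) :=
    integrable_of_norm_bdd hU 1 hUb
  change ∫ a : LevΩ I, U a * cexpI (Θ a.2) ∂(ν.prod (noiseLaw (I × ℕ) h)) =
    (∫ a, U a ∂(ν.prod (noiseLaw (I × ℕ) h))) * _
  rw [integral_prod _ hint, integral_prod _ hintU, ← integral_mul_const]
  refine integral_congr_ae (ae_of_all _ fun ω => ?_)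
  simp only
  have hI := indep_pastBlock h j E (ξ j)
  have hUω : Measurable (fun y => U (ω, y)) := hU.comp (measurable_const.prodMk measurable_id)
  have h1 := hI.integral_fun_comp_mul_comp (f := fun y => U (ω, y)) (g := cexpI)
    (measurable_pastBlock j).aemeasurable hΘm.aemeasurable
    hUω.aestronglyMeasurable measurable_cexpI.aestronglyMeasurable
  simp only [hinv] at h1
  rw [h1, hnoise]

/-- One step of the characteristic function recursion. -/
theorem char_step (h : ℝ≥0) (hh : h ≠ 0) (hFs : GoodExh Fs) (E : Finset I) (ξ : ℕ → I → ℝ) (j : ℕ)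
    (C : ℝ) (hC : ∑ e ∈ E, |ξ j e| ≤ C) :
    ‖∫ a, cexpI (Sc ν Fs h E ξ (j + 1) a) ∂(levP ν h) -
      ((gammaC h E ξ j : ℝ) : ℂ) * ∫ a, cexpI (Sc ν Fs h E ξ j a) ∂(levP ν h)‖ ≤
        2 * (h * C) ^ 2 := by
  set S := Sc ν Fs h E ξ j with hS
  set δ := deltaC ν Fs h E ξ j with hδ
  have hSm : Measurable S := measurable_Sc ν Fs h E ξ j
  have hδm : Measurable δ := measurable_deltaC ν Fs h E ξ j
  have hstep : ∀ a : LevΩ I, cexpI (Sc ν Fs h E ξ (j + 1) a) =
      cexpI (S a + δ a) * cexpI (∑ e ∈ E, ξ j e * a.2 (e, j)) := by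
    intro a
    rw [← cexpI_add]
    congr 1
    simp only [Sc, Finset.sum_range_succ, hS, hδ, deltaC, Dterm]
    rw [add_assoc, ← Finset.sum_add_distrib]
    congr 1
    refine Finset.sum_congr rfl fun e _ => ?_
    ring
  simp_rw [hstep]
  have hU : Measurable (fun a => cexpI (S a + δ a)) := measurable_cexpI.comp (hSm.add hδm)
  rw [integral_mul_noise_step ν h E ξ j _ hU (fun a => (norm_cexpI _).le)
    (fun ω x => by
      simp only [hS, hδ]
      rw [Sc_pastBlock, deltaC_pastBlock])]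
  have hγ : ‖((gammaC (h : ℝ) E ξ j : ℝ) : ℂ)‖ ≤ 1 := norm_gammaC_le h E ξ j
  have hSi : Integrable (fun a => cexpI (S a)) (levP ν h) :=
    integrable_of_norm_bdd (measurable_cexpI.comp hSm) 1 fun a => (norm_cexpI _).le
  have hUi : Integrable (fun a => cexpI (S a + δ a)) (levP ν h) :=
    integrable_of_norm_bdd hU 1 fun a => (norm_cexpI _).le
  have hδb : ∀ a, |δ a| ≤ h * C := abs_deltaC_le ν Fs h E ξ j C hC
  have hC0 : 0 ≤ (h : ℝ) * C := (abs_nonneg _).trans (hδb (Classical.arbitrary _ , 0))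
  have hlin : Integrable (fun a => cexpI (S a) * (Complex.I * (δ a : ℂ))) (levP ν h) := by
    refine integrable_of_norm_bdd ((measurable_cexpI.comp hSm).mul
      (measurable_const.mul (Complex.measurable_ofReal.comp hδm))) (h * C) ?_
    intro a
    rw [norm_mul, norm_cexpI, one_mul, norm_mul, Complex.norm_I, one_mul, Complex.norm_real]
    exact hδb a
  have hrem : Integrable (fun a => cexpI (S a) * (cexpI (δ a) - 1 - Complex.I * (δ a : ℂ)))
      (levP ν h) := by
    refine integrable_of_norm_bdd ((measurable_cexpI.comp hSm).mul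
      (((measurable_cexpI.comp hδm).sub measurable_const).sub
        (measurable_const.mul (Complex.measurable_ofReal.comp hδm)))) (2 * (h * C) ^ 2) ?_
    intro a
    rw [norm_mul, norm_cexpI, one_mul]
    refine (norm_cexpI_sub_one_sub _).trans ?_
    have := sq_le_sq' (by linarith [(abs_le.1 (hδb a)).1]) (abs_le.1 (hδb a)).2
    linarith
  have hdec : ∀ a, cexpI (S a + δ a) = cexpI (S a) + cexpI (S a) * (Complex.I * (δ a : ℂ)) +
      cexpI (S a) * (cexpI (δ a) - 1 - Complex.I * (δ a : ℂ)) := by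
    intro a
    rw [cexpI_add]
    ring
  have hint : ∫ a, cexpI (S a + δ a) ∂(levP ν h) - ∫ a, cexpI (S a) ∂(levP ν h) =
      ∫ a, cexpI (S a) * (cexpI (δ a) - 1 - Complex.I * (δ a : ℂ)) ∂(levP ν h) := by
    simp_rw [hdec]
    have hSl : Integrable (fun a => cexpI (S a) + cexpI (S a) * (Complex.I * (δ a : ℂ)))
        (levP ν h) := hSi.add hlin
    rw [integral_add hSl hrem, integral_add hSi hlin,
      integral_cexpI_Sc_mul_deltaC ν Fs h hh hFs E ξ j]
    ring
  have hnorm : ‖∫ a, cexpI (S a) * (cexpI (δ a) - 1 - Complex.I * (δ a : ℂ)) ∂(levP ν h)‖ ≤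
      2 * (h * C) ^ 2 := by
    have := norm_integral_le_of_norm_le_const (μ := levP ν h)
      (f := fun a => cexpI (S a) * (cexpI (δ a) - 1 - Complex.I * (δ a : ℂ)))
      (C := 2 * (h * C) ^ 2) (ae_of_all _ fun a => by
        rw [norm_mul, norm_cexpI, one_mul]
        refine (norm_cexpI_sub_one_sub _).trans ?_
        have := sq_le_sq' (by linarith [(abs_le.1 (hδb a)).1]) (abs_le.1 (hδb a)).2
        linarith)
    simpa using this
  calc ‖(∫ a, cexpI (S a + δ a) ∂(levP ν h)) * ((gammaC h E ξ j : ℝ) : ℂ) -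
        ((gammaC h E ξ j : ℝ) : ℂ) * ∫ a, cexpI (S a) ∂(levP ν h)‖
      = ‖((gammaC h E ξ j : ℝ) : ℂ) * (∫ a, cexpI (S a + δ a) ∂(levP ν h) -
          ∫ a, cexpI (S a) ∂(levP ν h))‖ := by
        congr 1; ring
    _ ≤ 1 * ‖∫ a, cexpI (S a + δ a) ∂(levP ν h) - ∫ a, cexpI (S a) ∂(levP ν h)‖ := by
        rw [norm_mul]
        exact mul_le_mul_of_nonneg_right hγ (norm_nonneg _)
    _ ≤ 2 * (h * C) ^ 2 := by
        rw [one_mul, hint]
        exact hnorm

/-- Characteristic function of the approximate innovations. -/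
theorem char_approx (h : ℝ≥0) (hh : h ≠ 0) (hFs : GoodExh Fs) (E : Finset I) (ξ : ℕ → I → ℝ)
    (J : ℕ) (C : ℝ) (hC : ∀ i, ∑ e ∈ E, |ξ i e| ≤ C) :
    ‖∫ a, cexpI (Sc ν Fs h E ξ J a) ∂(levP ν h) -
      ((∏ i ∈ Finset.range J, gammaC h E ξ i : ℝ) : ℂ)‖ ≤ J * (2 * (h * C) ^ 2) := by
  induction J with
  | zero =>
    simp [Sc, cexpI_zero]
  | succ J ih =>
    have h1 := char_step ν Fs h hh hFs E ξ J C (hC J)
    have hγ : ‖((gammaC (h : ℝ) E ξ J : ℝ) : ℂ)‖ ≤ 1 := norm_gammaC_le h E ξ J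
    rw [Finset.prod_range_succ]
    push_cast
    have h2 : ∫ a, cexpI (Sc ν Fs h E ξ (J + 1) a) ∂(levP ν h) -
        (∏ i ∈ Finset.range J, ((gammaC (h : ℝ) E ξ i : ℝ) : ℂ)) * ((gammaC (h : ℝ) E ξ J : ℝ) : ℂ) =
        (∫ a, cexpI (Sc ν Fs h E ξ (J + 1) a) ∂(levP ν h) -
          ((gammaC h E ξ J : ℝ) : ℂ) * ∫ a, cexpI (Sc ν Fs h E ξ J a) ∂(levP ν h)) +
        ((gammaC h E ξ J : ℝ) : ℂ) * (∫ a, cexpI (Sc ν Fs h E ξ J a) ∂(levP ν h) -
          ((∏ i ∈ Finset.range J, gammaC h E ξ i : ℝ) : ℂ)) := by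
      push_cast
      ring
    rw [h2]
    refine (norm_add_le _ _).trans ?_
    rw [norm_mul]
    have h3 : ‖((gammaC (h : ℝ) E ξ J : ℝ) : ℂ)‖ * ‖∫ a, cexpI (Sc ν Fs h E ξ J a) ∂(levP ν h) -
          ((∏ i ∈ Finset.range J, gammaC h E ξ i : ℝ) : ℂ)‖ ≤ 1 * (J * (2 * (h * C) ^ 2)) :=
      mul_le_mul hγ ih (norm_nonneg _) zero_le_one
    rw [one_mul] at h3
    have h4 := add_le_add h1 h3
    refine h4.trans (le_of_eq ?_)
    push_cast
    ring

end

end Crest.Agent.Lib.Loc
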