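/-
The truth space: configuration and Brownian skeletons; level maps; convergence of Riemann sums.
-/
import Crest.Agent.Lib.LocChar

set_option autoImplicit false

namespace Crest.Agent.Lib.Loc

open MeasureTheory ProbabilityTheory Filter Topology
open scoped ENNReal NNReal

variable {I : Type*}

/-- The variance `2^{-r}` of the increments of level `r`. -/
noncomputable def hLev (r : ℕ) : ℝ≥0 := (1 / 2) ^ r

lemma hLev_ne (r : ℕ) : hLev r ≠ 0 := by
  unfold hLev
  exact pow_ne_zero _ (by norm_num)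

lemma hLev_coe (r : ℕ) : ((hLev r : ℝ≥0) : ℝ) = 1 / 2 ^ r := by
  unfold hLev
  push_cast
  rw [one_div, one_div, inv_pow]

lemma tm_eq_mul (r j : ℕ) : tm r j = j * (hLev r : ℝ) := by
  rw [hLev_coe, tm]
  ring

lemma tm_succ_two_mul (n k : ℕ) : tm (n + 1) (2 * k) = tm n k := by
  unfold tm
  push_cast
  rw [pow_succ]
  field_simp

/-- The level coordinates: configuration and increments at level `r`. -/
def levMap {Ω : Type*} (ω : Ω → I → Bool) (B : Ω → I → Sk) (r : ℕ) (a : Ω) : LevΩ I :=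
  (ω a, fun q => B a q.1 r (q.2 + 1) - B a q.1 r q.2)

/-- The observation process. -/
noncomputable def Yobs {Ω : Type*} (ω : Ω → I → Bool) (B : Ω → I → Sk) (a : Ω) : I → Sk :=
  fun l n k => tm n k * bv (ω a l) + B a l n k

/-- The abstract truth space. -/
structure Truth {Ω : Type*} [MeasurableSpace Ω] (ν : Measure (I → Bool)) (P : Measure Ω)
    (ω : Ω → I → Bool) (B : Ω → I → Sk) : Prop where
  mω : Measurable ω
  mB : Measurable B
  cons : ∀ a l n k, B a l (n + 1) (2 * k) = B a l n k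
  zero : ∀ a l n, B a l n 0 = 0
  law : ∀ r, P.map (levMap ω B r) = levP ν (hLev r)

section
variable {Ω : Type*} [MeasurableSpace Ω] {ν : Measure (I → Bool)} {P : Measure Ω}
  {ω : Ω → I → Bool} {B : Ω → I → Sk} (T : Truth ν P ω B) (Fs : I → ℕ → Finset I)
include T

lemma Truth.measurable_levMap (r : ℕ) : Measurable (levMap ω B r) := by
  refine Measurable.prodMk T.mω ?_
  refine measurable_pi_lambda _ fun q => ?_
  have h1 : Measurable (fun a => B a q.1 r (q.2 + 1)) :=
    (measurable_pi_apply _).comp ((measurable_pi_apply _).comp ((measurable_pi_apply _).comp T.mB))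
  have h2 : Measurable (fun a => B a q.1 r q.2) :=
    (measurable_pi_apply _).comp ((measurable_pi_apply _).comp ((measurable_pi_apply _).comp T.mB))
  exact h1.sub h2

lemma Truth.sum_incr (a : Ω) (l : I) (r j : ℕ) :
    ∑ i ∈ Finset.range j, (levMap ω B r a).2 (l, i) = B a l r j := by
  simp only [levMap]
  rw [Finset.sum_range_sub (fun i => B a l r i)]
  rw [T.zero]
  ring

lemma Truth.Ypos_levMap (a : Ω) (l : I) (r j : ℕ) :
    Ypos (hLev r : ℝ) (levMap ω B r a) l j = Yobs ω B a l r j := by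
  unfold Ypos Yobs
  rw [T.sum_incr a l r j, tm_eq_mul]
  rfl

lemma Truth.Yobs_cons (a : Ω) (l : I) (n k : ℕ) :
    Yobs ω B a l (n + 1) (2 * k) = Yobs ω B a l n k := by
  unfold Yobs
  rw [tm_succ_two_mul, T.cons]

omit T in
lemma Yobs_zero (T : Truth ν P ω B) (a : Ω) (l : I) (n : ℕ) : Yobs ω B a l n 0 = 0 := by
  unfold Yobs tm
  rw [T.zero]
  simp

lemma Truth.mC_levMap (a : Ω) (e : I) (r j : ℕ) :
    mC ν Fs (hLev r : ℝ) e j (levMap ω B r a) =
      mlim ν Fs e (tm r j) (fun l => Yobs ω B a l r j) := by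
  unfold mC
  rw [tm_eq_mul]
  simp_rw [T.Ypos_levMap a _ r j]

lemma Truth.Rsum_eq (a : Ω) (e : I) (n k r : ℕ) :
    Rsum ν Fs (Yobs ω B a) e n k r =
      ∑ j ∈ Finset.range (k * 2 ^ r), (hLev (n + r) : ℝ) *
        mC ν Fs (hLev (n + r) : ℝ) e j (levMap ω B (n + r) a) := by
  unfold Rsum
  refine Finset.sum_congr rfl fun j _ => ?_
  rw [T.mC_levMap, hLev_coe]

/-- The consecutive differences of the Riemann sums are sums of martingale differences. -/
lemma Truth.Rsum_succ_sub (a : Ω) (e : I) (n k r : ℕ) :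
    Rsum ν Fs (Yobs ω B a) e n k (r + 1) - Rsum ν Fs (Yobs ω B a) e n k r =
      (hLev (n + r + 1) : ℝ) * ∑ j ∈ Finset.range (k * 2 ^ r),
        (mC ν Fs (hLev (n + r + 1) : ℝ) e (2 * j + 1) (levMap ω B (n + r + 1) a) -
          mC ν Fs (hLev (n + r + 1) : ℝ) e (2 * j) (levMap ω B (n + r + 1) a)) := by
  have hsplit : ∀ (f : ℕ → ℝ) (J : ℕ), ∑ j ∈ Finset.range (J * 2), f j =
      ∑ j ∈ Finset.range J, (f (2 * j) + f (2 * j + 1)) := by
    intro f J
    induction J with
    | zero => simp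
    | succ J ih =>
      rw [show (J + 1) * 2 = J * 2 + 1 + 1 by ring, Finset.sum_range_succ, Finset.sum_range_succ,
        ih, Finset.sum_range_succ]
      rw [show J * 2 = 2 * J by ring]
      ring
  have h1 : Rsum ν Fs (Yobs ω B a) e n k (r + 1) =
      ∑ j ∈ Finset.range (k * 2 ^ r), ((hLev (n + r + 1) : ℝ) *
        mC ν Fs (hLev (n + r + 1) : ℝ) e (2 * j) (levMap ω B (n + r + 1) a) +
        (hLev (n + r + 1) : ℝ) *
        mC ν Fs (hLev (n + r + 1) : ℝ) e (2 * j + 1) (levMap ω B (n + r + 1) a)) := by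
    rw [T.Rsum_eq Fs a e n k (r + 1), show k * 2 ^ (r + 1) = (k * 2 ^ r) * 2 by ring, hsplit]
    rfl
  have h2 : Rsum ν Fs (Yobs ω B a) e n k r =
      ∑ j ∈ Finset.range (k * 2 ^ r), (2 * ((hLev (n + r + 1) : ℝ) *
        mC ν Fs (hLev (n + r + 1) : ℝ) e (2 * j) (levMap ω B (n + r + 1) a))) := by
    unfold Rsum
    refine Finset.sum_congr rfl fun j _ => ?_
    rw [show n + r + 1 = (n + r) + 1 from rfl, T.mC_levMap, tm_succ_two_mul, hLev_coe]
    simp_rw [T.Yobs_cons]
    rw [pow_succ]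
    field_simp
  rw [h1, h2, ← Finset.sum_sub_distrib, Finset.mul_sum]
  refine Finset.sum_congr rfl fun j _ => ?_
  ring

end

end Crest.Agent.Lib.Loc
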