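/-
Almost sure convergence of the Riemann sums; measurability of the innovation map.
-/
import Crest.Agent.Lib.LocTruth

set_option autoImplicit false

namespace Crest.Agent.Lib.Loc

open MeasureTheory ProbabilityTheory Filter Topology
open scoped ENNReal NNReal

variable {I : Type*}

lemma measurable_Rsum (ν : Measure (I → Bool)) (Fs : I → ℕ → Finset I) (e : I) (n k r : ℕ) :
    Measurable (fun y : I → Sk => Rsum ν Fs y e n k r) := by
  unfold Rsum
  refine Finset.measurable_fun_sum _ fun j _ => Measurable.const_mul ?_ _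
  refine (measurable_mlim ν Fs e _).comp ?_
  refine measurable_pi_lambda _ fun l => ?_
  exact (measurable_pi_apply _).comp ((measurable_pi_apply _).comp (measurable_pi_apply l))

lemma measurable_Rlim (ν : Measure (I → Bool)) (Fs : I → ℕ → Finset I) (e : I) (n k : ℕ) :
    Measurable (fun y : I → Sk => Rlim ν Fs y e n k) :=
  Measurable.limsup fun r => measurable_Rsum ν Fs e n k r

lemma measurable_Wmap (ν : Measure (I → Bool)) (Fs : I → ℕ → Finset I) :
    Measurable (Wmap ν Fs) := by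
  refine measurable_pi_lambda _ fun e => measurable_pi_lambda _ fun n =>
    measurable_pi_lambda _ fun k => ?_
  have h1 : Measurable (fun y : I → Sk => y e n k) :=
    (measurable_pi_apply k).comp ((measurable_pi_apply n).comp (measurable_pi_apply e))
  exact h1.sub (measurable_Rlim ν Fs e n k)

lemma measurableSet_Good [Countable I] (ν : Measure (I → Bool)) (Fs : I → ℕ → Finset I) :
    MeasurableSet (Good ν Fs) := by
  have : Good ν Fs = ⋂ e, ⋂ n, ⋂ k,
      {y | ∃ L, Tendsto (fun r => Rsum ν Fs y e n k r) atTop (𝓝 L)} := by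
    ext y
    simp [Good]
  rw [this]
  exact MeasurableSet.iInter fun e => MeasurableSet.iInter fun n => MeasurableSet.iInter fun k =>
    measurableSet_exists_tendsto fun r => measurable_Rsum ν Fs e n k r

lemma abs_Rsum_le (ν : Measure (I → Bool)) (Fs : I → ℕ → Finset I) (y : I → Sk) (e : I)
    (n k r' : ℕ) : |Rsum ν Fs y e n k r'| ≤ k * 2 ^ r' * (1 / 2 ^ (n + r')) := by
  unfold Rsum
  refine (Finset.abs_sum_le_sum_abs _ _).trans ?_
  calc ∑ j ∈ Finset.range (k * 2 ^ r'), |(1 / 2 ^ (n + r') : ℝ) *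
        mlim ν Fs e (tm (n + r') j) (fun l => y l (n + r') j)|
      ≤ ∑ _j ∈ Finset.range (k * 2 ^ r'), (1 / 2 ^ (n + r') : ℝ) := by
        refine Finset.sum_le_sum fun j _ => ?_
        rw [abs_mul, abs_of_pos (by positivity : (0 : ℝ) < 1 / 2 ^ (n + r'))]
        have := abs_mlim_le_one ν Fs e (tm (n + r') j) (fun l => y l (n + r') j)
        have hp : (0 : ℝ) < 1 / 2 ^ (n + r') := by positivity
        nlinarith
    _ = _ := by
        rw [Finset.sum_const, Finset.card_range, nsmul_eq_mul]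
        push_cast
        ring

lemma bddF_Rsum_diff {Ω : Type*} {ν : Measure (I → Bool)} (Fs : I → ℕ → Finset I)
    (Y : Ω → I → Sk) (e : I) (n k r : ℕ) :
    BddF (fun a => Rsum ν Fs (Y a) e n k (r + 1) - Rsum ν Fs (Y a) e n k r) :=
  ⟨k * 2 ^ (r + 1) * (1 / 2 ^ (n + (r + 1))) + k * 2 ^ r * (1 / 2 ^ (n + r)),
    fun a => (abs_sub _ _).trans (add_le_add (abs_Rsum_le ν Fs _ e n k _)
      (abs_Rsum_le ν Fs _ e n k _))⟩

section
variable {Ω : Type*} [MeasurableSpace Ω] {ν : Measure (I → Bool)} {P : Measure Ω}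
  {ω : Ω → I → Bool} {B : Ω → I → Sk} (T : Truth ν P ω B) {Fs : I → ℕ → Finset I}
  [IsProbabilityMeasure ν] [IsProbabilityMeasure P]
include T

lemma Truth.measurable_Yobs : Measurable (Yobs ω B) := by
  refine measurable_pi_lambda _ fun l => measurable_pi_lambda _ fun n =>
    measurable_pi_lambda _ fun k => ?_
  unfold Yobs
  refine Measurable.add (Measurable.const_mul ?_ _) ?_
  · exact (measurable_from_top (f := bv)).comp ((measurable_pi_apply l).comp T.mω)
  · exact (measurable_pi_apply _).comp ((measurable_pi_apply _).comp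
      ((measurable_pi_apply _).comp T.mB))

lemma Truth.integral_comp_levMap (r : ℕ) (f : LevΩ I → ℝ) (hf : Measurable f) :
    ∫ a, f (levMap ω B r a) ∂P = ∫ x, f x ∂(levP ν (hLev r)) := by
  rw [← T.law r, integral_map (T.measurable_levMap r).aemeasurable hf.aestronglyMeasurable]

lemma Truth.measurable_Rsum_diff (e : I) (n k r : ℕ) :
    Measurable (fun a => Rsum ν Fs (Yobs ω B a) e n k (r + 1) - Rsum ν Fs (Yobs ω B a) e n k r) :=
  ((measurable_Rsum ν Fs e n k (r + 1)).comp T.measurable_Yobs).sub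
    ((measurable_Rsum ν Fs e n k r).comp T.measurable_Yobs)

/-- The `L²` bound for the consecutive differences of the Riemann sums. -/
lemma Truth.integral_sq_Rsum_diff (hFs : GoodExh Fs) (e : I) (n k r : ℕ) :
    ∫ a, (Rsum ν Fs (Yobs ω B a) e n k (r + 1) - Rsum ν Fs (Yobs ω B a) e n k r) ^ 2 ∂P ≤
      ((hLev (n + r + 1) : ℝ)) ^ 2 := by
  set h := hLev (n + r + 1) with hh'
  have hne : h ≠ 0 := hLev_ne _
  set f : LevΩ I → ℝ := fun x => ((h : ℝ) * ∑ j ∈ Finset.range (k * 2 ^ r),
    (mC ν Fs (h : ℝ) e (2 * j + 1) x - mC ν Fs (h : ℝ) e (2 * j) x)) ^ 2 with hf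
  have hfm : Measurable f := by
    refine (Measurable.const_mul ?_ _).pow_const 2
    exact Finset.measurable_fun_sum _ fun j _ =>
      (measurable_mC ν Fs _ e _).sub (measurable_mC ν Fs _ e _)
  have h1 : ∀ a, (Rsum ν Fs (Yobs ω B a) e n k (r + 1) - Rsum ν Fs (Yobs ω B a) e n k r) ^ 2 =
      f (levMap ω B (n + r + 1) a) := by
    intro a
    rw [T.Rsum_succ_sub Fs a e n k r]
  simp_rw [h1]
  rw [T.integral_comp_levMap (n + r + 1) f hfm]
  simp only [hf, mul_pow]
  rw [integral_const_mul]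
  have h2 := mart_orth ν h hne hFs e (k * 2 ^ r)
  have h3 : (0 : ℝ) ≤ (h : ℝ) ^ 2 := sq_nonneg _
  nlinarith

lemma Truth.integral_abs_Rsum_diff (hFs : GoodExh Fs) (e : I) (n k r : ℕ) :
    ∫ a, |Rsum ν Fs (Yobs ω B a) e n k (r + 1) - Rsum ν Fs (Yobs ω B a) e n k r| ∂P ≤
      (hLev (n + r + 1) : ℝ) := by
  set h := hLev (n + r + 1) with hh'
  have hpos : (0 : ℝ) < h := by
    have := hLev_ne (n + r + 1)
    exact_mod_cast pos_iff_ne_zero.2 this
  set d : Ω → ℝ := fun a => Rsum ν Fs (Yobs ω B a) e n k (r + 1) - Rsum ν Fs (Yobs ω B a) e n k r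
    with hd
  have hdm : Measurable d := T.measurable_Rsum_diff e n k r
  have hdb : BddF d := bddF_Rsum_diff Fs (Yobs ω B) e n k r
  have hsq : Integrable (fun a => (d a) ^ 2) P := by
    simp only [sq]
    exact integrable_of_bddF (hdm.mul hdm) (hdb.mul hdb)
  have habs : Integrable (fun a => |d a|) P := by
    obtain ⟨C, hC⟩ := hdb
    exact integrable_of_bdd hdm.abs C fun a => by simpa using hC a
  have h1 : ∀ a, |d a| ≤ ((d a) ^ 2 / h + h) / 2 := by
    intro a
    have h2 : 0 ≤ (|d a| - h) ^ 2 := sq_nonneg _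
    rw [sub_sq, sq_abs] at h2
    have h3 : ((d a) ^ 2 / h + h) / 2 = ((d a) ^ 2 + h ^ 2) / (2 * h) := by
      field_simp
    rw [h3, le_div_iff₀ (by positivity)]
    nlinarith
  have h2 := T.integral_sq_Rsum_diff hFs e n k r
  calc ∫ a, |d a| ∂P ≤ ∫ a, ((d a) ^ 2 / h + h) / 2 ∂P :=
        integral_mono habs (((hsq.div_const _).add (integrable_const _)).div_const _) h1
    _ = ((∫ a, (d a) ^ 2 ∂P) / h + h) / 2 := by
        rw [integral_div, integral_add (hsq.div_const _) (integrable_const _), integral_div]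
        simp
    _ ≤ (h ^ 2 / h + h) / 2 := by
        have : (∫ a, (d a) ^ 2 ∂P) / h ≤ h ^ 2 / h := div_le_div_of_nonneg_right h2 hpos.le
        linarith
    _ = h := by field_simp; ring

/-- The Riemann sums converge almost surely. -/
theorem Truth.ae_tendsto_Rsum (hFs : GoodExh Fs) (e : I) (n k : ℕ) :
    ∀ᵐ a ∂P, ∃ L, Tendsto (fun r => Rsum ν Fs (Yobs ω B a) e n k r) atTop (𝓝 L) := by
  set d : ℕ → Ω → ℝ := fun r a =>
    |Rsum ν Fs (Yobs ω B a) e n k (r + 1) - Rsum ν Fs (Yobs ω B a) e n k r| with hd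
  have hdm : ∀ r, Measurable (d r) := fun r => (T.measurable_Rsum_diff e n k r).abs
  have hdn : ∀ r a, 0 ≤ d r a := fun r a => abs_nonneg _
  have hdint : ∀ r, ∫⁻ a, ENNReal.ofReal (d r a) ∂P ≤ ENNReal.ofReal (1 / 2 ^ r) := by
    intro r
    have hbound := T.integral_abs_Rsum_diff hFs e n k r
    have hint : Integrable (d r) P := by
      obtain ⟨C, hC⟩ := bddF_Rsum_diff (ν := ν) Fs (Yobs ω B) e n k r
      exact integrable_of_bdd (hdm r) C fun a => by simpa [hd] using hC a
    rw [← ofReal_integral_eq_lintegral_ofReal hint (ae_of_all _ (hdn r))]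
    refine ENNReal.ofReal_le_ofReal (hbound.trans ?_)
    rw [hLev_coe]
    apply one_div_le_one_div_of_le (by positivity)
    exact pow_le_pow_right₀ (by norm_num) (by omega)
  have hgeo : Summable (fun r : ℕ => (1 : ℝ) / 2 ^ r) := by
    have := summable_geometric_two
    simpa [one_div, inv_pow] using this
  have hfin : ∑' r : ℕ, ENNReal.ofReal (1 / 2 ^ r) ≠ ⊤ := by
    rw [← ENNReal.ofReal_tsum_of_nonneg (fun r => by positivity) hgeo]
    exact ENNReal.ofReal_ne_top
  have hlint : ∫⁻ a, ∑' r, ENNReal.ofReal (d r a) ∂P ≠ ⊤ := by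
    have hm : ∀ r, AEMeasurable (fun a => ENNReal.ofReal (d r a)) P := fun r =>
      (ENNReal.measurable_ofReal.comp (hdm r)).aemeasurable
    rw [lintegral_tsum hm]
    exact ne_top_of_le_ne_top hfin (ENNReal.tsum_le_tsum hdint)
  have hmeas : Measurable (fun a => ∑' r, ENNReal.ofReal (d r a)) :=
    Measurable.tsum fun r => ENNReal.measurable_ofReal.comp (hdm r)
  filter_upwards [ae_lt_top hmeas hlint] with a ha
  have hs : Summable (fun r => d r a) := by
    have := ENNReal.summable_toReal ha.ne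
    refine this.congr fun r => ?_
    rw [ENNReal.toReal_ofReal (hdn r a)]
  have hc : CauchySeq (fun r => Rsum ν Fs (Yobs ω B a) e n k r) := by
    refine cauchySeq_of_summable_dist (hs.congr fun r => ?_)
    simp only [hd, Real.dist_eq]
    rw [abs_sub_comm]
  exact cauchySeq_tendsto_of_complete hc

/-- Almost surely the observation process lies in `Good`. -/
theorem Truth.ae_mem_Good [Countable I] (hFs : GoodExh Fs) :
    ∀ᵐ a ∂P, Yobs ω B a ∈ Good ν Fs := by
  have : ∀ᵐ a ∂P, ∀ e n k, ∃ L, Tendsto (fun r => Rsum ν Fs (Yobs ω B a) e n k r) atTop (𝓝 L) :=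
    ae_all_iff.2 fun e => ae_all_iff.2 fun n => ae_all_iff.2 fun k => T.ae_tendsto_Rsum hFs e n k
  exact this

end

end Crest.Agent.Lib.Loc
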