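/-
The law of the innovation process.
-/
import Crest.Agent.Lib.LocConv

set_option autoImplicit false

namespace Crest.Agent.Lib.Loc

open MeasureTheory ProbabilityTheory Filter Topology
open scoped ENNReal NNReal

/-- Cramér–Wold on a product of lines. -/
lemma ext_of_charLin {J : Type*} (μ₁ μ₂ : Measure (J → ℝ)) [IsProbabilityMeasure μ₁]
    [IsProbabilityMeasure μ₂]
    (h : ∀ (B : Finset J) (c : J → ℝ),
      ∫ x, cexpI (∑ q ∈ B, c q * x q) ∂μ₁ = ∫ x, cexpI (∑ q ∈ B, c q * x q) ∂μ₂) : μ₁ = μ₂ := by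
  classical
  have hres : ∀ s : Finset J, μ₁.map s.restrict = μ₂.map s.restrict := by
    intro s
    have hm : Measurable (s.restrict (π := fun _ : J => ℝ)) := Finset.measurable_restrict s
    refine Measure.ext_of_charFunDual ?_
    funext L
    rw [charFunDual_apply, charFunDual_apply]
    have hc : Continuous (fun v : (s → ℝ) => Complex.exp ((L v : ℝ) * Complex.I)) := by
      fun_prop
    rw [integral_map hm.aemeasurable hc.measurable.aestronglyMeasurable,
      integral_map hm.aemeasurable hc.measurable.aestronglyMeasurable]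
    set c : J → ℝ := fun q => if hq : q ∈ s then L (fun j => if (⟨q, hq⟩ : s) = j then 1 else 0)
      else 0 with hc'
    have hL : ∀ x : J → ℝ, Complex.exp ((L (s.restrict x) : ℝ) * Complex.I) =
        cexpI (∑ q ∈ s, c q * x q) := by
      intro x
      unfold cexpI
      rw [mul_comm]
      congr 2
      have h1 := LinearMap.pi_apply_eq_sum_univ (L : (s → ℝ) →ₗ[ℝ] ℝ) (s.restrict x)
      have h2 : (L (s.restrict x) : ℝ) = ∑ q ∈ s, c q * x q := by
        calc (L (s.restrict x) : ℝ) = _ := h1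
          _ = ∑ q : s, c q * x q := by
              refine Finset.sum_congr rfl fun q _ => ?_
              simp only [Finset.restrict, smul_eq_mul, hc', q.2, dif_pos]
              rw [mul_comm]
              rfl
          _ = ∑ q ∈ s, c q * x q := Finset.sum_coe_sort s (fun q => c q * x q)
      rw [h2]
    simp_rw [hL]
    exact h s c
  have hP : IsProjectiveLimit μ₂ (fun s : Finset J => μ₂.map s.restrict) := fun s => rfl
  have hP' : IsProjectiveLimit μ₁ (fun s : Finset J => μ₂.map s.restrict) := fun s => hres s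
  have hfin : ∀ s : Finset J, IsFiniteMeasure (μ₂.map s.restrict) := fun s => inferInstance
  exact hP'.unique hP

variable {I : Type*}

/-- Uncurrying of a family of skeletons. -/
def uncurrySk (y : I → Sk) : I × ℕ × ℕ → ℝ := fun τ => y τ.1 τ.2.1 τ.2.2

/-- Currying of a family of skeletons. -/
def currySk (z : I × ℕ × ℕ → ℝ) : I → Sk := fun e n k => z (e, n, k)

lemma measurable_uncurrySk : Measurable (uncurrySk (I := I)) := by
  refine measurable_pi_lambda _ fun τ => ?_
  exact (measurable_pi_apply τ.2.2).comp ((measurable_pi_apply τ.2.1).comp (measurable_pi_apply τ.1))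

lemma measurable_currySk : Measurable (currySk (I := I)) := by
  refine measurable_pi_lambda _ fun e => measurable_pi_lambda _ fun n =>
    measurable_pi_lambda _ fun k => measurable_pi_apply _

lemma curry_uncurrySk (y : I → Sk) : currySk (uncurrySk y) = y := rfl

/-- Cramér–Wold for families of skeletons. -/
lemma ext_of_charLin_Sk (μ₁ μ₂ : Measure (I → Sk)) [IsProbabilityMeasure μ₁]
    [IsProbabilityMeasure μ₂]
    (h : ∀ (C : Finset (I × ℕ × ℕ)) (c : I × ℕ × ℕ → ℝ),
      ∫ y, cexpI (∑ τ ∈ C, c τ * y τ.1 τ.2.1 τ.2.2) ∂μ₁ =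
        ∫ y, cexpI (∑ τ ∈ C, c τ * y τ.1 τ.2.1 τ.2.2) ∂μ₂) : μ₁ = μ₂ := by
  have hm := measurable_uncurrySk (I := I)
  have : IsProbabilityMeasure (μ₁.map uncurrySk) := Measure.isProbabilityMeasure_map hm.aemeasurable
  have : IsProbabilityMeasure (μ₂.map uncurrySk) := Measure.isProbabilityMeasure_map hm.aemeasurable
  have h1 : μ₁.map uncurrySk = μ₂.map uncurrySk := by
    refine ext_of_charLin _ _ fun B c => ?_
    have hf : Measurable (fun x : I × ℕ × ℕ → ℝ => cexpI (∑ q ∈ B, c q * x q)) :=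
      measurable_cexpI.comp (Finset.measurable_fun_sum _ fun q _ =>
        (measurable_pi_apply q).const_mul _)
    rw [integral_map hm.aemeasurable hf.aestronglyMeasurable,
      integral_map hm.aemeasurable hf.aestronglyMeasurable]
    exact h B c
  have h2 : ∀ μ : Measure (I → Sk), (μ.map uncurrySk).map currySk = μ := by
    intro μ
    rw [Measure.map_map measurable_currySk hm]
    exact Measure.map_id
  rw [← h2 μ₁, ← h2 μ₂, h1]

/-- Iterated consistency of a skeleton. -/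
lemma sk_lift (y : Sk) (hy : ∀ n k, y (n + 1) (2 * k) = y n k) (n k d : ℕ) :
    y n k = y (n + d) (k * 2 ^ d) := by
  induction d with
  | zero => simp
  | succ d ih =>
    rw [ih, ← add_assoc, ← hy (n + d) (k * 2 ^ d)]
    congr 1
    ring

/-- The combined coefficient at step `i` and site `e`. -/
noncomputable def xiC (C : Finset (I × ℕ × ℕ)) (c : I × ℕ × ℕ → ℝ) (K : I × ℕ × ℕ → ℕ)
    (i : ℕ) (e : I) : ℝ :=
  open Classical in ∑ τ ∈ C, if τ.1 = e ∧ i < K τ then c τ else 0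

open Classical in
lemma swap_sum (C : Finset (I × ℕ × ℕ)) (c : I × ℕ × ℕ → ℝ) (K : I × ℕ × ℕ → ℕ) (J : ℕ)
    (hJ : ∀ τ ∈ C, K τ ≤ J) (D : I → ℕ → ℝ) :
    ∑ τ ∈ C, c τ * ∑ i ∈ Finset.range (K τ), D τ.1 i =
      ∑ i ∈ Finset.range J, ∑ e ∈ C.image Prod.fst, xiC C c K i e * D e i := by
  have h1 : ∀ i, ∑ e ∈ C.image Prod.fst, xiC C c K i e * D e i =
      ∑ τ ∈ C, if i < K τ then c τ * D τ.1 i else 0 := by
    intro i
    unfold xiC
    simp_rw [Finset.sum_mul]
    rw [Finset.sum_comm]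
    refine Finset.sum_congr rfl fun τ hτ => ?_
    by_cases hi : i < K τ
    · rw [if_pos hi, Finset.sum_eq_single τ.1]
      · simp [hi]
      · intro e _ hne
        simp [hne.symm]
      · intro hnot
        exact absurd (Finset.mem_image_of_mem _ hτ) hnot
    · rw [if_neg hi]
      refine Finset.sum_eq_zero fun e _ => ?_
      simp [hi]
  simp_rw [h1]
  rw [Finset.sum_comm]
  refine Finset.sum_congr rfl fun τ hτ => ?_
  rw [Finset.mul_sum]
  have hsub : Finset.range (K τ) ⊆ Finset.range J := by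
    intro i hi
    exact Finset.mem_range.2 (lt_of_lt_of_le (Finset.mem_range.1 hi) (hJ τ hτ))
  rw [← Finset.sum_subset hsub (f := fun i => if i < K τ then c τ * D τ.1 i else 0)]
  · refine Finset.sum_congr rfl fun i hi => ?_
    simp [Finset.mem_range.1 hi]
  · intro i _ hi
    have : ¬ i < K τ := fun h => hi (Finset.mem_range.2 h)
    simp [this]

lemma sum_abs_xiC_le (C : Finset (I × ℕ × ℕ)) (c : I × ℕ × ℕ → ℝ) (K : I × ℕ × ℕ → ℕ) (i : ℕ)
    (E : Finset I) : ∑ e ∈ E, |xiC C c K i e| ≤ ∑ τ ∈ C, |c τ| := by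
  classical
  unfold xiC
  calc ∑ e ∈ E, |∑ τ ∈ C, if τ.1 = e ∧ i < K τ then c τ else 0|
      ≤ ∑ e ∈ E, ∑ τ ∈ C, |if τ.1 = e ∧ i < K τ then c τ else 0| :=
        Finset.sum_le_sum fun e _ => Finset.abs_sum_le_sum_abs _ _
    _ = ∑ τ ∈ C, ∑ e ∈ E, |if τ.1 = e ∧ i < K τ then c τ else 0| := Finset.sum_comm
    _ ≤ ∑ τ ∈ C, |c τ| := by
        refine Finset.sum_le_sum fun τ _ => ?_
        by_cases hτ : τ.1 ∈ E
        · rw [Finset.sum_eq_single τ.1]
          · by_cases hi : i < K τ <;> simp [hi]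
          · intro e _ hne
            simp [hne.symm]
          · intro h; exact absurd hτ h
        · rw [Finset.sum_eq_zero]
          · exact abs_nonneg _
          · intro e he
            have : τ.1 ≠ e := fun h => hτ (h ▸ he)
            simp [this]

lemma continuous_cexpI : Continuous cexpI := by
  unfold cexpI
  fun_prop

/-- Characteristic function of the increments at one level. -/
lemma noise_prod (ν : Measure (I → Bool)) [IsProbabilityMeasure ν] (h : ℝ≥0) (E : Finset I)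
    (ξ : ℕ → I → ℝ) (J : ℕ) :
    ∫ a : LevΩ I, cexpI (∑ i ∈ Finset.range J, ∑ e ∈ E, ξ i e * a.2 (e, i)) ∂(levP ν h) =
      ((∏ i ∈ Finset.range J, gammaC h E ξ i : ℝ) : ℂ) := by
  have h1 := integral_fun_snd (μ := ν) (ν := noiseLaw (I × ℕ) h)
    (fun x : I × ℕ → ℝ => cexpI (∑ i ∈ Finset.range J, ∑ e ∈ E, ξ i e * x (e, i)))
  simp only [probReal_univ, one_smul] at h1
  change ∫ a : LevΩ I, cexpI (∑ i ∈ Finset.range J, ∑ e ∈ E, ξ i e * a.2 (e, i))
    ∂(ν.prod (noiseLaw (I × ℕ) h)) = _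
  rw [h1]
  have h2 := noise_char h (E ×ˢ Finset.range J) (fun q => ξ q.2 q.1)
  have h3 : ∀ x : I × ℕ → ℝ, ∑ q ∈ E ×ˢ Finset.range J, ξ q.2 q.1 * x q =
      ∑ i ∈ Finset.range J, ∑ e ∈ E, ξ i e * x (e, i) := by
    intro x
    rw [Finset.sum_product, Finset.sum_comm]
  simp_rw [h3] at h2
  rw [h2]
  congr 1
  rw [Finset.sum_product, Finset.sum_comm, Finset.mul_sum, Real.exp_sum]
  rfl

section
variable {Ω : Type*} [MeasurableSpace Ω] {ν : Measure (I → Bool)} {P : Measure Ω}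
  {ω : Ω → I → Bool} {B : Ω → I → Sk} (T : Truth ν P ω B) {Fs : I → ℕ → Finset I}
  [IsProbabilityMeasure ν] [IsProbabilityMeasure P]
include T

omit [IsProbabilityMeasure ν] [IsProbabilityMeasure P] in
lemma Truth.Yobs_lift (a : Ω) (l : I) (n k d : ℕ) :
    Yobs ω B a l n k = Yobs ω B a l (n + d) (k * 2 ^ d) :=
  sk_lift _ (T.Yobs_cons a l) n k d

omit [IsProbabilityMeasure ν] [IsProbabilityMeasure P] in
lemma Truth.B_lift (a : Ω) (l : I) (n k d : ℕ) :
    B a l n k = B a l (n + d) (k * 2 ^ d) :=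
  sk_lift _ (T.cons a l) n k d

omit [IsProbabilityMeasure ν] [IsProbabilityMeasure P] in
/-- The approximate innovation as a sum of increments. -/
lemma Truth.Yobs_sub_Rsum (a : Ω) (e : I) (n k d : ℕ) :
    Yobs ω B a e n k - Rsum ν Fs (Yobs ω B a) e n k d =
      ∑ i ∈ Finset.range (k * 2 ^ d),
        Dterm ν Fs (hLev (n + d) : ℝ) e i (levMap ω B (n + d) a) := by
  rw [T.Yobs_lift a e n k d, T.Rsum_eq Fs a e n k d, ← T.Ypos_levMap a e (n + d) (k * 2 ^ d)]
  unfold Ypos Dterm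
  rw [Finset.sum_add_distrib]
  simp only [mul_sub, Finset.sum_sub_distrib, Finset.sum_const, Finset.card_range, nsmul_eq_mul]
  ring

omit [IsProbabilityMeasure ν] [IsProbabilityMeasure P] in
lemma Truth.B_eq_sum (a : Ω) (e : I) (n k d : ℕ) :
    B a e n k = ∑ i ∈ Finset.range (k * 2 ^ d), (levMap ω B (n + d) a).2 (e, i) := by
  rw [T.B_lift a e n k d, T.sum_incr a e (n + d) (k * 2 ^ d)]

/-- The characteristic function of the innovation process is that of the skeletons. -/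
theorem Truth.char_W [Countable I] (hFs : GoodExh Fs) (C : Finset (I × ℕ × ℕ))
    (c : I × ℕ × ℕ → ℝ) :
    ∫ a, cexpI (∑ τ ∈ C, c τ * Wmap ν Fs (Yobs ω B a) τ.1 τ.2.1 τ.2.2) ∂P =
      ∫ a, cexpI (∑ τ ∈ C, c τ * B a τ.1 τ.2.1 τ.2.2) ∂P := by
  classical
  set K : ℕ → I × ℕ × ℕ → ℕ := fun r τ => τ.2.2 * 2 ^ (r - τ.2.1) with hK
  set J : ℕ → ℕ := fun r => ∑ τ ∈ C, K r τ with hJ
  set E : Finset I := C.image Prod.fst with hE
  set C' : ℝ := ∑ τ ∈ C, |c τ| with hC'
  set r₀ : ℕ := C.sup (fun τ => τ.2.1) with hr₀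
  have hr : ∀ r, r₀ ≤ r → ∀ τ ∈ C, τ.2.1 + (r - τ.2.1) = r := by
    intro r hr τ hτ
    have : τ.2.1 ≤ r₀ := Finset.le_sup (f := fun τ : I × ℕ × ℕ => τ.2.1) hτ
    omega
  have hJK : ∀ r, ∀ τ ∈ C, K r τ ≤ J r := fun r τ hτ =>
    Finset.single_le_sum (f := K r) (fun _ _ => Nat.zero_le _) hτ
  set X : ℂ := ∫ a, cexpI (∑ τ ∈ C, c τ * B a τ.1 τ.2.1 τ.2.2) ∂P with hX
  set linhat : ℕ → Ω → ℝ := fun r a => ∑ τ ∈ C, c τ *
    (Yobs ω B a τ.1 τ.2.1 τ.2.2 - Rsum ν Fs (Yobs ω B a) τ.1 τ.2.1 τ.2.2 (r - τ.2.1)) with hlinhat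
  -- exact formula for the approximate innovation
  have hlin1 : ∀ r, r₀ ≤ r → ∀ a, linhat r a =
      Sc ν Fs (hLev r : ℝ) E (xiC C c (K r)) (J r) (levMap ω B r a) := by
    intro r hr' a
    have h1 : ∀ τ ∈ C, c τ * (Yobs ω B a τ.1 τ.2.1 τ.2.2 -
        Rsum ν Fs (Yobs ω B a) τ.1 τ.2.1 τ.2.2 (r - τ.2.1)) =
        c τ * ∑ i ∈ Finset.range (K r τ), Dterm ν Fs (hLev r : ℝ) τ.1 i (levMap ω B r a) := by
      intro τ hτ
      rw [T.Yobs_sub_Rsum a τ.1 τ.2.1 τ.2.2 (r - τ.2.1), hr r hr' τ hτ]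
    simp only [hlinhat]
    rw [Finset.sum_congr rfl h1, swap_sum C c (K r) (J r) (hJK r)
      (fun e i => Dterm ν Fs (hLev r : ℝ) e i (levMap ω B r a))]
    rfl
  have hlin2 : ∀ r, r₀ ≤ r → ∀ a, ∑ τ ∈ C, c τ * B a τ.1 τ.2.1 τ.2.2 =
      ∑ i ∈ Finset.range (J r), ∑ e ∈ E, xiC C c (K r) i e * (levMap ω B r a).2 (e, i) := by
    intro r hr' a
    have h1 : ∀ τ ∈ C, c τ * B a τ.1 τ.2.1 τ.2.2 =
        c τ * ∑ i ∈ Finset.range (K r τ), (levMap ω B r a).2 (τ.1, i) := by
      intro τ hτ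
      rw [T.B_eq_sum a τ.1 τ.2.1 τ.2.2 (r - τ.2.1), hr r hr' τ hτ]
    rw [Finset.sum_congr rfl h1, swap_sum C c (K r) (J r) (hJK r)
      (fun e i => (levMap ω B r a).2 (e, i))]
  -- the value of `X`
  have hXval : ∀ r, r₀ ≤ r →
      X = ((∏ i ∈ Finset.range (J r), gammaC (hLev r) E (xiC C c (K r)) i : ℝ) : ℂ) := by
    intro r hr'
    rw [hX]
    simp_rw [hlin2 r hr']
    have hf : Measurable (fun x : LevΩ I => cexpI (∑ i ∈ Finset.range (J r), ∑ e ∈ E,
        xiC C c (K r) i e * x.2 (e, i))) := by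
      refine measurable_cexpI.comp ?_
      refine Finset.measurable_fun_sum _ fun i _ => Finset.measurable_fun_sum _ fun e _ => ?_
      exact ((measurable_pi_apply _).comp measurable_snd).const_mul _
    rw [← noise_prod ν (hLev r) E (xiC C c (K r)) (J r), ← T.law r,
      integral_map (T.measurable_levMap r).aemeasurable hf.aestronglyMeasurable]
  -- the approximation
  have hlinm : ∀ r, Measurable (linhat r) := by
    intro r
    refine Finset.measurable_fun_sum _ fun τ _ => Measurable.const_mul ?_ _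
    refine Measurable.sub ?_ ((measurable_Rsum ν Fs _ _ _ _).comp T.measurable_Yobs)
    exact (measurable_pi_apply _).comp ((measurable_pi_apply _).comp
      ((measurable_pi_apply _).comp T.measurable_Yobs))
  have happrox : ∀ r, r₀ ≤ r → ‖∫ a, cexpI (linhat r a) ∂P - X‖ ≤
      J r * (2 * ((hLev r : ℝ) * C') ^ 2) := by
    intro r hr'
    simp_rw [hlin1 r hr']
    have hf : Measurable (fun x : LevΩ I => cexpI (Sc ν Fs (hLev r : ℝ) E (xiC C c (K r)) (J r) x)) :=
      measurable_cexpI.comp (measurable_Sc ν Fs _ E _ _)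
    have h1 : ∫ a, cexpI (Sc ν Fs (hLev r : ℝ) E (xiC C c (K r)) (J r) (levMap ω B r a)) ∂P =
        ∫ x, cexpI (Sc ν Fs (hLev r : ℝ) E (xiC C c (K r)) (J r) x) ∂(levP ν (hLev r)) := by
      rw [← T.law r, integral_map (T.measurable_levMap r).aemeasurable hf.aestronglyMeasurable]
    rw [h1, hXval r hr']
    exact char_approx ν Fs (hLev r) (hLev_ne r) hFs E _ (J r) C'
      (fun i => sum_abs_xiC_le C c (K r) i E)
  -- the error tends to zero
  set K₀ : ℝ := ∑ τ ∈ C, (τ.2.2 : ℝ) with hK₀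
  have hC'0 : 0 ≤ C' := Finset.sum_nonneg fun τ _ => abs_nonneg _
  have hK₀0 : 0 ≤ K₀ := Finset.sum_nonneg fun τ _ => Nat.cast_nonneg _
  have herr : ∀ r, (J r : ℝ) * (2 * ((hLev r : ℝ) * C') ^ 2) ≤ 2 * K₀ * C' ^ 2 * (1 / 2) ^ r := by
    intro r
    have hJr : (J r : ℝ) ≤ K₀ * 2 ^ r := by
      simp only [hJ, hK₀, Finset.sum_mul]
      push_cast
      refine Finset.sum_le_sum fun τ _ => ?_
      simp only [hK]
      push_cast
      refine mul_le_mul_of_nonneg_left ?_ (Nat.cast_nonneg (α := ℝ) _)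
      exact pow_le_pow_right₀ (by norm_num : (1 : ℝ) ≤ 2) (Nat.sub_le _ _)
    rw [hLev_coe]
    have hpos : (0 : ℝ) ≤ 2 * ((1 / 2 ^ r) * C') ^ 2 := by positivity
    calc (J r : ℝ) * (2 * ((1 / 2 ^ r) * C') ^ 2) ≤ (K₀ * 2 ^ r) * (2 * ((1 / 2 ^ r) * C') ^ 2) :=
          mul_le_mul_of_nonneg_right hJr hpos
      _ = 2 * K₀ * C' ^ 2 * (1 / 2) ^ r := by
          rw [one_div_pow]
          field_simp
  have htend0 : Tendsto (fun r : ℕ => 2 * K₀ * C' ^ 2 * ((1 : ℝ) / 2) ^ r) atTop (𝓝 0) := by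
    have := (tendsto_pow_atTop_nhds_zero_of_lt_one (r := (1 : ℝ) / 2) (by norm_num)
      (by norm_num)).const_mul (2 * K₀ * C' ^ 2)
    simpa using this
  have htoX : Tendsto (fun r => ∫ a, cexpI (linhat r a) ∂P) atTop (𝓝 X) := by
    rw [tendsto_iff_norm_sub_tendsto_zero]
    refine squeeze_zero' (Eventually.of_forall fun r => norm_nonneg _) ?_ htend0
    filter_upwards [eventually_ge_atTop r₀] with r hr'
    exact (happrox r hr').trans (herr r)
  -- dominated convergence
  have htoW : Tendsto (fun r => ∫ a, cexpI (linhat r a) ∂P) atTop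
      (𝓝 (∫ a, cexpI (∑ τ ∈ C, c τ * Wmap ν Fs (Yobs ω B a) τ.1 τ.2.1 τ.2.2) ∂P)) := by
    refine tendsto_integral_of_dominated_convergence (fun _ => (1 : ℝ))
      (fun r => (measurable_cexpI.comp (hlinm r)).aestronglyMeasurable) (integrable_const _)
      (fun r => ae_of_all _ fun a => (norm_cexpI _).le) ?_
    filter_upwards [T.ae_mem_Good hFs] with a ha
    refine continuous_cexpI.continuousAt.tendsto.comp ?_
    refine tendsto_finsetSum _ fun τ _ => Tendsto.const_mul _ ?_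
    refine Tendsto.sub tendsto_const_nhds ?_
    obtain ⟨L, hL⟩ := ha τ.1 τ.2.1 τ.2.2
    have h1 : Rlim ν Fs (Yobs ω B a) τ.1 τ.2.1 τ.2.2 = L := hL.limsup_eq
    rw [h1]
    exact hL.comp (tendsto_sub_atTop_nat _)
  exact tendsto_nhds_unique htoW htoX

/-- The law of the innovation process. -/
theorem Truth.law_W [Countable I] (hFs : GoodExh Fs) :
    P.map (fun a => Wmap ν Fs (Yobs ω B a)) = P.map B := by
  have hWm : Measurable (fun a => Wmap ν Fs (Yobs ω B a)) :=
    (measurable_Wmap ν Fs).comp T.measurable_Yobs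
  have : IsProbabilityMeasure (P.map (fun a => Wmap ν Fs (Yobs ω B a))) :=
    Measure.isProbabilityMeasure_map hWm.aemeasurable
  have : IsProbabilityMeasure (P.map B) :=
    Measure.isProbabilityMeasure_map T.mB.aemeasurable
  refine ext_of_charLin_Sk _ _ fun C c => ?_
  have hf : Measurable (fun y : I → Sk => cexpI (∑ τ ∈ C, c τ * y τ.1 τ.2.1 τ.2.2)) := by
    refine measurable_cexpI.comp (Finset.measurable_fun_sum _ fun τ _ => Measurable.const_mul ?_ _)
    exact (measurable_pi_apply _).comp ((measurable_pi_apply _).comp (measurable_pi_apply _))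
  rw [integral_map hWm.aemeasurable hf.aestronglyMeasurable,
    integral_map T.mB.aemeasurable hf.aestronglyMeasurable]
  exact T.char_W hFs C c

end

end Crest.Agent.Lib.Loc
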