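/-
Recovery of the configuration from the observation process (strong law of large numbers).
-/
import Crest.Agent.Lib.LocInnov

set_option autoImplicit false

namespace Crest.Agent.Lib.Loc

open MeasureTheory ProbabilityTheory Filter Topology
open scoped ENNReal NNReal

variable {I : Type*}

lemma noise_slln (h : ℝ≥0) (e : I) :
    ∀ᵐ x ∂(noiseLaw (I × ℕ) h),
      Tendsto (fun n : ℕ => (∑ i ∈ Finset.range n, x (e, i)) / (n : ℝ)) atTop (𝓝 0) := by
  set X : ℕ → (I × ℕ → ℝ) → ℝ := fun i x => x (e, i) with hX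
  have hm : ∀ i, Measurable (X i) := fun i => measurable_pi_apply _
  have hlaw : ∀ i, (noiseLaw (I × ℕ) h).map (X i) = gaussianReal 0 h := fun i =>
    Measure.infinitePi_map_eval _ (e, i)
  have hint : Integrable (X 0) (noiseLaw (I × ℕ) h) := by
    have h1 : Integrable id (gaussianReal 0 h) :=
      (memLp_id_gaussianReal (μ := 0) (v := h) 1).integrable le_rfl
    rw [← hlaw 0] at h1
    exact (integrable_map_measure (by fun_prop) (hm 0).aemeasurable).1 h1
  have hiid : iIndepFun (fun (q : I × ℕ) (x : I × ℕ → ℝ) => x q) (noiseLaw (I × ℕ) h) :=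
    iIndepFun_infinitePi (P := fun _ : I × ℕ => gaussianReal 0 h) (X := fun _ y => y)
      (fun _ => measurable_id)
  have hindep : Pairwise (Function.onFun (fun f g => IndepFun f g (noiseLaw (I × ℕ) h)) X) := by
    intro i j hij
    exact hiid.indepFun (fun hh => hij (Prod.ext_iff.1 hh).2)
  have hident : ∀ i, IdentDistrib (X i) (X 0) (noiseLaw (I × ℕ) h) (noiseLaw (I × ℕ) h) := by
    intro i
    refine ⟨(hm i).aemeasurable, (hm 0).aemeasurable, ?_⟩
    rw [hlaw i, hlaw 0]
  have hmean : ∫ x, X 0 x ∂(noiseLaw (I × ℕ) h) = 0 := by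
    have h1 : ∫ y, y ∂((noiseLaw (I × ℕ) h).map (X 0)) = ∫ x, X 0 x ∂(noiseLaw (I × ℕ) h) :=
      integral_map (hm 0).aemeasurable aestronglyMeasurable_id
    rw [← h1, hlaw 0, integral_id_gaussianReal]
  have := strong_law_ae_real X hint hindep hident
  rw [hmean] at this
  exact this

section
variable {Ω : Type*} [MeasurableSpace Ω] {ν : Measure (I → Bool)} {P : Measure Ω}
  {ω : Ω → I → Bool} {B : Ω → I → Sk} (T : Truth ν P ω B)
  [IsProbabilityMeasure ν] [IsProbabilityMeasure P]
include T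

theorem Truth.ae_B_div (e : I) :
    ∀ᵐ a ∂P, Tendsto (fun n : ℕ => B a e 0 n / n) atTop (𝓝 0) := by
  have h1 : ∀ᵐ x ∂(levP ν (hLev 0)),
      Tendsto (fun n : ℕ => (∑ i ∈ Finset.range n, x.2 (e, i)) / (n : ℝ)) atTop (𝓝 0) :=
    (Measure.quasiMeasurePreserving_snd (μ := ν) (ν := noiseLaw (I × ℕ) (hLev 0))).ae
      (noise_slln (hLev 0) e)
  rw [← T.law 0] at h1
  have h2 := ae_of_ae_map (T.measurable_levMap 0).aemeasurable h1
  filter_upwards [h2] with a ha
  refine ha.congr fun n => ?_
  rw [T.sum_incr a e 0 n]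

theorem Truth.ae_hatω [Countable I] : ∀ᵐ a ∂P, hatω (Yobs ω B a) = ω a := by
  have h1 : ∀ᵐ a ∂P, ∀ e, Tendsto (fun n : ℕ => B a e 0 n / n) atTop (𝓝 0) :=
    ae_all_iff.2 fun e => T.ae_B_div e
  filter_upwards [h1] with a ha
  funext e
  have h2 : Tendsto (fun k : ℕ => Yobs ω B a e 0 k / k) atTop (𝓝 (bv (ω a e))) := by
    have h3 : Tendsto (fun n : ℕ => bv (ω a e) + B a e 0 n / n) atTop (𝓝 (bv (ω a e) + 0)) :=
      tendsto_const_nhds.add (ha e)
    rw [add_zero] at h3
    refine h3.congr' ?_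
    filter_upwards [eventually_gt_atTop 0] with n hn
    have hn' : (n : ℝ) ≠ 0 := by positivity
    unfold Yobs tm
    field_simp
  have h4 : limsup (fun k : ℕ => Yobs ω B a e 0 k / k) atTop = bv (ω a e) := h2.limsup_eq
  unfold hatω
  rw [h4]
  cases hω : ω a e
  · simp [bv]
  · simp [bv]
    norm_num

end

lemma measurable_hatω [Countable I] : Measurable (hatω (I := I)) := by
  refine measurable_pi_lambda _ fun e => ?_
  unfold hatω
  have h1 : Measurable (fun y : I → Sk => limsup (fun k : ℕ => y e 0 k / k) atTop) := by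
    refine Measurable.limsup fun k => Measurable.div_const ?_ _
    exact (measurable_pi_apply k).comp ((measurable_pi_apply 0).comp (measurable_pi_apply e))
  have h2 : MeasurableSet {y : I → Sk | (1 / 2 : ℝ) < limsup (fun k : ℕ => y e 0 k / k) atTop} :=
    measurableSet_lt measurable_const h1
  refine measurable_to_bool ?_
  convert h2 using 1
  ext y
  simp

end Crest.Agent.Lib.Loc
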