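/-
Deterministic uniqueness: the innovation map is injective on `Good`.
-/
import Crest.Agent.Lib.LocRecover

set_option autoImplicit false

namespace Crest.Agent.Lib.Loc

open MeasureTheory ProbabilityTheory Filter Topology
open scoped ENNReal NNReal

variable {I : Type*}

lemma limsup_le_add_of_le (a b : ℕ → ℝ) (c : ℝ) (h : ∀ N, a N ≤ b N + c)
    (ha : ∀ N, 0 ≤ a N ∧ a N ≤ 1) (hb : ∀ N, 0 ≤ b N ∧ b N ≤ 1) :
    limsup a atTop ≤ limsup b atTop + c := by
  have hbb : IsBoundedUnder (· ≤ ·) atTop b := isBoundedUnder_of ⟨1, fun N => (hb N).2⟩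
  have hac : IsCoboundedUnder (· ≤ ·) atTop a :=
    (isBoundedUnder_of (f := atTop) (u := a) ⟨0, fun N => (ha N).1⟩ :
      IsBoundedUnder (· ≥ ·) atTop a).isCoboundedUnder_le
  refine le_of_forall_pos_le_add fun ε hε => ?_
  refine limsup_le_of_le hac ?_
  have h1 : ∀ᶠ N in atTop, b N < limsup b atTop + ε :=
    eventually_lt_of_limsup_lt (by linarith) hbb
  filter_upwards [h1] with N hN
  linarith [h N]

/-- The posterior mean along the exhaustion is Lipschitz. -/
lemma mlim_lipschitz {ν : Measure (I → Bool)} {L : ℝ} (hL : LipLaw ν L) {Fs : I → ℕ → Finset I}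
    (hFs : GoodExh Fs) (e : I) (t : ℝ) (v v' : I → ℝ) (δ : ℝ) (hδ : ∀ l, |v l - v' l| ≤ δ) :
    |mlim ν Fs e t v - mlim ν Fs e t v'| ≤ L * δ := by
  have hN : ∀ (w w' : I → ℝ), (∀ l, |w l - w' l| ≤ δ) → ∀ N,
      Mfin ν (Fs e N) e t w ≤ Mfin ν (Fs e N) e t w' + L * δ := by
    intro w w' hw N
    have := hL (Fs e N) e t w w' δ (hFs.mem e N) (fun l _ => hw l)
    have h2 := (abs_le.1 this).2
    linarith
  have hb : ∀ (w : I → ℝ) N, 0 ≤ Mfin ν (Fs e N) e t w ∧ Mfin ν (Fs e N) e t w ≤ 1 := fun w N =>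
    ⟨Mfin_nonneg _ _ _ _ _, Mfin_le_one _ _ _ _ _⟩
  rw [abs_le]
  constructor
  · have := limsup_le_add_of_le _ _ _ (hN v' v (fun l => by rw [abs_sub_comm]; exact hδ l))
      (hb v') (hb v)
    unfold mlim
    linarith
  · have := limsup_le_add_of_le _ _ _ (hN v v' hδ) (hb v) (hb v')
    unfold mlim
    linarith

lemma pow_add_mul_le (J : ℝ) (hJ : 0 ≤ J) (p : ℕ) :
    J ^ (p + 1) + (p + 1) * J ^ p ≤ (J + 1) ^ (p + 1) := by
  induction p with
  | zero => simp
  | succ p ih =>
    have h1 : (J + 1) ^ (p + 1 + 1) = (J + 1) * (J + 1) ^ (p + 1) := by ring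
    rw [h1]
    have h2 : (J + 1) * (J ^ (p + 1) + (p + 1) * J ^ p) ≤ (J + 1) * (J + 1) ^ (p + 1) :=
      mul_le_mul_of_nonneg_left ih (by linarith)
    have h3 : 0 ≤ J ^ p := pow_nonneg hJ p
    have h4 : (0 : ℝ) ≤ p + 1 := by positivity
    have h5 : (J + 1) * (J ^ (p + 1) + (p + 1) * J ^ p) =
        J ^ (p + 1 + 1) + ((p + 1 : ℕ) + 1) * J ^ (p + 1) + (p + 1) * J ^ p := by
      push_cast
      ring
    rw [h5] at h2
    push_cast at h2 ⊢
    nlinarith [mul_nonneg h4 h3]

lemma sum_pow_le (J p : ℕ) :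
    ∑ j ∈ Finset.range J, (j : ℝ) ^ p ≤ (J : ℝ) ^ (p + 1) / (p + 1) := by
  induction J with
  | zero =>
    simp
  | succ J ih =>
    rw [Finset.sum_range_succ]
    have h1 := pow_add_mul_le (J : ℝ) (Nat.cast_nonneg _) p
    have hp : (0 : ℝ) < p + 1 := by positivity
    push_cast
    have h2 : (J : ℝ) ^ (p + 1) / (p + 1) + (J : ℝ) ^ p ≤ ((J : ℝ) + 1) ^ (p + 1) / (p + 1) := by
      rw [div_add' _ _ _ hp.ne', div_le_div_iff_of_pos_right hp]
      linarith
    linarith

/-- Left Riemann sums of a power. -/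
lemma riemann_pow_le (J p : ℕ) (h : ℝ) (hh : 0 ≤ h) :
    ∑ j ∈ Finset.range J, h * ((j : ℝ) * h) ^ p ≤ ((J : ℝ) * h) ^ (p + 1) / (p + 1) := by
  have h1 : ∀ j ∈ Finset.range J, h * ((j : ℝ) * h) ^ p = h ^ (p + 1) * (j : ℝ) ^ p := by
    intro j _
    rw [mul_pow]
    ring
  rw [Finset.sum_congr rfl h1, ← Finset.mul_sum, mul_pow]
  have h2 := sum_pow_le J p
  have h3 : 0 ≤ h ^ (p + 1) := pow_nonneg hh _
  calc h ^ (p + 1) * ∑ j ∈ Finset.range J, (j : ℝ) ^ p
      ≤ h ^ (p + 1) * ((J : ℝ) ^ (p + 1) / (p + 1)) := mul_le_mul_of_nonneg_left h2 h3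
    _ = (J : ℝ) ^ (p + 1) * h ^ (p + 1) / (p + 1) := by ring

lemma tm_nonneg (n k : ℕ) : 0 ≤ tm n k := by
  unfold tm; positivity

lemma tm_eq_grid (n k r : ℕ) : ((k * 2 ^ r : ℕ) : ℝ) * (1 / 2 ^ (n + r) : ℝ) = tm n k := by
  unfold tm
  push_cast
  rw [pow_add]
  field_simp

lemma tm_grid (n r j : ℕ) : tm (n + r) j = (j : ℝ) * (1 / 2 ^ (n + r) : ℝ) := by
  unfold tm
  ring

lemma Rsum_nonneg (ν : Measure (I → Bool)) (Fs : I → ℕ → Finset I) (y : I → Sk) (e : I)
    (n k r : ℕ) : 0 ≤ Rsum ν Fs y e n k r := by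
  unfold Rsum
  exact Finset.sum_nonneg fun j _ => mul_nonneg (by positivity) (mlim_nonneg _ _ _ _ _)

lemma Rsum_le_tm (ν : Measure (I → Bool)) (Fs : I → ℕ → Finset I) (y : I → Sk) (e : I)
    (n k r : ℕ) : Rsum ν Fs y e n k r ≤ tm n k := by
  have h := abs_Rsum_le ν Fs y e n k r
  have h2 : (k : ℝ) * 2 ^ r * (1 / 2 ^ (n + r)) = tm n k := by
    rw [← tm_eq_grid n k r]
    push_cast
    ring
  rw [h2] at h
  exact (le_abs_self _).trans h

/-- The key uniqueness statement. -/
theorem Wmap_injOn {ν : Measure (I → Bool)} {L : ℝ} (hL0 : 0 ≤ L) (hL : LipLaw ν L)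
    {Fs : I → ℕ → Finset I} (hFs : GoodExh Fs) {y y' : I → Sk} (hy : y ∈ Good ν Fs)
    (hy' : y' ∈ Good ν Fs) (hW : Wmap ν Fs y = Wmap ν Fs y') : y = y' := by
  -- the difference is the difference of the drift integrals
  have hdiff : ∀ e n k, y e n k - y' e n k = Rlim ν Fs y e n k - Rlim ν Fs y' e n k := by
    intro e n k
    have := congrFun (congrFun (congrFun hW e) n) k
    simp only [Wmap] at this
    linarith
  -- limits
  have hlim : ∀ (u : I → Sk), u ∈ Good ν Fs → ∀ e n k,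
      Tendsto (fun r => Rsum ν Fs u e n k r) atTop (𝓝 (Rlim ν Fs u e n k)) := by
    intro u hu e n k
    obtain ⟨L', hL'⟩ := hu e n k
    have : Rlim ν Fs u e n k = L' := hL'.limsup_eq
    rw [this]
    exact hL'
  -- polynomial bounds by induction
  have hbound : ∀ i : ℕ, ∀ e n k, |y e n k - y' e n k| ≤
      L ^ i * (tm n k) ^ (i + 1) / (i + 1).factorial := by
    intro i
    induction i with
    | zero =>
      intro e n k
      simp only [pow_zero, one_mul, zero_add, pow_one, Nat.factorial_one, Nat.cast_one, div_one]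
      rw [hdiff, abs_le]
      have h1 := le_of_tendsto' (hlim y hy e n k) (fun r => Rsum_le_tm ν Fs y e n k r)
      have h2 := le_of_tendsto' (hlim y' hy' e n k) (fun r => Rsum_le_tm ν Fs y' e n k r)
      have h3 := ge_of_tendsto' (hlim y hy e n k) (fun r => Rsum_nonneg ν Fs y e n k r)
      have h4 := ge_of_tendsto' (hlim y' hy' e n k) (fun r => Rsum_nonneg ν Fs y' e n k r)
      constructor <;> linarith
    | succ i ih =>
      intro e n k
      rw [hdiff]
      set A : ℝ := L ^ i / (i + 1).factorial with hA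
      have hA0 : 0 ≤ A := by positivity
      have hsub : Tendsto (fun r => |Rsum ν Fs y e n k r - Rsum ν Fs y' e n k r|) atTop
          (𝓝 |Rlim ν Fs y e n k - Rlim ν Fs y' e n k|) :=
        ((hlim y hy e n k).sub (hlim y' hy' e n k)).abs
      refine le_of_tendsto' hsub fun r => ?_
      unfold Rsum
      rw [← Finset.sum_sub_distrib]
      refine (Finset.abs_sum_le_sum_abs _ _).trans ?_
      set h : ℝ := 1 / 2 ^ (n + r) with hh
      have hh0 : 0 ≤ h := by positivity
      have hterm : ∀ j ∈ Finset.range (k * 2 ^ r),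
          |h * mlim ν Fs e (tm (n + r) j) (fun l => y l (n + r) j) -
            h * mlim ν Fs e (tm (n + r) j) (fun l => y' l (n + r) j)| ≤
          (L * A) * (h * ((j : ℝ) * h) ^ (i + 1)) := by
        intro j _
        rw [← mul_sub, abs_mul, abs_of_nonneg hh0]
        have h1 := mlim_lipschitz hL hFs e (tm (n + r) j) (fun l => y l (n + r) j)
          (fun l => y' l (n + r) j) (A * ((j : ℝ) * h) ^ (i + 1)) (fun l => by
            have := ih l (n + r) j
            rw [tm_grid n r j] at this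
            refine this.trans (le_of_eq ?_)
            rw [hA]
            ring)
        calc h * |mlim ν Fs e (tm (n + r) j) (fun l => y l (n + r) j) -
              mlim ν Fs e (tm (n + r) j) (fun l => y' l (n + r) j)|
            ≤ h * (L * (A * ((j : ℝ) * h) ^ (i + 1))) := mul_le_mul_of_nonneg_left h1 hh0
          _ = (L * A) * (h * ((j : ℝ) * h) ^ (i + 1)) := by ring
      refine (Finset.sum_le_sum hterm).trans ?_
      rw [← Finset.mul_sum]
      have hR := riemann_pow_le (k * 2 ^ r) (i + 1) h hh0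
      rw [tm_eq_grid n k r] at hR
      have hLA : 0 ≤ L * A := mul_nonneg hL0 hA0
      refine (mul_le_mul_of_nonneg_left hR hLA).trans (le_of_eq ?_)
      rw [hA, Nat.factorial_succ (i + 1)]
      push_cast
      rw [pow_succ L i]
      field_simp
  -- conclusion
  funext e n k
  have hT : Tendsto (fun i : ℕ => tm n k * (L * tm n k) ^ i / i.factorial) atTop (𝓝 0) := by
    have := (FloorSemiring.tendsto_pow_div_factorial_atTop (L * tm n k)).const_mul (tm n k)
    simp only [mul_zero] at this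
    refine this.congr fun i => ?_
    ring
  have hle : ∀ i : ℕ, |y e n k - y' e n k| ≤ tm n k * (L * tm n k) ^ i / i.factorial := by
    intro i
    refine (hbound i e n k).trans ?_
    have h0 := tm_nonneg n k
    have hpow : 0 ≤ (L * tm n k) ^ i * tm n k := by positivity
    have hfac : ((i.factorial : ℕ) : ℝ) ≤ ((i + 1).factorial : ℕ) :=
      by exact_mod_cast Nat.factorial_le (Nat.le_succ i)
    have hfpos : (0 : ℝ) < i.factorial := by positivity
    have h1 : L ^ i * tm n k ^ (i + 1) = tm n k * (L * tm n k) ^ i := by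
      rw [mul_pow, pow_succ]
      ring
    rw [h1]
    exact div_le_div_of_nonneg_left (by positivity) hfpos hfac
  have h0 : |y e n k - y' e n k| ≤ 0 := ge_of_tendsto' hT hle
  have := abs_nonpos_iff.1 h0
  linarith

end Crest.Agent.Lib.Loc
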