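/-
Transport of all the constructions under a bijection of the sites.
-/
import Crest.Agent.Lib.LocInj

set_option autoImplicit false

namespace Crest.Agent.Lib.Loc

open MeasureTheory ProbabilityTheory Filter Topology
open scoped ENNReal NNReal

variable {I : Type*}

section
variable {ν ν' : Measure (I → Bool)} {Fs Fs' : I → ℕ → Finset I} (ρ : I ≃ I)

lemma wt_map (S : Finset I) (t : ℝ) (v : I → ℝ) :
    wt S t (fun l => v (ρ l)) = wt (S.map ρ.toEmbedding) t v := by
  unfold wt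
  rw [Finset.sum_map]
  rfl

lemma sum_powerset_map (F : Finset I) (f : Finset I → ℝ) :
    ∑ S ∈ F.powerset, f (S.map ρ.toEmbedding) = ∑ S ∈ (F.map ρ.toEmbedding).powerset, f S := by
  classical
  refine Finset.sum_nbij' (fun S => S.map ρ.toEmbedding) (fun S => S.map ρ.symm.toEmbedding)
    ?_ ?_ ?_ ?_ ?_
  · intro S hS
    exact Finset.mem_powerset.2 (Finset.map_subset_map.2 (Finset.mem_powerset.1 hS))
  · intro S hS
    refine Finset.mem_powerset.2 ?_
    intro x hx
    obtain ⟨y, hy, rfl⟩ := Finset.mem_map.1 hx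
    have h1 := Finset.mem_powerset.1 hS hy
    obtain ⟨z, hz, rfl⟩ := Finset.mem_map.1 h1
    simpa using hz
  · intro S _
    ext x
    simp
  · intro S _
    ext x
    simp
  · intro S _
    rfl

variable (hν : ∀ F S : Finset I, mass ν' F S = mass ν (F.map ρ.toEmbedding) (S.map ρ.toEmbedding))
include hν

lemma Zfin_map (F : Finset I) (t : ℝ) (v : I → ℝ) :
    Zfin ν' F t (fun l => v (ρ l)) = Zfin ν (F.map ρ.toEmbedding) t v := by
  unfold Zfin
  rw [← sum_powerset_map ρ F (fun S => mass ν (F.map ρ.toEmbedding) S * wt S t v)]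
  refine Finset.sum_congr rfl fun S _ => ?_
  rw [hν, wt_map]

lemma Nfin_map (F : Finset I) (e : I) (t : ℝ) (v : I → ℝ) :
    Nfin ν' F e t (fun l => v (ρ l)) = Nfin ν (F.map ρ.toEmbedding) (ρ e) t v := by
  classical
  rw [Nfin_eq_sum_ite, Nfin_eq_sum_ite]
  rw [← sum_powerset_map ρ F (fun S => (if ρ e ∈ S then 1 else 0 : ℝ) *
    (mass ν (F.map ρ.toEmbedding) S * wt S t v))]
  refine Finset.sum_congr rfl fun S _ => ?_
  have : ρ e ∈ S.map ρ.toEmbedding ↔ e ∈ S := by
    simp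
  by_cases he : e ∈ S
  · simp [he, hν, wt_map]
  · simp [he]

lemma Mfin_map (F : Finset I) (e : I) (t : ℝ) (v : I → ℝ) :
    Mfin ν' F e t (fun l => v (ρ l)) = Mfin ν (F.map ρ.toEmbedding) (ρ e) t v := by
  unfold Mfin
  rw [Zfin_map ρ hν, Nfin_map ρ hν]

variable (hFs : ∀ e N, (Fs' e N).map ρ.toEmbedding = Fs (ρ e) N)
include hFs

lemma mlim_map (e : I) (t : ℝ) (v : I → ℝ) :
    mlim ν' Fs' e t (fun l => v (ρ l)) = mlim ν Fs (ρ e) t v := by
  unfold mlim
  congr 1
  funext N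
  rw [Mfin_map ρ hν, hFs]

lemma Rsum_map (y : I → Sk) (e : I) (n k r : ℕ) :
    Rsum ν' Fs' (fun l => y (ρ l)) e n k r = Rsum ν Fs y (ρ e) n k r := by
  unfold Rsum
  refine Finset.sum_congr rfl fun j _ => ?_
  rw [mlim_map ρ hν hFs e _ (fun l => y l (n + r) j)]

lemma Rlim_map (y : I → Sk) (e : I) (n k : ℕ) :
    Rlim ν' Fs' (fun l => y (ρ l)) e n k = Rlim ν Fs y (ρ e) n k := by
  unfold Rlim
  simp_rw [Rsum_map ρ hν hFs]

lemma Wmap_map (y : I → Sk) (e : I) :
    Wmap ν' Fs' (fun l => y (ρ l)) e = Wmap ν Fs y (ρ e) := by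
  funext n k
  unfold Wmap
  rw [Rlim_map ρ hν hFs]

lemma Good_map (y : I → Sk) : (fun l => y (ρ l)) ∈ Good ν' Fs' ↔ y ∈ Good ν Fs := by
  constructor
  · intro h e n k
    have := h (ρ.symm e) n k
    simp_rw [Rsum_map ρ hν hFs, Equiv.apply_symm_apply] at this
    exact this
  · intro h e n k
    simp_rw [Rsum_map ρ hν hFs]
    exact h (ρ e) n k

end

lemma hatω_map (ρ : I ≃ I) (y : I → Sk) (e : I) :
    hatω (fun l => y (ρ l)) e = hatω y (ρ e) := rfl

end Crest.Agent.Lib.Loc
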