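/-
The Borel inverse of the innovation map, jointly in a parameter.
-/
import Crest.Agent.Lib.LocTransport

set_option autoImplicit false

namespace Crest.Agent.Lib.Loc

open MeasureTheory ProbabilityTheory Filter Topology Function
open scoped ENNReal NNReal

set_option synthInstance.maxHeartbeats 200000 in
instance instSB_Sk : StandardBorelSpace Sk := by
  show StandardBorelSpace (ℕ → ℕ → ℝ)
  infer_instance

instance instSB_ISk {I : Type*} [Countable I] : StandardBorelSpace (I → Sk) :=
  StandardBorelSpace.pi_countable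

variable {Par : Type*} [MeasurableSpace Par] {I : Type*}

/-- Data of a parametrized family of laws with exhaustions. -/
structure ParData (Par : Type*) (I : Type*) where
  /-- the laws -/
  ν : Par → Measure (I → Bool)
  /-- the exhaustions -/
  Fs : Par → I → ℕ → Finset I
  /-- the good parameters -/
  PG : Set Par

namespace ParData
variable (D : ParData Par I)

/-- Joint measurability of the finite posterior means. -/
def JointM : Prop :=
  ∀ (e : I) (N : ℕ) (t : ℝ),
    Measurable (fun z : Par × (I → ℝ) => Mfin (D.ν z.1) (D.Fs z.1 e N) e t z.2)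

/-- The good pairs. -/
def Gd : Set (Par × (I → Sk)) := {z | z.1 ∈ D.PG ∧ z.2 ∈ Good (D.ν z.1) (D.Fs z.1)}

/-- The innovation map with its parameter. -/
noncomputable def TT (z : Par × (I → Sk)) : Par × (I → Sk) :=
  (z.1, Wmap (D.ν z.1) (D.Fs z.1) z.2)

/-- The factor map: Borel inverse of the innovation map, followed by the recovery of the
configuration. Default value: all false. -/
noncomputable def Xi (p : Par) (w : I → Sk) : I → Bool :=
  Function.extend (fun z : D.Gd => D.TT z.1) (fun z : D.Gd => hatω z.1.2) (fun _ _ => false) (p, w)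

variable {D}

lemma JointM.mlim (hD : D.JointM) (e : I) (t : ℝ) :
    Measurable (fun z : Par × (I → ℝ) => mlim (D.ν z.1) (D.Fs z.1) e t z.2) :=
  Measurable.limsup fun N => hD e N t

lemma JointM.Rsum (hD : D.JointM) (e : I) (n k r : ℕ) :
    Measurable (fun z : Par × (I → Sk) => Loc.Rsum (D.ν z.1) (D.Fs z.1) z.2 e n k r) := by
  unfold Loc.Rsum
  refine Finset.measurable_fun_sum _ fun j _ => Measurable.const_mul ?_ _
  refine (hD.mlim e _).comp (f := fun z : Par × (I → Sk) => (z.1, fun l => z.2 l (n + r) j)) ?_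
  refine measurable_fst.prodMk ?_
  refine measurable_pi_lambda _ fun l => ?_
  exact (measurable_pi_apply j).comp ((measurable_pi_apply (n + r)).comp
    ((measurable_pi_apply l).comp measurable_snd))

lemma JointM.Rlim (hD : D.JointM) (e : I) (n k : ℕ) :
    Measurable (fun z : Par × (I → Sk) => Loc.Rlim (D.ν z.1) (D.Fs z.1) z.2 e n k) :=
  Measurable.limsup fun r => hD.Rsum e n k r

lemma JointM.Wmap (hD : D.JointM) :
    Measurable (fun z : Par × (I → Sk) => Loc.Wmap (D.ν z.1) (D.Fs z.1) z.2) := by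
  refine measurable_pi_lambda _ fun e => measurable_pi_lambda _ fun n =>
    measurable_pi_lambda _ fun k => ?_
  have h1 : Measurable (fun z : Par × (I → Sk) => z.2 e n k) :=
    (measurable_pi_apply k).comp ((measurable_pi_apply n).comp
      ((measurable_pi_apply e).comp measurable_snd))
  exact h1.sub (hD.Rlim e n k)

lemma JointM.TT (hD : D.JointM) : Measurable D.TT :=
  measurable_fst.prodMk hD.Wmap

lemma JointM.Gd [Countable I] (hD : D.JointM) (hPG : MeasurableSet D.PG) :
    MeasurableSet D.Gd := by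
  have h1 : D.Gd = (Prod.fst ⁻¹' D.PG) ∩ ⋂ e, ⋂ n, ⋂ k,
      {z : Par × (I → Sk) | ∃ L, Tendsto (fun r => Loc.Rsum (D.ν z.1) (D.Fs z.1) z.2 e n k r)
        atTop (𝓝 L)} := by
    ext z
    simp [ParData.Gd, Good]
  rw [h1]
  refine (measurable_fst hPG).inter ?_
  exact MeasurableSet.iInter fun e => MeasurableSet.iInter fun n => MeasurableSet.iInter fun k =>
    measurableSet_exists_tendsto fun r => hD.Rsum e n k r

/-- The uniform bound and exhaustion hypothesis on the good parameters. -/
structure Regular (D : ParData Par I) (L : ℝ) : Prop where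
  L0 : 0 ≤ L
  lip : ∀ p ∈ D.PG, LipLaw (D.ν p) L
  exh : ∀ p ∈ D.PG, GoodExh (D.Fs p)

lemma Regular.injective {L : ℝ} (hR : D.Regular L) :
    Injective (fun z : D.Gd => D.TT z.1) := by
  rintro ⟨⟨p, y⟩, hp, hy⟩ ⟨⟨p', y'⟩, hp', hy'⟩ h
  simp only [ParData.TT, Prod.mk.injEq] at h
  obtain ⟨rfl, hW⟩ := h
  have := Wmap_injOn (hR.L0) (hR.lip p hp) (hR.exh p hp) hy hy' hW
  subst this
  rfl

lemma Regular.Xi_apply {L : ℝ} (hR : D.Regular L) {p : Par} (hp : p ∈ D.PG) {y : I → Sk}
    (hy : y ∈ Good (D.ν p) (D.Fs p)) : D.Xi p (Loc.Wmap (D.ν p) (D.Fs p) y) = hatω y := by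
  unfold ParData.Xi
  exact hR.injective.extend_apply (fun z : D.Gd => hatω z.1.2) (fun _ _ => false)
    (⟨(p, y), hp, hy⟩ : D.Gd)

/-- Joint measurability of the factor map. -/
theorem Regular.measurable_Xi [Countable I] [StandardBorelSpace Par] {L : ℝ} (hR : D.Regular L)
    (hD : D.JointM) (hPG : MeasurableSet D.PG) :
    Measurable (fun z : Par × (I → Sk) => D.Xi z.1 z.2) := by
  have hG := hD.Gd hPG
  have : StandardBorelSpace D.Gd := hG.standardBorel
  have hm : Measurable (fun z : D.Gd => D.TT z.1) := hD.TT.comp measurable_subtype_coe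
  have hE : MeasurableEmbedding (fun z : D.Gd => D.TT z.1) :=
    hm.measurableEmbedding hR.injective
  have h1 : Measurable (fun z : D.Gd => hatω z.1.2) :=
    measurable_hatω.comp (measurable_snd.comp measurable_subtype_coe)
  have := hE.measurable_extend h1 (measurable_const (a := fun _ => false))
  exact this

/-- Law of the factor map. -/
theorem Regular.Xi_law [Countable I] {L : ℝ} (hR : D.Regular L) {p : Par} (hp : p ∈ D.PG)
    [IsProbabilityMeasure (D.ν p)]
    {Ω : Type*} [MeasurableSpace Ω] {Q : Measure Ω} [IsProbabilityMeasure Q]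
    {ω : Ω → I → Bool} {B : Ω → I → Sk} (T : Truth (D.ν p) Q ω B) (hXm : Measurable (D.Xi p)) :
    (Q.map B).map (D.Xi p) = D.ν p := by
  have hFs := hR.exh p hp
  have hWm : Measurable (fun a => Loc.Wmap (D.ν p) (D.Fs p) (Yobs ω B a)) :=
    (measurable_Wmap _ _).comp T.measurable_Yobs
  rw [← T.law_W hFs, Measure.map_map hXm hWm]
  have hae : (D.Xi p ∘ fun a => Loc.Wmap (D.ν p) (D.Fs p) (Yobs ω B a)) =ᵐ[Q] ω := by
    filter_upwards [T.ae_mem_Good hFs, T.ae_hatω] with a ha1 ha2
    simp only [comp]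
    rw [hR.Xi_apply hp ha1, ha2]
  rw [Measure.map_congr hae]
  have h0 := T.law 0
  have h1 : (Q.map (levMap ω B 0)).map Prod.fst = Q.map ω := by
    rw [Measure.map_map measurable_fst (T.measurable_levMap 0)]
    rfl
  rw [← h1, h0]
  unfold levP
  simp

/-- Exact equivariance. -/
theorem Regular.Xi_equivariant {L : ℝ} (hR : D.Regular L) {p p' : Par} (hp : p ∈ D.PG)
    (hp' : p' ∈ D.PG) (ρ : I ≃ I)
    (hν : ∀ F S : Finset I, mass (D.ν p') F S =
      mass (D.ν p) (F.map ρ.toEmbedding) (S.map ρ.toEmbedding))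
    (hFs : ∀ e N, (D.Fs p' e N).map ρ.toEmbedding = D.Fs p (ρ e) N) (w : I → Sk) :
    D.Xi p' (fun l => w (ρ l)) = fun l => D.Xi p w (ρ l) := by
  by_cases hex : ∃ z : D.Gd, D.TT z.1 = (p, w)
  · obtain ⟨⟨⟨q, y⟩, hq, hy⟩, hz⟩ := hex
    simp only [ParData.TT, Prod.mk.injEq] at hz
    obtain ⟨rfl, rfl⟩ := hz
    have hy' : (fun l => y (ρ l)) ∈ Good (D.ν p') (D.Fs p') :=
      (Good_map ρ hν hFs y).2 hy
    have hW : (fun l => Loc.Wmap (D.ν q) (D.Fs q) y (ρ l)) =
        Loc.Wmap (D.ν p') (D.Fs p') (fun l => y (ρ l)) := by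
      funext l
      rw [Wmap_map ρ hν hFs]
    rw [hW, hR.Xi_apply hp' hy', hR.Xi_apply hq hy]
    rfl
  · have hn : ¬∃ z : D.Gd, D.TT z.1 = (p', fun l => w (ρ l)) := by
      rintro ⟨⟨⟨q, y'⟩, hq, hy'⟩, hz⟩
      simp only [ParData.TT, Prod.mk.injEq] at hz
      obtain ⟨rfl, hz⟩ := hz
      apply hex
      set y : I → Sk := fun l => y' (ρ.symm l) with hy
      have hy1 : (fun l => y (ρ l)) = y' := by
        funext l
        simp [hy]
      have hy2 : y ∈ Good (D.ν p) (D.Fs p) := by
        rw [← Good_map ρ hν hFs y, hy1]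
        exact hy'
      refine ⟨⟨⟨p, y⟩, hp, hy2⟩, ?_⟩
      simp only [ParData.TT, Prod.mk.injEq, true_and]
      funext l
      have h3 := congrFun hz (ρ.symm l)
      simp only [Equiv.apply_symm_apply] at h3
      rw [← h3, ← hy1, Wmap_map ρ hν hFs]
      simp
    unfold ParData.Xi
    rw [extend_apply' _ _ _ hn]
    funext l
    rw [extend_apply' _ _ _ hex]

end ParData

end Crest.Agent.Lib.Loc
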