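/-
The Lévy midpoint construction of the Brownian skeleton and the truth space.
-/
import Crest.Agent.Lib.LocXi

set_option autoImplicit false

namespace Crest.Agent.Lib.Loc

open MeasureTheory ProbabilityTheory Filter Topology
open scoped ENNReal NNReal

lemma levX_zero (ξ : ℕ × ℕ → ℝ) (k : ℕ) : levX ξ 0 k = ξ (0, k) := by
  simp [levX]

lemma levX_even (ξ : ℕ × ℕ → ℝ) (r i : ℕ) :
    levX ξ (r + 1) (2 * i) = levX ξ r i / 2 + Real.sqrt (1 / 2 ^ (r + 2)) * ξ (r + 1, i) := by
  have h1 : 2 * i / 2 = i := by omega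
  have h2 : 2 * i % 2 = 0 := by omega
  simp [levX, h1, h2]

lemma levX_odd (ξ : ℕ × ℕ → ℝ) (r i : ℕ) :
    levX ξ (r + 1) (2 * i + 1) = levX ξ r i / 2 - Real.sqrt (1 / 2 ^ (r + 2)) * ξ (r + 1, i) := by
  have h1 : (2 * i + 1) / 2 = i := by omega
  have h2 : (2 * i + 1) % 2 = 1 := by omega
  simp only [levX, h1, h2]
  norm_num
  ring

lemma measurable_levX (r k : ℕ) : Measurable (fun ξ : ℕ × ℕ → ℝ => levX ξ r k) := by
  induction r generalizing k with
  | zero =>
    simp only [levX_zero]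
    exact measurable_pi_apply _
  | succ r ih =>
    simp only [levX]
    refine Measurable.add ((ih _).div_const _) (Measurable.const_mul (measurable_pi_apply _) _)

lemma measurable_levX_fun (r : ℕ) : Measurable (fun (ξ : ℕ × ℕ → ℝ) (k : ℕ) => levX ξ r k) :=
  measurable_pi_lambda _ fun k => measurable_levX r k

lemma measurable_skOf : Measurable skOf := by
  refine measurable_pi_lambda _ fun n => measurable_pi_lambda _ fun k => ?_
  exact Finset.measurable_fun_sum _ fun j _ => measurable_levX n j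

lemma sum_range_two_mul (f : ℕ → ℝ) (J : ℕ) : ∑ j ∈ Finset.range (2 * J), f j =
    ∑ j ∈ Finset.range J, (f (2 * j) + f (2 * j + 1)) := by
  induction J with
  | zero => simp
  | succ J ih =>
    rw [show 2 * (J + 1) = 2 * J + 1 + 1 by ring, Finset.sum_range_succ, Finset.sum_range_succ,
      ih, Finset.sum_range_succ]
    ring

lemma skOf_cons (ξ : ℕ × ℕ → ℝ) (n k : ℕ) : skOf ξ (n + 1) (2 * k) = skOf ξ n k := by
  unfold skOf
  rw [sum_range_two_mul]
  refine Finset.sum_congr rfl fun i _ => ?_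
  rw [levX_even, levX_odd]
  ring

lemma skOf_zero (ξ : ℕ × ℕ → ℝ) (n : ℕ) : skOf ξ n 0 = 0 := by
  simp [skOf]

lemma skOf_incr (ξ : ℕ × ℕ → ℝ) (r k : ℕ) : skOf ξ r (k + 1) - skOf ξ r k = levX ξ r k := by
  unfold skOf
  rw [Finset.sum_range_succ]
  ring

open Classical in
/-- Coefficients of a merged linear form. -/
noncomputable def cmerge (ℓ : ℕ) (f : ℕ → ℝ) (B : Finset (ℕ × ℕ)) (b : ℕ × ℕ → ℝ) (q : ℕ × ℕ) : ℝ :=
  if q ∈ B then b q else if q.1 = ℓ then f q.2 else 0

/-- The embedding of a level into the index set. -/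
def levelEmb (ℓ : ℕ) : ℕ ↪ ℕ × ℕ := ⟨fun k => (ℓ, k), fun a b h => (Prod.ext_iff.1 h).2⟩

@[simp] lemma levelEmb_apply (ℓ k : ℕ) : levelEmb ℓ k = (ℓ, k) := rfl

/-- The support of a merged linear form. -/
noncomputable def smerge (ℓ K : ℕ) (B : Finset (ℕ × ℕ)) : Finset (ℕ × ℕ) :=
  open Classical in (Finset.range K).map (levelEmb ℓ) ∪ B

lemma sum_smerge (ℓ K : ℕ) (f : ℕ → ℝ) (B : Finset (ℕ × ℕ)) (b : ℕ × ℕ → ℝ)
    (hB : ∀ τ ∈ B, ℓ < τ.1) (Φ : ℕ × ℕ → ℝ → ℝ) :
    ∑ q ∈ smerge ℓ K B, Φ q (cmerge ℓ f B b q) =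
      ∑ k ∈ Finset.range K, Φ (ℓ, k) (f k) + ∑ τ ∈ B, Φ τ (b τ) := by
  classical
  unfold smerge
  rw [Finset.sum_union]
  · rw [Finset.sum_map]
    congr 1
    · refine Finset.sum_congr rfl fun k _ => ?_
      have : (ℓ, k) ∉ B := fun h => lt_irrefl _ (hB _ h)
      simp only [levelEmb_apply, cmerge, this, if_false, if_true]
    · refine Finset.sum_congr rfl fun τ hτ => ?_
      simp [cmerge, hτ]
  · rw [Finset.disjoint_left]
    intro q hq hqB
    obtain ⟨k, _, rfl⟩ := Finset.mem_map.1 hq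
    exact lt_irrefl _ (hB _ hqB)

/-- The characteristic function of the increments at level `r` jointly with finer noise. -/
theorem levX_char (r K : ℕ) (a : ℕ → ℝ) (B : Finset (ℕ × ℕ)) (b : ℕ × ℕ → ℝ)
    (hB : ∀ τ ∈ B, r < τ.1) :
    ∫ ξ, cexpI (∑ k ∈ Finset.range K, a k * levX ξ r k + ∑ τ ∈ B, b τ * ξ τ) ∂stdG =
      ((Real.exp (-((1 / 2 ^ r) / 2) * ∑ k ∈ Finset.range K, (a k) ^ 2 -
        (1 / 2) * ∑ τ ∈ B, (b τ) ^ 2) : ℝ) : ℂ) := by
  classical
  induction r generalizing K a B b with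
  | zero =>
    have h1 := noise_char (1 : ℝ≥0) (smerge 0 K B) (cmerge 0 a B b)
    have h2 : ∀ ξ : ℕ × ℕ → ℝ, ∑ q ∈ smerge 0 K B, cmerge 0 a B b q * ξ q =
        ∑ k ∈ Finset.range K, a k * levX ξ 0 k + ∑ τ ∈ B, b τ * ξ τ := by
      intro ξ
      rw [sum_smerge 0 K a B b hB (fun q c => c * ξ q)]
      simp only [levX_zero]
    simp_rw [h2] at h1
    have h3 : ∑ q ∈ smerge 0 K B, (cmerge 0 a B b q) ^ 2 =
        ∑ k ∈ Finset.range K, (a k) ^ 2 + ∑ τ ∈ B, (b τ) ^ 2 :=
      sum_smerge 0 K a B b hB (fun _ c => c ^ 2)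
    rw [h3] at h1
    change ∫ ξ, cexpI (∑ k ∈ Finset.range K, a k * levX ξ 0 k + ∑ τ ∈ B, b τ * ξ τ)
      ∂(noiseLaw (ℕ × ℕ) 1) = _
    rw [h1]
    congr 2
    push_cast
    ring
  | succ r ih =>
    set c : ℝ := Real.sqrt (1 / 2 ^ (r + 2)) with hc
    have hc2 : c ^ 2 = 1 / 2 ^ (r + 2) := Real.sq_sqrt (by positivity)
    set a' : ℕ → ℝ := fun k => if k < K then a k else 0 with ha'
    have hpad : ∀ g : ℕ → ℝ, (∀ k, K ≤ k → g k = 0) → ∑ k ∈ Finset.range (2 * K), g k =
        ∑ k ∈ Finset.range K, g k := by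
      intro g hg
      symm
      refine Finset.sum_subset (fun k hk => ?_) (fun k _ hk => hg k ?_)
      · have := Finset.mem_range.1 hk
        exact Finset.mem_range.2 (by omega)
      · by_contra hlt
        exact hk (Finset.mem_range.2 (by omega))
    set α : ℕ → ℝ := fun i => (a' (2 * i) + a' (2 * i + 1)) / 2 with hα
    set f : ℕ → ℝ := fun i => c * (a' (2 * i) - a' (2 * i + 1)) with hf
    have hB' : ∀ τ ∈ smerge (r + 1) K B, r < τ.1 := by
      intro τ hτ
      unfold smerge at hτ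
      rcases Finset.mem_union.1 hτ with h | h
      · obtain ⟨k, _, rfl⟩ := Finset.mem_map.1 h
        exact Nat.lt_succ_self r
      · have := hB τ h
        omega
    have h1 := ih K α (smerge (r + 1) K B) (cmerge (r + 1) f B b) hB'
    have hB2 : ∀ τ ∈ B, r + 1 < τ.1 := hB
    have h2 : ∀ ξ : ℕ × ℕ → ℝ, ∑ k ∈ Finset.range K, α k * levX ξ r k +
        ∑ τ ∈ smerge (r + 1) K B, cmerge (r + 1) f B b τ * ξ τ =
        ∑ k ∈ Finset.range K, a k * levX ξ (r + 1) k + ∑ τ ∈ B, b τ * ξ τ := by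
      intro ξ
      rw [sum_smerge (r + 1) K f B b hB2 (fun q c => c * ξ q), ← add_assoc]
      congr 1
      have h3 : ∑ k ∈ Finset.range K, a k * levX ξ (r + 1) k =
          ∑ k ∈ Finset.range K, a' k * levX ξ (r + 1) k := by
        refine Finset.sum_congr rfl fun k hk => ?_
        simp [ha', Finset.mem_range.1 hk]
      rw [h3, ← hpad (fun k => a' k * levX ξ (r + 1) k) (fun k hk => by simp [ha', not_lt.2 hk]),
        sum_range_two_mul, ← Finset.sum_add_distrib]
      refine Finset.sum_congr rfl fun i _ => ?_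
      rw [levX_even, levX_odd]
      simp only [hα, hf]
      ring
    simp_rw [h2] at h1
    rw [h1]
    congr 2
    have h3 : ∑ q ∈ smerge (r + 1) K B, (cmerge (r + 1) f B b q) ^ 2 =
        ∑ k ∈ Finset.range K, (f k) ^ 2 + ∑ τ ∈ B, (b τ) ^ 2 :=
      sum_smerge (r + 1) K f B b hB2 (fun _ c => c ^ 2)
    rw [h3]
    have h4 : ∑ k ∈ Finset.range K, (a k) ^ 2 = ∑ k ∈ Finset.range K, (a' k) ^ 2 := by
      refine Finset.sum_congr rfl fun k hk => ?_
      simp [ha', Finset.mem_range.1 hk]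
    rw [h4, ← hpad (fun k => (a' k) ^ 2) (fun k hk => by simp [ha', not_lt.2 hk]),
      sum_range_two_mul]
    have h5 : ∀ i, (1 / 2 ^ r) / 2 * (α i) ^ 2 + (1 / 2) * (f i) ^ 2 =
        ((1 / 2 ^ (r + 1)) / 2) * ((a' (2 * i)) ^ 2 + (a' (2 * i + 1)) ^ 2) := by
      intro i
      simp only [hα, hf, mul_pow, hc2]
      field_simp
      ring
    have h6 : ((1 / 2 ^ (r + 1)) / 2) * ∑ i ∈ Finset.range K, ((a' (2 * i)) ^ 2 + (a' (2 * i + 1)) ^ 2)
        = (1 / 2 ^ r) / 2 * ∑ i ∈ Finset.range K, (α i) ^ 2 +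
          (1 / 2) * ∑ i ∈ Finset.range K, (f i) ^ 2 := by
      rw [Finset.mul_sum, Finset.mul_sum, Finset.mul_sum, ← Finset.sum_add_distrib]
      exact Finset.sum_congr rfl fun i _ => (h5 i).symm
    have h7 : -((1 / 2 ^ (r + 1)) / 2) * ∑ i ∈ Finset.range K, ((a' (2 * i)) ^ 2 + (a' (2 * i + 1)) ^ 2)
        = -(((1 / 2 ^ (r + 1)) / 2) * ∑ i ∈ Finset.range K, ((a' (2 * i)) ^ 2 + (a' (2 * i + 1)) ^ 2)) := by
      ring
    rw [h7, h6]
    ring

instance : IsProbabilityMeasure stdG := by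
  unfold stdG; infer_instance

instance : IsProbabilityMeasure muBM := by
  unfold muBM
  exact Measure.isProbabilityMeasure_map measurable_skOf.aemeasurable

/-- The increments at level `r` are i.i.d. Gaussians. -/
theorem levX_law (r : ℕ) :
    stdG.map (fun ξ (k : ℕ) => levX ξ r k) =
      Measure.infinitePi (fun _ : ℕ => gaussianReal 0 (hLev r)) := by
  classical
  have hm := measurable_levX_fun r
  have : IsProbabilityMeasure (stdG.map (fun ξ (k : ℕ) => levX ξ r k)) :=
    Measure.isProbabilityMeasure_map hm.aemeasurable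
  refine ext_of_charLin _ _ fun s c => ?_
  have hf : Measurable (fun x : ℕ → ℝ => cexpI (∑ q ∈ s, c q * x q)) :=
    measurable_cexpI.comp (Finset.measurable_fun_sum _ fun q _ =>
      (measurable_pi_apply q).const_mul _)
  rw [integral_map hm.aemeasurable hf.aestronglyMeasurable]
  have h1 := noise_char (hLev r) s c
  refine Eq.trans ?_ h1.symm
  set K : ℕ := s.sup id + 1 with hK
  set a : ℕ → ℝ := fun k => if k ∈ s then c k else 0 with ha
  have hsub : s ⊆ Finset.range K := by
    intro q hq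
    have : id q ≤ s.sup id := Finset.le_sup hq
    exact Finset.mem_range.2 (Nat.lt_succ_of_le this)
  have h2 : ∀ (g : ℕ → ℝ) (X : ℕ → ℝ), ∑ q ∈ s, g q * X q =
      ∑ k ∈ Finset.range K, (if k ∈ s then g k else 0) * X k := by
    intro g X
    rw [← Finset.sum_subset hsub]
    · refine Finset.sum_congr rfl fun q hq => ?_
      simp [hq]
    · intro k _ hk
      simp [hk]
  have h3 := levX_char r K a ∅ (fun _ => 0) (by simp)
  simp only [Finset.sum_empty, add_zero, mul_zero, sub_zero] at h3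
  have h4 : ∀ ξ : ℕ × ℕ → ℝ, ∑ q ∈ s, c q * levX ξ r q =
      ∑ k ∈ Finset.range K, a k * levX ξ r k := fun ξ => h2 c _
  simp_rw [h4]
  rw [h3]
  congr 2
  have h5 := h2 (fun q => (c q) ^ 2) (fun _ => 1)
  simp only [mul_one] at h5
  have h6 : ∑ k ∈ Finset.range K, (a k) ^ 2 = ∑ q ∈ s, (c q) ^ 2 := by
    rw [h5]
    refine Finset.sum_congr rfl fun k _ => ?_
    by_cases hk : k ∈ s <;> simp [ha, hk]
  rw [h6, hLev_coe]

section truth
variable {I : Type*}

/-- The noise of all the sites. -/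
noncomputable def allNoise (I : Type*) : Measure (I → ℕ × ℕ → ℝ) :=
  Measure.infinitePi (fun _ : I => stdG)

instance : IsProbabilityMeasure (allNoise I) := by
  unfold allNoise; infer_instance

/-- The Brownian skeletons of all the sites. -/
noncomputable def allBM (I : Type*) : Measure (I → Sk) :=
  Measure.infinitePi (fun _ : I => muBM)

instance : IsProbabilityMeasure (allBM I) := by
  unfold allBM; infer_instance

/-- The truth law. -/
noncomputable def truthP (ν : Measure (I → Bool)) : Measure ((I → Bool) × (I → ℕ × ℕ → ℝ)) :=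
  ν.prod (allNoise I)

instance (ν : Measure (I → Bool)) [IsProbabilityMeasure ν] : IsProbabilityMeasure (truthP ν) := by
  unfold truthP; infer_instance

/-- The skeletons from the noise. -/
noncomputable def truthB (a : (I → Bool) × (I → ℕ × ℕ → ℝ)) : I → Sk := fun l => skOf (a.2 l)

lemma allNoise_map_levX (r : ℕ) :
    (allNoise I).map (fun x (q : I × ℕ) => levX (x q.1) r q.2) = noiseLaw (I × ℕ) (hLev r) := by
  have h1 : (fun (x : I → ℕ × ℕ → ℝ) (q : I × ℕ) => levX (x q.1) r q.2) =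
      (MeasurableEquiv.curry I ℕ ℝ).symm ∘ (fun x l k => levX (x l) r k) := by
    funext x q
    rfl
  have hg : Measurable (fun (x : I → ℕ × ℕ → ℝ) (l : I) (k : ℕ) => levX (x l) r k) :=
    measurable_pi_lambda _ fun l => (measurable_levX_fun r).comp (measurable_pi_apply l)
  rw [h1, ← Measure.map_map (MeasurableEquiv.measurable _) hg]
  unfold allNoise
  rw [Measure.infinitePi_map_pi _ (fun _ : I => measurable_levX_fun r)]
  simp_rw [levX_law r]
  exact Measure.infinitePi_map_curry_symm (fun (_ : I) (_ : ℕ) => gaussianReal 0 (hLev r))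

/-- The truth space satisfies all the requirements. -/
theorem truth_spec (ν : Measure (I → Bool)) [IsProbabilityMeasure ν] :
    Truth ν (truthP ν) Prod.fst truthB where
  mω := measurable_fst
  mB := measurable_pi_lambda _ fun l =>
    measurable_skOf.comp ((measurable_pi_apply l).comp measurable_snd)
  cons a l n k := skOf_cons _ n k
  zero a l n := skOf_zero _ n
  law r := by
    have h1 : levMap (Prod.fst) truthB r =
        Prod.map (id : (I → Bool) → (I → Bool))
          (fun (x : I → ℕ × ℕ → ℝ) (q : I × ℕ) => levX (x q.1) r q.2) := by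
      funext a
      simp only [levMap, truthB, Prod.map, id]
      congr 1
      funext q
      exact skOf_incr _ _ _
    have hg : Measurable (fun (x : I → ℕ × ℕ → ℝ) (q : I × ℕ) => levX (x q.1) r q.2) :=
      measurable_pi_lambda _ fun q => (measurable_levX r q.2).comp (measurable_pi_apply q.1)
    rw [h1]
    unfold truthP levP
    rw [← Measure.map_prod_map _ _ measurable_id hg, allNoise_map_levX, Measure.map_id]

lemma truthP_map_B (ν : Measure (I → Bool)) [IsProbabilityMeasure ν] :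
    (truthP ν).map truthB = allBM I := by
  have h1 : (truthB : (I → Bool) × (I → ℕ × ℕ → ℝ) → I → Sk) =
      (fun (x : I → ℕ × ℕ → ℝ) l => skOf (x l)) ∘ Prod.snd := rfl
  have hm : Measurable (fun (x : I → ℕ × ℕ → ℝ) l => skOf (x l)) :=
    measurable_pi_lambda _ fun l => measurable_skOf.comp (measurable_pi_apply l)
  rw [h1, ← Measure.map_map hm measurable_snd]
  unfold truthP
  rw [Measure.map_snd_prod, measure_univ, one_smul]
  unfold allNoise allBM
  rw [Measure.infinitePi_map_pi _ (fun _ : I => measurable_skOf)]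
  rfl

end truth

variable {Par : Type*} [MeasurableSpace Par] {I : Type*}

/-- The law of the factor map under i.i.d. Brownian skeletons. -/
theorem ParData.Regular.Xi_law_BM [Countable I] {D : ParData Par I} {L : ℝ} (hR : D.Regular L)
    {p : Par} (hp : p ∈ D.PG) [IsProbabilityMeasure (D.ν p)] (hXm : Measurable (D.Xi p)) :
    (allBM I).map (D.Xi p) = D.ν p := by
  have T := truth_spec (D.ν p)
  have := hR.Xi_law hp T hXm
  rwa [truthP_map_B] at this

end Crest.Agent.Lib.Loc
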