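import Mathlib

/-!
General facts about `ℓ²`-sums of real normed spaces: weights, separability and reflexivity.
-/

set_option autoImplicit false

open Filter Topology
open scoped ENNReal

namespace Crest.Agent.Lib.L2Sum

section Reflexive

/-- Reflexivity passes through continuous linear equivalences. -/
theorem reflexive_of_equiv {X Z : Type*} [NormedAddCommGroup X] [NormedSpace ℝ X]
    [NormedAddCommGroup Z] [NormedSpace ℝ Z] (e : X ≃L[ℝ] Z)
    (h : Function.Surjective (NormedSpace.inclusionInDoubleDual ℝ X)) :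
    Function.Surjective (NormedSpace.inclusionInDoubleDual ℝ Z) := by
  intro Φ
  let Φ' : StrongDual ℝ (StrongDual ℝ X) :=
    Φ.comp ((ContinuousLinearMap.compL ℝ Z X ℝ).flip (e.symm : Z →L[ℝ] X))
  obtain ⟨x, hx⟩ := h Φ'
  refine ⟨e x, ?_⟩
  ext η
  have h1 := congrArg (fun F => F (η.comp (e : X →L[ℝ] Z))) hx
  simp only [NormedSpace.dual_def] at h1 ⊢
  have h2 : (η.comp (e : X →L[ℝ] Z)) x = η (e x) := rfl
  rw [h2] at h1
  rw [h1]
  show Φ' _ = _
  show Φ (((η.comp (e : X →L[ℝ] Z))).comp (e.symm : Z →L[ℝ] X)) = _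
  congr 1
  ext w
  simp

/-- Hilbert spaces are reflexive. -/
theorem reflexive_hilbert {H : Type*} [NormedAddCommGroup H] [InnerProductSpace ℝ H]
    [CompleteSpace H] : Function.Surjective (NormedSpace.inclusionInDoubleDual ℝ H) := by
  intro Φ
  let L : H →L[ℝ] ℝ := LinearMap.mkContinuous
    { toFun := fun v => Φ (InnerProductSpace.toDual ℝ H v)
      map_add' := fun a b => by simp
      map_smul' := fun r a => by simp } ‖Φ‖ (fun v => by
      have := Φ.le_opNorm (InnerProductSpace.toDual ℝ H v)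
      simpa using this)
  refine ⟨(InnerProductSpace.toDual ℝ H).symm L, ?_⟩
  ext ψ
  simp only [NormedSpace.dual_def]
  have h1 : ψ = InnerProductSpace.toDual ℝ H ((InnerProductSpace.toDual ℝ H).symm ψ) := by simp
  have h2 : L ((InnerProductSpace.toDual ℝ H).symm ψ) = Φ ψ := by
    show Φ (InnerProductSpace.toDual ℝ H ((InnerProductSpace.toDual ℝ H).symm ψ)) = _
    rw [← h1]
  rw [← h2]
  conv_lhs => rw [h1]
  rw [InnerProductSpace.toDual_apply_apply, ← InnerProductSpace.toDual_symm_apply, real_inner_comm]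

end Reflexive

variable {Y : ℕ → Type} [∀ k, NormedAddCommGroup (Y k)] [∀ k, NormedSpace ℝ (Y k)]

lemma sum_sq_le (z : lp Y 2) (s : Finset ℕ) : ∑ k ∈ s, ‖z k‖ ^ 2 ≤ ‖z‖ ^ 2 := by
  have := lp.sum_rpow_le_norm_rpow (p := 2) (by norm_num) z s
  simpa using this

lemma hasSum_sq (z : lp Y 2) : HasSum (fun k => ‖z k‖ ^ 2) (‖z‖ ^ 2) := by
  have := lp.hasSum_norm (p := 2) (by norm_num) z
  simpa using this

lemma weighted_le' (z : lp Y 2) (s : Finset ℕ) (w : ℕ → ℝ) :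
    ∑ k ∈ s, w k * ‖z k‖ ≤ Real.sqrt (∑ k ∈ s, w k ^ 2) * ‖z‖ := by
  refine (Real.sum_mul_le_sqrt_mul_sqrt s w (fun k => ‖z k‖)).trans ?_
  gcongr
  exact Real.sqrt_le_iff.mpr ⟨norm_nonneg _, sum_sq_le z s⟩

lemma weighted_le (z : lp Y 2) (s : Finset ℕ) (w : ℕ → ℝ) (hs : ∑ k ∈ s, w k ^ 2 ≤ 1) :
    ∑ k ∈ s, w k * ‖z k‖ ≤ ‖z‖ := by
  refine (weighted_le' z s w).trans ?_
  have h1 : Real.sqrt (∑ k ∈ s, w k ^ 2) ≤ 1 := Real.sqrt_le_one.mpr hs
  nlinarith [norm_nonneg z]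

/-- Separability of `ℓ²`-sums. -/
theorem separable (hY : ∀ k, TopologicalSpace.SeparableSpace (Y k)) :
    TopologicalSpace.SeparableSpace (lp Y 2) := by
  let U : Set (lp Y 2) := ⋃ k, Set.range (lp.single (E := Y) 2 k)
  have hU : TopologicalSpace.IsSeparable U :=
    TopologicalSpace.IsSeparable.iUnion fun k =>
      TopologicalSpace.isSeparable_range (lp.isometry_single k).continuous
  have h3 := (hU.span (R := ℝ)).closure
  have huniv : (Set.univ : Set (lp Y 2)) ⊆ closure (Submodule.span ℝ U : Set (lp Y 2)) := by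
    intro z _
    refine mem_closure_of_tendsto (lp.hasSum_single (p := 2) (by norm_num) z) ?_
    refine Eventually.of_forall fun s => ?_
    refine Submodule.sum_mem _ fun k _ => Submodule.subset_span ?_
    exact Set.mem_iUnion.mpr ⟨k, _, rfl⟩
  exact TopologicalSpace.isSeparable_univ_iff.mp (h3.mono huniv)

/-- The coordinate projection. -/
noncomputable abbrev pi (k : ℕ) : lp Y 2 →L[ℝ] Y k := lp.evalCLM ℝ Y 2 k

/-- The coordinate embedding. -/
noncomputable abbrev iota (k : ℕ) : Y k →L[ℝ] lp Y 2 := lp.singleContinuousLinearMap ℝ Y 2 k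

lemma iota_apply (k : ℕ) (y : Y k) : iota k y = lp.single 2 k y := rfl

lemma pi_apply (k : ℕ) (z : lp Y 2) : pi k z = z k := rfl

/-- The norm of a finite combination of blocks. -/
lemma norm_sum_single_sq (f : ∀ k, Y k) (s : Finset ℕ) :
    ‖∑ k ∈ s, lp.single 2 k (f k)‖ ^ 2 = ∑ k ∈ s, ‖f k‖ ^ 2 := by
  have := lp.norm_sum_single (p := 2) (by norm_num) f s
  simpa using this

lemma hasSum_dual (φ : StrongDual ℝ (lp Y 2)) (z : lp Y 2) :
    HasSum (fun k => φ (lp.single 2 k (z k))) (φ z) :=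
  (lp.hasSum_single (p := 2) (by norm_num) z).mapL φ

lemma sq_le_of_le_mul_sqrt {S A : ℝ} (hS : 0 ≤ S) (h : S ≤ A * Real.sqrt S) (hA : 0 ≤ A) :
    S ≤ A ^ 2 := by
  rcases eq_or_lt_of_le hS with h0 | h0
  · rw [← h0]; positivity
  have hr : 0 < Real.sqrt S := Real.sqrt_pos.mpr h0
  have hsq : Real.sqrt S * Real.sqrt S = S := Real.mul_self_sqrt hS
  have h1 : Real.sqrt S ≤ A := by
    by_contra hcon
    push Not at hcon
    have : A * Real.sqrt S < Real.sqrt S * Real.sqrt S := by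
      exact mul_lt_mul_of_pos_right hcon hr
    linarith
  have : Real.sqrt S * Real.sqrt S ≤ A * A := mul_self_le_mul_self hr.le h1
  nlinarith

/-- Square-summability of the block norms of a functional. -/
theorem dual_sq_sum (φ : StrongDual ℝ (lp Y 2)) (s : Finset ℕ) :
    ∑ k ∈ s, ‖φ.comp (iota k)‖ ^ 2 ≤ ‖φ‖ ^ 2 := by
  classical
  set c : ℕ → ℝ := fun k => ‖φ.comp (iota k)‖ with hc
  have hcn : ∀ k, 0 ≤ c k := fun k => norm_nonneg _
  set S : ℝ := ∑ k ∈ s, c k ^ 2 with hS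
  have hS0 : 0 ≤ S := Finset.sum_nonneg fun k _ => sq_nonneg _
  refine sq_le_of_le_mul_sqrt hS0 ?_ (norm_nonneg _)
  refine le_of_forall_pos_le_add fun ε hε => ?_
  set T : ℝ := ∑ k ∈ s, c k with hT
  have hT0 : 0 ≤ T := Finset.sum_nonneg fun k _ => hcn k
  set δ : ℝ := ε / (1 + T) with hδ
  have hδpos : 0 < δ := by positivity
  have hy : ∀ k, ∃ y : Y k, ‖y‖ ≤ 1 ∧ c k - δ ≤ φ (lp.single 2 k y) := by
    intro k
    obtain ⟨y, hy, hr⟩ := (φ.comp (iota k)).exists_lt_apply_of_lt_opNorm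
      (show c k - δ < ‖φ.comp (iota k)‖ by simp only [hc]; linarith)
    have hval : (φ.comp (iota k)) y = φ (lp.single 2 k y) := rfl
    rw [hval, Real.norm_eq_abs] at hr
    rcases le_total 0 (φ (lp.single 2 k y)) with h | h
    · exact ⟨y, hy.le, by rw [abs_of_nonneg h] at hr; exact hr.le⟩
    · refine ⟨-y, by simpa using hy.le, ?_⟩
      rw [abs_of_nonpos h] at hr
      rw [lp.single_neg, map_neg]
      exact hr.le
  choose y hy1 hy2 using hy
  set z : lp Y 2 := ∑ k ∈ s, lp.single 2 k (c k • y k) with hz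
  have hzn : ‖z‖ ^ 2 ≤ S := by
    rw [hz, norm_sum_single_sq (fun k => c k • y k) s]
    refine Finset.sum_le_sum fun k _ => ?_
    rw [norm_smul, Real.norm_eq_abs, abs_of_nonneg (hcn k), mul_pow]
    have : ‖y k‖ ^ 2 ≤ 1 := pow_le_one₀ (norm_nonneg _) (hy1 k)
    nlinarith [sq_nonneg (c k)]
  have hzn' : ‖z‖ ≤ Real.sqrt S := Real.le_sqrt_of_sq_le hzn
  have hφz : φ z = ∑ k ∈ s, c k * φ (lp.single 2 k (y k)) := by
    rw [hz, map_sum]
    refine Finset.sum_congr rfl fun k _ => ?_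
    rw [lp.single_smul, map_smul, smul_eq_mul]
  have hle : S - δ * T ≤ φ z := by
    rw [hφz, hS, hT, Finset.mul_sum, ← Finset.sum_sub_distrib]
    refine Finset.sum_le_sum fun k _ => ?_
    nlinarith [hy2 k, hcn k]
  have hup : φ z ≤ ‖φ‖ * Real.sqrt S := by
    refine (le_abs_self _).trans ?_
    have := φ.le_opNorm z
    rw [Real.norm_eq_abs] at this
    refine this.trans ?_
    gcongr
  have hδT : δ * T ≤ ε := by
    rw [hδ, div_mul_eq_mul_div, div_le_iff₀ (by positivity)]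
    nlinarith
  linarith

lemma summable_dual (φ : StrongDual ℝ (lp Y 2)) :
    Summable (fun k => ‖φ.comp (iota k)‖ ^ 2) :=
  summable_of_sum_le (fun _ => sq_nonneg _) (dual_sq_sum φ)

/-- Finite truncation of a functional. -/
noncomputable def trunc (φ : StrongDual ℝ (lp Y 2)) (n : ℕ) : StrongDual ℝ (lp Y 2) :=
  ∑ k ∈ Finset.range n, (φ.comp (iota k)).comp (pi k)

lemma trunc_apply (φ : StrongDual ℝ (lp Y 2)) (n : ℕ) (z : lp Y 2) :
    trunc φ n z = ∑ k ∈ Finset.range n, φ (lp.single 2 k (z k)) := by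
  simp only [trunc, ContinuousLinearMap.sum_apply]
  rfl

lemma norm_sub_trunc_le (φ : StrongDual ℝ (lp Y 2)) (n : ℕ) :
    ‖φ - trunc φ n‖ ≤ Real.sqrt (∑' k, ‖φ.comp (iota k)‖ ^ 2
      - ∑ k ∈ Finset.range n, ‖φ.comp (iota k)‖ ^ 2) := by
  refine ContinuousLinearMap.opNorm_le_bound _ (Real.sqrt_nonneg _) fun z => ?_
  set f : ℕ → ℝ := fun k => φ (lp.single 2 k (z k)) with hf
  have hsum := (hasSum_dual φ z).tendsto_sum_nat
  have hval : (φ - trunc φ n) z = φ z - ∑ k ∈ Finset.range n, f k := by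
    rw [ContinuousLinearMap.sub_apply, trunc_apply]
  rw [hval]
  have hlim : Tendsto (fun N => |∑ k ∈ Finset.range N, f k - ∑ k ∈ Finset.range n, f k|) atTop
      (𝓝 |φ z - ∑ k ∈ Finset.range n, f k|) :=
    (hsum.sub_const _).abs
  rw [Real.norm_eq_abs]
  refine le_of_tendsto hlim ?_
  filter_upwards [eventually_ge_atTop n] with N hN
  rw [← Finset.sum_Ico_eq_sub f hN, ← Real.norm_eq_abs]
  refine (norm_sum_le _ _).trans ?_
  have hbd : ∀ k ∈ Finset.Ico n N, ‖f k‖ ≤ ‖φ.comp (iota k)‖ * ‖z k‖ := by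
    intro k _
    have := (φ.comp (iota k)).le_opNorm (z k)
    exact this
  refine (Finset.sum_le_sum hbd).trans ?_
  refine (weighted_le' z _ (fun k => ‖φ.comp (iota k)‖)).trans ?_
  gcongr
  rw [le_sub_iff_add_le, Finset.sum_Ico_eq_sub _ hN, sub_add_cancel]
  exact (summable_dual φ).sum_le_tsum _ (fun _ _ => sq_nonneg _)

lemma tendsto_trunc (φ : StrongDual ℝ (lp Y 2)) : Tendsto (trunc φ) atTop (𝓝 φ) := by
  rw [tendsto_iff_norm_sub_tendsto_zero]
  have h1 : Tendsto (fun n => Real.sqrt (∑' k, ‖φ.comp (iota k)‖ ^ 2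
      - ∑ k ∈ Finset.range n, ‖φ.comp (iota k)‖ ^ 2)) atTop (𝓝 0) := by
    have h2 := (summable_dual φ).hasSum.tendsto_sum_nat
    have h3 : Tendsto (fun n => ∑' k, ‖φ.comp (iota k)‖ ^ 2
      - ∑ k ∈ Finset.range n, ‖φ.comp (iota k)‖ ^ 2) atTop (𝓝 0) := by
      have := h2.const_sub (∑' k, ‖φ.comp (iota k)‖ ^ 2)
      simpa using this
    have := h3.sqrt
    simpa using this
  refine squeeze_zero (fun _ => norm_nonneg _) (fun n => ?_) h1
  rw [norm_sub_rev]
  exact norm_sub_trunc_le φ n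

/-- `ℓ²`-sums of reflexive spaces are reflexive. -/
theorem reflexive_lp2 (hY : ∀ k, Function.Surjective (NormedSpace.inclusionInDoubleDual ℝ (Y k))) :
    Function.Surjective (NormedSpace.inclusionInDoubleDual ℝ (lp Y 2)) := by
  classical
  intro Φ
  -- the coordinates
  have hcoord : ∀ k, ∃ x : Y k, ∀ ψ : StrongDual ℝ (Y k), Φ (ψ.comp (pi k)) = ψ x := by
    intro k
    obtain ⟨x, hx⟩ := hY k (Φ.comp ((ContinuousLinearMap.compL ℝ (lp Y 2) (Y k) ℝ).flip (pi k)))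
    refine ⟨x, fun ψ => ?_⟩
    have := congrArg (fun F => F ψ) hx
    simp only [NormedSpace.dual_def] at this
    rw [this]
    rfl
  choose x hx using hcoord
  -- square summability
  have hbd : ∀ s : Finset ℕ, ∑ k ∈ s, ‖x k‖ ^ 2 ≤ ‖Φ‖ ^ 2 := by
    intro s
    refine sq_le_of_le_mul_sqrt (Finset.sum_nonneg fun k _ => sq_nonneg _) ?_ (norm_nonneg Φ)
    have hdv : ∀ k, ∃ g : StrongDual ℝ (Y k), ‖g‖ ≤ 1 ∧ g (x k) = ‖x k‖ :=
      fun k => exists_dual_vector'' ℝ (x k)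
    choose g hg1 hg2 using hdv
    set F : StrongDual ℝ (lp Y 2) := ∑ k ∈ s, ‖x k‖ • (g k).comp (pi k) with hF
    have hval : Φ F = ∑ k ∈ s, ‖x k‖ ^ 2 := by
      rw [hF, map_sum]
      refine Finset.sum_congr rfl fun k _ => ?_
      rw [map_smul, hx, hg2, smul_eq_mul]
      ring
    have hFn : ‖F‖ ≤ Real.sqrt (∑ k ∈ s, ‖x k‖ ^ 2) := by
      refine ContinuousLinearMap.opNorm_le_bound _ (Real.sqrt_nonneg _) fun z => ?_
      have h1 : F z = ∑ k ∈ s, ‖x k‖ * g k (z k) := by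
        rw [hF, ContinuousLinearMap.sum_apply]
        refine Finset.sum_congr rfl fun k _ => ?_
        rfl
      rw [h1]
      refine (norm_sum_le _ _).trans ?_
      have h2 : ∀ k ∈ s, ‖‖x k‖ * g k (z k)‖ ≤ ‖x k‖ * ‖z k‖ := by
        intro k _
        rw [norm_mul, norm_norm]
        gcongr
        calc ‖g k (z k)‖ ≤ ‖g k‖ * ‖z k‖ := (g k).le_opNorm _
          _ ≤ 1 * ‖z k‖ := by gcongr; exact hg1 k
          _ = ‖z k‖ := one_mul _
      refine (Finset.sum_le_sum h2).trans ?_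
      exact weighted_le' z s (fun k => ‖x k‖)
    have h3 := Φ.le_opNorm F
    rw [Real.norm_eq_abs] at h3
    have h4 : ‖Φ‖ * ‖F‖ ≤ ‖Φ‖ * Real.sqrt (∑ k ∈ s, ‖x k‖ ^ 2) := by gcongr
    calc ∑ k ∈ s, ‖x k‖ ^ 2 = Φ F := hval.symm
      _ ≤ |Φ F| := le_abs_self _
      _ ≤ _ := h3.trans h4
  have hmem : Memℓp x 2 := memℓp_gen' (C := ‖Φ‖ ^ 2) (fun s => by simpa using hbd s)
  refine ⟨⟨x, hmem⟩, ?_⟩
  ext φ
  simp only [NormedSpace.dual_def]
  have h1 : Tendsto (fun n => Φ (trunc φ n)) atTop (𝓝 (Φ φ)) :=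
    Φ.continuous.continuousAt.tendsto.comp (tendsto_trunc φ)
  have h2 := (hasSum_dual φ (⟨x, hmem⟩ : lp Y 2)).tendsto_sum_nat
  refine tendsto_nhds_unique h2 (h1.congr fun n => ?_)
  rw [trunc, map_sum]
  refine Finset.sum_congr rfl fun k _ => ?_
  rw [hx]
  rfl

end Crest.Agent.Lib.L2Sum
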