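/-
A Cauchy-Binet type expansion of the determinant of a weighted Gram matrix.
-/
import Mathlib

set_option autoImplicit false

namespace Crest.Agent.Lib.Loc

open Finset Matrix
open scoped Classical

variable {n ε : Type*} [Fintype n] [DecidableEq n]

/-- The weighted Gram matrix. -/
noncomputable def gram (E : Finset ε) (a : ε → n → ℂ) (z : ε → ℂ) : Matrix n n ℂ :=
  fun x y => ∑ e ∈ E, z e * (a e x * a e y)

/-- The matrix with columns `a (f v)`. -/
noncomputable def colM (a : ε → n → ℂ) (f : n → ε) : Matrix n n ℂ := fun u v => a (f v) u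

/-- First expansion of the determinant. -/
lemma det_gram_expand (E : Finset ε) (a : ε → n → ℂ) (z : ε → ℂ) :
    (gram E a z).det = ∑ f ∈ Fintype.piFinset (fun _ : n => E),
      (∏ i, z (f i)) * (∏ i, a (f i) i) * (colM a f).det := by
  rw [Matrix.det_apply']
  have h1 : ∀ σ : Equiv.Perm n, ∏ i, gram E a z (σ i) i =
      ∑ f ∈ Fintype.piFinset (fun _ : n => E),
        ∏ i, (z (f i) * (a (f i) (σ i) * a (f i) i)) := by
    intro σ
    unfold gram
    rw [Finset.prod_univ_sum]
  simp only [h1, Finset.mul_sum]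
  rw [Finset.sum_comm]
  refine Finset.sum_congr rfl fun f _ => ?_
  rw [Matrix.det_apply', Finset.mul_sum]
  refine Finset.sum_congr rfl fun σ _ => ?_
  have h2 : ∏ i, (z (f i) * (a (f i) (σ i) * a (f i) i)) =
      (∏ i, z (f i)) * (∏ i, a (f i) i) * ∏ i, colM a f (σ i) i := by
    simp only [colM, Finset.prod_mul_distrib]
    ring
  rw [h2]
  ring

lemma colM_det_of_not_injective (a : ε → n → ℂ) {f : n → ε} (hf : ¬ Function.Injective f) :
    (colM a f).det = 0 := by
  unfold Function.Injective at hf
  push Not at hf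
  obtain ⟨i, j, hij, hne⟩ := hf
  exact Matrix.det_zero_of_column_eq hne (fun k => by simp [colM, hij])

/-- The coefficient of `T`. -/
noncomputable def cbCoef (E : Finset ε) (a : ε → n → ℂ) (T : Finset ε) : ℂ :=
  ∑ f ∈ (Fintype.piFinset (fun _ : n => E)).filter
      (fun f => Function.Injective f ∧ Finset.univ.image f = T),
    (∏ i, a (f i) i) * (colM a f).det

lemma det_gram_eq_sum (E : Finset ε) (a : ε → n → ℂ) (z : ε → ℂ) :
    (gram E a z).det = ∑ T ∈ E.powersetCard (Fintype.card n),
      (∏ e ∈ T, z e) * cbCoef E a T := by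
  rw [det_gram_expand]
  set P := Fintype.piFinset (fun _ : n => E) with hP
  have h1 : ∑ f ∈ P, (∏ i, z (f i)) * (∏ i, a (f i) i) * (colM a f).det =
      ∑ f ∈ P.filter Function.Injective,
        (∏ i, z (f i)) * (∏ i, a (f i) i) * (colM a f).det := by
    rw [Finset.sum_filter]
    refine Finset.sum_congr rfl fun f _ => ?_
    split_ifs with h
    · rfl
    · rw [colM_det_of_not_injective a h, mul_zero]
  rw [h1]
  have hmaps : ∀ f ∈ P.filter Function.Injective,
      Finset.univ.image f ∈ E.powersetCard (Fintype.card n) := by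
    intro f hf
    obtain ⟨hf1, hf2⟩ := Finset.mem_filter.1 hf
    refine Finset.mem_powersetCard.2 ⟨?_, ?_⟩
    · intro e he
      obtain ⟨i, _, rfl⟩ := Finset.mem_image.1 he
      exact Fintype.mem_piFinset.1 hf1 i
    · rw [Finset.card_image_of_injective _ hf2]
      rfl
  rw [← Finset.sum_fiberwise_of_maps_to hmaps]
  refine Finset.sum_congr rfl fun T _ => ?_
  unfold cbCoef
  rw [Finset.mul_sum, Finset.filter_filter]
  refine Finset.sum_congr rfl fun f hf => ?_
  obtain ⟨_, hf2, hf3⟩ := Finset.mem_filter.1 hf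
  have h2 : ∏ e ∈ T, z e = ∏ i, z (f i) := by
    rw [← hf3, Finset.prod_image (fun x _ y _ h => hf2 h)]
  rw [h2]
  ring

/-- Indicator weights. -/
noncomputable def indW (T : Finset ε) : ε → ℂ := fun e => if e ∈ T then 1 else 0

lemma cbCoef_eq (E : Finset ε) (a : ε → n → ℂ) {T : Finset ε}
    (hT : T ∈ E.powersetCard (Fintype.card n)) :
    cbCoef E a T = (gram E a (indW T)).det := by
  rw [det_gram_eq_sum, Finset.sum_eq_single T]
  · have : ∏ e ∈ T, indW T e = 1 := Finset.prod_eq_one fun e he => by simp [indW, he]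
    rw [this, one_mul]
  · intro T' hT' hne
    have hsub : ¬ T' ⊆ T := by
      intro h
      apply hne
      refine Finset.eq_of_subset_of_card_le h ?_
      rw [(Finset.mem_powersetCard.1 hT').2, (Finset.mem_powersetCard.1 hT).2]
    obtain ⟨e, he, he'⟩ := Finset.not_subset.1 hsub
    rw [Finset.prod_eq_zero he (by simp [indW, he']), zero_mul]
  · intro h
    exact absurd hT h

/-- The Cauchy-Binet expansion. -/
theorem det_gram_cauchyBinet (E : Finset ε) (a : ε → n → ℂ) (z : ε → ℂ) :
    (gram E a z).det = ∑ T ∈ E.powersetCard (Fintype.card n),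
      (∏ e ∈ T, z e) * (gram E a (indW T)).det := by
  rw [det_gram_eq_sum]
  refine Finset.sum_congr rfl fun T hT => ?_
  rw [cbCoef_eq E a hT]

/-- The Gram matrix of a set of the right size is the product of a square matrix by its
transpose. -/
lemma gram_indW_eq {E T : Finset ε} (a : ε → n → ℂ) (hTE : T ⊆ E) (g : n ≃ T) :
    gram E a (indW T) = colM a (fun v => (g v : ε)) * (colM a (fun v => (g v : ε)))ᵀ := by
  ext x y
  simp only [gram, indW, Matrix.mul_apply, Matrix.transpose_apply, colM]
  have h1 : ∑ e ∈ E, (if e ∈ T then (1 : ℂ) else 0) * (a e x * a e y) =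
      ∑ e ∈ T, a e x * a e y := by
    rw [← Finset.sum_subset hTE]
    · refine Finset.sum_congr rfl fun e he => by simp [he]
    · intro e _ he
      simp [he]
  rw [h1, ← Finset.sum_coe_sort T (fun e => a e x * a e y)]
  exact (Equiv.sum_comp g (fun e : T => a (e : ε) x * a (e : ε) y)).symm

lemma det_gram_indW {E T : Finset ε} (a : ε → n → ℂ) (hTE : T ⊆ E) (g : n ≃ T) :
    (gram E a (indW T)).det = (colM a (fun v => (g v : ε))).det ^ 2 := by
  rw [gram_indW_eq a hTE g, Matrix.det_mul, Matrix.det_transpose, sq]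

end Crest.Agent.Lib.Loc
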