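/-
An elasticity bound for the ratio of two polynomials forming a stable pair (Schwarz lemma).
-/
import Mathlib

set_option autoImplicit false

namespace Crest.Agent.Lib.Loc

open Complex Set Metric Filter Topology ComplexConjugate

lemma isOpen_HP : IsOpen {t : ℂ | 0 < t.im} := isOpen_lt continuous_const continuous_im

lemma isPreconnected_HP : IsPreconnected {t : ℂ | 0 < t.im} :=
  (convex_halfSpace_im_gt 0).isPreconnected

/-- The basic inequality for a stable pair at a point of the upper half plane. -/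
lemma pair_im_nonneg {x y : ℂ} (h : ∀ s : ℂ, 0 < s.im → x + s * y ≠ 0) :
    0 ≤ (x * conj y).im := by
  by_contra hcon
  push Not at hcon
  have hy : y ≠ 0 := by
    rintro rfl
    simp at hcon
  have hN : (0 : ℝ) < normSq y := normSq_pos.2 hy
  refine h (-(x * conj y) * (((normSq y)⁻¹ : ℝ) : ℂ)) ?_ ?_
  · rw [mul_im]
    simp only [neg_re, neg_im, ofReal_re, ofReal_im, mul_zero, zero_add]
    have : 0 < -(x * conj y).im * (normSq y)⁻¹ :=
      mul_pos (by linarith) (inv_pos.2 hN)
    linarith
  · have h1 : ((normSq y : ℝ) : ℂ) = conj y * y := normSq_eq_conj_mul_self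
    have h2 : ((normSq y : ℝ) : ℂ) ≠ 0 := by
      exact_mod_cast hN.ne'
    push_cast
    field_simp
    rw [h1]
    ring

lemma normSq_add_I_mul (x y : ℂ) :
    normSq (x + I * y) = normSq x + normSq y + 2 * (x * conj y).im := by
  simp only [normSq_apply, add_re, add_im, mul_re, mul_im, I_re, I_im, conj_re, conj_im]
  ring

lemma normSq_sub_I_mul (x y : ℂ) :
    normSq (x - I * y) = normSq x + normSq y - 2 * (x * conj y).im := by
  simp only [normSq_apply, sub_re, sub_im, mul_re, mul_im, I_re, I_im, conj_re, conj_im]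
  ring

/-- The elementary Cayley estimate. -/
lemma norm_cayley_le {g c : ℂ} (hg : 0 < g.re) {r : ℝ} (hr : 0 < r) (hc : c = r) :
    ‖(g - c) / (g + c)‖ ≤ 1 := by
  subst hc
  have hne : g + (r : ℂ) ≠ 0 := by
    intro h
    have := congrArg re h
    simp at this
    linarith
  rw [norm_div, div_le_one (norm_pos_iff.2 hne)]
  rw [← sq_le_sq₀ (norm_nonneg _) (norm_nonneg _), ← normSq_eq_norm_sq, ← normSq_eq_norm_sq]
  simp only [normSq_apply, sub_re, sub_im, add_re, add_im, ofReal_re, ofReal_im, sub_zero, add_zero]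
  nlinarith [mul_pos hg hr]

/-- The map from the unit disc to the slit plane. -/
noncomputable def wDisc (u : ℂ) : ℂ := (1 + u) / (1 - u)

lemma wDisc_re_pos {u : ℂ} (hu : ‖u‖ < 1) : 0 < (wDisc u).re := by
  have h1 : normSq u < 1 := by
    rw [normSq_eq_norm_sq]
    nlinarith [norm_nonneg u]
  have hne : (1 - u) ≠ 0 := by
    intro h
    have : u = 1 := by linear_combination -h
    rw [this] at hu
    simp at hu
  have hN : (0 : ℝ) < normSq (1 - u) := normSq_pos.2 hne
  unfold wDisc
  rw [div_re]
  simp only [add_re, add_im, sub_re, sub_im, one_re, one_im, zero_add, zero_sub]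
  have : (1 + u.re) * (1 - u.re) / normSq (1 - u) + u.im * -u.im / normSq (1 - u) =
      (1 - normSq u) / normSq (1 - u) := by
    rw [← add_div, normSq_apply u]
    congr 1
    ring
  rw [this]
  exact div_pos (by linarith) hN

lemma sq_mem_slitPlane {w : ℂ} (hw : 0 < w.re) : w ^ 2 ∈ slitPlane := by
  rw [mem_slitPlane_iff]
  by_cases him : w.im = 0
  · left
    rw [sq, mul_re, him]
    nlinarith
  · right
    rw [sq, mul_im]
    intro h
    apply him
    have : w.re * w.im = 0 := by linarith
    exact (mul_eq_zero.1 this).resolve_left hw.ne'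

/-- The principal square root of a point of the slit plane has positive real part. -/
lemma sqrtC_re_pos {w : ℂ} (hw : w ∈ slitPlane) : 0 < (exp (log w / 2)).re := by
  rw [exp_re]
  refine mul_pos (Real.exp_pos _) (Real.cos_pos_of_mem_Ioo ?_)
  have h1 : |(log w).im| < Real.pi := by
    rw [log_im, abs_lt]
    exact ⟨neg_pi_lt_arg w, lt_of_le_of_ne (arg_le_pi w) (mem_slitPlane_iff_arg.1 hw).1⟩
  have h2 : (log w / 2).im = (log w).im / 2 := by
    simp
  rw [h2]
  have := abs_lt.1 h1
  constructor <;> linarith [this.1, this.2]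

/-- The Schwarz lemma estimate for a function from the slit plane to the slit plane. -/
lemma slit_elasticity {f : ℂ → ℂ} (hf : ∀ t ∈ slitPlane, DifferentiableAt ℂ f t)
    (hmap : ∀ t ∈ slitPlane, f t ∈ slitPlane) {r d : ℝ} (hr : 0 < r) (h1 : f 1 = r)
    (hd : HasDerivAt f d 1) : |d / r| ≤ 1 := by
  set c₀ : ℝ := Real.exp (Real.log r / 2) with hc₀
  have hc₀pos : 0 < c₀ := Real.exp_pos _
  set g : ℂ → ℂ := fun t => exp (log (f t) / 2) with hg
  have hg1 : g 1 = c₀ := by
    simp only [hg, h1, hc₀]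
    rw [← ofReal_log hr.le]
    push_cast
    rfl
  have hgre : ∀ t ∈ slitPlane, 0 < (g t).re := fun t ht => sqrtC_re_pos (hmap t ht)
  have hgd : ∀ t ∈ slitPlane, DifferentiableAt ℂ g t := by
    intro t ht
    exact (((hf t ht).clog (hmap t ht)).div_const 2).cexp
  set ψ : ℂ → ℂ := fun u => wDisc u ^ 2 with hψ
  have hψs : ∀ u ∈ ball (0 : ℂ) 1, ψ u ∈ slitPlane := by
    intro u hu
    exact sq_mem_slitPlane (wDisc_re_pos (by simpa using hu))
  have h1u : ∀ u ∈ ball (0 : ℂ) 1, (1 - u) ≠ 0 := by
    intro u hu h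
    have : u = 1 := by linear_combination -h
    rw [this] at hu
    simp at hu
  have hψd : ∀ u ∈ ball (0 : ℂ) 1, DifferentiableAt ℂ ψ u := by
    intro u hu
    have : DifferentiableAt ℂ wDisc u :=
      DifferentiableAt.div (by fun_prop) (by fun_prop) (h1u u hu)
    exact this.pow 2
  set Ψ : ℂ → ℂ := fun u => (g (ψ u) - c₀) / (g (ψ u) + c₀) with hΨ
  have hden : ∀ u ∈ ball (0 : ℂ) 1, g (ψ u) + c₀ ≠ 0 := by
    intro u hu h
    have := congrArg re h
    simp only [add_re, ofReal_re, zero_re] at this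
    linarith [hgre _ (hψs u hu)]
  have hΨd : DifferentiableOn ℂ Ψ (ball 0 1) := by
    intro u hu
    have h2 : DifferentiableAt ℂ (g ∘ ψ) u :=
      DifferentiableAt.comp u (hgd _ (hψs u hu)) (hψd u hu)
    exact ((h2.sub_const _).div (h2.add_const _) (hden u hu)).differentiableWithinAt
  have hψ0 : ψ 0 = 1 := by
    simp [hψ, wDisc]
  have hΨ0 : Ψ 0 = 0 := by
    simp [hΨ, hψ0, hg1]
  have hmaps : MapsTo Ψ (ball 0 1) (closedBall (Ψ 0) 1) := by
    intro u hu
    rw [hΨ0]
    simp only [mem_closedBall, dist_zero_right]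
    exact norm_cayley_le (hgre _ (hψs u hu)) hc₀pos rfl
  have hSch := Complex.norm_deriv_le_div_of_mapsTo_ball hΨd hmaps one_pos
  -- the derivative at the origin
  have hw : HasDerivAt wDisc 2 0 := by
    have h3 : HasDerivAt (fun u : ℂ => (1 + u) / (1 - u))
        ((1 * (1 - 0) - (1 + 0) * (-1)) / (1 - 0) ^ 2) 0 :=
      HasDerivAt.div ((hasDerivAt_id _).const_add 1) ((hasDerivAt_id _).const_sub 1) (by simp)
    have h4 : ((1 : ℂ) * (1 - 0) - (1 + 0) * (-1)) / (1 - 0) ^ 2 = 2 := by norm_num
    rw [h4] at h3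
    exact h3
  have hw0 : wDisc 0 = 1 := by simp [wDisc]
  have hψ' : HasDerivAt ψ 4 0 := by
    have := hw.fun_pow 2
    rw [hw0] at this
    have h5 : ((2 : ℕ) : ℂ) * 1 ^ (2 - 1) * 2 = 4 := by norm_num
    rw [h5] at this
    exact this
  have hlog : HasDerivAt (fun t => log (f t)) ((d : ℂ) / (r : ℂ)) 1 := by
    have h5 : f 1 ∈ slitPlane := by
      rw [h1]
      simpa using hr
    have := hd.clog h5
    rwa [h1] at this
  have hg' : HasDerivAt g ((c₀ : ℂ) * ((d : ℂ) / (r : ℂ) / 2)) 1 := by
    have h5 := (hlog.div_const 2).cexp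
    rw [show exp (log (f 1) / 2) = (c₀ : ℂ) from hg1] at h5
    exact h5
  have hgψ : HasDerivAt (fun u => g (ψ u)) ((c₀ : ℂ) * ((d : ℂ) / (r : ℂ) / 2) * 4) 0 := by
    have h5 : HasDerivAt g ((c₀ : ℂ) * ((d : ℂ) / (r : ℂ) / 2)) (ψ 0) := by
      rw [hψ0]; exact hg'
    exact h5.comp 0 hψ'
  have hgψ0 : g (ψ 0) = c₀ := by rw [hψ0, hg1]
  have hc0 : (c₀ : ℂ) ≠ 0 := by exact_mod_cast hc₀pos.ne'
  have hr0 : (r : ℂ) ≠ 0 := by exact_mod_cast hr.ne'
  have hΨ' : HasDerivAt Ψ ((d : ℂ) / (r : ℂ)) 0 := by
    have h5 := (hgψ.sub_const (c₀ : ℂ)).div (hgψ.add_const (c₀ : ℂ)) (by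
      rw [hgψ0]
      intro h
      apply hc0
      linear_combination h / 2)
    rw [hgψ0] at h5
    have h7 : ((c₀ : ℂ) * ((d : ℂ) / (r : ℂ) / 2) * 4 * ((c₀ : ℂ) + c₀) -
        ((c₀ : ℂ) - c₀) * ((c₀ : ℂ) * ((d : ℂ) / (r : ℂ) / 2) * 4)) / ((c₀ : ℂ) + c₀) ^ 2 =
        (d : ℂ) / (r : ℂ) := by
      rw [sub_self, zero_mul, sub_zero]
      have h8 : (c₀ : ℂ) + c₀ = 2 * c₀ := by ring
      rw [h8]
      field_simp
      ring
    rw [h7] at h5
    exact h5
  rw [hΨ'.deriv] at hSch
  have h6 : ‖(d : ℂ) / (r : ℂ)‖ = |d / r| := by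
    rw [← ofReal_div, norm_real, Real.norm_eq_abs]
  rw [h6] at hSch
  simpa using hSch

/-- The elasticity bound for a stable pair of real entire functions, positive on `(0,∞)`. -/
theorem pick_elasticity {a b : ℂ → ℂ} (ha : Differentiable ℂ a) (hb : Differentiable ℂ b)
    (hac : ∀ t, a (conj t) = conj (a t)) (hbc : ∀ t, b (conj t) = conj (b t))
    (hap : ∀ x : ℝ, 0 < x → ∃ r : ℝ, 0 < r ∧ a x = r)
    (hbp : ∀ x : ℝ, 0 < x → ∃ r : ℝ, 0 < r ∧ b x = r)
    (hst : ∀ s t : ℂ, 0 < s.im → 0 < t.im → a t + s * b t ≠ 0)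
    {a1 b1 da db : ℝ} (h1 : a 1 = a1) (h2 : b 1 = b1) (h3 : HasDerivAt a da 1)
    (h4 : HasDerivAt b db 1) (ha1 : 0 < a1) (hb1 : 0 < b1) :
    da * b1 - a1 * db ≤ a1 * b1 := by
  have hJ : ∀ t, 0 < t.im → 0 ≤ (a t * conj (b t)).im := fun t ht =>
    pair_im_nonneg fun s hs => hst s t hs ht
  have hne : ∀ t, 0 < t.im → a t + I * b t ≠ 0 := fun t ht => hst I t (by simp) ht
  set Φ : ℂ → ℂ := fun t => (a t - I * b t) / (a t + I * b t) with hΦ
  have hΦd : DifferentiableOn ℂ Φ {t : ℂ | 0 < t.im} := by
    intro t ht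
    refine DifferentiableAt.differentiableWithinAt ?_
    exact DifferentiableAt.div ((ha t).sub ((hb t).const_mul I))
      ((ha t).add ((hb t).const_mul I)) (hne t ht)
  have hΦle : ∀ t, 0 < t.im → ‖Φ t‖ ≤ 1 := by
    intro t ht
    simp only [hΦ]
    rw [norm_div, div_le_one (norm_pos_iff.2 (hne t ht))]
    rw [← sq_le_sq₀ (norm_nonneg _) (norm_nonneg _), ← normSq_eq_norm_sq, ← normSq_eq_norm_sq,
      normSq_add_I_mul, normSq_sub_I_mul]
    linarith [hJ t ht]
  by_cases hstrict : ∀ t, 0 < t.im → 0 < (a t * conj (b t)).im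
  · -- the ratio is a Pick function
    have habne : ∀ t, t ∈ slitPlane → a t ≠ 0 ∧ b t ≠ 0 := by
      intro t ht
      have hcase : 0 < t.im ∨ t.im < 0 ∨ (t.im = 0 ∧ 0 < t.re) := by
        rcases mem_slitPlane_iff.1 ht with h | h
        · by_cases him : t.im = 0
          · exact Or.inr (Or.inr ⟨him, h⟩)
          · rcases lt_or_gt_of_ne him with h' | h'
            · exact Or.inr (Or.inl h')
            · exact Or.inl h'
        · rcases lt_or_gt_of_ne h with h' | h'
          · exact Or.inr (Or.inl h')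
          · exact Or.inl h'
      rcases hcase with h | h | ⟨h, h'⟩
      · have := hstrict t h
        constructor
        · intro h0
          simp [h0] at this
        · intro h0
          simp [h0] at this
      · have hc : 0 < (conj t).im := by simpa using h
        have := hstrict _ hc
        rw [hac, hbc] at this
        constructor
        · intro h0
          simp [h0] at this
        · intro h0
          simp [h0] at this
      · have ht' : t = (t.re : ℂ) := by
          apply Complex.ext <;> simp [h]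
        obtain ⟨r, hr, hra⟩ := hap t.re h'
        obtain ⟨s, hs, hsb⟩ := hbp t.re h'
        rw [ht', hra, hsb]
        constructor
        · exact_mod_cast hr.ne'
        · exact_mod_cast hs.ne'
    set f : ℂ → ℂ := fun t => a t / b t with hf
    have hfd : ∀ t ∈ slitPlane, DifferentiableAt ℂ f t := fun t ht =>
      (ha t).div (hb t) (habne t ht).2
    have him_div : ∀ x y : ℂ, (x / y).im = (x * conj y).im / normSq y := by
      intro x y
      rw [div_im, mul_im, conj_re, conj_im]
      ring
    have hfm : ∀ t ∈ slitPlane, f t ∈ slitPlane := by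
      intro t ht
      obtain ⟨hat, hbt⟩ := habne t ht
      have hN : (0 : ℝ) < normSq (b t) := normSq_pos.2 hbt
      have hcase : 0 < t.im ∨ t.im < 0 ∨ (t.im = 0 ∧ 0 < t.re) := by
        rcases mem_slitPlane_iff.1 ht with h | h
        · by_cases him : t.im = 0
          · exact Or.inr (Or.inr ⟨him, h⟩)
          · rcases lt_or_gt_of_ne him with h' | h'
            · exact Or.inr (Or.inl h')
            · exact Or.inl h'
        · rcases lt_or_gt_of_ne h with h' | h'
          · exact Or.inr (Or.inl h')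
          · exact Or.inl h'
      rcases hcase with h | h | ⟨h, h'⟩
      · rw [mem_slitPlane_iff]
        right
        simp only [hf]
        rw [him_div]
        exact (div_pos (hstrict t h) hN).ne'
      · rw [mem_slitPlane_iff]
        right
        simp only [hf]
        rw [him_div]
        have hc : 0 < (conj t).im := by simpa using h
        have h3' := hstrict _ hc
        rw [hac, hbc, mul_im, conj_re, conj_im, conj_re, conj_im] at h3'
        simp only [conj_re, conj_im] at h3'
        have h4' : (a t * conj (b t)).im < 0 := by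
          rw [mul_im, conj_re, conj_im]
          linarith
        exact (div_neg_of_neg_of_pos h4' hN).ne
      · have ht' : t = (t.re : ℂ) := by
          apply Complex.ext <;> simp [h]
        obtain ⟨r, hr, hra⟩ := hap t.re h'
        obtain ⟨s, hs, hsb⟩ := hbp t.re h'
        simp only [hf]
        rw [ht', hra, hsb, ← ofReal_div]
        rw [mem_slitPlane_iff]
        left
        simpa using div_pos hr hs
    have hf1 : f 1 = ((a1 / b1 : ℝ) : ℂ) := by
      simp only [hf, h1, h2]
      push_cast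
      rfl
    have hfd1 : HasDerivAt f (((da * b1 - a1 * db) / b1 ^ 2 : ℝ) : ℂ) 1 := by
      have hb1c : (b1 : ℂ) ≠ 0 := by exact_mod_cast hb1.ne'
      have h5 := h3.fun_div h4 (by rw [h2]; exact hb1c)
      rw [h1, h2] at h5
      have h8 : (((da * b1 - a1 * db) / b1 ^ 2 : ℝ) : ℂ) =
          ((da : ℂ) * b1 - a1 * db) / (b1 : ℂ) ^ 2 := by
        push_cast
        rfl
      rw [h8]
      exact h5
    have hE := slit_elasticity hfd hfm (div_pos ha1 hb1) hf1 hfd1
    have h6 := (abs_le.1 hE).2
    have h7 : (da * b1 - a1 * db) / b1 ^ 2 / (a1 / b1) = (da * b1 - a1 * db) / (a1 * b1) := by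
      field_simp
    rw [h7, div_le_one (mul_pos ha1 hb1)] at h6
    exact h6
  · -- the constant case
    push Not at hstrict
    obtain ⟨t₀, ht₀, hJ0⟩ := hstrict
    have hJ0' : (a t₀ * conj (b t₀)).im = 0 := le_antisymm hJ0 (hJ t₀ ht₀)
    have hΦ0 : ‖Φ t₀‖ = 1 := by
      simp only [hΦ]
      rw [norm_div, div_eq_one_iff_eq (norm_ne_zero_iff.2 (hne t₀ ht₀))]
      have h5 : ‖a t₀ - I * b t₀‖ ^ 2 = ‖a t₀ + I * b t₀‖ ^ 2 := by
        rw [← normSq_eq_norm_sq, ← normSq_eq_norm_sq, normSq_add_I_mul, normSq_sub_I_mul, hJ0']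
        ring
      exact (sq_eq_sq₀ (norm_nonneg _) (norm_nonneg _)).1 h5
    have hmax : IsMaxOn (norm ∘ Φ) {t : ℂ | 0 < t.im} t₀ := by
      intro t ht
      simp only [Function.comp, mem_setOf_eq, hΦ0]
      exact hΦle t ht
    have hconst := Complex.eqOn_of_isPreconnected_of_isMaxOn_norm isPreconnected_HP isOpen_HP hΦd
      ht₀ hmax
    set κ : ℂ := Φ t₀ with hκ
    set p : ℂ := 1 - κ with hp
    set q : ℂ := I * (1 + κ) with hq
    have hon : ∀ t, 0 < t.im → p * a t - q * b t = 0 := by
      intro t ht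
      have h5 : Φ t = κ := hconst ht
      simp only [hΦ] at h5
      rw [div_eq_iff (hne t ht)] at h5
      simp only [hp, hq]
      linear_combination h5
    have hent : Differentiable ℂ (fun t => p * a t - q * b t) :=
      (ha.const_mul p).sub (hb.const_mul q)
    have hzero : (fun t => p * a t - q * b t) = fun _ => 0 := by
      refine AnalyticOnNhd.eq_of_eventuallyEq (𝕜 := ℂ) (z₀ := I)
        (hent.differentiableOn.analyticOnNhd isOpen_univ)
        (analyticOnNhd_const) ?_
      have hI : {t : ℂ | 0 < t.im} ∈ 𝓝 I := isOpen_HP.mem_nhds (by simp)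
      filter_upwards [hI] with t ht using hon t ht
    have hval : p * a1 = q * b1 := by
      have := congrFun hzero 1
      simp only [h1, h2] at this
      linear_combination this
    have hder : p * da = q * db := by
      have h5 : HasDerivAt (fun t => p * a t - q * b t) (p * da - q * db) 1 :=
        (h3.const_mul p).sub (h4.const_mul q)
      rw [hzero] at h5
      have h6 := h5.unique (hasDerivAt_const _ _)
      linear_combination h6
    have hb1c : (b1 : ℂ) ≠ 0 := by exact_mod_cast hb1.ne'
    have hpne : p ≠ 0 := by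
      intro hp0
      rw [hp0, zero_mul] at hval
      have hq0 : q = 0 := by
        rcases mul_eq_zero.1 hval.symm with h | h
        · exact h
        · exact absurd h hb1c
      have hκ1 : κ = 1 := by
        simp only [hp] at hp0
        linear_combination -hp0
      simp only [hq, hκ1] at hq0
      norm_num at hq0
    have hfinal : ((da * b1 - a1 * db : ℝ) : ℂ) = 0 := by
      have h5 : p * ((da * b1 - a1 * db : ℝ) : ℂ) = 0 := by
        push_cast
        linear_combination (b1 : ℂ) * hder - (db : ℂ) * hval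
      exact (mul_eq_zero.1 h5).resolve_left hpne
    have h6 : da * b1 - a1 * db = 0 := by exact_mod_cast hfinal
    rw [h6]
    exact (mul_pos ha1 hb1).le

end Crest.Agent.Lib.Loc
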