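/-
Dimension-free Lipschitz bound for the conditional means of a stable multi-affine polynomial.
-/
import Crest.Agent.Lib.LocPick
import Crest.Agent.Lib.LocBayes
import Crest.Prelude.Def_StronglyRayleigh

set_option autoImplicit false

namespace Crest.Agent.Lib.Loc

open Complex Set Filter Topology ComplexConjugate
open scoped Classical

variable {ι : Type*}

/-- A multi-affine polynomial with real coefficients, evaluated at `z`. -/
noncomputable def subPoly (F : Finset ι) (c : Finset ι → ℝ) (z : ι → ℂ) : ℂ :=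
  ∑ S ∈ F.powerset, (c S : ℂ) * ∏ i ∈ S, z i

/-- Stability: no zero when all the coordinates on `F` lie in the open upper half plane. -/
def Stable (F : Finset ι) (c : Finset ι → ℝ) : Prop :=
  ∀ z : ι → ℂ, (∀ i ∈ F, 0 < (z i).im) → subPoly F c z ≠ 0

/-- Tilted weights. -/
noncomputable def tiltW (c : Finset ι → ℝ) (x : ι → ℝ) : Finset ι → ℝ :=
  fun S => c S * ∏ l ∈ S, x l

lemma Stable.tiltW {F : Finset ι} {c : Finset ι → ℝ} (hc : Stable F c) {x : ι → ℝ}
    (hx : ∀ l ∈ F, 0 < x l) : Stable F (tiltW c x) := by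
  intro z hz
  have h1 : subPoly F (Loc.tiltW c x) z = subPoly F c (fun l => (x l : ℂ) * z l) := by
    unfold subPoly
    refine Finset.sum_congr rfl fun S _ => ?_
    simp only [Loc.tiltW, Finset.prod_mul_distrib]
    push_cast
    ring
  rw [h1]
  refine hc _ fun i hi => ?_
  simp only [mul_im, ofReal_re, ofReal_im, zero_mul, add_zero]
  exact mul_pos (hx i hi) (hz i hi)

/-- Total mass. -/
noncomputable def sT (F : Finset ι) (c : Finset ι → ℝ) : ℝ := ∑ S ∈ F.powerset, c S

/-- Mass of the sets containing `e`. -/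
noncomputable def sE1 (F : Finset ι) (c : Finset ι → ℝ) (e : ι) : ℝ :=
  ∑ S ∈ F.powerset, if e ∈ S then c S else 0

/-- Mass of the sets containing `e` and `f`. -/
noncomputable def sE2 (F : Finset ι) (c : Finset ι → ℝ) (e f : ι) : ℝ :=
  ∑ S ∈ F.powerset, if e ∈ S ∧ f ∈ S then c S else 0

/-! ### Negative correlation -/

/-- Coordinates with `s` at `e`, `t` at `f`, and `w` elsewhere. -/
noncomputable def zz2 (e f : ι) (s t w : ℂ) : ι → ℂ :=
  fun i => if i = e then s else if i = f then t else w

/-- The contribution of the other coordinates. -/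
noncomputable def zeta2 (e f : ι) (w : ℂ) (S : Finset ι) : ℂ :=
  ∏ i ∈ S, if i = e ∨ i = f then 1 else w

lemma prod_zz2 {e f : ι} (hef : e ≠ f) (s t w : ℂ) (S : Finset ι) :
    ∏ i ∈ S, zz2 e f s t w i =
      (if e ∈ S then s else 1) * (if f ∈ S then t else 1) * zeta2 e f w S := by
  have h : ∀ i, zz2 e f s t w i =
      (if i = e then s else 1) * (if i = f then t else 1) * (if i = e ∨ i = f then 1 else w) := by
    intro i
    unfold zz2
    by_cases h1 : i = e
    · have h2 : i ≠ f := fun h => hef (h1 ▸ h)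
      simp [h1, hef]
    · by_cases h2 : i = f
      · have h3 : f ≠ e := Ne.symm hef
        simp [h2, h3]
      · simp [h1, h2]
  simp only [h, Finset.prod_mul_distrib, zeta2]
  rw [Finset.prod_ite_eq', Finset.prod_ite_eq']

lemma continuous_zeta2 (e f : ι) (S : Finset ι) : Continuous (fun w : ℂ => zeta2 e f w S) := by
  unfold zeta2
  refine continuous_finsetProd _ fun i _ => ?_
  exact continuous_const.if_const _ continuous_id

lemma zeta2_one (e f : ι) (S : Finset ι) : zeta2 e f 1 S = 1 := by
  simp [zeta2]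

/-- The coefficient with bits `α` at `e` and `β` at `f`. -/
noncomputable def coef2 (F : Finset ι) (c : Finset ι → ℝ) (e f : ι) (α β : Prop) (w : ℂ) : ℂ :=
  ∑ S ∈ F.powerset, if (e ∈ S ↔ α) ∧ (f ∈ S ↔ β) then (c S : ℂ) * zeta2 e f w S else 0

lemma continuous_coef2 (F : Finset ι) (c : Finset ι → ℝ) (e f : ι) (α β : Prop) :
    Continuous (coef2 F c e f α β) := by
  unfold coef2
  refine continuous_finsetSum _ fun S _ => ?_
  by_cases h : (e ∈ S ↔ α) ∧ (f ∈ S ↔ β)
  · simp only [h, and_self, if_true]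
    exact continuous_const.mul (continuous_zeta2 e f S)
  · simp only [h, if_false]
    exact continuous_const

/-- Real coefficient at the point `w = 1`. -/
noncomputable def rcoef2 (F : Finset ι) (c : Finset ι → ℝ) (e f : ι) (α β : Prop) : ℝ :=
  ∑ S ∈ F.powerset, if (e ∈ S ↔ α) ∧ (f ∈ S ↔ β) then c S else 0

lemma coef2_one (F : Finset ι) (c : Finset ι → ℝ) (e f : ι) (α β : Prop) :
    coef2 F c e f α β 1 = rcoef2 F c e f α β := by
  unfold coef2 rcoef2
  push_cast
  refine Finset.sum_congr rfl fun S _ => ?_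
  rw [zeta2_one]
  split_ifs <;> simp

lemma subPoly_zz2 (F : Finset ι) (c : Finset ι → ℝ) {e f : ι} (hef : e ≠ f) (s t w : ℂ) :
    subPoly F c (zz2 e f s t w) =
      coef2 F c e f False False w + s * coef2 F c e f True False w +
        t * coef2 F c e f False True w + s * t * coef2 F c e f True True w := by
  unfold subPoly coef2
  simp only [Finset.mul_sum, ← Finset.sum_add_distrib]
  refine Finset.sum_congr rfl fun S _ => ?_
  rw [prod_zz2 hef]
  by_cases h1 : e ∈ S <;> by_cases h2 : f ∈ S <;> simp [h1, h2] <;> ring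

lemma sT_eq (F : Finset ι) (c : Finset ι → ℝ) (e f : ι) :
    sT F c = rcoef2 F c e f False False + rcoef2 F c e f True False +
      rcoef2 F c e f False True + rcoef2 F c e f True True := by
  unfold sT rcoef2
  simp only [← Finset.sum_add_distrib]
  refine Finset.sum_congr rfl fun S _ => ?_
  by_cases h1 : e ∈ S <;> by_cases h2 : f ∈ S <;> simp [h1, h2]

lemma sE1_eq_left (F : Finset ι) (c : Finset ι → ℝ) (e f : ι) :
    sE1 F c e = rcoef2 F c e f True False + rcoef2 F c e f True True := by
  unfold sE1 rcoef2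
  simp only [← Finset.sum_add_distrib]
  refine Finset.sum_congr rfl fun S _ => ?_
  by_cases h1 : e ∈ S <;> by_cases h2 : f ∈ S <;> simp [h1, h2]

lemma sE1_eq_right (F : Finset ι) (c : Finset ι → ℝ) (e f : ι) :
    sE1 F c f = rcoef2 F c e f False True + rcoef2 F c e f True True := by
  unfold sE1 rcoef2
  simp only [← Finset.sum_add_distrib]
  refine Finset.sum_congr rfl fun S _ => ?_
  by_cases h1 : e ∈ S <;> by_cases h2 : f ∈ S <;> simp [h1, h2]

lemma sE2_eq (F : Finset ι) (c : Finset ι → ℝ) (e f : ι) :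
    sE2 F c e f = rcoef2 F c e f True True := by
  unfold sE2 rcoef2
  refine Finset.sum_congr rfl fun S _ => ?_
  by_cases h1 : e ∈ S <;> by_cases h2 : f ∈ S <;> simp [h1, h2]

/-- The Rayleigh inequality for a stable polynomial with real coefficients. -/
theorem rayleigh {F : Finset ι} {c : Finset ι → ℝ} (hst : Stable F c) {e f : ι} (he : e ∈ F)
    (hf : f ∈ F) (hef : e ≠ f) : sE2 F c e f * sT F c ≤ sE1 F c e * sE1 F c f := by
  rw [sE2_eq, sT_eq F c e f, sE1_eq_left F c e f, sE1_eq_right F c e f]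
  set a := rcoef2 F c e f False False with ha
  set b := rcoef2 F c e f True False with hb
  set b' := rcoef2 F c e f False True with hb'
  set d := rcoef2 F c e f True True with hd
  by_contra hcon
  push Not at hcon
  have hlt : b * b' < a * d := by nlinarith
  set A := coef2 F c e f False False with hA
  set B := coef2 F c e f True False with hB
  set B' := coef2 F c e f False True with hB'
  set D := coef2 F c e f True True with hD
  have hA1 : A 1 = a := coef2_one _ _ _ _ _ _
  have hB1 : B 1 = b := coef2_one _ _ _ _ _ _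
  have hB'1 : B' 1 = b' := coef2_one _ _ _ _ _ _
  have hD1 : D 1 = d := coef2_one _ _ _ _ _ _
  have hcA : Continuous A := continuous_coef2 _ _ _ _ _ _
  have hcB : Continuous B := continuous_coef2 _ _ _ _ _ _
  have hcB' : Continuous B' := continuous_coef2 _ _ _ _ _ _
  have hcD : Continuous D := continuous_coef2 _ _ _ _ _ _
  -- the path of the remaining coordinates
  set w : ℝ → ℂ := fun ε => 1 + (ε : ℂ) * I with hw
  have hcw : Continuous w := by
    simp only [hw]
    fun_prop
  have hw0 : w 0 = 1 := by simp [hw]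
  set den : ℝ → ℂ := fun ε => B' (w ε) + I * D (w ε) with hden
  set num : ℝ → ℂ := fun ε => A (w ε) + I * B (w ε) with hnum
  have hcden : Continuous den := by
    simp only [hden]
    exact (hcB'.comp hcw).add (continuous_const.mul (hcD.comp hcw))
  have hcnum : Continuous num := by
    simp only [hnum]
    exact (hcA.comp hcw).add (continuous_const.mul (hcB.comp hcw))
  have hden0 : den 0 = (b' : ℂ) + I * d := by
    simp only [hden, hw0, hB'1, hD1]
  have hnum0 : num 0 = (a : ℂ) + I * b := by
    simp only [hnum, hw0, hA1, hB1]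
  have hdenne : den 0 ≠ 0 := by
    rw [hden0]
    intro h
    have h1 := congrArg re h
    have h2 := congrArg im h
    simp at h1 h2
    rw [h1, h2] at hlt
    simp at hlt
  have hN : 0 < normSq (den 0) := normSq_pos.2 hdenne
  -- the imaginary part of the solution at `ε = 0`
  have him : 0 < (-(num 0) / den 0).im := by
    rw [div_im, hden0, hnum0] at *
    have h1 : normSq ((b' : ℂ) + I * d) = b' * b' + d * d := by
      simp [normSq_apply]
    simp only [neg_re, neg_im, add_re, add_im, ofReal_re, ofReal_im, mul_re, mul_im, I_re, I_im,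
      zero_mul, one_mul, sub_self, add_zero, zero_add, mul_zero, sub_zero]
    rw [← sub_div] 
    refine div_pos ?_ hN
    nlinarith
  have hev1 : ∀ᶠ ε in 𝓝 (0 : ℝ), den ε ≠ 0 := hcden.continuousAt.eventually_ne hdenne
  have hcont : ContinuousAt (fun ε => (-(num ε) / den ε).im) 0 :=
    continuous_im.continuousAt.comp
      (ContinuousAt.div (hcnum.continuousAt.neg) hcden.continuousAt hdenne)
  have hev2 : ∀ᶠ ε in 𝓝 (0 : ℝ), 0 < (-(num ε) / den ε).im :=
    hcont.eventually (lt_mem_nhds him)
  have hev3 := (hev1.and hev2)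
  have hev4 : ∀ᶠ ε in 𝓝[>] (0 : ℝ), den ε ≠ 0 ∧ 0 < (-(num ε) / den ε).im :=
    hev3.filter_mono nhdsWithin_le_nhds
  obtain ⟨ε, ⟨h1, h2⟩, hε⟩ := (hev4.and self_mem_nhdsWithin).exists
  have hε' : (0 : ℝ) < ε := hε
  -- the zero
  refine hst (zz2 e f I (-(num ε) / den ε) (w ε)) ?_ ?_
  · intro i _
    unfold zz2
    by_cases h3 : i = e
    · simp [h3]
    · by_cases h4 : i = f
      · rw [if_neg h3, if_pos h4]
        exact h2
      · simp only [h3, h4, if_false]
        simpa [hw] using hε'
  · rw [subPoly_zz2 F c hef]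
    simp only [hden, hnum] at h1 ⊢
    field_simp
    ring

/-! ### The covering inequality -/

/-- Coordinates with `s` at `e` and `t` elsewhere. -/
noncomputable def zz1 (e : ι) (s t : ℂ) : ι → ℂ := fun i => if i = e then s else t

lemma prod_zz1 (e : ι) (s t : ℂ) (S : Finset ι) :
    ∏ i ∈ S, zz1 e s t i = if e ∈ S then s * t ^ (S.card - 1) else t ^ S.card := by
  unfold zz1
  split_ifs with h
  · rw [← Finset.mul_prod_erase S _ h]
    simp only [if_true]
    rw [Finset.prod_congr rfl (g := fun _ => t) (fun i hi => by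
      simp [Finset.ne_of_mem_erase hi])]
    rw [Finset.prod_const, Finset.card_erase_of_mem h]
  · rw [Finset.prod_congr rfl (g := fun _ => t) (fun i hi => by
      have : i ≠ e := fun h' => h (h' ▸ hi)
      simp [this])]
    rw [Finset.prod_const]

/-- The part of the polynomial not containing `e`. -/
noncomputable def polA (F : Finset ι) (c : Finset ι → ℝ) (e : ι) (t : ℂ) : ℂ :=
  ∑ S ∈ F.powerset, if e ∈ S then 0 else (c S : ℂ) * t ^ S.card

/-- The part of the polynomial containing `e`. -/
noncomputable def polB (F : Finset ι) (c : Finset ι → ℝ) (e : ι) (t : ℂ) : ℂ :=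
  ∑ S ∈ F.powerset, if e ∈ S then (c S : ℂ) * t ^ (S.card - 1) else 0

lemma subPoly_zz1 (F : Finset ι) (c : Finset ι → ℝ) (e : ι) (s t : ℂ) :
    subPoly F c (zz1 e s t) = polA F c e t + s * polB F c e t := by
  unfold subPoly polA polB
  rw [Finset.mul_sum, ← Finset.sum_add_distrib]
  refine Finset.sum_congr rfl fun S _ => ?_
  rw [prod_zz1]
  by_cases h : e ∈ S <;> simp [h]
  ring

lemma polA_differentiable (F : Finset ι) (c : Finset ι → ℝ) (e : ι) :
    Differentiable ℂ (polA F c e) := by
  unfold polA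
  refine Differentiable.fun_sum fun S _ => ?_
  by_cases h : e ∈ S
  · simp only [h, if_true]
    exact differentiable_const _
  · simp only [h, if_false]
    exact (differentiable_const _).mul (differentiable_id.pow _)

lemma polB_differentiable (F : Finset ι) (c : Finset ι → ℝ) (e : ι) :
    Differentiable ℂ (polB F c e) := by
  unfold polB
  refine Differentiable.fun_sum fun S _ => ?_
  by_cases h : e ∈ S
  · simp only [h, if_true]
    exact (differentiable_const _).mul (differentiable_id.pow _)
  · simp only [h, if_false]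
    exact differentiable_const _

lemma polA_conj (F : Finset ι) (c : Finset ι → ℝ) (e : ι) (t : ℂ) :
    polA F c e (conj t) = conj (polA F c e t) := by
  unfold polA
  rw [map_sum]
  refine Finset.sum_congr rfl fun S _ => ?_
  by_cases h : e ∈ S <;> simp [h]

lemma polB_conj (F : Finset ι) (c : Finset ι → ℝ) (e : ι) (t : ℂ) :
    polB F c e (conj t) = conj (polB F c e t) := by
  unfold polB
  rw [map_sum]
  refine Finset.sum_congr rfl fun S _ => ?_
  by_cases h : e ∈ S <;> simp [h]

lemma polA_real (F : Finset ι) (c : Finset ι → ℝ) (e : ι) (x : ℝ) :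
    polA F c e x = ((∑ S ∈ F.powerset, if e ∈ S then 0 else c S * x ^ S.card : ℝ) : ℂ) := by
  unfold polA
  push_cast
  refine Finset.sum_congr rfl fun S _ => ?_
  by_cases h : e ∈ S <;> simp [h]

lemma polB_real (F : Finset ι) (c : Finset ι → ℝ) (e : ι) (x : ℝ) :
    polB F c e x = ((∑ S ∈ F.powerset, if e ∈ S then c S * x ^ (S.card - 1) else 0 : ℝ) : ℂ) := by
  unfold polB
  push_cast
  refine Finset.sum_congr rfl fun S _ => ?_
  by_cases h : e ∈ S <;> simp [h]

/-- Derivative of `polA` at one. -/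
lemma polA_deriv (F : Finset ι) (c : Finset ι → ℝ) (e : ι) :
    HasDerivAt (polA F c e)
      ((∑ S ∈ F.powerset, if e ∈ S then 0 else c S * (S.card : ℝ) : ℝ) : ℂ) 1 := by
  unfold polA
  push_cast
  have : ∀ S ∈ F.powerset, HasDerivAt
      (fun t : ℂ => if e ∈ S then 0 else (c S : ℂ) * t ^ S.card)
      (if e ∈ S then 0 else (c S : ℂ) * (S.card : ℂ)) 1 := by
    intro S _
    by_cases h : e ∈ S
    · simp only [h, if_true]
      exact hasDerivAt_const _ _
    · simp only [h, if_false]
      have := ((hasDerivAt_id (1 : ℂ)).pow S.card).const_mul (c S : ℂ)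
      simpa using this
  have h2 : HasDerivAt (fun t : ℂ => ∑ S ∈ F.powerset, if e ∈ S then 0 else (c S : ℂ) * t ^ S.card)
      (∑ S ∈ F.powerset, if e ∈ S then 0 else (c S : ℂ) * (S.card : ℂ)) 1 :=
    HasDerivAt.fun_sum this
  convert h2 using 1
  refine Finset.sum_congr rfl fun S _ => ?_
  by_cases h : e ∈ S <;> simp [h]

/-- Derivative of `polB` at one. -/
lemma polB_deriv (F : Finset ι) (c : Finset ι → ℝ) (e : ι) :
    HasDerivAt (polB F c e)
      ((∑ S ∈ F.powerset, if e ∈ S then c S * ((S.card - 1 : ℕ) : ℝ) else 0 : ℝ) : ℂ) 1 := by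
  unfold polB
  push_cast
  have : ∀ S ∈ F.powerset, HasDerivAt
      (fun t : ℂ => if e ∈ S then (c S : ℂ) * t ^ (S.card - 1) else 0)
      (if e ∈ S then (c S : ℂ) * ((S.card - 1 : ℕ) : ℂ) else 0) 1 := by
    intro S _
    by_cases h : e ∈ S
    · simp only [h, if_true]
      have := ((hasDerivAt_id (1 : ℂ)).pow (S.card - 1)).const_mul (c S : ℂ)
      simpa using this
    · simp only [h, if_false]
      exact hasDerivAt_const _ _
  have h2 : HasDerivAt (fun t : ℂ => ∑ S ∈ F.powerset,
        if e ∈ S then (c S : ℂ) * t ^ (S.card - 1) else 0)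
      (∑ S ∈ F.powerset, if e ∈ S then (c S : ℂ) * ((S.card - 1 : ℕ) : ℂ) else 0) 1 :=
    HasDerivAt.fun_sum this
  convert h2 using 1
  refine Finset.sum_congr rfl fun S _ => ?_
  by_cases h : e ∈ S <;> simp [h]

/-- Number of elements of `S ⊆ F` away from `e`. -/
lemma card_eq_sum {F S : Finset ι} (hS : S ⊆ F) (e : ι) :
    ((if e ∈ S then S.card - 1 else S.card : ℕ) : ℝ) =
      ∑ l ∈ F.erase e, if l ∈ S then (1 : ℝ) else 0 := by
  rw [Finset.sum_ite_mem, Finset.sum_const, nsmul_eq_mul, mul_one]
  have h1 : F.erase e ∩ S = S.erase e := by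
    ext x
    simp only [Finset.mem_inter, Finset.mem_erase]
    constructor
    · rintro ⟨⟨h1, _⟩, h3⟩
      exact ⟨h1, h3⟩
    · rintro ⟨h1, h2⟩
      exact ⟨⟨h1, hS h2⟩, h2⟩
  rw [h1]
  by_cases h : e ∈ S
  · simp [h, Finset.card_erase_of_mem h]
  · simp [h, Finset.erase_eq_of_notMem h]

lemma da_eq (F : Finset ι) (c : Finset ι → ℝ) (e : ι) :
    (∑ S ∈ F.powerset, if e ∈ S then 0 else c S * (S.card : ℝ)) =
      ∑ l ∈ F.erase e, (sE1 F c l - sE2 F c e l) := by
  unfold sE1 sE2
  simp only [← Finset.sum_sub_distrib]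
  rw [Finset.sum_comm]
  refine Finset.sum_congr rfl fun S hS => ?_
  have hS' := Finset.mem_powerset.1 hS
  by_cases h : e ∈ S
  · simp [h]
  · have h1 := card_eq_sum hS' e
    simp only [h, if_false] at h1 ⊢
    rw [h1, Finset.mul_sum]
    refine Finset.sum_congr rfl fun l _ => ?_
    by_cases h2 : l ∈ S <;> simp [h2]

lemma db_eq (F : Finset ι) (c : Finset ι → ℝ) (e : ι) :
    (∑ S ∈ F.powerset, if e ∈ S then c S * ((S.card - 1 : ℕ) : ℝ) else 0) =
      ∑ l ∈ F.erase e, sE2 F c e l := by
  unfold sE2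
  rw [Finset.sum_comm]
  refine Finset.sum_congr rfl fun S hS => ?_
  have hS' := Finset.mem_powerset.1 hS
  by_cases h : e ∈ S
  · have h1 := card_eq_sum hS' e
    simp only [h, if_true] at h1 ⊢
    rw [h1, Finset.mul_sum]
    refine Finset.sum_congr rfl fun l _ => ?_
    by_cases h2 : l ∈ S <;> simp [h2]
  · simp [h]

/-- The covering inequality for a stable polynomial with nonnegative coefficients. -/
theorem covering {F : Finset ι} {c : Finset ι → ℝ} (hst : Stable F c)
    (hc : ∀ S ∈ F.powerset, 0 ≤ c S) (e : ι) :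
    ∑ l ∈ F.erase e, (sE1 F c e * sE1 F c l - sE2 F c e l * sT F c) ≤
      sE1 F c e * (sT F c - sE1 F c e) := by
  set a₁ : ℝ := ∑ S ∈ F.powerset, if e ∈ S then 0 else c S with ha₁
  have hTE : sT F c = a₁ + sE1 F c e := by
    unfold sT sE1
    rw [ha₁, ← Finset.sum_add_distrib]
    refine Finset.sum_congr rfl fun S _ => ?_
    by_cases h : e ∈ S <;> simp [h]
  have ha₁nn : 0 ≤ a₁ := Finset.sum_nonneg fun S hS => by
    split_ifs
    · exact le_rfl
    · exact hc S hS
  have hEnn : 0 ≤ sE1 F c e := Finset.sum_nonneg fun S hS => by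
    split_ifs
    · exact hc S hS
    · exact le_rfl
  rcases hEnn.eq_or_lt with hE0 | hEpos
  · -- the mean vanishes
    have h1 : ∀ S ∈ F.powerset, (if e ∈ S then c S else 0) = 0 :=
      (Finset.sum_eq_zero_iff_of_nonneg (fun S hS => by
        split_ifs
        · exact hc S hS
        · exact le_rfl)).1 hE0.symm
    have h2 : ∀ l, sE2 F c e l = 0 := by
      intro l
      unfold sE2
      refine Finset.sum_eq_zero fun S hS => ?_
      have h3 := h1 S hS
      by_cases h4 : e ∈ S
      · simp only [h4, if_true] at h3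
        simp [h3]
      · simp [h4]
    simp only [← hE0, h2]
    simp
  rcases ha₁nn.eq_or_lt with ha0 | hapos
  · -- the mean is one
    have h1 : ∀ S ∈ F.powerset, (if e ∈ S then 0 else c S) = 0 :=
      (Finset.sum_eq_zero_iff_of_nonneg (fun S hS => by
        split_ifs
        · exact le_rfl
        · exact hc S hS)).1 ha0.symm
    have h2 : ∀ l, sE1 F c l = sE2 F c e l := by
      intro l
      unfold sE1 sE2
      refine Finset.sum_congr rfl fun S hS => ?_
      have h3 := h1 S hS
      by_cases h4 : e ∈ S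
      · simp [h4]
      · simp only [h4, if_false] at h3
        simp [h4, h3]
    have h3 : sT F c = sE1 F c e := by rw [hTE, ← ha0, zero_add]
    have : ∀ l ∈ F.erase e, (sE1 F c e * sE1 F c l - sE2 F c e l * sT F c) = 0 := by
      intro l _
      rw [h2 l, h3]
      ring
    rw [Finset.sum_eq_zero this, h3]
    simp
  -- the main case
  have hA1 : polA F c e 1 = a₁ := by
    have := polA_real F c e 1
    simpa [ha₁] using this
  have hB1 : polB F c e 1 = sE1 F c e := by
    have := polB_real F c e 1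
    simpa [sE1] using this
  have hposA : ∀ x : ℝ, 0 < x → ∃ r : ℝ, 0 < r ∧ polA F c e x = r := by
    intro x hx
    refine ⟨_, ?_, polA_real F c e x⟩
    have hex : ∃ S ∈ F.powerset, 0 < if e ∈ S then 0 else c S := by
      by_contra hno
      push Not at hno
      have : a₁ ≤ 0 := Finset.sum_nonpos hno
      linarith
    obtain ⟨S, hS, hpos⟩ := hex
    refine Finset.sum_pos' (fun S hS => ?_) ⟨S, hS, ?_⟩
    · split_ifs
      · exact le_rfl
      · exact mul_nonneg (hc S hS) (pow_nonneg hx.le _)
    · by_cases h : e ∈ S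
      · simp [h] at hpos
      · simp only [h, if_false] at hpos ⊢
        exact mul_pos hpos (pow_pos hx _)
  have hposB : ∀ x : ℝ, 0 < x → ∃ r : ℝ, 0 < r ∧ polB F c e x = r := by
    intro x hx
    refine ⟨_, ?_, polB_real F c e x⟩
    have hex : ∃ S ∈ F.powerset, 0 < if e ∈ S then c S else 0 := by
      by_contra hno
      push Not at hno
      have : sE1 F c e ≤ 0 := Finset.sum_nonpos hno
      linarith
    obtain ⟨S, hS, hpos⟩ := hex
    refine Finset.sum_pos' (fun S hS => ?_) ⟨S, hS, ?_⟩
    · split_ifs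
      · exact mul_nonneg (hc S hS) (pow_nonneg hx.le _)
      · exact le_rfl
    · by_cases h : e ∈ S
      · simp only [h, if_true] at hpos ⊢
        exact mul_pos hpos (pow_pos hx _)
      · simp [h] at hpos
  have hstab : ∀ s t : ℂ, 0 < s.im → 0 < t.im → polA F c e t + s * polB F c e t ≠ 0 := by
    intro s t hs ht
    rw [← subPoly_zz1]
    refine hst _ fun i _ => ?_
    unfold zz1
    split_ifs
    · exact hs
    · exact ht
  have key := pick_elasticity (polA_differentiable F c e) (polB_differentiable F c e)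
    (polA_conj F c e) (polB_conj F c e) hposA hposB hstab hA1 hB1 (polA_deriv F c e)
    (polB_deriv F c e) hapos hEpos
  rw [da_eq, db_eq] at key
  have h3 : ∑ l ∈ F.erase e, (sE1 F c e * sE1 F c l - sE2 F c e l * sT F c) =
      (∑ l ∈ F.erase e, (sE1 F c l - sE2 F c e l)) * sE1 F c e -
        a₁ * ∑ l ∈ F.erase e, sE2 F c e l := by
    rw [Finset.sum_mul, Finset.mul_sum, ← Finset.sum_sub_distrib]
    refine Finset.sum_congr rfl fun l _ => ?_
    rw [hTE]
    ring
  rw [h3, hTE]
  nlinarith

/-- The row sum bound for the covariance matrix. -/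
theorem row_sum {F : Finset ι} {c : Finset ι → ℝ} (hst : Stable F c)
    (hc : ∀ S ∈ F.powerset, 0 ≤ c S) {e : ι} (he : e ∈ F) :
    ∑ l ∈ F, |sE2 F c e l * sT F c - sE1 F c e * sE1 F c l| ≤ sT F c ^ 2 / 2 := by
  rw [← Finset.add_sum_erase F _ he]
  have h1 : sE2 F c e e = sE1 F c e := by
    unfold sE2 sE1
    simp
  have hE1 : 0 ≤ sE1 F c e := Finset.sum_nonneg fun S hS => by
    split_ifs
    · exact hc S hS
    · exact le_rfl
  have hE2 : 0 ≤ sT F c - sE1 F c e := by
    unfold sT sE1
    rw [← Finset.sum_sub_distrib]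
    refine Finset.sum_nonneg fun S hS => ?_
    have := hc S hS
    split_ifs <;> linarith
  have h2 : |sE2 F c e e * sT F c - sE1 F c e * sE1 F c e| =
      sE1 F c e * (sT F c - sE1 F c e) := by
    rw [h1, abs_of_nonneg]
    · ring
    · nlinarith [mul_nonneg hE1 hE2]
  have h3 : ∀ l ∈ F.erase e, |sE2 F c e l * sT F c - sE1 F c e * sE1 F c l| =
      sE1 F c e * sE1 F c l - sE2 F c e l * sT F c := by
    intro l hl
    have hl' := Finset.mem_erase.1 hl
    have := rayleigh hst he hl'.2 (Ne.symm hl'.1)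
    rw [abs_of_nonpos (by linarith)]
    ring
  rw [h2, Finset.sum_congr rfl h3]
  have h4 := covering hst hc e
  nlinarith [sq_nonneg (sT F c - 2 * sE1 F c e)]

/-! ### The Lipschitz estimate -/

/-- Exponentially tilted weights. -/
noncomputable def expW (c : Finset ι → ℝ) (y : ι → ℝ) : Finset ι → ℝ :=
  fun S => c S * Real.exp (∑ l ∈ S, y l)

lemma Stable.expW {F : Finset ι} {c : Finset ι → ℝ} (hc : Stable F c) (y : ι → ℝ) :
    Stable F (expW c y) := by
  have h1 : Loc.expW c y = Loc.tiltW c (fun l => Real.exp (y l)) := by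
    funext S
    simp only [Loc.expW, Loc.tiltW, Real.exp_sum]
  rw [h1]
  exact hc.tiltW fun l _ => Real.exp_pos _

/-- The conditional mean of `e` under the tilted weights. -/
noncomputable def Mgen (F : Finset ι) (c : Finset ι → ℝ) (e : ι) (y : ι → ℝ) : ℝ :=
  sE1 F (expW c y) e / sT F (expW c y)

lemma sT_expW_pos {F : Finset ι} {c : Finset ι → ℝ} (hc : ∀ S ∈ F.powerset, 0 ≤ c S)
    (hT : 0 < sT F c) (y : ι → ℝ) : 0 < sT F (expW c y) := by
  have hex : ∃ S ∈ F.powerset, 0 < c S := by
    by_contra hno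
    push Not at hno
    have : sT F c ≤ 0 := Finset.sum_nonpos hno
    linarith
  obtain ⟨S, hS, hpos⟩ := hex
  exact Finset.sum_pos' (fun S hS => mul_nonneg (hc S hS) (Real.exp_pos _).le)
    ⟨S, hS, mul_pos hpos (Real.exp_pos _)⟩

lemma hasDerivAt_expW (c : Finset ι → ℝ) (y d : ι → ℝ) (S : Finset ι) (τ : ℝ) :
    HasDerivAt (fun τ : ℝ => expW c (fun l => y l + τ * d l) S)
      (expW c (fun l => y l + τ * d l) S * ∑ l ∈ S, d l) τ := by
  unfold expW
  have h1 : HasDerivAt (fun τ : ℝ => ∑ l ∈ S, (y l + τ * d l)) (∑ l ∈ S, d l) τ := by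
    have : ∀ l ∈ S, HasDerivAt (fun τ : ℝ => y l + τ * d l) (d l) τ := by
      intro l _
      have := ((hasDerivAt_id τ).mul_const (d l)).const_add (y l)
      simpa using this
    exact HasDerivAt.fun_sum this
  have h2 := (h1.exp).const_mul (c S)
  rw [mul_assoc]
  exact h2

lemma swap_sum_d {F : Finset ι} (u : Finset ι → ℝ) (d : ι → ℝ) (e : ι) :
    (∑ S ∈ F.powerset, if e ∈ S then u S * ∑ l ∈ S, d l else 0) =
      ∑ l ∈ F, d l * sE2 F u e l := by
  unfold sE2
  simp only [Finset.mul_sum]
  rw [Finset.sum_comm]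
  refine Finset.sum_congr rfl fun S hS => ?_
  have hS' := Finset.mem_powerset.1 hS
  by_cases h : e ∈ S
  · simp only [h, if_true, true_and]
    have h1 : ∀ l ∈ F, (d l * if l ∈ S then u S else 0) = if l ∈ S then u S * d l else 0 := by
      intro l _
      split_ifs
      · ring
      · simp
    rw [Finset.sum_congr rfl h1, Finset.sum_ite_mem, Finset.inter_eq_right.2 hS']
  · simp [h]

lemma swap_sum_d' {F : Finset ι} (u : Finset ι → ℝ) (d : ι → ℝ) :
    (∑ S ∈ F.powerset, u S * ∑ l ∈ S, d l) = ∑ l ∈ F, d l * sE1 F u l := by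
  unfold sE1
  simp only [Finset.mul_sum]
  rw [Finset.sum_comm]
  refine Finset.sum_congr rfl fun S hS => ?_
  have hS' := Finset.mem_powerset.1 hS
  have h1 : ∀ l ∈ F, (d l * if l ∈ S then u S else 0) = if l ∈ S then u S * d l else 0 := by
    intro l _
    split_ifs
    · ring
    · simp
  rw [Finset.sum_congr rfl h1, Finset.sum_ite_mem, Finset.inter_eq_right.2 hS']

/-- The dimension-free Lipschitz estimate. -/
theorem Mgen_lipschitz {F : Finset ι} {c : Finset ι → ℝ} (hst : Stable F c)
    (hc : ∀ S ∈ F.powerset, 0 ≤ c S) (hT : 0 < sT F c) {e : ι} (he : e ∈ F) {y y' : ι → ℝ} {δ : ℝ}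
    (hδ : ∀ l ∈ F, |y l - y' l| ≤ δ) : |Mgen F c e y - Mgen F c e y'| ≤ 1 / 2 * δ := by
  set d : ι → ℝ := fun l => y l - y' l with hd
  set P : ℝ → ι → ℝ := fun τ l => y' l + τ * d l with hP
  have hδ0 : 0 ≤ δ := (abs_nonneg _).trans (hδ e he)
  set φ : ℝ → ℝ := fun τ => Mgen F c e (P τ) with hφ
  have h0 : φ 0 = Mgen F c e y' := by
    simp [hφ, hP]
  have h1 : φ 1 = Mgen F c e y := by
    have : P 1 = y := by
      funext l
      simp [hP, hd]
    simp [hφ, this]
  -- derivative along the path
  set φ' : ℝ → ℝ := fun τ =>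
    ∑ l ∈ F, d l * (sE2 F (expW c (P τ)) e l * sT F (expW c (P τ)) -
      sE1 F (expW c (P τ)) e * sE1 F (expW c (P τ)) l) / sT F (expW c (P τ)) ^ 2 with hφ'
  have hder : ∀ τ, HasDerivAt φ (φ' τ) τ := by
    intro τ
    set u := expW c (P τ) with hu
    have hTpos : 0 < sT F u := sT_expW_pos hc hT _
    have hN : HasDerivAt (fun τ => sE1 F (expW c (P τ)) e) (∑ l ∈ F, d l * sE2 F u e l) τ := by
      unfold sE1
      rw [← swap_sum_d]
      refine HasDerivAt.fun_sum fun S _ => ?_
      by_cases h : e ∈ S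
      · simp only [h, if_true]
        exact hasDerivAt_expW c y' d S τ
      · simp only [h, if_false]
        exact hasDerivAt_const _ _
    have hD : HasDerivAt (fun τ => sT F (expW c (P τ))) (∑ l ∈ F, d l * sE1 F u l) τ := by
      unfold sT
      rw [← swap_sum_d']
      exact HasDerivAt.fun_sum fun S _ => hasDerivAt_expW c y' d S τ
    have h2 := hN.fun_div hD hTpos.ne'
    have h3 : φ' τ =
        ((∑ l ∈ F, d l * sE2 F u e l) * sT F u - sE1 F u e * ∑ l ∈ F, d l * sE1 F u l) /
          sT F u ^ 2 := by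
      change (∑ l ∈ F, d l * (sE2 F u e l * sT F u - sE1 F u e * sE1 F u l) / sT F u ^ 2) =
        ((∑ l ∈ F, d l * sE2 F u e l) * sT F u - sE1 F u e * ∑ l ∈ F, d l * sE1 F u l) /
          sT F u ^ 2
      rw [← Finset.sum_div, Finset.sum_mul, Finset.mul_sum, ← Finset.sum_sub_distrib]
      congr 1
      refine Finset.sum_congr rfl fun l _ => ?_
      ring
    rw [h3]
    exact h2
  have hbd : ∀ τ, ‖φ' τ‖ ≤ 1 / 2 * δ := by
    intro τ
    set u := expW c (P τ) with hu
    have hTpos : 0 < sT F u := sT_expW_pos hc hT _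
    have hst' : Stable F u := hst.expW _
    have hc' : ∀ S ∈ F.powerset, 0 ≤ u S := fun S hS => mul_nonneg (hc S hS) (Real.exp_pos _).le
    have hrow := row_sum hst' hc' he
    rw [Real.norm_eq_abs]
    have h3 : |φ' τ| ≤ ∑ l ∈ F, δ * |sE2 F u e l * sT F u - sE1 F u e * sE1 F u l| / sT F u ^ 2 := by
      refine (Finset.abs_sum_le_sum_abs _ _).trans (Finset.sum_le_sum fun l hl => ?_)
      rw [abs_div, abs_mul, abs_of_pos (pow_pos hTpos 2)]
      refine div_le_div_of_nonneg_right ?_ (pow_pos hTpos 2).le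
      exact mul_le_mul_of_nonneg_right (hδ l hl) (abs_nonneg _)
    refine h3.trans ?_
    rw [← Finset.sum_div, ← Finset.mul_sum, div_le_iff₀ (pow_pos hTpos 2)]
    have := mul_le_mul_of_nonneg_left hrow hδ0
    linarith
  have hmv := Convex.norm_image_sub_le_of_norm_hasDerivWithin_le (f := φ) (f' := φ')
    (s := Set.univ) (x := 0) (y := 1) (C := 1 / 2 * δ)
    (fun τ _ => (hder τ).hasDerivWithinAt) (fun τ _ => hbd τ) convex_univ (mem_univ _) (mem_univ _)
  rw [h0, h1, Real.norm_eq_abs] at hmv
  simpa using hmv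

open Crest.ProbabilityR.StronglyRayleigh in
/-- A strongly Rayleigh probability law has the dimension-free Lipschitz property. -/
theorem liplaw_of_isStronglyRayleigh (ν : MeasureTheory.Measure (ι → Bool))
    [MeasureTheory.IsProbabilityMeasure ν] (hsr : IsStronglyRayleigh ν) :
    LipLaw ν (1 / 2) := by
  intro F e t v v' δ he hδ
  have hst : Stable F (mass ν F) := fun z hz => hsr F z hz
  have hc : ∀ S ∈ F.powerset, 0 ≤ mass ν F S := fun S _ => mass_nonneg _ _ _
  have hT : 0 < sT F (mass ν F) := by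
    unfold sT
    rw [sum_mass]
    exact one_pos
  have hM : ∀ v : ι → ℝ, Mfin ν F e t v = Mgen F (mass ν F) e (fun l => v l - t / 2) := by
    intro v
    unfold Mfin Mgen
    have h1 : Nfin ν F e t v = sE1 F (expW (mass ν F) (fun l => v l - t / 2)) e := by
      unfold Nfin sE1
      rw [Finset.sum_filter]
      rfl
    have h2 : Zfin ν F t v = sT F (expW (mass ν F) (fun l => v l - t / 2)) := rfl
    rw [h1, h2]
  rw [hM, hM]
  refine Mgen_lipschitz hst hc hT he fun l hl => ?_
  have := hδ l hl
  simpa using this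

end Crest.Agent.Lib.Loc
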