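/-
Negative association for stable polynomials and the effect of tilting.
-/
import Crest.Agent.Lib.LocSR

set_option autoImplicit false

namespace Crest.Agent.Lib.Loc

open Finset Filter Topology
open scoped Classical

variable {ι : Type*} [DecidableEq ι]

/-- Mass of the sets containing `A`. -/
noncomputable def sEA (F : Finset ι) (c : Finset ι → ℝ) (A : Finset ι) : ℝ :=
  ∑ S ∈ F.powerset, if A ⊆ S then c S else 0

lemma sEA_empty (F : Finset ι) (c : Finset ι → ℝ) : sEA F c ∅ = sT F c := by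
  simp [sEA, sT]

lemma sEA_singleton (F : Finset ι) (c : Finset ι → ℝ) (e : ι) : sEA F c {e} = sE1 F c e := by
  unfold sEA sE1
  refine Finset.sum_congr rfl fun S _ => ?_
  by_cases h : e ∈ S <;> simp [h]

lemma sEA_pair (F : Finset ι) (c : Finset ι → ℝ) (e f : ι) : sEA F c {e, f} = sE2 F c e f := by
  unfold sEA sE2
  refine Finset.sum_congr rfl fun S _ => ?_
  by_cases h1 : e ∈ S <;> by_cases h2 : f ∈ S <;> simp [Finset.insert_subset_iff, h1, h2]

lemma sEA_nonneg {F : Finset ι} {c : Finset ι → ℝ} (hc : ∀ S ∈ F.powerset, 0 ≤ c S)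
    (A : Finset ι) : 0 ≤ sEA F c A :=
  Finset.sum_nonneg fun S hS => by
    split_ifs
    · exact hc S hS
    · exact le_rfl

lemma sEA_anti {F : Finset ι} {c : Finset ι → ℝ} (hc : ∀ S ∈ F.powerset, 0 ≤ c S)
    {A B : Finset ι} (hAB : A ⊆ B) : sEA F c B ≤ sEA F c A := by
  refine Finset.sum_le_sum fun S hS => ?_
  by_cases h : B ⊆ S
  · simp [h, hAB.trans h]
  · simp only [h, if_false]
    split_ifs
    · exact hc S hS
    · exact le_rfl

lemma sEA_eq_zero_of_not_mem {F : Finset ι} (c : Finset ι → ℝ) {A : Finset ι} {f : ι} (hf : f ∉ F)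
    (hA : f ∈ A) : sEA F c A = 0 := by
  refine Finset.sum_eq_zero fun S hS => ?_
  have : ¬ A ⊆ S := fun h => hf (Finset.mem_powerset.1 hS (h hA))
  simp [this]

/-- The polynomial in `y` obtained by a large tilt on `A`. -/
noncomputable def gPoly (F : Finset ι) (c : Finset ι → ℝ) (A B : Finset ι) (y : ℝ) : ℝ :=
  ∑ S ∈ F.powerset, if B ⊆ S then c S * y ^ (A \ S).card else 0

lemma continuous_gPoly (F : Finset ι) (c : Finset ι → ℝ) (A B : Finset ι) :
    Continuous (gPoly F c A B) := by
  unfold gPoly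
  refine continuous_finsetSum _ fun S _ => ?_
  by_cases h : B ⊆ S
  · simp only [h, if_true]
    fun_prop
  · simp only [h, if_false]
    fun_prop

lemma gPoly_zero (F : Finset ι) (c : Finset ι → ℝ) (A B : Finset ι) :
    gPoly F c A B 0 = sEA F c (B ∪ A) := by
  unfold gPoly sEA
  refine Finset.sum_congr rfl fun S _ => ?_
  by_cases h1 : B ⊆ S
  · by_cases h2 : A ⊆ S
    · have h3 : (A \ S).card = 0 := by
        simp [Finset.sdiff_eq_empty_iff_subset, h2]
      simp [h1, h2, h3, Finset.union_subset_iff]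
    · have h3 : (A \ S).card ≠ 0 := by
        simp [Finset.sdiff_eq_empty_iff_subset, h2]
      simp [h1, h2, h3, Finset.union_subset_iff]
  · simp [h1, Finset.union_subset_iff]

/-- Large tilt weights. -/
noncomputable def bigX (A : Finset ι) (y : ℝ) : ι → ℝ := fun l => if l ∈ A then y⁻¹ else 1

lemma tilt_mul_pow {y : ℝ} (hy : 0 < y) (c : Finset ι → ℝ) (A S : Finset ι) :
    tiltW c (bigX A y) S * y ^ A.card = c S * y ^ (A \ S).card := by
  unfold tiltW bigX
  have h1 : ∏ l ∈ S, (if l ∈ A then y⁻¹ else 1) = (y⁻¹) ^ (A ∩ S).card := by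
    rw [Finset.prod_ite_mem, Finset.prod_const, Finset.inter_comm]
  have h2 : A.card = (A \ S).card + (A ∩ S).card := (Finset.card_sdiff_add_card_inter A S).symm
  rw [h1, h2, pow_add, mul_assoc]
  congr 1
  rw [inv_pow]
  have h3 : y ^ (A ∩ S).card ≠ 0 := pow_ne_zero _ hy.ne'
  field_simp

lemma sum_tilt_mul_pow {y : ℝ} (hy : 0 < y) (F : Finset ι) (c : Finset ι → ℝ) (A B : Finset ι) :
    sEA F (tiltW c (bigX A y)) B * y ^ A.card = gPoly F c A B y := by
  unfold sEA gPoly
  rw [Finset.sum_mul]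
  refine Finset.sum_congr rfl fun S _ => ?_
  split_ifs
  · exact tilt_mul_pow hy c A S
  · simp

/-- The conditional Rayleigh inequality. -/
theorem cond_rayleigh {F : Finset ι} {c : Finset ι → ℝ} (hst : Stable F c) (A : Finset ι) {e f : ι}
    (he : e ∈ F) (hf : f ∈ F) (hef : e ≠ f) :
    sEA F c (insert e (insert f A)) * sEA F c A ≤ sEA F c (insert e A) * sEA F c (insert f A) := by
  have hineq : ∀ y : ℝ, 0 < y →
      gPoly F c A {e, f} y * gPoly F c A ∅ y ≤ gPoly F c A {e} y * gPoly F c A {f} y := by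
    intro y hy
    have hst' : Stable F (tiltW c (bigX A y)) := hst.tiltW (fun l _ => by
      unfold bigX
      split_ifs
      · exact inv_pos.2 hy
      · exact one_pos)
    have h := rayleigh hst' he hf hef
    rw [← sEA_pair, ← sEA_empty, ← sEA_singleton, ← sEA_singleton] at h
    rw [← sum_tilt_mul_pow hy, ← sum_tilt_mul_pow hy, ← sum_tilt_mul_pow hy,
      ← sum_tilt_mul_pow hy]
    have hp : 0 < y ^ A.card * y ^ A.card := mul_pos (pow_pos hy _) (pow_pos hy _)
    have := mul_le_mul_of_nonneg_right h hp.le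
    calc _ = _ := by ring
      _ ≤ _ := this
      _ = _ := by ring
  have hlim : ∀ B, Tendsto (gPoly F c A B) (𝓝[>] 0) (𝓝 (gPoly F c A B 0)) := fun B =>
    (continuous_gPoly F c A B).continuousAt.tendsto.mono_left nhdsWithin_le_nhds
  have h1 := le_of_tendsto_of_tendsto ((hlim {e, f}).mul (hlim ∅)) ((hlim {e}).mul (hlim {f}))
    (by
      filter_upwards [self_mem_nhdsWithin] with y hy using hineq y hy)
  simp only [gPoly_zero] at h1
  have h2 : ({e, f} : Finset ι) ∪ A = insert e (insert f A) := by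
    ext x
    simp [or_assoc]
  have h3 : (∅ : Finset ι) ∪ A = A := by simp
  have h4 : ({e} : Finset ι) ∪ A = insert e A := by
    ext x
    simp
  have h5 : ({f} : Finset ι) ∪ A = insert f A := by
    ext x
    simp
  rwa [h2, h3, h4, h5] at h1

/-- Negative association of an element with an up-set. -/
theorem neg_assoc {F : Finset ι} {c : Finset ι → ℝ} (hst : Stable F c)
    (hc : ∀ S ∈ F.powerset, 0 ≤ c S) {b : ι} (hb : b ∈ F) (A : Finset ι) (hbA : b ∉ A) :
    sEA F c (insert b A) * sT F c ≤ sEA F c A * sEA F c {b} := by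
  induction A using Finset.induction_on with
  | empty =>
    rw [sEA_empty]
    have : insert b (∅ : Finset ι) = {b} := rfl
    rw [this]
    exact (mul_comm _ _).le
  | insert f A hfA ih =>
    have hbf : b ≠ f := fun h => hbA (h ▸ Finset.mem_insert_self _ _)
    have hbA' : b ∉ A := fun h => hbA (Finset.mem_insert_of_mem h)
    have ih' := ih hbA'
    by_cases hf : f ∈ F
    · have h1 := cond_rayleigh hst A hb hf hbf
      have hT : 0 ≤ sT F c := by
        rw [← sEA_empty]
        exact sEA_nonneg hc _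
      have hZ : 0 ≤ sEA F c {b} := sEA_nonneg hc _
      have hY : 0 ≤ sEA F c (insert f A) := sEA_nonneg hc _
      have hE : 0 ≤ sEA F c A := sEA_nonneg hc _
      rcases hE.eq_or_lt with h0 | hpos
      · have h2 : sEA F c (insert b (insert f A)) ≤ sEA F c A :=
          sEA_anti hc (fun x hx => Finset.mem_insert_of_mem (Finset.mem_insert_of_mem hx))
        have h3 : 0 ≤ sEA F c (insert b (insert f A)) := sEA_nonneg hc _
        have h4 : sEA F c (insert b (insert f A)) = 0 := le_antisymm (by linarith) h3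
        rw [h4, zero_mul]
        exact mul_nonneg hY hZ
      · refine le_of_mul_le_mul_left ?_ hpos
        calc sEA F c A * (sEA F c (insert b (insert f A)) * sT F c)
            = (sEA F c (insert b (insert f A)) * sEA F c A) * sT F c := by ring
          _ ≤ (sEA F c (insert b A) * sEA F c (insert f A)) * sT F c :=
              mul_le_mul_of_nonneg_right h1 hT
          _ = sEA F c (insert f A) * (sEA F c (insert b A) * sT F c) := by ring
          _ ≤ sEA F c (insert f A) * (sEA F c A * sEA F c {b}) :=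
              mul_le_mul_of_nonneg_left ih' hY
          _ = _ := by ring
    · have h1 : sEA F c (insert b (insert f A)) = 0 :=
        sEA_eq_zero_of_not_mem c hf (Finset.mem_insert_of_mem (Finset.mem_insert_self _ _))
      have h2 : sEA F c (insert f A) = 0 := sEA_eq_zero_of_not_mem c hf (Finset.mem_insert_self _ _)
      rw [h1, h2]
      simp

/-- The indicator of `B`. -/
noncomputable def ind01 (B : Finset ι) : ι → ℝ := fun l => if l ∈ B then 1 else 0

lemma sum_ind01 (S B : Finset ι) {F : Finset ι} (hS : S ⊆ F) (hB : B ⊆ F) :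
    ∑ l ∈ S, ind01 B l = ∑ b ∈ B, if b ∈ S then (1 : ℝ) else 0 := by
  unfold ind01
  rw [Finset.sum_ite_mem, Finset.sum_ite_mem, Finset.inter_comm]

lemma hasDerivAt_sEA {F : Finset ι} (c : Finset ι → ℝ) {B : Finset ι} (hB : B ⊆ F)
    (A : Finset ι) (τ : ℝ) :
    HasDerivAt (fun τ : ℝ => sEA F (expW c (fun l => 0 + τ * ind01 B l)) A)
      (∑ b ∈ B, sEA F (expW c (fun l => 0 + τ * ind01 B l)) (insert b A)) τ := by
  have h1 : (∑ b ∈ B, sEA F (expW c (fun l => 0 + τ * ind01 B l)) (insert b A)) =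
      ∑ S ∈ F.powerset, if A ⊆ S then
        expW c (fun l => 0 + τ * ind01 B l) S * ∑ l ∈ S, ind01 B l else 0 := by
    unfold sEA
    rw [Finset.sum_comm]
    refine Finset.sum_congr rfl fun S hS => ?_
    have hS' := Finset.mem_powerset.1 hS
    rw [sum_ind01 S B hS' hB]
    by_cases h : A ⊆ S
    · simp only [h, if_true, Finset.insert_subset_iff, true_and, and_true]
      rw [Finset.mul_sum]
      refine Finset.sum_congr rfl fun b _ => ?_
      split_ifs <;> simp
    · simp [Finset.insert_subset_iff, h]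
  rw [h1]
  unfold sEA
  refine HasDerivAt.fun_sum fun S _ => ?_
  by_cases h : A ⊆ S
  · simp only [h, if_true]
    exact hasDerivAt_expW c (fun _ => 0) (ind01 B) S τ
  · simp only [h, if_false]
    exact hasDerivAt_const _ _

/-- The conditional probability of an up-set is non-increasing in a tilt. -/
theorem tilt_antitone {F : Finset ι} {c : Finset ι → ℝ} (hst : Stable F c)
    (hc : ∀ S ∈ F.powerset, 0 ≤ c S) (hT : 0 < sT F c) {A B : Finset ι} (hB : B ⊆ F)
    (hAB : Disjoint A B) :
    Antitone (fun τ : ℝ => sEA F (expW c (fun l => 0 + τ * ind01 B l)) A /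
      sT F (expW c (fun l => 0 + τ * ind01 B l))) := by
  set u : ℝ → Finset ι → ℝ := fun τ => expW c (fun l => 0 + τ * ind01 B l) with hu
  have hTpos : ∀ τ, 0 < sT F (u τ) := fun τ => sT_expW_pos hc hT _
  have hder : ∀ τ, HasDerivAt (fun τ : ℝ => sEA F (u τ) A / sT F (u τ))
      (((∑ b ∈ B, sEA F (u τ) (insert b A)) * sT F (u τ) -
        sEA F (u τ) A * ∑ b ∈ B, sEA F (u τ) (insert b ∅)) / sT F (u τ) ^ 2) τ := by
    intro τ
    have h1 := hasDerivAt_sEA c hB A τ
    have h2 := hasDerivAt_sEA c hB ∅ τ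
    have h3 : (fun τ : ℝ => sEA F (expW c (fun l => 0 + τ * ind01 B l)) ∅) =
        fun τ => sT F (u τ) := by
      funext τ
      exact sEA_empty _ _
    rw [h3] at h2
    exact h1.fun_div h2 (hTpos τ).ne'
  refine antitone_of_deriv_nonpos (fun τ => (hder τ).differentiableAt) fun τ => ?_
  rw [(hder τ).deriv]
  refine div_nonpos_of_nonpos_of_nonneg ?_ (pow_pos (hTpos τ) 2).le
  have hst' : Stable F (u τ) := hst.expW _
  have hc' : ∀ S ∈ F.powerset, 0 ≤ u τ S := fun S hS =>
    mul_nonneg (hc S hS) (Real.exp_pos _).le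
  rw [Finset.sum_mul, Finset.mul_sum, ← Finset.sum_sub_distrib]
  refine Finset.sum_nonpos fun b hb => ?_
  have hbA : b ∉ A := fun h => Finset.disjoint_left.1 hAB h hb
  have h1 := neg_assoc hst' hc' (hB hb) A hbA
  have h2 : insert b (∅ : Finset ι) = {b} := rfl
  rw [h2]
  linarith

/-- Polynomial form of the tilted weights. -/
lemma expW_ind01 (c : Finset ι → ℝ) {B S F : Finset ι} (hS : S ⊆ F) (hB : B ⊆ F) {ε : ℝ}
    (hε : 0 < ε) :
    expW c (fun l => 0 + Real.log ε * ind01 B l) S = c S * ε ^ (S ∩ B).card := by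
  unfold expW
  congr 1
  have h1 : ∑ l ∈ S, (0 + Real.log ε * ind01 B l) = ((S ∩ B).card : ℝ) * Real.log ε := by
    simp only [zero_add, ind01]
    rw [← Finset.mul_sum, Finset.sum_ite_mem, Finset.sum_const, nsmul_eq_mul, mul_one, mul_comm]
  rw [h1, mul_comm, Real.exp_mul, Real.exp_log hε, Real.rpow_natCast]

/-- The polynomial after removal of one factor of the tilt. -/
noncomputable def hatP (F : Finset ι) (c : Finset ι → ℝ) (A B : Finset ι) (ε : ℝ) : ℝ :=
  ∑ S ∈ F.powerset, if A ⊆ S then c S * ε ^ ((S ∩ B).card - 1) else 0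

lemma continuous_hatP (F : Finset ι) (c : Finset ι → ℝ) (A B : Finset ι) :
    Continuous (hatP F c A B) := by
  unfold hatP
  refine continuous_finsetSum _ fun S _ => ?_
  by_cases h : A ⊆ S
  · simp only [h, if_true]
    fun_prop
  · simp only [h, if_false]
    fun_prop

lemma sEA_expW_eq {F : Finset ι} {c : Finset ι → ℝ} {B : Finset ι} (hB : B ⊆ F)
    (hpos : ∀ S ∈ F.powerset, c S ≠ 0 → 1 ≤ (S ∩ B).card) (A : Finset ι) {ε : ℝ} (hε : 0 < ε) :
    sEA F (expW c (fun l => 0 + Real.log ε * ind01 B l)) A = ε * hatP F c A B ε := by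
  unfold sEA hatP
  rw [Finset.mul_sum]
  refine Finset.sum_congr rfl fun S hS => ?_
  rw [expW_ind01 c (Finset.mem_powerset.1 hS) hB hε]
  by_cases h : A ⊆ S
  · simp only [h, if_true]
    by_cases h0 : c S = 0
    · simp [h0]
    · have h1 := hpos S hS h0
      obtain ⟨k, hk⟩ : ∃ k, (S ∩ B).card = k + 1 := ⟨(S ∩ B).card - 1, by omega⟩
      rw [hk]
      simp only [Nat.add_sub_cancel, pow_succ]
      ring
  · simp [h]

lemma hatP_zero {F : Finset ι} {c : Finset ι → ℝ} {B : Finset ι}
    (hpos : ∀ S ∈ F.powerset, c S ≠ 0 → 1 ≤ (S ∩ B).card) (A : Finset ι) :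
    hatP F c A B 0 = ∑ S ∈ F.powerset, if A ⊆ S ∧ (S ∩ B).card = 1 then c S else 0 := by
  unfold hatP
  refine Finset.sum_congr rfl fun S hS => ?_
  by_cases h : A ⊆ S
  · simp only [h, true_and, if_true]
    by_cases h0 : c S = 0
    · simp [h0]
    · have h1 := hpos S hS h0
      by_cases h2 : (S ∩ B).card = 1
      · simp [h2]
      · have h3 : (S ∩ B).card - 1 ≠ 0 := by omega
        simp [h2, h3]
  · simp [h]

/-- The limit of a vanishing tilt. -/
theorem tilt_limit {F : Finset ι} {c : Finset ι → ℝ} (hst : Stable F c)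
    (hc : ∀ S ∈ F.powerset, 0 ≤ c S) (hT : 0 < sT F c) {A B : Finset ι} (hB : B ⊆ F)
    (hAB : Disjoint A B) (hpos : ∀ S ∈ F.powerset, c S ≠ 0 → 1 ≤ (S ∩ B).card)
    (hD : 0 < ∑ S ∈ F.powerset, if (S ∩ B).card = 1 then c S else 0) :
    sEA F c A / sT F c ≤
      (∑ S ∈ F.powerset, if A ⊆ S ∧ (S ∩ B).card = 1 then c S else 0) /
        (∑ S ∈ F.powerset, if (S ∩ B).card = 1 then c S else 0) := by
  have hanti := tilt_antitone hst hc hT hB hAB
  have h0 : expW c (fun l => 0 + (0 : ℝ) * ind01 B l) = c := by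
    funext S
    simp [expW]
  have hineq : ∀ ε : ℝ, 0 < ε → ε < 1 →
      sEA F c A / sT F c ≤ hatP F c A B ε / hatP F c ∅ B ε := by
    intro ε hε hε1
    have h1 := hanti (Real.log_nonpos hε.le hε1.le)
    simp only [h0] at h1
    rw [sEA_expW_eq hB hpos A hε, ← sEA_empty F (expW c _), sEA_expW_eq hB hpos ∅ hε,
      mul_div_mul_left _ _ hε.ne'] at h1
    exact h1
  have hD' : hatP F c ∅ B 0 ≠ 0 := by
    rw [hatP_zero hpos]
    simp only [Finset.empty_subset, true_and]
    exact hD.ne'
  have hlim : Tendsto (fun ε => hatP F c A B ε / hatP F c ∅ B ε) (𝓝[>] 0)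
      (𝓝 (hatP F c A B 0 / hatP F c ∅ B 0)) := by
    refine Tendsto.mono_left ?_ nhdsWithin_le_nhds
    exact ((continuous_hatP F c A B).continuousAt.div (continuous_hatP F c ∅ B).continuousAt
      hD').tendsto
  have h2 := ge_of_tendsto hlim (by
    have h3 : Set.Ioo (0 : ℝ) 1 ∈ 𝓝[>] (0 : ℝ) := Ioo_mem_nhdsGT one_pos
    filter_upwards [h3] with ε hε using hineq ε hε.1 hε.2)
  rw [hatP_zero hpos, hatP_zero hpos] at h2
  simpa using h2

end Crest.Agent.Lib.Loc
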