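/-
Finite laws given by stable polynomials, and their weak limits.
-/
import Crest.Agent.Lib.LocNA
import Crest.Agent.Lib.LocBayes

set_option autoImplicit false

namespace Crest.Agent.Lib.Loc

open MeasureTheory Filter Topology
open scoped Classical ENNReal

variable {I : Type*}

/-- The configuration with occupied set `A`. -/
noncomputable def indA (A : Finset I) : I → Bool := fun i => decide (i ∈ A)

lemma indA_eq_true {A : Finset I} {i : I} : indA A i = true ↔ i ∈ A := by
  simp [indA]

/-- The law given by nonnegative weights on the subsets of `E`. -/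
noncomputable def finLaw (E : Finset I) (c : Finset I → ℝ) : Measure (I → Bool) :=
  ∑ A ∈ E.powerset, ENNReal.ofReal (c A / sT E c) • Measure.dirac (indA A)

lemma finLaw_apply {E : Finset I} {c : Finset I → ℝ} (hc : ∀ A ∈ E.powerset, 0 ≤ c A)
    (hT : 0 < sT E c) {C : Set (I → Bool)} (hC : MeasurableSet C) :
    finLaw E c C = ENNReal.ofReal (∑ A ∈ E.powerset, if indA A ∈ C then c A / sT E c else 0) := by
  unfold finLaw
  rw [Measure.finsetSum_apply, ENNReal.ofReal_sum_of_nonneg]
  · refine Finset.sum_congr rfl fun A _ => ?_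
    rw [Measure.smul_apply, Measure.dirac_apply' _ hC]
    by_cases h : indA A ∈ C <;> simp [h]
  · intro A hA
    split_ifs
    · exact div_nonneg (hc A hA) hT.le
    · exact le_rfl

lemma finLaw_real {E : Finset I} {c : Finset I → ℝ} (hc : ∀ A ∈ E.powerset, 0 ≤ c A)
    (hT : 0 < sT E c) {C : Set (I → Bool)} (hC : MeasurableSet C) :
    (finLaw E c C).toReal = ∑ A ∈ E.powerset, if indA A ∈ C then c A / sT E c else 0 := by
  rw [finLaw_apply hc hT hC, ENNReal.toReal_ofReal]
  refine Finset.sum_nonneg fun A hA => ?_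
  split_ifs
  · exact div_nonneg (hc A hA) hT.le
  · exact le_rfl

lemma finLaw_isProb {E : Finset I} {c : Finset I → ℝ} (hc : ∀ A ∈ E.powerset, 0 ≤ c A)
    (hT : 0 < sT E c) : IsProbabilityMeasure (finLaw E c) := by
  refine ⟨?_⟩
  rw [finLaw_apply hc hT MeasurableSet.univ]
  simp only [Set.mem_univ, if_true]
  rw [← Finset.sum_div]
  have : ∑ A ∈ E.powerset, c A = sT E c := rfl
  rw [this, div_self hT.ne', ENNReal.ofReal_one]

lemma measurableSet_upset (F : Finset I) : MeasurableSet {ω : I → Bool | ∀ e ∈ F, ω e = true} := by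
  have : {ω : I → Bool | ∀ e ∈ F, ω e = true} = ⋂ e ∈ F, (fun ω : I → Bool => ω e) ⁻¹' {true} := by
    ext ω
    simp
  rw [this]
  exact Finset.measurableSet_biInter _ fun e _ => (measurable_pi_apply e) (measurableSet_singleton _)

/-- The probability of an up-set under a finite law. -/
lemma finLaw_upset [DecidableEq I] {E : Finset I} {c : Finset I → ℝ} (hc : ∀ A ∈ E.powerset, 0 ≤ c A)
    (hT : 0 < sT E c) (F : Finset I) :
    (finLaw E c {ω | ∀ e ∈ F, ω e = true}).toReal = sEA E c F / sT E c := by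
  rw [finLaw_real hc hT (measurableSet_upset F)]
  unfold sEA
  rw [Finset.sum_div]
  refine Finset.sum_congr rfl fun A _ => ?_
  have h1 : indA A ∈ {ω : I → Bool | ∀ e ∈ F, ω e = true} ↔ F ⊆ A := by
    simp only [Set.mem_ofPred_eq, indA_eq_true]
    rfl
  by_cases h : F ⊆ A
  · simp [h1.2 h, h]
  · simp [mt h1.1 h, h]

/-- The mass of a cylinder under a finite law. -/
lemma finLaw_mass {E : Finset I} {c : Finset I → ℝ} (hc : ∀ A ∈ E.powerset, 0 ≤ c A)
    (hT : 0 < sT E c) (F R : Finset I) :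
    mass (finLaw E c) F R =
      ∑ A ∈ E.powerset, if ∀ i ∈ F, (i ∈ A ↔ i ∈ R) then c A / sT E c else 0 := by
  unfold mass
  rw [finLaw_real hc hT (measurableSet_cyl F R)]
  refine Finset.sum_congr rfl fun A _ => ?_
  simp only [Set.mem_ofPred_eq, indA_eq_true]

/-- The tilt supported on `F`. -/
noncomputable def yOf (F : Finset I) (t : ℝ) (v : I → ℝ) : I → ℝ :=
  fun l => if l ∈ F then v l - t / 2 else 0

lemma wt_inter (F A : Finset I) (t : ℝ) (v : I → ℝ) :
    wt (F ∩ A) t v = Real.exp (∑ l ∈ A, yOf F t v l) := by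
  unfold wt yOf
  congr 1
  rw [Finset.sum_ite_mem, Finset.inter_comm]

lemma sum_cond_unique (F A : Finset I) (g : Finset I → ℝ) (a : ℝ) :
    (∑ R ∈ F.powerset, if ∀ i ∈ F, (i ∈ A ↔ i ∈ R) then a * g R else 0) = a * g (F ∩ A) := by
  rw [Finset.sum_eq_single (F ∩ A)]
  · have : ∀ i ∈ F, (i ∈ A ↔ i ∈ F ∩ A) := fun i hi => by simp [hi]
    rw [if_pos this]
  · intro R hR hne
    have hR' := Finset.mem_powerset.1 hR
    have : ¬ ∀ i ∈ F, (i ∈ A ↔ i ∈ R) := by
      intro h
      apply hne
      ext x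
      simp only [Finset.mem_inter]
      constructor
      · intro hx
        exact ⟨hR' hx, (h x (hR' hx)).2 hx⟩
      · rintro ⟨h1, h2⟩
        exact (h x h1).1 h2
    simp [this]
  · intro h
    exact absurd (Finset.mem_powerset.2 Finset.inter_subset_left) h

lemma finLaw_Zfin {E : Finset I} {c : Finset I → ℝ} (hc : ∀ A ∈ E.powerset, 0 ≤ c A)
    (hT : 0 < sT E c) (F : Finset I) (t : ℝ) (v : I → ℝ) :
    Zfin (finLaw E c) F t v = sT E (expW c (yOf F t v)) / sT E c := by
  unfold Zfin
  simp only [finLaw_mass hc hT, Finset.sum_mul]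
  rw [Finset.sum_comm]
  rw [show sT E (expW c (yOf F t v)) / sT E c =
    ∑ A ∈ E.powerset, expW c (yOf F t v) A / sT E c from Finset.sum_div _ _ _]
  refine Finset.sum_congr rfl fun A _ => ?_
  have h1 := sum_cond_unique F A (fun R => wt R t v) (c A / sT E c)
  have h2 : ∀ R ∈ F.powerset, ((if ∀ i ∈ F, (i ∈ A ↔ i ∈ R) then c A / sT E c else 0) * wt R t v) =
      if ∀ i ∈ F, (i ∈ A ↔ i ∈ R) then (c A / sT E c) * wt R t v else 0 := by
    intro R _
    split_ifs <;> simp
  rw [Finset.sum_congr rfl h2, h1, wt_inter]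
  unfold expW
  ring

lemma finLaw_Nfin {E : Finset I} {c : Finset I → ℝ} (hc : ∀ A ∈ E.powerset, 0 ≤ c A)
    (hT : 0 < sT E c) {F : Finset I} {e : I} (he : e ∈ F) (t : ℝ) (v : I → ℝ) :
    Nfin (finLaw E c) F e t v = sE1 E (expW c (yOf F t v)) e / sT E c := by
  rw [Nfin_eq_sum_ite]
  simp only [finLaw_mass hc hT, Finset.sum_mul, Finset.mul_sum]
  rw [Finset.sum_comm]
  unfold sE1
  rw [Finset.sum_div]
  refine Finset.sum_congr rfl fun A _ => ?_
  have h1 := sum_cond_unique F A (fun R => (if e ∈ R then 1 else 0 : ℝ) * wt R t v) (c A / sT E c)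
  have h2 : ∀ R ∈ F.powerset, ((if e ∈ R then 1 else 0 : ℝ) *
      ((if ∀ i ∈ F, (i ∈ A ↔ i ∈ R) then c A / sT E c else 0) * wt R t v)) =
      if ∀ i ∈ F, (i ∈ A ↔ i ∈ R) then (c A / sT E c) * ((if e ∈ R then 1 else 0 : ℝ) * wt R t v)
        else 0 := by
    intro R _
    split_ifs <;> simp
  rw [Finset.sum_congr rfl h2, h1, wt_inter]
  unfold expW
  by_cases h : e ∈ A
  · simp only [Finset.mem_inter, he, h, and_self, if_true]
    ring
  · simp [Finset.mem_inter, h]

lemma finLaw_Mfin {E : Finset I} {c : Finset I → ℝ} (hc : ∀ A ∈ E.powerset, 0 ≤ c A)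
    (hT : 0 < sT E c) {F : Finset I} {e : I} (he : e ∈ F) (t : ℝ) (v : I → ℝ) :
    Mfin (finLaw E c) F e t v = Mgen E c e (yOf F t v) := by
  unfold Mfin Mgen
  rw [finLaw_Nfin hc hT he, finLaw_Zfin hc hT, div_div_div_cancel_right₀ hT.ne']

/-- The finite law of a stable polynomial has the Lipschitz property. -/
theorem lip_finLaw {E : Finset I} {c : Finset I → ℝ} (hst : Stable E c)
    (hc : ∀ A ∈ E.powerset, 0 ≤ c A) (hT : 0 < sT E c) : LipLaw (finLaw E c) (1 / 2) := by
  intro F e t v v' δ he hδ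
  have hδ0 : 0 ≤ δ := (abs_nonneg _).trans (hδ e he)
  rw [finLaw_Mfin hc hT he, finLaw_Mfin hc hT he]
  by_cases heE : e ∈ E
  · refine Mgen_lipschitz hst hc hT heE fun l _ => ?_
    unfold yOf
    by_cases hl : l ∈ F
    · simp only [hl, if_true]
      have := hδ l hl
      simpa using this
    · simpa [hl] using hδ0
  · have h0 : ∀ y, Mgen E c e y = 0 := by
      intro y
      unfold Mgen sE1
      have : ∀ S ∈ E.powerset, (if e ∈ S then expW c y S else 0) = 0 := by
        intro S hS
        have : e ∉ S := fun h => heE (Finset.mem_powerset.1 hS h)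
        simp [this]
      rw [Finset.sum_eq_zero this, zero_div]
    rw [h0, h0]
    simpa using hδ0

/-- The Lipschitz property passes to limits of the cylinder masses. -/
theorem liplaw_of_tendsto {J : Type*} {U : Filter J} [U.NeBot] {μ : J → Measure (I → Bool)}
    {ν : Measure (I → Bool)} [IsProbabilityMeasure ν] {L : ℝ}
    (hlim : ∀ F R : Finset I, Tendsto (fun n => mass (μ n) F R) U (𝓝 (mass ν F R)))
    (hL : ∀ n, LipLaw (μ n) L) : LipLaw ν L := by
  have hM : ∀ (F : Finset I) (e : I) (t : ℝ) (v : I → ℝ),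
      Tendsto (fun n => Mfin (μ n) F e t v) U (𝓝 (Mfin ν F e t v)) := by
    intro F e t v
    unfold Mfin Nfin Zfin
    refine Tendsto.div ?_ ?_ ?_
    · exact tendsto_finsetSum _ fun R _ => (hlim F R).mul_const _
    · exact tendsto_finsetSum _ fun R _ => (hlim F R).mul_const _
    · exact (Zfin_pos ν F t v).ne'
  intro F e t v v' δ he hδ
  have h1 := ((hM F e t v).sub (hM F e t v')).abs
  exact le_of_tendsto h1 (Eventually.of_forall fun n => hL n F e t v v' δ he hδ)

lemma isClopen_cyl (F R : Finset I) : IsClopen {ω : I → Bool | ∀ i ∈ F, (ω i = true ↔ i ∈ R)} := by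
  have : {ω : I → Bool | ∀ i ∈ F, (ω i = true ↔ i ∈ R)} =
      ⋂ i ∈ F, (fun ω : I → Bool => ω i) ⁻¹' {b | b = true ↔ i ∈ R} := by
    ext ω
    simp
  rw [this]
  refine Set.Finite.isClopen_biInter F.finite_toSet fun i _ => ?_
  exact (isClopen_discrete _).preimage (continuous_apply i)

lemma isClopen_upset (F : Finset I) : IsClopen {ω : I → Bool | ∀ e ∈ F, ω e = true} := by
  have : {ω : I → Bool | ∀ e ∈ F, ω e = true} = ⋂ e ∈ F, (fun ω : I → Bool => ω e) ⁻¹' {true} := by
    ext ω
    simp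
  rw [this]
  refine Set.Finite.isClopen_biInter F.finite_toSet fun e _ => ?_
  exact (isClopen_discrete _).preimage (continuous_apply e)

/-- A cluster point of a sequence of probability laws along the hyperfilter. -/
theorem exists_cluster_law [Countable I] (μ : ℕ → Measure (I → Bool))
    [∀ n, IsProbabilityMeasure (μ n)] :
    ∃ ν : Measure (I → Bool), IsProbabilityMeasure ν ∧
      ∀ C : Set (I → Bool), IsClopen C →
        Tendsto (fun n => (μ n C).toReal) (hyperfilter ℕ : Filter ℕ) (𝓝 (ν C).toReal) := by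
  set P : ℕ → ProbabilityMeasure (I → Bool) := fun n => ⟨μ n, inferInstance⟩ with hP
  set U : Ultrafilter (ProbabilityMeasure (I → Bool)) := (hyperfilter ℕ).map P with hU
  have hlim : Tendsto P (hyperfilter ℕ : Filter ℕ) (𝓝 U.lim) := U.le_nhds_lim
  refine ⟨(U.lim : Measure (I → Bool)), inferInstance, fun C hC => ?_⟩
  have h1 := ProbabilityMeasure.tendsto_measure_of_isClopen_of_tendsto hlim hC
  have h2 := (NNReal.continuous_coe.tendsto _).comp h1
  exact h2

end Crest.Agent.Lib.Loc
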