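/-
The generating polynomial of the spanning trees of a finite connected graph is stable.
-/
import Crest.Agent.Lib.LocCB
import Crest.Agent.Lib.LocSR
import Crest.Prelude.Def_SpanningTrees

set_option autoImplicit false

namespace Crest.Agent.Lib.Loc

open SimpleGraph Finset Matrix
open scoped Classical
open Crest.ProbabilityR.SpanningTrees

/-- The oriented incidence numbers. -/
noncomputable def inc (e : Sym2 ℕ) (y : ℕ) : ℤ :=
  (if y = e.inf then 1 else 0) - (if y = e.sup then 1 else 0)

/-- The orientation sign. -/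
def sg (u v : ℕ) : ℤ := if u < v then 1 else -1

lemma inc_mk {u v : ℕ} (h : u ≠ v) (y : ℕ) :
    inc s(u, v) y = sg u v * ((if y = u then 1 else 0) - (if y = v then 1 else 0)) := by
  unfold inc sg
  rw [Sym2.inf_mk, Sym2.sup_mk]
  rcases lt_or_gt_of_ne h with h1 | h1
  · simp [h1, h1.le]
  · have h2 : ¬ u < v := not_lt.2 h1.le
    simp only [h2, if_false, inf_of_le_right h1.le, sup_of_le_left h1.le]
    ring

lemma sg_mul_self (u v : ℕ) : sg u v * sg u v = 1 := by
  unfold sg
  split_ifs <;> norm_num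

/-- The graph with edge set `A`. -/
abbrev HH (A : Finset (Sym2 ℕ)) : SimpleGraph ℕ := fromEdgeSet (A : Set (Sym2 ℕ))

lemma HH_adj {A : Finset (Sym2 ℕ)} {u v : ℕ} : (HH A).Adj u v ↔ s(u, v) ∈ A ∧ u ≠ v := by
  simp [HH]

/-- Combination of incidence vectors along a walk. -/
lemma exists_combo {T : Finset (Sym2 ℕ)} {u v : ℕ} (h : (HH T).Reachable u v) :
    ∃ b : Sym2 ℕ → ℤ, ∀ y, ∑ e ∈ T, b e * inc e y =
      (if y = u then 1 else 0) - (if y = v then 1 else 0) := by
  obtain ⟨p⟩ := h
  induction p with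
  | nil =>
    exact ⟨fun _ => 0, fun y => by simp⟩
  | @cons u u' v hadj _ ih =>
    obtain ⟨b, hb⟩ := ih
    obtain ⟨he, hne⟩ := HH_adj.1 hadj
    refine ⟨fun e => b e + (if e = s(u, u') then sg u u' else 0), fun y => ?_⟩
    simp only [add_mul, Finset.sum_add_distrib, hb, ite_mul, zero_mul]
    rw [Finset.sum_ite_eq' T s(u, u')]
    simp only [he, if_true]
    rw [inc_mk hne, ← mul_assoc, sg_mul_self]
    ring

/-- The non-root vertices. -/
abbrev VV (S : Finset ℕ) (r : ℕ) := {x // x ∈ S.erase r}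

lemma sum_VV_inc {R : Type*} [CommRing R] (S : Finset ℕ) (r : ℕ) {h : ℕ → R} (hr : h r = 0)
    {e : Sym2 ℕ} (h1 : e.inf ∈ S) (h2 : e.sup ∈ S) :
    ∑ y : VV S r, h y * ((inc e y : ℤ) : R) = h e.inf - h e.sup := by
  rw [Finset.sum_coe_sort (S.erase r) (fun y => h y * ((inc e y : ℤ) : R))]
  have key : ∀ i ∈ S, ∑ y ∈ S.erase r, h y * (if y = i then (1 : R) else 0) = h i := by
    intro i hi
    simp only [mul_ite, mul_one, mul_zero]
    rw [Finset.sum_ite_eq']
    split_ifs with h3
    · rfl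
    · have : i = r := by
        by_contra h4
        exact h3 (Finset.mem_erase.2 ⟨h4, hi⟩)
      rw [this, hr]
  rw [← key _ h1, ← key _ h2, ← Finset.sum_sub_distrib]
  refine Finset.sum_congr rfl fun y _ => ?_
  unfold inc
  push_cast
  ring

/-- The integer matrix of incidences for an enumeration of the edges. -/
noncomputable def colZ {S : Finset ℕ} {r : ℕ} {T : Finset (Sym2 ℕ)} (g : VV S r ≃ T) :
    Matrix (VV S r) (VV S r) ℤ := fun u v => inc (g v) u

/-- Connected case: the incidence matrix is unimodular. -/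
lemma colZ_det_sq_of_conn {S : Finset ℕ} {r : ℕ} {T : Finset (Sym2 ℕ)} (g : VV S r ≃ T)
    (hT : ∀ x ∈ S, (HH T).Reachable r x) : (colZ g).det ^ 2 = 1 := by
  have hb : ∀ x : VV S r, ∃ b : Sym2 ℕ → ℤ, ∀ y, ∑ e ∈ T, b e * inc e y =
      (if y = x.1 then 1 else 0) - (if y = r then 1 else 0) := fun x =>
    exists_combo (hT x.1 (Finset.mem_of_mem_erase x.2)).symm
  choose b hb using hb
  set B : Matrix (VV S r) (VV S r) ℤ := Matrix.of fun v x => b x (g v) with hB
  have hmul : colZ g * B = 1 := by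
    ext y x
    rw [Matrix.mul_apply, Matrix.one_apply]
    simp only [colZ, hB, Matrix.of_apply]
    have h1 : ∑ v, inc (g v) y * b x (g v) = ∑ e ∈ T, b x e * inc e y := by
      rw [← Finset.sum_coe_sort T (fun e => b x e * inc e y)]
      rw [← Equiv.sum_comp g]
      refine Finset.sum_congr rfl fun v _ => ?_
      ring
    rw [h1, hb x y.1]
    have hy : y.1 ≠ r := (Finset.mem_erase.1 y.2).1
    simp only [hy, if_false, sub_zero, Subtype.val_inj]
  have h2 : (colZ g).det * B.det = 1 := by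
    rw [← Matrix.det_mul, hmul, Matrix.det_one]
  have h3 := Int.isUnit_iff.1 (IsUnit.of_mul_eq_one _ h2)
  rcases h3 with h3 | h3 <;> rw [h3] <;> norm_num

/-- Disconnected case: the incidence matrix is singular. -/
lemma colZ_det_of_not_conn {S : Finset ℕ} {r : ℕ} {T : Finset (Sym2 ℕ)} (g : VV S r ≃ T)
    (hTS : ∀ e ∈ T, ∀ z ∈ e, z ∈ S) {x : ℕ} (hx : x ∈ S) (hnr : ¬ (HH T).Reachable r x) :
    (colZ g).det = 0 := by
  set h : ℕ → ℤ := fun y => if (HH T).Reachable r y then 0 else 1 with hh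
  have hr : h r = 0 := by simp [hh]
  have hxr : x ≠ r := by
    rintro rfl
    exact hnr (Reachable.refl _)
  rw [← Matrix.exists_vecMul_eq_zero_iff]
  refine ⟨fun y => h y, ?_, ?_⟩
  · intro h0
    have := congrFun h0 ⟨x, Finset.mem_erase.2 ⟨hxr, hx⟩⟩
    simp [hh, hnr] at this
  · funext v
    simp only [Matrix.vecMul, dotProduct, colZ, Pi.zero_apply]
    obtain ⟨e, he⟩ := g v
    simp only
    have hmain : ∀ e : Sym2 ℕ, e ∈ T → ∑ y : VV S r, h y * inc e y = 0 := by
      intro e
      induction e using Sym2.ind with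
      | _ c d =>
        intro he
        by_cases hcd : c = d
        · subst hcd
          have : inc s(c, c) = fun _ => 0 := by
            funext y
            simp [inc]
          simp [this]
        · have hc : c ∈ S := hTS _ he c (Sym2.mem_mk_left c d)
          have hd : d ∈ S := hTS _ he d (Sym2.mem_mk_right c d)
          have hinf : (s(c, d)).inf ∈ S := by
            rw [Sym2.inf_mk]
            rcases le_total c d with h1 | h1
            · rwa [inf_of_le_left h1]
            · rwa [inf_of_le_right h1]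
          have hsup : (s(c, d)).sup ∈ S := by
            rw [Sym2.sup_mk]
            rcases le_total c d with h1 | h1
            · rwa [sup_of_le_right h1]
            · rwa [sup_of_le_left h1]
          have h2 := sum_VV_inc (R := ℤ) S r hr hinf hsup
          simp only [Int.cast_id] at h2
          rw [h2]
          have hadj : (HH T).Adj c d := HH_adj.2 ⟨he, hcd⟩
          have hiff : (HH T).Reachable r c ↔ (HH T).Reachable r d :=
            ⟨fun h3 => h3.trans hadj.reachable, fun h3 => h3.trans hadj.symm.reachable⟩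
          have hcdh : h c = h d := by
            simp only [hh, hiff]
          rw [Sym2.inf_mk, Sym2.sup_mk]
          rcases le_total c d with h1 | h1
          · rw [inf_of_le_left h1, sup_of_le_right h1, hcdh, sub_self]
          · rw [inf_of_le_right h1, sup_of_le_left h1, hcdh, sub_self]
    exact hmain e he

/-- The complex incidence vectors. -/
noncomputable def incC (S : Finset ℕ) (r : ℕ) : Sym2 ℕ → VV S r → ℂ :=
  fun e x => ((inc e x.1 : ℤ) : ℂ)

lemma colM_incC_det {S : Finset ℕ} {r : ℕ} {T : Finset (Sym2 ℕ)} (g : VV S r ≃ T) :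
    (colM (incC S r) (fun v => (g v : Sym2 ℕ))).det = (((colZ g).det : ℤ) : ℂ) := by
  have h1 : colM (incC S r) (fun v => (g v : Sym2 ℕ)) = (Int.castRingHom ℂ).mapMatrix (colZ g) := by
    ext u v
    simp [colM, incC, colZ]
  rw [h1, ← RingHom.map_det]
  rfl

/-- The nonvanishing of the determinant in the upper half plane. -/
theorem det_gram_ne_zero {S : Finset ℕ} {r : ℕ} {E : Finset (Sym2 ℕ)}
    (hES : ∀ e ∈ E, ∀ z ∈ e, z ∈ S) (hconn : ∀ x ∈ S, (HH E).Reachable r x)
    {z : Sym2 ℕ → ℂ} (hz : ∀ e ∈ E, 0 < (z e).im) :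
    (gram E (incC S r) z).det ≠ 0 := by
  intro hdet
  obtain ⟨v, hv, hv0⟩ := Matrix.exists_mulVec_eq_zero_iff.2 hdet
  set c : Sym2 ℕ → ℂ := fun e => ∑ y, incC S r e y * v y with hc
  -- the quadratic form
  have h1 : ∀ x, ∑ e ∈ E, z e * (incC S r e x * c e) = 0 := by
    intro x
    have := congrFun hv0 x
    simp only [Matrix.mulVec, dotProduct, gram, Pi.zero_apply] at this
    rw [← this]
    simp only [hc, Finset.mul_sum, Finset.sum_mul]
    rw [Finset.sum_comm]
    refine Finset.sum_congr rfl fun y _ => Finset.sum_congr rfl fun e _ => ?_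
    ring
  have h2 : ∑ e ∈ E, z e * ((Complex.normSq (c e) : ℝ) : ℂ) = 0 := by
    have h3 : ∑ x, (starRingEnd ℂ) (v x) * ∑ e ∈ E, z e * (incC S r e x * c e) = 0 := by
      simp [h1]
    rw [← h3]
    simp only [Finset.mul_sum]
    rw [Finset.sum_comm]
    refine Finset.sum_congr rfl fun e _ => ?_
    have h4 : (Complex.normSq (c e) : ℂ) = (starRingEnd ℂ) (c e) * c e :=
      Complex.normSq_eq_conj_mul_self
    rw [h4]
    have h5 : (starRingEnd ℂ) (c e) = ∑ x, (starRingEnd ℂ) (v x) * incC S r e x := by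
      simp only [hc, map_sum, map_mul]
      refine Finset.sum_congr rfl fun x _ => ?_
      simp [incC, mul_comm]
    rw [h5, Finset.sum_mul, Finset.mul_sum]
    refine Finset.sum_congr rfl fun x _ => ?_
    ring
  have h6 : ∑ e ∈ E, (z e).im * Complex.normSq (c e) = 0 := by
    have := congrArg Complex.im h2
    simpa [Complex.mul_im] using this
  have h7 : ∀ e ∈ E, c e = 0 := by
    intro e he
    have h8 := (Finset.sum_eq_zero_iff_of_nonneg (fun e he =>
      mul_nonneg (hz e he).le (Complex.normSq_nonneg _))).1 h6 e he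
    have h9 := (mul_eq_zero.1 h8).resolve_left (hz e he).ne'
    exact Complex.normSq_eq_zero.1 h9
  -- the extension of `v`
  set w : ℕ → ℂ := fun y => if h : y ∈ S.erase r then v ⟨y, h⟩ else 0 with hw
  have hwv : ∀ y : VV S r, w y.1 = v y := by
    intro y
    simp only [hw]
    rw [dif_pos y.2]
  have hwr : w r = 0 := by simp [hw]
  have hedge : ∀ p q, (HH E).Adj p q → w p = w q := by
    intro p q hadj
    obtain ⟨he, hne⟩ := HH_adj.1 hadj
    have hp : p ∈ S := hES _ he p (Sym2.mem_mk_left p q)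
    have hq : q ∈ S := hES _ he q (Sym2.mem_mk_right p q)
    have hinf : (s(p, q)).inf ∈ S := by
      rw [Sym2.inf_mk]
      rcases le_total p q with h1 | h1
      · rwa [inf_of_le_left h1]
      · rwa [inf_of_le_right h1]
    have hsup : (s(p, q)).sup ∈ S := by
      rw [Sym2.sup_mk]
      rcases le_total p q with h1 | h1
      · rwa [sup_of_le_right h1]
      · rwa [sup_of_le_left h1]
    have h8 := sum_VV_inc (R := ℂ) S r hwr hinf hsup
    have h9 : ∑ y : VV S r, w y * ((inc s(p, q) y : ℤ) : ℂ) = c s(p, q) := by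
      simp only [hc, incC, hwv]
      refine Finset.sum_congr rfl fun y _ => ?_
      ring
    rw [h9, h7 _ he, Sym2.inf_mk, Sym2.sup_mk] at h8
    rcases le_total p q with h1 | h1
    · rw [inf_of_le_left h1, sup_of_le_right h1] at h8
      linear_combination -h8
    · rw [inf_of_le_right h1, sup_of_le_left h1] at h8
      linear_combination h8
  have hreach : ∀ p q, (HH E).Reachable p q → w p = w q := by
    intro p q hpq
    obtain ⟨P⟩ := hpq
    induction P with
    | nil => rfl
    | cons hadj _ ih => exact (hedge _ _ hadj).trans ih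
  apply hv
  funext y
  rw [← hwv y, ← hreach r y.1 (hconn _ (Finset.mem_of_mem_erase y.2)), hwr]
  rfl

lemma mem_edgesIn {G : SimpleGraph ℕ} {S : Finset ℕ} {u v : ℕ} :
    s(u, v) ∈ edgesIn G S ↔ u ∈ S ∧ v ∈ S ∧ G.Adj u v := by
  unfold edgesIn
  simp [Finset.mem_filter, Finset.mk_mem_sym2_iff, and_assoc]

lemma mem_of_mem_edgesIn {G : SimpleGraph ℕ} {S : Finset ℕ} {e : Sym2 ℕ} (he : e ∈ edgesIn G S)
    {z : ℕ} (hz : z ∈ e) : z ∈ S := by
  induction e using Sym2.ind with
  | _ c d =>
    obtain ⟨h1, h2, _⟩ := mem_edgesIn.1 he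
    rcases Sym2.mem_iff.1 hz with rfl | rfl
    · exact h1
    · exact h2

lemma reachable_of_induce {H : SimpleGraph ℕ} {S : Finset ℕ} {x y : ℕ} (hx : x ∈ S) (hy : y ∈ S)
    (h : (H.induce (S : Set ℕ)).Reachable ⟨x, hx⟩ ⟨y, hy⟩) : H.Reachable x y :=
  h.map (Embedding.induce (S : Set ℕ)).toHom

lemma induce_reachable_of {H : SimpleGraph ℕ} {S : Finset ℕ}
    (hcl : ∀ p q, H.Adj p q → p ∈ S → q ∈ S) {x y : ℕ} (hxy : H.Reachable x y) (hx : x ∈ S) :
    ∃ hy : y ∈ S, (H.induce (S : Set ℕ)).Reachable ⟨x, hx⟩ ⟨y, hy⟩ := by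
  obtain ⟨P⟩ := hxy
  induction P with
  | nil => exact ⟨hx, Reachable.refl _⟩
  | @cons u v w hadj _ ih =>
    have hv : v ∈ S := hcl _ _ hadj hx
    obtain ⟨hw, hr⟩ := ih hv
    refine ⟨hw, Reachable.trans ?_ hr⟩
    exact Adj.reachable (by simpa using hadj)

/-- Connectivity on `S`, seen from the root. -/
def ConnOn (A : Finset (Sym2 ℕ)) (S : Finset ℕ) (r : ℕ) : Prop := ∀ x ∈ S, (HH A).Reachable r x

lemma connected_iff_connOn {A : Finset (Sym2 ℕ)} {S : Finset ℕ} {r : ℕ} (hr : r ∈ S)
    (hA : ∀ e ∈ A, ∀ z ∈ e, z ∈ S) :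
    ((HH A).induce (S : Set ℕ)).Connected ↔ ConnOn A S r := by
  have hcl : ∀ p q, (HH A).Adj p q → p ∈ S → q ∈ S := by
    intro p q h _
    exact hA _ (HH_adj.1 h).1 q (Sym2.mem_mk_right p q)
  constructor
  · intro h x hx
    exact reachable_of_induce hr hx (h.preconnected ⟨r, hr⟩ ⟨x, hx⟩)
  · intro h
    have : Nonempty (S : Set ℕ) := ⟨⟨r, hr⟩⟩
    refine (connected_iff _).2 ⟨?_, this⟩
    rintro ⟨x, hx⟩ ⟨y, hy⟩
    have hx' : x ∈ S := hx
    have hy' : y ∈ S := hy
    have h1 : (HH A).Reachable x y := (h x hx').symm.trans (h y hy')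
    obtain ⟨_, h2⟩ := induce_reachable_of hcl h1 hx'
    exact h2

lemma card_edgeSet_induce {A : Finset (Sym2 ℕ)} {S : Finset ℕ} (hA : ∀ e ∈ A, ∀ z ∈ e, z ∈ S)
    (hnd : ∀ e ∈ A, ¬ e.IsDiag) :
    Nat.card ((HH A).induce (S : Set ℕ)).edgeSet = A.card := by
  set X := ((HH A).induce (S : Set ℕ)).edgeSet with hX
  have h0 : Function.Injective (fun a : (S : Set ℕ) => (a : ℕ)) := fun a b h => Subtype.ext h
  have hinj : Function.Injective (Sym2.map (fun a : (S : Set ℕ) => (a : ℕ))) :=
    Sym2.map.injective h0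
  have himg : (Sym2.map (fun a : (S : Set ℕ) => (a : ℕ))) '' X = (A : Set (Sym2 ℕ)) := by
    ext e
    constructor
    · rintro ⟨e', he', rfl⟩
      induction e' using Sym2.ind with
      | _ a b =>
        have : ((HH A).induce (S : Set ℕ)).Adj a b := he'
        simpa using (HH_adj.1 (by simpa using this)).1
    · intro he
      induction e using Sym2.ind with
      | _ u v =>
        have hu : u ∈ S := hA _ he u (Sym2.mem_mk_left u v)
        have hv : v ∈ S := hA _ he v (Sym2.mem_mk_right u v)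
        have hne : u ≠ v := by
          intro h
          apply hnd _ he
          simp [h]
        refine ⟨s(⟨u, hu⟩, ⟨v, hv⟩), ?_, rfl⟩
        have : ((HH A).induce (S : Set ℕ)).Adj ⟨u, hu⟩ ⟨v, hv⟩ := by
          simp only [comap_adj, Function.Embedding.subtype_apply]
          exact HH_adj.2 ⟨he, hne⟩
        exact this
  rw [Nat.card_coe_set_eq X, ← Set.ncard_coe_finset A, ← himg,
    Set.ncard_image_of_injective _ hinj]

lemma not_isDiag_of_mem_edgesIn {G : SimpleGraph ℕ} {S : Finset ℕ} {e : Sym2 ℕ}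
    (he : e ∈ edgesIn G S) : ¬ e.IsDiag := by
  induction e using Sym2.ind with
  | _ c d =>
    obtain ⟨_, _, h⟩ := mem_edgesIn.1 he
    simpa using h.ne

/-- Characterization of the spanning trees. -/
theorem isST_iff {G : SimpleGraph ℕ} {S : Finset ℕ} {A : Finset (Sym2 ℕ)} {r : ℕ}
    (hA : A ⊆ edgesIn G S) (hr : r ∈ S) :
    IsSpanningTreeOn G S A ↔ ConnOn A S r ∧ A.card + 1 = S.card := by
  have hA1 : ∀ e ∈ A, ∀ z ∈ e, z ∈ S := fun e he z hz => mem_of_mem_edgesIn (hA he) hz
  have hA2 : ∀ e ∈ A, ¬ e.IsDiag := fun e he => not_isDiag_of_mem_edgesIn (hA he)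
  unfold IsSpanningTreeOn
  rw [isTree_iff_connected_and_card]
  have h1 := connected_iff_connOn (A := A) hr hA1
  have h2 := card_edgeSet_induce (S := S) hA1 hA2
  have h3 : Nat.card (S : Set ℕ) = S.card := by
    simp
  change A ⊆ edgesIn G S ∧ ((HH A).induce (S : Set ℕ)).Connected ∧
    Nat.card ((HH A).induce (S : Set ℕ)).edgeSet + 1 = Nat.card (S : Set ℕ) ↔ _
  rw [h1, h2, h3]
  simp [hA]

/-- The weights of the spanning trees. -/
noncomputable def treeW (G : SimpleGraph ℕ) (S : Finset ℕ) (A : Finset (Sym2 ℕ)) : ℝ :=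
  if IsSpanningTreeOn G S A then 1 else 0

lemma connOn_of_connected {G : SimpleGraph ℕ} {S : Finset ℕ} {r : ℕ} (hr : r ∈ S)
    (hS : (G.induce (S : Set ℕ)).Connected) : ConnOn (edgesIn G S) S r := by
  intro x hx
  have h1 := hS.preconnected ⟨r, hr⟩ ⟨x, hx⟩
  let hhom : G.induce (S : Set ℕ) →g HH (edgesIn G S) :=
    { toFun := fun a => a.1
      map_rel' := by
        intro a b hab
        have hab' : G.Adj a.1 b.1 := hab
        exact HH_adj.2 ⟨mem_edgesIn.2 ⟨a.2, b.2, hab'⟩, hab'.ne⟩ }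
  exact h1.map hhom

/-- The spanning tree polynomial is stable. -/
theorem stable_treeW {G : SimpleGraph ℕ} {S : Finset ℕ}
    (hS : (G.induce (S : Set ℕ)).Connected) : Stable (edgesIn G S) (treeW G S) := by
  intro z hz
  obtain ⟨⟨r, hr⟩⟩ := hS.nonempty
  have hr' : r ∈ S := hr
  have hcard : Fintype.card (VV S r) + 1 = S.card := by
    rw [Fintype.card_coe, Finset.card_erase_of_mem hr']
    have := Finset.card_pos.2 ⟨r, hr'⟩
    omega
  have hES : ∀ e ∈ edgesIn G S, ∀ z ∈ e, z ∈ S := fun e he z hz => mem_of_mem_edgesIn he hz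
  have hne := det_gram_ne_zero hES (connOn_of_connected hr' hS) hz
  rw [det_gram_cauchyBinet] at hne
  have hkey : ∀ T ∈ (edgesIn G S).powersetCard (Fintype.card (VV S r)),
      (gram (edgesIn G S) (incC S r) (indW T)).det = ((treeW G S T : ℝ) : ℂ) := by
    intro T hT
    obtain ⟨hT1, hT2⟩ := Finset.mem_powersetCard.1 hT
    have hcardT : Fintype.card (VV S r) = Fintype.card T := by
      rw [Fintype.card_coe T, hT2]
    set g : VV S r ≃ T := Fintype.equivOfCardEq hcardT with hg
    rw [det_gram_indW (incC S r) hT1 g, colM_incC_det]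
    have hiff := isST_iff (G := G) hT1 hr'
    have hcT : T.card + 1 = S.card := by rw [hT2, hcard]
    unfold treeW
    by_cases hconn : ConnOn T S r
    · rw [if_pos (hiff.2 ⟨hconn, hcT⟩)]
      have := colZ_det_sq_of_conn g hconn
      have h2 : (((colZ g).det : ℤ) : ℂ) ^ 2 = (((colZ g).det ^ 2 : ℤ) : ℂ) := by push_cast; rfl
      rw [h2, this]
      simp
    · have hnt : ¬ IsSpanningTreeOn G S T := fun h => hconn (hiff.1 h).1
      rw [if_neg hnt]
      unfold ConnOn at hconn
      push Not at hconn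
      obtain ⟨x, hx, hnx⟩ := hconn
      have hTS : ∀ e ∈ T, ∀ z ∈ e, z ∈ S := fun e he z hz => hES e (hT1 he) z hz
      rw [colZ_det_of_not_conn g hTS hx hnx]
      simp
  intro hzero
  apply hne
  rw [Finset.sum_congr rfl fun T hT => by rw [hkey T hT]]
  rw [← hzero]
  unfold subPoly
  refine Finset.sum_subset_zero_on_sdiff ?_ ?_ ?_
  · intro T hT
    exact Finset.mem_powerset.2 (Finset.mem_powersetCard.1 hT).1
  · intro A hA
    obtain ⟨h1, h2⟩ := Finset.mem_sdiff.1 hA
    have hA' := Finset.mem_powerset.1 h1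
    have hnt : ¬ IsSpanningTreeOn G S A := by
      intro h
      have h3 := ((isST_iff hA' hr').1 h).2
      apply h2
      refine Finset.mem_powersetCard.2 ⟨hA', ?_⟩
      omega
    simp [treeW, hnt]
  · intro T _
    ring

end Crest.Agent.Lib.Loc
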