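/-
Monotonicity of the spanning tree probabilities of up-sets under enlarging the piece.
-/
import Crest.Agent.Lib.LocNA
import Crest.Agent.Lib.LocTreePoly

set_option autoImplicit false

namespace Crest.Agent.Lib.Loc

open SimpleGraph Finset
open scoped Classical
open Crest.ProbabilityR.SpanningTrees

lemma treeW_nonneg (G : SimpleGraph ℕ) (S : Finset ℕ) (A : Finset (Sym2 ℕ)) : 0 ≤ treeW G S A := by
  unfold treeW
  split_ifs <;> norm_num

/-- The probability as a quotient of sums. -/
lemma ust_eq' (G : SimpleGraph ℕ) (S : Finset ℕ) (F : Finset (Sym2 ℕ)) :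
    ustContains G S F = sEA (edgesIn G S) (treeW G S) F / sT (edgesIn G S) (treeW G S) := by
  unfold ustContains
  congr 1
  · rw [Finset.natCast_card_filter]
    unfold sEA treeW
    refine Finset.sum_congr rfl fun A _ => ?_
    by_cases h1 : IsSpanningTreeOn G S A <;> by_cases h2 : F ⊆ A <;> simp [h1, h2]
  · rw [Finset.natCast_card_filter]
    unfold sT treeW
    refine Finset.sum_congr rfl fun A _ => ?_
    by_cases h1 : IsSpanningTreeOn G S A <;> simp [h1]

lemma ust_nonneg (G : SimpleGraph ℕ) (S : Finset ℕ) (F : Finset (Sym2 ℕ)) :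
    0 ≤ ustContains G S F := by
  unfold ustContains
  positivity

lemma ust_le_one (G : SimpleGraph ℕ) (S : Finset ℕ) (F : Finset (Sym2 ℕ)) :
    ustContains G S F ≤ 1 := by
  rw [ust_eq']
  refine div_le_one_of_le₀ ?_ ?_
  · rw [← sEA_empty]
    exact sEA_anti (fun A _ => treeW_nonneg _ _ _) (Finset.empty_subset _)
  · exact Finset.sum_nonneg fun A _ => treeW_nonneg _ _ _

/-- A stable polynomial with nonnegative coefficients has positive total mass. -/
lemma sT_pos_of_stable {ι : Type*} {F : Finset ι} {c : Finset ι → ℝ} (hst : Stable F c)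
    (hc : ∀ S ∈ F.powerset, 0 ≤ c S) : 0 < sT F c := by
  refine lt_of_le_of_ne (Finset.sum_nonneg hc) ?_
  intro h0
  have h1 := (Finset.sum_eq_zero_iff_of_nonneg hc).1 h0.symm
  refine hst (fun _ => Complex.I) (fun i _ => by simp) ?_
  unfold subPoly
  refine Finset.sum_eq_zero fun S hS => ?_
  rw [h1 S hS]
  simp

lemma induce_eq_HH (G : SimpleGraph ℕ) (S : Finset ℕ) :
    G.induce (S : Set ℕ) = (HH (edgesIn G S)).induce (S : Set ℕ) := by
  ext a b
  simp only [comap_adj, Function.Embedding.subtype_apply]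
  constructor
  · intro h
    exact HH_adj.2 ⟨mem_edgesIn.2 ⟨a.2, b.2, h⟩, h.ne⟩
  · intro h
    exact (mem_edgesIn.1 (HH_adj.1 h).1).2.2

lemma connected_induce_iff {G : SimpleGraph ℕ} {S : Finset ℕ} {r : ℕ} (hr : r ∈ S) :
    (G.induce (S : Set ℕ)).Connected ↔ ConnOn (edgesIn G S) S r := by
  rw [induce_eq_HH]
  exact connected_iff_connOn hr fun e he z hz => mem_of_mem_edgesIn he hz

lemma edgesIn_mono (G : SimpleGraph ℕ) {S S' : Finset ℕ} (h : S ⊆ S') :
    edgesIn G S ⊆ edgesIn G S' := by
  intro e he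
  induction e using Sym2.ind with
  | _ c d =>
    obtain ⟨h1, h2, h3⟩ := mem_edgesIn.1 he
    exact mem_edgesIn.2 ⟨h h1, h h2, h3⟩

lemma HH_mono {A A' : Finset (Sym2 ℕ)} (h : A ⊆ A') : HH A ≤ HH A' := by
  intro p q hpq
  obtain ⟨h1, h2⟩ := HH_adj.1 hpq
  exact HH_adj.2 ⟨h h1, h2⟩

lemma connected_insert {G : SimpleGraph ℕ} {S : Finset ℕ} {u v : ℕ} (hu : u ∈ S)
    (hS : (G.induce (S : Set ℕ)).Connected) (hadj : G.Adj u v) :
    (G.induce ((insert v S : Finset ℕ) : Set ℕ)).Connected := by
  have hu' : u ∈ insert v S := Finset.mem_insert_of_mem hu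
  rw [connected_induce_iff hu']
  have h1 := (connected_induce_iff hu).1 hS
  have hm := HH_mono (edgesIn_mono G (Finset.subset_insert v S))
  intro x hx
  rcases Finset.mem_insert.1 hx with rfl | hx
  · exact Adj.reachable (HH_adj.2 ⟨mem_edgesIn.2 ⟨hu', Finset.mem_insert_self _ _, hadj⟩, hadj.ne⟩)
  · exact (h1 x hx).mono hm

section step

variable {G : SimpleGraph ℕ} {S : Finset ℕ} {u v : ℕ}

/-- The new edges. -/
noncomputable def newE (G : SimpleGraph ℕ) (S : Finset ℕ) (v : ℕ) : Finset (Sym2 ℕ) :=
  edgesIn G (insert v S) \ edgesIn G S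

lemma mem_newE_iff (hv : v ∉ S) {q : ℕ} (hq : q ∈ S) (hadj : G.Adj v q) :
    s(v, q) ∈ newE G S v := by
  refine Finset.mem_sdiff.2 ⟨mem_edgesIn.2 ⟨Finset.mem_insert_self _ _,
    Finset.mem_insert_of_mem hq, hadj⟩, ?_⟩
  intro h
  exact hv (mem_edgesIn.1 h).1

lemma exists_of_mem_newE {e : Sym2 ℕ} (he : e ∈ newE G S v) :
    ∃ q, q ∈ S ∧ G.Adj v q ∧ e = s(v, q) := by
  obtain ⟨h1, h2⟩ := Finset.mem_sdiff.1 he
  induction e using Sym2.ind with
  | _ c d =>
    obtain ⟨h3, h4, h5⟩ := mem_edgesIn.1 h1
    rcases Finset.mem_insert.1 h3 with rfl | h6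
    · rcases Finset.mem_insert.1 h4 with rfl | h7
      · exact absurd rfl h5.ne
      · exact ⟨d, h7, h5, rfl⟩
    · rcases Finset.mem_insert.1 h4 with rfl | h7
      · exact ⟨c, h6, h5.symm, Sym2.eq_swap⟩
      · exact absurd (mem_edgesIn.2 ⟨h6, h7, h5⟩) h2

lemma mem_newE_of_mem {e : Sym2 ℕ} (hv : v ∉ S) (he : e ∈ edgesIn G (insert v S)) (hve : v ∈ e) :
    e ∈ newE G S v := by
  refine Finset.mem_sdiff.2 ⟨he, fun h => hv ?_⟩
  exact mem_of_mem_edgesIn h hve

lemma card_insert' (hv : v ∉ S) : (insert v S).card = S.card + 1 := Finset.card_insert_of_notMem hv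

/-- The bijection between trees with exactly one new edge and pairs. -/
lemma card_one_new (hv : v ∉ S) (hu : u ∈ S) {F : Finset (Sym2 ℕ)}
    (hF : F ⊆ edgesIn G S) :
    (∑ A ∈ (edgesIn G (insert v S)).powerset,
      if F ⊆ A ∧ (A ∩ newE G S v).card = 1 then treeW G (insert v S) A else 0) =
    ((newE G S v).card : ℝ) * sEA (edgesIn G S) (treeW G S) F := by
  set S' := insert v S with hS'
  set E := edgesIn G S with hE
  set E' := edgesIn G S' with hE'
  set B := newE G S v with hB
  have huv : u ≠ v := fun h => hv (h ▸ hu)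
  have hu' : u ∈ S' := Finset.mem_insert_of_mem hu
  have hEE' : E ⊆ E' := edgesIn_mono G (Finset.subset_insert v S)
  have hBE : ∀ e ∈ B, e ∉ E := fun e he => (Finset.mem_sdiff.1 he).2
  have hBE' : ∀ e ∈ B, e ∈ E' := fun e he => (Finset.mem_sdiff.1 he).1
  set X := E'.powerset.filter
    (fun A => F ⊆ A ∧ (A ∩ B).card = 1 ∧ IsSpanningTreeOn G S' A) with hX
  set Y := E.powerset.filter (fun A => F ⊆ A ∧ IsSpanningTreeOn G S A) with hY
  have hL : (∑ A ∈ E'.powerset, if F ⊆ A ∧ (A ∩ B).card = 1 then treeW G S' A else 0) =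
      (X.card : ℝ) := by
    rw [hX, Finset.natCast_card_filter]
    refine Finset.sum_congr rfl fun A _ => ?_
    unfold treeW
    by_cases h1 : IsSpanningTreeOn G S' A <;> by_cases h2 : F ⊆ A <;>
      by_cases h3 : (A ∩ B).card = 1 <;> simp [h1, h2, h3]
  have hR : sEA E (treeW G S) F = (Y.card : ℝ) := by
    rw [hY, Finset.natCast_card_filter]
    unfold sEA
    refine Finset.sum_congr rfl fun A _ => ?_
    unfold treeW
    by_cases h1 : IsSpanningTreeOn G S A <;> by_cases h2 : F ⊆ A <;> simp [h1, h2]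
  rw [hL, hR]
  have hcard : X.card = (B ×ˢ Y).card := by
    symm
    refine Finset.card_bij (fun p _ => insert p.1 p.2) ?_ ?_ ?_
    · -- the map is well defined
      rintro ⟨b, A₀⟩ hp
      obtain ⟨hb, hA₀⟩ := Finset.mem_product.1 hp
      simp only at hb hA₀
      obtain ⟨hA₁, hFA, hT⟩ := Finset.mem_filter.1 hA₀
      have hA₁' := Finset.mem_powerset.1 hA₁
      have hbA : b ∉ A₀ := fun h => hBE b hb (hA₁' h)
      have hsub : insert b A₀ ⊆ E' :=
        Finset.insert_subset (hBE' b hb) (hA₁'.trans hEE')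
      refine Finset.mem_filter.2 ⟨Finset.mem_powerset.2 hsub,
        hFA.trans (Finset.subset_insert _ _), ?_, ?_⟩
      · have : insert b A₀ ∩ B = {b} := by
          ext e
          simp only [Finset.mem_inter, Finset.mem_insert, Finset.mem_singleton]
          constructor
          · rintro ⟨h1 | h1, h2⟩
            · exact h1
            · exact absurd (hA₁' h1) (hBE e h2)
          · rintro rfl
            exact ⟨Or.inl rfl, hb⟩
        rw [this, Finset.card_singleton]
      · obtain ⟨hc1, hc2⟩ := (isST_iff hA₁' hu).1 hT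
        refine (isST_iff hsub hu').2 ⟨?_, ?_⟩
        · have hm : HH A₀ ≤ HH (insert b A₀) := HH_mono (Finset.subset_insert _ _)
          intro x hx
          rcases Finset.mem_insert.1 hx with rfl | hx
          · obtain ⟨q, hq, hqadj, rfl⟩ := exists_of_mem_newE hb
            refine ((hc1 q hq).mono hm).trans (Adj.reachable ?_)
            exact HH_adj.2 ⟨by simp [Sym2.eq_swap], hqadj.ne.symm⟩
          · exact (hc1 x hx).mono hm
        · rw [Finset.card_insert_of_notMem hbA, hS', card_insert' hv, ← hc2]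
    · -- injectivity
      rintro ⟨b, A₀⟩ hp ⟨b', A₀'⟩ hp' h
      obtain ⟨hb, hA₀⟩ := Finset.mem_product.1 hp
      obtain ⟨hb', hA₀'⟩ := Finset.mem_product.1 hp'
      simp only at hb hA₀ hb' hA₀' h
      have h1 := Finset.mem_powerset.1 (Finset.mem_filter.1 hA₀).1
      have h2 := Finset.mem_powerset.1 (Finset.mem_filter.1 hA₀').1
      have hbb : b = b' := by
        have : b ∈ insert b' A₀' := h ▸ Finset.mem_insert_self _ _
        rcases Finset.mem_insert.1 this with h3 | h3
        · exact h3
        · exact absurd (h2 h3) (hBE b hb)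
      subst hbb
      have hbA : b ∉ A₀ := fun h3 => hBE b hb (h1 h3)
      have hbA' : b ∉ A₀' := fun h3 => hBE b hb (h2 h3)
      have h4 : A₀ = A₀' := by
        rw [← Finset.erase_insert hbA, h, Finset.erase_insert hbA']
      rw [h4]
    · -- surjectivity
      intro A hA
      obtain ⟨hA1, hFA, hone, hT⟩ := Finset.mem_filter.1 hA
      have hA1' := Finset.mem_powerset.1 hA1
      obtain ⟨b, hb⟩ := Finset.card_eq_one.1 hone
      have hbmem : b ∈ A ∩ B := by rw [hb]; exact Finset.mem_singleton_self b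
      obtain ⟨hbA, hbB⟩ := Finset.mem_inter.1 hbmem
      have hAB : ∀ e ∈ A, e ∈ B → e = b := by
        intro e he heB
        have : e ∈ A ∩ B := Finset.mem_inter.2 ⟨he, heB⟩
        rw [hb] at this
        exact Finset.mem_singleton.1 this
      have hsub : A.erase b ⊆ E := by
        intro e he
        obtain ⟨h1, h2⟩ := Finset.mem_erase.1 he
        by_contra h3
        exact h1 (hAB e h2 (Finset.mem_sdiff.2 ⟨hA1' h2, h3⟩))
      have hFsub : F ⊆ A.erase b := by
        intro e he
        refine Finset.mem_erase.2 ⟨?_, hFA he⟩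
        rintro rfl
        exact hBE e hbB (hF he)
      obtain ⟨hc1, hc2⟩ := (isST_iff hA1' hu').1 hT
      obtain ⟨q, hq, hqadj, hbq⟩ := exists_of_mem_newE hbB
      have hqv : q ≠ v := hqadj.ne.symm
      -- the retraction
      set π : ℕ → ℕ := fun x => if x = v then q else x with hπ
      have hπv : π v = q := by simp [hπ]
      have hπo : ∀ x, x ≠ v → π x = x := fun x hx => by simp [hπ, hx]
      have hadjπ : ∀ p p', (HH A).Adj p p' → (HH (A.erase b)).Reachable (π p) (π p') := by
        intro p p' hpp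
        obtain ⟨h1, h2⟩ := HH_adj.1 hpp
        by_cases hp : p = v
        · subst hp
          have h3 : s(p, p') ∈ B := mem_newE_of_mem hv (hA1' h1) (Sym2.mem_mk_left _ _)
          have h4 := hAB _ h1 h3
          rw [hbq] at h4
          have h5 : p' = q := Sym2.congr_right.1 h4
          subst h5
          rw [hπv, hπo _ hqv]
        · by_cases hp' : p' = v
          · subst hp'
            have h3 : s(p, p') ∈ B := mem_newE_of_mem hv (hA1' h1) (Sym2.mem_mk_right _ _)
            have h4 := hAB _ h1 h3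
            rw [hbq, Sym2.eq_swap] at h4
            have h5 : p = q := Sym2.congr_right.1 h4
            subst h5
            rw [hπv, hπo _ hqv]
          · rw [hπo _ hp, hπo _ hp']
            refine Adj.reachable (HH_adj.2 ⟨Finset.mem_erase.2 ⟨?_, h1⟩, h2⟩)
            intro h3
            rw [hbq] at h3
            have h4 : v ∈ s(p, p') := by
              rw [h3]
              exact Sym2.mem_mk_left _ _
            rcases Sym2.mem_iff.1 h4 with h5 | h5
            · exact hp h5.symm
            · exact hp' h5.symm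
      have hreachπ : ∀ p p', (HH A).Reachable p p' → (HH (A.erase b)).Reachable (π p) (π p') := by
        intro p p' h
        obtain ⟨P⟩ := h
        induction P with
        | nil => exact Reachable.refl _
        | cons hadj _ ih => exact (hadjπ _ _ hadj).trans ih
      have hT₀ : IsSpanningTreeOn G S (A.erase b) := by
        refine (isST_iff hsub hu).2 ⟨?_, ?_⟩
        · intro x hx
          have h1 := hreachπ u x (hc1 x (Finset.mem_insert_of_mem hx))
          have hxv : x ≠ v := fun h => hv (h ▸ hx)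
          rwa [hπo _ huv, hπo _ hxv] at h1
        · have h3 : (A.erase b).card + 1 = A.card := Finset.card_erase_add_one hbA
          rw [hS', card_insert' hv] at hc2
          omega
      refine ⟨(b, A.erase b), Finset.mem_product.2 ⟨hbB, ?_⟩, Finset.insert_erase hbA⟩
      exact Finset.mem_filter.2 ⟨Finset.mem_powerset.2 hsub, hFsub, hT₀⟩
  rw [hcard, Finset.card_product]
  push_cast
  rfl

/-- Adding one vertex decreases the probability of an up-set. -/
theorem ust_step (hv : v ∉ S) (hu : u ∈ S) (hS : (G.induce (S : Set ℕ)).Connected)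
    (hadj : G.Adj u v) {F : Finset (Sym2 ℕ)} (hF : F ⊆ edgesIn G S) :
    ustContains G (insert v S) F ≤ ustContains G S F := by
  have hS' := connected_insert hu hS hadj
  have hst := stable_treeW hS'
  have hst₀ := stable_treeW hS
  have hc : ∀ A ∈ (edgesIn G (insert v S)).powerset, 0 ≤ treeW G (insert v S) A :=
    fun A _ => treeW_nonneg _ _ _
  have hc₀ : ∀ A ∈ (edgesIn G S).powerset, 0 ≤ treeW G S A := fun A _ => treeW_nonneg _ _ _
  have hT := sT_pos_of_stable hst hc
  have hT₀ := sT_pos_of_stable hst₀ hc₀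
  have huv : u ≠ v := fun h => hv (h ▸ hu)
  have hu' : u ∈ insert v S := Finset.mem_insert_of_mem hu
  have hBsub : newE G S v ⊆ edgesIn G (insert v S) := Finset.sdiff_subset
  have hdisj : Disjoint F (newE G S v) := by
    refine Finset.disjoint_left.2 fun e he heB => ?_
    exact (Finset.mem_sdiff.1 heB).2 (hF he)
  have hBne : 0 < (newE G S v).card :=
    Finset.card_pos.2 ⟨_, mem_newE_iff hv hu hadj.symm⟩
  have hpos : ∀ A ∈ (edgesIn G (insert v S)).powerset, treeW G (insert v S) A ≠ 0 →
      1 ≤ (A ∩ newE G S v).card := by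
    intro A hA h0
    have hA' := Finset.mem_powerset.1 hA
    have hT' : IsSpanningTreeOn G (insert v S) A := by
      by_contra h
      exact h0 (by simp [treeW, h])
    obtain ⟨hc1, _⟩ := (isST_iff hA' hu').1 hT'
    have h1 : (HH A).Reachable v u := (hc1 v (Finset.mem_insert_self _ _)).symm
    obtain ⟨P⟩ := h1
    cases P with
    | nil => exact absurd rfl huv
    | @cons _ w _ hvw _ =>
      obtain ⟨h2, _⟩ := HH_adj.1 hvw
      refine Finset.card_pos.2 ⟨s(v, w), Finset.mem_inter.2 ⟨h2, ?_⟩⟩
      exact mem_newE_of_mem hv (hA' h2) (Sym2.mem_mk_left _ _)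
  have h1 := card_one_new hv hu hF
  have h2 := card_one_new (G := G) hv hu (F := ∅) (Finset.empty_subset _)
  simp only [Finset.empty_subset, true_and, sEA_empty] at h2
  have hD : 0 < ∑ A ∈ (edgesIn G (insert v S)).powerset,
      if (A ∩ newE G S v).card = 1 then treeW G (insert v S) A else 0 := by
    rw [h2]
    exact mul_pos (by exact_mod_cast hBne) hT₀
  have h3 := tilt_limit hst hc hT hBsub hdisj hpos hD
  rw [h1, h2] at h3
  rw [ust_eq', ust_eq']
  have hBne' : ((newE G S v).card : ℝ) ≠ 0 := by exact_mod_cast hBne.ne'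
  rwa [mul_div_mul_left _ _ hBne'] at h3

end step

/-- Enlarging the piece decreases the probability of an up-set. -/
theorem ust_mono {G : SimpleGraph ℕ} {S S' : Finset ℕ} (hSS' : S ⊆ S')
    (hS : (G.induce (S : Set ℕ)).Connected) (hS' : (G.induce (S' : Set ℕ)).Connected)
    {F : Finset (Sym2 ℕ)} (hF : F ⊆ edgesIn G S) :
    ustContains G S' F ≤ ustContains G S F := by
  induction hk : (S' \ S).card generalizing S with
  | zero =>
    have : S' \ S = ∅ := Finset.card_eq_zero.1 hk
    have h1 : S' ⊆ S := Finset.sdiff_eq_empty_iff_subset.1 this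
    rw [Finset.Subset.antisymm hSS' h1]
  | succ k ih =>
    obtain ⟨⟨r, hr⟩⟩ := hS.nonempty
    have hr' : r ∈ S := hr
    have hne : (S' \ S).Nonempty := Finset.card_pos.1 (by omega)
    obtain ⟨x, hx⟩ := hne
    obtain ⟨hx1, hx2⟩ := Finset.mem_sdiff.1 hx
    -- a vertex adjacent to `S`
    have hexists : ∃ u v, u ∈ S ∧ v ∈ S' ∧ v ∉ S ∧ G.Adj u v := by
      by_contra hno
      push Not at hno
      have hcl : ∀ p q, (HH (edgesIn G S')).Adj p q → p ∈ S → q ∈ S := by
        intro p q hpq hp
        obtain ⟨h1, _⟩ := HH_adj.1 hpq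
        obtain ⟨_, h3, h4⟩ := mem_edgesIn.1 h1
        by_contra h5
        exact hno p q hp h3 h5 h4
      have h1 := (connected_induce_iff (hSS' hr')).1 hS' x hx1
      obtain ⟨h2, _⟩ := induce_reachable_of hcl h1 hr'
      exact hx2 h2
    obtain ⟨u, v, hu, hv1, hv2, hadj⟩ := hexists
    have hstep := ust_step hv2 hu hS hadj hF
    have hS₁ := connected_insert hu hS hadj
    have hsub : insert v S ⊆ S' := Finset.insert_subset hv1 hSS'
    have hF₁ : F ⊆ edgesIn G (insert v S) :=
      hF.trans (edgesIn_mono G (Finset.subset_insert v S))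
    have hcard : (S' \ insert v S).card = k := by
      have h1 : S' \ insert v S = (S' \ S).erase v := by
        ext y
        simp only [Finset.mem_sdiff, Finset.mem_insert, Finset.mem_erase, not_or]
        tauto
      rw [h1, Finset.card_erase_of_mem (Finset.mem_sdiff.2 ⟨hv1, hv2⟩), hk]
      rfl
    exact (ih hsub hS₁ hF₁ hcard).trans hstep

end Crest.Agent.Lib.Loc
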