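/-
Balls in a graph on the natural numbers, defined by a recursion on adjacency.
-/
import Crest.Agent.Lib.LocUSTMono

set_option autoImplicit false

namespace Crest.Agent.Lib.Loc

open SimpleGraph
open scoped Classical
open Crest.ProbabilityR.SpanningTrees

/-- `v` can be reached from `u` in at most `n` steps. -/
def reach (G : SimpleGraph ℕ) : ℕ → ℕ → ℕ → Prop
  | 0, u, v => u = v
  | n + 1, u, v => reach G n u v ∨ ∃ w, reach G n u w ∧ G.Adj w v

variable {G : SimpleGraph ℕ}

lemma reach_self (n u : ℕ) : reach G n u u := by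
  induction n with
  | zero => rfl
  | succ n ih => exact Or.inl ih

lemma reach_mono {m n u v : ℕ} (h : m ≤ n) (hr : reach G m u v) : reach G n u v := by
  induction n, h using Nat.le_induction with
  | base => exact hr
  | succ n _ ih => exact Or.inl ih

lemma reach_step {n u w v : ℕ} (h : reach G n u w) (hadj : G.Adj w v) : reach G (n + 1) u v :=
  Or.inr ⟨w, h, hadj⟩

lemma reach_cons {n u u' v : ℕ} (hadj : G.Adj u u') (h : reach G n u' v) :
    reach G (n + 1) u v := by
  induction n generalizing v with
  | zero =>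
    have : u' = v := h
    subst this
    exact reach_step (reach_self 0 u) hadj
  | succ n ih =>
    rcases h with h | ⟨w, hw, hwv⟩
    · exact Or.inl (ih h)
    · exact reach_step (ih hw) hwv

lemma reachable_of_reach {n u v : ℕ} (h : reach G n u v) : G.Reachable u v := by
  induction n generalizing v with
  | zero =>
    have : u = v := h
    subst this
    exact Reachable.refl _
  | succ n ih =>
    rcases h with h | ⟨w, hw, hwv⟩
    · exact ih h
    · exact (ih hw).trans hwv.reachable

lemma exists_reach {u v : ℕ} (h : G.Reachable u v) : ∃ n, reach G n u v := by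
  obtain ⟨P⟩ := h
  induction P with
  | nil => exact ⟨0, rfl⟩
  | cons hadj _ ih =>
    obtain ⟨n, hn⟩ := ih
    exact ⟨n + 1, reach_cons hadj hn⟩

lemma finite_reach (hG : ∀ v, (G.neighborSet v).Finite) (n u : ℕ) : {v | reach G n u v}.Finite := by
  induction n with
  | zero =>
    have : {v | reach G 0 u v} = {u} := by
      ext v
      exact ⟨fun h => (show u = v from h).symm, fun h => (show u = v from h.symm)⟩
    rw [this]
    exact Set.finite_singleton u
  | succ n ih =>
    have : {v | reach G (n + 1) u v} =
        {v | reach G n u v} ∪ ⋃ w ∈ {v | reach G n u v}, G.neighborSet w := by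
      ext v
      simp only [Set.mem_ofPred_eq, Set.mem_union, Set.mem_iUnion, mem_neighborSet, exists_prop]
      rfl
    rw [this]
    exact ih.union (ih.biUnion fun w _ => hG w)

lemma reach_comap (σ : Equiv.Perm ℕ) (n u v : ℕ) :
    reach (G.comap σ) n u v ↔ reach G n (σ u) (σ v) := by
  induction n generalizing v with
  | zero =>
    exact ⟨fun h => congrArg σ h, fun h => σ.injective h⟩
  | succ n ih =>
    constructor
    · rintro (h | ⟨w, hw, hwv⟩)
      · exact Or.inl ((ih v).1 h)
      · exact Or.inr ⟨σ w, (ih w).1 hw, hwv⟩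
    · rintro (h | ⟨w, hw, hwv⟩)
      · exact Or.inl ((ih v).2 h)
      · refine Or.inr ⟨σ.symm w, (ih _).2 (by simpa using hw), ?_⟩
        simpa using hwv

/-- Good graphs. -/
def GoodG (G : SimpleGraph ℕ) : Prop := G.Connected ∧ ∀ v, (G.neighborSet v).Finite

lemma GoodG.comap {G : SimpleGraph ℕ} (h : GoodG G) (σ : Equiv.Perm ℕ) : GoodG (G.comap σ) := by
  refine ⟨?_, fun v => ?_⟩
  · exact (Iso.connected_iff (SimpleGraph.Iso.comap σ G)).2 h.1
  · have h1 : (G.comap σ).neighborSet v = σ ⁻¹' (G.neighborSet (σ v)) := by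
      ext w
      simp
    rw [h1]
    exact (h.2 (σ v)).preimage σ.injective.injOn

lemma GoodG.of_comap {G : SimpleGraph ℕ} (σ : Equiv.Perm ℕ) (h : GoodG (G.comap σ)) : GoodG G := by
  have := h.comap σ.symm
  have h2 : (G.comap σ).comap σ.symm = G := by
    ext a b
    simp
  rwa [h2] at this

/-- The ball as a finite set (singleton for infinite balls). -/
noncomputable def ballFs (G : SimpleGraph ℕ) (u n : ℕ) : Finset ℕ :=
  if h : {v | reach G n u v}.Finite then h.toFinset else {u}

lemma mem_ballFs (hG : ∀ v, (G.neighborSet v).Finite) {u n v : ℕ} :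
    v ∈ ballFs G u n ↔ reach G n u v := by
  unfold ballFs
  rw [dif_pos (finite_reach hG n u)]
  simp

lemma connected_ball (hG : ∀ v, (G.neighborSet v).Finite) (u n : ℕ) :
    (G.induce (ballFs G u n : Set ℕ)).Connected := by
  have hu : u ∈ ballFs G u n := (mem_ballFs hG).2 (reach_self n u)
  rw [connected_induce_iff hu]
  have key : ∀ k, k ≤ n → ∀ x, reach G k u x → (HH (edgesIn G (ballFs G u n))).Reachable u x := by
    intro k
    induction k with
    | zero =>
      intro _ x hx
      have : u = x := hx
      subst this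
      exact Reachable.refl _
    | succ k ih =>
      intro hk x hx
      rcases hx with hx | ⟨w, hw, hwx⟩
      · exact ih (by omega) x hx
      · refine (ih (by omega) w hw).trans (Adj.reachable ?_)
        refine HH_adj.2 ⟨mem_edgesIn.2 ⟨?_, ?_, hwx⟩, hwx.ne⟩
        · exact (mem_ballFs hG).2 (reach_mono (by omega) hw)
        · exact (mem_ballFs hG).2 (reach_mono hk (reach_step hw hwx))
  intro x hx
  exact key n le_rfl x ((mem_ballFs hG).1 hx)

lemma ballFs_mono (hG : ∀ v, (G.neighborSet v).Finite) (u : ℕ) : Monotone (ballFs G u) := by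
  intro m n hmn x hx
  exact (mem_ballFs hG).2 (reach_mono hmn ((mem_ballFs hG).1 hx))

lemma ballFs_exh (hG : GoodG G) (u v : ℕ) : ∃ n, v ∈ ballFs G u n := by
  obtain ⟨n, hn⟩ := exists_reach (hG.1.preconnected u v)
  exact ⟨n, (mem_ballFs hG.2).2 hn⟩

end Crest.Agent.Lib.Loc
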