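/-
The free uniform spanning forest: the limit of the spanning tree probabilities and its law.
-/
import Crest.Agent.Lib.LocReach
import Crest.Agent.Lib.LocFinLaw
import Crest.Agent.Lib.LocTransport

set_option autoImplicit false

namespace Crest.Agent.Lib.Loc

open SimpleGraph MeasureTheory Filter Topology
open scoped Classical
open Crest.ProbabilityR.SpanningTrees

/-- The finite pieces which are admissible for `F`. -/
def connS (G : SimpleGraph ℕ) (F : Finset (Sym2 ℕ)) (S : Finset ℕ) : Prop :=
  (G.induce (S : Set ℕ)).Connected ∧ F ⊆ edgesIn G S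

/-- Auxiliary total function. -/
noncomputable def gS (G : SimpleGraph ℕ) (F : Finset (Sym2 ℕ)) (S : Finset ℕ) : ℝ :=
  if connS G F S then ustContains G S F else 1

/-- The limiting probability of an up-set. -/
noncomputable def qG (G : SimpleGraph ℕ) (F : Finset (Sym2 ℕ)) : ℝ :=
  if (F : Set (Sym2 ℕ)) ⊆ G.edgeSet then ⨅ S, gS G F S else 0

lemma gS_nonneg (G : SimpleGraph ℕ) (F : Finset (Sym2 ℕ)) (S : Finset ℕ) : 0 ≤ gS G F S := by
  unfold gS
  split_ifs
  · exact ust_nonneg _ _ _
  · exact zero_le_one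

lemma gS_bdd (G : SimpleGraph ℕ) (F : Finset (Sym2 ℕ)) : BddBelow (Set.range (gS G F)) :=
  ⟨0, by
    rintro _ ⟨S, rfl⟩
    exact gS_nonneg _ _ _⟩

lemma eventually_subset_edgesIn {G : SimpleGraph ℕ} {S : ℕ → Finset ℕ} (hm : Monotone S)
    (hex : ∀ v, ∃ n, v ∈ S n) {F : Finset (Sym2 ℕ)} (hF : (F : Set (Sym2 ℕ)) ⊆ G.edgeSet) :
    ∀ᶠ n in atTop, F ⊆ edgesIn G (S n) := by
  have : ∀ e ∈ F, ∀ᶠ n in atTop, e ∈ edgesIn G (S n) := by
    intro e he
    have h1 := hF he
    induction e using Sym2.ind with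
    | _ a b =>
      obtain ⟨n₁, h2⟩ := hex a
      obtain ⟨n₂, h3⟩ := hex b
      filter_upwards [eventually_ge_atTop (max n₁ n₂)] with n hn
      refine mem_edgesIn.2 ⟨hm ?_ h2, hm ?_ h3, h1⟩
      · exact (le_max_left _ _).trans hn
      · exact (le_max_right _ _).trans hn
  exact (Filter.eventually_all_finset F).2 this

/-- The spanning tree probabilities converge along every exhaustion. -/
theorem tendsto_ust {G : SimpleGraph ℕ} {S : ℕ → Finset ℕ} (hm : Monotone S)
    (hex : ∀ v, ∃ n, v ∈ S n) (hc : ∀ n, (G.induce (S n : Set ℕ)).Connected)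
    {F : Finset (Sym2 ℕ)} (hF : (F : Set (Sym2 ℕ)) ⊆ G.edgeSet) :
    Tendsto (fun n => ustContains G (S n) F) atTop (𝓝 (qG G F)) := by
  unfold qG
  rw [if_pos hF]
  have h1 := eventually_subset_edgesIn hm hex hF
  rw [tendsto_order]
  constructor
  · intro a ha
    filter_upwards [h1] with n hn
    have h2 : gS G F (S n) = ustContains G (S n) F := by
      unfold gS
      rw [if_pos ⟨hc n, hn⟩]
    rw [← h2]
    exact lt_of_lt_of_le ha (ciInf_le (gS_bdd G F) _)
  · intro a ha
    obtain ⟨S₀, hS₀⟩ := exists_lt_of_ciInf_lt ha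
    by_cases hconn : connS G F S₀
    · have h2 : gS G F S₀ = ustContains G S₀ F := by
        unfold gS
        rw [if_pos hconn]
      rw [h2] at hS₀
      have hsub : ∀ᶠ n in atTop, S₀ ⊆ S n := by
        have : ∀ v ∈ S₀, ∀ᶠ n in atTop, v ∈ S n := by
          intro v _
          obtain ⟨n₁, h3⟩ := hex v
          filter_upwards [eventually_ge_atTop n₁] with n hn using hm hn h3
        exact (Filter.eventually_all_finset S₀).2 this
      filter_upwards [hsub] with n hn
      exact lt_of_le_of_lt (ust_mono hn hconn.1 (hc n) hconn.2) hS₀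
    · have h2 : gS G F S₀ = 1 := by
        unfold gS
        rw [if_neg hconn]
      rw [h2] at hS₀
      exact Eventually.of_forall fun n => lt_of_le_of_lt (ust_le_one _ _ _) hS₀

/-- The law of the uniform spanning tree of a finite connected piece. -/
noncomputable def ustLaw (G : SimpleGraph ℕ) (S : Finset ℕ) : Measure (Sym2 ℕ → Bool) :=
  finLaw (edgesIn G S) (treeW G S)

lemma treeW_nonneg' (G : SimpleGraph ℕ) (S : Finset ℕ) :
    ∀ A ∈ (edgesIn G S).powerset, 0 ≤ treeW G S A := fun A _ => treeW_nonneg _ _ _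

lemma sT_treeW_pos {G : SimpleGraph ℕ} {S : Finset ℕ} (hS : (G.induce (S : Set ℕ)).Connected) :
    0 < sT (edgesIn G S) (treeW G S) :=
  sT_pos_of_stable (stable_treeW hS) (treeW_nonneg' G S)

lemma ustLaw_isProb {G : SimpleGraph ℕ} {S : Finset ℕ} (hS : (G.induce (S : Set ℕ)).Connected) :
    IsProbabilityMeasure (ustLaw G S) :=
  finLaw_isProb (treeW_nonneg' G S) (sT_treeW_pos hS)

lemma ustLaw_upset {G : SimpleGraph ℕ} {S : Finset ℕ} (hS : (G.induce (S : Set ℕ)).Connected)
    (F : Finset (Sym2 ℕ)) :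
    (ustLaw G S {ω | ∀ e ∈ F, ω e = true}).toReal = ustContains G S F := by
  rw [ust_eq']
  exact finLaw_upset (treeW_nonneg' G S) (sT_treeW_pos hS) F

/-- Existence of the free uniform spanning forest law. -/
theorem exists_fusf {G : SimpleGraph ℕ} (hG : GoodG G) :
    ∃ ν : Measure (Sym2 ℕ → Bool), IsProbabilityMeasure ν ∧
      (∀ F : Finset (Sym2 ℕ), (ν {ω | ∀ e ∈ F, ω e = true}).toReal = qG G F) ∧
      LipLaw ν (1 / 2) := by
  set S : ℕ → Finset ℕ := ballFs G 0 with hS
  have hc : ∀ n, (G.induce (S n : Set ℕ)).Connected := fun n => connected_ball hG.2 0 n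
  have hm : Monotone S := ballFs_mono hG.2 0
  have hex : ∀ v, ∃ n, v ∈ S n := ballFs_exh hG 0
  set μ : ℕ → Measure (Sym2 ℕ → Bool) := fun n => ustLaw G (S n) with hμ
  have hprob : ∀ n, IsProbabilityMeasure (μ n) := fun n => ustLaw_isProb (hc n)
  obtain ⟨ν, hν, hlim⟩ := exists_cluster_law μ
  refine ⟨ν, hν, ?_, ?_⟩
  · intro F
    have h1 := hlim _ (isClopen_upset F)
    have h2 : ∀ n, (μ n {ω | ∀ e ∈ F, ω e = true}).toReal = ustContains G (S n) F := fun n =>
      ustLaw_upset (hc n) F
    simp only [h2] at h1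
    by_cases hF : (F : Set (Sym2 ℕ)) ⊆ G.edgeSet
    · have h3 := (tendsto_ust hm hex hc hF).mono_left Nat.hyperfilter_le_atTop
      exact tendsto_nhds_unique h1 h3
    · have hq : qG G F = 0 := by
        unfold qG
        rw [if_neg hF]
      rw [hq]
      obtain ⟨e, he, hne⟩ := Set.not_subset.1 hF
      have h0 : ∀ n, ustContains G (S n) F = 0 := by
        intro n
        rw [ust_eq']
        have : e ∉ edgesIn G (S n) := by
          intro h
          apply hne
          induction e using Sym2.ind with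
          | _ a b => exact (mem_edgesIn.1 h).2.2
        rw [sEA_eq_zero_of_not_mem _ this he, zero_div]
      simp only [h0] at h1
      exact tendsto_nhds_unique h1 tendsto_const_nhds
  · refine liplaw_of_tendsto (U := (hyperfilter ℕ : Filter ℕ)) (μ := μ) ?_ ?_
    · intro F R
      exact hlim _ (isClopen_cyl F R)
    · intro n
      exact lip_finLaw (stable_treeW (hc n)) (treeW_nonneg' G _) (sT_treeW_pos (hc n))

/-! ### Uniqueness of the law given the probabilities of up-sets -/

section ext
variable {I : Type*}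

/-- The up-sets. -/
def upSets (I : Type*) : Set (Set (I → Bool)) :=
  Set.range (fun F : Finset I => {ω : I → Bool | ∀ e ∈ F, ω e = true})

lemma isPiSystem_upSets : IsPiSystem (upSets I) := by
  rintro _ ⟨F, rfl⟩ _ ⟨F', rfl⟩ _
  refine ⟨F ∪ F', ?_⟩
  ext ω
  simp only [Finset.mem_union, Set.mem_ofPred_eq, Set.mem_inter_iff]
  constructor
  · intro h
    exact ⟨fun e he => h e (Or.inl he), fun e he => h e (Or.inr he)⟩
  · rintro ⟨h1, h2⟩ e (he | he)
    · exact h1 e he
    · exact h2 e he

lemma generateFrom_upSets :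
    (MeasurableSpace.pi : MeasurableSpace (I → Bool)) = MeasurableSpace.generateFrom (upSets I) := by
  refine le_antisymm ?_ ?_
  · refine iSup_le fun e => ?_
    have h1 : @Measurable _ _ (MeasurableSpace.generateFrom (upSets I)) _
        (fun ω : I → Bool => ω e) := by
      refine @measurable_to_bool _ (MeasurableSpace.generateFrom (upSets I)) _ ?_
      refine MeasurableSpace.measurableSet_generateFrom ⟨{e}, ?_⟩
      ext ω
      simp
    exact h1.comap_le
  · refine MeasurableSpace.generateFrom_le ?_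
    rintro _ ⟨F, rfl⟩
    exact measurableSet_upset F

/-- Two probability laws with the same probabilities of up-sets coincide. -/
theorem law_ext {ν ν' : Measure (I → Bool)} [IsProbabilityMeasure ν] [IsProbabilityMeasure ν']
    (h : ∀ F : Finset I, (ν {ω | ∀ e ∈ F, ω e = true}).toReal =
      (ν' {ω | ∀ e ∈ F, ω e = true}).toReal) : ν = ν' := by
  refine ext_of_generate_finite (upSets I) generateFrom_upSets isPiSystem_upSets ?_ ?_
  · rintro _ ⟨F, rfl⟩
    exact (ENNReal.toReal_eq_toReal_iff' (measure_ne_top _ _) (measure_ne_top _ _)).1 (h F)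
  · simp

/-- Transport of the masses by a bijection of the sites. -/
theorem mass_transport (ρ : I ≃ I) {ν ν' : Measure (I → Bool)} [IsProbabilityMeasure ν]
    [IsProbabilityMeasure ν']
    (h : ∀ F : Finset I, (ν' {ω | ∀ e ∈ F, ω e = true}).toReal =
      (ν {ω | ∀ e ∈ F.map ρ.toEmbedding, ω e = true}).toReal) (F S : Finset I) :
    mass ν' F S = mass ν (F.map ρ.toEmbedding) (S.map ρ.toEmbedding) := by
  have hm : Measurable (fun ω : I → Bool => fun l => ω (ρ l)) :=
    measurable_pi_lambda _ fun l => measurable_pi_apply _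
  have hprob : IsProbabilityMeasure (ν.map (fun ω : I → Bool => fun l => ω (ρ l))) :=
    Measure.isProbabilityMeasure_map hm.aemeasurable
  have h1 : ν' = ν.map (fun ω : I → Bool => fun l => ω (ρ l)) := by
    refine law_ext fun F => ?_
    rw [h F, Measure.map_apply hm (measurableSet_upset F)]
    congr 2
    ext ω
    simp only [Set.mem_preimage, Set.mem_ofPred_eq, Finset.mem_map, Equiv.coe_toEmbedding]
    constructor
    · intro h1 e he
      exact h1 (ρ e) ⟨e, he, rfl⟩
    · rintro h1 e ⟨a, ha, rfl⟩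
      exact h1 a ha
  unfold mass
  rw [h1, Measure.map_apply hm (measurableSet_cyl F S)]
  congr 2
  ext ω
  simp only [Set.mem_preimage, Set.mem_ofPred_eq, Finset.mem_map, Equiv.coe_toEmbedding]
  constructor
  · intro h2 i hi
    obtain ⟨a, ha, rfl⟩ := hi
    have h3 := h2 a ha
    rw [h3]
    constructor
    · intro h4
      exact ⟨a, h4, rfl⟩
    · rintro ⟨b, hb, hba⟩
      rw [← ρ.injective hba]
      exact hb
  · intro h2 i hi
    have h3 := h2 (ρ i) ⟨i, hi, rfl⟩
    rw [h3]
    constructor
    · rintro ⟨b, hb, hba⟩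
      rw [← ρ.injective hba]
      exact hb
    · intro h4
      exact ⟨i, h4, rfl⟩

end ext

/-! ### Transport by a permutation of the vertices -/

/-- The permutation induced on the unordered pairs. -/
def rhoE (σ : Equiv.Perm ℕ) : Sym2 ℕ ≃ Sym2 ℕ where
  toFun := Sym2.map σ
  invFun := Sym2.map σ.symm
  left_inv := by
    intro e
    induction e using Sym2.ind with
    | _ a b => simp
  right_inv := by
    intro e
    induction e using Sym2.ind with
    | _ a b => simp

@[simp] lemma rhoE_mk (σ : Equiv.Perm ℕ) (a b : ℕ) : rhoE σ s(a, b) = s(σ a, σ b) := rfl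

variable {G : SimpleGraph ℕ}

lemma edgesIn_comap (σ : Equiv.Perm ℕ) (S : Finset ℕ) :
    edgesIn G (S.map σ.toEmbedding) = (edgesIn (G.comap σ) S).map (rhoE σ).toEmbedding := by
  ext e
  simp only [Finset.mem_map, Equiv.coe_toEmbedding]
  constructor
  · intro he
    refine ⟨(rhoE σ).symm e, ?_, by simp⟩
    induction e using Sym2.ind with
    | _ a b =>
      obtain ⟨h1, h2, h3⟩ := mem_edgesIn.1 he
      obtain ⟨a', ha', rfl⟩ := Finset.mem_map.1 h1
      obtain ⟨b', hb', rfl⟩ := Finset.mem_map.1 h2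
      have : (rhoE σ).symm s(σ a', σ b') = s(a', b') := by
        rw [Equiv.symm_apply_eq]
        rfl
      simp only [Equiv.coe_toEmbedding] at this ⊢
      rw [this]
      exact mem_edgesIn.2 ⟨ha', hb', h3⟩
  · rintro ⟨e', he', rfl⟩
    induction e' using Sym2.ind with
    | _ a b =>
      obtain ⟨h1, h2, h3⟩ := mem_edgesIn.1 he'
      exact mem_edgesIn.2 ⟨Finset.mem_map_of_mem _ h1, Finset.mem_map_of_mem _ h2, h3⟩

lemma reachable_map_iff (σ : Equiv.Perm ℕ) (A : Finset (Sym2 ℕ)) (x y : ℕ) :
    (HH (A.map (rhoE σ).toEmbedding)).Reachable (σ x) (σ y) ↔ (HH A).Reachable x y := by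
  constructor
  · intro h
    let f : HH (A.map (rhoE σ).toEmbedding) →g HH A :=
      { toFun := σ.symm
        map_rel' := by
          intro a b hab
          obtain ⟨h1, h2⟩ := HH_adj.1 hab
          refine HH_adj.2 ⟨?_, fun h3 => h2 (σ.symm.injective h3)⟩
          obtain ⟨e, he, hee⟩ := Finset.mem_map.1 h1
          have h4 : e = s(σ.symm a, σ.symm b) := by
            rw [← (rhoE σ).symm_apply_apply e]
            simp only [Equiv.coe_toEmbedding] at hee
            rw [hee, Equiv.symm_apply_eq]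
            simp
          rwa [← h4] }
    have := h.map f
    simpa [f] using this
  · intro h
    let f : HH A →g HH (A.map (rhoE σ).toEmbedding) :=
      { toFun := σ
        map_rel' := by
          intro a b hab
          obtain ⟨h1, h2⟩ := HH_adj.1 hab
          exact HH_adj.2 ⟨Finset.mem_map.2 ⟨_, h1, rfl⟩, fun h3 => h2 (σ.injective h3)⟩ }
    exact h.map f

lemma connOn_map_iff (σ : Equiv.Perm ℕ) (A : Finset (Sym2 ℕ)) (S : Finset ℕ) (r : ℕ) :
    ConnOn (A.map (rhoE σ).toEmbedding) (S.map σ.toEmbedding) (σ r) ↔ ConnOn A S r := by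
  constructor
  · intro h x hx
    exact (reachable_map_iff σ A r x).1 (h _ (Finset.mem_map_of_mem _ hx))
  · intro h x hx
    obtain ⟨a, ha, rfl⟩ := Finset.mem_map.1 hx
    exact (reachable_map_iff σ A r a).2 (h a ha)

lemma connected_comap_iff (σ : Equiv.Perm ℕ) (S : Finset ℕ) :
    ((G.comap σ).induce (S : Set ℕ)).Connected ↔
      (G.induce ((S.map σ.toEmbedding : Finset ℕ) : Set ℕ)).Connected := by
  by_cases hS : S.Nonempty
  · obtain ⟨r, hr⟩ := hS
    have hr' : σ r ∈ S.map σ.toEmbedding := Finset.mem_map_of_mem _ hr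
    rw [connected_induce_iff hr, connected_induce_iff hr', edgesIn_comap, connOn_map_iff]
  · have hS' : S = ∅ := Finset.not_nonempty_iff_eq_empty.1 hS
    subst hS'
    constructor
    · intro h
      obtain ⟨⟨x, hx⟩⟩ := h.nonempty
      simp at hx
    · intro h
      obtain ⟨⟨x, hx⟩⟩ := h.nonempty
      simp at hx

lemma treeW_comap (σ : Equiv.Perm ℕ) (S : Finset ℕ) {A : Finset (Sym2 ℕ)}
    (hA : A ⊆ edgesIn (G.comap σ) S) :
    treeW (G.comap σ) S A = treeW G (S.map σ.toEmbedding) (A.map (rhoE σ).toEmbedding) := by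
  have hA' : A.map (rhoE σ).toEmbedding ⊆ edgesIn G (S.map σ.toEmbedding) := by
    rw [edgesIn_comap]
    exact Finset.map_subset_map.2 hA
  have hiff : IsSpanningTreeOn (G.comap σ) S A ↔
      IsSpanningTreeOn G (S.map σ.toEmbedding) (A.map (rhoE σ).toEmbedding) := by
    by_cases hS : S.Nonempty
    · obtain ⟨r, hr⟩ := hS
      have hr' : σ r ∈ S.map σ.toEmbedding := Finset.mem_map_of_mem _ hr
      rw [isST_iff hA hr, isST_iff hA' hr', connOn_map_iff, Finset.card_map, Finset.card_map]
    · have hS' : S = ∅ := Finset.not_nonempty_iff_eq_empty.1 hS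
      subst hS'
      constructor
      · intro h
        obtain ⟨⟨x, hx⟩⟩ := h.2.1.nonempty
        simp at hx
      · intro h
        obtain ⟨⟨x, hx⟩⟩ := h.2.1.nonempty
        simp at hx
  unfold treeW
  by_cases h : IsSpanningTreeOn (G.comap σ) S A
  · rw [if_pos h, if_pos (hiff.1 h)]
  · rw [if_neg h, if_neg (fun h' => h (hiff.2 h'))]

lemma ust_comap (σ : Equiv.Perm ℕ) (S : Finset ℕ) (F : Finset (Sym2 ℕ)) :
    ustContains (G.comap σ) S F =
      ustContains G (S.map σ.toEmbedding) (F.map (rhoE σ).toEmbedding) := by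
  rw [ust_eq', ust_eq']
  congr 1
  · unfold sEA
    rw [edgesIn_comap, ← sum_powerset_map (rhoE σ)]
    refine Finset.sum_congr rfl fun A hA => ?_
    rw [← treeW_comap σ S (Finset.mem_powerset.1 hA)]
    simp only [Finset.map_subset_map]
  · unfold sT
    rw [edgesIn_comap, ← sum_powerset_map (rhoE σ)]
    refine Finset.sum_congr rfl fun A hA => ?_
    rw [← treeW_comap σ S (Finset.mem_powerset.1 hA)]

lemma connS_comap (σ : Equiv.Perm ℕ) (S : Finset ℕ) (F : Finset (Sym2 ℕ)) :
    connS (G.comap σ) F S ↔ connS G (F.map (rhoE σ).toEmbedding) (S.map σ.toEmbedding) := by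
  unfold connS
  rw [connected_comap_iff, edgesIn_comap, Finset.map_subset_map]

lemma gS_comap (σ : Equiv.Perm ℕ) (S : Finset ℕ) (F : Finset (Sym2 ℕ)) :
    gS (G.comap σ) F S = gS G (F.map (rhoE σ).toEmbedding) (S.map σ.toEmbedding) := by
  unfold gS
  by_cases h : connS (G.comap σ) F S
  · rw [if_pos h, if_pos ((connS_comap σ S F).1 h), ust_comap]
  · rw [if_neg h, if_neg (fun h' => h ((connS_comap σ S F).2 h'))]

/-- The limiting probabilities are equivariant. -/
theorem qG_comap (σ : Equiv.Perm ℕ) (F : Finset (Sym2 ℕ)) :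
    qG (G.comap σ) F = qG G (F.map (rhoE σ).toEmbedding) := by
  unfold qG
  have hiff : (F : Set (Sym2 ℕ)) ⊆ (G.comap σ).edgeSet ↔
      ((F.map (rhoE σ).toEmbedding : Finset (Sym2 ℕ)) : Set (Sym2 ℕ)) ⊆ G.edgeSet := by
    constructor
    · intro h e he
      obtain ⟨e', he', rfl⟩ := Finset.mem_map.1 he
      have h1 := h he'
      induction e' using Sym2.ind with
      | _ a b => exact h1
    · intro h e he
      have h1 := h (Finset.mem_map_of_mem (rhoE σ).toEmbedding he)
      induction e using Sym2.ind with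
      | _ a b => exact h1
  by_cases h : (F : Set (Sym2 ℕ)) ⊆ (G.comap σ).edgeSet
  · rw [if_pos h, if_pos (hiff.1 h)]
    simp only [gS_comap]
    exact (Equiv.finsetCongr σ).surjective.iInf_comp
      (fun S => gS G (F.map (rhoE σ).toEmbedding) S)
  · rw [if_neg h, if_neg (fun h' => h (hiff.2 h'))]

end Crest.Agent.Lib.Loc
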