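/-
Measurable dependence on the adjacency table of the law of the free uniform spanning forest.
-/
import Crest.Agent.Lib.LocFUSF
import Crest.Agent.Lib.LocXi
import Crest.Prelude.Def_GraphTables

set_option autoImplicit false

namespace Crest.Agent.Lib.Loc

open SimpleGraph MeasureTheory Filter Topology
open scoped Classical
open Crest.ProbabilityR.SpanningTrees Crest.ProbabilityR.GraphTables

/-! ### General lemmas on countable partitions -/

section general
variable {Z κ β : Type*} [MeasurableSpace Z] [Countable κ] [MeasurableSpace β]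

lemma measurable_of_key {key : Z → κ} (hkey : ∀ k, MeasurableSet {z | key z = k}) {f : Z → β}
    {g : κ → Z → β} (hg : ∀ k, Measurable (g k)) (hf : ∀ z, f z = g (key z) z) : Measurable f := by
  intro s hs
  have : f ⁻¹' s = ⋃ k, {z | key z = k} ∩ (g k) ⁻¹' s := by
    ext z
    simp only [Set.mem_preimage, Set.mem_iUnion, Set.mem_inter_iff, Set.mem_ofPred_eq, hf z]
    constructor
    · intro h
      exact ⟨key z, rfl, h⟩
    · rintro ⟨k, rfl, h⟩
      exact h
  rw [this]
  exact MeasurableSet.iUnion fun k => (hkey k).inter (hg k hs)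

lemma measurable_of_factor {key : Z → κ} (hkey : ∀ k, MeasurableSet {z | key z = k}) {f : Z → β}
    (hf : ∀ z z', key z = key z' → f z = f z') : Measurable f := by
  intro s _
  have : f ⁻¹' s = ⋃ k : κ, ⋃ _ : ∃ z, key z = k ∧ f z ∈ s, {z | key z = k} := by
    ext z
    simp only [Set.mem_preimage, Set.mem_iUnion, Set.mem_ofPred_eq, exists_prop]
    constructor
    · intro h
      exact ⟨key z, ⟨z, rfl, h⟩, rfl⟩
    · rintro ⟨k, ⟨z', hz', hs'⟩, hk⟩
      rw [hf z z' (hk.trans hz'.symm)]
      exact hs'
  rw [this]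
  exact MeasurableSet.iUnion fun k => MeasurableSet.iUnion fun _ => hkey k

lemma measurableSet_eq_finset {α : Type*} [Countable α] {f : Z → Finset α}
    (h : ∀ a, MeasurableSet {z | a ∈ f z}) (E : Finset α) : MeasurableSet {z | f z = E} := by
  have : {z | f z = E} = ⋂ a, {z | a ∈ f z ↔ a ∈ E} := by
    ext z
    simp only [Set.mem_ofPred_eq, Set.mem_iInter]
    exact Finset.ext_iff
  rw [this]
  refine MeasurableSet.iInter fun a => ?_
  by_cases ha : a ∈ E
  · have h1 : {z | a ∈ f z ↔ a ∈ E} = {z | a ∈ f z} := by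
      ext z
      simp [ha]
    rw [h1]
    exact h a
  · have h1 : {z | a ∈ f z ↔ a ∈ E} = {z | a ∈ f z}ᶜ := by
      ext z
      simp [ha]
    rw [h1]
    exact (h a).compl

end general

/-! ### Tables -/

/-- Adjacency tables. -/
abbrev Tab := ℕ → ℕ → Bool

/-- The graph of a table. -/
abbrev Gp (p : Tab) : SimpleGraph ℕ := graphOfTable p

lemma graphOfTable_tableOf (G : SimpleGraph ℕ) : graphOfTable (tableOf G) = G := by
  ext i j
  simp only [graphOfTable, tableOf, fromRel_adj, decide_eq_true_eq, ne_eq]
  constructor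
  · rintro ⟨_, h | h⟩
    · exact h
    · exact h.symm
  · intro h
    exact ⟨h.ne, Or.inl h⟩

lemma measurableSet_adj (i j : ℕ) : MeasurableSet {p : Tab | (Gp p).Adj i j} := by
  have h0 : ∀ a b : ℕ, MeasurableSet {p : Tab | p a b = true} := by
    intro a b
    have hm : Measurable (fun p : Tab => p a b) :=
      (measurable_pi_apply b).comp (measurable_pi_apply a)
    exact hm (measurableSet_singleton true)
  have : {p : Tab | (Gp p).Adj i j} = {_p | i ≠ j} ∩ ({p | p i j = true} ∪ {p | p j i = true}) := by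
    ext p
    simp [Gp, graphOfTable, fromRel_adj]
  rw [this]
  exact (MeasurableSet.const _).inter ((h0 i j).union (h0 j i))

lemma measurable_nrm : Measurable (fun p : Tab => tableOf (Gp p)) := by
  refine measurable_pi_lambda _ fun i => measurable_pi_lambda _ fun j => ?_
  refine measurable_to_bool ?_
  have : (fun p : Tab => tableOf (Gp p) i j) ⁻¹' {true} = {p | (Gp p).Adj i j} := by
    ext p
    simp [tableOf]
  rw [this]
  exact measurableSet_adj i j

lemma measurableSet_reach (n u v : ℕ) : MeasurableSet {p : Tab | reach (Gp p) n u v} := by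
  induction n generalizing v with
  | zero => exact MeasurableSet.const _
  | succ n ih =>
    have : {p : Tab | reach (Gp p) (n + 1) u v} = {p | reach (Gp p) n u v} ∪
        ⋃ w, {p | reach (Gp p) n u w} ∩ {p | (Gp p).Adj w v} := by
      ext p
      simp only [Set.mem_ofPred_eq, Set.mem_union, Set.mem_iUnion, Set.mem_inter_iff]
      rfl
    rw [this]
    exact (ih v).union (MeasurableSet.iUnion fun w => (ih w).inter (measurableSet_adj w v))

lemma goodG_iff {G : SimpleGraph ℕ} : GoodG G ↔
    (∀ u v, ∃ n, reach G n u v) ∧ ∀ v, ∃ m, ∀ y, m ≤ y → ¬ G.Adj v y := by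
  constructor
  · rintro ⟨h1, h2⟩
    refine ⟨fun u v => exists_reach (h1.preconnected u v), fun v => ?_⟩
    obtain ⟨m, hm⟩ := (h2 v).bddAbove
    refine ⟨m + 1, fun y hy hadj => ?_⟩
    have := hm hadj
    omega
  · rintro ⟨h1, h2⟩
    refine ⟨(connected_iff _).2 ⟨fun u v => ?_, ⟨0⟩⟩, fun v => ?_⟩
    · obtain ⟨n, hn⟩ := h1 u v
      exact reachable_of_reach hn
    · obtain ⟨m, hm⟩ := h2 v
      refine (Set.finite_lt_nat m).subset fun y hy => ?_
      by_contra hlt
      exact hm y (not_lt.1 hlt) hy

lemma measurableSet_good : MeasurableSet {p : Tab | GoodG (Gp p)} := by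
  simp only [goodG_iff]
  have : {p : Tab | (∀ u v, ∃ n, reach (Gp p) n u v) ∧ ∀ v, ∃ m, ∀ y, m ≤ y → ¬ (Gp p).Adj v y} =
      (⋂ u, ⋂ v, ⋃ n, {p | reach (Gp p) n u v}) ∩
        ⋂ v, ⋃ m, ⋂ y, {p | m ≤ y → ¬ (Gp p).Adj v y} := by
    ext p
    simp
  rw [this]
  refine (MeasurableSet.iInter fun u => MeasurableSet.iInter fun v =>
    MeasurableSet.iUnion fun n => measurableSet_reach n u v).inter ?_
  refine MeasurableSet.iInter fun v => MeasurableSet.iUnion fun m => MeasurableSet.iInter fun y => ?_
  by_cases h : m ≤ y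
  · have h1 : {p : Tab | m ≤ y → ¬ (Gp p).Adj v y} = {p | (Gp p).Adj v y}ᶜ := by
      ext p
      simp [h]
    rw [h1]
    exact (measurableSet_adj v y).compl
  · have h1 : {p : Tab | m ≤ y → ¬ (Gp p).Adj v y} = Set.univ := by
      ext p
      simp [h]
    rw [h1]
    exact MeasurableSet.univ

lemma measurableSet_mem_edgesIn (S : Finset ℕ) (e : Sym2 ℕ) :
    MeasurableSet {p : Tab | e ∈ edgesIn (Gp p) S} := by
  induction e using Sym2.ind with
  | _ a b =>
    simp only [mem_edgesIn]
    have : {p : Tab | a ∈ S ∧ b ∈ S ∧ (Gp p).Adj a b} =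
        {_p | a ∈ S ∧ b ∈ S} ∩ {p | (Gp p).Adj a b} := by
      ext p
      simp [and_assoc]
    rw [this]
    exact (MeasurableSet.const _).inter (measurableSet_adj a b)

lemma measurableSet_edgesIn_eq (S : Finset ℕ) (E : Finset (Sym2 ℕ)) :
    MeasurableSet {p : Tab | edgesIn (Gp p) S = E} :=
  measurableSet_eq_finset (measurableSet_mem_edgesIn S) E

lemma isST_congr {G G' : SimpleGraph ℕ} {S : Finset ℕ} (h : edgesIn G S = edgesIn G' S)
    (A : Finset (Sym2 ℕ)) : IsSpanningTreeOn G S A ↔ IsSpanningTreeOn G' S A := by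
  unfold IsSpanningTreeOn
  rw [h]

lemma ust_congr {G G' : SimpleGraph ℕ} {S : Finset ℕ} (h : edgesIn G S = edgesIn G' S)
    (F : Finset (Sym2 ℕ)) : ustContains G S F = ustContains G' S F := by
  rw [ust_eq', ust_eq', h]
  have : treeW G S = treeW G' S := by
    funext A
    unfold treeW
    simp only [isST_congr h]
  rw [this]

lemma connS_congr {G G' : SimpleGraph ℕ} {S : Finset ℕ} (h : edgesIn G S = edgesIn G' S)
    (F : Finset (Sym2 ℕ)) : connS G F S ↔ connS G' F S := by
  unfold connS
  rw [induce_eq_HH G S, induce_eq_HH G' S, h]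

lemma measurable_gS (F : Finset (Sym2 ℕ)) (S : Finset ℕ) :
    Measurable (fun p : Tab => gS (Gp p) F S) := by
  refine measurable_of_factor (key := fun p : Tab => edgesIn (Gp p) S)
    (measurableSet_edgesIn_eq S) ?_
  intro p p' h
  unfold gS
  simp only [connS_congr h, ust_congr h]

lemma measurableSet_mem_edgeSet (e : Sym2 ℕ) : MeasurableSet {p : Tab | e ∈ (Gp p).edgeSet} := by
  induction e using Sym2.ind with
  | _ a b => exact measurableSet_adj a b

lemma measurable_qG (F : Finset (Sym2 ℕ)) : Measurable (fun p : Tab => qG (Gp p) F) := by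
  unfold qG
  refine Measurable.ite ?_ (Measurable.iInf fun S => measurable_gS F S) measurable_const
  have : {p : Tab | (F : Set (Sym2 ℕ)) ⊆ (Gp p).edgeSet} =
      ⋂ e ∈ F, {p | e ∈ (Gp p).edgeSet} := by
    ext p
    simp [Set.subset_def]
  rw [this]
  exact Finset.measurableSet_biInter _ fun e _ => measurableSet_mem_edgeSet e

/-! ### The law -/

/-- The law of the free uniform spanning forest of a good graph (a Dirac mass otherwise). -/
noncomputable def νG (G : SimpleGraph ℕ) : Measure (Sym2 ℕ → Bool) :=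
  if h : GoodG G then Classical.choose (exists_fusf h) else Measure.dirac (fun _ => false)

instance (G : SimpleGraph ℕ) : IsProbabilityMeasure (νG G) := by
  unfold νG
  split_ifs with h
  · exact (Classical.choose_spec (exists_fusf h)).1
  · infer_instance

lemma νG_upset {G : SimpleGraph ℕ} (h : GoodG G) (F : Finset (Sym2 ℕ)) :
    (νG G {ω | ∀ e ∈ F, ω e = true}).toReal = qG G F := by
  unfold νG
  rw [dif_pos h]
  exact (Classical.choose_spec (exists_fusf h)).2.1 F

lemma νG_lip {G : SimpleGraph ℕ} (h : GoodG G) : LipLaw (νG G) (1 / 2) := by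
  unfold νG
  rw [dif_pos h]
  exact (Classical.choose_spec (exists_fusf h)).2.2

lemma measurable_νG : Measurable (fun p : Tab => νG (Gp p)) := by
  refine Measurable.measure_of_isPiSystem_of_isProbabilityMeasure generateFrom_upSets
    isPiSystem_upSets ?_
  rintro _ ⟨F, rfl⟩
  have h1 : ∀ p : Tab, νG (Gp p) {ω | ∀ e ∈ F, ω e = true} =
      if GoodG (Gp p) then ENNReal.ofReal (qG (Gp p) F)
      else Measure.dirac (fun _ => false) {ω : Sym2 ℕ → Bool | ∀ e ∈ F, ω e = true} := by
    intro p
    by_cases h : GoodG (Gp p)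
    · rw [if_pos h, ← νG_upset h, ENNReal.ofReal_toReal (measure_ne_top _ _)]
    · rw [if_neg h]
      unfold νG
      rw [dif_neg h]
  simp only [h1]
  exact Measurable.ite measurableSet_good (measurable_qG F).ennreal_ofReal measurable_const

lemma measurable_mass (F S : Finset (Sym2 ℕ)) : Measurable (fun p : Tab => mass (νG (Gp p)) F S) :=
  ((Measure.measurable_coe (measurableSet_cyl F S)).comp measurable_νG).ennreal_toReal

lemma measurable_Mfin_joint (F : Finset (Sym2 ℕ)) (e : Sym2 ℕ) (t : ℝ) :
    Measurable (fun z : Tab × (Sym2 ℕ → ℝ) => Mfin (νG (Gp z.1)) F e t z.2) := by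
  unfold Mfin Nfin Zfin
  refine Measurable.div ?_ ?_
  · refine Finset.measurable_fun_sum _ fun S _ => ?_
    exact ((measurable_mass F S).comp measurable_fst).mul ((measurable_wt S t).comp measurable_snd)
  · refine Finset.measurable_fun_sum _ fun S _ => ?_
    exact ((measurable_mass F S).comp measurable_fst).mul ((measurable_wt S t).comp measurable_snd)

lemma νG_mass_comap {G : SimpleGraph ℕ} (σ : Equiv.Perm ℕ) (h : GoodG G)
    (F S : Finset (Sym2 ℕ)) :
    mass (νG (G.comap σ)) F S =
      mass (νG G) (F.map (rhoE σ).toEmbedding) (S.map (rhoE σ).toEmbedding) := by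
  refine mass_transport (rhoE σ) (fun F => ?_) F S
  rw [νG_upset (h.comap σ), νG_upset h, qG_comap]

/-! ### The exhaustions -/

/-- The union of the balls around the endpoints. -/
noncomputable def ballOf (G : SimpleGraph ℕ) (e : Sym2 ℕ) (N : ℕ) : Finset ℕ :=
  Sym2.lift ⟨fun a b => ballFs G a N ∪ ballFs G b N, fun _ _ => Finset.union_comm _ _⟩ e

/-- The pairs inside the balls. -/
noncomputable def fsG (G : SimpleGraph ℕ) (e : Sym2 ℕ) (N : ℕ) : Finset (Sym2 ℕ) :=
  (ballOf G e N).sym2

lemma goodExh_fsG {G : SimpleGraph ℕ} (hG : GoodG G) : GoodExh (fsG G) where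
  mem := by
    intro e N
    induction e using Sym2.ind with
    | _ a b =>
      refine Finset.mk_mem_sym2_iff.2 ⟨?_, ?_⟩
      · exact Finset.mem_union_left _ ((mem_ballFs hG.2).2 (reach_self N a))
      · exact Finset.mem_union_right _ ((mem_ballFs hG.2).2 (reach_self N b))
  mono := by
    intro e M N hMN
    induction e using Sym2.ind with
    | _ a b =>
      refine Finset.sym2_mono (Finset.union_subset_union ?_ ?_)
      · exact ballFs_mono hG.2 a hMN
      · exact ballFs_mono hG.2 b hMN
  exh := by
    intro e l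
    induction e using Sym2.ind with
    | _ a b =>
      induction l using Sym2.ind with
      | _ c d =>
        obtain ⟨n₁, h1⟩ := ballFs_exh hG a c
        obtain ⟨n₂, h2⟩ := ballFs_exh hG a d
        refine ⟨max n₁ n₂, Finset.mk_mem_sym2_iff.2 ⟨?_, ?_⟩⟩
        · exact Finset.mem_union_left _ (ballFs_mono hG.2 a (le_max_left _ _) h1)
        · exact Finset.mem_union_left _ (ballFs_mono hG.2 a (le_max_right _ _) h2)

lemma ballFs_comap {G : SimpleGraph ℕ} (σ : Equiv.Perm ℕ) (hG : GoodG G) (a N : ℕ) :
    (ballFs (G.comap σ) a N).map σ.toEmbedding = ballFs G (σ a) N := by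
  ext x
  simp only [Finset.mem_map, Equiv.coe_toEmbedding]
  rw [mem_ballFs hG.2]
  constructor
  · rintro ⟨y, hy, rfl⟩
    exact (reach_comap σ N a y).1 ((mem_ballFs (hG.comap σ).2).1 hy)
  · intro h
    refine ⟨σ.symm x, (mem_ballFs (hG.comap σ).2).2 ((reach_comap σ N a _).2 (by simpa using h)),
      by simp⟩

lemma fsG_comap {G : SimpleGraph ℕ} (σ : Equiv.Perm ℕ) (hG : GoodG G) (e : Sym2 ℕ) (N : ℕ) :
    (fsG (G.comap σ) e N).map (rhoE σ).toEmbedding = fsG G (rhoE σ e) N := by
  induction e using Sym2.ind with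
  | _ a b =>
    have h1 : ballOf G (rhoE σ s(a, b)) N =
        (ballOf (G.comap σ) s(a, b) N).map σ.toEmbedding := by
      change ballFs G (σ a) N ∪ ballFs G (σ b) N =
        (ballFs (G.comap σ) a N ∪ ballFs (G.comap σ) b N).map σ.toEmbedding
      rw [Finset.map_union, ballFs_comap σ hG, ballFs_comap σ hG]
    unfold fsG
    rw [h1]
    ext l
    simp only [Finset.mem_map, Equiv.coe_toEmbedding]
    constructor
    · rintro ⟨l', hl', rfl⟩
      induction l' using Sym2.ind with
      | _ c d =>
        obtain ⟨h2, h3⟩ := Finset.mk_mem_sym2_iff.1 hl'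
        exact Finset.mk_mem_sym2_iff.2 ⟨Finset.mem_map_of_mem _ h2, Finset.mem_map_of_mem _ h3⟩
    · intro hl
      induction l using Sym2.ind with
      | _ c d =>
        obtain ⟨h2, h3⟩ := Finset.mk_mem_sym2_iff.1 hl
        obtain ⟨c', hc', rfl⟩ := Finset.mem_map.1 h2
        obtain ⟨d', hd', rfl⟩ := Finset.mem_map.1 h3
        exact ⟨s(c', d'), Finset.mk_mem_sym2_iff.2 ⟨hc', hd'⟩, rfl⟩

lemma measurableSet_ballFs_eq (u n : ℕ) (B : Finset ℕ) :
    MeasurableSet {p : Tab | ballFs (Gp p) u n = B} := by
  have hR : ∀ B : Finset ℕ, MeasurableSet {p : Tab | {v | reach (Gp p) n u v} = (B : Set ℕ)} := by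
    intro B
    have : {p : Tab | {v | reach (Gp p) n u v} = (B : Set ℕ)} =
        ⋂ v, {p | reach (Gp p) n u v ↔ v ∈ B} := by
      ext p
      simp only [Set.mem_ofPred_eq, Set.mem_iInter, Set.ext_iff, Finset.mem_coe]
    rw [this]
    refine MeasurableSet.iInter fun v => ?_
    by_cases hv : v ∈ B
    · have h1 : {p : Tab | reach (Gp p) n u v ↔ v ∈ B} = {p | reach (Gp p) n u v} := by
        ext p
        simp [hv]
      rw [h1]
      exact measurableSet_reach n u v
    · have h1 : {p : Tab | reach (Gp p) n u v ↔ v ∈ B} = {p | reach (Gp p) n u v}ᶜ := by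
        ext p
        simp [hv]
      rw [h1]
      exact (measurableSet_reach n u v).compl
  have hF : MeasurableSet {p : Tab | {v | reach (Gp p) n u v}.Finite} := by
    have : {p : Tab | {v | reach (Gp p) n u v}.Finite} =
        ⋃ B : Finset ℕ, {p | {v | reach (Gp p) n u v} = (B : Set ℕ)} := by
      ext p
      simp only [Set.mem_ofPred_eq, Set.mem_iUnion]
      constructor
      · intro h
        exact ⟨h.toFinset, by simp⟩
      · rintro ⟨B, hB⟩
        rw [hB]
        exact B.finite_toSet
    rw [this]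
    exact MeasurableSet.iUnion hR
  have : {p : Tab | ballFs (Gp p) u n = B} = {p | {v | reach (Gp p) n u v} = (B : Set ℕ)} ∪
      ({p | {v | reach (Gp p) n u v}.Finite}ᶜ ∩ {_p | {u} = B}) := by
    ext p
    simp only [Set.mem_ofPred_eq, Set.mem_union, Set.mem_inter_iff, Set.mem_compl_iff]
    unfold ballFs
    by_cases h : {v | reach (Gp p) n u v}.Finite
    · rw [dif_pos h]
      constructor
      · intro h2
        left
        rw [← h2]
        simp
      · rintro (h2 | h2)
        · ext x
          simp only [Set.Finite.mem_toFinset]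
          rw [h2]
          simp
        · exact absurd h h2.1
    · rw [dif_neg h]
      constructor
      · intro h2
        exact Or.inr ⟨h, h2⟩
      · rintro (h2 | h2)
        · rw [h2] at h
          exact absurd B.finite_toSet h
        · exact h2.2
  rw [this]
  exact (hR B).union (hF.compl.inter (MeasurableSet.const _))

lemma measurableSet_mem_ballFs (u n c : ℕ) : MeasurableSet {p : Tab | c ∈ ballFs (Gp p) u n} := by
  have : {p : Tab | c ∈ ballFs (Gp p) u n} =
      ⋃ B : Finset ℕ, ⋃ _ : c ∈ B, {p | ballFs (Gp p) u n = B} := by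
    ext p
    simp only [Set.mem_ofPred_eq, Set.mem_iUnion, exists_prop]
    constructor
    · intro h
      exact ⟨_, h, rfl⟩
    · rintro ⟨B, hB, h⟩
      rw [h]
      exact hB
  rw [this]
  exact MeasurableSet.iUnion fun B => MeasurableSet.iUnion fun _ => measurableSet_ballFs_eq u n B

lemma measurableSet_fsG_eq (e : Sym2 ℕ) (N : ℕ) (F : Finset (Sym2 ℕ)) :
    MeasurableSet {p : Tab | fsG (Gp p) e N = F} := by
  refine measurableSet_eq_finset (fun l => ?_) F
  induction e using Sym2.ind with
  | _ a b =>
    induction l using Sym2.ind with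
    | _ c d =>
      have h1 : ∀ x, MeasurableSet {p : Tab | x ∈ ballOf (Gp p) s(a, b) N} := by
        intro x
        have : {p : Tab | x ∈ ballOf (Gp p) s(a, b) N} =
            {p | x ∈ ballFs (Gp p) a N} ∪ {p | x ∈ ballFs (Gp p) b N} := by
          ext p
          simp only [Set.mem_ofPred_eq, Set.mem_union]
          exact Finset.mem_union
        rw [this]
        exact (measurableSet_mem_ballFs a N x).union (measurableSet_mem_ballFs b N x)
      have : {p : Tab | s(c, d) ∈ fsG (Gp p) s(a, b) N} =
          {p | c ∈ ballOf (Gp p) s(a, b) N} ∩ {p | d ∈ ballOf (Gp p) s(a, b) N} := by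
        ext p
        simp only [Set.mem_ofPred_eq, Set.mem_inter_iff, fsG]
        exact Finset.mk_mem_sym2_iff
      rw [this]
      exact (h1 c).inter (h1 d)

/-! ### The parametrized data -/

/-- The data for the localization machine. -/
noncomputable def dataF : ParData Tab (Sym2 ℕ) where
  ν := fun p => νG (Gp p)
  Fs := fun p => fsG (Gp p)
  PG := {p | GoodG (Gp p)}

lemma dataF_regular : dataF.Regular (1 / 2) where
  L0 := by norm_num
  lip := fun _ hp => νG_lip hp
  exh := fun _ hp => goodExh_fsG hp

lemma dataF_joint : dataF.JointM := by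
  intro e N t
  refine measurable_of_key (key := fun z : Tab × (Sym2 ℕ → ℝ) => fsG (Gp z.1) e N)
    (g := fun F z => Mfin (νG (Gp z.1)) F e t z.2) ?_ (fun F => measurable_Mfin_joint F e t)
    (fun z => rfl)
  intro F
  exact measurable_fst (measurableSet_fsG_eq e N F)

/-- The joint measurability of the factor map. -/
lemma measurable_dataF_Xi : Measurable (fun z : Tab × (Sym2 ℕ → Sk) => dataF.Xi z.1 z.2) :=
  dataF_regular.measurable_Xi dataF_joint measurableSet_good

end Crest.Agent.Lib.Loc
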