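/-
Assigning to each unordered pair of vertices one of the independent streams of a vertex.
-/
import Crest.Agent.Lib.LocKernel

set_option autoImplicit false

namespace Crest.Agent.Lib.Loc

open SimpleGraph MeasureTheory Filter Topology
open scoped Classical
open Crest.ProbabilityR.GraphTables

/-- The graph distance. -/
noncomputable def dG (G : SimpleGraph ℕ) (u v : ℕ) : ℕ := sInf {n | reach G n u v}

/-- The order on the vertices seen from `u`: by distance, then by label. -/
def lexLt (G : SimpleGraph ℕ) (x : ℕ → unitInterval) (u a b : ℕ) : Prop :=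
  dG G u a < dG G u b ∨ (dG G u a = dG G u b ∧ x a < x b)

/-- The vertices preceding `v`, seen from `u`. -/
def predS (G : SimpleGraph ℕ) (x : ℕ → unitInterval) (u v : ℕ) : Set ℕ := {w | lexLt G x u w v}

/-- The rank of `v`, seen from `u`. -/
noncomputable def rankV (G : SimpleGraph ℕ) (x : ℕ → unitInterval) (u v : ℕ) : ℕ :=
  (predS G x u v).ncard

/-- The owner of a pair. -/
def lexOwner (x : ℕ → unitInterval) (a b : ℕ) : Prop := x a < x b ∨ (x a = x b ∧ a ≤ b)

lemma lexOwner_of_not {x : ℕ → unitInterval} {a b : ℕ} (h : ¬ lexOwner x a b) : lexOwner x b a := by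
  unfold lexOwner at h ⊢
  push Not at h
  rcases lt_trichotomy (x a) (x b) with h1 | h1 | h1
  · exact absurd h1 (not_lt.2 h.1)
  · exact Or.inr ⟨h1.symm, (h.2 h1).le⟩
  · exact Or.inl h1

lemma eq_of_lexOwner_both {x : ℕ → unitInterval} {a b : ℕ} (h1 : lexOwner x a b)
    (h2 : lexOwner x b a) : a = b := by
  unfold lexOwner at h1 h2
  rcases h1 with h1 | ⟨h1, h3⟩
  · rcases h2 with h2 | ⟨h2, _⟩
    · exact absurd h1 (not_lt.2 h2.le)
    · exact absurd h1 (by rw [h2]; exact lt_irrefl _)
  · rcases h2 with h2 | ⟨_, h4⟩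
    · exact absurd h2 (by rw [h1]; exact lt_irrefl _)
    · exact le_antisymm h3 h4

/-- The site of an ordered pair. -/
noncomputable def siteOf0 (G : SimpleGraph ℕ) (x : ℕ → unitInterval) (a b : ℕ) : ℕ × ℕ :=
  if lexOwner x a b then (a, rankV G x a b) else (b, rankV G x b a)

lemma siteOf0_comm (G : SimpleGraph ℕ) (x : ℕ → unitInterval) (a b : ℕ) :
    siteOf0 G x a b = siteOf0 G x b a := by
  unfold siteOf0
  by_cases hab : a = b
  · subst hab
    rfl
  by_cases h1 : lexOwner x a b
  · have h2 : ¬ lexOwner x b a := fun h2 => hab (eq_of_lexOwner_both h1 h2)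
    rw [if_pos h1, if_neg h2]
  · have h2 := lexOwner_of_not h1
    rw [if_neg h1, if_pos h2]

/-- The site of an unordered pair. -/
noncomputable def siteOf (G : SimpleGraph ℕ) (x : ℕ → unitInterval) : Sym2 ℕ → ℕ × ℕ :=
  Sym2.lift ⟨siteOf0 G x, siteOf0_comm G x⟩

lemma siteOf_mk (G : SimpleGraph ℕ) (x : ℕ → unitInterval) (a b : ℕ) :
    siteOf G x s(a, b) = siteOf0 G x a b := rfl

section inj

variable {G : SimpleGraph ℕ} {x : ℕ → unitInterval}

lemma reach_dG (hG : GoodG G) (u v : ℕ) : reach G (dG G u v) u v := by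
  have hne : {n | reach G n u v}.Nonempty := exists_reach (hG.1.preconnected u v)
  exact Nat.sInf_mem hne

lemma finite_predS (hG : GoodG G) (u v : ℕ) : (predS G x u v).Finite := by
  refine (finite_reach hG.2 (dG G u v) u).subset fun w hw => ?_
  have h1 : dG G u w ≤ dG G u v := by
    rcases hw with h | ⟨h, _⟩
    · exact h.le
    · exact h.le
  exact reach_mono h1 (reach_dG hG u w)

lemma lexLt_trans {u a b c : ℕ} (h1 : lexLt G x u a b) (h2 : lexLt G x u b c) :
    lexLt G x u a c := by
  rcases h1 with h1 | ⟨h1, h3⟩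
  · rcases h2 with h2 | ⟨h2, _⟩
    · exact Or.inl (h1.trans h2)
    · exact Or.inl (h2 ▸ h1)
  · rcases h2 with h2 | ⟨h2, h4⟩
    · exact Or.inl (h1 ▸ h2)
    · exact Or.inr ⟨h1.trans h2, h3.trans h4⟩

lemma lexLt_irrefl (u a : ℕ) : ¬ lexLt G x u a a := by
  rintro (h | ⟨_, h⟩)
  · exact lt_irrefl _ h
  · exact lt_irrefl _ h

lemma rankV_lt (hG : GoodG G) {u a b : ℕ} (h : lexLt G x u a b) : rankV G x u a < rankV G x u b := by
  refine Set.ncard_lt_ncard ?_ (finite_predS hG u b)
  refine ⟨fun w hw => lexLt_trans hw h, fun hsub => ?_⟩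
  exact lexLt_irrefl u a (hsub h)

lemma rankV_inj (hG : GoodG G) (hx : Function.Injective x) {u a b : ℕ}
    (h : rankV G x u a = rankV G x u b) : a = b := by
  by_contra hne
  have hxne : x a ≠ x b := fun h' => hne (hx h')
  have htri : lexLt G x u a b ∨ lexLt G x u b a := by
    rcases lt_trichotomy (dG G u a) (dG G u b) with h1 | h1 | h1
    · exact Or.inl (Or.inl h1)
    · rcases lt_or_gt_of_ne hxne with h2 | h2
      · exact Or.inl (Or.inr ⟨h1, h2⟩)
      · exact Or.inr (Or.inr ⟨h1.symm, h2⟩)
    · exact Or.inr (Or.inl h1)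
  rcases htri with h1 | h1
  · exact absurd h (rankV_lt hG h1).ne
  · exact absurd h.symm (rankV_lt hG h1).ne

lemma siteOf_normal (x : ℕ → unitInterval) (e : Sym2 ℕ) : ∃ a b, e = s(a, b) ∧ lexOwner x a b ∧
    siteOf G x e = (a, rankV G x a b) := by
  induction e using Sym2.ind with
  | _ a b =>
    by_cases h : lexOwner x a b
    · refine ⟨a, b, rfl, h, ?_⟩
      rw [siteOf_mk]
      unfold siteOf0
      rw [if_pos h]
    · refine ⟨b, a, Sym2.eq_swap, lexOwner_of_not h, ?_⟩
      rw [siteOf_mk]
      unfold siteOf0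
      rw [if_neg h]

/-- The sites of distinct pairs are distinct. -/
theorem siteOf_injective (hG : GoodG G) (hx : Function.Injective x) :
    Function.Injective (siteOf G x) := by
  intro e e' h
  obtain ⟨a, b, rfl, _, h1⟩ := siteOf_normal (G := G) x e
  obtain ⟨a', b', rfl, _, h2⟩ := siteOf_normal (G := G) x e'
  rw [h1, h2, Prod.mk.injEq] at h
  obtain ⟨rfl, h3⟩ := h
  rw [rankV_inj hG hx h3]

end inj

/-! ### Equivariance -/

section equi

variable {G : SimpleGraph ℕ} {x : ℕ → unitInterval}

lemma dG_comap (σ : Equiv.Perm ℕ) (u v : ℕ) : dG (G.comap σ) u v = dG G (σ u) (σ v) := by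
  unfold dG
  congr 1
  ext n
  exact reach_comap σ n u v

lemma lexLt_comap (σ : Equiv.Perm ℕ) (u a b : ℕ) :
    lexLt (G.comap σ) (x ∘ σ) u a b ↔ lexLt G x (σ u) (σ a) (σ b) := by
  unfold lexLt
  simp only [dG_comap, Function.comp]

lemma rankV_comap (σ : Equiv.Perm ℕ) (u v : ℕ) :
    rankV (G.comap σ) (x ∘ σ) u v = rankV G x (σ u) (σ v) := by
  unfold rankV
  have h1 : predS G x (σ u) (σ v) = σ '' predS (G.comap σ) (x ∘ σ) u v := by
    ext w
    simp only [predS, Set.mem_ofPred_eq, Set.mem_image]
    constructor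
    · intro h
      refine ⟨σ.symm w, ?_, by simp⟩
      rw [lexLt_comap]
      simpa using h
    · rintro ⟨w', hw', rfl⟩
      exact (lexLt_comap σ u w' v).1 hw'
  rw [h1, Set.ncard_image_of_injective _ σ.injective]

lemma lexOwner_comap (hx : Function.Injective x) (σ : Equiv.Perm ℕ) (a b : ℕ) :
    lexOwner (x ∘ σ) a b ↔ lexOwner x (σ a) (σ b) := by
  unfold lexOwner
  simp only [Function.comp]
  constructor
  · rintro (h | ⟨h, _⟩)
    · exact Or.inl h
    · have := σ.injective (hx h)
      subst this
      exact Or.inr ⟨rfl, le_rfl⟩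
  · rintro (h | ⟨h, _⟩)
    · exact Or.inl h
    · have := σ.injective (hx h)
      subst this
      exact Or.inr ⟨rfl, le_rfl⟩

/-- The site of a transported pair. -/
lemma siteOf_comap (hx : Function.Injective x) (σ : Equiv.Perm ℕ) (e : Sym2 ℕ) :
    siteOf G x (rhoE σ e) =
      ((σ (siteOf (G.comap σ) (x ∘ σ) e).1, (siteOf (G.comap σ) (x ∘ σ) e).2) : ℕ × ℕ) := by
  induction e using Sym2.ind with
  | _ a b =>
    rw [rhoE_mk, siteOf_mk, siteOf_mk]
    unfold siteOf0
    by_cases h : lexOwner x (σ a) (σ b)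
    · rw [if_pos h, if_pos ((lexOwner_comap hx σ a b).2 h), rankV_comap]
    · rw [if_neg h, if_neg (fun h' => h ((lexOwner_comap hx σ a b).1 h')), rankV_comap]

end equi

/-! ### Measurability -/

section meas

variable {Z : Type*} [MeasurableSpace Z]

lemma measurableSet_sInf_eq {R : Z → ℕ → Prop} (h : ∀ n, MeasurableSet {z | R z n}) (k : ℕ) :
    MeasurableSet {z | sInf {n | R z n} = k} := by
  cases k with
  | zero =>
    have : {z | sInf {n | R z n} = 0} = {z | R z 0} ∪ ⋂ n, {z | R z n}ᶜ := by
      ext z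
      simp only [Set.mem_ofPred_eq, Nat.sInf_eq_zero, Set.mem_union, Set.mem_iInter,
        Set.mem_compl_iff, Set.eq_empty_iff_forall_notMem]
    rw [this]
    exact (h 0).union (MeasurableSet.iInter fun n => (h n).compl)
  | succ j =>
    have : {z | sInf {n | R z n} = j + 1} =
        {z | R z (j + 1)} ∩ ⋂ i : Fin (j + 1), {z | R z i}ᶜ := by
      ext z
      simp only [Set.mem_ofPred_eq, Set.mem_inter_iff, Set.mem_iInter, Set.mem_compl_iff]
      constructor
      · intro h1
        have hne : {n | R z n}.Nonempty := by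
          by_contra h2
          rw [Set.not_nonempty_iff_eq_empty.1 h2, Nat.sInf_empty] at h1
          omega
        have h2 := Nat.sInf_mem hne
        rw [h1] at h2
        refine ⟨h2, fun i hi => ?_⟩
        have := Nat.sInf_le (s := {n | R z n}) hi
        have hi2 := i.2
        omega
      · rintro ⟨h1, h2⟩
        refine le_antisymm (Nat.sInf_le h1) ?_
        by_contra h3
        have h4 : sInf {n | R z n} < j + 1 := not_le.1 h3
        have hne : {n | R z n}.Nonempty := ⟨_, h1⟩
        exact h2 ⟨_, h4⟩ (Nat.sInf_mem hne)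
    rw [this]
    exact (h _).inter (MeasurableSet.iInter fun i => (h _).compl)

/-- Measurability of the number of elements of a random set of integers. -/
lemma measurable_ncard {P : Z → Set ℕ} (h : ∀ w, MeasurableSet {z | w ∈ P z}) :
    Measurable (fun z => (P z).ncard) := by
  have hA : ∀ A : Finset ℕ, MeasurableSet {z | P z = (A : Set ℕ)} := by
    intro A
    have : {z | P z = (A : Set ℕ)} = ⋂ w, {z | w ∈ P z ↔ w ∈ A} := by
      ext z
      simp only [Set.mem_ofPred_eq, Set.mem_iInter, Set.ext_iff, Finset.mem_coe]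
    rw [this]
    refine MeasurableSet.iInter fun w => ?_
    by_cases hw : w ∈ A
    · have h1 : {z | w ∈ P z ↔ w ∈ A} = {z | w ∈ P z} := by
        ext z
        simp [hw]
      rw [h1]
      exact h w
    · have h1 : {z | w ∈ P z ↔ w ∈ A} = {z | w ∈ P z}ᶜ := by
        ext z
        simp [hw]
      rw [h1]
      exact (h w).compl
  have hpos : ∀ k, 0 < k → MeasurableSet {z | (P z).ncard = k} := by
    intro k hk
    have : {z | (P z).ncard = k} = ⋃ A : Finset ℕ, ⋃ _ : A.card = k, {z | P z = (A : Set ℕ)} := by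
      ext z
      simp only [Set.mem_ofPred_eq, Set.mem_iUnion, exists_prop]
      constructor
      · intro h1
        have hfin : (P z).Finite := Set.finite_of_ncard_ne_zero (by omega)
        refine ⟨hfin.toFinset, ?_, by simp⟩
        rw [← h1, Set.ncard_eq_toFinset_card _ hfin]
      · rintro ⟨A, h1, h2⟩
        rw [h2, Set.ncard_coe_finset, h1]
    rw [this]
    exact MeasurableSet.iUnion fun A => MeasurableSet.iUnion fun _ => hA A
  refine measurable_to_countable' fun k => ?_
  by_cases hk : 0 < k
  · exact hpos k hk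
  · have hk0 : k = 0 := by omega
    subst hk0
    have : (fun z => (P z).ncard) ⁻¹' {0} = (⋃ k : ℕ, {z | (P z).ncard = k + 1})ᶜ := by
      ext z
      simp only [Set.mem_preimage, Set.mem_singleton_iff, Set.mem_compl_iff, Set.mem_iUnion,
        Set.mem_ofPred_eq, not_exists]
      constructor
      · intro h1 k
        omega
      · intro h1
        by_contra h2
        exact h1 ((P z).ncard - 1) (by omega)
    rw [this]
    exact (MeasurableSet.iUnion fun k => hpos (k + 1) (by omega)).compl

end meas

/-- The parameter space of the sites. -/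
abbrev ZZ := Tab × (ℕ → unitInterval)

lemma measurable_dG (u v : ℕ) : Measurable (fun p : Tab => dG (Gp p) u v) :=
  measurable_to_countable' fun k => measurableSet_sInf_eq
    (R := fun p n => reach (Gp p) n u v) (fun n => measurableSet_reach n u v) k

lemma measurableSet_lexLt (u a b : ℕ) :
    MeasurableSet {z : ZZ | lexLt (Gp z.1) z.2 u a b} := by
  have h1 : Measurable (fun z : ZZ => dG (Gp z.1) u a) := (measurable_dG u a).comp measurable_fst
  have h2 : Measurable (fun z : ZZ => dG (Gp z.1) u b) := (measurable_dG u b).comp measurable_fst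
  have h3 : Measurable (fun z : ZZ => z.2 a) := (measurable_pi_apply a).comp measurable_snd
  have h4 : Measurable (fun z : ZZ => z.2 b) := (measurable_pi_apply b).comp measurable_snd
  have : {z : ZZ | lexLt (Gp z.1) z.2 u a b} =
      {z | dG (Gp z.1) u a < dG (Gp z.1) u b} ∪
        ({z | dG (Gp z.1) u a = dG (Gp z.1) u b} ∩ {z | z.2 a < z.2 b}) := rfl
  rw [this]
  exact (measurableSet_lt h1 h2).union
    ((measurableSet_eq_fun h1 h2).inter (measurableSet_lt h3 h4))

lemma measurable_rankV (u v : ℕ) : Measurable (fun z : ZZ => rankV (Gp z.1) z.2 u v) :=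
  measurable_ncard (P := fun z : ZZ => predS (Gp z.1) z.2 u v) fun w => measurableSet_lexLt u w v

lemma measurableSet_lexOwner (a b : ℕ) : MeasurableSet {x : ℕ → unitInterval | lexOwner x a b} := by
  have h3 : Measurable (fun x : ℕ → unitInterval => x a) := measurable_pi_apply a
  have h4 : Measurable (fun x : ℕ → unitInterval => x b) := measurable_pi_apply b
  have : {x : ℕ → unitInterval | lexOwner x a b} =
      {x | x a < x b} ∪ ({x | x a = x b} ∩ {_x | a ≤ b}) := rfl
  rw [this]
  exact (measurableSet_lt h3 h4).union ((measurableSet_eq_fun h3 h4).inter (MeasurableSet.const _))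

lemma measurable_siteOf (e : Sym2 ℕ) : Measurable (fun z : ZZ => siteOf (Gp z.1) z.2 e) := by
  induction e using Sym2.ind with
  | _ a b =>
    simp only [siteOf_mk]
    unfold siteOf0
    refine Measurable.ite (measurable_snd (measurableSet_lexOwner a b)) ?_ ?_
    · exact measurable_const.prodMk (measurable_rankV a b)
    · exact measurable_const.prodMk (measurable_rankV b a)

end Crest.Agent.Lib.Loc
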