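/-
Splitting the uniform labels into an independent family of uniform labels and Brownian skeletons.
-/
import Crest.Agent.Lib.LocBM
import Crest.Prelude.Def_Labels

set_option autoImplicit false

namespace Crest.Agent.Lib.Loc

open MeasureTheory ProbabilityTheory Filter Topology Set
open scoped ENNReal

section split

variable {A B ι : Type*} [MeasurableSpace A] [MeasurableSpace B]

/-- The family of measurable squares has a finite spanning sequence. -/
noncomputable def spanSq {X : ι → Type*} [∀ i, MeasurableSpace (X i)] (μ : Measure (∀ i, X i))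
    [IsFiniteMeasure μ] :
    μ.FiniteSpanningSetsIn (squareCylinders fun i => {s : Set (X i) | MeasurableSet s}) where
  set := fun _ => Set.univ
  set_mem := fun _ => ⟨∅, fun _ => Set.univ, fun _ _ => MeasurableSet.univ, by simp⟩
  finite := fun _ => measure_lt_top _ _
  spanning := Set.iUnion_const _

/-- Extension of a box to a larger set of coordinates. -/
lemma pi_enlarge {X : ι → Type*} [DecidableEq ι] (s T : Finset ι) (hsT : s ⊆ T)
    (α : ∀ i, Set (X i)) :
    (s : Set ι).pi α = (T : Set ι).pi (fun i => if i ∈ s then α i else Set.univ) := by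
  ext x
  simp only [Set.mem_pi, Finset.mem_coe]
  constructor
  · intro h i _
    by_cases hi : i ∈ s
    · simpa [hi] using h i hi
    · simp [hi]
  · intro h i hi
    simpa [hi] using h i (hsT hi)

/-- The product over the sites of a product measure is the product of the two products. -/
theorem infinitePi_prod_split (μ : Measure A) (ν : Measure B) [IsProbabilityMeasure μ]
    [IsProbabilityMeasure ν] :
    (Measure.infinitePi (fun _ : ι => μ.prod ν)).map
        (fun a : ι → A × B => ((fun i => (a i).1, fun i => (a i).2) : (ι → A) × (ι → B))) =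
      (Measure.infinitePi (fun _ : ι => μ)).prod (Measure.infinitePi (fun _ : ι => ν)) := by
  classical
  symm
  have hm : Measurable (fun a : ι → A × B =>
      ((fun i => (a i).1, fun i => (a i).2) : (ι → A) × (ι → B))) := by
    refine Measurable.prodMk ?_ ?_
    · exact measurable_pi_lambda _ fun i => measurable_fst.comp (measurable_pi_apply i)
    · exact measurable_pi_lambda _ fun i => measurable_snd.comp (measurable_pi_apply i)
  refine Measure.prod_eq_generateFrom generateFrom_squareCylinders generateFrom_squareCylinders
    (isPiSystem_squareCylinders (fun _ => MeasurableSpace.isPiSystem_measurableSet) (by simp))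
    (isPiSystem_squareCylinders (fun _ => MeasurableSpace.isPiSystem_measurableSet) (by simp))
    (spanSq _) (spanSq _) ?_
  rintro _ ⟨s₁, α, hα, rfl⟩ _ ⟨s₂, β, hβ, rfl⟩
  have hα' : ∀ i, MeasurableSet (α i) := fun i => hα i (Set.mem_univ i)
  have hβ' : ∀ i, MeasurableSet (β i) := fun i => hβ i (Set.mem_univ i)
  set T := s₁ ∪ s₂ with hT
  rw [pi_enlarge s₁ T Finset.subset_union_left α, pi_enlarge s₂ T Finset.subset_union_right β]
  set α' : ι → Set A := fun i => if i ∈ s₁ then α i else Set.univ with hαd
  set β' : ι → Set B := fun i => if i ∈ s₂ then β i else Set.univ with hβd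
  have hα'' : ∀ i, MeasurableSet (α' i) := fun i => by
    simp only [hαd]
    split_ifs
    · exact hα' i
    · exact MeasurableSet.univ
  have hβ'' : ∀ i, MeasurableSet (β' i) := fun i => by
    simp only [hβd]
    split_ifs
    · exact hβ' i
    · exact MeasurableSet.univ
  have h1 : (fun a : ι → A × B => ((fun i => (a i).1, fun i => (a i).2) : (ι → A) × (ι → B))) ⁻¹'
      (((T : Set ι).pi α') ×ˢ ((T : Set ι).pi β')) =
      (T : Set ι).pi (fun i => α' i ×ˢ β' i) := by
    ext a
    simp only [Set.mem_preimage, Set.mem_prod, Set.mem_pi, Finset.mem_coe]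
    constructor
    · rintro ⟨h2, h3⟩ i hi
      exact ⟨h2 i hi, h3 i hi⟩
    · intro h
      exact ⟨fun i hi => (h i hi).1, fun i hi => (h i hi).2⟩
  rw [Measure.map_apply hm ((MeasurableSet.pi T.countable_toSet fun i _ => hα'' i).prod
    (MeasurableSet.pi T.countable_toSet fun i _ => hβ'' i)), h1,
    Measure.infinitePi_pi _ (fun i _ => (hα'' i).prod (hβ'' i)),
    Measure.infinitePi_pi _ (fun i _ => hα'' i), Measure.infinitePi_pi _ (fun i _ => hβ'' i),
    ← Finset.prod_mul_distrib]
  refine Finset.prod_congr rfl fun i _ => ?_
  exact Measure.prod_prod _ _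

end split

/-- The splitting of a label. -/
def splitMap (f : unitInterval → unitInterval × (ℕ → Sk)) (x : ℕ → unitInterval) :
    (ℕ → unitInterval) × (ℕ × ℕ → Sk) :=
  (fun v => (f (x v)).1, fun q => (f (x q.1)).2 q.2)

lemma measurable_splitMap {f : unitInterval → unitInterval × (ℕ → Sk)} (hf : Measurable f) :
    Measurable (splitMap f) := by
  refine Measurable.prodMk ?_ ?_
  · exact measurable_pi_lambda _ fun v =>
      measurable_fst.comp (hf.comp (measurable_pi_apply v))
  · refine measurable_pi_lambda _ fun q => ?_
    exact (measurable_pi_apply q.2).comp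
      (measurable_snd.comp (hf.comp (measurable_pi_apply q.1)))

/-- The law of the split labels. -/
theorem label_split {f : unitInterval → unitInterval × (ℕ → Sk)} (hf : Measurable f)
    (hlaw : (volume : Measure unitInterval).map f =
      (volume : Measure unitInterval).prod (Measure.infinitePi fun _ : ℕ => muBM)) :
    (Crest.ProbabilityR.Labels.labelMeasure ℕ).map (splitMap f) =
      (Crest.ProbabilityR.Labels.labelMeasure ℕ).prod (allBM (ℕ × ℕ)) := by
  set Q : Measure (ℕ → Sk) := Measure.infinitePi fun _ : ℕ => muBM with hQ
  have h1 : (Crest.ProbabilityR.Labels.labelMeasure ℕ).map (fun x v => f (x v)) =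
      Measure.infinitePi (fun _ : ℕ => (volume : Measure unitInterval).prod Q) := by
    unfold Crest.ProbabilityR.Labels.labelMeasure
    rw [Measure.infinitePi_map_pi _ (fun _ : ℕ => hf), hlaw]
  have h2 := infinitePi_prod_split (ι := ℕ) (volume : Measure unitInterval) Q
  rw [← h1] at h2
  have hm1 : Measurable (fun (x : ℕ → unitInterval) (v : ℕ) => f (x v)) :=
    measurable_pi_lambda _ fun v => hf.comp (measurable_pi_apply v)
  have hm2 : Measurable (fun a : ℕ → unitInterval × (ℕ → Sk) =>
      ((fun i => (a i).1, fun i => (a i).2) : (ℕ → unitInterval) × (ℕ → ℕ → Sk))) := by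
    refine Measurable.prodMk ?_ ?_
    · exact measurable_pi_lambda _ fun i => measurable_fst.comp (measurable_pi_apply i)
    · exact measurable_pi_lambda _ fun i => measurable_snd.comp (measurable_pi_apply i)
  rw [Measure.map_map hm2 hm1] at h2
  have h3 : (Measure.infinitePi (fun _ : ℕ => Q)).map (MeasurableEquiv.curry ℕ ℕ Sk).symm =
      allBM (ℕ × ℕ) :=
    Measure.infinitePi_map_curry_symm (fun _ _ => muBM)
  have h4 : splitMap f = (Prod.map id (MeasurableEquiv.curry ℕ ℕ Sk).symm) ∘
      ((fun a : ℕ → unitInterval × (ℕ → Sk) =>
        ((fun i => (a i).1, fun i => (a i).2) : (ℕ → unitInterval) × (ℕ → ℕ → Sk))) ∘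
        (fun (x : ℕ → unitInterval) (v : ℕ) => f (x v))) := by
    funext x
    rfl
  rw [h4, ← Measure.map_map (measurable_id.prodMap (MeasurableEquiv.measurable _))
    (hm2.comp hm1), h2, ← h3]
  have hmid : (Measure.infinitePi fun _ : ℕ => (volume : Measure unitInterval)).map id =
      Measure.infinitePi fun _ : ℕ => (volume : Measure unitInterval) := Measure.map_id
  rw [← Measure.map_prod_map _ _ measurable_id (MeasurableEquiv.measurable _), hmid]
  rfl

/-- Almost surely the labels are distinct. -/
theorem ae_injective_labels :
    ∀ᵐ x ∂(Crest.ProbabilityR.Labels.labelMeasure ℕ), Function.Injective x := by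
  have h1 : ∀ a b : ℕ, a ≠ b → ∀ᵐ x ∂(Crest.ProbabilityR.Labels.labelMeasure ℕ), x a ≠ x b := by
    intro a b hab
    have h2 : (Crest.ProbabilityR.Labels.labelMeasure ℕ).map (fun x => (x a, x b)) =
        (volume : Measure unitInterval).prod volume :=
      Measure.infinitePi_map_eval_prod hab
    have hm : Measurable (fun x : ℕ → unitInterval => (x a, x b)) :=
      (measurable_pi_apply a).prodMk (measurable_pi_apply b)
    have hd : MeasurableSet {q : unitInterval × unitInterval | q.1 = q.2} :=
      measurableSet_eq_fun measurable_fst measurable_snd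
    have h3 : (Crest.ProbabilityR.Labels.labelMeasure ℕ) {x | x a = x b} = 0 := by
      have h4 : {x : ℕ → unitInterval | x a = x b} =
          (fun x : ℕ → unitInterval => (x a, x b)) ⁻¹' {q | q.1 = q.2} := rfl
      rw [h4, ← Measure.map_apply hm hd, h2, Measure.prod_apply hd]
      have h5 : ∀ u : unitInterval, (volume : Measure unitInterval)
          (Prod.mk u ⁻¹' {q : unitInterval × unitInterval | q.1 = q.2}) = 0 := by
        intro u
        have : Prod.mk u ⁻¹' {q : unitInterval × unitInterval | q.1 = q.2} = {u} := by
          ext v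
          simp [eq_comm]
        rw [this]
        simp
      simp [h5]
    exact measure_eq_zero_iff_ae_notMem.1 h3
  have h6 : ∀ᵐ x ∂(Crest.ProbabilityR.Labels.labelMeasure ℕ), ∀ a b : ℕ, a ≠ b → x a ≠ x b := by
    refine ae_all_iff.2 fun a => ae_all_iff.2 fun b => ?_
    by_cases hab : a = b
    · exact Eventually.of_forall fun x h => absurd hab h
    · filter_upwards [h1 a b hab] with x hx _ using hx
  filter_upwards [h6] with x hx a b hxab
  by_contra hne
  exact hx a b hne hxab

/-- Injective reindexing of the Brownian skeletons. -/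
theorem allBM_reindex {J K : Type*} {s : K → J} (hs : Function.Injective s) :
    (allBM J).map (fun W e => W (s e)) = allBM K :=
  Measure.map_infinitePi_infinitePi_of_inj hs

end Crest.Agent.Lib.Loc
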