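import Mathlib

/-!
Abstract core of the reconstruction of a field from its logarithmic forms.

`K`, `L` are fields, `d : K → ΩK` a derivation and `θ : K → ΩL` is a "logarithmic" function, additive
on products, vanishing exactly on constants, sending sums `x + y = u` to collinear triples, and sending
independent pairs to independent pairs. Then the barycentric coordinate of the collinearity extends to a
ring homomorphism `K →+* L`.
-/

set_option autoImplicit false

namespace Crest.Agent.Lib.MilnorCore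

section Ind

variable (F : Type*) {V : Type*} [Field F] [AddCommGroup V] [Module F V]

/-- Independence of a pair of vectors. -/
def Ind (η ζ : V) : Prop := ∀ c e : F, c • η + e • ζ = 0 → c = 0 ∧ e = 0

variable {F}

theorem Ind.ne_left {η ζ : V} (h : Ind F η ζ) : η ≠ 0 := by
  rintro rfl
  have := (h 1 0 (by simp)).1
  exact one_ne_zero this

theorem Ind.ne_right {η ζ : V} (h : Ind F η ζ) : ζ ≠ 0 := by
  rintro rfl
  have := (h 0 1 (by simp)).2
  exact one_ne_zero this

theorem Ind.symm {η ζ : V} (h : Ind F η ζ) : Ind F ζ η := fun c e hce => by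
  have := h e c (by rw [add_comm]; exact hce)
  exact ⟨this.2, this.1⟩

theorem Ind.of_det {η ζ : V} (h : Ind F η ζ) (a b c e : F) (hdet : a * e - b * c ≠ 0) :
    Ind F (a • η + b • ζ) (c • η + e • ζ) := by
  intro s t hst
  have h1 : (s * a + t * c) • η + (s * b + t * e) • ζ = 0 := by
    rw [← hst]
    simp only [smul_add, add_smul, mul_smul]
    abel
  obtain ⟨h2, h3⟩ := h _ _ h1
  have hs : s * (a * e - b * c) = 0 := by linear_combination e * h2 - c * h3
  have ht : t * (a * e - b * c) = 0 := by linear_combination a * h3 - b * h2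
  exact ⟨(mul_eq_zero.mp hs).resolve_right hdet, (mul_eq_zero.mp ht).resolve_right hdet⟩

/-- Variant of `Ind.of_det` with given expressions. -/
theorem Ind.of_det' {η ζ η' ζ' : V} (h : Ind F η ζ) (a b c e : F)
    (h1 : η' = a • η + b • ζ) (h2 : ζ' = c • η + e • ζ) (hdet : a * e - b * c ≠ 0) :
    Ind F η' ζ' := by
  subst h1 h2
  exact h.of_det a b c e hdet

theorem exists_common_of_not_ind {η ζ : V} (h : ¬ Ind F η ζ) :
    ∃ (v : V) (m n : F), η = m • v ∧ ζ = n • v := by
  unfold Ind at h
  push Not at h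
  obtain ⟨c, e, hce, hne⟩ := h
  by_cases hc : c = 0
  · have he : e ≠ 0 := hne hc
    subst hc
    simp only [zero_smul, zero_add] at hce
    have hz : ζ = 0 := by
      exact (smul_eq_zero.mp hce).resolve_left he
    exact ⟨η, 1, 0, by simp, by simp [hz]⟩
  · refine ⟨ζ, -(c⁻¹ * e), 1, ?_, by simp⟩
    have : η = c⁻¹ • (c • η) := by rw [smul_smul, inv_mul_cancel₀ hc, one_smul]
    rw [this, eq_neg_of_add_eq_zero_left hce, smul_neg, neg_smul, smul_smul]

theorem dep_of_not_ind_left {η ζ : V} (hη : η ≠ 0) (h : ¬ Ind F η ζ) : ∃ n : F, ζ = n • η := by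
  unfold Ind at h
  push Not at h
  obtain ⟨c, e, hce, hne⟩ := h
  by_cases he : e = 0
  · subst he
    simp only [zero_smul, add_zero] at hce
    have hc : c = 0 := (smul_eq_zero.mp hce).resolve_right hη
    exact absurd rfl (hne hc)
  · refine ⟨-(e⁻¹ * c), ?_⟩
    have : ζ = e⁻¹ • (e • ζ) := by rw [smul_smul, inv_mul_cancel₀ he, one_smul]
    rw [this, eq_neg_of_add_eq_zero_right hce, smul_neg, neg_smul, smul_smul]

/-- Comparison of two affine combinations. -/
theorem cmp_coeff {p₁ p₂ p₃ : V} (h : Ind F (p₂ - p₁) (p₃ - p₁)) {x₁ x₂ x₃ y₁ y₂ y₃ : F}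
    (hx : x₁ • p₁ + x₂ • p₂ + x₃ • p₃ = 0) (hy : y₁ • p₁ + y₂ • p₂ + y₃ • p₃ = 0)
    (sx : x₁ + x₂ + x₃ = 1) (sy : y₁ + y₂ + y₃ = 1) : x₁ = y₁ ∧ x₂ = y₂ ∧ x₃ = y₃ := by
  have h1 : (x₂ - y₂) • (p₂ - p₁) + (x₃ - y₃) • (p₃ - p₁) = 0 := by
    have hx1 : x₁ = 1 - x₂ - x₃ := by linear_combination sx
    have hy1 : y₁ = 1 - y₂ - y₃ := by linear_combination sy
    subst hx1 hy1
    have : (x₂ - y₂) • (p₂ - p₁) + (x₃ - y₃) • (p₃ - p₁) =
        ((1 - x₂ - x₃) • p₁ + x₂ • p₂ + x₃ • p₃) - ((1 - y₂ - y₃) • p₁ + y₂ • p₂ + y₃ • p₃) := by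
      simp only [sub_smul, smul_sub, one_smul]
      abel
    rw [this, hx, hy, sub_zero]
  obtain ⟨h2, h3⟩ := h _ _ h1
  have h2' : x₂ = y₂ := sub_eq_zero.mp h2
  have h3' : x₃ = y₃ := sub_eq_zero.mp h3
  refine ⟨?_, h2', h3'⟩
  linear_combination sx - sy - h2 - h3

end Ind

section Core

variable {K L ΩK ΩL : Type*} [Field K] [Field L] [AddCommGroup ΩK] [Module K ΩK]
  [AddCommGroup ΩL] [Module L ΩL]

/-- The basic properties of a "logarithmic function" `θ` on `K` with values in an `L`-vector space. -/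
structure PreLog (L : Type*) {ΩL : Type*} [Field L] [AddCommGroup ΩL] [Module L ΩL]
    (d : Derivation ℤ K ΩK) (θ : K → ΩL) : Prop where
  mul : ∀ x y, x ≠ 0 → y ≠ 0 → θ (x * y) = θ x + θ y
  zero_iff : ∀ x, x ≠ 0 → (θ x = 0 ↔ d x = 0)
  col : ∀ x y, x ≠ 0 → y ≠ 0 → x + y ≠ 0 →
    ∃ c e : L, (c ≠ 0 ∨ e ≠ 0) ∧ c • (θ x - θ (x + y)) + e • (θ y - θ (x + y)) = 0

/-- The data of a "logarithmic function": in addition, independent pairs go to independent pairs. -/
structure LogFn (L : Type*) {ΩL : Type*} [Field L] [AddCommGroup ΩL] [Module L ΩL]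
    (d : Derivation ℤ K ΩK) (θ : K → ΩL) : Prop extends PreLog L d θ where
  ind : ∀ a b, a ≠ 0 → b ≠ 0 → Ind K (d a) (d b) → Ind L (θ a) (θ b)

variable {d : Derivation ℤ K ΩK} {θ : K → ΩL}

namespace PreLog

theorem theta_one (h : PreLog L d θ) : θ 1 = 0 := by
  have := h.mul 1 1 one_ne_zero one_ne_zero
  simpa using this

theorem theta_inv (h : PreLog L d θ) {x : K} (hx : x ≠ 0) : θ x⁻¹ = - θ x := by
  have := h.mul x x⁻¹ hx (inv_ne_zero hx)
  rw [mul_inv_cancel₀ hx, h.theta_one] at this
  exact (eq_neg_of_add_eq_zero_right this.symm)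

theorem theta_div (h : PreLog L d θ) {x y : K} (hx : x ≠ 0) (hy : y ≠ 0) : θ (x / y) = θ x - θ y := by
  rw [div_eq_mul_inv, h.mul x y⁻¹ hx (inv_ne_zero hy), h.theta_inv hy, sub_eq_add_neg]

theorem theta_neg_one (h : PreLog L d θ) : θ (-1) = 0 := by
  rw [h.zero_iff _ (neg_ne_zero.mpr one_ne_zero), Derivation.map_neg, Derivation.map_one_eq_zero,
    neg_zero]

theorem theta_neg (h : PreLog L d θ) {x : K} (hx : x ≠ 0) : θ (-x) = θ x := by
  have : -x = (-1) * x := by ring
  rw [this, h.mul _ _ (neg_ne_zero.mpr one_ne_zero) hx, h.theta_neg_one, zero_add]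

/-- The set of elements whose logarithm lies on a given line is a subfield. -/
theorem exists_line_subfield (h : PreLog L d θ) (v : ΩL) :
    ∃ S : Subfield K, ∀ y, y ∈ S ↔ (y = 0 ∨ ∃ m : L, θ y = m • v) := by
  refine ⟨{ carrier := {y | y = 0 ∨ ∃ m : L, θ y = m • v}
            mul_mem' := ?_, one_mem' := ?_, add_mem' := ?_, zero_mem' := Or.inl rfl,
            neg_mem' := ?_, inv_mem' := ?_ }, fun y => Iff.rfl⟩
  · rintro a b (rfl | ⟨m, hm⟩) (rfl | ⟨n, hn⟩)
    · exact Or.inl (by simp)
    · exact Or.inl (by simp)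
    · exact Or.inl (by simp)
    · by_cases ha : a = 0
      · exact Or.inl (by simp [ha])
      by_cases hb : b = 0
      · exact Or.inl (by simp [hb])
      exact Or.inr ⟨m + n, by rw [h.mul a b ha hb, hm, hn, add_smul]⟩
  · exact Or.inr ⟨0, by rw [h.theta_one, zero_smul]⟩
  · rintro a b ha hb
    by_cases ha0 : a = 0
    · simpa [ha0] using hb
    by_cases hb0 : b = 0
    · simpa [hb0] using ha
    by_cases hu : a + b = 0
    · exact Or.inl hu
    right
    obtain ⟨m, hm⟩ := ha.resolve_left ha0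
    obtain ⟨n, hn⟩ := hb.resolve_left hb0
    obtain ⟨c, e, hce, hrel⟩ := h.col a b ha0 hb0 hu
    by_cases hsum : c + e = 0
    · -- then `θ a = θ b`
      have he : e = -c := by linear_combination hsum
      subst he
      have hc : c ≠ 0 := by
        rcases hce with hc | hc
        · exact hc
        · exact fun h0 => hc (by simp [h0])
      have h1 : c • (θ a - θ b) = 0 := by
        rw [← hrel]
        module
      have h2 : θ a = θ b := sub_eq_zero.mp ((smul_eq_zero.mp h1).resolve_left hc)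
      -- the quotient `a / b` is a constant
      have h3 : θ (a / b) = 0 := by rw [h.theta_div ha0 hb0, h2, sub_self]
      have h4 : d (a / b) = 0 := (h.zero_iff _ (div_ne_zero ha0 hb0)).mp h3
      have h5 : a + b = (a / b + 1) * b := by field_simp
      have h6 : a / b + 1 ≠ 0 := by
        intro h0
        rw [h0, zero_mul] at h5
        exact hu h5
      have h7 : θ (a / b + 1) = 0 := by
        rw [h.zero_iff _ h6, Derivation.map_add, h4, Derivation.map_one_eq_zero, add_zero]
      refine ⟨n, ?_⟩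
      rw [h5, h.mul _ _ h6 hb0, h7, zero_add, hn]
    · refine ⟨(c + e)⁻¹ * (c * m + e * n), ?_⟩
      have h1 : (c + e) • θ (a + b) = c • θ a + e • θ b := by
        rw [add_smul]
        have h2 : c • θ a + e • θ b - (c • θ (a + b) + e • θ (a + b)) = 0 := by
          rw [← hrel]
          module
        exact (sub_eq_zero.mp h2).symm
      have h3 : θ (a + b) = (c + e)⁻¹ • ((c + e) • θ (a + b)) := by
        rw [smul_smul, inv_mul_cancel₀ hsum, one_smul]
      rw [h3, h1, hm, hn, smul_smul, smul_smul, ← add_smul, smul_smul]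
  · rintro a (rfl | ⟨m, hm⟩)
    · exact Or.inl (by simp)
    · by_cases ha : a = 0
      · exact Or.inl (by simp [ha])
      · exact Or.inr ⟨m, by rw [h.theta_neg ha, hm]⟩
  · rintro a (rfl | ⟨m, hm⟩)
    · exact Or.inl (by simp)
    · by_cases ha : a = 0
      · exact Or.inl (by simp [ha])
      · exact Or.inr ⟨-m, by rw [h.theta_inv ha, hm, neg_smul]⟩

end PreLog

namespace LogFn

/-- If `d r ≠ 0`, then `θ r ≠ θ (1 - r)`. -/
theorem theta_ne (h : LogFn L d θ) {r : K} (hr : d r ≠ 0) : θ r ≠ θ (1 - r) := by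
  have hr0 : r ≠ 0 := by rintro rfl; simp at hr
  have hr1 : 1 - r ≠ 0 := by
    intro h1
    have : r = 1 := by linear_combination -h1
    subst this
    simp at hr
  intro heq
  have h0 : θ (r / (1 - r)) = 0 := by rw [h.theta_div hr0 hr1, heq, sub_self]
  rw [h.zero_iff _ (div_ne_zero hr0 hr1), Derivation.leibniz_div] at h0
  have h2 : (1 - r) • d r - r • d (1 - r) = d r := by
    rw [Derivation.map_sub, Derivation.map_one_eq_zero, zero_sub, smul_neg, sub_neg_eq_add,
      ← add_smul]
    simp
  rw [h2] at h0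
  have h3 : ((1 - r)⁻¹ ^ 2 : K) ≠ 0 := pow_ne_zero _ (inv_ne_zero hr1)
  exact hr ((smul_eq_zero.mp h0).resolve_left h3)

/-- Existence and uniqueness of the barycentric coordinate. -/
theorem existsUnique_coord (h : LogFn L d θ) {r : K} (hr : d r ≠ 0) :
    ∃! t : L, t • θ r + (1 - t) • θ (1 - r) = 0 := by
  have hr0 : r ≠ 0 := by rintro rfl; simp at hr
  have hr1 : 1 - r ≠ 0 := by
    intro h1
    have : r = 1 := by linear_combination -h1
    subst this
    simp at hr
  have hne := h.theta_ne hr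
  have hθ0 : θ r ≠ 0 := fun h0 => hr ((h.zero_iff r hr0).mp h0)
  have hd1 : d (1 - r) ≠ 0 := by
    rw [Derivation.map_sub, Derivation.map_one_eq_zero, zero_sub]
    exact neg_ne_zero.mpr hr
  have hθ1 : θ (1 - r) ≠ 0 := fun h0 => hd1 ((h.zero_iff _ hr1).mp h0)
  obtain ⟨c, e, hce, hrel⟩ := h.col r (1 - r) hr0 hr1 (by simp)
  have hsum : r + (1 - r) = 1 := by ring
  rw [hsum, h.theta_one, sub_zero, sub_zero] at hrel
  have hce' : c + e ≠ 0 := by
    intro hz
    have he : e = -c := by linear_combination hz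
    subst he
    have hc : c ≠ 0 := by
      rcases hce with hc | hc
      · exact hc
      · exact fun h0 => hc (by simp [h0])
    rw [neg_smul, ← sub_eq_add_neg, ← smul_sub] at hrel
    exact hne (sub_eq_zero.mp ((smul_eq_zero.mp hrel).resolve_left hc))
  refine ⟨c / (c + e), ?_, ?_⟩
  · have h1 : 1 - c / (c + e) = e / (c + e) := by field_simp; ring
    simp only [h1]
    have : (c / (c + e)) • θ r + (e / (c + e)) • θ (1 - r) = (c + e)⁻¹ • (c • θ r + e • θ (1 - r)) := by
      rw [smul_add, smul_smul, smul_smul]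
      congr 2 <;> field_simp
    rw [this, hrel, smul_zero]
  · -- uniqueness
    intro t ht
    have hc1 : c • θ r = (-e) • θ (1 - r) := by
      rw [neg_smul]; exact eq_neg_of_add_eq_zero_left hrel
    -- uniqueness through subtraction
    have key : ∀ t₁ t₂ : L, t₁ • θ r + (1 - t₁) • θ (1 - r) = 0 → t₂ • θ r + (1 - t₂) • θ (1 - r) = 0 →
        t₁ = t₂ := by
      intro t₁ t₂ h₁ h₂
      have : (t₁ - t₂) • (θ r - θ (1 - r)) = 0 := by
        have h3 := sub_eq_zero.mpr (h₁.trans h₂.symm)
        rw [← h3]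
        simp only [sub_smul, smul_sub, one_smul]
        abel
      exact sub_eq_zero.mp ((smul_eq_zero.mp this).resolve_right (sub_ne_zero.mpr hne))
    apply key t _ ht
    have h1 : 1 - c / (c + e) = e / (c + e) := by field_simp; ring
    simp only [h1]
    have : (c / (c + e)) • θ r + (e / (c + e)) • θ (1 - r) = (c + e)⁻¹ • (c • θ r + e • θ (1 - r)) := by
      rw [smul_add, smul_smul, smul_smul]
      congr 2 <;> field_simp
    rw [this, hrel, smul_zero]

end LogFn

open Classical in
/-- The barycentric coordinate. -/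
noncomputable def coord (L : Type*) {ΩL : Type*} [Field L] [AddCommGroup ΩL] [Module L ΩL]
    (θ : K → ΩL) (r : K) : L :=
  if h : ∃ t : L, t • θ r + (1 - t) • θ (1 - r) = 0 then h.choose else 0

namespace LogFn

theorem coord_spec (h : LogFn L d θ) {r : K} (hr : d r ≠ 0) :
    coord L θ r • θ r + (1 - coord L θ r) • θ (1 - r) = 0 := by
  have hex : ∃ t : L, t • θ r + (1 - t) • θ (1 - r) = 0 := (h.existsUnique_coord hr).exists
  unfold coord
  rw [dif_pos hex]
  exact hex.choose_spec

theorem coord_unique (h : LogFn L d θ) {r : K} (hr : d r ≠ 0) {t : L}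
    (ht : t • θ r + (1 - t) • θ (1 - r) = 0) : coord L θ r = t :=
  (h.existsUnique_coord hr).unique (h.coord_spec hr) ht

theorem d_one_sub_ne {r : K} (hr : d r ≠ 0) : d (1 - r) ≠ 0 := by
  rw [Derivation.map_sub, Derivation.map_one_eq_zero, zero_sub]
  exact neg_ne_zero.mpr hr

theorem coord_one_sub (h : LogFn L d θ) {r : K} (hr : d r ≠ 0) :
    coord L θ (1 - r) = 1 - coord L θ r := by
  apply h.coord_unique (d_one_sub_ne hr)
  have := h.coord_spec hr
  have h2 : (1 : K) - (1 - r) = r := by ring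
  rw [h2, sub_sub_cancel, add_comm]
  exact this

/-- The relation `θ (x + y) = α (x / u) θ x + α (y / u) θ y`. -/
theorem theta_add (h : LogFn L d θ) {x y : K} (hx : x ≠ 0) (hy : y ≠ 0) (hu : x + y ≠ 0)
    (hr : d (x / (x + y)) ≠ 0) :
    θ (x + y) = coord L θ (x / (x + y)) • θ x + (1 - coord L θ (x / (x + y))) • θ y := by
  have hs := h.coord_spec hr
  have h1 : 1 - x / (x + y) = y / (x + y) := by field_simp; ring
  rw [h1, h.theta_div hx hu, h.theta_div hy hu] at hs
  set t := coord L θ (x / (x + y))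
  have : t • θ x + (1 - t) • θ y - θ (x + y) = t • (θ x - θ (x + y)) + (1 - t) • (θ y - θ (x + y)) := by
    simp only [sub_smul, smul_sub, one_smul]
    abel
  rw [hs] at this
  exact (sub_eq_zero.mp this).symm

end LogFn

section Generic

variable {a b c : K}

theorem ne_zero_of_d_ne {x : K} (hx : d x ≠ 0) : x ≠ 0 := by
  rintro rfl
  simp at hx

theorem d_third (habc : a + b + c = 1) : d c = - d a - d b := by
  have hc : c = 1 - a - b := by linear_combination habc
  rw [hc, Derivation.map_sub, Derivation.map_sub, Derivation.map_one_eq_zero, zero_sub]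

namespace LogFn

/-- The relation attached to a decomposition `a + b + c = 1` in general position. -/
theorem rel (h : LogFn L d θ) (habc : a + b + c = 1) (hab : Ind K (d a) (d b)) :
    (coord L θ (a + b) * coord L θ (a / (a + b))) • θ a +
      (coord L θ (a + b) * (1 - coord L θ (a / (a + b)))) • θ b + coord L θ c • θ c = 0 ∧
    coord L θ (a + b) * coord L θ (a / (a + b)) + coord L θ (a + b) * (1 - coord L θ (a / (a + b))) +
      coord L θ c = 1 := by
  have ha : a ≠ 0 := ne_zero_of_d_ne hab.ne_left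
  have hb : b ≠ 0 := ne_zero_of_d_ne hab.ne_right
  have hdc : d c = - d a - d b := d_third habc
  have hu : a + b ≠ 0 := by
    intro h0
    have : (1 : K) • d a + (1 : K) • d b = 0 := by
      rw [one_smul, one_smul, ← Derivation.map_add, h0, Derivation.map_zero]
    exact one_ne_zero (hab 1 1 this).1
  have hc' : d c ≠ 0 := by
    intro h0
    rw [hdc] at h0
    have : (1 : K) • d a + (1 : K) • d b = 0 := by
      rw [one_smul, one_smul, ← neg_eq_zero, neg_add, ← sub_eq_add_neg]
      exact h0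
    exact one_ne_zero (hab 1 1 this).1
  have hdr : d (a / (a + b)) ≠ 0 := by
    intro h0
    rw [Derivation.leibniz_div] at h0
    have h1 : (a + b) • d a - a • d (a + b) = 0 :=
      (smul_eq_zero.mp h0).resolve_left (pow_ne_zero _ (inv_ne_zero hu))
    have h2 : b • d a + (-a) • d b = 0 := by
      rw [← h1, Derivation.map_add, add_smul, smul_add, neg_smul]
      abel
    exact ha (neg_eq_zero.mp (hab _ _ h2).2)
  have hc1 : 1 - c = a + b := by linear_combination -habc
  have hspec := h.coord_spec hc'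
  rw [hc1] at hspec
  have hcu : coord L θ (a + b) = 1 - coord L θ c := by
    rw [← hc1]; exact h.coord_one_sub hc'
  have hadd := h.theta_add ha hb hu hdr
  rw [hadd, ← hcu] at hspec
  constructor
  · rw [← hspec]
    simp only [smul_add, mul_smul]
    abel
  · rw [hcu]
    ring

/-- The main identity in general position. -/
theorem generic (h : LogFn L d θ) (habc : a + b + c = 1) (hab : Ind K (d a) (d b)) :
    coord L θ a + coord L θ b + coord L θ c = 1 ∧
      coord L θ (a + b) * coord L θ (a / (a + b)) = coord L θ a := by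
  have ha : a ≠ 0 := ne_zero_of_d_ne hab.ne_left
  have hb : b ≠ 0 := ne_zero_of_d_ne hab.ne_right
  have hdc : d c = - d a - d b := d_third habc
  have hbc : Ind K (d b) (d c) :=
    hab.of_det' 0 1 (-1) (-1) (by simp) (by rw [hdc]; simp [sub_eq_add_neg]) (by simp)
  have hac : Ind K (d a) (d c) :=
    hab.of_det' 1 0 (-1) (-1) (by simp) (by rw [hdc]; simp [sub_eq_add_neg]) (by simp)
  have hc : c ≠ 0 := ne_zero_of_d_ne hbc.ne_right
  -- independence in the target
  have hba : Ind K (d (b / a)) (d (c / a)) := by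
    refine hab.of_det' (-(a⁻¹ ^ 2 * b)) (a⁻¹ ^ 2 * a) (a⁻¹ ^ 2 * (- a - c)) (a⁻¹ ^ 2 * (- a)) ?_ ?_ ?_
    · rw [Derivation.leibniz_div]
      module
    · rw [Derivation.leibniz_div, hdc]
      module
    · have ha' : a⁻¹ ≠ 0 := inv_ne_zero ha
      have : -(a⁻¹ ^ 2 * b) * (a⁻¹ ^ 2 * -a) - a⁻¹ ^ 2 * a * (a⁻¹ ^ 2 * (-a - c)) =
          (a⁻¹) ^ 4 * a * (a + b + c) := by ring
      rw [this, habc, mul_one]
      exact mul_ne_zero (pow_ne_zero _ ha') ha
  have hind : Ind L (θ b - θ a) (θ c - θ a) := by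
    rw [← h.theta_div hb ha, ← h.theta_div hc ha]
    exact h.ind _ _ (div_ne_zero hb ha) (div_ne_zero hc ha) hba
  -- three relations
  obtain ⟨r1, s1⟩ := h.rel habc hab
  have h231 : b + c + a = 1 := by linear_combination habc
  obtain ⟨r2, s2⟩ := h.rel h231 hbc
  have h132 : a + c + b = 1 := by linear_combination habc
  obtain ⟨r3, s3⟩ := h.rel h132 hac
  -- put into normal form (p₁, p₂, p₃) = (θ a, θ b, θ c)
  have r2' : coord L θ a • θ a + (coord L θ (b + c) * coord L θ (b / (b + c))) • θ b +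
      (coord L θ (b + c) * (1 - coord L θ (b / (b + c)))) • θ c = 0 := by
    rw [← r2]; abel
  have s2' : coord L θ a + coord L θ (b + c) * coord L θ (b / (b + c)) +
      coord L θ (b + c) * (1 - coord L θ (b / (b + c))) = 1 := by
    linear_combination s2
  have r3' : (coord L θ (a + c) * coord L θ (a / (a + c))) • θ a + coord L θ b • θ b +
      (coord L θ (a + c) * (1 - coord L θ (a / (a + c)))) • θ c = 0 := by
    rw [← r3]; abel
  have s3' : coord L θ (a + c) * coord L θ (a / (a + c)) + coord L θ b +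
      coord L θ (a + c) * (1 - coord L θ (a / (a + c))) = 1 := by
    linear_combination s3
  obtain ⟨e1, -, -⟩ := cmp_coeff hind r1 r2' s1 s2'
  obtain ⟨-, e2, -⟩ := cmp_coeff hind r1 r3' s1 s3'
  refine ⟨?_, e1⟩
  linear_combination s1 - e1 - e2

/-- Additivity in general position. -/
theorem coord_add (h : LogFn L d θ) {a b : K} (hab : Ind K (d a) (d b)) :
    coord L θ (a + b) = coord L θ a + coord L θ b := by
  have habc : a + b + (1 - (a + b)) = 1 := by ring
  obtain ⟨h1, -⟩ := h.generic habc hab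
  have hd : d (a + b) ≠ 0 := by
    intro h0
    rw [Derivation.map_add] at h0
    have : (1 : K) • d a + (1 : K) • d b = 0 := by rw [one_smul, one_smul, h0]
    exact one_ne_zero (hab 1 1 this).1
  have := h.coord_one_sub hd
  rw [this] at h1
  linear_combination (-1 : L) * h1

/-- Multiplicativity in general position. -/
theorem coord_mul (h : LogFn L d θ) {x y : K} (hxy : Ind K (d x) (d y)) :
    coord L θ (x * y) = coord L θ x * coord L θ y := by
  have hx : x ≠ 0 := ne_zero_of_d_ne hxy.ne_left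
  have hy : y ≠ 0 := ne_zero_of_d_ne hxy.ne_right
  have habc : x * y + x * (1 - y) + (1 - x) = 1 := by ring
  have hab : Ind K (d (x * y)) (d (x * (1 - y))) := by
    refine hxy.of_det' y x (1 - y) (-x) ?_ ?_ ?_
    · rw [Derivation.leibniz, add_comm]
    · rw [Derivation.leibniz, Derivation.map_sub, Derivation.map_one_eq_zero, zero_sub, smul_neg,
        add_comm, neg_smul, sub_eq_add_neg]
    · have : y * -x - x * (1 - y) = -x := by ring
      rw [this]
      exact neg_ne_zero.mpr hx
  obtain ⟨-, h2⟩ := h.generic habc hab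
  have h3 : x * y + x * (1 - y) = x := by ring
  rw [h3] at h2
  have h4 : x * y / x = y := by field_simp
  rw [h4] at h2
  exact h2.symm

end LogFn

end Generic

section Extension

variable (L) in
open Classical in
/-- The extension of the coordinate to constants. -/
noncomputable def hat (d : Derivation ℤ K ΩK) (θ : K → ΩL) (a₀ : K) (x : K) : L :=
  if d x ≠ 0 then coord L θ x else coord L θ (x + a₀) - coord L θ a₀

variable {a₀ b₀ : K}

theorem hat_of_ne {x : K} (hx : d x ≠ 0) : hat L d θ a₀ x = coord L θ x := by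
  simp only [hat, if_pos hx]

theorem hat_of_eq {x : K} (hx : d x = 0) :
    hat L d θ a₀ x = coord L θ (x + a₀) - coord L θ a₀ := by
  simp [hat, hx]

theorem d_add_of_d_eq {w z : K} (hw : d w = 0) : d (w + z) = d z := by
  rw [Derivation.map_add, hw, zero_add]

namespace LogFn

/-- The key identity for adding a constant. -/
theorem coord_add_const (h : LogFn L d θ) (h₀ : Ind K (d a₀) (d b₀)) {w z : K} (hw : d w = 0)
    (hz : d z ≠ 0) : coord L θ (w + z) = coord L θ z + (coord L θ (w + a₀) - coord L θ a₀) := by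
  by_cases hind : Ind K (d z) (d a₀)
  · have h1 : coord L θ ((w + z) + a₀) = coord L θ (w + z) + coord L θ a₀ := by
      apply h.coord_add
      rw [d_add_of_d_eq hw]; exact hind
    have h2 : coord L θ (z + (w + a₀)) = coord L θ z + coord L θ (w + a₀) := by
      apply h.coord_add
      rw [d_add_of_d_eq hw]; exact hind
    have h3 : (w + z) + a₀ = z + (w + a₀) := by ring
    rw [h3, h2] at h1
    linear_combination -h1
  · obtain ⟨n, hn⟩ := dep_of_not_ind_left hz hind
    have hn0 : n ≠ 0 := by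
      rintro rfl
      rw [zero_smul] at hn
      exact h₀.ne_left hn
    have hzb : Ind K (d z) (d b₀) := by
      refine h₀.of_det' n⁻¹ 0 0 1 ?_ (by simp) ?_
      · rw [hn, zero_smul, add_zero, smul_smul, inv_mul_cancel₀ hn0, one_smul]
      · simp [hn0]
    have h1 : coord L θ ((w + z) + b₀) = coord L θ (w + z) + coord L θ b₀ := by
      apply h.coord_add
      rw [d_add_of_d_eq hw]; exact hzb
    have h2 : coord L θ (z + (w + b₀)) = coord L θ z + coord L θ (w + b₀) := by
      apply h.coord_add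
      rw [d_add_of_d_eq hw]; exact hzb
    have h3 : (w + z) + b₀ = z + (w + b₀) := by ring
    rw [h3, h2] at h1
    have h4 : coord L θ ((w + a₀) + b₀) = coord L θ (w + a₀) + coord L θ b₀ := by
      apply h.coord_add
      rw [d_add_of_d_eq hw]; exact h₀
    have h5 : coord L θ (a₀ + (w + b₀)) = coord L θ a₀ + coord L θ (w + b₀) := by
      apply h.coord_add
      rw [d_add_of_d_eq hw]; exact h₀
    have h6 : (w + a₀) + b₀ = a₀ + (w + b₀) := by ring
    rw [h6, h5] at h4
    linear_combination -h1 + h4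

/-- Additivity for `w`, `z` with `d z ≠ 0` and `d w = 0` or `d w, d z` independent. -/
theorem hat_add_aux (h : LogFn L d θ) (h₀ : Ind K (d a₀) (d b₀)) {w z : K} (hz : d z ≠ 0)
    (hw : d w = 0 ∨ Ind K (d w) (d z)) :
    hat L d θ a₀ (w + z) = hat L d θ a₀ w + hat L d θ a₀ z := by
  rcases hw with hw | hw
  · rw [hat_of_ne (by rwa [d_add_of_d_eq hw]), hat_of_eq hw, hat_of_ne hz,
      h.coord_add_const h₀ hw hz]
    ring
  · have hne : d (w + z) ≠ 0 := by
      intro h0
      rw [Derivation.map_add] at h0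
      have : (1 : K) • d w + (1 : K) • d z = 0 := by rw [one_smul, one_smul, h0]
      exact one_ne_zero (hw 1 1 this).1
    rw [hat_of_ne hne, hat_of_ne hw.ne_left, hat_of_ne hz, h.coord_add hw]

/-- Choice of an auxiliary element. -/
theorem exists_aux (h₀ : Ind K (d a₀) (d b₀)) (v : ΩK) :
    ∃ z : K, d z ≠ 0 ∧ ∀ m : K, m • v = 0 ∨ Ind K (m • v) (d z) := by
  have key : ∀ z : K, Ind K v (d z) → ∀ m : K, m • v = 0 ∨ Ind K (m • v) (d z) := by
    intro z hz m
    by_cases hm : m = 0
    · left; simp [hm]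
    · right
      exact hz.of_det' m 0 0 1 (by simp) (by simp) (by simpa using hm)
  by_cases hv : v = 0
  · exact ⟨a₀, h₀.ne_left, fun m => Or.inl (by simp [hv])⟩
  by_cases hind : Ind K v (d a₀)
  · exact ⟨a₀, h₀.ne_left, key _ hind⟩
  · obtain ⟨n, hn⟩ := dep_of_not_ind_left hv hind
    have hn0 : n ≠ 0 := by
      rintro rfl
      rw [zero_smul] at hn
      exact h₀.ne_left hn
    have hvb : Ind K v (d b₀) := by
      refine h₀.of_det' n⁻¹ 0 0 1 ?_ (by simp) (by simp [hn0])
      rw [hn, zero_smul, add_zero, smul_smul, inv_mul_cancel₀ hn0, one_smul]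
    exact ⟨b₀, h₀.ne_right, key _ hvb⟩

/-- Full additivity of `hat`. -/
theorem hat_add (h : LogFn L d θ) (h₀ : Ind K (d a₀) (d b₀)) (x y : K) :
    hat L d θ a₀ (x + y) = hat L d θ a₀ x + hat L d θ a₀ y := by
  by_cases hind : Ind K (d x) (d y)
  · exact h.hat_add_aux h₀ hind.ne_right (Or.inr hind)
  obtain ⟨v, m, n, hm, hn⟩ := exists_common_of_not_ind hind
  obtain ⟨z, hz, hzv⟩ := exists_aux h₀ v
  -- helper: for `η = k • v`, either `η = 0` or independent from `d z`.
  have hy : d y = 0 ∨ Ind K (d y) (d z) := by rw [hn]; exact hzv n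
  have hx : d x = 0 ∨ Ind K (d x) (d z) := by rw [hm]; exact hzv m
  have hxy : d (x + y) = 0 ∨ Ind K (d (x + y)) (d z) := by
    rw [Derivation.map_add, hm, hn, ← add_smul]; exact hzv (m + n)
  have hyz : d (y + z) ≠ 0 := by
    rw [Derivation.map_add]
    rcases hy with hy | hy
    · rwa [hy, zero_add]
    · intro h0
      have : (1 : K) • d y + (1 : K) • d z = 0 := by rw [one_smul, one_smul, h0]
      exact one_ne_zero (hy 1 1 this).1
  have hx' : d x = 0 ∨ Ind K (d x) (d (y + z)) := by
    rcases hx with hx | hx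
    · exact Or.inl hx
    · right
      have hx0 : d x ≠ 0 := hx.ne_left
      -- `d y` is a multiple of `d x`
      obtain ⟨k, hk⟩ := dep_of_not_ind_left hx0 hind
      refine hx.of_det' 1 0 k 1 (by simp) ?_ (by simp)
      rw [Derivation.map_add, hk, one_smul]
  have e1 := h.hat_add_aux h₀ hz hy
  have e2 := h.hat_add_aux h₀ hyz hx'
  have e3 := h.hat_add_aux h₀ hz hxy
  have e4 : x + y + z = x + (y + z) := by ring
  rw [e4, e2, e1] at e3
  linear_combination -e3

theorem hat_zero (h : LogFn L d θ) (h₀ : Ind K (d a₀) (d b₀)) : hat L d θ a₀ 0 = 0 := by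
  have := h.hat_add h₀ 0 0
  simpa using this

theorem hat_one (h : LogFn L d θ) (h₀ : Ind K (d a₀) (d b₀)) : hat L d θ a₀ 1 = 1 := by
  have h1 := h.hat_add h₀ a₀ (1 - a₀)
  have h2 : a₀ + (1 - a₀) = 1 := by ring
  have h3 : d (1 - a₀) ≠ 0 := d_one_sub_ne h₀.ne_left
  rw [h2, hat_of_ne h₀.ne_left, hat_of_ne h3, h.coord_one_sub h₀.ne_left] at h1
  rw [h1]; ring

theorem hat_mul_ind (h : LogFn L d θ) {x y : K} (hxy : Ind K (d x) (d y)) :
    hat L d θ a₀ (x * y) = hat L d θ a₀ x * hat L d θ a₀ y := by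
  have hx : x ≠ 0 := ne_zero_of_d_ne hxy.ne_left
  have hne : d (x * y) ≠ 0 := by
    intro h0
    rw [Derivation.leibniz, add_comm] at h0
    exact hx (hxy y x h0).2
  rw [hat_of_ne hne, hat_of_ne hxy.ne_left, hat_of_ne hxy.ne_right, h.coord_mul hxy]

/-- Multiplicativity when `d x ≠ 0`. -/
theorem hat_mul_aux (h : LogFn L d θ) (h₀ : Ind K (d a₀) (d b₀)) {x y : K} (hx : d x ≠ 0) :
    hat L d θ a₀ (x * y) = hat L d θ a₀ x * hat L d θ a₀ y := by
  by_cases hind : Ind K (d x) (d y)
  · exact h.hat_mul_ind hind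
  obtain ⟨n, hn⟩ := dep_of_not_ind_left hx hind
  -- auxiliary `z` independent of `d x`
  obtain ⟨z, hz, hzv⟩ := exists_aux h₀ (d x)
  have hxz : Ind K (d x) (d z) := by
    have := hzv 1
    rw [one_smul] at this
    exact this.resolve_left hx
  have hxyz : Ind K (d x) (d (y + z)) := by
    refine hxz.of_det' 1 0 n 1 (by simp) ?_ (by simp)
    rw [Derivation.map_add, hn, one_smul]
  have e1 := h.hat_mul_ind (a₀ := a₀) hxyz
  have e2 := h.hat_mul_ind (a₀ := a₀) hxz
  have e3 := h.hat_add h₀ y z
  have e4 := h.hat_add h₀ (x * y) (x * z)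
  have e5 : x * (y + z) = x * y + x * z := by ring
  rw [e5, e4, e3, e2] at e1
  linear_combination e1

/-- Full multiplicativity of `hat`. -/
theorem hat_mul (h : LogFn L d θ) (h₀ : Ind K (d a₀) (d b₀)) (x y : K) :
    hat L d θ a₀ (x * y) = hat L d θ a₀ x * hat L d θ a₀ y := by
  by_cases hx : d x ≠ 0
  · exact h.hat_mul_aux h₀ hx
  by_cases hy : d y ≠ 0
  · rw [mul_comm x y, h.hat_mul_aux h₀ hy, mul_comm]
  -- both constants
  push Not at hx hy
  have hya : d (y + a₀) ≠ 0 := by
    rw [d_add_of_d_eq hy]; exact h₀.ne_left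
  have e1 : hat L d θ a₀ ((y + a₀) * x) = hat L d θ a₀ (y + a₀) * hat L d θ a₀ x :=
    h.hat_mul_aux h₀ hya
  have e2 : hat L d θ a₀ (a₀ * x) = hat L d θ a₀ a₀ * hat L d θ a₀ x :=
    h.hat_mul_aux h₀ h₀.ne_left
  have e3 := h.hat_add h₀ y a₀
  have e4 := h.hat_add h₀ (y * x) (a₀ * x)
  have e5 : (y + a₀) * x = y * x + a₀ * x := by ring
  rw [e5, e4, e3, e2] at e1
  rw [mul_comm x y]
  linear_combination e1

/-- The ring homomorphism attached to a logarithmic function. -/
noncomputable def hatHom (h : LogFn L d θ) (h₀ : Ind K (d a₀) (d b₀)) : K →+* L where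
  toFun := hat L d θ a₀
  map_one' := h.hat_one h₀
  map_mul' := h.hat_mul h₀
  map_zero' := h.hat_zero h₀
  map_add' := h.hat_add h₀

theorem hatHom_apply (h : LogFn L d θ) (h₀ : Ind K (d a₀) (d b₀)) {r : K} (hr : d r ≠ 0) :
    h.hatHom h₀ r = coord L θ r := hat_of_ne hr

/-- Main theorem of the core: a ring homomorphism realising the barycentric coordinates. -/
theorem exists_ringHom (h : LogFn L d θ) (h₀ : Ind K (d a₀) (d b₀)) :
    ∃ α : K →+* L, ∀ r, d r ≠ 0 → α r • θ r + (1 - α r) • θ (1 - r) = 0 :=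
  ⟨h.hatHom h₀, fun r hr => by
    rw [h.hatHom_apply h₀ hr]
    exact h.coord_spec hr⟩

/-- From the specification of a ring homomorphism `α`, the function `x ↦ α x • θ x` is additive. -/
theorem psi_add (h : LogFn L d θ) (α : K →+* L)
    (hα : ∀ r, d r ≠ 0 → α r • θ r + (1 - α r) • θ (1 - r) = 0) (x y : K) :
    α (x + y) • θ (x + y) = α x • θ x + α y • θ y := by
  by_cases hx : x = 0
  · simp [hx]
  by_cases hy : y = 0
  · simp [hy]
  by_cases hu : x + y = 0
  · have hy' : y = -x := by linear_combination hu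
    subst hy'
    rw [h.theta_neg hx, map_neg, neg_smul]
    simp
  set u := x + y with hudef
  have hαu : α u ≠ 0 := (map_ne_zero α).mpr hu
  have h1 : 1 - x / u = y / u := by
    rw [eq_div_iff hu, sub_mul, one_mul, div_mul_cancel₀ _ hu, hudef]; ring
  by_cases hr : d (x / u) = 0
  · have hr' : d (y / u) = 0 := by
      rw [← h1, Derivation.map_sub, Derivation.map_one_eq_zero, hr, sub_zero]
    have e1 : θ x = θ u := by
      have := (h.zero_iff _ (div_ne_zero hx hu)).mpr hr
      rw [h.theta_div hx hu] at this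
      exact sub_eq_zero.mp this
    have e2 : θ y = θ u := by
      have := (h.zero_iff _ (div_ne_zero hy hu)).mpr hr'
      rw [h.theta_div hy hu] at this
      exact sub_eq_zero.mp this
    rw [e1, e2, ← add_smul, hudef, map_add]
  · have hs := hα _ hr
    rw [h1, h.theta_div hx hu, h.theta_div hy hu] at hs
    have h2 : 1 - α (x / u) = α y / α u := by
      rw [← map_one α, ← map_sub, h1, map_div₀]
    rw [h2, map_div₀] at hs
    have h3 := congrArg (fun v => α u • v) hs
    simp only [smul_zero, smul_add, smul_smul, mul_div_cancel₀ _ hαu, smul_sub] at h3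
    have h4 : α u = α x + α y := by rw [hudef, map_add]
    have h5 : α u • θ u = α x • θ u + α y • θ u := by rw [h4, add_smul]
    rw [h5]
    have e : α x • θ x + α y • θ y - (α x • θ u + α y • θ u) = 0 := by
      rw [← h3]; abel
    exact (sub_eq_zero.mp e).symm

end LogFn

end Extension

end Core

end Crest.Agent.Lib.MilnorCore
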