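import Mathlib

/-!
Existence of derivations in characteristic `p`: if `E₀` is a subfield of `L` containing all `p`-th
powers and `u ∉ E₀`, there is a derivation of `L` vanishing on `E₀` and not vanishing at `u`.
-/

set_option autoImplicit false

namespace Crest.Agent.Lib.PDerivation

open Polynomial IntermediateField

variable {L : Type*} [Field L] {p : ℕ} [hp : Fact p.Prime] [CharP L p]

/-- Maximal subfield containing `E₀` and avoiding `u`. -/
theorem exists_maximal_subfield (E₀ : Subfield L) (u : L) (hu : u ∉ E₀) :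
    ∃ F : Subfield L, E₀ ≤ F ∧ u ∉ F ∧ ∀ G : Subfield L, F ≤ G → u ∉ G → G = F := by
  obtain ⟨F, hF, hF'⟩ := zorn_le_nonempty₀ {F : Subfield L | E₀ ≤ F ∧ u ∉ F}
    (by
      intro c hc hchain y hy
      have hne : c.Nonempty := ⟨y, hy⟩
      refine ⟨sSup c, ⟨le_trans (hc hy).1 (le_sSup hy), ?_⟩, fun z hz => le_sSup hz⟩
      intro hmem
      rw [Subfield.mem_sSup_of_directedOn hne hchain.directedOn] at hmem
      obtain ⟨G, hG, huG⟩ := hmem
      exact (hc hG).2 huG) E₀ ⟨le_rfl, hu⟩
  refine ⟨F, hF, hF'.1.2, fun G hFG huG => ?_⟩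
  exact le_antisymm (hF'.2 ⟨le_trans hF hFG, huG⟩ hFG) hFG

/-- Degree `p` of a simple extension by an element whose `p`-th power lies in the base. -/
theorem finrank_adjoin_of_pow_mem (F : Subfield L) (z : L) (hzp : z ^ p ∈ F) (hz : z ∉ F) :
    Module.finrank F F⟮z⟯ = p := by
  have hirr : Irreducible (X ^ p - C (⟨z ^ p, hzp⟩ : F)) := by
    apply X_pow_sub_C_irreducible_of_prime hp.out
    intro b hb
    have h1 : ((b : L)) ^ p = z ^ p := by
      have := congrArg (Subtype.val) hb
      simpa using this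
    have h2 : (b : L) = z := by
      have hinj := frobenius_inj L p
      exact hinj (by simpa [frobenius_def] using h1)
    exact hz (h2 ▸ b.2)
  have hmin : minpoly F z = X ^ p - C (⟨z ^ p, hzp⟩ : F) := by
    symm
    apply minpoly.eq_of_irreducible_of_monic hirr
    · have h : (algebraMap F L) ⟨z ^ p, hzp⟩ = z ^ p := rfl
      simp [aeval_def, eval₂_eq_eval_map, h]
    · exact monic_X_pow_sub_C _ hp.out.ne_zero
  have hint : IsIntegral F z := by
    refine ⟨X ^ p - C (⟨z ^ p, hzp⟩ : F), monic_X_pow_sub_C _ hp.out.ne_zero, ?_⟩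
    have h : (algebraMap F L) ⟨z ^ p, hzp⟩ = z ^ p := rfl
    simp [eval₂_eq_eval_map, h]
  rw [IntermediateField.adjoin.finrank hint, hmin, natDegree_X_pow_sub_C]

/-- Main lemma on subfields containing `p`-th powers. -/
theorem adjoin_eq_top_of_maximal (F : Subfield L) (hFp : ∀ x : L, x ^ p ∈ F) (u : L) (hu : u ∉ F)
    (hmax : ∀ G : Subfield L, F ≤ G → u ∉ G → G = F) :
    F⟮u⟯ = ⊤ := by
  rw [eq_top_iff]
  intro z _
  by_contra hz
  -- first: `z ∉ F`
  have hzF : z ∉ F := by
    intro h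
    apply hz
    exact (F⟮u⟯).algebraMap_mem ⟨z, h⟩
  -- the subfield `F(z)` contains `u`.
  have huz : u ∈ F⟮z⟯ := by
    by_contra hcon
    let G : Subfield L := (F⟮z⟯).toSubfield
    have hFG : F ≤ G := by
      intro x hx
      exact (F⟮z⟯).algebraMap_mem ⟨x, hx⟩
    have := hmax G hFG hcon
    apply hzF
    rw [← this]
    exact IntermediateField.mem_adjoin_simple_self F z
  have hle : F⟮u⟯ ≤ F⟮z⟯ := by
    rw [IntermediateField.adjoin_simple_le_iff]
    exact huz
  have hfinz : FiniteDimensional F F⟮z⟯ := by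
    have hr := finrank_adjoin_of_pow_mem F z (hFp z) hzF
    apply FiniteDimensional.of_finrank_pos
    rw [hr]; exact hp.out.pos
  have heq : F⟮u⟯ = F⟮z⟯ :=
    IntermediateField.eq_of_le_of_finrank_eq hle
      (by rw [finrank_adjoin_of_pow_mem F u (hFp u) hu, finrank_adjoin_of_pow_mem F z (hFp z) hzF])
  apply hz
  rw [heq]
  exact IntermediateField.mem_adjoin_simple_self F z

end Crest.Agent.Lib.PDerivation

namespace Crest.Agent.Lib.PDerivation

open Polynomial IntermediateField TrivSqZeroExt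

variable {L : Type*} [Field L] {p : ℕ} [hp : Fact p.Prime] [CharP L p]

/-- A derivation built from a ring homomorphism into the dual numbers. -/
noncomputable def derivationOfDual (φ : L →+* TrivSqZeroExt L L) (hφ : ∀ x, (φ x).fst = x) :
    Derivation ℤ L L :=
  Derivation.mk'
    (AddMonoidHom.toIntLinearMap
      { toFun := fun x => (φ x).snd
        map_zero' := by simp
        map_add' := fun x y => by simp })
    (fun a b => by
      change (φ (a * b)).snd = a • (φ b).snd + b • (φ a).snd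
      rw [map_mul, TrivSqZeroExt.snd_mul, hφ, hφ]
      simp [mul_comm])

@[simp] theorem derivationOfDual_apply (φ : L →+* TrivSqZeroExt L L) (hφ : ∀ x, (φ x).fst = x)
    (x : L) : derivationOfDual φ hφ x = (φ x).snd := rfl

/-- Existence of derivations: the key lemma. -/
theorem exists_derivation_of_notMem (E₀ : Subfield L) (hE : ∀ x : L, x ^ p ∈ E₀) (u : L)
    (hu : u ∉ E₀) : ∃ D : Derivation ℤ L L, (∀ e ∈ E₀, D e = 0) ∧ D u ≠ 0 := by
  obtain ⟨F, hEF, huF, hmax⟩ := exists_maximal_subfield E₀ u hu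
  have hFp : ∀ x : L, x ^ p ∈ F := fun x => hEF (hE x)
  have htop : F⟮u⟯ = ⊤ := adjoin_eq_top_of_maximal (p := p) F hFp u huF hmax
  have hint : IsIntegral F u := by
    refine ⟨X ^ p - C (⟨u ^ p, hFp u⟩ : F), monic_X_pow_sub_C _ hp.out.ne_zero, ?_⟩
    have h : (algebraMap F L) ⟨u ^ p, hFp u⟩ = u ^ p := rfl
    simp [eval₂_eq_eval_map, h]
  let pb : PowerBasis F F⟮u⟯ := IntermediateField.adjoin.powerBasis hint
  have hmem : ∀ x : L, x ∈ F⟮u⟯ := fun x => by rw [htop]; trivial
  -- the element `u + ε` in the dual numbers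
  let y : TrivSqZeroExt L L := (u, 1)
  have hy : Polynomial.aeval y (minpoly F pb.gen) = 0 := by
    have hmin : minpoly F pb.gen = minpoly F u := by
      simp [pb, IntermediateField.adjoin.powerBasis_gen, IntermediateField.minpoly_gen]
    rw [hmin]
    have hzero : minpoly F u = X ^ p - C (⟨u ^ p, hFp u⟩ : F) := by
      have hirr : Irreducible (X ^ p - C (⟨u ^ p, hFp u⟩ : F)) := by
        apply X_pow_sub_C_irreducible_of_prime hp.out
        intro b hb
        have h1 : ((b : L)) ^ p = u ^ p := by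
          have := congrArg (Subtype.val) hb
          simpa using this
        have h2 : (b : L) = u := by
          have hinj := frobenius_inj L p
          exact hinj (by simpa [frobenius_def] using h1)
        exact huF (h2 ▸ b.2)
      symm
      apply minpoly.eq_of_irreducible_of_monic hirr
      · have h : (algebraMap F L) ⟨u ^ p, hFp u⟩ = u ^ p := rfl
        simp [aeval_def, eval₂_eq_eval_map, h]
      · exact monic_X_pow_sub_C _ hp.out.ne_zero
    rw [hzero]
    have hf : (y ^ p).fst = u ^ p := by rw [TrivSqZeroExt.fst_pow]; rfl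
    have hs : (y ^ p).snd = 0 := by
      rw [TrivSqZeroExt.snd_pow]
      simp [y, nsmul_eq_mul]
    simp only [map_sub, map_pow, aeval_X, aeval_C]
    apply TrivSqZeroExt.ext
    · have h : ((algebraMap F (TrivSqZeroExt L L)) ⟨u ^ p, hFp u⟩).fst = u ^ p := by
        rw [TrivSqZeroExt.algebraMap_eq_inl' ]
        rfl
      simp [hf, h]
    · have h : ((algebraMap F (TrivSqZeroExt L L)) ⟨u ^ p, hFp u⟩).snd = 0 := by
        rw [TrivSqZeroExt.algebraMap_eq_inl' ]
        rfl
      simp [hs, h]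
  let φ₀ : F⟮u⟯ →ₐ[F] TrivSqZeroExt L L := pb.lift y hy
  have hφ₀gen : φ₀ pb.gen = y := pb.lift_gen y hy
  have hfst : ∀ x : F⟮u⟯, (φ₀ x).fst = x := by
    -- two algebra homs agreeing on the generator
    let ψ : F⟮u⟯ →ₐ[F] L := (TrivSqZeroExt.fstHom F L L).comp φ₀
    let ι : F⟮u⟯ →ₐ[F] L := (F⟮u⟯).val
    have : ψ = ι := by
      apply pb.algHom_ext
      change (φ₀ pb.gen).fst = ((pb.gen : F⟮u⟯) : L)
      rw [hφ₀gen]
      simp [pb, y, IntermediateField.adjoin.powerBasis_gen]
    intro x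
    have := congrArg (fun f : F⟮u⟯ →ₐ[F] L => f x) this
    exact this
  let φ : L →+* TrivSqZeroExt L L :=
    { toFun := fun x => φ₀ ⟨x, hmem x⟩
      map_one' := by
        have : (⟨1, hmem 1⟩ : F⟮u⟯) = 1 := rfl
        rw [this, map_one]
      map_zero' := by
        have : (⟨0, hmem 0⟩ : F⟮u⟯) = 0 := rfl
        rw [this, map_zero]
      map_mul' := fun a b => by
        have : (⟨a * b, hmem (a * b)⟩ : F⟮u⟯) = ⟨a, hmem a⟩ * ⟨b, hmem b⟩ := rfl
        rw [this, map_mul]
      map_add' := fun a b => by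
        have : (⟨a + b, hmem (a + b)⟩ : F⟮u⟯) = ⟨a, hmem a⟩ + ⟨b, hmem b⟩ := rfl
        rw [this, map_add] }
  have hφfst : ∀ x, (φ x).fst = x := fun x => hfst ⟨x, hmem x⟩
  refine ⟨derivationOfDual φ hφfst, ?_, ?_⟩
  · intro e he
    have he' : e ∈ F := hEF he
    rw [derivationOfDual_apply]
    change (φ₀ ⟨e, hmem e⟩).snd = 0
    have : (⟨e, hmem e⟩ : F⟮u⟯) = algebraMap F F⟮u⟯ ⟨e, he'⟩ := rfl
    rw [this, AlgHom.commutes, TrivSqZeroExt.algebraMap_eq_inl']
    rfl
  · rw [derivationOfDual_apply]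
    change (φ₀ ⟨u, hmem u⟩).snd ≠ 0
    have : (⟨u, hmem u⟩ : F⟮u⟯) = pb.gen := by
      simp [pb, IntermediateField.adjoin.powerBasis_gen, AdjoinSimple.gen]
    rw [this, hφ₀gen]
    simp [y]

end Crest.Agent.Lib.PDerivation
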