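import Mathlib
import Crest.Prelude.Def_MilnorK
import Crest.Agent.Lib.PDerivation
import Crest.Agent.Lib.MilnorCore

/-!
The logarithmic map from `Kˣ/(Kˣ)^p` to Kähler differentials, and its interaction with the Steinberg
subspace.
-/

set_option autoImplicit false
set_option linter.unusedSectionVars false

namespace Crest.Agent.Lib.MilnorLog

open Crest.NumberTheoryR.MilnorK Crest.Agent.Lib.MilnorCore Crest.Agent.Lib.PDerivation
open scoped TensorProduct

section Basic

variable (F : Type*) [Field F] (p : ℕ) [hp : Fact p.Prime] [CharP F p]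

/-- The universal derivation. -/
noncomputable abbrev dF : Derivation ℤ F (Ω[F⁄ℤ]) := KaehlerDifferential.D ℤ F

variable {F}

theorem dF_pow_char (x : F) : dF F (x ^ p) = 0 := by
  rw [Derivation.leibniz_pow]
  have : (p : F) = 0 := CharP.cast_eq_zero F p
  rw [← Nat.cast_smul_eq_nsmul F, this, zero_smul]

variable (F)

/-- The logarithmic derivative, as an additive map on `Additive Fˣ`. -/
noncomputable def dlogHom : Additive Fˣ →+ Ω[F⁄ℤ] where
  toFun u := (((Additive.toMul u : Fˣ) : F)⁻¹) • dF F ((Additive.toMul u : Fˣ) : F)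
  map_zero' := by simp
  map_add' := fun a b => by
    have ha := (Additive.toMul a : Fˣ).ne_zero
    have hb := (Additive.toMul b : Fˣ).ne_zero
    simp only [toMul_add, Units.val_mul, Derivation.leibniz, mul_inv, smul_add, smul_smul]
    rw [add_comm]
    congr 2
    · field_simp
    · field_simp

/-- The logarithmic map on the first Milnor K-group mod `p`. -/
noncomputable def logHom : KOne F p →+ Ω[F⁄ℤ] :=
  QuotientAddGroup.lift (pMultiples F p) (dlogHom F) (by
    rintro _ ⟨u, rfl⟩
    rw [AddMonoidHom.mem_ker, nsmulAddMonoidHom_apply, map_nsmul, ← Nat.cast_smul_eq_nsmul F,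
      CharP.cast_eq_zero F p, zero_smul])

theorem logHom_cls (u : Fˣ) : logHom F p (cls F p u) = ((u : F)⁻¹) • dF F (u : F) := rfl

variable {F}

/-- A derivation giving a linear functional on differentials. -/
theorem exists_functional (E₀ : Subfield F) (hE : ∀ x : F, x ^ p ∈ E₀) (u : F) (hu : u ∉ E₀) :
    ∃ φ : Ω[F⁄ℤ] →ₗ[F] F, (∀ e ∈ E₀, φ (dF F e) = 0) ∧ φ (dF F u) ≠ 0 := by
  obtain ⟨D, hD, hDu⟩ := exists_derivation_of_notMem (p := p) E₀ hE u hu
  refine ⟨D.liftKaehlerDifferential, fun e he => ?_, ?_⟩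
  · rw [Derivation.liftKaehlerDifferential_comp_D]; exact hD e he
  · rw [Derivation.liftKaehlerDifferential_comp_D]; exact hDu

/-- The subfield of `p`-th powers. -/
noncomputable def powField (F : Type*) [Field F] (p : ℕ) [Fact p.Prime] [CharP F p] : Subfield F :=
  (frobenius F p).fieldRange

theorem mem_powField {x : F} : x ∈ powField F p ↔ ∃ y : F, y ^ p = x := by
  simp [powField, RingHom.mem_fieldRange, frobenius_def]

theorem pow_mem_powField (x : F) : x ^ p ∈ powField F p := (mem_powField p).mpr ⟨x, rfl⟩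

/-- The kernel of the universal derivation consists of `p`-th powers. -/
theorem dF_eq_zero_iff (u : F) : dF F u = 0 ↔ ∃ v : F, v ^ p = u := by
  constructor
  · intro h
    by_contra hu
    have hu' : u ∉ powField F p := fun hmem => hu ((mem_powField p).mp hmem)
    obtain ⟨φ, -, hφ⟩ := exists_functional p (powField F p) (pow_mem_powField p) u hu'
    exact hφ (by rw [h, map_zero])
  · rintro ⟨v, rfl⟩
    exact dF_pow_char p v

/-- `logHom` is injective. -/
theorem logHom_injective : Function.Injective (logHom F p) := by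
  rw [injective_iff_map_eq_zero]
  intro q
  induction q using QuotientAddGroup.induction_on with
  | H u =>
    intro h
    have h1 : (((Additive.toMul u : Fˣ) : F)⁻¹) • dF F ((Additive.toMul u : Fˣ) : F) = 0 := h
    have hne : ((Additive.toMul u : Fˣ) : F)⁻¹ ≠ 0 := inv_ne_zero (Additive.toMul u : Fˣ).ne_zero
    have h2 := (smul_eq_zero.mp h1).resolve_left hne
    obtain ⟨v, hv⟩ := (dF_eq_zero_iff p _).mp h2
    have hv0 : v ≠ 0 := by
      rintro rfl
      rw [zero_pow hp.out.ne_zero] at hv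
      exact (Additive.toMul u : Fˣ).ne_zero hv.symm
    rw [QuotientAddGroup.eq_zero_iff]
    refine ⟨Additive.ofMul (Units.mk0 v hv0), ?_⟩
    rw [nsmulAddMonoidHom_apply, ← ofMul_pow]
    apply Additive.toMul.injective
    rw [toMul_ofMul]
    ext
    simpa using hv

/-- Functionals separating an independent pair. -/
theorem exists_functional_of_ind {V : Type*} [AddCommGroup V] [Module F V] {η ζ : V}
    (h : Ind F η ζ) : ∃ φ : V →ₗ[F] F, φ η = 1 ∧ φ ζ = 0 := by
  have hη : η ∉ Submodule.span F {ζ} := by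
    intro hmem
    obtain ⟨c, hc⟩ := Submodule.mem_span_singleton.mp hmem
    have : (1 : F) • η + (-c) • ζ = 0 := by rw [one_smul, neg_smul, hc]; abel
    exact one_ne_zero (h _ _ this).1
  obtain ⟨f, hf, hf'⟩ := Submodule.exists_dual_map_eq_bot_of_notMem hη inferInstance
  refine ⟨(f η)⁻¹ • f, by simp [hf], ?_⟩
  have : f ζ = 0 := by
    have : f ζ ∈ (Submodule.span F {ζ}).map f :=
      ⟨ζ, Submodule.mem_span_singleton_self ζ, rfl⟩
    rw [hf'] at this
    simpa using this
  simp [this]

/-- An elementary tensor in the Steinberg subspace has dependent logarithms. -/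
theorem not_ind_of_mem_steinberg {a b : KOne F p} (h : a ⊗ₜ[ZMod p] b ∈ steinberg F p) :
    ¬ Ind F (logHom F p a) (logHom F p b) := by
  intro hind
  obtain ⟨φ, h1, h2⟩ := exists_functional_of_ind hind
  obtain ⟨χ, h3, h4⟩ := exists_functional_of_ind hind.symm
  let _ : Algebra (ZMod p) F := ZMod.algebra F p
  let φ' : KOne F p →ₗ[ZMod p] F :=
    (φ.toAddMonoidHom.comp (logHom F p)).toZModLinearMap p
  let χ' : KOne F p →ₗ[ZMod p] F :=
    (χ.toAddMonoidHom.comp (logHom F p)).toZModLinearMap p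
  have hφ' : ∀ s, φ' s = φ (logHom F p s) := fun s => rfl
  have hχ' : ∀ s, χ' s = χ (logHom F p s) := fun s => rfl
  let B : KOne F p →ₗ[ZMod p] KOne F p →ₗ[ZMod p] F :=
    LinearMap.mk₂ (ZMod p) (fun s t => φ' s * χ' t - χ' s * φ' t)
      (fun s s' t => by simp only [map_add]; ring)
      (fun c s t => by
        simp only [map_smul, smul_mul_assoc, smul_sub])
      (fun s t t' => by simp only [map_add]; ring)
      (fun c s t => by
        simp only [map_smul, mul_smul_comm, smul_sub])
  have hB : ∀ s t, B s t = φ (logHom F p s) * χ (logHom F p t) - χ (logHom F p s) * φ (logHom F p t) :=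
    fun s t => rfl
  let ℓ : KOne F p ⊗[ZMod p] KOne F p →ₗ[ZMod p] F := TensorProduct.lift B
  have hℓ : ∀ s t, ℓ (s ⊗ₜ t) = B s t := fun s t => TensorProduct.lift.tmul s t
  have hzero : ∀ t ∈ steinberg F p, ℓ t = 0 := by
    intro t ht
    refine Submodule.span_induction ?_ (map_zero ℓ) (fun x y _ _ hx hy => by rw [map_add, hx, hy, add_zero])
      (fun c x _ hx => by rw [map_smul, hx, smul_zero]) ht
    rintro _ ⟨f, hf, hf1, rfl⟩
    change ℓ (_ ⊗ₜ _) = 0
    rw [hℓ, hB, logHom_cls, logHom_cls]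
    simp only [Units.val_mk0, map_smul, smul_eq_mul, Derivation.map_sub, Derivation.map_one_eq_zero,
      zero_sub, map_neg]
    ring
  have := hzero _ h
  rw [hℓ, hB, h1, h2, h3, h4] at this
  simp at this

end Basic

section Theta

variable {K L : Type*} [Field K] [Field L] {p : ℕ} [hp : Fact p.Prime] [CharP K p] [CharP L p]

/-- The function `θ` attached to `Θ`: the logarithm of `Θ [x]`. -/
noncomputable def theta (Θ : KOne K p ≃ₗ[ZMod p] KOne L p) (x : K) : Ω[L⁄ℤ] :=
  open Classical in if h : x ≠ 0 then logHom L p (Θ (cls K p (Units.mk0 x h))) else 0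

theorem theta_of_ne (Θ : KOne K p ≃ₗ[ZMod p] KOne L p) {x : K} (h : x ≠ 0) :
    theta Θ x = logHom L p (Θ (cls K p (Units.mk0 x h))) := by
  simp only [theta, dif_pos h]

theorem theta_of_unit (Θ : KOne K p ≃ₗ[ZMod p] KOne L p) (u : Kˣ) :
    theta Θ (u : K) = logHom L p (Θ (cls K p u)) := by
  rw [theta_of_ne Θ u.ne_zero]
  congr 3
  ext
  simp

theorem cls_mul (F : Type*) [Field F] (p : ℕ) (u v : Fˣ) : cls F p (u * v) = cls F p u + cls F p v :=
  rfl

/-- The class vanishes iff the derivative vanishes. -/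
theorem cls_eq_zero_iff {F : Type*} [Field F] [CharP F p] (u : Fˣ) :
    cls F p u = 0 ↔ dF F (u : F) = 0 := by
  rw [← (logHom_injective (F := F) (p := p)).eq_iff, map_zero, logHom_cls, smul_eq_zero]
  constructor
  · rintro (h | h)
    · exact absurd h (inv_ne_zero u.ne_zero)
    · exact h
  · exact Or.inr

theorem dep_image (Θ : KOne K p ≃ₗ[ZMod p] KOne L p) (hΘ : IsCompatible Θ) (f : K) (hf : f ≠ 0)
    (hf1 : 1 - f ≠ 0) :
    ¬ Ind L (logHom L p (Θ (cls K p (Units.mk0 f hf))))
      (logHom L p (Θ (cls K p (Units.mk0 (1 - f) hf1)))) := by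
  apply not_ind_of_mem_steinberg p
  unfold IsCompatible at hΘ
  rw [← hΘ]
  refine ⟨_, Submodule.subset_span ⟨f, hf, hf1, rfl⟩, ?_⟩
  exact TensorProduct.map_tmul _ _ _ _

/-- The basic properties of `theta`. -/
theorem preLog_theta (Θ : KOne K p ≃ₗ[ZMod p] KOne L p) (hΘ : IsCompatible Θ) :
    PreLog L (dF K) (theta Θ) := by
  refine ⟨?_, ?_, ?_⟩
  · intro x y hx hy
    rw [theta_of_ne Θ hx, theta_of_ne Θ hy, theta_of_ne Θ (mul_ne_zero hx hy)]
    have : Units.mk0 (x * y) (mul_ne_zero hx hy) = Units.mk0 x hx * Units.mk0 y hy := by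
      ext; simp
    rw [this, cls_mul, map_add, map_add]
  · intro x hx
    rw [theta_of_ne Θ hx]
    constructor
    · intro h
      have h1 : Θ (cls K p (Units.mk0 x hx)) = 0 := (logHom_injective (F := L) (p := p)) (by rw [h, map_zero])
      have h2 : cls K p (Units.mk0 x hx) = 0 := by simpa using h1
      exact (cls_eq_zero_iff (Units.mk0 x hx)).mp h2
    · intro h
      have h2 : cls K p (Units.mk0 x hx) = 0 := (cls_eq_zero_iff (Units.mk0 x hx)).mpr h
      rw [h2, map_zero, map_zero]
  · intro x y hx hy hu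
    have hf : x / (x + y) ≠ 0 := div_ne_zero hx hu
    have h1 : 1 - x / (x + y) = y / (x + y) := by field_simp; ring
    have hf1 : 1 - x / (x + y) ≠ 0 := by rw [h1]; exact div_ne_zero hy hu
    have hdep := dep_image Θ hΘ (x / (x + y)) hf hf1
    unfold Ind at hdep
    push Not at hdep
    obtain ⟨c, e, hce, hne⟩ := hdep
    refine ⟨c, e, ?_, ?_⟩
    · by_contra hcon
      push Not at hcon
      exact hne hcon.1 hcon.2
    · have e1 : Units.mk0 (x / (x + y)) hf = Units.mk0 x hx * (Units.mk0 (x + y) hu)⁻¹ := by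
        ext; simp [div_eq_mul_inv]
      have e2 : Units.mk0 (1 - x / (x + y)) hf1 = Units.mk0 y hy * (Units.mk0 (x + y) hu)⁻¹ := by
        ext
        simp only [Units.val_mk0, Units.val_mul, Units.val_inv_eq_inv_val]
        rw [h1, div_eq_mul_inv]
      have inv_cls : ∀ w : Kˣ, cls K p w⁻¹ = - cls K p w := fun w => rfl
      rw [e1, e2, cls_mul, cls_mul, inv_cls, map_add, map_add, map_neg, map_add, map_add, map_neg,
        map_neg, map_neg] at hce
      rw [theta_of_ne Θ hx, theta_of_ne Θ hy, theta_of_ne Θ hu]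
      simpa [sub_eq_add_neg] using hce

/-- `Θ.symm` is compatible as well. -/
theorem isCompatible_symm {Θ : KOne K p ≃ₗ[ZMod p] KOne L p} (hΘ : IsCompatible Θ) :
    IsCompatible Θ.symm := by
  unfold IsCompatible at hΘ ⊢
  rw [← hΘ, ← Submodule.map_comp, ← TensorProduct.map_comp]
  have h1 : (Θ.symm.toLinearMap ∘ₗ Θ.toLinearMap) = LinearMap.id := by
    ext x; simp
  rw [h1, TensorProduct.map_id, Submodule.map_id]

/-- First half: dependence of differentials implies dependence of `θ`. -/
theorem theta_dep_of_dep (Θ : KOne K p ≃ₗ[ZMod p] KOne L p) (hΘ : IsCompatible Θ) {x a : K}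
    (hx : x ≠ 0) (ha : a ≠ 0) (m : K) (h : dF K x = m • dF K a) :
    ∃ m' : L, theta Θ x = m' • theta Θ a := by
  obtain ⟨S, hS⟩ := (preLog_theta Θ hΘ).exists_line_subfield (theta Θ a)
  have hpre := preLog_theta Θ hΘ
  have hpow : ∀ y : K, y ^ p ∈ S := by
    intro y
    rw [hS]
    by_cases hy : y = 0
    · left; rw [hy, zero_pow hp.out.ne_zero]
    · right
      refine ⟨0, ?_⟩
      rw [zero_smul, hpre.zero_iff _ (pow_ne_zero _ hy)]
      exact dF_pow_char p y
  have haS : a ∈ S := by
    rw [hS]; exact Or.inr ⟨1, by rw [one_smul]⟩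
  by_contra hcon
  have hxS : x ∉ S := by
    intro hmem
    rcases (hS x).mp hmem with h0 | h0
    · exact hx h0
    · exact hcon h0
  obtain ⟨φ, hφ, hφx⟩ := exists_functional p S hpow x hxS
  apply hφx
  rw [h, map_smul, hφ a haS, smul_zero]

/-- Second half: the converse. -/
theorem dep_of_theta_dep (Θ : KOne K p ≃ₗ[ZMod p] KOne L p) (hΘ : IsCompatible Θ) {x a : K}
    (hx : x ≠ 0) (ha : a ≠ 0) (m : L) (h : theta Θ x = m • theta Θ a) :
    ∃ m' : K, dF K x = m' • dF K a := by
  -- lifts of the images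
  obtain ⟨x', hx'⟩ := QuotientAddGroup.mk_surjective (Θ (cls K p (Units.mk0 x hx)))
  obtain ⟨a', ha'⟩ := QuotientAddGroup.mk_surjective (Θ (cls K p (Units.mk0 a ha)))
  let X : Lˣ := Additive.toMul x'
  let A : Lˣ := Additive.toMul a'
  have hX : cls L p X = Θ (cls K p (Units.mk0 x hx)) := hx'
  have hA : cls L p A = Θ (cls K p (Units.mk0 a ha)) := ha'
  rw [theta_of_ne Θ hx, theta_of_ne Θ ha, ← hX, ← hA, logHom_cls, logHom_cls] at h
  have hD : dF L (X : L) = ((X : L) * m * (A : L)⁻¹) • dF L (A : L) := by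
    have h1 : dF L (X : L) = (X : L) • (((X : L)⁻¹) • dF L (X : L)) := by
      rw [smul_smul, mul_inv_cancel₀ X.ne_zero, one_smul]
    rw [h1, h, smul_smul, smul_smul]
  obtain ⟨m', hm'⟩ := theta_dep_of_dep Θ.symm (isCompatible_symm hΘ) X.ne_zero A.ne_zero _ hD
  rw [theta_of_unit Θ.symm X, theta_of_unit Θ.symm A, hX, hA, LinearEquiv.symm_apply_apply,
    LinearEquiv.symm_apply_apply, logHom_cls, logHom_cls] at hm'
  simp only [Units.val_mk0] at hm'
  refine ⟨x * m' * a⁻¹, ?_⟩
  have h1 : dF K x = x • (x⁻¹ • dF K x) := by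
    rw [smul_smul, mul_inv_cancel₀ hx, one_smul]
  rw [h1, hm', smul_smul, smul_smul]

/-- `theta` is a logarithmic function. -/
theorem logFn_theta (Θ : KOne K p ≃ₗ[ZMod p] KOne L p) (hΘ : IsCompatible Θ) :
    LogFn L (dF K) (theta Θ) := by
  refine { toPreLog := preLog_theta Θ hΘ, ind := ?_ }
  intro a b ha hb hab c e hce
  by_cases he : e = 0
  · subst he
    refine ⟨?_, rfl⟩
    rw [zero_smul, add_zero] at hce
    have hne : theta Θ a ≠ 0 := fun h0 =>
      hab.ne_left (((preLog_theta Θ hΘ).zero_iff a ha).mp h0)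
    exact (smul_eq_zero.mp hce).resolve_right hne
  · exfalso
    have h1 : theta Θ b = (-(e⁻¹ * c)) • theta Θ a := by
      have h2 : theta Θ b = e⁻¹ • (e • theta Θ b) := by
        rw [smul_smul, inv_mul_cancel₀ he, one_smul]
      rw [h2, eq_neg_of_add_eq_zero_right hce, smul_neg, neg_smul, smul_smul]
    obtain ⟨m', hm'⟩ := dep_of_theta_dep Θ hΘ hb ha _ h1
    have : m' • dF K a + (-1 : K) • dF K b = 0 := by
      rw [hm']; simp
    exact one_ne_zero (neg_eq_zero.mp (hab _ _ this).2)

end Theta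

end Crest.Agent.Lib.MilnorLog
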