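import Mathlib
import Crest.Agent.Lib.MilnorLog

/-!
Finitely generated extensions of an algebraically closed field.
-/

set_option autoImplicit false
set_option linter.unusedSectionVars false

namespace Crest.Agent.Lib.MilnorFG

open Crest.Agent.Lib.MilnorCore Crest.Agent.Lib.MilnorLog
open scoped IntermediateField.algebraAdjoinAdjoin TensorProduct

section Deriv

variable {K : Type*} [Field K] (k : Subfield K)

theorem essFiniteType_of (hK : ∃ s : Finset K, Subfield.closure ((k : Set K) ∪ (s : Set K)) = ⊤) :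
    Algebra.EssFiniteType k K := by
  obtain ⟨s, hs⟩ := hK
  rw [← IntermediateField.fg_top_iff]
  refine ⟨s, ?_⟩
  rw [← IntermediateField.toSubfield_inj]
  rw [IntermediateField.adjoin_toSubfield]
  have h : Set.range (algebraMap k K) = k := Subtype.range_coe
  rw [h]
  simpa using hs

open Classical in
/-- A separating transcendence basis gives dual functionals. -/
theorem exists_dual (s : Finset K) (hs : IsTranscendenceBasis k ((↑) : s → K))
    (hsep : Algebra.IsSeparable (IntermediateField.adjoin k (s : Set K)) K) (i : s) :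
    ∃ φ : Ω[K⁄k] →ₗ[K] K, ∀ j : s,
      φ (KaehlerDifferential.D k K (j : K)) = if j = i then 1 else 0 := by
  have hr : Set.range ((↑) : s → K) = (s : Set K) := by simp
  rw [← hr] at hsep
  let S := Algebra.adjoin k (Set.range ((↑) : s → K))
  let F := IntermediateField.adjoin k (Set.range ((↑) : s → K))
  have : IsFractionRing S F := inferInstance
  have h1 : Algebra.FormallyEtale S F :=
    Algebra.FormallyEtale.of_isLocalization (nonZeroDivisors S)
  have h2 : Algebra.FormallyEtale F K := Algebra.FormallyEtale.of_isSeparable F K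
  have h3 : Algebra.FormallyEtale S K := Algebra.FormallyEtale.comp S F K
  let e : MvPolynomial s k ≃ₐ[k] S := hs.1.aevalEquiv
  let D₀ : Derivation k (MvPolynomial s k) (MvPolynomial s k) := MvPolynomial.pderiv i
  let f : S →ₗ[k] K := S.val.toLinearMap ∘ₗ e.toLinearMap ∘ₗ D₀.toLinearMap ∘ₗ e.symm.toLinearMap
  have hf : ∀ x : S, f x = ((e (D₀ (e.symm x)) : S) : K) := fun x => rfl
  let D : Derivation k S K := Derivation.mk' f (by
    intro a b
    rw [hf, hf, hf, map_mul, Derivation.leibniz, map_add, smul_eq_mul, smul_eq_mul, map_mul,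
      map_mul, AlgEquiv.apply_symm_apply, AlgEquiv.apply_symm_apply]
    rfl)
  let φ₀ : Ω[S⁄k] →ₗ[S] K := D.liftKaehlerDifferential
  let φ₁ : K ⊗[S] Ω[S⁄k] →ₗ[K] K := LinearMap.liftBaseChange K φ₀
  refine ⟨φ₁ ∘ₗ (KaehlerDifferential.tensorKaehlerEquivOfFormallyEtale k S K).symm.toLinearMap,
    fun j => ?_⟩
  have hj : (j : K) ∈ S := Algebra.subset_adjoin ⟨j, rfl⟩
  have hmap : (j : K) = algebraMap S K ⟨j, hj⟩ := rfl
  rw [LinearMap.comp_apply]
  simp only [LinearEquiv.coe_coe]
  rw [hmap, KaehlerDifferential.tensorKaehlerEquivOfFormallyEtale_symm_D_algebraMap]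
  rw [LinearMap.liftBaseChange_tmul, one_smul]
  change D.liftKaehlerDifferential (KaehlerDifferential.D k S _) = _
  rw [Derivation.liftKaehlerDifferential_comp_D]
  change f _ = _
  rw [hf]
  have he : e.symm ⟨j, hj⟩ = MvPolynomial.X j := by
    rw [AlgEquiv.symm_apply_eq]
    apply Subtype.ext
    change _ = MvPolynomial.aeval ((↑) : s → K) (MvPolynomial.X j)
    simp
  rw [he]
  simp only [D₀, MvPolynomial.pderiv_X]
  by_cases hji : j = i
  · subst hji
    simp
  · simp [hji]

/-- Independent differentials from a transcendence degree at least two. -/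
theorem exists_ind (hK : ∃ s : Finset K, Subfield.closure ((k : Set K) ∪ (s : Set K)) = ⊤)
    [IsAlgClosed k] (hK2 : 2 ≤ Algebra.trdeg k K) :
    ∃ a b : K, Ind K (dF K a) (dF K b) := by
  have hess := essFiniteType_of k hK
  have hperf : PerfectField k := inferInstance
  obtain ⟨s, hs, hsep⟩ := exists_isTranscendenceBasis_and_isSeparable_of_perfectField k K
  have hcard : 2 ≤ s.card := by
    have h1 := hs.cardinalMk_eq_trdeg
    rw [← h1] at hK2
    simpa using hK2
  obtain ⟨a, ha, b, hb, hab⟩ := Finset.one_lt_card.mp hcard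
  obtain ⟨φ, hφ⟩ := exists_dual k s hs hsep ⟨a, ha⟩
  obtain ⟨χ, hχ⟩ := exists_dual k s hs hsep ⟨b, hb⟩
  let m : Ω[K⁄ℤ] →ₗ[K] Ω[K⁄k] := KaehlerDifferential.map ℤ k K K
  have hm : ∀ x : K, m (dF K x) = KaehlerDifferential.D k K x := fun x => by
    change KaehlerDifferential.map ℤ k K K (KaehlerDifferential.D ℤ K x) = _
    rw [KaehlerDifferential.map_D]
    rfl
  refine ⟨a, b, fun c e hce => ?_⟩
  have hne : (⟨a, ha⟩ : s) ≠ ⟨b, hb⟩ := fun h => hab (congrArg Subtype.val h)
  have h1 := congrArg (φ ∘ₗ m) hce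
  have h2 := congrArg (χ ∘ₗ m) hce
  simp only [LinearMap.comp_apply, map_add, map_smul, hm, map_zero] at h1 h2
  have h3 := hφ ⟨a, ha⟩
  have h4 := hφ ⟨b, hb⟩
  have h5 := hχ ⟨a, ha⟩
  have h6 := hχ ⟨b, hb⟩
  simp only [if_true, if_neg hne, if_neg hne.symm] at h3 h4 h5 h6
  rw [h3, h4] at h1
  rw [h5, h6] at h2
  simp only [smul_eq_mul, mul_one, mul_zero, add_zero, zero_add] at h1 h2
  exact ⟨h1, h2⟩

/-- In a field finitely generated over an algebraically closed field, an element that is a
`p ^ n`-th power for all `n` lies in the base field. -/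
theorem mem_of_forall_pow (p : ℕ) [hp : Fact p.Prime] [CharP K p]
    (hK : ∃ s : Finset K, Subfield.closure ((k : Set K) ∪ (s : Set K)) = ⊤) [IsAlgClosed k]
    {x : K} (hx : ∀ n : ℕ, ∃ y : K, y ^ p ^ n = x) : x ∈ k := by
  by_contra hxk
  -- `x` is transcendental
  have htr : Transcendental k x := by
    intro halg
    have hint : IsIntegral k x := halg.isIntegral
    have h1 := minpoly.irreducible hint
    have h2 := IsAlgClosed.degree_eq_one_of_irreducible k h1
    obtain ⟨c, hc⟩ := minpoly.mem_range_of_degree_eq_one k x h2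
    apply hxk
    rw [← hc]
    exact c.2
  have hx0 : x ≠ 0 := fun h => hxk (h ▸ zero_mem k)
  have hind : AlgebraicIndepOn k id ({x} : Set K) :=
    (algebraicIndependent_unique_type_iff).mpr htr
  obtain ⟨T, hxT, hT⟩ := exists_isTranscendenceBasis_superset hind
  have hxT' : x ∈ T := hxT rfl
  have hpk : CharP k p := (algebraMap k K).charP (algebraMap k K).injective p
  -- the rational function field
  let F := IntermediateField.adjoin k (Set.range ((↑) : T → K))
  have halg : Algebra.IsAlgebraic F K := hT.isAlgebraic_field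
  have hpF : CharP F p := (algebraMap F K).charP (algebraMap F K).injective p
  have hexp : ExpChar F p := ExpChar.prime hp.out
  -- finite-dimensionality
  obtain ⟨s, hs⟩ := hK
  have hfin : FiniteDimensional F K := by
    have htop : IntermediateField.adjoin F (s : Set K) = ⊤ := by
      rw [eq_top_iff]
      intro z _
      have h0 : (⊤ : Subfield K) ≤ (IntermediateField.adjoin F (s : Set K)).toSubfield := by
        rw [← hs, Subfield.closure_le]
        rintro z (hz | hz)
        · exact (IntermediateField.adjoin F (s : Set K)).algebraMap_mem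
            ⟨z, IntermediateField.algebraMap_mem F ⟨z, hz⟩⟩
        · exact IntermediateField.subset_adjoin F _ hz
      exact h0 (Subfield.mem_top z)
    have h1 : FiniteDimensional F (IntermediateField.adjoin F (s : Set K)) :=
      IntermediateField.finiteDimensional_adjoin (fun z _ => Algebra.IsIntegral.isIntegral z)
    rw [htop] at h1
    exact (IntermediateField.topEquiv (F := F) (E := K)).toLinearEquiv.finiteDimensional
  let d := Module.finrank F K
  obtain ⟨y, hy⟩ := hx d
  have hxF : x ∈ F := IntermediateField.subset_adjoin k _ ⟨⟨x, hxT'⟩, rfl⟩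
  have hmem : ∃ n : ℕ, y ^ p ^ n ∈ (algebraMap F K).range := ⟨d, by
    rw [hy]
    exact ⟨⟨x, hxF⟩, rfl⟩⟩
  have hsep1 := (minpoly.natSepDegree_eq_one_iff_pow_mem p).mpr hmem
  obtain ⟨j, c, hmin⟩ := (minpoly.natSepDegree_eq_one_iff_eq_X_pow_sub_C p).mp hsep1
  have hdeg : p ^ j ≤ d := by
    have h1 : (minpoly F y).natDegree ≤ d := minpoly.natDegree_le y
    rw [hmin, Polynomial.natDegree_X_pow_sub_C] at h1
    exact h1
  have hjd : j < d := by
    have h1 : d < p ^ d := Nat.lt_pow_self hp.out.one_lt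
    exact (Nat.pow_lt_pow_iff_right hp.out.one_lt).mp (hdeg.trans_lt h1)
  have hyc : y ^ p ^ j = algebraMap F K c := by
    have h1 := minpoly.aeval F y
    rw [hmin] at h1
    simpa [sub_eq_zero] using h1
  -- `x` is a `p`-th power in `F`
  obtain ⟨w, hw⟩ : ∃ w : F, x = (algebraMap F K w) ^ p := by
    refine ⟨c ^ p ^ (d - j - 1), ?_⟩
    rw [map_pow, ← hyc, ← hy, ← pow_mul, ← pow_mul, ← pow_succ, ← pow_add]
    congr 2
    omega
  obtain ⟨r, hr, t, ht, hwrt⟩ := IntermediateField.mem_adjoin_iff_div.mp w.2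
  rw [Algebra.adjoin_range_eq_range_aeval] at hr ht
  obtain ⟨f₀, rfl⟩ := hr
  obtain ⟨g₀, rfl⟩ := ht
  have hw' : (algebraMap F K w) = (w : K) := rfl
  rw [hw'] at hw
  have hwrt' : (w : K) = (MvPolynomial.aeval ((↑) : T → K)) f₀ /
      (MvPolynomial.aeval ((↑) : T → K)) g₀ := hwrt
  let X₀ : T := ⟨x, hxT'⟩
  let A := MvPolynomial T k
  have hg₀ : (MvPolynomial.aeval ((↑) : T → K)) g₀ ≠ 0 := by
    intro h
    apply hx0
    rw [hw, hwrt', h, div_zero, zero_pow hp.out.ne_zero]
  have hrel : x * ((MvPolynomial.aeval ((↑) : T → K)) g₀) ^ p =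
      ((MvPolynomial.aeval ((↑) : T → K)) f₀) ^ p := by
    rw [hw, hwrt', div_pow, div_mul_cancel₀ _ (pow_ne_zero _ hg₀)]
  have hpoly : MvPolynomial.X X₀ * g₀ ^ p = f₀ ^ p := by
    apply hT.1
    simpa [X₀] using hrel
  have hp0 : ((p : ℕ) : A) = 0 := CharP.cast_eq_zero A p
  have h1 := congrArg (MvPolynomial.pderiv X₀) hpoly
  rw [Derivation.leibniz, Derivation.leibniz_pow, Derivation.leibniz_pow] at h1
  simp only [MvPolynomial.pderiv_X_self, ← Nat.cast_smul_eq_nsmul A, hp0, zero_smul, smul_zero,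
    zero_add, smul_eq_mul, mul_one, zero_mul, mul_zero] at h1
  have h2 : g₀ = 0 := pow_eq_zero_iff hp.out.ne_zero |>.mp h1
  apply hg₀
  rw [h2, map_zero]

end Deriv

end Crest.Agent.Lib.MilnorFG
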