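import Mathlib
import Crest.Prelude.Def_MilnorK
import Crest.Agent.Lib.MilnorLog

/-!
From a compatible `Θ` to a field isomorphism.
-/

set_option autoImplicit false
set_option linter.unusedSectionVars false

namespace Crest.Agent.Lib.MilnorIso

open Crest.NumberTheoryR.MilnorK Crest.Agent.Lib.MilnorCore Crest.Agent.Lib.PDerivation
  Crest.Agent.Lib.MilnorLog
open scoped TensorProduct

/-- A semilinear map on differentials from a twisted derivation. -/
theorem exists_semilinear {K L Ω : Type*} [Field K] [Field L] [AddCommGroup Ω] [Module L Ω]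
    (α : K →+* L) (ψ : K → Ω) (hadd : ∀ x y, ψ (x + y) = ψ x + ψ y)
    (hleib : ∀ x y, ψ (x * y) = α x • ψ y + α y • ψ x) :
    ∃ Λ : Ω[K⁄ℤ] →+ Ω, (∀ x, Λ (dF K x) = ψ x) ∧ ∀ (f : K) (η : Ω[K⁄ℤ]), Λ (f • η) = α f • Λ η := by
  letI : Module K Ω := Module.compHom Ω α
  have h0 : ψ 0 = 0 := by
    have := hadd 0 0
    simpa using this
  let D : Derivation ℤ K Ω :=
    Derivation.mk' (AddMonoidHom.toIntLinearMap ⟨⟨ψ, h0⟩, hadd⟩) (fun a b => hleib a b)
  refine ⟨D.liftKaehlerDifferential.toAddMonoidHom, fun x => ?_, fun f η => ?_⟩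
  · change D.liftKaehlerDifferential (dF K x) = ψ x
    rw [Derivation.liftKaehlerDifferential_comp_D]
    rfl
  · change D.liftKaehlerDifferential (f • η) = _
    rw [map_smul]
    rfl

section Main

variable {K L : Type*} [Field K] [Field L] {p : ℕ} [hp : Fact p.Prime] [CharP K p] [CharP L p]

/-- The specification of the isomorphism. -/
def Spec (Θ : KOne K p ≃ₗ[ZMod p] KOne L p) (α : K →+* L) : Prop :=
  ∀ r, dF K r ≠ 0 → α r • theta Θ r + (1 - α r) • theta Θ (1 - r) = 0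

theorem spec_unique (Θ : KOne K p ≃ₗ[ZMod p] KOne L p) (hΘ : IsCompatible Θ)
    {α β : K →+* L} (hα : Spec Θ α) (hβ : Spec Θ β) {a₀ : K} (ha₀ : dF K a₀ ≠ 0) : α = β := by
  -- additionally need only a logarithmic function's uniqueness: use the pre-log structure directly
  have hpre := preLog_theta Θ hΘ
  have key : ∀ r, dF K r ≠ 0 → α r = β r := by
    intro r hr
    have hr0 : r ≠ 0 := ne_zero_of_d_ne hr
    have hr1 : 1 - r ≠ 0 := by
      intro h1
      have : r = 1 := by linear_combination -h1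
      subst this
      simp at hr
    have hne : theta Θ r ≠ theta Θ (1 - r) := by
      intro heq
      have h0 : theta Θ (r / (1 - r)) = 0 := by rw [hpre.theta_div hr0 hr1, heq, sub_self]
      rw [hpre.zero_iff _ (div_ne_zero hr0 hr1), Derivation.leibniz_div] at h0
      have h2 : (1 - r) • dF K r - r • dF K (1 - r) = dF K r := by
        rw [Derivation.map_sub, Derivation.map_one_eq_zero, zero_sub, smul_neg, sub_neg_eq_add,
          ← add_smul]
        simp
      rw [h2] at h0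
      have h3 : ((1 - r)⁻¹ ^ 2 : K) ≠ 0 := pow_ne_zero _ (inv_ne_zero hr1)
      exact hr ((smul_eq_zero.mp h0).resolve_left h3)
    have h1 := hα r hr
    have h2 := hβ r hr
    have : (α r - β r) • (theta Θ r - theta Θ (1 - r)) = 0 := by
      have h3 := sub_eq_zero.mpr (h1.trans h2.symm)
      rw [← h3]
      module
    exact sub_eq_zero.mp ((smul_eq_zero.mp this).resolve_right (sub_ne_zero.mpr hne))
  ext x
  by_cases hx : dF K x = 0
  · have h1 : dF K (x + a₀) ≠ 0 := by rwa [Derivation.map_add, hx, zero_add]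
    have h2 := key _ h1
    rw [map_add, map_add, key a₀ ha₀] at h2
    exact add_right_cancel h2
  · exact key x hx

/-- The function `x ↦ α x • θ x` gives a semilinear map. -/
theorem exists_Lambda (Θ : KOne K p ≃ₗ[ZMod p] KOne L p) (hΘ : IsCompatible Θ) {α : K →+* L}
    (hα : Spec Θ α) :
    ∃ Λ : Ω[K⁄ℤ] →+ Ω[L⁄ℤ], (∀ x, Λ (dF K x) = α x • theta Θ x) ∧
      ∀ (f : K) (η : Ω[K⁄ℤ]), Λ (f • η) = α f • Λ η := by
  have hlog := logFn_theta Θ hΘ
  apply exists_semilinear α (fun x => α x • theta Θ x)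
  · exact hlog.psi_add α hα
  · intro x y
    by_cases hx : x = 0
    · simp [hx]
    by_cases hy : y = 0
    · simp [hy]
    show α (x * y) • theta Θ (x * y) = α x • (α y • theta Θ y) + α y • (α x • theta Θ x)
    rw [hlog.mul x y hx hy, map_mul, smul_add, smul_smul, smul_smul]
    rw [add_comm, mul_comm (α y) (α x)]

/-- The logarithm of `x` under `Λ`. -/
theorem Lambda_dlog {Θ : KOne K p ≃ₗ[ZMod p] KOne L p} {α : K →+* L}
    {Λ : Ω[K⁄ℤ] →+ Ω[L⁄ℤ]} (h1 : ∀ x, Λ (dF K x) = α x • theta Θ x)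
    (h2 : ∀ (f : K) (η : Ω[K⁄ℤ]), Λ (f • η) = α f • Λ η) {x : K} (hx : x ≠ 0) :
    Λ (x⁻¹ • dF K x) = theta Θ x := by
  rw [h2, h1, smul_smul, ← map_mul, inv_mul_cancel₀ hx, map_one, one_smul]

/-- Composition of the two ring homomorphisms is the identity. -/
theorem comp_eq_id (Θ : KOne K p ≃ₗ[ZMod p] KOne L p) (hΘ : IsCompatible Θ)
    {α : K →+* L} (hα : Spec Θ α) {β : L →+* K} (hβ : Spec Θ.symm β)
    {a₀ : K} (ha₀ : dF K a₀ ≠ 0) (z : K) : β (α z) = z := by
  obtain ⟨Λ, h1, h2⟩ := exists_Lambda Θ hΘ hα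
  obtain ⟨Λ', h1', h2'⟩ := exists_Lambda Θ.symm (isCompatible_symm hΘ) hβ
  -- the composite fixes logarithmic forms
  have hfix : ∀ x : K, x ≠ 0 → Λ' (Λ (x⁻¹ • dF K x)) = x⁻¹ • dF K x := by
    intro x hx
    rw [Lambda_dlog h1 h2 hx, theta_of_ne Θ hx]
    obtain ⟨y, hy⟩ := QuotientAddGroup.mk_surjective (Θ (cls K p (Units.mk0 x hx)))
    let Y : Lˣ := Additive.toMul y
    have hY : cls L p Y = Θ (cls K p (Units.mk0 x hx)) := hy
    rw [← hY, logHom_cls, Lambda_dlog h1' h2' Y.ne_zero, theta_of_unit Θ.symm Y, hY,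
      LinearEquiv.symm_apply_apply, logHom_cls]
    simp
  have hsemi : ∀ (f : K) (η : Ω[K⁄ℤ]), Λ' (Λ (f • η)) = β (α f) • Λ' (Λ η) := by
    intro f η
    rw [h2, h2']
  have key : ∀ z, dF K z ≠ 0 → β (α z) = z := by
    intro z hz
    have hz0 : z ≠ 0 := ne_zero_of_d_ne hz
    have hz1 : z - 1 ≠ 0 := by
      intro h0
      have : z = 1 := by linear_combination h0
      subst this
      simp at hz
    have hv : (z - 1) / z ≠ 0 := div_ne_zero hz1 hz0
    have hdv : dF K ((z - 1) / z) = (z⁻¹ ^ 2) • dF K z := by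
      rw [Derivation.leibniz_div, Derivation.map_sub, Derivation.map_one_eq_zero, sub_zero]
      congr 1
      rw [← sub_smul]
      simp
    have hdz : dF K (z - 1) = dF K z := by
      rw [Derivation.map_sub, Derivation.map_one_eq_zero, sub_zero]
    have hrel : (z - 1)⁻¹ • dF K (z - 1) = z • (((z - 1) / z)⁻¹ • dF K ((z - 1) / z)) := by
      rw [hdz, hdv, smul_smul, smul_smul]
      congr 1
      field_simp
    have e1 := hfix (z - 1) hz1
    have e2 := hfix _ hv
    rw [hrel, hsemi, e2] at e1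
    have e3 : (β (α z) - z) • (((z - 1) / z)⁻¹ • dF K ((z - 1) / z)) = 0 := by
      rw [sub_smul, e1, sub_self]
    have hne : ((z - 1) / z)⁻¹ • dF K ((z - 1) / z) ≠ 0 := by
      rw [hdv, smul_smul]
      apply smul_ne_zero _ hz
      exact mul_ne_zero (inv_ne_zero hv) (pow_ne_zero _ (inv_ne_zero hz0))
    exact sub_eq_zero.mp ((smul_eq_zero.mp e3).resolve_right hne)
  by_cases hz : dF K z = 0
  · have h3 : dF K (z + a₀) ≠ 0 := by rwa [Derivation.map_add, hz, zero_add]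
    have h4 := key _ h3
    rw [map_add, map_add, key a₀ ha₀] at h4
    exact add_right_cancel h4
  · exact key z hz

/-- The image of an independent pair is an independent pair. -/
theorem exists_ind_image (Θ : KOne K p ≃ₗ[ZMod p] KOne L p) (hΘ : IsCompatible Θ) {a₀ b₀ : K}
    (h₀ : Ind K (dF K a₀) (dF K b₀)) :
    ∃ Y W : L, Ind L (dF L Y) (dF L W) := by
  have hlog := logFn_theta Θ hΘ
  have ha₀ : a₀ ≠ 0 := ne_zero_of_d_ne h₀.ne_left
  have hb₀ : b₀ ≠ 0 := ne_zero_of_d_ne h₀.ne_right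
  have hind := hlog.ind a₀ b₀ ha₀ hb₀ h₀
  obtain ⟨y, hy⟩ := QuotientAddGroup.mk_surjective (Θ (cls K p (Units.mk0 a₀ ha₀)))
  obtain ⟨w, hw⟩ := QuotientAddGroup.mk_surjective (Θ (cls K p (Units.mk0 b₀ hb₀)))
  let Y : Lˣ := Additive.toMul y
  let W : Lˣ := Additive.toMul w
  have hY : cls L p Y = Θ (cls K p (Units.mk0 a₀ ha₀)) := hy
  have hW : cls L p W = Θ (cls K p (Units.mk0 b₀ hb₀)) := hw
  rw [theta_of_ne Θ ha₀, theta_of_ne Θ hb₀, ← hY, ← hW, logHom_cls, logHom_cls] at hind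
  refine ⟨Y, W, ?_⟩
  refine hind.of_det' (Y : L) 0 0 (W : L) ?_ ?_ ?_
  · rw [smul_smul, mul_inv_cancel₀ Y.ne_zero, one_smul, zero_smul, add_zero]
  · rw [zero_smul, zero_add, smul_smul, mul_inv_cancel₀ W.ne_zero, one_smul]
  · simp [Y.ne_zero, W.ne_zero]

/-- Existence of the field isomorphism specified by `Θ`. -/
theorem exists_ringEquiv (Θ : KOne K p ≃ₗ[ZMod p] KOne L p) (hΘ : IsCompatible Θ) {a₀ b₀ : K}
    (h₀ : Ind K (dF K a₀) (dF K b₀)) :
    ∃ α : K ≃+* L, Spec Θ (α : K →+* L) := by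
  have hlog := logFn_theta Θ hΘ
  have hlog' := logFn_theta Θ.symm (isCompatible_symm hΘ)
  obtain ⟨Y, W, hLind⟩ := exists_ind_image Θ hΘ h₀
  obtain ⟨α, hα⟩ := hlog.exists_ringHom h₀
  obtain ⟨β, hβ⟩ := hlog'.exists_ringHom hLind
  have h1 : ∀ z, β (α z) = z := comp_eq_id Θ hΘ hα hβ h₀.ne_left
  have hα' : Spec Θ.symm.symm α := hα
  have h2 : ∀ z, α (β z) = z := comp_eq_id Θ.symm (isCompatible_symm hΘ) hβ hα' hLind.ne_left
  let e : K ≃+* L := RingEquiv.ofRingHom α β (by ext z; exact h2 z) (by ext z; exact h1 z)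
  refine ⟨e, ?_⟩
  exact hα

end Main

end Crest.Agent.Lib.MilnorIso
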