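import Mathlib
import Crest.Agent.Lib.MilnorLog

/-!
A linear endomorphism of `Ω[L⁄ℤ]` preserving logarithmic forms is a scalar.
-/

set_option autoImplicit false
set_option linter.unusedSectionVars false

namespace Crest.Agent.Lib.MilnorScalar

open Crest.Agent.Lib.MilnorCore Crest.Agent.Lib.MilnorLog
open Finset

section Iterate

variable {L : Type*} [Field L]

/-- The iterated Leibniz rule. -/
theorem iterate_leibniz (D : Derivation ℤ L L) (n : ℕ) (a b : L) :
    D^[n] (a * b) = ∑ ij ∈ antidiagonal n, n.choose ij.1 • (D^[ij.1] a * D^[ij.2] b) := by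
  induction n with
  | zero => simp
  | succ n ih =>
    rw [sum_antidiagonal_choose_succ_nsmul (M := L) (fun i j => D^[i] a * D^[j] b) n]
    simp only [Function.iterate_succ_apply', ih, map_sum, map_nsmul, Derivation.leibniz, smul_add,
      sum_add_distrib, smul_eq_mul]
    congr 1
    refine sum_congr rfl fun ⟨i, j⟩ hij ↦ ?_
    simp only
    rw [n.choose_symm_of_eq_add (mem_antidiagonal.1 hij).symm, mul_comm]

variable (p : ℕ) [hp : Fact p.Prime] [CharP L p]

/-- In characteristic `p`, the `p`-th iterate of a derivation satisfies the Leibniz rule. -/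
theorem iterate_char_leibniz (D : Derivation ℤ L L) (a b : L) :
    D^[p] (a * b) = a * D^[p] b + b * D^[p] a := by
  have hp0 : p ≠ 0 := hp.out.ne_zero
  rw [iterate_leibniz]
  have h1 : ((0, p) : ℕ × ℕ) ∈ antidiagonal p := by simp
  have h2 : ((p, 0) : ℕ × ℕ) ∈ antidiagonal p := by simp
  have h3 : ((0, p) : ℕ × ℕ) ≠ (p, 0) := by
    intro h
    exact hp0 (congrArg Prod.snd h)
  rw [sum_eq_add_of_mem _ _ h1 h2 h3]
  · simp [mul_comm]
  · rintro ⟨i, j⟩ hij ⟨hne1, hne2⟩
    have hij' : i + j = p := mem_antidiagonal.mp hij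
    have hi0 : i ≠ 0 := by
      rintro rfl
      apply hne1
      simp at hij'
      simp [hij']
    have hj0 : j ≠ 0 := by
      rintro rfl
      apply hne2
      simp at hij'
      simp [hij']
    have hilt : i < p := by omega
    have hdvd : p ∣ p.choose i := hp.out.dvd_choose_self hi0 hilt
    obtain ⟨q, hq⟩ := hdvd
    simp only
    rw [hq, ← Nat.cast_smul_eq_nsmul L, Nat.cast_mul, CharP.cast_eq_zero L p, zero_mul, zero_smul]

end Iterate

section Field

variable {L : Type*} [Field L] (p : ℕ) [hp : Fact p.Prime] [CharP L p]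

/-- The logarithmic derivative of an element. -/
noncomputable abbrev dl (y : L) : Ω[L⁄ℤ] := y⁻¹ • dF L y

theorem dF_eq_smul_dl {y : L} (hy : y ≠ 0) : dF L y = y • dl y := by
  rw [dl, smul_smul, mul_inv_cancel₀ hy, one_smul]

theorem dl_mul {x y : L} (hx : x ≠ 0) (hy : y ≠ 0) : dl (x * y) = dl x + dl y := by
  simp only [dl, Derivation.leibniz, mul_inv, smul_add, smul_smul]
  rw [add_comm]
  congr 2
  · field_simp
  · field_simp

/-- The subfield generated by `x` over the `p`-th powers. -/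
noncomputable def genField (x : L) : Subfield L :=
  Subfield.closure ((powField L p : Set L) ∪ {x})

theorem self_mem_genField (x : L) : x ∈ genField p x :=
  Subfield.subset_closure (Or.inr rfl)

theorem powField_mem_genField (x : L) {e : L} (he : e ∈ powField L p) : e ∈ genField p x :=
  Subfield.subset_closure (Or.inl he)

theorem pow_mem_genField (x y : L) : y ^ p ∈ genField p x :=
  powField_mem_genField p x (pow_mem_powField p y)

/-- Elements of `E(x)` have differential on the line through `dx`. -/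
theorem d_mem_line {x s : L} (hs : s ∈ genField p x) : ∃ n : L, dF L s = n • dF L x := by
  unfold genField at hs
  induction hs using Subfield.closure_induction with
  | mem s hs =>
    rcases hs with hs | hs
    · obtain ⟨v, rfl⟩ := (mem_powField p).mp hs
      exact ⟨0, by rw [dF_pow_char, zero_smul]⟩
    · rw [Set.mem_singleton_iff.mp hs]
      exact ⟨1, by rw [one_smul]⟩
  | one => exact ⟨0, by simp⟩
  | add a b _ _ ha hb =>
    obtain ⟨n, hn⟩ := ha
    obtain ⟨n', hn'⟩ := hb
    exact ⟨n + n', by rw [Derivation.map_add, hn, hn', add_smul]⟩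
  | neg a _ ha =>
    obtain ⟨n, hn⟩ := ha
    exact ⟨-n, by rw [Derivation.map_neg, hn, neg_smul]⟩
  | inv a _ ha =>
    obtain ⟨n, hn⟩ := ha
    refine ⟨-(a⁻¹ ^ 2 * n), ?_⟩
    rw [Derivation.leibniz_inv, hn, neg_smul, neg_smul, smul_smul]
  | mul a b _ _ ha hb =>
    obtain ⟨n, hn⟩ := ha
    obtain ⟨n', hn'⟩ := hb
    refine ⟨a * n' + b * n, ?_⟩
    rw [Derivation.leibniz, hn, hn', add_smul, smul_smul, smul_smul]

/-- Conversely, an element whose differential is on the line through `dx` lies in `E(x)`. -/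
theorem mem_genField_of_dep {x z n : L} (h : dF L z = n • dF L x) : z ∈ genField p x := by
  by_contra hz
  obtain ⟨φ, h1, h2⟩ := exists_functional p (genField p x) (fun y => pow_mem_genField p x y) z hz
  apply h2
  rw [h, map_smul, h1 x (self_mem_genField p x), smul_zero]

/-- A functional with `φ (dx) ∈ E(x)` preserves `E(x)`. -/
theorem functional_preserves {x : L} (φ : Ω[L⁄ℤ] →ₗ[L] L) (hφ : φ (dF L x) ∈ genField p x) {s : L}
    (hs : s ∈ genField p x) : φ (dF L s) ∈ genField p x := by
  unfold genField at hs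
  induction hs using Subfield.closure_induction with
  | mem s hs =>
    rcases hs with hs | hs
    · obtain ⟨v, rfl⟩ := (mem_powField p).mp hs
      rw [dF_pow_char, map_zero]
      exact zero_mem _
    · rw [Set.mem_singleton_iff.mp hs]
      exact hφ
  | one => simp
  | add a b ha' hb' ha hb =>
    rw [Derivation.map_add, map_add]
    exact add_mem ha hb
  | neg a ha' ha =>
    rw [Derivation.map_neg, map_neg]
    exact neg_mem ha
  | inv a ha' ha =>
    rw [Derivation.leibniz_inv, map_smul, smul_eq_mul]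
    have ha'' : a ∈ genField p x := ha'
    exact mul_mem (neg_mem (pow_mem (inv_mem ha'') 2)) ha
  | mul a b ha' hb' ha hb =>
    rw [Derivation.leibniz, map_add, map_smul, map_smul, smul_eq_mul, smul_eq_mul]
    have ha'' : a ∈ genField p x := ha'
    have hb'' : b ∈ genField p x := hb'
    exact add_mem (mul_mem ha'' hb) (mul_mem hb'' ha)

include p in
/-- A functional normalised on a given element. -/
theorem exists_delta {x : L} (hx : dF L x ≠ 0) : ∃ φ : Ω[L⁄ℤ] →ₗ[L] L, φ (dF L x) = x := by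
  have hx' : x ∉ powField L p := fun hmem => by
    obtain ⟨v, rfl⟩ := (mem_powField p).mp hmem
    exact hx (dF_pow_char p v)
  obtain ⟨φ, -, h2⟩ := exists_functional p (powField L p) (pow_mem_powField p) x hx'
  refine ⟨(x * (φ (dF L x))⁻¹) • φ, ?_⟩
  rw [LinearMap.smul_apply, smul_eq_mul, mul_assoc, inv_mul_cancel₀ h2, mul_one]

/-- The ratio of two proportional logarithmic forms lies in `E(x)`. -/
theorem ratio_mem {x z m : L} (hx : dF L x ≠ 0) (hz0 : z ≠ 0)
    (h : dl z = m • dl x) : m ∈ genField p x := by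
  have hx0 : x ≠ 0 := ne_zero_of_d_ne hx
  obtain ⟨φ, hφ⟩ := exists_delta p hx
  have h1 : dF L z = (z * m * x⁻¹) • dF L x := by
    rw [dF_eq_smul_dl hz0, h, smul_smul, dl, smul_smul, mul_assoc]
  have hz : z ∈ genField p x := mem_genField_of_dep p h1
  have h2 : φ (dF L z) = z * m := by
    rw [h1, map_smul, hφ, smul_eq_mul, mul_assoc, inv_mul_cancel₀ hx0, mul_one]
  have h3 : φ (dF L z) ∈ genField p x := by
    apply functional_preserves p φ _ hz
    rw [hφ]
    exact self_mem_genField p x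
  have h4 : m = z⁻¹ * φ (dF L z) := by
    rw [h2, ← mul_assoc, inv_mul_cancel₀ hz0, one_mul]
  rw [h4]
  exact mul_mem (inv_mem (mem_genField_of_dep p h1)) h3

variable {M : Ω[L⁄ℤ] →ₗ[L] Ω[L⁄ℤ]}

/-- Every logarithmic form is an eigenvector. -/
theorem eigen (h1 : ∀ y : L, y ≠ 0 → ∃ z : L, z ≠ 0 ∧ M (dl y) = dl z)
    (h2 : ∀ y : L, y ≠ 0 → M (dl y) = 0 → dF L y = 0) {x : L} (hx : dF L x ≠ 0) :
    ∃ m z : L, z ≠ 0 ∧ M (dl x) = dl z ∧ dl z = m • dl x ∧ m ∈ genField p x ∧ m ≠ 0 := by
  have hx0 : x ≠ 0 := ne_zero_of_d_ne hx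
  have hx1 : x + 1 ≠ 0 := by
    intro h0
    have : x = -1 := by linear_combination h0
    rw [this] at hx
    simp at hx
  obtain ⟨z₁, hz₁, hM₁⟩ := h1 x hx0
  obtain ⟨z₂, hz₂, hM₂⟩ := h1 (x + 1) hx1
  have hdl : dl (x + 1) = (x / (x + 1)) • dl x := by
    simp only [dl, Derivation.map_add, Derivation.map_one_eq_zero, add_zero, smul_smul]
    congr 1
    field_simp
  have hrel : dl z₂ = (x / (x + 1)) • dl z₁ := by
    rw [← hM₂, ← hM₁, hdl, map_smul]
  have hdz₁ : dF L z₁ ≠ 0 := by
    intro h0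
    apply hx
    apply h2 x hx0
    rw [hM₁, dl, h0, smul_zero]
  have hf : x / (x + 1) ∈ genField p z₁ := ratio_mem p hdz₁ hz₂ hrel
  have hxmem : x ∈ genField p z₁ := by
    have h3 : x = (x / (x + 1)) * (1 - x / (x + 1))⁻¹ := by
      have h4 : 1 - x / (x + 1) = (x + 1)⁻¹ := by
        field_simp
        ring
      rw [h4, inv_inv]
      field_simp
    rw [h3]
    exact mul_mem hf (inv_mem (sub_mem (one_mem _) hf))
  obtain ⟨n, hn⟩ := d_mem_line p hxmem
  have hn0 : n ≠ 0 := by
    rintro rfl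
    exact hx (by rw [hn, zero_smul])
  have hdz : dF L z₁ = n⁻¹ • dF L x := by
    rw [hn, smul_smul, inv_mul_cancel₀ hn0, one_smul]
  have hrel2 : dl z₁ = (z₁⁻¹ * n⁻¹ * x) • dl x := by
    rw [dl, hdz, dl, smul_smul, smul_smul, mul_assoc (z₁⁻¹), mul_assoc (z₁⁻¹), mul_assoc n⁻¹,
      mul_inv_cancel₀ hx0, mul_one]
  refine ⟨_, z₁, hz₁, hM₁, hrel2, ratio_mem p hx hz₁ hrel2, ?_⟩
  exact mul_ne_zero (mul_ne_zero (inv_ne_zero hz₁) (inv_ne_zero hn0)) hx0

theorem ind_dl {x y : L} (h : Ind L (dF L x) (dF L y)) : Ind L (dl x) (dl y) := by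
  have hx0 : x ≠ 0 := ne_zero_of_d_ne h.ne_left
  have hy0 : y ≠ 0 := ne_zero_of_d_ne h.ne_right
  refine h.of_det' x⁻¹ 0 0 y⁻¹ (by simp [dl]) (by simp [dl]) ?_
  simp [hx0, hy0]

include p in
/-- Two independent logarithmic forms have the same eigenvalue. -/
theorem eq_of_ind (h1 : ∀ y : L, y ≠ 0 → ∃ z : L, z ≠ 0 ∧ M (dl y) = dl z)
    (h2 : ∀ y : L, y ≠ 0 → M (dl y) = 0 → dF L y = 0) {x y mx my : L}
    (h : Ind L (dF L x) (dF L y)) (hx : M (dl x) = mx • dl x) (hy : M (dl y) = my • dl y) :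
    mx = my := by
  have hx0 : x ≠ 0 := ne_zero_of_d_ne h.ne_left
  have hy0 : y ≠ 0 := ne_zero_of_d_ne h.ne_right
  have hxy : dF L (x * y) ≠ 0 := by
    rw [Derivation.leibniz]
    intro h0
    have := (h y x (by rw [add_comm]; exact h0)).1
    exact hy0 this
  obtain ⟨m, z, -, hM, hz, -, -⟩ := eigen p h1 h2 hxy
  rw [hz, dl_mul hx0 hy0, map_add, hx, hy, smul_add] at hM
  have h3 : (mx - m) • dl x + (my - m) • dl y = 0 := by
    rw [sub_smul, sub_smul, sub_add_sub_comm, ← hM, sub_self]
  obtain ⟨h4, h5⟩ := ind_dl h _ _ h3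
  rw [sub_eq_zero.mp h4, sub_eq_zero.mp h5]

/-- The main scalar lemma. -/
theorem scalar (h1 : ∀ y : L, y ≠ 0 → ∃ z : L, z ≠ 0 ∧ M (dl y) = dl z)
    (h2 : ∀ y : L, y ≠ 0 → M (dl y) = 0 → dF L y = 0) {a₀ b₀ : L}
    (h₀ : Ind L (dF L a₀) (dF L b₀)) :
    ∃ m : L, m ^ p = m ∧ ∀ y : L, y ≠ 0 → M (dl y) = m • dl y := by
  obtain ⟨m, z, hz0, hM, hz, hm, -⟩ := eigen p h1 h2 h₀.ne_left
  obtain ⟨m', z', hz0', hM', hz', hm', -⟩ := eigen p h1 h2 h₀.ne_right
  have hM1 : M (dl a₀) = m • dl a₀ := by rw [hM, hz]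
  have hM2 : M (dl b₀) = m' • dl b₀ := by rw [hM', hz']
  have hmm' : m = m' := eq_of_ind p h1 h2 h₀ hM1 hM2
  subst hmm'
  refine ⟨m, ?_, ?_⟩
  · -- `dm = 0`
    obtain ⟨n₁, hn₁⟩ := d_mem_line p hm
    obtain ⟨n₂, hn₂⟩ := d_mem_line p hm'
    have hdm : dF L m = 0 := by
      have h3 : n₁ • dF L a₀ + (-n₂) • dF L b₀ = 0 := by
        rw [neg_smul, ← hn₁, ← hn₂, add_neg_cancel]
      rw [hn₁, (h₀ _ _ h3).1, zero_smul]
    obtain ⟨φ, hφ⟩ := exists_delta p h₀.ne_left
    let D : Derivation ℤ L L := φ.compDer (dF L)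
    have hD : ∀ s, D s = φ (dF L s) := fun s => rfl
    have hDa : D a₀ = a₀ := hφ
    have hDm : D m = 0 := by rw [hD, hdm, map_zero]
    have hDz : D z = m * z := by
      rw [hD, dF_eq_smul_dl hz0, hz, dl, map_smul, map_smul, map_smul, hφ, smul_eq_mul, smul_eq_mul,
        smul_eq_mul, inv_mul_cancel₀ (ne_zero_of_d_ne h₀.ne_left)]
      ring
    have hiter : ∀ k : ℕ, D^[k] z = m ^ k * z := by
      intro k
      induction k with
      | zero => simp
      | succ k ih =>
        rw [Function.iterate_succ_apply', ih, Derivation.leibniz, hDz, Derivation.leibniz_pow, hDm]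
        simp only [smul_eq_mul]
        ring
    have ha₀' : ∀ k : ℕ, D^[k] a₀ = a₀ := by
      intro k
      induction k with
      | zero => rfl
      | succ k ih => rw [Function.iterate_succ_apply', ih, hDa]
    have hp0 : p ≠ 0 := hp.out.ne_zero
    have hzero : ∀ k : ℕ, D^[k] (0 : L) = 0 := fun k => iterate_map_zero D k
    have hkey : ∀ s ∈ genField p a₀, D^[p] s = D s := by
      intro s hs
      unfold genField at hs
      induction hs using Subfield.closure_induction with
      | mem s hs =>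
        rcases hs with hs | hs
        · obtain ⟨v, rfl⟩ := (mem_powField p).mp hs
          have h4 : D (v ^ p) = 0 := by rw [hD, dF_pow_char, map_zero]
          obtain ⟨q, hq⟩ := Nat.exists_eq_succ_of_ne_zero hp0
          rw [h4]
          conv_lhs => rw [hq, Function.iterate_succ_apply, ← hq]
          rw [h4]
          exact hzero _
        · rw [Set.mem_singleton_iff.mp hs, ha₀', hDa]
      | one =>
        obtain ⟨q, hq⟩ := Nat.exists_eq_succ_of_ne_zero hp0
        rw [hq, Function.iterate_succ_apply, Derivation.map_one_eq_zero]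
        exact hzero _
      | add a b _ _ ha hb =>
        rw [iterate_map_add, ha, hb, map_add]
      | neg a _ ha =>
        rw [iterate_map_neg, ha, map_neg]
      | inv a _ ha =>
        by_cases ha0 : a = 0
        · rw [ha0, inv_zero, hzero, map_zero]
        · have h5 := iterate_char_leibniz p D a a⁻¹
          rw [mul_inv_cancel₀ ha0] at h5
          have h6 : D^[p] (1 : L) = 0 := by
            obtain ⟨q, hq⟩ := Nat.exists_eq_succ_of_ne_zero hp0
            rw [hq, Function.iterate_succ_apply, Derivation.map_one_eq_zero]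
            exact hzero _
          rw [h6, ha] at h5
          have h7 : D (a * a⁻¹) = a * D a⁻¹ + a⁻¹ * D a := by
            rw [Derivation.leibniz]; rfl
          rw [mul_inv_cancel₀ ha0, Derivation.map_one_eq_zero] at h7
          have h8 : a * (D^[p] a⁻¹ - D a⁻¹) = 0 := by linear_combination h7 - h5
          exact sub_eq_zero.mp ((mul_eq_zero.mp h8).resolve_left ha0)
      | mul a b _ _ ha hb =>
        rw [iterate_char_leibniz p, ha, hb, Derivation.leibniz]
        rfl
    have hzmem : z ∈ genField p a₀ := by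
      apply mem_genField_of_dep p (n := z * m * a₀⁻¹)
      rw [dF_eq_smul_dl hz0, hz, dl, smul_smul, smul_smul, mul_assoc]
    have h9 := hkey z hzmem
    rw [hiter, hDz] at h9
    exact mul_right_cancel₀ hz0 h9
  · intro y hy
    by_cases hdy : dF L y = 0
    · simp only [dl, hdy, smul_zero, map_zero]
    obtain ⟨n, w, -, hMy, hw, -, -⟩ := eigen p h1 h2 hdy
    have hMy' : M (dl y) = n • dl y := by rw [hMy, hw]
    by_cases hind : Ind L (dF L a₀) (dF L y)
    · rw [hMy', eq_of_ind p h1 h2 hind hM1 hMy']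
    · obtain ⟨c, hc⟩ := dep_of_not_ind_left h₀.ne_left hind
      have hc0 : c ≠ 0 := by
        rintro rfl
        exact hdy (by rw [hc, zero_smul])
      have hind2 : Ind L (dF L b₀) (dF L y) := by
        refine h₀.of_det' 0 1 c 0 (by simp) (by simp [hc]) ?_
        simp [hc0]
      rw [hMy', eq_of_ind p h1 h2 hind2 hM2 hMy']

end Field

end Crest.Agent.Lib.MilnorScalar
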