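import Mathlib
import Crest.Prelude.Def_MilnorK
import Crest.Agent.Lib.MilnorIso
import Crest.Agent.Lib.MilnorScalar
import Crest.Agent.Lib.MilnorFG

/-!
Assembling the reconstruction theorem.
-/

set_option autoImplicit false
set_option linter.unusedSectionVars false

namespace Crest.Agent.Lib.MilnorMain

open Crest.NumberTheoryR.MilnorK Crest.Agent.Lib.MilnorCore Crest.Agent.Lib.MilnorLog
  Crest.Agent.Lib.MilnorIso Crest.Agent.Lib.MilnorScalar Crest.Agent.Lib.MilnorFG

section NatRoot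

variable {L : Type*} [Field L] (p : ℕ) [hp : Fact p.Prime] [CharP L p]

/-- The solutions of `m ^ p = m` are the images of the natural numbers. -/
theorem exists_nat_of_pow_eq {m : L} (h : m ^ p = m) : ∃ n : ℕ, (n : L) = m := by
  classical
  have hcard : (Finset.univ.image (ZMod.castHom (dvd_refl p) L)).card = p := by
    rw [Finset.card_image_of_injective _ (ZMod.castHom (dvd_refl p) L).injective, Finset.card_univ,
      ZMod.card]
  have hne : (Polynomial.X ^ p - Polynomial.X : Polynomial L) ≠ 0 :=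
    FiniteField.X_pow_card_sub_X_ne_zero L hp.out.one_lt
  have hdeg : (Polynomial.X ^ p - Polynomial.X : Polynomial L).natDegree = p :=
    FiniteField.X_pow_card_sub_X_natDegree_eq L hp.out.one_lt
  have hsub : Finset.univ.image (ZMod.castHom (dvd_refl p) L) ⊆
      (Polynomial.X ^ p - Polynomial.X : Polynomial L).roots.toFinset := by
    intro x hx
    obtain ⟨c, -, rfl⟩ := Finset.mem_image.mp hx
    rw [Multiset.mem_toFinset, Polynomial.mem_roots hne]
    simp only [Polynomial.IsRoot, Polynomial.eval_sub, Polynomial.eval_pow, Polynomial.eval_X]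
    rw [← map_pow, ZMod.pow_card, sub_self]
  have hle : (Polynomial.X ^ p - Polynomial.X : Polynomial L).roots.toFinset.card ≤
      (Finset.univ.image (ZMod.castHom (dvd_refl p) L)).card := by
    rw [hcard]
    calc _ ≤ Multiset.card (Polynomial.X ^ p - Polynomial.X : Polynomial L).roots :=
          Multiset.toFinset_card_le _
      _ ≤ _ := Polynomial.card_roots' _
      _ = p := hdeg
  have heq := Finset.eq_of_subset_of_card_le hsub hle
  have hm : m ∈ (Polynomial.X ^ p - Polynomial.X : Polynomial L).roots.toFinset := by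
    rw [Multiset.mem_toFinset, Polynomial.mem_roots hne]
    simp [Polynomial.IsRoot, h]
  rw [← heq] at hm
  obtain ⟨c, -, hc⟩ := Finset.mem_image.mp hm
  obtain ⟨n, rfl⟩ := ZMod.natCast_zmod_surjective c
  exact ⟨n, by simpa using hc⟩

end NatRoot

section Main

variable {K L : Type*} [Field K] [Field L] {p : ℕ} [hp : Fact p.Prime] [CharP K p] [CharP L p]

/-- The linear endomorphism of the differentials of `L`. -/
theorem exists_M (Θ : KOne K p ≃ₗ[ZMod p] KOne L p) (hΘ : IsCompatible Θ) (α : K ≃+* L)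
    (hα : Spec Θ (α : K →+* L)) :
    ∃ M : Ω[L⁄ℤ] →ₗ[L] Ω[L⁄ℤ], ∀ y : L, y ≠ 0 → M (dl y) = theta Θ (α.symm y) := by
  obtain ⟨Λ, h1, h2⟩ := exists_Lambda Θ hΘ hα
  let ψ : L → Ω[L⁄ℤ] := fun y => Λ (dF K (α.symm y))
  have hψ0 : ψ 0 = 0 := by simp [ψ]
  have hadd : ∀ x y, ψ (x + y) = ψ x + ψ y := fun x y => by simp [ψ]
  have hleib : ∀ x y, ψ (x * y) = x • ψ y + y • ψ x := fun x y => by
    simp only [ψ, map_mul, Derivation.leibniz, map_add, h2]
    simp
  let D : Derivation ℤ L (Ω[L⁄ℤ]) :=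
    Derivation.mk' (AddMonoidHom.toIntLinearMap ⟨⟨ψ, hψ0⟩, hadd⟩) (fun a b => hleib a b)
  refine ⟨D.liftKaehlerDifferential, fun y hy => ?_⟩
  rw [dl, map_smul]
  change y⁻¹ • D.liftKaehlerDifferential (KaehlerDifferential.D ℤ L y) = _
  rw [Derivation.liftKaehlerDifferential_comp_D]
  change y⁻¹ • Λ (dF K (α.symm y)) = _
  rw [h1]
  have : (α : K →+* L) (α.symm y) = y := α.apply_symm_apply y
  rw [this, smul_smul, inv_mul_cancel₀ hy, one_smul]

/-- The formula `Θ [u] = c [α u]`. -/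
theorem exists_scalar (Θ : KOne K p ≃ₗ[ZMod p] KOne L p) (hΘ : IsCompatible Θ) (α : K ≃+* L)
    (hα : Spec Θ (α : K →+* L)) {a₀ b₀ : K} (h₀ : Ind K (dF K a₀) (dF K b₀)) :
    ∃ c : ZMod p, c ≠ 0 ∧
      ∀ u : Kˣ, Θ (cls K p u) = c • cls L p (Units.map α.toRingHom.toMonoidHom u) := by
  obtain ⟨M, hM⟩ := exists_M Θ hΘ α hα
  obtain ⟨Y, W, hLind⟩ := exists_ind_image Θ hΘ h₀
  have h1 : ∀ y : L, y ≠ 0 → ∃ z : L, z ≠ 0 ∧ M (dl y) = dl z := by
    intro y hy
    have hy' : α.symm y ≠ 0 := by simpa using hy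
    rw [hM y hy, theta_of_ne Θ hy']
    obtain ⟨z, hz⟩ := QuotientAddGroup.mk_surjective (Θ (cls K p (Units.mk0 _ hy')))
    let Z : Lˣ := Additive.toMul z
    have hZ : cls L p Z = Θ (cls K p (Units.mk0 _ hy')) := hz
    rw [← hZ, logHom_cls]
    exact ⟨Z, Z.ne_zero, rfl⟩
  have h2 : ∀ y : L, y ≠ 0 → M (dl y) = 0 → dF L y = 0 := by
    intro y hy h0
    have hy' : α.symm y ≠ 0 := by simpa using hy
    rw [hM y hy, (preLog_theta Θ hΘ).zero_iff _ hy', dF_eq_zero_iff p] at h0
    obtain ⟨v, hv⟩ := h0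
    have : y = (α v) ^ p := by
      rw [← map_pow, hv, α.apply_symm_apply]
    rw [this]
    exact dF_pow_char p _
  obtain ⟨m, hm, hscal⟩ := scalar p h1 h2 hLind
  obtain ⟨n, rfl⟩ := exists_nat_of_pow_eq p hm
  have hform : ∀ u : Kˣ, Θ (cls K p u) = n • cls L p (Units.map α.toRingHom.toMonoidHom u) := by
    intro u
    have hu : (α (u : K)) ≠ 0 := by simp
    have h3 := hscal _ hu
    rw [hM _ hu, α.symm_apply_apply, theta_of_unit Θ u] at h3
    apply logHom_injective (F := L) (p := p)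
    rw [h3, map_nsmul, logHom_cls, Nat.cast_smul_eq_nsmul]
    rfl
  refine ⟨(n : ZMod p), ?_, fun u => ?_⟩
  · intro hc
    apply h₀.ne_left
    have ha₀ : a₀ ≠ 0 := ne_zero_of_d_ne h₀.ne_left
    have h4 := hform (Units.mk0 a₀ ha₀)
    have h4' : Θ (cls K p (Units.mk0 a₀ ha₀)) =
        (n : ZMod p) • cls L p (Units.map α.toRingHom.toMonoidHom (Units.mk0 a₀ ha₀)) := by
      rw [Nat.cast_smul_eq_nsmul (ZMod p) n _]
      exact h4
    rw [hc, zero_smul] at h4'
    have h5 : cls K p (Units.mk0 a₀ ha₀) = 0 := by simpa using h4'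
    exact (cls_eq_zero_iff (Units.mk0 a₀ ha₀)).mp h5
  · rw [Nat.cast_smul_eq_nsmul (ZMod p) n _]
    exact hform u

/-- The formula determines the specification. -/
theorem spec_of_formula (Θ : KOne K p ≃ₗ[ZMod p] KOne L p) (α : K ≃+* L) (c : ZMod p)
    (h : ∀ u : Kˣ, Θ (cls K p u) = c • cls L p (Units.map α.toRingHom.toMonoidHom u)) :
    Spec Θ (α : K →+* L) := by
  obtain ⟨n, rfl⟩ := ZMod.natCast_zmod_surjective c
  have hθ : ∀ x : K, x ≠ 0 → theta Θ x = n • dl (α x) := by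
    intro x hx
    rw [theta_of_ne Θ hx, h, Nat.cast_smul_eq_nsmul (ZMod p) n _, map_nsmul, logHom_cls]
    rfl
  intro r hr
  have hr0 : r ≠ 0 := ne_zero_of_d_ne hr
  have hr1 : 1 - r ≠ 0 := by
    intro h1
    have : r = 1 := by linear_combination -h1
    subst this
    simp at hr
  rw [hθ r hr0, hθ _ hr1]
  have e1 : ((α : K →+* L) r) = α r := rfl
  have e2 : α (1 - r) = 1 - α r := by simp
  have hαr : α r ≠ 0 := by simpa using hr0
  have hαr1 : 1 - α r ≠ 0 := by
    rw [← e2]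
    exact (map_ne_zero α).mpr hr1
  rw [e1, e2, smul_comm, smul_comm (1 - α r), dl, dl, smul_smul, smul_smul, mul_inv_cancel₀ hαr,
    mul_inv_cancel₀ hαr1, one_smul, one_smul, ← smul_add, ← Derivation.map_add]
  simp

/-- The isomorphism matches the algebraically closed subfields. -/
theorem map_eq (p : ℕ) [hp : Fact p.Prime] [CharP K p] [CharP L p] (α : K ≃+* L) (k : Subfield K)
    (l : Subfield L) [IsAlgClosed k] [IsAlgClosed l]
    (hK : ∃ s : Finset K, Subfield.closure ((k : Set K) ∪ (s : Set K)) = ⊤)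
    (hL : ∃ s : Finset L, Subfield.closure ((l : Set L) ∪ (s : Set L)) = ⊤) :
    k.map α.toRingHom = l := by
  have hpp : ∀ n : ℕ, 0 < p ^ n := fun n => pow_pos hp.out.pos n
  apply le_antisymm
  · rintro _ ⟨z, hz, rfl⟩
    apply mem_of_forall_pow l p hL
    intro n
    obtain ⟨w, hw⟩ := IsAlgClosed.exists_pow_nat_eq (⟨z, hz⟩ : k) (hpp n)
    refine ⟨α w, ?_⟩
    have h1 : (w : K) ^ p ^ n = z := by
      have := congrArg Subtype.val hw
      simpa using this
    rw [← map_pow, h1]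
    rfl
  · intro z hz
    have h1 : α.symm z ∈ k := by
      apply mem_of_forall_pow k p hK
      intro n
      obtain ⟨w, hw⟩ := IsAlgClosed.exists_pow_nat_eq (⟨z, hz⟩ : l) (hpp n)
      refine ⟨α.symm w, ?_⟩
      have h2 : (w : L) ^ p ^ n = z := by
        have := congrArg Subtype.val hw
        simpa using this
      rw [← map_pow, h2]
    exact ⟨α.symm z, h1, α.apply_symm_apply z⟩

/-- The reconstruction theorem. -/
theorem main (k : Subfield K) (l : Subfield L)
    [IsAlgClosed k] [IsAlgClosed l]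
    (hK : ∃ s : Finset K, Subfield.closure ((k : Set K) ∪ (s : Set K)) = ⊤)
    (hL : ∃ s : Finset L, Subfield.closure ((l : Set L) ∪ (s : Set L)) = ⊤)
    (hK2 : 2 ≤ Algebra.trdeg k K)
    (Θ : KOne K p ≃ₗ[ZMod p] KOne L p) (hΘ : IsCompatible Θ) :
    ∃! α : K ≃+* L, k.map α.toRingHom = l ∧
      ∃ c : ZMod p, c ≠ 0 ∧
        ∀ u : Kˣ, Θ (cls K p u) = c • cls L p (Units.map α.toRingHom.toMonoidHom u) := by
  obtain ⟨a₀, b₀, h₀⟩ := exists_ind k hK hK2
  obtain ⟨α, hα⟩ := exists_ringEquiv Θ hΘ h₀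
  obtain ⟨c, hc0, hc⟩ := exists_scalar Θ hΘ α hα h₀
  refine ⟨α, ⟨map_eq p α k l hK hL, c, hc0, hc⟩, ?_⟩
  rintro α' ⟨-, c', -, hc'⟩
  have hspec := spec_of_formula Θ α' c' hc'
  have heq := spec_unique Θ hΘ hspec hα h₀.ne_left
  ext x
  exact congrFun (congrArg DFunLike.coe heq) x

end Main

end Crest.Agent.Lib.MilnorMain
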