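import Mathlib

/-!
# Prékopa–Leindler inequality (midpoint form, squared, `lintegral`)

For measurable `f g h : EuclideanSpace ℝ (Fin d) → ℝ≥0∞` with
`f x * g y ≤ h ((1/2 : ℝ) • (x + y)) ^ 2` for all `x y`:
`(∫⁻ f) * (∫⁻ g) ≤ (∫⁻ h) ^ 2`.
-/

set_option autoImplicit false
open MeasureTheory Set
open scoped ENNReal Pointwise

namespace Crest.Agent.PrekopaLeindler

/-- Every number below the outer measure of a nonempty `A ⊆ ℝ` is already exceeded by
`A ∩ Iic a` for some `a ∈ A`. -/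
lemma exists_Iic_approx (A : Set ℝ) (hA : A.Nonempty) (c : ℝ≥0∞) (hc : c < volume A) :
    ∃ a ∈ A, c < volume (A ∩ Iic a) := by
  by_contra hcon
  push Not at hcon
  obtain ⟨D, hDA, hDc, hDd⟩ :=
    (TopologicalSpace.IsSeparable.of_separableSpace A).exists_countable_dense_subset
  have hDne : D.Nonempty := by
    obtain ⟨x, hx⟩ := hA
    by_contra hD
    rw [Set.not_nonempty_iff_eq_empty] at hD
    have := hDd hx
    simp [hD] at this
  -- the set of points of `A` above all of `D` is subsingleton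
  have hsub : A ⊆ (⋃ a : D, A ∩ Iic (a : ℝ)) ∪ {x | x ∈ A ∧ ∀ a ∈ D, a < x} := by
    intro x hx
    by_cases h : ∀ a ∈ D, a < x
    · exact Or.inr ⟨hx, h⟩
    · push Not at h
      obtain ⟨a, haD, hax⟩ := h
      exact Or.inl (mem_iUnion.2 ⟨⟨a, haD⟩, hx, hax⟩)
  have hsing : {x | x ∈ A ∧ ∀ a ∈ D, a < x}.Subsingleton := by
    rintro x ⟨hx, hxD⟩ y ⟨hy, hyD⟩
    have h1 : closure D ⊆ Iic x :=
      closure_minimal (fun a ha => (hxD a ha).le) isClosed_Iic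
    have h2 : closure D ⊆ Iic y :=
      closure_minimal (fun a ha => (hyD a ha).le) isClosed_Iic
    exact le_antisymm (h2 (hDd hx)) (h1 (hDd hy))
  have hnull : volume {x | x ∈ A ∧ ∀ a ∈ D, a < x} = 0 :=
    hsing.countable.measure_zero volume
  have : Countable D := hDc.to_subtype
  have : Nonempty D := hDne.to_subtype
  have hdir : Directed (· ⊆ ·) (fun a : D => A ∩ Iic (a : ℝ)) := by
    intro a b
    refine ⟨if (a : ℝ) ≤ b then b else a, ?_, ?_⟩
    · split_ifs with h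
      · exact inter_subset_inter_right _ (Iic_subset_Iic.2 h)
      · exact Subset.rfl
    · split_ifs with h
      · exact Subset.rfl
      · exact inter_subset_inter_right _ (Iic_subset_Iic.2 (not_le.1 h).le)
  have hle : volume A ≤ c := by
    calc volume A ≤ volume ((⋃ a : D, A ∩ Iic (a : ℝ)) ∪ {x | x ∈ A ∧ ∀ a ∈ D, a < x}) :=
          measure_mono hsub
      _ ≤ volume (⋃ a : D, A ∩ Iic (a : ℝ)) + volume {x | x ∈ A ∧ ∀ a ∈ D, a < x} :=
          measure_union_le _ _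
      _ = ⨆ a : D, volume (A ∩ Iic (a : ℝ)) := by
          rw [hnull, add_zero, hdir.measure_iUnion]
      _ ≤ c := iSup_le fun a => hcon a (hDA a.2)
  exact absurd hc (not_lt.2 hle)

/-- Mirror image of `exists_Iic_approx`. -/
lemma exists_Ici_approx (A : Set ℝ) (hA : A.Nonempty) (c : ℝ≥0∞) (hc : c < volume A) :
    ∃ a ∈ A, c < volume (A ∩ Ici a) := by
  have hA' : (Neg.neg ⁻¹' A).Nonempty := by
    obtain ⟨x, hx⟩ := hA
    exact ⟨-x, by simpa using hx⟩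
  have hc' : c < volume (Neg.neg ⁻¹' A) := by
    rwa [Measure.measure_preimage_neg]
  obtain ⟨a, ha, hlt⟩ := exists_Iic_approx _ hA' c hc'
  refine ⟨-a, ha, ?_⟩
  have : Neg.neg ⁻¹' A ∩ Iic a = Neg.neg ⁻¹' (A ∩ Ici (-a)) := by
    ext x
    simp only [mem_inter_iff, mem_preimage, mem_Iic, mem_Ici, neg_le_neg_iff]
  rw [this, Measure.measure_preimage_neg] at hlt
  exact hlt

/-- Volume of the image under `x ↦ (x + b) / 2`. -/
lemma volume_image_half_add (S : Set ℝ) (b : ℝ) :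
    volume ((fun x => (x + b) / 2) '' S) = volume S / 2 := by
  have : (fun x : ℝ => (x + b) / 2) '' S = (1 / 2 : ℝ) • ((fun x => x + b) '' S) := by
    ext x
    simp only [Set.mem_smul_set, mem_image, exists_exists_and_eq_and, smul_eq_mul]
    constructor
    · rintro ⟨y, hy, rfl⟩
      exact ⟨y, hy, by ring⟩
    · rintro ⟨y, hy, rfl⟩
      exact ⟨y, hy, by ring⟩
  rw [this, Measure.addHaar_smul]
  simp only [image_add_right, measure_preimage_add_right]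
  simp only [Module.finrank_self, pow_one, abs_div, abs_one, Nat.abs_ofNat]
  rw [ENNReal.div_eq_inv_mul]
  congr 1
  rw [one_div, ENNReal.ofReal_inv_of_pos (by norm_num)]
  norm_num

/-- One-dimensional Brunn–Minkowski for arbitrary sets (outer measure) in midpoint form. -/
lemma bm_one_dim (A B C : Set ℝ) (hA : A.Nonempty) (hB : B.Nonempty)
    (hC : ∀ a ∈ A, ∀ b ∈ B, (a + b) / 2 ∈ C) :
    volume A + volume B ≤ 2 * volume C := by
  -- step 1 : for a ∈ A, b ∈ B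
  have key : ∀ a ∈ A, ∀ b ∈ B, volume (A ∩ Iic a) + volume (B ∩ Ici b) ≤ 2 * volume C := by
    intro a ha b hb
    set m := (a + b) / 2 with hm
    have h1 : (fun x => (x + b) / 2) '' ((A ∩ Iic a) \ {a}) ⊆ C ∩ Iio m := by
      rintro _ ⟨x, ⟨⟨hxA, hxa⟩, hne⟩, rfl⟩
      refine ⟨hC x hxA b hb, ?_⟩
      have hlt : x < a := lt_of_le_of_ne hxa hne
      simp only [mem_Iio, hm]
      linarith
    have h2 : (fun y => (y + a) / 2) '' (B ∩ Ici b) ⊆ C \ Iio m := by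
      rintro _ ⟨y, ⟨hyB, hyb⟩, rfl⟩
      refine ⟨?_, ?_⟩
      · have := hC a ha y hyB
        rwa [add_comm] at this
      · simp only [mem_Iio, not_lt, hm]
        have : b ≤ y := hyb
        linarith
    have h3 : volume (A ∩ Iic a) = volume ((A ∩ Iic a) \ {a}) := by
      exact (measure_sdiff_null (measure_singleton a)).symm
    have hsplit : volume C = volume (C ∩ Iio m) + volume (C \ Iio m) :=
      (measure_inter_add_sdiff C measurableSet_Iio).symm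
    have h4 : volume (A ∩ Iic a) / 2 ≤ volume (C ∩ Iio m) := by
      rw [h3, ← volume_image_half_add]
      exact measure_mono h1
    have h5 : volume (B ∩ Ici b) / 2 ≤ volume (C \ Iio m) := by
      rw [← volume_image_half_add (B ∩ Ici b) a]
      exact measure_mono h2
    calc volume (A ∩ Iic a) + volume (B ∩ Ici b)
        = 2 * (volume (A ∩ Iic a) / 2 + volume (B ∩ Ici b) / 2) := by
          rw [mul_add, ENNReal.mul_div_cancel two_ne_zero ENNReal.ofNat_ne_top,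
            ENNReal.mul_div_cancel two_ne_zero ENNReal.ofNat_ne_top]
      _ ≤ 2 * (volume (C ∩ Iio m) + volume (C \ Iio m)) := by gcongr
      _ = 2 * volume C := by rw [← hsplit]
  -- step 2 : approximation
  have hA' : volume A ≤ ⨆ a : A, volume (A ∩ Iic (a : ℝ)) := by
    refine le_of_forall_lt fun c hc => ?_
    obtain ⟨a, ha, hca⟩ := exists_Iic_approx A hA c hc
    exact lt_iSup_iff.2 ⟨⟨a, ha⟩, hca⟩
  have hB' : volume B ≤ ⨆ b : B, volume (B ∩ Ici (b : ℝ)) := by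
    refine le_of_forall_lt fun c hc => ?_
    obtain ⟨b, hb, hcb⟩ := exists_Ici_approx B hB c hc
    exact lt_iSup_iff.2 ⟨⟨b, hb⟩, hcb⟩
  have : Nonempty A := hA.to_subtype
  have : Nonempty B := hB.to_subtype
  calc volume A + volume B
      ≤ (⨆ a : A, volume (A ∩ Iic (a : ℝ))) + ⨆ b : B, volume (B ∩ Ici (b : ℝ)) := by gcongr
    _ ≤ 2 * volume C := ENNReal.iSup_add_iSup_le fun a b => key a a.2 b b.2

/-- The truncated layer-cake formula for `ℝ≥0∞`-valued functions. -/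
lemma layer {X : Type*} [MeasurableSpace X] (μ : Measure X) [SFinite μ] (f : X → ℝ≥0∞)
    (hf : Measurable f) :
    ∫⁻ t in Ioo (0 : ℝ) 1, μ {x | ENNReal.ofReal t < f x} = ∫⁻ x, min (f x) 1 ∂μ := by
  have hmeas : MeasurableSet {p : ℝ × X | ENNReal.ofReal p.1 < f p.2} :=
    measurableSet_lt (ENNReal.measurable_ofReal.comp measurable_fst) (hf.comp measurable_snd)
  have h1 : ∀ t : ℝ, μ {x | ENNReal.ofReal t < f x} =
      ∫⁻ x, ({p : ℝ × X | ENNReal.ofReal p.1 < f p.2}.indicator 1 (t, x) : ℝ≥0∞) ∂μ := by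
    intro t
    have hm : MeasurableSet {x | ENNReal.ofReal t < f x} := measurableSet_lt measurable_const hf
    rw [← lintegral_indicator_one hm]
    apply lintegral_congr
    intro x
    simp [Set.indicator]
  simp_rw [h1]
  rw [lintegral_lintegral_swap]
  · apply lintegral_congr
    intro x
    have h2 : (fun t : ℝ => ({p : ℝ × X | ENNReal.ofReal p.1 < f p.2}.indicator 1 (t, x) : ℝ≥0∞)) =
        {t : ℝ | ENNReal.ofReal t < f x}.indicator 1 := by
      ext t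
      simp [Set.indicator]
    rw [h2]
    have hm2 : MeasurableSet {t : ℝ | ENNReal.ofReal t < f x} :=
      measurableSet_lt ENNReal.measurable_ofReal measurable_const
    rw [lintegral_indicator_one hm2, Measure.restrict_apply hm2]
    by_cases hx : 1 ≤ f x
    · have : {t : ℝ | ENNReal.ofReal t < f x} ∩ Ioo (0 : ℝ) 1 = Ioo (0 : ℝ) 1 := by
        apply inter_eq_right.2
        rintro t ⟨_, ht1⟩
        have : ENNReal.ofReal t < 1 := by
          rw [← ENNReal.ofReal_one]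
          exact (ENNReal.ofReal_lt_ofReal_iff one_pos).2 ht1
        exact lt_of_lt_of_le this hx
      rw [this, Real.volume_Ioo, min_eq_right hx]
      simp
    · have hx' : f x < 1 := not_le.1 hx
      have hne : f x ≠ ∞ := ne_top_of_lt hx'
      have : {t : ℝ | ENNReal.ofReal t < f x} ∩ Ioo (0 : ℝ) 1 = Ioo (0 : ℝ) (f x).toReal := by
        ext t
        simp only [mem_inter_iff, Set.mem_ofPred_eq, mem_Ioo]
        have hr : (f x).toReal < 1 := by
          have := (ENNReal.toReal_lt_toReal hne ENNReal.one_ne_top).2 hx'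
          simpa using this
        constructor
        · rintro ⟨h1, h2, _⟩
          exact ⟨h2, (ENNReal.ofReal_lt_iff_lt_toReal h2.le hne).1 h1⟩
        · rintro ⟨h1, h2⟩
          exact ⟨(ENNReal.ofReal_lt_iff_lt_toReal h1.le hne).2 h2, h1, h2.trans hr⟩
      rw [this, Real.volume_Ioo, min_eq_left hx'.le]
      simp [ENNReal.ofReal_toReal hne]
  · have : Measurable (Function.uncurry fun (t : ℝ) (x : X) =>
        ({p : ℝ × X | ENNReal.ofReal p.1 < f p.2}.indicator 1 (t, x) : ℝ≥0∞)) :=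
      (measurable_const (a := (1 : ℝ≥0∞))).indicator hmeas
    exact this.aemeasurable

lemma measurable_layer {X : Type*} [MeasurableSpace X] (μ : Measure X) [SFinite μ] (f : X → ℝ≥0∞)
    (hf : Measurable f) : Measurable fun t : ℝ => μ {x | ENNReal.ofReal t < f x} := by
  have hmeas : MeasurableSet {p : ℝ × X | ENNReal.ofReal p.1 < f p.2} :=
    measurableSet_lt (ENNReal.measurable_ofReal.comp measurable_fst) (hf.comp measurable_snd)
  exact measurable_measure_prodMk_left hmeas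

/-- Key lemma: normalised functions. -/
lemma key_normalised (f g h : ℝ → ℝ≥0∞) (hf : Measurable f) (hg : Measurable g) (hh : Measurable h)
    (hfs : ∀ t : ℝ≥0∞, t < 1 → ∃ x, t < f x) (hgs : ∀ t : ℝ≥0∞, t < 1 → ∃ x, t < g x)
    (H : ∀ x y, f x * g y ≤ h ((x + y) / 2) ^ 2) :
    (∫⁻ x, min (f x) 1) + (∫⁻ x, min (g x) 1) ≤ 2 * ∫⁻ x, min (h x) 1 := by
  rw [← layer volume f hf, ← layer volume g hg, ← layer volume h hh]
  have hmf : Measurable fun t : ℝ => volume {x | ENNReal.ofReal t < f x} :=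
    measurable_layer volume f hf
  rw [← lintegral_add_left hmf, ← lintegral_const_mul' _ _ (by simp)]
  apply setLIntegral_mono' measurableSet_Ioo
  rintro t ⟨ht0, ht1⟩
  have ht' : ENNReal.ofReal t < 1 := by
    rw [← ENNReal.ofReal_one]
    exact (ENNReal.ofReal_lt_ofReal_iff one_pos).2 ht1
  apply bm_one_dim
  · exact hfs _ ht'
  · exact hgs _ ht'
  · intro a ha b hb
    have h1 : ENNReal.ofReal t * ENNReal.ofReal t < f a * g b :=
      ENNReal.mul_lt_mul ha hb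
    have h2 := lt_of_lt_of_le h1 (H a b)
    show ENNReal.ofReal t < h ((a + b) / 2)
    by_contra hc
    push Not at hc
    have h3 : h ((a + b) / 2) ^ 2 ≤ ENNReal.ofReal t * ENNReal.ofReal t := by
      rw [sq]
      exact mul_le_mul' hc hc
    exact absurd h2 (not_lt.2 h3)

/-- AM-GM in `ℝ≥0∞`. -/
lemma amgm (x y : ℝ≥0∞) : 4 * (x * y) ≤ (x + y) ^ 2 := by
  by_cases hx : x = ∞
  · subst hx; simp
  by_cases hy : y = ∞
  · subst hy; simp
  lift x to NNReal using hx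
  lift y to NNReal using hy
  have : (4 : NNReal) * (x * y) ≤ (x + y) ^ 2 := by
    rw [← NNReal.coe_le_coe]
    push_cast
    nlinarith [sq_nonneg ((x : ℝ) - y)]
  exact_mod_cast this

/-- One-dimensional Prékopa–Leindler for bounded functions. -/
lemma pl_bounded (f g h : ℝ → ℝ≥0∞) (hf : Measurable f) (hg : Measurable g) (hh : Measurable h)
    (a b : NNReal) (ha : 0 < a) (hb : 0 < b)
    (hfa : (⨆ x, f x) = a) (hgb : (⨆ x, g x) = b)
    (H : ∀ x y, f x * g y ≤ h ((x + y) / 2) ^ 2) :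
    (∫⁻ x, f x) * (∫⁻ x, g x) ≤ (∫⁻ x, h x) ^ 2 := by
  set c : NNReal := NNReal.sqrt (a * b) with hc
  have hc2 : c ^ 2 = a * b := NNReal.sq_sqrt _
  have hc0 : 0 < c := NNReal.sqrt_pos.2 (mul_pos ha hb)
  have ha' : (a : ℝ≥0∞) ≠ 0 := by exact_mod_cast ha.ne'
  have hb' : (b : ℝ≥0∞) ≠ 0 := by exact_mod_cast hb.ne'
  have hc' : (c : ℝ≥0∞) ≠ 0 := by exact_mod_cast hc0.ne'
  have hat : (a : ℝ≥0∞) ≠ ∞ := ENNReal.coe_ne_top
  have hbt : (b : ℝ≥0∞) ≠ ∞ := ENNReal.coe_ne_top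
  have hct : (c : ℝ≥0∞) ≠ ∞ := ENNReal.coe_ne_top
  have hcc : (c : ℝ≥0∞) ^ 2 = a * b := by exact_mod_cast hc2
  set F : ℝ → ℝ≥0∞ := fun x => (a : ℝ≥0∞)⁻¹ * f x with hF
  set G : ℝ → ℝ≥0∞ := fun x => (b : ℝ≥0∞)⁻¹ * g x with hG
  set K : ℝ → ℝ≥0∞ := fun x => (c : ℝ≥0∞)⁻¹ * h x with hK
  have hmF : Measurable F := hf.const_mul _
  have hmG : Measurable G := hg.const_mul _
  have hmK : Measurable K := hh.const_mul _
  have hF1 : ∀ x, F x ≤ 1 := by
    intro x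
    have : f x ≤ a := hfa ▸ le_iSup f x
    calc F x ≤ (a : ℝ≥0∞)⁻¹ * a := mul_le_mul' le_rfl this
      _ = 1 := ENNReal.inv_mul_cancel ha' hat
  have hG1 : ∀ x, G x ≤ 1 := by
    intro x
    have : g x ≤ b := hgb ▸ le_iSup g x
    calc G x ≤ (b : ℝ≥0∞)⁻¹ * b := mul_le_mul' le_rfl this
      _ = 1 := ENNReal.inv_mul_cancel hb' hbt
  have hsup : ∀ (u : ℝ → ℝ≥0∞) (s : NNReal), 0 < s → (⨆ x, u x) = s → ∀ t : ℝ≥0∞, t < 1 →
      ∃ x, t < (s : ℝ≥0∞)⁻¹ * u x := by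
    intro u s hs hus t ht
    have hs' : (s : ℝ≥0∞) ≠ 0 := by exact_mod_cast hs.ne'
    have hst : (s : ℝ≥0∞) ≠ ∞ := ENNReal.coe_ne_top
    have h1 : t * s < ⨆ x, u x := by
      rw [hus]
      calc t * s < 1 * s := ENNReal.mul_lt_mul_left hs' hst ht
        _ = s := one_mul _
    obtain ⟨x, hx⟩ := lt_iSup_iff.1 h1
    refine ⟨x, ?_⟩
    calc t = (s : ℝ≥0∞)⁻¹ * (t * s) := by
            rw [mul_comm t, ← mul_assoc, ENNReal.inv_mul_cancel hs' hst, one_mul]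
      _ < (s : ℝ≥0∞)⁻¹ * u x := by
            exact ENNReal.mul_lt_mul_right (ENNReal.inv_ne_zero.2 hst) (ENNReal.inv_ne_top.2 hs') hx
  have hHF : ∀ x y, F x * G y ≤ K ((x + y) / 2) ^ 2 := by
    intro x y
    simp only [hF, hG, hK]
    calc (a : ℝ≥0∞)⁻¹ * f x * ((b : ℝ≥0∞)⁻¹ * g y)
        = ((a : ℝ≥0∞)⁻¹ * (b : ℝ≥0∞)⁻¹) * (f x * g y) := by ring
      _ ≤ ((a : ℝ≥0∞)⁻¹ * (b : ℝ≥0∞)⁻¹) * h ((x + y) / 2) ^ 2 := by gcongr; exact H x y
      _ = ((c : ℝ≥0∞)⁻¹ * h ((x + y) / 2)) ^ 2 := by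
          rw [mul_pow, ← ENNReal.inv_pow, hcc, ENNReal.mul_inv (Or.inl ha') (Or.inl hat)]
  have hkey := key_normalised F G K hmF hmG hmK (hsup f a ha hfa) (hsup g b hb hgb) hHF
  have e1 : (∫⁻ x, min (F x) 1) = (a : ℝ≥0∞)⁻¹ * ∫⁻ x, f x := by
    rw [← lintegral_const_mul _ hf]
    exact lintegral_congr fun x => min_eq_left (hF1 x)
  have e2 : (∫⁻ x, min (G x) 1) = (b : ℝ≥0∞)⁻¹ * ∫⁻ x, g x := by
    rw [← lintegral_const_mul _ hg]
    exact lintegral_congr fun x => min_eq_left (hG1 x)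
  have e3 : (∫⁻ x, min (K x) 1) ≤ (c : ℝ≥0∞)⁻¹ * ∫⁻ x, h x := by
    rw [← lintegral_const_mul _ hh]
    exact lintegral_mono fun x => min_le_left _ _
  rw [e1, e2] at hkey
  set If := ∫⁻ x, f x
  set Ig := ∫⁻ x, g x
  set Ih := ∫⁻ x, h x
  have hfinal : 4 * (((a : ℝ≥0∞)⁻¹ * If) * ((b : ℝ≥0∞)⁻¹ * Ig)) ≤ 4 * ((c : ℝ≥0∞)⁻¹ * Ih) ^ 2 := by
    refine (amgm _ _).trans ?_
    calc ((a : ℝ≥0∞)⁻¹ * If + (b : ℝ≥0∞)⁻¹ * Ig) ^ 2 ≤ (2 * ((c : ℝ≥0∞)⁻¹ * Ih)) ^ 2 := by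
          gcongr
          exact hkey.trans (by gcongr)
      _ = 4 * ((c : ℝ≥0∞)⁻¹ * Ih) ^ 2 := by
          rw [mul_pow]; norm_num
  have h4 : (4 : ℝ≥0∞) ≠ 0 := by norm_num
  have h4t : (4 : ℝ≥0∞) ≠ ∞ := by norm_num
  have hfinal' := (ENNReal.mul_le_mul_iff_right h4 h4t).1 hfinal
  have hab : (a : ℝ≥0∞) * b ≠ 0 := mul_ne_zero ha' hb'
  have habt : (a : ℝ≥0∞) * b ≠ ∞ := ENNReal.mul_ne_top hat hbt
  calc If * Ig = ((a : ℝ≥0∞) * b) * (((a : ℝ≥0∞)⁻¹ * If) * ((b : ℝ≥0∞)⁻¹ * Ig)) := by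
        calc If * Ig = ((a : ℝ≥0∞) * (a : ℝ≥0∞)⁻¹) * ((b : ℝ≥0∞) * (b : ℝ≥0∞)⁻¹) * (If * Ig) := by
              rw [ENNReal.mul_inv_cancel ha' hat, ENNReal.mul_inv_cancel hb' hbt]; simp
          _ = _ := by ring
    _ ≤ ((a : ℝ≥0∞) * b) * ((c : ℝ≥0∞)⁻¹ * Ih) ^ 2 := by gcongr
    _ = Ih ^ 2 := by
        rw [mul_pow, ← ENNReal.inv_pow, hcc, ← mul_assoc, ENNReal.mul_inv_cancel hab habt, one_mul]

/-- One-dimensional Prékopa–Leindler. -/
theorem pl_one_dim (f g h : ℝ → ℝ≥0∞) (hf : Measurable f) (hg : Measurable g) (hh : Measurable h)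
    (H : ∀ x y, f x * g y ≤ h ((x + y) / 2) ^ 2) :
    (∫⁻ x, f x) * (∫⁻ x, g x) ≤ (∫⁻ x, h x) ^ 2 := by
  by_cases hf0 : ∀ x, f x = 0
  · simp [hf0]
  by_cases hg0 : ∀ x, g x = 0
  · simp [hg0]
  push Not at hf0 hg0
  obtain ⟨x0, hx0⟩ := hf0
  obtain ⟨y0, hy0⟩ := hg0
  have hbd : ∀ (u : ℝ → ℝ≥0∞) (x1 : ℝ), u x1 ≠ 0 → ∀ n : ℕ,
      ∃ a : NNReal, 0 < a ∧ (⨆ x, min (u x) ((n : ℝ≥0∞) + 1)) = a := by
    intro u x1 hx1 n
    have hle : (⨆ x, min (u x) ((n : ℝ≥0∞) + 1)) ≤ (n : ℝ≥0∞) + 1 := iSup_le fun x => min_le_right _ _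
    have hne : (⨆ x, min (u x) ((n : ℝ≥0∞) + 1)) ≠ ∞ :=
      ne_top_of_le_ne_top (by simp) hle
    refine ⟨(⨆ x, min (u x) ((n : ℝ≥0∞) + 1)).toNNReal, ?_, (ENNReal.coe_toNNReal hne).symm⟩
    apply ENNReal.toNNReal_pos _ hne
    intro h0
    have := le_iSup (fun x => min (u x) ((n : ℝ≥0∞) + 1)) x1
    rw [h0] at this
    have h2 : min (u x1) ((n : ℝ≥0∞) + 1) = 0 := le_antisymm this (zero_le)
    rcases min_eq_iff.1 h2 with h3 | h3
    · exact hx1 h3.1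
    · simp at h3
  have hkey : ∀ n : ℕ, (∫⁻ x, min (f x) ((n : ℝ≥0∞) + 1)) * (∫⁻ x, min (g x) ((n : ℝ≥0∞) + 1)) ≤
      (∫⁻ x, h x) ^ 2 := by
    intro n
    obtain ⟨a, ha, hfa⟩ := hbd f x0 hx0 n
    obtain ⟨b, hb, hgb⟩ := hbd g y0 hy0 n
    refine pl_bounded _ _ h (hf.min measurable_const) (hg.min measurable_const) hh a b ha hb hfa hgb ?_
    intro x y
    refine le_trans ?_ (H x y)
    gcongr <;> exact min_le_left _ _
  have hmono : ∀ u : ℝ → ℝ≥0∞, Monotone fun (n : ℕ) (x : ℝ) => min (u x) ((n : ℝ≥0∞) + 1) := by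
    intro u n m hnm x
    have : (n : ℝ≥0∞) ≤ m := by exact_mod_cast hnm
    exact min_le_min le_rfl (by gcongr)
  have hsup : ∀ u : ℝ → ℝ≥0∞, Measurable u →
      (∫⁻ x, u x) = ⨆ n : ℕ, ∫⁻ x, min (u x) ((n : ℝ≥0∞) + 1) := by
    intro u hu
    rw [← lintegral_iSup (fun n => hu.min measurable_const) (hmono u)]
    apply lintegral_congr
    intro x
    apply le_antisymm
    · refine le_of_forall_lt fun c hc => ?_
      have hcne : c ≠ ∞ := ne_top_of_lt hc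
      obtain ⟨n, hn⟩ := ENNReal.exists_nat_gt hcne
      refine lt_iSup_iff.2 ⟨n, lt_min hc (hn.trans_le ?_)⟩
      simp
    · exact iSup_le fun n => min_le_left _ _
  have hmonoI : ∀ u : ℝ → ℝ≥0∞, Monotone fun n : ℕ => ∫⁻ x, min (u x) ((n : ℝ≥0∞) + 1) := by
    intro u n m hnm
    exact lintegral_mono (hmono u hnm)
  rw [hsup f hf, hsup g hg, ENNReal.iSup_mul]
  refine iSup_le fun n => ?_
  rw [ENNReal.mul_iSup]
  refine iSup_le fun m => ?_
  calc (∫⁻ x, min (f x) ((n : ℝ≥0∞) + 1)) * (∫⁻ x, min (g x) ((m : ℝ≥0∞) + 1))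
      ≤ (∫⁻ x, min (f x) (((max n m : ℕ) : ℝ≥0∞) + 1)) *
        (∫⁻ x, min (g x) (((max n m : ℕ) : ℝ≥0∞) + 1)) :=
        mul_le_mul' (hmonoI f (le_max_left n m)) (hmonoI g (le_max_right n m))
    _ ≤ _ := hkey _

/-- Product step of the Prékopa–Leindler induction. -/
lemma pl_prod {X Y : Type*} [MeasurableSpace X] [MeasurableSpace Y] (μ : Measure X) (ν : Measure Y)
    [SFinite μ] [SFinite ν] (mX : X → X → X) (mY : Y → Y → Y)
    (PLX : ∀ f g h : X → ℝ≥0∞, Measurable f → Measurable g → Measurable h →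
      (∀ x y, f x * g y ≤ h (mX x y) ^ 2) → (∫⁻ x, f x ∂μ) * (∫⁻ x, g x ∂μ) ≤ (∫⁻ x, h x ∂μ) ^ 2)
    (PLY : ∀ f g h : Y → ℝ≥0∞, Measurable f → Measurable g → Measurable h →
      (∀ x y, f x * g y ≤ h (mY x y) ^ 2) → (∫⁻ x, f x ∂ν) * (∫⁻ x, g x ∂ν) ≤ (∫⁻ x, h x ∂ν) ^ 2)
    (f g h : X × Y → ℝ≥0∞) (hf : Measurable f) (hg : Measurable g) (hh : Measurable h)
    (H : ∀ p q : X × Y, f p * g q ≤ h (mX p.1 q.1, mY p.2 q.2) ^ 2) :
    (∫⁻ z, f z ∂μ.prod ν) * (∫⁻ z, g z ∂μ.prod ν) ≤ (∫⁻ z, h z ∂μ.prod ν) ^ 2 := by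
  rw [lintegral_prod _ hf.aemeasurable, lintegral_prod _ hg.aemeasurable,
    lintegral_prod _ hh.aemeasurable]
  refine PLX _ _ _ hf.lintegral_prod_right' hg.lintegral_prod_right' hh.lintegral_prod_right' ?_
  intro x₁ x₂
  refine PLY _ _ _ (hf.comp measurable_prodMk_left) (hg.comp measurable_prodMk_left)
    (hh.comp measurable_prodMk_left) ?_
  intro y₁ y₂
  exact H (x₁, y₁) (x₂, y₂)

/-- Prékopa–Leindler on `Fin n → ℝ`. -/
theorem pl_pi (n : ℕ) (f g h : (Fin n → ℝ) → ℝ≥0∞) (hf : Measurable f) (hg : Measurable g)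
    (hh : Measurable h) (H : ∀ x y, f x * g y ≤ h ((1 / 2 : ℝ) • (x + y)) ^ 2) :
    (∫⁻ x, f x) * (∫⁻ x, g x) ≤ (∫⁻ x, h x) ^ 2 := by
  induction n with
  | zero =>
    have hd : (volume : Measure (Fin 0 → ℝ)) = Measure.dirac 0 := Measure.volume_pi_eq_dirac 0
    rw [hd, lintegral_dirac' _ hf, lintegral_dirac' _ hg, lintegral_dirac' _ hh]
    have := H 0 0
    simpa using this
  | succ n ih =>
    have e := volume_preserving_piFinSuccAbove (fun _ : Fin (n + 1) => ℝ) 0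
    set E := MeasurableEquiv.piFinSuccAbove (fun _ : Fin (n + 1) => ℝ) 0 with hE
    have hE' : MeasurePreserving E.symm volume volume := e.symm
    have hlin : ∀ p q : ℝ × (Fin n → ℝ), E.symm ((p.1 + q.1) / 2, (1 / 2 : ℝ) • (p.2 + q.2)) =
        (1 / 2 : ℝ) • (E.symm p + E.symm q) := by
      intro p q
      ext i
      refine Fin.cases ?_ (fun j => ?_) i
      · simp [hE, MeasurableEquiv.piFinSuccAbove]
        ring
      · simp [hE, MeasurableEquiv.piFinSuccAbove]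
        ring
    have hf' : ∫⁻ x, f x = ∫⁻ z, f (E.symm z) := (hE'.lintegral_comp hf).symm
    have hg' : ∫⁻ x, g x = ∫⁻ z, g (E.symm z) := (hE'.lintegral_comp hg).symm
    have hh' : ∫⁻ x, h x = ∫⁻ z, h (E.symm z) := (hE'.lintegral_comp hh).symm
    rw [hf', hg', hh']
    refine pl_prod volume volume (fun x y => (x + y) / 2) (fun x y => (1 / 2 : ℝ) • (x + y))
      pl_one_dim (fun f g h hf hg hh H => ih f g h hf hg hh H) _ _ _
      (hf.comp E.symm.measurable) (hg.comp E.symm.measurable) (hh.comp E.symm.measurable) ?_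
    intro p q
    have := H (E.symm p) (E.symm q)
    rw [← hlin] at this
    exact this

/-- **Prékopa–Leindler inequality** on `EuclideanSpace ℝ (Fin d)`: squared midpoint form. -/
theorem prekopa_leindler {d : ℕ} (f g h : EuclideanSpace ℝ (Fin d) → ℝ≥0∞) (hf : Measurable f)
    (hg : Measurable g) (hh : Measurable h)
    (H : ∀ x y, f x * g y ≤ h ((1 / 2 : ℝ) • (x + y)) ^ 2) :
    (∫⁻ x, f x) * (∫⁻ x, g x) ≤ (∫⁻ x, h x) ^ 2 := by
  have e := (EuclideanSpace.volume_preserving_symm_measurableEquiv_toLp (Fin d)).symm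
  set E := (MeasurableEquiv.toLp 2 (Fin d → ℝ)).symm with hE
  have hf' : ∫⁻ x, f x = ∫⁻ z, f (E.symm z) := (e.lintegral_comp hf).symm
  have hg' : ∫⁻ x, g x = ∫⁻ z, g (E.symm z) := (e.lintegral_comp hg).symm
  have hh' : ∫⁻ x, h x = ∫⁻ z, h (E.symm z) := (e.lintegral_comp hh).symm
  rw [hf', hg', hh']
  refine pl_pi d _ _ _ (hf.comp E.symm.measurable) (hg.comp E.symm.measurable)
    (hh.comp E.symm.measurable) ?_
  intro x y
  have := H (E.symm x) (E.symm y)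
  have hlin : (1 / 2 : ℝ) • (E.symm x + E.symm y) = E.symm ((1 / 2 : ℝ) • (x + y)) := by
    rfl
  rw [hlin] at this
  exact this

/-- **Prékopa–Leindler inequality** on `EuclideanSpace ℝ (Fin d)`: square-root midpoint form. -/
theorem prekopa_leindler_sqrt {d : ℕ} (f g h : EuclideanSpace ℝ (Fin d) → ℝ≥0∞) (hf : Measurable f)
    (hg : Measurable g) (hh : Measurable h)
    (H : ∀ x y, (f x * g y) ^ (1 / 2 : ℝ) ≤ h ((1 / 2 : ℝ) • (x + y))) :
    ((∫⁻ x, f x) * (∫⁻ x, g x)) ^ (1 / 2 : ℝ) ≤ ∫⁻ x, h x := by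
  have hsq : ∀ u v : ℝ≥0∞, u ^ (1 / 2 : ℝ) ≤ v → u ≤ v ^ 2 := by
    intro u v huv
    have h1 : (u ^ (1 / 2 : ℝ)) ^ 2 ≤ v ^ 2 := pow_le_pow_left' huv 2
    rwa [← ENNReal.rpow_natCast, ← ENNReal.rpow_mul, show (1 / 2 : ℝ) * ((2 : ℕ) : ℝ) = 1 by norm_num,
      ENNReal.rpow_one] at h1
  have := prekopa_leindler f g h hf hg hh (fun x y => hsq _ _ (H x y))
  have h2 : ((∫⁻ x, f x) * (∫⁻ x, g x)) ^ (1 / 2 : ℝ) ≤ ((∫⁻ x, h x) ^ 2) ^ (1 / 2 : ℝ) :=
    ENNReal.rpow_le_rpow this (by norm_num)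
  rwa [← ENNReal.rpow_natCast, ← ENNReal.rpow_mul, show ((2 : ℕ) : ℝ) * (1 / 2 : ℝ) = 1 by norm_num,
    ENNReal.rpow_one] at h2

end Crest.Agent.PrekopaLeindler
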