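import Crest.Agent.Lib.QuadricFinal

/-!
Assembling the three fixed lines, and the degeneracy of the first one.
-/

set_option autoImplicit false
open Crest.GeometryTopology.Quadric
open Crest.Agent.Lib.QuadricBlock Crest.Agent.Lib.QuadricLeft Crest.Agent.Lib.QuadricRot
open Crest.Agent.Lib.QuadricTwist Crest.Agent.Lib.QuadricFixed Crest.Agent.Lib.QuadricFinal

namespace Crest.Agent.Lib.QuadricAssemble

/-- The degenerate fixed point. -/
noncomputable def z0 : E := ![⟨3 / 10, 1 / 2⟩, ⟨2 / 5, 0⟩, ⟨2 / 5, 0⟩, ⟨-(3 / 10), 1 / 2⟩, 0]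

/-- The fixed tangent vector at the degenerate fixed point. -/
noncomputable def w0 : E := ![0, -1, 1, 0, 0]

lemma z0_cone : z0 ∈ unitCone := by
  rw [mem_unitCone_iff]
  refine ⟨?_, ?_, ?_⟩ <;> simp [NN, I1, I2, z0] <;> norm_num

lemma z0_four : z0 4 = 0 := rfl

lemma z0_zero : z0 0 ≠ 0 := by
  intro h
  have : (⟨3 / 10, 1 / 2⟩ : ℂ).re = (0 : ℂ).re := congrArg Complex.re h
  norm_num at this

lemma z0_x1 : xv1 z0 = 0 := by simp [xv1, z0]; norm_num
lemma z0_x2 : xv2 z0 = 4 / 5 := by simp [xv2, z0]; norm_num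
lemma z0_x3 : xv3 z0 = -(3 / 5) := by simp [xv3, z0]; norm_num
lemma z0_y1 : yv1 z0 = -(4 / 5) := by simp [yv1, z0]; norm_num
lemma z0_y2 : yv2 z0 = 0 := by simp [yv2, z0]; norm_num
lemma z0_y3 : yv3 z0 = 3 / 5 := by simp [yv3, z0]; norm_num

/-- The positive square root appearing in the other two fixed lines. -/
noncomputable def ee : ℝ := Real.sqrt (1056 / 1681)

lemma ee_sq : ee ^ 2 = 1056 / 1681 := Real.sq_sqrt (by norm_num)
lemma ee_pos : 0 < ee := Real.sqrt_pos.2 (by norm_num)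

lemma exists_zp : ∃ z : E, z ∈ unitCone ∧ z 4 = 0 ∧ z 0 ≠ 0 ∧ xv1 z = ee ∧ xv2 z = -(20 / 41) ∧
    xv3 z = 15 / 41 ∧ yv1 z = 20 / 41 ∧ yv2 z = -ee ∧ yv3 z = -(15 / 41) := by
  apply lift_exists
  · rw [show ee ^ 2 + (-(20 / 41 : ℝ)) ^ 2 + (15 / 41 : ℝ) ^ 2 = ee ^ 2 + 625 / 1681 by ring, ee_sq]
    norm_num
  · rw [show (20 / 41 : ℝ) ^ 2 + (-ee) ^ 2 + (-(15 / 41 : ℝ)) ^ 2 = ee ^ 2 + 625 / 1681 by
      ring_nf, ee_sq]
    norm_num
  · have : (0 : ℝ) < (15 / 41 - -(15 / 41)) ^ 2 := by norm_num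
    positivity

lemma exists_zm : ∃ z : E, z ∈ unitCone ∧ z 4 = 0 ∧ z 0 ≠ 0 ∧ xv1 z = -ee ∧ xv2 z = -(20 / 41) ∧
    xv3 z = 15 / 41 ∧ yv1 z = 20 / 41 ∧ yv2 z = ee ∧ yv3 z = -(15 / 41) := by
  apply lift_exists
  · rw [show (-ee) ^ 2 + (-(20 / 41 : ℝ)) ^ 2 + (15 / 41 : ℝ) ^ 2 = ee ^ 2 + 625 / 1681 by
      ring_nf, ee_sq]
    norm_num
  · rw [show (20 / 41 : ℝ) ^ 2 + ee ^ 2 + (-(15 / 41 : ℝ)) ^ 2 = ee ^ 2 + 625 / 1681 by
      ring_nf, ee_sq]
    norm_num
  · have : (0 : ℝ) < (15 / 41 - -(15 / 41)) ^ 2 := by norm_num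
    positivity

/-- If two points of the cone span the same line, their invariants agree. -/
lemma same_line_xv1 (z z' : E) (hz : z ∈ unitCone) (hz' : z' ∈ unitCone)
    (h : Submodule.span ℂ {z} = Submodule.span ℂ {z'}) : xv1 z = xv1 z' := by
  have h1 : z ∈ Submodule.span ℂ {z'} := by
    rw [← h]; exact Submodule.mem_span_singleton_self z
  obtain ⟨a, ha⟩ := Submodule.mem_span_singleton.1 h1
  have hN := ((mem_unitCone_iff z).1 hz).1
  have hN' := ((mem_unitCone_iff z').1 hz').1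
  rw [← ha, NN_smul, hN', mul_one] at hN
  have hc : ‖a‖ = 1 := by
    have h3 : ‖a‖ ^ 2 = 1 := by
      rw [Complex.sq_norm, Complex.normSq_apply]; nlinarith
    have h4 := norm_nonneg a
    nlinarith
  rw [← ha, xv1_smul z' a hc]

/-- A fixed line is spanned by a point with the same invariants. -/
lemma span_eq_of_same (z z' : E) (hz : z ∈ unitCone) (h4 : z 4 = 0) (hz' : z' ∈ unitCone)
    (h4' : z' 4 = 0) (hne : z' 0 ≠ 0)
    (hx1 : xv1 z = xv1 z') (hx2 : xv2 z = xv2 z') (hx3 : xv3 z = xv3 z')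
    (hy1 : yv1 z = yv1 z') (hy2 : yv2 z = yv2 z') (hy3 : yv3 z = yv3 z') :
    Submodule.span ℂ {z} = Submodule.span ℂ {z'} := by
  obtain ⟨μ, hμ⟩ := prop_of_same_inv z z' hz h4 hz' h4' hne hx1 hx2 hx3 hy1 hy2 hy3
  have hμ0 : μ ≠ 0 := by
    rintro rfl
    have := ((mem_unitCone_iff z).1 hz).1
    rw [hμ, zero_smul] at this
    simp [NN] at this
  rw [hμ]
  exact Submodule.span_singleton_smul_eq (IsUnit.mk0 μ hμ0) z'

/-- The lift. -/
noncomputable def theLift : HamiltonianConeLift := theBlock.toLift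

lemma theLift_one (z : E) : theLift.Ψ (1, z) = Φ z := theBlock_one z

theorem fixedLines_three : (fixedLines theLift).ncard = 3 := by
  obtain ⟨zp, hzp, h4p, h0p, xp1, xp2, xp3, yp1, yp2, yp3⟩ := exists_zp
  obtain ⟨zm, hzm, h4m, h0m, xm1, xm2, xm3, ym1, ym2, ym3⟩ := exists_zm
  rw [Set.ncard_eq_three]
  refine ⟨Submodule.span ℂ {z0}, Submodule.span ℂ {zp}, Submodule.span ℂ {zm}, ?_, ?_, ?_, ?_⟩
  · intro h
    have := same_line_xv1 _ _ z0_cone hzp h
    rw [z0_x1, xp1] at this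
    exact ee_pos.ne this
  · intro h
    have := same_line_xv1 _ _ z0_cone hzm h
    rw [z0_x1, xm1] at this
    linarith [ee_pos]
  · intro h
    have := same_line_xv1 _ _ hzp hzm h
    rw [xp1, xm1] at this
    linarith [ee_pos]
  · ext ℓ
    simp only [Set.mem_insert_iff, Set.mem_singleton_iff]
    constructor
    · rintro ⟨z, hz, rfl, hmem⟩
      rw [theLift_one] at hmem
      obtain ⟨c, hc⟩ := Submodule.mem_span_singleton.1 hmem
      obtain ⟨hc1, h4⟩ := fixed_basic z hz c hc.symm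
      rcases fixed_solve z hz h4 c hc1 hc.symm with
        ⟨a1, a2, a3, a4, a5, a6⟩ | ⟨a1, a2, a3, a4, a5, a6⟩
      · left
        apply span_eq_of_same z z0 hz h4 z0_cone z0_four z0_zero
        · rw [a1, z0_x1]
        · rw [a2, z0_x2]
        · rw [a3, z0_x3]
        · rw [a4, z0_y1]
        · rw [a5, z0_y2]
        · rw [a6, z0_y3]
      · right
        have hcase : xv1 z = ee ∨ xv1 z = -ee := by
          have : (xv1 z - ee) * (xv1 z + ee) = 0 := by
            have := ee_sq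
            linear_combination a1 - this
          rcases mul_eq_zero.1 this with h | h
          · left; linarith
          · right; linarith
        rcases hcase with h | h
        · left
          apply span_eq_of_same z zp hz h4 hzp h4p h0p
          · rw [h, xp1]
          · rw [a2, xp2]
          · rw [a3, xp3]
          · rw [a4, yp1]
          · rw [a5, yp2, h]
          · rw [a6, yp3]
        · right
          apply span_eq_of_same z zm hz h4 hzm h4m h0m
          · rw [h, xm1]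
          · rw [a2, xm2]
          · rw [a3, xm3]
          · rw [a4, ym1]
          · rw [a5, ym2, h]; ring
          · rw [a6, ym3]
    · have hfix : ∀ z : E, z ∈ unitCone → (∃ μ : ℂ, Φ z = μ • z) →
          Submodule.span ℂ {z} ∈ fixedLines theLift := by
        rintro z hz ⟨μ, hμ⟩
        refine ⟨z, hz, rfl, ?_⟩
        rw [theLift_one, hμ]
        exact Submodule.smul_mem _ _ (Submodule.mem_span_singleton_self z)
      rintro (rfl | rfl | rfl)
      · refine hfix z0 z0_cone (good_fixed z0 z0_cone z0_four z0_zero ?_ ?_ ?_ ?_)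
        · rw [z0_x3, z0_x2]; norm_num
        · rw [z0_y1, z0_x2]
        · rw [z0_y3, z0_x2]; norm_num
        · rw [z0_x2, z0_x1, z0_y2]; norm_num
      · refine hfix zp hzp (good_fixed zp hzp h4p h0p ?_ ?_ ?_ ?_)
        · rw [xp3, xp2]; norm_num
        · rw [yp1, xp2]; norm_num
        · rw [yp3, xp2]; norm_num
        · rw [xp2, xp1, yp2]
          have := ee_sq
          linear_combination this
      · refine hfix zm hzm (good_fixed zm hzm h4m h0m ?_ ?_ ?_ ?_)
        · rw [xm3, xm2]; norm_num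
        · rw [ym1, xm2]; norm_num
        · rw [ym3, xm2]; norm_num
        · rw [xm2, xm1, ym2]
          have := ee_sq
          linear_combination this

/-! ### Degeneracy -/

section degenerate
variable (ε : ℝ)

local notation "yy" => mz (z0 + ε • w0)

lemma yy_re0 : (mz (z0 + ε • w0) 0).re = 3 / 10 := by
  rw [mz_re0]; simp [z0, w0]; ring
lemma yy_im0 : (mz (z0 + ε • w0) 0).im = -(1 / 2) := by
  rw [mz_im0]; simp [z0, w0]; norm_num
lemma yy_re1 : (mz (z0 + ε • w0) 1).re = -(2 / 5) + ε := by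
  rw [mz_re1]; simp [z0, w0]; ring
lemma yy_im1 : (mz (z0 + ε • w0) 1).im = 0 := by
  rw [mz_im1]; simp [z0, w0]
lemma yy_re2 : (mz (z0 + ε • w0) 2).re = -(2 / 5) - ε := by
  rw [mz_re2]; simp [z0, w0]; ring
lemma yy_im2 : (mz (z0 + ε • w0) 2).im = 0 := by
  rw [mz_im2]; simp [z0, w0]
lemma yy_re3 : (mz (z0 + ε • w0) 3).re = -(3 / 10) := by
  rw [mz_re3]; simp [z0, w0]; ring
lemma yy_im3 : (mz (z0 + ε • w0) 3).im = -(1 / 2) := by
  rw [mz_im3]; simp [z0, w0]; norm_num

lemma yy_sv1 : sv1 (mz (z0 + ε • w0)) = -(4 / 5) - 2 * ε := by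
  simp only [sv1, yy_re2, yy_re3, yy_im2, yy_im3]; ring
lemma yy_sv2 : sv2 (mz (z0 + ε • w0)) = 4 / 5 - 2 * ε := by
  simp only [sv2, yy_re1, yy_re3, yy_im1, yy_im3]; ring
lemma yy_sv3 : sv3 (mz (z0 + ε • w0)) = 0 := by
  simp only [sv3, yy_re1, yy_re2, yy_im1, yy_im2]; ring

lemma den_form : rD (15 / 16 * (-(4 / 5) - 2 * ε)) (15 / 16 * (4 / 5 - 2 * ε)) (15 / 16 * 0) 1 =
    17 / 8 + 225 / 32 * ε ^ 2 := by
  simp only [rD]; ring

lemma den_form_ne : (17 / 8 + 225 / 32 * ε ^ 2 : ℝ) ≠ 0 := by positivity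

lemma phi_re1 : (Φ (z0 + ε • w0) 1).re =
    -(16 / 85) + 8 / 17 * ε + ε ^ 2 * ((1125 / 272 - 5625 / 544 * ε) / (17 / 8 + 225 / 32 * ε ^ 2)) := by
  show (twΨ (15 / 16) 1 (mz (z0 + ε • w0)) 1).re = _
  rw [tw_re1, yy_sv1, yy_sv2, yy_sv3, yy_re1, yy_re2, yy_re3]
  simp only [rot1, fA, fB, den_form]
  have := den_form_ne ε
  field_simp
  ring

lemma phi_re2 : (Φ (z0 + ε • w0) 2).re =
    -(16 / 85) - 8 / 17 * ε + ε ^ 2 * ((1125 / 272 + 5625 / 544 * ε) / (17 / 8 + 225 / 32 * ε ^ 2)) := by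
  show (twΨ (15 / 16) 1 (mz (z0 + ε • w0)) 2).re = _
  rw [tw_re2, yy_sv1, yy_sv2, yy_sv3, yy_re1, yy_re2, yy_re3]
  simp only [rot2, fA, fB, den_form]
  have := den_form_ne ε
  field_simp
  ring

lemma phi_re3 : (Φ (z0 + ε • w0) 3).re =
    99 / 170 + 0 * ε + ε ^ 2 * ((375 / 68 + 0 * ε) / (17 / 8 + 225 / 32 * ε ^ 2)) := by
  show (twΨ (15 / 16) 1 (mz (z0 + ε • w0)) 3).re = _
  rw [tw_re3, yy_sv1, yy_sv2, yy_sv3, yy_re1, yy_re2, yy_re3]
  simp only [rot3, fA, fB, den_form]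
  have := den_form_ne ε
  field_simp
  ring

lemma phi_im1 : (Φ (z0 + ε • w0) 1).im =
    -(6 / 17) + 15 / 17 * ε + ε ^ 2 * ((675 / 272 - 3375 / 544 * ε) / (17 / 8 + 225 / 32 * ε ^ 2)) := by
  show (twΨ (15 / 16) 1 (mz (z0 + ε • w0)) 1).im = _
  rw [tw_im1, yy_sv1, yy_sv2, yy_sv3, yy_im1, yy_im2, yy_im3]
  simp only [rot1, fA, fB, den_form]
  have := den_form_ne ε
  field_simp
  ring

lemma phi_im2 : (Φ (z0 + ε • w0) 2).im =
    -(6 / 17) - 15 / 17 * ε + ε ^ 2 * ((675 / 272 + 3375 / 544 * ε) / (17 / 8 + 225 / 32 * ε ^ 2)) := by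
  show (twΨ (15 / 16) 1 (mz (z0 + ε • w0)) 2).im = _
  rw [tw_im2, yy_sv1, yy_sv2, yy_sv3, yy_im1, yy_im2, yy_im3]
  simp only [rot2, fA, fB, den_form]
  have := den_form_ne ε
  field_simp
  ring

lemma phi_im3 : (Φ (z0 + ε • w0) 3).im =
    1 / 34 + 0 * ε + ε ^ 2 * ((225 / 68 + 0 * ε) / (17 / 8 + 225 / 32 * ε ^ 2)) := by
  show (twΨ (15 / 16) 1 (mz (z0 + ε • w0)) 3).im = _
  rw [tw_im3, yy_sv1, yy_sv2, yy_sv3, yy_im1, yy_im2, yy_im3]
  simp only [rot3, fA, fB, den_form]
  have := den_form_ne ε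
  field_simp
  ring

end degenerate

lemma hasDerivAt_form (α β a b : ℝ) : HasDerivAt
    (fun ε : ℝ => α + β * ε + ε ^ 2 * ((a + b * ε) / (17 / 8 + 225 / 32 * ε ^ 2))) β 0 := by
  have hd : DifferentiableAt ℝ (fun ε : ℝ => (a + b * ε) / (17 / 8 + 225 / 32 * ε ^ 2)) 0 := by
    apply DifferentiableAt.div
    · fun_prop
    · fun_prop
    · positivity
  have h1 : HasDerivAt (fun ε : ℝ => ε ^ 2) 0 0 := by
    simpa using hasDerivAt_pow 2 (0 : ℝ)
  have h2 := h1.mul hd.hasDerivAt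
  have h3 : HasDerivAt (fun ε : ℝ => α + β * ε) β 0 := by
    simpa using ((hasDerivAt_id (0 : ℝ)).const_mul β).const_add α
  have h4 := h3.add h2
  refine h4.congr_deriv ?_
  simp

lemma hasDerivAt_complex {f : ℝ → ℂ} {a b x : ℝ} (h1 : HasDerivAt (fun t => (f t).re) a x)
    (h2 : HasDerivAt (fun t => (f t).im) b x) : HasDerivAt f ⟨a, b⟩ x := by
  have h := (h1.smul_const (1 : ℂ)).add (h2.smul_const Complex.I)
  have e : (fun t => (f t).re • (1 : ℂ) + (f t).im • Complex.I) = f := by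
    funext t
    apply Complex.ext <;> simp
  rw [show ((fun t => (f t).re • (1 : ℂ)) + fun t => (f t).im • Complex.I) = f from e] at h
  refine h.congr_deriv ?_
  apply Complex.ext <;> simp

/-- The multiplier at the degenerate fixed point. -/
noncomputable def c0 : ℂ := ⟨-(8 / 17), -(15 / 17)⟩

lemma line_deriv : HasDerivAt (fun ε : ℝ => Φ (z0 + ε • w0)) (c0 • w0) 0 := by
  rw [hasDerivAt_pi]
  intro i
  fin_cases i
  · have h1 : HasDerivAt (fun ε : ℝ => (Φ (z0 + ε • w0) 0).re) 0 0 := by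
      have : (fun ε : ℝ => (Φ (z0 + ε • w0) 0).re) = fun _ => 3 / 10 := by
        funext ε; exact yy_re0 ε
      rw [this]; exact hasDerivAt_const _ _
    have h2 : HasDerivAt (fun ε : ℝ => (Φ (z0 + ε • w0) 0).im) 0 0 := by
      have : (fun ε : ℝ => (Φ (z0 + ε • w0) 0).im) = fun _ => -(1 / 2) := by
        funext ε; exact yy_im0 ε
      rw [this]; exact hasDerivAt_const _ _
    have := hasDerivAt_complex h1 h2
    refine this.congr_deriv ?_
    apply Complex.ext <;> simp [w0]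
  · have h1 : HasDerivAt (fun ε : ℝ => (Φ (z0 + ε • w0) 1).re) (8 / 17) 0 := by
      have := hasDerivAt_form (-(16 / 85)) (8 / 17) (1125 / 272) (-(5625 / 544))
      refine this.congr_of_eventuallyEq (Filter.Eventually.of_forall fun ε => ?_)
      show (Φ (z0 + ε • w0) 1).re = _
      rw [phi_re1]; ring
    have h2 : HasDerivAt (fun ε : ℝ => (Φ (z0 + ε • w0) 1).im) (15 / 17) 0 := by
      have := hasDerivAt_form (-(6 / 17)) (15 / 17) (675 / 272) (-(3375 / 544))
      refine this.congr_of_eventuallyEq (Filter.Eventually.of_forall fun ε => ?_)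
      show (Φ (z0 + ε • w0) 1).im = _
      rw [phi_im1]; ring
    have := hasDerivAt_complex h1 h2
    refine this.congr_deriv ?_
    apply Complex.ext <;> simp [w0, c0]
  · have h1 : HasDerivAt (fun ε : ℝ => (Φ (z0 + ε • w0) 2).re) (-(8 / 17)) 0 := by
      have := hasDerivAt_form (-(16 / 85)) (-(8 / 17)) (1125 / 272) (5625 / 544)
      refine this.congr_of_eventuallyEq (Filter.Eventually.of_forall fun ε => ?_)
      show (Φ (z0 + ε • w0) 2).re = _
      rw [phi_re2]; ring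
    have h2 : HasDerivAt (fun ε : ℝ => (Φ (z0 + ε • w0) 2).im) (-(15 / 17)) 0 := by
      have := hasDerivAt_form (-(6 / 17)) (-(15 / 17)) (675 / 272) (3375 / 544)
      refine this.congr_of_eventuallyEq (Filter.Eventually.of_forall fun ε => ?_)
      show (Φ (z0 + ε • w0) 2).im = _
      rw [phi_im2]; ring
    have := hasDerivAt_complex h1 h2
    refine this.congr_deriv ?_
    apply Complex.ext <;> simp [w0, c0]
  · have h1 : HasDerivAt (fun ε : ℝ => (Φ (z0 + ε • w0) 3).re) 0 0 := by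
      have := hasDerivAt_form (99 / 170) 0 (375 / 68) 0
      refine this.congr_of_eventuallyEq (Filter.Eventually.of_forall fun ε => ?_)
      show (Φ (z0 + ε • w0) 3).re = _
      rw [phi_re3]
    have h2 : HasDerivAt (fun ε : ℝ => (Φ (z0 + ε • w0) 3).im) 0 0 := by
      have := hasDerivAt_form (1 / 34) 0 (225 / 68) 0
      refine this.congr_of_eventuallyEq (Filter.Eventually.of_forall fun ε => ?_)
      show (Φ (z0 + ε • w0) 3).im = _
      rw [phi_im3]
    have := hasDerivAt_complex h1 h2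
    refine this.congr_deriv ?_
    apply Complex.ext <;> simp [w0]
  · have : (fun ε : ℝ => Φ (z0 + ε • w0) 4) = fun _ => 0 := by
      funext ε
      show (z0 + ε • w0) 4 = 0
      simp [z0, w0]
    show HasDerivAt (fun ε : ℝ => Φ (z0 + ε • w0) 4) _ 0
    rw [this]
    have h := hasDerivAt_const (0 : ℝ) (0 : ℂ)
    refine h.congr_deriv ?_
    simp [w0]

lemma Φ_eq (x : E) : theBlock.Ψ 1 x = Φ x := theBlock_one x

lemma slice_contDiff (B : ConeBlock) (t : ℝ) : ContDiff ℝ sm (B.Ψ t) := by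
  have h := B.smooth_Ψ
  have h2 : ContDiff ℝ sm (fun x : E => ((t, x) : ℝ × E)) := contDiff_const.prodMk contDiff_id
  exact h.comp h2

lemma Φ_differentiable : Differentiable ℝ Φ := by
  have h1 : ContDiff ℝ sm (theBlock.Ψ 1) := slice_contDiff theBlock 1
  have h2 : theBlock.Ψ 1 = Φ := funext Φ_eq
  rw [h2] at h1
  exact h1.differentiable (by simp)

lemma fderiv_Φ : fderiv ℝ Φ z0 w0 = c0 • w0 := by
  have hF : HasFDerivAt Φ (fderiv ℝ Φ z0) z0 := (Φ_differentiable z0).hasFDerivAt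
  have hγ : HasDerivAt (fun ε : ℝ => z0 + ε • w0) w0 0 := by
    have := ((hasDerivAt_id (0 : ℝ)).smul_const w0).const_add z0
    simpa using this
  have h := HasFDerivAt.comp_hasDerivAt_of_eq (0 : ℝ) hF hγ (by simp)
  exact h.unique line_deriv

lemma Φ_z0 : Φ z0 = c0 • z0 := by
  funext i
  have e : z0 + (0 : ℝ) • w0 = z0 := by simp
  fin_cases i
  · apply Complex.ext
    · have := yy_re0 0
      rw [e] at this
      show (mz z0 0).re = _
      rw [this]; simp [c0, z0]; norm_num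
    · have := yy_im0 0
      rw [e] at this
      show (mz z0 0).im = _
      rw [this]; simp [c0, z0]; norm_num
  · apply Complex.ext
    · have := phi_re1 0
      rw [e] at this
      show (Φ z0 1).re = _
      rw [this]; simp [c0, z0]; norm_num
    · have := phi_im1 0
      rw [e] at this
      show (Φ z0 1).im = _
      rw [this]; simp [c0, z0]; norm_num
  · apply Complex.ext
    · have := phi_re2 0
      rw [e] at this
      show (Φ z0 2).re = _
      rw [this]; simp [c0, z0]; norm_num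
    · have := phi_im2 0
      rw [e] at this
      show (Φ z0 2).im = _
      rw [this]; simp [c0, z0]; norm_num
  · apply Complex.ext
    · have := phi_re3 0
      rw [e] at this
      show (Φ z0 3).re = _
      rw [this]; simp [c0, z0]; norm_num
    · have := phi_im3 0
      rw [e] at this
      show (Φ z0 3).im = _
      rw [this]; simp [c0, z0]; norm_num
  · show Φ z0 4 = _
    rw [Φ_four]
    simp [z0]

theorem degenerate_point : HasDegenerateFixedPoint theLift := by
  refine ⟨z0, z0_cone, c0, ?_, w0, ⟨?_, ?_⟩, ?_, 0, ?_⟩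
  · rw [theLift_one]; exact Φ_z0
  · simp [herm, Fin.sum_univ_five, z0, w0]
  · simp [Fin.sum_univ_five, z0, w0]
  · intro r h
    have h1 : w0 1 = (((r : ℂ) * Complex.I) • z0) 1 := congrFun h 1
    have h2 := congrArg Complex.re h1
    simp [w0, z0] at h2
  · have e : (fun x : E => theLift.Ψ (1, x)) = Φ := funext theLift_one
    rw [e, fderiv_Φ]
    simp

end Crest.Agent.Lib.QuadricAssemble
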