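import Crest.Prelude.Def_QuadricHamiltonian

/-!
Blocks of Hamiltonian cone lifts: time-dependent maps of complex 5-space, preserving the unit
isotropic cone and obeying Hamilton's equation, together with their concatenation.  The final lift
used for S0316 is a concatenation of three explicit blocks.
-/

set_option autoImplicit false
open Crest.GeometryTopology.Quadric
open scoped Topology

namespace Crest.Agent.Lib.QuadricBlock

/-- complex 5-space -/
abbrev E := Fin 5 → ℂ

/-- the smoothness exponent of the statement -/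
abbrev sm : WithTop ℕ∞ := ((⊤ : ℕ∞) : WithTop ℕ∞)

/-- A block: a smooth family of maps, identity at time `0`, preserving the cone, equivariant under
unit scalars, with a smooth invariant Hamiltonian satisfying Hamilton's equation (even against all
vectors and at all points). -/
structure ConeBlock where
  Ψ : ℝ → E → E
  H : ℝ → E → ℝ
  smooth_Ψ : ContDiff ℝ sm (fun p : ℝ × E => Ψ p.1 p.2)
  smooth_H : ContDiff ℝ sm (fun p : ℝ × E => H p.1 p.2)
  mapsTo_cone : ∀ τ, ∀ z ∈ unitCone, Ψ τ z ∈ unitCone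
  compatible : ∀ (τ : ℝ) (z : E) (c : ℂ), ‖c‖ = 1 → Ψ τ (c • z) = c • Ψ τ z
  start : ∀ z, Ψ 0 z = z
  invariant : ∀ (τ : ℝ) (z : E) (c : ℂ), ‖c‖ = 1 → H τ (c • z) = H τ z
  hamilton : ∀ (τ : ℝ) (z w : E),
    2 * (herm (deriv (fun s : ℝ => Ψ s z) τ) w).im = fderiv ℝ (H τ) (Ψ τ z) w

/-- A block gives a Hamiltonian cone lift. -/
noncomputable def ConeBlock.toLift (b : ConeBlock) : HamiltonianConeLift where
  Ψ := fun p => b.Ψ p.1 p.2
  H := fun p => b.H p.1 p.2
  smooth_Ψ := b.smooth_Ψ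
  smooth_H := b.smooth_H
  mapsTo_cone := fun t z hz => b.mapsTo_cone t z hz
  compatible := fun t z _ c hc => ⟨c, b.compatible t z c hc⟩
  start := fun z _ => ⟨1, by simpa using b.start z⟩
  invariant := fun t z _ c hc => b.invariant t z c hc
  hamilton := fun t _ z _ w _ => b.hamilton t z w

/-- first time change -/
noncomputable def k1 (τ : ℝ) : ℝ := Real.smoothTransition (3 * τ)
/-- second time change -/
noncomputable def k2 (τ : ℝ) : ℝ := Real.smoothTransition (3 * τ - 2)

lemma k1_contDiff : ContDiff ℝ sm k1 :=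
  Real.smoothTransition.contDiff.comp (contDiff_const.mul contDiff_id)
lemma k2_contDiff : ContDiff ℝ sm k2 :=
  Real.smoothTransition.contDiff.comp ((contDiff_const.mul contDiff_id).sub contDiff_const)

lemma deriv_smooth {f : ℝ → ℝ} (hf : ContDiff ℝ sm f) : ContDiff ℝ sm (deriv f) := by
  have : (sm : WithTop ℕ∞) = ((⊤ : ℕ∞) : WithTop ℕ∞) := rfl
  rw [this] at hf ⊢
  exact ((contDiff_infty_iff_deriv (𝕜 := ℝ) (f := f)).1 hf).2

lemma k1_zero : k1 0 = 0 := by
  simp [k1, Real.smoothTransition.zero]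
lemma k2_zero : k2 0 = 0 := by
  unfold k2
  exact Real.smoothTransition.zero_of_nonpos (by norm_num)
lemma k1_one : k1 1 = 1 := by
  unfold k1
  exact Real.smoothTransition.one_of_one_le (by norm_num)
lemma k2_one : k2 1 = 1 := by
  unfold k2
  exact Real.smoothTransition.one_of_one_le (by norm_num)

lemma k2_ev_zero {τ : ℝ} (h : τ < 2 / 3) : ∀ᶠ s in 𝓝 τ, k2 s = 0 := by
  filter_upwards [eventually_lt_nhds h] with s hs
  unfold k2
  exact Real.smoothTransition.zero_of_nonpos (by linarith)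

lemma k1_ev_one {τ : ℝ} (h : 1 / 3 < τ) : ∀ᶠ s in 𝓝 τ, k1 s = 1 := by
  filter_upwards [eventually_gt_nhds h] with s hs
  unfold k1
  exact Real.smoothTransition.one_of_one_le (by linarith)

lemma deriv_k2 {τ : ℝ} (h : τ < 2 / 3) : deriv k2 τ = 0 := by
  have : k2 =ᶠ[𝓝 τ] fun _ => (0 : ℝ) := k2_ev_zero h
  rw [this.deriv_eq]; simp

lemma deriv_k1 {τ : ℝ} (h : 1 / 3 < τ) : deriv k1 τ = 0 := by
  have : k1 =ᶠ[𝓝 τ] fun _ => (1 : ℝ) := k1_ev_one h
  rw [this.deriv_eq]; simp

lemma herm_real_smul (r : ℝ) (v w : E) : herm (r • v) w = (r : ℂ) * herm v w := by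
  simp only [herm, Pi.smul_apply, Finset.mul_sum, Complex.real_smul, map_mul, Complex.conj_ofReal,
    mul_assoc]

lemma herm_real_smul_im (r : ℝ) (v w : E) : (herm (r • v) w).im = r * (herm v w).im := by
  rw [herm_real_smul]; simp

namespace ConeBlock

variable (b b' : ConeBlock)

lemma differentiableAt_time (z : E) (τ : ℝ) : DifferentiableAt ℝ (fun s : ℝ => b.Ψ s z) τ := by
  have h1 : ContDiff ℝ sm (fun s : ℝ => b.Ψ s z) :=
    b.smooth_Ψ.comp (contDiff_id.prodMk contDiff_const)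
  exact (h1.differentiable (by simp)).differentiableAt

lemma differentiable_H (τ : ℝ) : Differentiable ℝ (b.H τ) := by
  have h1 : ContDiff ℝ sm (b.H τ) :=
    b.smooth_H.comp (contDiff_const.prodMk contDiff_id)
  exact h1.differentiable (by simp)

/-- Concatenation of two blocks: first `b`, then `b'`, with flat time changes. -/
noncomputable def concat : ConeBlock where
  Ψ := fun τ z => b'.Ψ (k2 τ) (b.Ψ (k1 τ) z)
  H := fun τ x => deriv k1 τ * b.H (k1 τ) x + deriv k2 τ * b'.H (k2 τ) x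
  smooth_Ψ := by
    have h1 : ContDiff ℝ sm (fun p : ℝ × E => b.Ψ (k1 p.1) p.2) :=
      b.smooth_Ψ.comp ((k1_contDiff.comp contDiff_fst).prodMk contDiff_snd)
    exact b'.smooth_Ψ.comp ((k2_contDiff.comp contDiff_fst).prodMk h1)
  smooth_H := by
    have h1 : ContDiff ℝ sm (fun p : ℝ × E => b.H (k1 p.1) p.2) :=
      b.smooth_H.comp ((k1_contDiff.comp contDiff_fst).prodMk contDiff_snd)
    have h2 : ContDiff ℝ sm (fun p : ℝ × E => b'.H (k2 p.1) p.2) :=
      b'.smooth_H.comp ((k2_contDiff.comp contDiff_fst).prodMk contDiff_snd)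
    exact (((deriv_smooth k1_contDiff).comp contDiff_fst).mul h1).add
      (((deriv_smooth k2_contDiff).comp contDiff_fst).mul h2)
  mapsTo_cone := fun τ z hz => b'.mapsTo_cone _ _ (b.mapsTo_cone _ _ hz)
  compatible := fun τ z c hc => by
    simp only [b.compatible _ z c hc, b'.compatible _ _ c hc]
  start := fun z => by
    simp [k1_zero, k2_zero, b.start, b'.start]
  invariant := fun τ z c hc => by
    simp only [b.invariant _ z c hc, b'.invariant _ z c hc]
  hamilton := fun τ z w => by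
    by_cases h : τ < 2 / 3
    · -- only `b` moves near `τ`
      have hev : (fun s : ℝ => b'.Ψ (k2 s) (b.Ψ (k1 s) z)) =ᶠ[𝓝 τ] fun s => b.Ψ (k1 s) z := by
        filter_upwards [k2_ev_zero h] with s hs
        rw [hs, b'.start]
      have hd : deriv (fun s : ℝ => b.Ψ (k1 s) z) τ =
          deriv k1 τ • deriv (fun s : ℝ => b.Ψ s z) (k1 τ) := by
        have h1 : HasDerivAt (fun s : ℝ => b.Ψ s z) (deriv (fun s : ℝ => b.Ψ s z) (k1 τ)) (k1 τ) :=
          (b.differentiableAt_time z _).hasDerivAt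
        have h2 : HasDerivAt k1 (deriv k1 τ) τ :=
          ((k1_contDiff.differentiable (by simp)) τ).hasDerivAt
        exact (HasDerivAt.scomp τ h1 h2).deriv
      have hk2 : k2 τ = 0 := (k2_ev_zero h).self_of_nhds
      have hfun : (fun x => deriv k1 τ * b.H (k1 τ) x + deriv k2 τ * b'.H (k2 τ) x) =
          fun x => deriv k1 τ * b.H (k1 τ) x := by
        funext x; rw [deriv_k2 h]; ring
      rw [hev.deriv_eq, hd, herm_real_smul_im, hfun, hk2, b'.start]
      have hH : HasFDerivAt (b.H (k1 τ)) (fderiv ℝ (b.H (k1 τ)) (b.Ψ (k1 τ) z)) (b.Ψ (k1 τ) z) :=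
        (b.differentiable_H _ _).hasFDerivAt
      rw [(hH.const_mul (deriv k1 τ)).fderiv]
      simp only [FunLike.coe_smul, Pi.smul_apply, smul_eq_mul]
      rw [← b.hamilton]; ring
    · -- only `b'` moves near `τ`
      have h' : 1 / 3 < τ := by linarith [not_lt.mp h]
      have hev : (fun s : ℝ => b'.Ψ (k2 s) (b.Ψ (k1 s) z)) =ᶠ[𝓝 τ]
          fun s => b'.Ψ (k2 s) (b.Ψ 1 z) := by
        filter_upwards [k1_ev_one h'] with s hs
        rw [hs]
      have hd : deriv (fun s : ℝ => b'.Ψ (k2 s) (b.Ψ 1 z)) τ =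
          deriv k2 τ • deriv (fun s : ℝ => b'.Ψ s (b.Ψ 1 z)) (k2 τ) := by
        have h1 : HasDerivAt (fun s : ℝ => b'.Ψ s (b.Ψ 1 z))
            (deriv (fun s : ℝ => b'.Ψ s (b.Ψ 1 z)) (k2 τ)) (k2 τ) :=
          (b'.differentiableAt_time _ _).hasDerivAt
        have h2 : HasDerivAt k2 (deriv k2 τ) τ :=
          ((k2_contDiff.differentiable (by simp)) τ).hasDerivAt
        exact (HasDerivAt.scomp τ h1 h2).deriv
      have hk1 : k1 τ = 1 := (k1_ev_one h').self_of_nhds
      have hfun : (fun x => deriv k1 τ * b.H (k1 τ) x + deriv k2 τ * b'.H (k2 τ) x) =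
          fun x => deriv k2 τ * b'.H (k2 τ) x := by
        funext x; rw [deriv_k1 h']; ring
      rw [hev.deriv_eq, hd, herm_real_smul_im, hfun, hk1]
      have hH : HasFDerivAt (b'.H (k2 τ)) (fderiv ℝ (b'.H (k2 τ)) (b'.Ψ (k2 τ) (b.Ψ 1 z)))
          (b'.Ψ (k2 τ) (b.Ψ 1 z)) :=
        (b'.differentiable_H _ _).hasFDerivAt
      rw [(hH.const_mul (deriv k2 τ)).fderiv]
      simp only [FunLike.coe_smul, Pi.smul_apply, smul_eq_mul]
      rw [← b'.hamilton]; ring

lemma concat_one (z : E) : (b.concat b').Ψ 1 z = b'.Ψ 1 (b.Ψ 1 z) := by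
  show b'.Ψ (k2 1) (b.Ψ (k1 1) z) = _
  rw [k1_one, k2_one]

end ConeBlock

end Crest.Agent.Lib.QuadricBlock
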