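import Crest.Agent.Lib.QuadricFixed

/-!
The three fixed lines of the time-one map, and the degeneracy of the first one.
-/

set_option autoImplicit false
open Crest.GeometryTopology.Quadric
open Crest.Agent.Lib.QuadricBlock Crest.Agent.Lib.QuadricLeft Crest.Agent.Lib.QuadricRot
open Crest.Agent.Lib.QuadricTwist Crest.Agent.Lib.QuadricFixed

namespace Crest.Agent.Lib.QuadricFinal

/-! ### Real algebra used to exclude fixed points off the hyperplane -/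

lemma excl_core (k1 k2 k3 w0 w1 w2 w3 a0 a1 a2 a3 : ℝ)
    (ha0 : a0 = -(16 / 25) * w0 + 12 / 25 * w1 + 12 / 25 * w2 - 9 / 25 * w3)
    (ha1 : a1 = -(12 / 25) * w0 - 16 / 25 * w1 + 9 / 25 * w2 + 12 / 25 * w3)
    (ha2 : a2 = -(12 / 25) * w0 + 9 / 25 * w1 - 16 / 25 * w2 + 12 / 25 * w3)
    (ha3 : a3 = -(9 / 25) * w0 - 12 / 25 * w1 - 12 / 25 * w2 - 16 / 25 * w3)
    (h0 : a0 = w0)
    (h1 : w1 - a1 = k2 * (w3 + a3) - k3 * (w2 + a2))
    (h2 : w2 - a2 = k3 * (w1 + a1) - k1 * (w3 + a3))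
    (h3 : w3 - a3 = k1 * (w2 + a2) - k2 * (w1 + a1)) :
    (8 / 5 + 3 / 5 * (k2 - k1)) * (w0 ^ 2 + w1 ^ 2 + w2 ^ 2 + w3 ^ 2) = 0 := by
  subst ha0 ha1 ha2 ha3
  linear_combination
    (-(4 / 5 * w0 - 3 / 5 * w2) - (k1 * (4 / 5 * w1 - 3 / 5 * w3) + k2 * (4 / 5 * w2 + 3 / 5 * w0)
      + k3 * (4 / 5 * w3 + 3 / 5 * w1))) * h0
    + ((4 / 5 * w1 - 3 / 5 * w3) - (4 / 5 * w0 - 3 / 5 * w2) * k1) * h1
    + ((4 / 5 * w2 + 3 / 5 * w0) - (4 / 5 * w0 - 3 / 5 * w2) * k2) * h2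
    + ((4 / 5 * w3 + 3 / 5 * w1) - (4 / 5 * w0 - 3 / 5 * w2) * k3) * h3

lemma rr_le (y : E) (h : NN y = 1) : rr y ≤ 4 := by
  have hL : rr y = 16 * (((y 1).re ^ 2 + (y 2).re ^ 2 + (y 3).re ^ 2) *
      ((y 1).im ^ 2 + (y 2).im ^ 2 + (y 3).im ^ 2) -
      ((y 1).re * (y 1).im + (y 2).re * (y 2).im + (y 3).re * (y 3).im) ^ 2) := by
    simp only [rr, sv1, sv2, sv3]; ring
  set A := (y 1).re ^ 2 + (y 2).re ^ 2 + (y 3).re ^ 2 with hA
  set B := (y 1).im ^ 2 + (y 2).im ^ 2 + (y 3).im ^ 2 with hB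
  set C := (y 1).re * (y 1).im + (y 2).re * (y 2).im + (y 3).re * (y 3).im
  have hA0 : 0 ≤ A := by positivity
  have hB0 : 0 ≤ B := by positivity
  have hAB : A + B ≤ 1 := by
    simp only [NN] at h
    nlinarith [sq_nonneg (y 0).re, sq_nonneg (y 0).im, sq_nonneg (y 4).re, sq_nonneg (y 4).im]
  rw [hL]
  nlinarith [sq_nonneg C, sq_nonneg (A - B), mul_nonneg hA0 hB0]

lemma sum4_zero {a b c d : ℝ} (h : a ^ 2 + b ^ 2 + c ^ 2 + d ^ 2 = 0) :
    a = 0 ∧ b = 0 ∧ c = 0 ∧ d = 0 := by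
  have ha : a ^ 2 = 0 := by linarith [sq_nonneg a, sq_nonneg b, sq_nonneg c, sq_nonneg d]
  have hb : b ^ 2 = 0 := by linarith [sq_nonneg a, sq_nonneg b, sq_nonneg c, sq_nonneg d]
  have hc : c ^ 2 = 0 := by linarith [sq_nonneg a, sq_nonneg b, sq_nonneg c, sq_nonneg d]
  have hd : d ^ 2 = 0 := by linarith [sq_nonneg a, sq_nonneg b, sq_nonneg c, sq_nonneg d]
  exact ⟨by simpa using ha, by simpa using hb, by simpa using hc, by simpa using hd⟩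

lemma no_fixed_one (z : E) (hz : z ∈ unitCone) (hfix : Φ z = z) : False := by
  obtain ⟨h1, h2, h3⟩ := (mem_unitCone_iff z).1 hz
  set y := mz z with hy
  have hN : NN y = 1 := by rw [hy, NN_mz]; exact h1
  have hr := rr_le y hN
  set k1 := 15 / 16 * sv1 y with hk1
  set k2 := 15 / 16 * sv2 y with hk2
  set k3 := 15 / 16 * sv3 y with hk3
  -- coordinates
  have c0 : Φ z 0 = y 0 := rfl
  have c1 : Φ z 1 = twΨ (15 / 16) 1 y 1 := rfl
  have c2 : Φ z 2 = twΨ (15 / 16) 1 y 2 := rfl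
  have c3 : Φ z 3 = twΨ (15 / 16) 1 y 3 := rfl
  have e0 : y 0 = z 0 := by rw [← c0, hfix]
  have e1 : twΨ (15 / 16) 1 y 1 = z 1 := by rw [← c1, hfix]
  have e2 : twΨ (15 / 16) 1 y 2 = z 2 := by rw [← c2, hfix]
  have e3 : twΨ (15 / 16) 1 y 3 = z 3 := by rw [← c3, hfix]
  have re1 : rot1 k1 k2 k3 1 (y 1).re (y 2).re (y 3).re = (z 1).re := by rw [← tw_re1, e1]
  have re2 : rot2 k1 k2 k3 1 (y 1).re (y 2).re (y 3).re = (z 2).re := by rw [← tw_re2, e2]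
  have re3 : rot3 k1 k2 k3 1 (y 1).re (y 2).re (y 3).re = (z 3).re := by rw [← tw_re3, e3]
  have im1 : rot1 k1 k2 k3 1 (y 1).im (y 2).im (y 3).im = (z 1).im := by rw [← tw_im1, e1]
  have im2 : rot2 k1 k2 k3 1 (y 1).im (y 2).im (y 3).im = (z 2).im := by rw [← tw_im2, e2]
  have im3 : rot3 k1 k2 k3 1 (y 1).im (y 2).im (y 3).im = (z 3).im := by rw [← tw_im3, e3]
  have hu := excl_core k1 k2 k3 (z 0).re (z 1).re (z 2).re (z 3).re (y 0).re (y 1).re (y 2).re (y 3).re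
    (mz_re0 z) (mz_re1 z) (mz_re2 z) (mz_re3 z) (by rw [e0])
    (by have := rot_rel1 k1 k2 k3 1 (y 1).re (y 2).re (y 3).re
        rw [re1, re2, re3] at this; linear_combination this)
    (by have := rot_rel2 k1 k2 k3 1 (y 1).re (y 2).re (y 3).re
        rw [re1, re2, re3] at this; linear_combination this)
    (by have := rot_rel3 k1 k2 k3 1 (y 1).re (y 2).re (y 3).re
        rw [re1, re2, re3] at this; linear_combination this)
  have hv := excl_core k1 k2 k3 (z 0).im (z 1).im (z 2).im (z 3).im (y 0).im (y 1).im (y 2).im (y 3).im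
    (mz_im0 z) (mz_im1 z) (mz_im2 z) (mz_im3 z) (by rw [e0])
    (by have := rot_rel1 k1 k2 k3 1 (y 1).im (y 2).im (y 3).im
        rw [im1, im2, im3] at this; linear_combination this)
    (by have := rot_rel2 k1 k2 k3 1 (y 1).im (y 2).im (y 3).im
        rw [im1, im2, im3] at this; linear_combination this)
    (by have := rot_rel3 k1 k2 k3 1 (y 1).im (y 2).im (y 3).im
        rw [im1, im2, im3] at this; linear_combination this)
  have hF : (8 / 5 + 3 / 5 * (k2 - k1)) ≠ 0 := by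
    intro hF
    have : sv2 y - sv1 y = -(128 / 45) := by
      simp only [hk1, hk2] at hF
      linarith
    have h8 : (sv2 y - sv1 y) ^ 2 ≤ 8 := by
      simp only [rr] at hr
      nlinarith [sq_nonneg (sv1 y + sv2 y), sq_nonneg (sv3 y)]
    rw [this] at h8
    norm_num at h8
  have hu0 := (mul_eq_zero.1 hu).resolve_left hF
  have hv0 := (mul_eq_zero.1 hv).resolve_left hF
  obtain ⟨p0, p1, p2, p3⟩ := sum4_zero hu0
  obtain ⟨q0, q1, q2, q3⟩ := sum4_zero hv0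
  simp only [NN, I1, I2] at h1 h2 h3
  rw [p0, p1, p2, p3, q0, q1, q2, q3] at h1 h2 h3
  have b1 : (z 4).re ^ 2 = 1 / 2 := by linarith
  have b2 : (z 4).im ^ 2 = 1 / 2 := by linarith
  have a3 : (z 4).re * (z 4).im = 0 := by linarith
  have : ((z 4).re * (z 4).im) ^ 2 = 1 / 4 := by
    rw [mul_pow, b1, b2]; norm_num
  rw [a3] at this
  norm_num at this

lemma NN_smul (z : E) (c : ℂ) : NN (c • z) = (c.re ^ 2 + c.im ^ 2) * NN z := by
  simp only [NN, Pi.smul_apply, smul_eq_mul, Complex.mul_re, Complex.mul_im]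
  ring

/-- A fixed line on the cone has a unit multiplier and lies in the hyperplane. -/
lemma fixed_basic (z : E) (hz : z ∈ unitCone) (c : ℂ) (hfix : Φ z = c • z) :
    ‖c‖ = 1 ∧ z 4 = 0 := by
  have hc : ‖c‖ = 1 := by
    have h1 := ((mem_unitCone_iff z).1 hz).1
    have h2 := ((mem_unitCone_iff _).1 (Φ_cone z hz)).1
    rw [hfix, NN_smul, h1, mul_one] at h2
    have h3 : ‖c‖ ^ 2 = 1 := by
      rw [Complex.sq_norm, Complex.normSq_apply]; nlinarith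
    have h4 := norm_nonneg c
    nlinarith
  refine ⟨hc, ?_⟩
  by_contra hne
  have h4 : Φ z 4 = c * z 4 := by rw [hfix]; rfl
  rw [Φ_four] at h4
  have hc1 : c = 1 := by
    have : (c - 1) * z 4 = 0 := by linear_combination -h4
    rcases mul_eq_zero.1 this with h | h
    · linear_combination h
    · exact absurd h hne
  subst hc1
  exact no_fixed_one z hz (by rw [hfix, one_smul])

/-! ### The lines with good invariants are fixed -/

/-- If the invariants of `z` have the right shape, then the line of `z` is fixed. -/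
lemma good_fixed (z : E) (hz : z ∈ unitCone) (h4 : z 4 = 0) (h0 : z 0 ≠ 0)
    (h3x : xv3 z = -(3 / 4) * xv2 z) (h1y : yv1 z = -xv2 z) (h3y : yv3 z = 3 / 4 * xv2 z)
    (hkey : 4 / 5 * xv2 z = xv2 z ^ 2 + xv1 z * yv2 z) :
    ∃ μ : ℂ, Φ z = μ • z := by
  have m1 : xv1 (mz z) = xv1 z := xv1_mz z
  have m2 : xv2 (mz z) = xv2 z := by rw [xv2_mz, h3x]; ring
  have m3 : xv3 (mz z) = 3 / 4 * xv2 z := by rw [xv3_mz, h3x]; ring
  have m4 : yv1 (mz z) = -xv2 z := by rw [yv1_mz, h1y, h3y]; ring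
  have m5 : yv2 (mz z) = yv2 z := yv2_mz z
  have m6 : yv3 (mz z) = -(3 / 4) * xv2 z := by rw [yv3_mz, h1y, h3y]; ring
  have s1 : sv1 (mz z) = xv1 z - xv2 z := by rw [sv1_eq, m1, m4]; ring
  have s2 : sv2 (mz z) = xv2 z + yv2 z := by rw [sv2_eq, m2, m5]
  have s3 : sv3 (mz z) = 0 := by rw [sv3_eq, m3, m6]; ring
  have hx := rot_unique (15 / 16 * (xv1 z - xv2 z)) (15 / 16 * (xv2 z + yv2 z)) (15 / 16 * 0) 1
    (xv1 z) (xv2 z) (3 / 4 * xv2 z) (a1 := xv1 z) (a2 := xv2 z) (a3 := xv3 z)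
    (by rw [h3x]; ring) (by rw [h3x]; ring)
    (by rw [h3x]; linear_combination (-(15 / 8)) * hkey)
  have hy := rot_unique (15 / 16 * (xv1 z - xv2 z)) (15 / 16 * (xv2 z + yv2 z)) (15 / 16 * 0) 1
    (-xv2 z) (yv2 z) (-(3 / 4) * xv2 z) (a1 := yv1 z) (a2 := yv2 z) (a3 := yv3 z)
    (by rw [h1y, h3y]; ring) (by rw [h3y]; ring)
    (by rw [h1y, h3y]; linear_combination (15 / 8) * hkey)
  have t1 := xv1_tw (mz z) (15 / 16) 1
  have t2 := xv2_tw (mz z) (15 / 16) 1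
  have t3 := xv3_tw (mz z) (15 / 16) 1
  have t4 := yv1_tw (mz z) (15 / 16) 1
  have t5 := yv2_tw (mz z) (15 / 16) 1
  have t6 := yv3_tw (mz z) (15 / 16) 1
  rw [s1, s2, s3, m1, m2, m3] at t1 t2 t3
  rw [s1, s2, s3, m4, m5, m6] at t4 t5 t6
  refine prop_of_same_inv (Φ z) z (Φ_cone z hz) (by rw [Φ_four, h4]) hz h4 h0 ?_ ?_ ?_ ?_ ?_ ?_
  · exact t1.trans hx.1.symm
  · exact t2.trans hx.2.1.symm
  · exact t3.trans hx.2.2.symm
  · exact t4.trans hy.1.symm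
  · exact t5.trans hy.2.1.symm
  · exact t6.trans hy.2.2.symm

/-! ### Lifting a pair of unit vectors to a line -/

lemma lift_exists (x1 x2 x3 y1 y2 y3 : ℝ) (hx : x1 ^ 2 + x2 ^ 2 + x3 ^ 2 = 1)
    (hy : y1 ^ 2 + y2 ^ 2 + y3 ^ 2 = 1)
    (hne : 0 < (x1 - y1) ^ 2 + (x2 - y2) ^ 2 + (x3 - y3) ^ 2) :
    ∃ z : E, z ∈ unitCone ∧ z 4 = 0 ∧ z 0 ≠ 0 ∧ xv1 z = x1 ∧ xv2 z = x2 ∧ xv3 z = x3 ∧
      yv1 z = y1 ∧ yv2 z = y2 ∧ yv3 z = y3 := by
  set S := (x1 - y1) ^ 2 + (x2 - y2) ^ 2 + (x3 - y3) ^ 2 with hS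
  set a := Real.sqrt (S / 8) with ha
  have hapos : 0 < a := Real.sqrt_pos.2 (by positivity)
  have ha2 : a ^ 2 = S / 8 := Real.sq_sqrt (by positivity)
  set b := 1 / (4 * a) with hb
  have hab : a * b = 1 / 4 := by rw [hb]; field_simp
  have hq : x1 * y1 + x2 * y2 + x3 * y3 = 1 - 4 * a ^ 2 := by
    rw [ha2, hS]; linear_combination (1 / 2) * hx + (1 / 2) * hy
  set c1 := x2 * y3 - x3 * y2 with hc1
  set c2 := x3 * y1 - x1 * y3 with hc2
  set c3 := x1 * y2 - x2 * y1 with hc3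
  set d1 := y1 - x1 with hd1
  set d2 := y2 - x2 with hd2
  set d3 := y3 - x3 with hd3
  have hcc : c1 ^ 2 + c2 ^ 2 + c3 ^ 2 = 8 * a ^ 2 - 16 * a ^ 4 := by
    have : c1 ^ 2 + c2 ^ 2 + c3 ^ 2 = (x1 ^ 2 + x2 ^ 2 + x3 ^ 2) * (y1 ^ 2 + y2 ^ 2 + y3 ^ 2)
        - (x1 * y1 + x2 * y2 + x3 * y3) ^ 2 := by simp only [hc1, hc2, hc3]; ring
    rw [this, hx, hy, hq]; ring
  have hdd : d1 ^ 2 + d2 ^ 2 + d3 ^ 2 = 8 * a ^ 2 := by
    rw [ha2, hS]; simp only [hd1, hd2, hd3]; ring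
  have hcd : c1 * d1 + c2 * d2 + c3 * d3 = 0 := by
    simp only [hc1, hc2, hc3, hd1, hd2, hd3]; ring
  have hab2 : a ^ 2 * b ^ 2 = 1 / 16 := by
    have : a ^ 2 * b ^ 2 = (a * b) ^ 2 := by ring
    rw [this, hab]; norm_num
  refine ⟨![⟨a, 0⟩, ⟨b * c1, b * d1⟩, ⟨b * c2, b * d2⟩, ⟨b * c3, b * d3⟩, 0], ?_, rfl, ?_,
    ?_, ?_, ?_, ?_, ?_, ?_⟩
  · rw [mem_unitCone_iff]
    simp only [NN, I1, I2]
    simp only [Matrix.cons_val]
    simp only [Complex.zero_re, Complex.zero_im]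
    refine ⟨?_, ?_, ?_⟩
    · have : a ^ 2 + 0 ^ 2 + ((b * c1) ^ 2 + (b * d1) ^ 2) + ((b * c2) ^ 2 + (b * d2) ^ 2) +
          ((b * c3) ^ 2 + (b * d3) ^ 2) + (0 ^ 2 + 0 ^ 2) =
          a ^ 2 + b ^ 2 * ((c1 ^ 2 + c2 ^ 2 + c3 ^ 2) + (d1 ^ 2 + d2 ^ 2 + d3 ^ 2)) := by ring
      rw [this, hcc, hdd]
      linear_combination (16 - 16 * a ^ 2) * hab2
    · have : a ^ 2 - 0 ^ 2 + ((b * c1) ^ 2 - (b * d1) ^ 2) + ((b * c2) ^ 2 - (b * d2) ^ 2) +
          ((b * c3) ^ 2 - (b * d3) ^ 2) + (0 ^ 2 - 0 ^ 2) =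
          a ^ 2 + b ^ 2 * ((c1 ^ 2 + c2 ^ 2 + c3 ^ 2) - (d1 ^ 2 + d2 ^ 2 + d3 ^ 2)) := by ring
      rw [this, hcc, hdd]
      linear_combination (-16 * a ^ 2) * hab2
    · have : a * 0 + b * c1 * (b * d1) + b * c2 * (b * d2) + b * c3 * (b * d3) + 0 * 0 =
          b ^ 2 * (c1 * d1 + c2 * d2 + c3 * d3) := by ring
      rw [this, hcd]; ring
  · intro h
    have : (⟨a, 0⟩ : ℂ).re = (0 : ℂ).re := congrArg Complex.re h
    simp only [Complex.zero_re] at this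
    exact hapos.ne' this
  · show 2 * (0 * (b * c1) - a * (b * d1) - (b * c2 * (b * d3) - b * c3 * (b * d2))) = x1
    have e : c2 * d3 - c3 * d2 = -(4 * a ^ 2) * (x1 + y1) := by
      have : c2 * d3 - c3 * d2 = (x1 + y1) * ((x1 * y1 + x2 * y2 + x3 * y3) - 1)
          + x1 * (1 - (y1 ^ 2 + y2 ^ 2 + y3 ^ 2)) + y1 * (1 - (x1 ^ 2 + x2 ^ 2 + x3 ^ 2)) := by
        simp only [hc2, hc3, hd2, hd3]; ring
      rw [this, hq, hx, hy]; ring
    have : 2 * (0 * (b * c1) - a * (b * d1) - (b * c2 * (b * d3) - b * c3 * (b * d2))) =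
        -2 * (a * b) * d1 - 2 * b ^ 2 * (c2 * d3 - c3 * d2) := by ring
    rw [this, e, hab]
    simp only [hd1]
    linear_combination (8 * (x1 + y1)) * hab2
  · show 2 * (0 * (b * c2) - a * (b * d2) - (b * c3 * (b * d1) - b * c1 * (b * d3))) = x2
    have e : c3 * d1 - c1 * d3 = -(4 * a ^ 2) * (x2 + y2) := by
      have : c3 * d1 - c1 * d3 = (x2 + y2) * ((x1 * y1 + x2 * y2 + x3 * y3) - 1)
          + x2 * (1 - (y1 ^ 2 + y2 ^ 2 + y3 ^ 2)) + y2 * (1 - (x1 ^ 2 + x2 ^ 2 + x3 ^ 2)) := by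
        simp only [hc1, hc3, hd1, hd3]; ring
      rw [this, hq, hx, hy]; ring
    have : 2 * (0 * (b * c2) - a * (b * d2) - (b * c3 * (b * d1) - b * c1 * (b * d3))) =
        -2 * (a * b) * d2 - 2 * b ^ 2 * (c3 * d1 - c1 * d3) := by ring
    rw [this, e, hab]
    simp only [hd2]
    linear_combination (8 * (x2 + y2)) * hab2
  · show 2 * (0 * (b * c3) - a * (b * d3) - (b * c1 * (b * d2) - b * c2 * (b * d1))) = x3
    have e : c1 * d2 - c2 * d1 = -(4 * a ^ 2) * (x3 + y3) := by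
      have : c1 * d2 - c2 * d1 = (x3 + y3) * ((x1 * y1 + x2 * y2 + x3 * y3) - 1)
          + x3 * (1 - (y1 ^ 2 + y2 ^ 2 + y3 ^ 2)) + y3 * (1 - (x1 ^ 2 + x2 ^ 2 + x3 ^ 2)) := by
        simp only [hc1, hc2, hd1, hd2]; ring
      rw [this, hq, hx, hy]; ring
    have : 2 * (0 * (b * c3) - a * (b * d3) - (b * c1 * (b * d2) - b * c2 * (b * d1))) =
        -2 * (a * b) * d3 - 2 * b ^ 2 * (c1 * d2 - c2 * d1) := by ring
    rw [this, e, hab]
    simp only [hd3]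
    linear_combination (8 * (x3 + y3)) * hab2
  · show 2 * (a * (b * d1) - 0 * (b * c1) - (b * c2 * (b * d3) - b * c3 * (b * d2))) = y1
    have e : c2 * d3 - c3 * d2 = -(4 * a ^ 2) * (x1 + y1) := by
      have : c2 * d3 - c3 * d2 = (x1 + y1) * ((x1 * y1 + x2 * y2 + x3 * y3) - 1)
          + x1 * (1 - (y1 ^ 2 + y2 ^ 2 + y3 ^ 2)) + y1 * (1 - (x1 ^ 2 + x2 ^ 2 + x3 ^ 2)) := by
        simp only [hc2, hc3, hd2, hd3]; ring
      rw [this, hq, hx, hy]; ring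
    have : 2 * (a * (b * d1) - 0 * (b * c1) - (b * c2 * (b * d3) - b * c3 * (b * d2))) =
        2 * (a * b) * d1 - 2 * b ^ 2 * (c2 * d3 - c3 * d2) := by ring
    rw [this, e, hab]
    simp only [hd1]
    linear_combination (8 * (x1 + y1)) * hab2
  · show 2 * (a * (b * d2) - 0 * (b * c2) - (b * c3 * (b * d1) - b * c1 * (b * d3))) = y2
    have e : c3 * d1 - c1 * d3 = -(4 * a ^ 2) * (x2 + y2) := by
      have : c3 * d1 - c1 * d3 = (x2 + y2) * ((x1 * y1 + x2 * y2 + x3 * y3) - 1)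
          + x2 * (1 - (y1 ^ 2 + y2 ^ 2 + y3 ^ 2)) + y2 * (1 - (x1 ^ 2 + x2 ^ 2 + x3 ^ 2)) := by
        simp only [hc1, hc3, hd1, hd3]; ring
      rw [this, hq, hx, hy]; ring
    have : 2 * (a * (b * d2) - 0 * (b * c2) - (b * c3 * (b * d1) - b * c1 * (b * d3))) =
        2 * (a * b) * d2 - 2 * b ^ 2 * (c3 * d1 - c1 * d3) := by ring
    rw [this, e, hab]
    simp only [hd2]
    linear_combination (8 * (x2 + y2)) * hab2
  · show 2 * (a * (b * d3) - 0 * (b * c3) - (b * c1 * (b * d2) - b * c2 * (b * d1))) = y3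
    have e : c1 * d2 - c2 * d1 = -(4 * a ^ 2) * (x3 + y3) := by
      have : c1 * d2 - c2 * d1 = (x3 + y3) * ((x1 * y1 + x2 * y2 + x3 * y3) - 1)
          + x3 * (1 - (y1 ^ 2 + y2 ^ 2 + y3 ^ 2)) + y3 * (1 - (x1 ^ 2 + x2 ^ 2 + x3 ^ 2)) := by
        simp only [hc1, hc2, hd1, hd2]; ring
      rw [this, hq, hx, hy]; ring
    have : 2 * (a * (b * d3) - 0 * (b * c3) - (b * c1 * (b * d2) - b * c2 * (b * d1))) =
        2 * (a * b) * d3 - 2 * b ^ 2 * (c1 * d2 - c2 * d1) := by ring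
    rw [this, e, hab]
    simp only [hd3]
    linear_combination (8 * (x3 + y3)) * hab2

end Crest.Agent.Lib.QuadricFinal
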