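import Crest.Agent.Lib.QuadricTwist

/-!
The time-one map of the concatenated lift and its fixed lines: there are exactly three.
-/

set_option autoImplicit false
open Crest.GeometryTopology.Quadric
open Crest.Agent.Lib.QuadricBlock Crest.Agent.Lib.QuadricLeft Crest.Agent.Lib.QuadricRot
open Crest.Agent.Lib.QuadricTwist

namespace Crest.Agent.Lib.QuadricFixed

/-- The block giving the final lift. -/
noncomputable def theBlock : ConeBlock :=
  ((leftBlock (-3)).concat (rightBlock (1 / 3))).concat (twistBlock (15 / 16))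

/-- The linear part of the time-one map. -/
noncomputable def mz (z : E) : E :=
  ![(-(16 / 25) : ℝ) • z 0 + (12 / 25 : ℝ) • z 1 + (12 / 25 : ℝ) • z 2 - (9 / 25 : ℝ) • z 3,
    (-(12 / 25) : ℝ) • z 0 - (16 / 25 : ℝ) • z 1 + (9 / 25 : ℝ) • z 2 + (12 / 25 : ℝ) • z 3,
    (-(12 / 25) : ℝ) • z 0 + (9 / 25 : ℝ) • z 1 - (16 / 25 : ℝ) • z 2 + (12 / 25 : ℝ) • z 3,
    (-(9 / 25) : ℝ) • z 0 - (12 / 25 : ℝ) • z 1 - (12 / 25 : ℝ) • z 2 - (16 / 25 : ℝ) • z 3,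
    z 4]

lemma theBlock_one (z : E) : theBlock.Ψ 1 z = twΨ (15 / 16) 1 (mz z) := by
  have hcL : cT (-3) 1 = -(4 / 5) := by norm_num [cT]
  have hsL : sT (-3) 1 = -(3 / 5) := by norm_num [sT]
  have hcR : cT (1 / 3) 1 = 4 / 5 := by norm_num [cT]
  have hsR : sT (1 / 3) 1 = 3 / 5 := by norm_num [sT]
  have h : rightΨ (1 / 3) 1 (leftΨ (-3) 1 z) = mz z := by
    funext i
    simp only [rightΨ, leftΨ, mz, hcL, hsL, hcR, hsR, Complex.real_smul]
    fin_cases i <;> simp <;> ring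
  unfold theBlock
  rw [ConeBlock.concat_one, ConeBlock.concat_one]
  show twΨ (15 / 16) 1 (rightΨ (1 / 3) 1 (leftΨ (-3) 1 z)) = _
  rw [h]

/-- The time-one map. -/
noncomputable def Φ (z : E) : E := twΨ (15 / 16) 1 (mz z)

section mzcoords
variable (z : E)

lemma mz_re0 : (mz z 0).re = -(16 / 25) * (z 0).re + (12 / 25) * (z 1).re + (12 / 25) * (z 2).re
    - (9 / 25) * (z 3).re := by simp [mz]
lemma mz_im0 : (mz z 0).im = -(16 / 25) * (z 0).im + (12 / 25) * (z 1).im + (12 / 25) * (z 2).im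
    - (9 / 25) * (z 3).im := by simp [mz]
lemma mz_re1 : (mz z 1).re = -(12 / 25) * (z 0).re - (16 / 25) * (z 1).re + (9 / 25) * (z 2).re
    + (12 / 25) * (z 3).re := by simp [mz]
lemma mz_im1 : (mz z 1).im = -(12 / 25) * (z 0).im - (16 / 25) * (z 1).im + (9 / 25) * (z 2).im
    + (12 / 25) * (z 3).im := by simp [mz]
lemma mz_re2 : (mz z 2).re = -(12 / 25) * (z 0).re + (9 / 25) * (z 1).re - (16 / 25) * (z 2).re
    + (12 / 25) * (z 3).re := by simp [mz]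
lemma mz_im2 : (mz z 2).im = -(12 / 25) * (z 0).im + (9 / 25) * (z 1).im - (16 / 25) * (z 2).im
    + (12 / 25) * (z 3).im := by simp [mz]
lemma mz_re3 : (mz z 3).re = -(9 / 25) * (z 0).re - (12 / 25) * (z 1).re - (12 / 25) * (z 2).re
    - (16 / 25) * (z 3).re := by simp [mz]
lemma mz_im3 : (mz z 3).im = -(9 / 25) * (z 0).im - (12 / 25) * (z 1).im - (12 / 25) * (z 2).im
    - (16 / 25) * (z 3).im := by simp [mz]
lemma mz_4 : mz z 4 = z 4 := rfl

lemma NN_mz : NN (mz z) = NN z := by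
  simp only [NN, mz_re0, mz_im0, mz_re1, mz_im1, mz_re2, mz_im2, mz_re3, mz_im3, mz_4]; ring
lemma I1_mz : I1 (mz z) = I1 z := by
  simp only [I1, mz_re0, mz_im0, mz_re1, mz_im1, mz_re2, mz_im2, mz_re3, mz_im3, mz_4]; ring
lemma I2_mz : I2 (mz z) = I2 z := by
  simp only [I2, mz_re0, mz_im0, mz_re1, mz_im1, mz_re2, mz_im2, mz_re3, mz_im3, mz_4]; ring

end mzcoords

/-! ### The invariants of a line -/

/-- the self-dual part, first component -/
noncomputable def xv1 (z : E) : ℝ := 2 * ((z 0).im * (z 1).re - (z 0).re * (z 1).im -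
  ((z 2).re * (z 3).im - (z 3).re * (z 2).im))
/-- the self-dual part, second component -/
noncomputable def xv2 (z : E) : ℝ := 2 * ((z 0).im * (z 2).re - (z 0).re * (z 2).im -
  ((z 3).re * (z 1).im - (z 1).re * (z 3).im))
/-- the self-dual part, third component -/
noncomputable def xv3 (z : E) : ℝ := 2 * ((z 0).im * (z 3).re - (z 0).re * (z 3).im -
  ((z 1).re * (z 2).im - (z 2).re * (z 1).im))
/-- the anti-self-dual part, first component -/
noncomputable def yv1 (z : E) : ℝ := 2 * ((z 0).re * (z 1).im - (z 0).im * (z 1).re -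
  ((z 2).re * (z 3).im - (z 3).re * (z 2).im))
/-- the anti-self-dual part, second component -/
noncomputable def yv2 (z : E) : ℝ := 2 * ((z 0).re * (z 2).im - (z 0).im * (z 2).re -
  ((z 3).re * (z 1).im - (z 1).re * (z 3).im))
/-- the anti-self-dual part, third component -/
noncomputable def yv3 (z : E) : ℝ := 2 * ((z 0).re * (z 3).im - (z 0).im * (z 3).re -
  ((z 1).re * (z 2).im - (z 2).re * (z 1).im))

section inv
variable (z : E)

lemma sv1_eq : sv1 z = xv1 z + yv1 z := by simp only [sv1, xv1, yv1]; ring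
lemma sv2_eq : sv2 z = xv2 z + yv2 z := by simp only [sv2, xv2, yv2]; ring
lemma sv3_eq : sv3 z = xv3 z + yv3 z := by simp only [sv3, xv3, yv3]; ring

lemma xv1_mz : xv1 (mz z) = xv1 z := by
  simp only [xv1, mz_re0, mz_im0, mz_re1, mz_im1, mz_re2, mz_im2, mz_re3, mz_im3]; ring
lemma xv2_mz : xv2 (mz z) = 7 / 25 * xv2 z - 24 / 25 * xv3 z := by
  simp only [xv2, xv3, mz_re0, mz_im0, mz_re1, mz_im1, mz_re2, mz_im2, mz_re3, mz_im3]; ring
lemma xv3_mz : xv3 (mz z) = 24 / 25 * xv2 z + 7 / 25 * xv3 z := by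
  simp only [xv2, xv3, mz_re0, mz_im0, mz_re1, mz_im1, mz_re2, mz_im2, mz_re3, mz_im3]; ring
lemma yv1_mz : yv1 (mz z) = 7 / 25 * yv1 z - 24 / 25 * yv3 z := by
  simp only [yv1, yv3, mz_re0, mz_im0, mz_re1, mz_im1, mz_re2, mz_im2, mz_re3, mz_im3]; ring
lemma yv2_mz : yv2 (mz z) = yv2 z := by
  simp only [yv2, mz_re0, mz_im0, mz_re1, mz_im1, mz_re2, mz_im2, mz_re3, mz_im3]; ring
lemma yv3_mz : yv3 (mz z) = 24 / 25 * yv1 z + 7 / 25 * yv3 z := by
  simp only [yv1, yv3, mz_re0, mz_im0, mz_re1, mz_im1, mz_re2, mz_im2, mz_re3, mz_im3]; ring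

variable (c0 τ : ℝ)

/-- abbreviation for the axis at `z` -/
local notation "kk1" => (c0 * sv1 z)
local notation "kk2" => (c0 * sv2 z)
local notation "kk3" => (c0 * sv3 z)

lemma xv1_tw : xv1 (twΨ c0 τ z) = rot1 kk1 kk2 kk3 τ (xv1 z) (xv2 z) (xv3 z) := by
  have h := rot_cross1 kk1 kk2 kk3 τ (z 1).re (z 2).re (z 3).re (z 1).im (z 2).im (z 3).im
  show 2 * ((twΨ c0 τ z 0).im * (twΨ c0 τ z 1).re - (twΨ c0 τ z 0).re * (twΨ c0 τ z 1).im -
    ((twΨ c0 τ z 2).re * (twΨ c0 τ z 3).im - (twΨ c0 τ z 3).re * (twΨ c0 τ z 2).im)) = _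
  rw [tw_re2, tw_re3, tw_im2, tw_im3, h, tw_re0, tw_im0, tw_re1, tw_im1]
  simp only [rot1, xv1, xv2, xv3]; ring
lemma xv2_tw : xv2 (twΨ c0 τ z) = rot2 kk1 kk2 kk3 τ (xv1 z) (xv2 z) (xv3 z) := by
  have h := rot_cross2 kk1 kk2 kk3 τ (z 1).re (z 2).re (z 3).re (z 1).im (z 2).im (z 3).im
  show 2 * ((twΨ c0 τ z 0).im * (twΨ c0 τ z 2).re - (twΨ c0 τ z 0).re * (twΨ c0 τ z 2).im -
    ((twΨ c0 τ z 3).re * (twΨ c0 τ z 1).im - (twΨ c0 τ z 1).re * (twΨ c0 τ z 3).im)) = _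
  rw [tw_re3, tw_re1, tw_im3, tw_im1, h, tw_re0, tw_im0, tw_re2, tw_im2]
  simp only [rot2, xv1, xv2, xv3]; ring
lemma xv3_tw : xv3 (twΨ c0 τ z) = rot3 kk1 kk2 kk3 τ (xv1 z) (xv2 z) (xv3 z) := by
  have h := rot_cross3 kk1 kk2 kk3 τ (z 1).re (z 2).re (z 3).re (z 1).im (z 2).im (z 3).im
  show 2 * ((twΨ c0 τ z 0).im * (twΨ c0 τ z 3).re - (twΨ c0 τ z 0).re * (twΨ c0 τ z 3).im -
    ((twΨ c0 τ z 1).re * (twΨ c0 τ z 2).im - (twΨ c0 τ z 2).re * (twΨ c0 τ z 1).im)) = _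
  rw [tw_re1, tw_re2, tw_im1, tw_im2, h, tw_re0, tw_im0, tw_re3, tw_im3]
  simp only [rot3, xv1, xv2, xv3]; ring
lemma yv1_tw : yv1 (twΨ c0 τ z) = rot1 kk1 kk2 kk3 τ (yv1 z) (yv2 z) (yv3 z) := by
  have h := rot_cross1 kk1 kk2 kk3 τ (z 1).re (z 2).re (z 3).re (z 1).im (z 2).im (z 3).im
  show 2 * ((twΨ c0 τ z 0).re * (twΨ c0 τ z 1).im - (twΨ c0 τ z 0).im * (twΨ c0 τ z 1).re -
    ((twΨ c0 τ z 2).re * (twΨ c0 τ z 3).im - (twΨ c0 τ z 3).re * (twΨ c0 τ z 2).im)) = _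
  rw [tw_re2, tw_re3, tw_im2, tw_im3, h, tw_re0, tw_im0, tw_re1, tw_im1]
  simp only [rot1, yv1, yv2, yv3]; ring
lemma yv2_tw : yv2 (twΨ c0 τ z) = rot2 kk1 kk2 kk3 τ (yv1 z) (yv2 z) (yv3 z) := by
  have h := rot_cross2 kk1 kk2 kk3 τ (z 1).re (z 2).re (z 3).re (z 1).im (z 2).im (z 3).im
  show 2 * ((twΨ c0 τ z 0).re * (twΨ c0 τ z 2).im - (twΨ c0 τ z 0).im * (twΨ c0 τ z 2).re -
    ((twΨ c0 τ z 3).re * (twΨ c0 τ z 1).im - (twΨ c0 τ z 1).re * (twΨ c0 τ z 3).im)) = _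
  rw [tw_re3, tw_re1, tw_im3, tw_im1, h, tw_re0, tw_im0, tw_re2, tw_im2]
  simp only [rot2, yv1, yv2, yv3]; ring
lemma yv3_tw : yv3 (twΨ c0 τ z) = rot3 kk1 kk2 kk3 τ (yv1 z) (yv2 z) (yv3 z) := by
  have h := rot_cross3 kk1 kk2 kk3 τ (z 1).re (z 2).re (z 3).re (z 1).im (z 2).im (z 3).im
  show 2 * ((twΨ c0 τ z 0).re * (twΨ c0 τ z 3).im - (twΨ c0 τ z 0).im * (twΨ c0 τ z 3).re -
    ((twΨ c0 τ z 1).re * (twΨ c0 τ z 2).im - (twΨ c0 τ z 2).re * (twΨ c0 τ z 1).im)) = _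
  rw [tw_re1, tw_re2, tw_im1, tw_im2, h, tw_re0, tw_im0, tw_re3, tw_im3]
  simp only [rot3, yv1, yv2, yv3]; ring

end inv

section smul
variable (z : E) (c : ℂ) (hc : ‖c‖ = 1)
include hc

lemma xv1_smul : xv1 (c • z) = xv1 z := by
  have h1 := unit_cross c (unit_sq c hc) (z 1) (z 0)
  have h2 := unit_cross c (unit_sq c hc) (z 2) (z 3)
  simp only [xv1, Pi.smul_apply, smul_eq_mul]
  linear_combination 2 * h1 - 2 * h2
lemma xv2_smul : xv2 (c • z) = xv2 z := by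
  have h1 := unit_cross c (unit_sq c hc) (z 2) (z 0)
  have h2 := unit_cross c (unit_sq c hc) (z 3) (z 1)
  simp only [xv2, Pi.smul_apply, smul_eq_mul]
  linear_combination 2 * h1 - 2 * h2
lemma xv3_smul : xv3 (c • z) = xv3 z := by
  have h1 := unit_cross c (unit_sq c hc) (z 3) (z 0)
  have h2 := unit_cross c (unit_sq c hc) (z 1) (z 2)
  simp only [xv3, Pi.smul_apply, smul_eq_mul]
  linear_combination 2 * h1 - 2 * h2
lemma yv1_smul : yv1 (c • z) = yv1 z := by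
  have h1 := unit_cross c (unit_sq c hc) (z 0) (z 1)
  have h2 := unit_cross c (unit_sq c hc) (z 2) (z 3)
  simp only [yv1, Pi.smul_apply, smul_eq_mul]
  linear_combination 2 * h1 - 2 * h2
lemma yv2_smul : yv2 (c • z) = yv2 z := by
  have h1 := unit_cross c (unit_sq c hc) (z 0) (z 2)
  have h2 := unit_cross c (unit_sq c hc) (z 3) (z 1)
  simp only [yv2, Pi.smul_apply, smul_eq_mul]
  linear_combination 2 * h1 - 2 * h2
lemma yv3_smul : yv3 (c • z) = yv3 z := by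
  have h1 := unit_cross c (unit_sq c hc) (z 0) (z 3)
  have h2 := unit_cross c (unit_sq c hc) (z 1) (z 2)
  simp only [yv3, Pi.smul_apply, smul_eq_mul]
  linear_combination 2 * h1 - 2 * h2

end smul

/-! ### Points on the cone with vanishing last coordinate -/

section onQ2
variable (z : E) (hz : z ∈ unitCone) (h4 : z 4 = 0)
include hz h4

lemma q2_rel : (z 1).re ^ 2 + (z 2).re ^ 2 + (z 3).re ^ 2 = 1 / 2 - (z 0).re ^ 2 ∧
    (z 1).im ^ 2 + (z 2).im ^ 2 + (z 3).im ^ 2 = 1 / 2 - (z 0).im ^ 2 ∧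
    (z 1).re * (z 1).im + (z 2).re * (z 2).im + (z 3).re * (z 3).im = -((z 0).re * (z 0).im) := by
  obtain ⟨h1, h2, h3⟩ := (mem_unitCone_iff z).1 hz
  simp only [NN, I1, I2, h4, Complex.zero_re, Complex.zero_im] at h1 h2 h3
  refine ⟨?_, ?_, ?_⟩
  · nlinarith
  · nlinarith
  · nlinarith

lemma q2_xnorm : xv1 z ^ 2 + xv2 z ^ 2 + xv3 z ^ 2 = 1 := by
  obtain ⟨hA, hB, hC⟩ := q2_rel z hz h4
  simp only [xv1, xv2, xv3]
  set u0 := (z 0).re
  set v0 := (z 0).im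
  set u1 := (z 1).re
  set v1 := (z 1).im
  set u2 := (z 2).re
  set v2 := (z 2).im
  set u3 := (z 3).re
  set v3 := (z 3).im
  linear_combination
    (4 * (v0 ^ 2 + (v1 ^ 2 + v2 ^ 2 + v3 ^ 2))) * hA + (4 * (u0 ^ 2 + (1 / 2 - u0 ^ 2))) * hB
      + (4 * (-2 * (u0 * v0) - ((u1 * v1 + u2 * v2 + u3 * v3) + (-(u0 * v0))))) * hC

lemma q2_ynorm : yv1 z ^ 2 + yv2 z ^ 2 + yv3 z ^ 2 = 1 := by
  obtain ⟨hA, hB, hC⟩ := q2_rel z hz h4
  simp only [yv1, yv2, yv3]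
  set u0 := (z 0).re
  set v0 := (z 0).im
  set u1 := (z 1).re
  set v1 := (z 1).im
  set u2 := (z 2).re
  set v2 := (z 2).im
  set u3 := (z 3).re
  set v3 := (z 3).im
  linear_combination
    (4 * (v0 ^ 2 + (v1 ^ 2 + v2 ^ 2 + v3 ^ 2))) * hA + (4 * (u0 ^ 2 + (1 / 2 - u0 ^ 2))) * hB
      + (4 * (-2 * (u0 * v0) - ((u1 * v1 + u2 * v2 + u3 * v3) + (-(u0 * v0))))) * hC

/-- `|z₀|²` in terms of the invariants. -/
lemma q2_z0 : (z 0).re ^ 2 + (z 0).im ^ 2 =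
    ((xv1 z - yv1 z) ^ 2 + (xv2 z - yv2 z) ^ 2 + (xv3 z - yv3 z) ^ 2) / 8 := by
  obtain ⟨hA, hB, hC⟩ := q2_rel z hz h4
  simp only [xv1, xv2, xv3, yv1, yv2, yv3]
  set u0 := (z 0).re
  set v0 := (z 0).im
  linear_combination (-(2 * v0 ^ 2)) * hA + (-(2 * u0 ^ 2)) * hB + (4 * u0 * v0) * hC

/-- `Re (z₁ conj z₀)` in terms of the invariants. -/
lemma q2_re1 : (z 1).re * (z 0).re + (z 1).im * (z 0).im =
    (xv2 z * yv3 z - xv3 z * yv2 z) / 4 := by
  obtain ⟨hA, hB, hC⟩ := q2_rel z hz h4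
  simp only [xv2, xv3, yv2, yv3]
  set u0 := (z 0).re
  set v0 := (z 0).im
  set u1 := (z 1).re
  set v1 := (z 1).im
  linear_combination (-(2 * v0 * v1)) * hA + (-(2 * u0 * u1)) * hB + (2 * v0 * u1 + 2 * u0 * v1) * hC

lemma q2_re2 : (z 2).re * (z 0).re + (z 2).im * (z 0).im =
    (xv3 z * yv1 z - xv1 z * yv3 z) / 4 := by
  obtain ⟨hA, hB, hC⟩ := q2_rel z hz h4
  simp only [xv1, xv3, yv1, yv3]
  set u0 := (z 0).re
  set v0 := (z 0).im
  set u2 := (z 2).re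
  set v2 := (z 2).im
  linear_combination (-(2 * v0 * v2)) * hA + (-(2 * u0 * u2)) * hB + (2 * v0 * u2 + 2 * u0 * v2) * hC

lemma q2_re3 : (z 3).re * (z 0).re + (z 3).im * (z 0).im =
    (xv1 z * yv2 z - xv2 z * yv1 z) / 4 := by
  obtain ⟨hA, hB, hC⟩ := q2_rel z hz h4
  simp only [xv1, xv2, yv1, yv2]
  set u0 := (z 0).re
  set v0 := (z 0).im
  set u3 := (z 3).re
  set v3 := (z 3).im
  linear_combination (-(2 * v0 * v3)) * hA + (-(2 * u0 * u3)) * hB + (2 * v0 * u3 + 2 * u0 * v3) * hC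

end onQ2

/-! ### Same invariants implies same line -/

lemma prop_of_same_inv (z z' : E) (hz : z ∈ unitCone) (h4 : z 4 = 0) (hz' : z' ∈ unitCone)
    (h4' : z' 4 = 0) (hne : z' 0 ≠ 0)
    (hx1 : xv1 z = xv1 z') (hx2 : xv2 z = xv2 z') (hx3 : xv3 z = xv3 z')
    (hy1 : yv1 z = yv1 z') (hy2 : yv2 z = yv2 z') (hy3 : yv3 z = yv3 z') :
    ∃ μ : ℂ, z = μ • z' := by
  have e0 : (z 0).re ^ 2 + (z 0).im ^ 2 = (z' 0).re ^ 2 + (z' 0).im ^ 2 := by
    rw [q2_z0 z hz h4, q2_z0 z' hz' h4', hx1, hx2, hx3, hy1, hy2, hy3]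
  have e1r : (z 1).re * (z 0).re + (z 1).im * (z 0).im = (z' 1).re * (z' 0).re + (z' 1).im * (z' 0).im := by
    rw [q2_re1 z hz h4, q2_re1 z' hz' h4', hx2, hx3, hy2, hy3]
  have e2r : (z 2).re * (z 0).re + (z 2).im * (z 0).im = (z' 2).re * (z' 0).re + (z' 2).im * (z' 0).im := by
    rw [q2_re2 z hz h4, q2_re2 z' hz' h4', hx1, hx3, hy1, hy3]
  have e3r : (z 3).re * (z 0).re + (z 3).im * (z 0).im = (z' 3).re * (z' 0).re + (z' 3).im * (z' 0).im := by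
    rw [q2_re3 z hz h4, q2_re3 z' hz' h4', hx1, hx2, hy1, hy2]
  have e1i : (z 1).im * (z 0).re - (z 1).re * (z 0).im = (z' 1).im * (z' 0).re - (z' 1).re * (z' 0).im := by
    have h1 := hx1
    have h2 := hy1
    simp only [xv1, yv1] at h1 h2
    linear_combination (h2 - h1) / 4
  have e2i : (z 2).im * (z 0).re - (z 2).re * (z 0).im = (z' 2).im * (z' 0).re - (z' 2).re * (z' 0).im := by
    have h1 := hx2
    have h2 := hy2
    simp only [xv2, yv2] at h1 h2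
    linear_combination (h2 - h1) / 4
  have e3i : (z 3).im * (z 0).re - (z 3).re * (z 0).im = (z' 3).im * (z' 0).re - (z' 3).re * (z' 0).im := by
    have h1 := hx3
    have h2 := hy3
    simp only [xv3, yv3] at h1 h2
    linear_combination (h2 - h1) / 4
  have hz0 : z 0 ≠ 0 := by
    intro h0
    apply hne
    have : (z' 0).re ^ 2 + (z' 0).im ^ 2 = 0 := by
      rw [← e0, h0]; simp
    apply Complex.ext
    · simp only [Complex.zero_re]; nlinarith [sq_nonneg (z' 0).re, sq_nonneg (z' 0).im]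
    · simp only [Complex.zero_im]; nlinarith [sq_nonneg (z' 0).re, sq_nonneg (z' 0).im]
  have hcj : (starRingEnd ℂ) (z 0) ≠ 0 := by simpa using hz0
  have mulc : ∀ a b : ℂ, a * (starRingEnd ℂ) b = ⟨a.re * b.re + a.im * b.im, a.im * b.re - a.re * b.im⟩ := by
    intro a b
    apply Complex.ext <;> simp [Complex.mul_re, Complex.mul_im] <;> ring
  have hmain : ∀ a a' : ℂ, a.re * (z 0).re + a.im * (z 0).im = a'.re * (z' 0).re + a'.im * (z' 0).im →
      a.im * (z 0).re - a.re * (z 0).im = a'.im * (z' 0).re - a'.re * (z' 0).im →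
      a = ((starRingEnd ℂ) (z' 0) / (starRingEnd ℂ) (z 0)) * a' := by
    intro a a' h1 h2
    have : a * (starRingEnd ℂ) (z 0) = a' * (starRingEnd ℂ) (z' 0) := by
      rw [mulc, mulc, h1, h2]
    field_simp
    linear_combination this
  refine ⟨(starRingEnd ℂ) (z' 0) / (starRingEnd ℂ) (z 0), ?_⟩
  funext i
  simp only [Pi.smul_apply, smul_eq_mul]
  fin_cases i
  · exact hmain (z 0) (z' 0) (by linear_combination e0) (by ring)
  · exact hmain (z 1) (z' 1) e1r e1i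
  · exact hmain (z 2) (z' 2) e2r e2i
  · exact hmain (z 3) (z' 3) e3r e3i
  · simp [h4, h4']

/-! ### Solving the fixed point system -/

/-- The system of equations for a fixed line, after elimination. -/
lemma solve_sys (x1 x2 x3 y1 y2 y3 : ℝ)
    (hx : x1 ^ 2 + x2 ^ 2 + x3 ^ 2 = 1) (hy : y1 ^ 2 + y2 ^ 2 + y3 ^ 2 = 1)
    (hs1 : x1 + y1 = x1 + (7 / 25 * y1 - 24 / 25 * y3))
    (hs2 : x2 + y2 = (7 / 25 * x2 - 24 / 25 * x3) + y2)
    (hs3 : x3 + y3 = (24 / 25 * x2 + 7 / 25 * x3) + (24 / 25 * y1 + 7 / 25 * y3))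
    (hrel : x3 - (24 / 25 * x2 + 7 / 25 * x3) =
      (15 / 16 * (x1 + (7 / 25 * y1 - 24 / 25 * y3))) * (x2 + (7 / 25 * x2 - 24 / 25 * x3))
      - (15 / 16 * ((7 / 25 * x2 - 24 / 25 * x3) + y2)) * (x1 + x1)) :
    (x1 = 0 ∧ x2 = 4 / 5 ∧ x3 = -(3 / 5) ∧ y1 = -(4 / 5) ∧ y2 = 0 ∧ y3 = 3 / 5) ∨
    (x1 ^ 2 = 1056 / 1681 ∧ x2 = -(20 / 41) ∧ x3 = 15 / 41 ∧ y1 = 20 / 41 ∧ y2 = -x1 ∧
      y3 = -(15 / 41)) := by
  have h3 : y3 = -(3 / 4) * y1 := by linarith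
  have h4 : x3 = -(3 / 4) * x2 := by linarith
  subst h3 h4
  have h5 : y1 = -x2 := by linarith
  subst h5
  have hkey : 4 / 5 * x2 = x2 ^ 2 + x1 * y2 := by linear_combination (-(8 / 15)) * hrel
  have hx' : x1 ^ 2 + 25 / 16 * x2 ^ 2 = 1 := by linear_combination hx
  have hy' : y2 ^ 2 = x1 ^ 2 := by linear_combination hy - hx
  have hle : x2 ^ 2 ≤ 16 / 25 := by linarith [sq_nonneg x1]
  have hcase : y2 = x1 ∨ y2 = -x1 := by
    have : (y2 - x1) * (y2 + x1) = 0 := by linear_combination hy'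
    rcases mul_eq_zero.1 this with h | h
    · left; linarith
    · right; linarith
  rcases hcase with h | h
  · subst h
    have h6 : (x2 - 4 / 5) * (9 / 16 * x2 + 5 / 4) = 0 := by linear_combination hkey + hx'
    rcases mul_eq_zero.1 h6 with h7 | h7
    · have hx2 : x2 = 4 / 5 := by linarith
      subst hx2
      have hy0 : y2 ^ 2 = 0 := by linear_combination hx'
      have hx1 : y2 = 0 := by simpa using hy0
      subst hx1
      left
      norm_num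
    · exfalso
      have : x2 = -(20 / 9) := by linarith
      subst this
      norm_num at hle
  · subst h
    have h6 : (x2 - 4 / 5) * (41 / 16 * x2 + 5 / 4) = 0 := by linear_combination -hkey + hx'
    rcases mul_eq_zero.1 h6 with h7 | h7
    · have hx2 : x2 = 4 / 5 := by linarith
      subst hx2
      have hy0 : x1 ^ 2 = 0 := by linear_combination hx'
      have hx1 : x1 = 0 := by simpa using hy0
      subst hx1
      left
      norm_num
    · have hx2 : x2 = -(20 / 41) := by linarith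
      subst hx2
      right
      refine ⟨?_, rfl, by norm_num, by norm_num, rfl, by norm_num⟩
      linear_combination hx'

/-! ### Points with vanishing last coordinate: the fixed point equation -/

lemma Φ_cone (z : E) (hz : z ∈ unitCone) : Φ z ∈ unitCone := by
  have h := theBlock.mapsTo_cone 1 z hz
  rwa [theBlock_one] at h

lemma Φ_four (z : E) : Φ z 4 = z 4 := rfl

/-- Consequence of `Φ z = c • z` on the invariants of `z`, when `‖c‖ = 1`. -/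
lemma fixed_inv (z : E) (c : ℂ) (hc : ‖c‖ = 1) (hfix : Φ z = c • z) :
    let x1' := xv1 (mz z)
    let x2' := xv2 (mz z)
    let x3' := xv3 (mz z)
    let y1' := yv1 (mz z)
    let y2' := yv2 (mz z)
    let y3' := yv3 (mz z)
    let k1 := 15 / 16 * (x1' + y1')
    let k2 := 15 / 16 * (x2' + y2')
    let k3 := 15 / 16 * (x3' + y3')
    xv1 z = rot1 k1 k2 k3 1 x1' x2' x3' ∧ xv2 z = rot2 k1 k2 k3 1 x1' x2' x3' ∧
      xv3 z = rot3 k1 k2 k3 1 x1' x2' x3' ∧ yv1 z = rot1 k1 k2 k3 1 y1' y2' y3' ∧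
      yv2 z = rot2 k1 k2 k3 1 y1' y2' y3' ∧ yv3 z = rot3 k1 k2 k3 1 y1' y2' y3' := by
  intro x1' x2' x3' y1' y2' y3' k1 k2 k3
  have e1 := xv1_tw (mz z) (15 / 16) 1
  have e2 := xv2_tw (mz z) (15 / 16) 1
  have e3 := xv3_tw (mz z) (15 / 16) 1
  have e4 := yv1_tw (mz z) (15 / 16) 1
  have e5 := yv2_tw (mz z) (15 / 16) 1
  have e6 := yv3_tw (mz z) (15 / 16) 1
  rw [sv1_eq, sv2_eq, sv3_eq] at e1 e2 e3 e4 e5 e6
  change xv1 (Φ z) = _ at e1
  change xv2 (Φ z) = _ at e2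
  change xv3 (Φ z) = _ at e3
  change yv1 (Φ z) = _ at e4
  change yv2 (Φ z) = _ at e5
  change yv3 (Φ z) = _ at e6
  rw [hfix, xv1_smul z c hc] at e1
  rw [hfix, xv2_smul z c hc] at e2
  rw [hfix, xv3_smul z c hc] at e3
  rw [hfix, yv1_smul z c hc] at e4
  rw [hfix, yv2_smul z c hc] at e5
  rw [hfix, yv3_smul z c hc] at e6
  exact ⟨e1, e2, e3, e4, e5, e6⟩

/-- On a fixed line in the hyperplane, the invariants solve the system. -/
lemma fixed_solve (z : E) (hz : z ∈ unitCone) (h4 : z 4 = 0) (c : ℂ) (hc : ‖c‖ = 1)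
    (hfix : Φ z = c • z) :
    (xv1 z = 0 ∧ xv2 z = 4 / 5 ∧ xv3 z = -(3 / 5) ∧ yv1 z = -(4 / 5) ∧ yv2 z = 0 ∧ yv3 z = 3 / 5) ∨
    (xv1 z ^ 2 = 1056 / 1681 ∧ xv2 z = -(20 / 41) ∧ xv3 z = 15 / 41 ∧ yv1 z = 20 / 41 ∧
      yv2 z = -xv1 z ∧ yv3 z = -(15 / 41)) := by
  obtain ⟨e1, e2, e3, e4, e5, e6⟩ := fixed_inv z c hc hfix
  have m1 : xv1 (mz z) = xv1 z := xv1_mz z
  have m2 : xv2 (mz z) = 7 / 25 * xv2 z - 24 / 25 * xv3 z := xv2_mz z
  have m3 : xv3 (mz z) = 24 / 25 * xv2 z + 7 / 25 * xv3 z := xv3_mz z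
  have m4 : yv1 (mz z) = 7 / 25 * yv1 z - 24 / 25 * yv3 z := yv1_mz z
  have m5 : yv2 (mz z) = yv2 z := yv2_mz z
  have m6 : yv3 (mz z) = 24 / 25 * yv1 z + 7 / 25 * yv3 z := yv3_mz z
  generalize xv1 (mz z) = x1' at *
  generalize xv2 (mz z) = x2' at *
  generalize xv3 (mz z) = x3' at *
  generalize yv1 (mz z) = y1' at *
  generalize yv2 (mz z) = y2' at *
  generalize yv3 (mz z) = y3' at *
  -- the sum is the axis
  have s1 : xv1 z + yv1 z = x1' + y1' := by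
    rw [e1, e4]
    have := rot1_par (15 / 16) (x1' + y1') (x2' + y2') (x3' + y3') 1
    simp only [rot1] at this ⊢
    linear_combination this
  have s2 : xv2 z + yv2 z = x2' + y2' := by
    rw [e2, e5]
    have := rot2_par (15 / 16) (x1' + y1') (x2' + y2') (x3' + y3') 1
    simp only [rot2] at this ⊢
    linear_combination this
  have s3 : xv3 z + yv3 z = x3' + y3' := by
    rw [e3, e6]
    have := rot3_par (15 / 16) (x1' + y1') (x2' + y2') (x3' + y3') 1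
    simp only [rot3] at this ⊢
    linear_combination this
  have r3 := rot_rel3 (15 / 16 * (x1' + y1')) (15 / 16 * (x2' + y2')) (15 / 16 * (x3' + y3')) 1
    x1' x2' x3'
  rw [← e3, ← e1, ← e2] at r3
  have hxn := q2_xnorm z hz h4
  have hyn := q2_ynorm z hz h4
  subst m1 m2 m3 m4 m5 m6
  refine solve_sys _ _ _ _ _ _ hxn hyn s1 s2 s3 ?_
  linear_combination r3

end Crest.Agent.Lib.QuadricFixed
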