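import Crest.Agent.Lib.QuadricBlock

/-!
Coordinates on complex 5-space, and the two linear blocks (left and right quaternion rotations along
a rational path).
-/

set_option autoImplicit false
open Crest.GeometryTopology.Quadric
open Crest.Agent.Lib.QuadricBlock
open scoped Topology

namespace Crest.Agent.Lib.QuadricLeft

/-! ### Real coordinates -/

/-- squared norm -/
noncomputable def NN (z : E) : ℝ :=
  (z 0).re ^ 2 + (z 0).im ^ 2 + ((z 1).re ^ 2 + (z 1).im ^ 2) + ((z 2).re ^ 2 + (z 2).im ^ 2) +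
    ((z 3).re ^ 2 + (z 3).im ^ 2) + ((z 4).re ^ 2 + (z 4).im ^ 2)

/-- real part of the quadric form -/
noncomputable def I1 (z : E) : ℝ :=
  (z 0).re ^ 2 - (z 0).im ^ 2 + ((z 1).re ^ 2 - (z 1).im ^ 2) + ((z 2).re ^ 2 - (z 2).im ^ 2) +
    ((z 3).re ^ 2 - (z 3).im ^ 2) + ((z 4).re ^ 2 - (z 4).im ^ 2)

/-- half of the imaginary part of the quadric form -/
noncomputable def I2 (z : E) : ℝ :=
  (z 0).re * (z 0).im + (z 1).re * (z 1).im + (z 2).re * (z 2).im + (z 3).re * (z 3).im +
    (z 4).re * (z 4).im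

lemma mem_unitCone_iff (z : E) : z ∈ unitCone ↔ NN z = 1 ∧ I1 z = 0 ∧ I2 z = 0 := by
  have hre : (∑ j, z j ^ 2).re = I1 z := by
    simp only [Fin.sum_univ_five, Complex.add_re, pow_two, Complex.mul_re, I1]
  have him : (∑ j, z j ^ 2).im = 2 * I2 z := by
    simp only [Fin.sum_univ_five, Complex.add_im, pow_two, Complex.mul_im, I2]; ring
  have hhre : (herm z z).re = NN z := by
    simp only [herm, Fin.sum_univ_five, Complex.add_re, Complex.mul_re, Complex.conj_re,
      Complex.conj_im, NN]; ring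
  have hhim : (herm z z).im = 0 := by
    simp only [herm, Fin.sum_univ_five, Complex.add_im, Complex.mul_im, Complex.conj_re,
      Complex.conj_im]; ring
  constructor
  · rintro ⟨h1, h2⟩
    refine ⟨?_, ?_, ?_⟩
    · rw [← hhre, h1]; simp
    · rw [← hre, h2]; simp
    · have : (∑ j, z j ^ 2).im = 0 := by rw [h2]; simp
      rw [him] at this; linarith
  · rintro ⟨h1, h2, h3⟩
    refine ⟨?_, ?_⟩
    · apply Complex.ext
      · rw [hhre, h1]; simp
      · rw [hhim]; simp
    · apply Complex.ext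
      · rw [hre, h2]; simp
      · rw [him, h3]; simp

/-- The real part as a continuous linear functional. -/
noncomputable def reL (i : Fin 5) : E →L[ℝ] ℝ :=
  Complex.reCLM.comp (ContinuousLinearMap.proj (R := ℝ) (φ := fun _ : Fin 5 => ℂ) i)

/-- The imaginary part as a continuous linear functional. -/
noncomputable def imL (i : Fin 5) : E →L[ℝ] ℝ :=
  Complex.imCLM.comp (ContinuousLinearMap.proj (R := ℝ) (φ := fun _ : Fin 5 => ℂ) i)

@[simp] lemma reL_apply (i : Fin 5) (w : E) : reL i w = (w i).re := rfl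
@[simp] lemma imL_apply (i : Fin 5) (w : E) : imL i w = (w i).im := rfl

lemma hre (i : Fin 5) (y : E) : HasFDerivAt (fun x : E => (x i).re) (reL i) y :=
  (reL i).hasFDerivAt
lemma him (i : Fin 5) (y : E) : HasFDerivAt (fun x : E => (x i).im) (imL i) y :=
  (imL i).hasFDerivAt

section smooth
variable {X : Type*} [NormedAddCommGroup X] [NormedSpace ℝ X] {n : WithTop ℕ∞}

lemma coord_contDiff {f : X → E} (hf : ContDiff ℝ n f) (i : Fin 5) :
    ContDiff ℝ n (fun x => f x i) := contDiff_pi.1 hf i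

@[fun_prop] lemma coordRe_contDiff {f : X → ℂ} (hf : ContDiff ℝ n f) :
    ContDiff ℝ n (fun x => (f x).re) := Complex.reCLM.contDiff.comp hf

@[fun_prop] lemma coordIm_contDiff {f : X → ℂ} (hf : ContDiff ℝ n f) :
    ContDiff ℝ n (fun x => (f x).im) := Complex.imCLM.contDiff.comp hf

end smooth

/-! ### The rational parametrisation of the circle -/

/-- cosine along the rational path -/
noncomputable def cT (T τ : ℝ) : ℝ := (1 - (T * τ) ^ 2) / (1 + (T * τ) ^ 2)
/-- sine along the rational path -/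
noncomputable def sT (T τ : ℝ) : ℝ := 2 * (T * τ) / (1 + (T * τ) ^ 2)
/-- angular speed along the rational path -/
noncomputable def wT (T τ : ℝ) : ℝ := 2 * T / (1 + (T * τ) ^ 2)

lemma den_pos (T τ : ℝ) : 0 < 1 + (T * τ) ^ 2 := by positivity
lemma den_ne (T τ : ℝ) : 1 + (T * τ) ^ 2 ≠ 0 := (den_pos T τ).ne'

lemma cT_sq (T τ : ℝ) : cT T τ ^ 2 + sT T τ ^ 2 = 1 := by
  have := den_ne T τ
  simp only [cT, sT]; field_simp; ring

lemma hasDerivAt_cT (T τ : ℝ) : HasDerivAt (cT T) (-(wT T τ * sT T τ)) τ := by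
  have h1 : HasDerivAt (fun s : ℝ => (T * s) ^ 2) (2 * (T * τ) * T) τ := by
    have := ((hasDerivAt_id τ).const_mul T).fun_pow 2
    simpa [mul_comm, mul_left_comm, mul_assoc] using this
  have h2 := ((h1.const_sub 1).div (h1.const_add 1) (den_ne T τ))
  refine h2.congr_deriv ?_
  have := den_ne T τ
  simp only [wT, sT]; field_simp; ring

lemma hasDerivAt_sT (T τ : ℝ) : HasDerivAt (sT T) (wT T τ * cT T τ) τ := by
  have h1 : HasDerivAt (fun s : ℝ => (T * s) ^ 2) (2 * (T * τ) * T) τ := by
    have := ((hasDerivAt_id τ).const_mul T).fun_pow 2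
    simpa [mul_comm, mul_left_comm, mul_assoc] using this
  have h0 : HasDerivAt (fun s : ℝ => 2 * (T * s)) (2 * T) τ := by
    have := ((hasDerivAt_id τ).const_mul T).const_mul 2
    simpa using this
  have h2 := h0.div (h1.const_add 1) (den_ne T τ)
  refine h2.congr_deriv ?_
  have := den_ne T τ
  simp only [wT, cT]; field_simp; ring

lemma cT_contDiff (T : ℝ) : ContDiff ℝ sm (fun τ : ℝ => cT T τ) := by
  unfold cT
  exact ContDiff.div (by fun_prop) (by fun_prop) (fun τ => den_ne T τ)

lemma sT_contDiff (T : ℝ) : ContDiff ℝ sm (fun τ : ℝ => sT T τ) := by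
  unfold sT
  exact ContDiff.div (by fun_prop) (by fun_prop) (fun τ => den_ne T τ)

lemma wT_contDiff (T : ℝ) : ContDiff ℝ sm (fun τ : ℝ => wT T τ) := by
  unfold wT
  exact ContDiff.div (by fun_prop) (by fun_prop) (fun τ => den_ne T τ)

lemma cT_zero (T : ℝ) : cT T 0 = 1 := by simp [cT]
lemma sT_zero (T : ℝ) : sT T 0 = 0 := by simp [sT]

/-! ### Left rotation -/

/-- rotation in the planes `(0,1)` and `(2,3)` -/
noncomputable def leftΨ (T τ : ℝ) (z : E) : E :=
  ![cT T τ • z 0 - sT T τ • z 1, cT T τ • z 1 + sT T τ • z 0,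
    cT T τ • z 2 - sT T τ • z 3, cT T τ • z 3 + sT T τ • z 2, z 4]

/-- moment function of the left rotation -/
noncomputable def fL (x : E) : ℝ :=
  2 * ((x 1).re * (x 0).im - (x 1).im * (x 0).re + ((x 3).re * (x 2).im - (x 3).im * (x 2).re))

/-- Hamiltonian of the left rotation -/
noncomputable def leftH (T τ : ℝ) (x : E) : ℝ := -(wT T τ * fL x)

lemma fL_hasFDerivAt (y : E) : HasFDerivAt fL
    ((2 : ℝ) • (((y 1).re • imL 0 + (y 0).im • reL 1 - ((y 1).im • reL 0 + (y 0).re • imL 1)) +
      ((y 3).re • imL 2 + (y 2).im • reL 3 - ((y 3).im • reL 2 + (y 2).re • imL 3)))) y := by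
  unfold fL
  exact (((((hre 1 y).mul (him 0 y)).sub ((him 1 y).mul (hre 0 y))).add
    (((hre 3 y).mul (him 2 y)).sub ((him 3 y).mul (hre 2 y)))).const_mul (2 : ℝ))

lemma leftΨ_hasDerivAt (T τ : ℝ) (z : E) : HasDerivAt (fun s : ℝ => leftΨ T s z)
    (wT T τ • ![-(leftΨ T τ z 1), leftΨ T τ z 0, -(leftΨ T τ z 3), leftΨ T τ z 2, 0]) τ := by
  have hc := hasDerivAt_cT T τ
  have hs := hasDerivAt_sT T τ
  rw [hasDerivAt_pi]
  intro i
  fin_cases i
  · have := (hc.smul_const (z 0)).sub (hs.smul_const (z 1))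
    refine this.congr_deriv ?_
    simp only [leftΨ, Complex.real_smul]
    simp
    ring
  · have := (hc.smul_const (z 1)).add (hs.smul_const (z 0))
    refine this.congr_deriv ?_
    simp only [leftΨ, Complex.real_smul]
    simp
    ring
  · have := (hc.smul_const (z 2)).sub (hs.smul_const (z 3))
    refine this.congr_deriv ?_
    simp only [leftΨ, Complex.real_smul]
    simp
    ring
  · have := (hc.smul_const (z 3)).add (hs.smul_const (z 2))
    refine this.congr_deriv ?_
    simp only [leftΨ, Complex.real_smul]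
    simp
    ring
  · simpa [leftΨ] using hasDerivAt_const τ (z 4)

/-- The left rotation block. -/
noncomputable def leftBlock (T : ℝ) : ConeBlock where
  Ψ := leftΨ T
  H := leftH T
  smooth_Ψ := by
    have hc : ContDiff ℝ sm (fun p : ℝ × E => cT T p.1) := (cT_contDiff T).comp contDiff_fst
    have hs : ContDiff ℝ sm (fun p : ℝ × E => sT T p.1) := (sT_contDiff T).comp contDiff_fst
    have hz : ∀ i, ContDiff ℝ sm (fun p : ℝ × E => p.2 i) := fun i => coord_contDiff contDiff_snd i
    rw [contDiff_pi]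
    intro i
    fin_cases i
    · exact (hc.smul (hz 0)).sub (hs.smul (hz 1))
    · exact (hc.smul (hz 1)).add (hs.smul (hz 0))
    · exact (hc.smul (hz 2)).sub (hs.smul (hz 3))
    · exact (hc.smul (hz 3)).add (hs.smul (hz 2))
    · exact hz 4
  smooth_H := by
    have hw : ContDiff ℝ sm (fun p : ℝ × E => wT T p.1) := (wT_contDiff T).comp contDiff_fst
    have hz : ∀ i, ContDiff ℝ sm (fun p : ℝ × E => p.2 i) := fun i => coord_contDiff contDiff_snd i
    unfold leftH fL
    refine (hw.mul ?_).neg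
    fun_prop
  mapsTo_cone := by
    intro τ z hz
    rw [mem_unitCone_iff] at hz ⊢
    obtain ⟨h1, h2, h3⟩ := hz
    have hcs := cT_sq T τ
    simp only [leftΨ, NN, I1, I2] at *
    simp only [Matrix.cons_val, Complex.sub_re, Complex.add_re, Complex.sub_im, Complex.add_im,
      Complex.smul_re, Complex.smul_im, smul_eq_mul]
    refine ⟨?_, ?_, ?_⟩
    · linear_combination h1 + ((z 0).re ^ 2 + (z 0).im ^ 2 + (z 1).re ^ 2 + (z 1).im ^ 2 +
        (z 2).re ^ 2 + (z 2).im ^ 2 + (z 3).re ^ 2 + (z 3).im ^ 2) * hcs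
    · linear_combination h2 + ((z 0).re ^ 2 - (z 0).im ^ 2 + (z 1).re ^ 2 - (z 1).im ^ 2 +
        (z 2).re ^ 2 - (z 2).im ^ 2 + (z 3).re ^ 2 - (z 3).im ^ 2) * hcs
    · linear_combination h3 + ((z 0).re * (z 0).im + (z 1).re * (z 1).im +
        (z 2).re * (z 2).im + (z 3).re * (z 3).im) * hcs
  compatible := by
    intro τ z c hc
    funext i
    fin_cases i <;> simp [leftΨ, Complex.real_smul] <;> ring
  start := by
    intro z
    funext i
    fin_cases i <;> simp [leftΨ, cT_zero, sT_zero]
  invariant := by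
    intro τ z c hc
    have hc2 : c.re ^ 2 + c.im ^ 2 = 1 := by
      have := Complex.sq_norm c
      rw [hc, Complex.normSq_apply] at this
      nlinarith
    simp only [leftH, fL, Pi.smul_apply, smul_eq_mul,
      Complex.mul_re, Complex.mul_im]
    have : ∀ a b d e : ℝ, (c.re * a - c.im * b) * (c.re * e + c.im * d) -
        (c.re * b + c.im * a) * (c.re * d - c.im * e) = a * e - b * d := by
      intro a b d e
      linear_combination (a * e - b * d) * hc2
    rw [this, this]
  hamilton := by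
    intro τ z w
    rw [(leftΨ_hasDerivAt T τ z).deriv, herm_real_smul_im]
    set y := leftΨ T τ z with hy
    have hH : HasFDerivAt (leftH T τ) _ y := ((fL_hasFDerivAt y).const_mul (wT T τ)).neg
    rw [hH.fderiv]
    simp [herm, Fin.sum_univ_five, Complex.mul_im]
    ring

/-! ### Right rotation -/

/-- rotation in the planes `(0,2)` and `(1,3)` -/
noncomputable def rightΨ (T τ : ℝ) (z : E) : E :=
  ![cT T τ • z 0 - sT T τ • z 2, cT T τ • z 1 - sT T τ • z 3,
    cT T τ • z 2 + sT T τ • z 0, cT T τ • z 3 + sT T τ • z 1, z 4]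

/-- moment function of the right rotation -/
noncomputable def fR (x : E) : ℝ :=
  2 * ((x 2).re * (x 0).im - (x 2).im * (x 0).re + ((x 3).re * (x 1).im - (x 3).im * (x 1).re))

/-- Hamiltonian of the right rotation -/
noncomputable def rightH (T τ : ℝ) (x : E) : ℝ := -(wT T τ * fR x)

lemma fR_hasFDerivAt (y : E) : HasFDerivAt fR
    ((2 : ℝ) • (((y 2).re • imL 0 + (y 0).im • reL 2 - ((y 2).im • reL 0 + (y 0).re • imL 2)) +
      ((y 3).re • imL 1 + (y 1).im • reL 3 - ((y 3).im • reL 1 + (y 1).re • imL 3)))) y := by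
  unfold fR
  exact (((((hre 2 y).mul (him 0 y)).sub ((him 2 y).mul (hre 0 y))).add
    (((hre 3 y).mul (him 1 y)).sub ((him 3 y).mul (hre 1 y)))).const_mul (2 : ℝ))

lemma rightΨ_hasDerivAt (T τ : ℝ) (z : E) : HasDerivAt (fun s : ℝ => rightΨ T s z)
    (wT T τ • ![-(rightΨ T τ z 2), -(rightΨ T τ z 3), rightΨ T τ z 0, rightΨ T τ z 1, 0]) τ := by
  have hc := hasDerivAt_cT T τ
  have hs := hasDerivAt_sT T τ
  rw [hasDerivAt_pi]
  intro i
  fin_cases i
  · have := (hc.smul_const (z 0)).sub (hs.smul_const (z 2))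
    refine this.congr_deriv ?_
    simp only [rightΨ, Complex.real_smul]
    simp
    ring
  · have := (hc.smul_const (z 1)).sub (hs.smul_const (z 3))
    refine this.congr_deriv ?_
    simp only [rightΨ, Complex.real_smul]
    simp
    ring
  · have := (hc.smul_const (z 2)).add (hs.smul_const (z 0))
    refine this.congr_deriv ?_
    simp only [rightΨ, Complex.real_smul]
    simp
    ring
  · have := (hc.smul_const (z 3)).add (hs.smul_const (z 1))
    refine this.congr_deriv ?_
    simp only [rightΨ, Complex.real_smul]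
    simp
    ring
  · simpa [rightΨ] using hasDerivAt_const τ (z 4)

/-- The right rotation block. -/
noncomputable def rightBlock (T : ℝ) : ConeBlock where
  Ψ := rightΨ T
  H := rightH T
  smooth_Ψ := by
    have hc : ContDiff ℝ sm (fun p : ℝ × E => cT T p.1) := (cT_contDiff T).comp contDiff_fst
    have hs : ContDiff ℝ sm (fun p : ℝ × E => sT T p.1) := (sT_contDiff T).comp contDiff_fst
    have hz : ∀ i, ContDiff ℝ sm (fun p : ℝ × E => p.2 i) := fun i => coord_contDiff contDiff_snd i
    rw [contDiff_pi]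
    intro i
    fin_cases i
    · exact (hc.smul (hz 0)).sub (hs.smul (hz 2))
    · exact (hc.smul (hz 1)).sub (hs.smul (hz 3))
    · exact (hc.smul (hz 2)).add (hs.smul (hz 0))
    · exact (hc.smul (hz 3)).add (hs.smul (hz 1))
    · exact hz 4
  smooth_H := by
    have hw : ContDiff ℝ sm (fun p : ℝ × E => wT T p.1) := (wT_contDiff T).comp contDiff_fst
    have hz : ∀ i, ContDiff ℝ sm (fun p : ℝ × E => p.2 i) := fun i => coord_contDiff contDiff_snd i
    unfold rightH fR
    refine (hw.mul ?_).neg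
    fun_prop
  mapsTo_cone := by
    intro τ z hz
    rw [mem_unitCone_iff] at hz ⊢
    obtain ⟨h1, h2, h3⟩ := hz
    have hcs := cT_sq T τ
    simp only [rightΨ, NN, I1, I2] at *
    simp only [Matrix.cons_val, Complex.sub_re, Complex.add_re, Complex.sub_im, Complex.add_im,
      Complex.smul_re, Complex.smul_im, smul_eq_mul]
    refine ⟨?_, ?_, ?_⟩
    · linear_combination h1 + ((z 0).re ^ 2 + (z 0).im ^ 2 + (z 1).re ^ 2 + (z 1).im ^ 2 +
        (z 2).re ^ 2 + (z 2).im ^ 2 + (z 3).re ^ 2 + (z 3).im ^ 2) * hcs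
    · linear_combination h2 + ((z 0).re ^ 2 - (z 0).im ^ 2 + (z 1).re ^ 2 - (z 1).im ^ 2 +
        (z 2).re ^ 2 - (z 2).im ^ 2 + (z 3).re ^ 2 - (z 3).im ^ 2) * hcs
    · linear_combination h3 + ((z 0).re * (z 0).im + (z 1).re * (z 1).im +
        (z 2).re * (z 2).im + (z 3).re * (z 3).im) * hcs
  compatible := by
    intro τ z c hc
    funext i
    fin_cases i <;> simp [rightΨ, Complex.real_smul] <;> ring
  start := by
    intro z
    funext i
    fin_cases i <;> simp [rightΨ, cT_zero, sT_zero]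
  invariant := by
    intro τ z c hc
    have hc2 : c.re ^ 2 + c.im ^ 2 = 1 := by
      have := Complex.sq_norm c
      rw [hc, Complex.normSq_apply] at this
      nlinarith
    simp only [rightH, fR, Pi.smul_apply, smul_eq_mul,
      Complex.mul_re, Complex.mul_im]
    have : ∀ a b d e : ℝ, (c.re * a - c.im * b) * (c.re * e + c.im * d) -
        (c.re * b + c.im * a) * (c.re * d - c.im * e) = a * e - b * d := by
      intro a b d e
      linear_combination (a * e - b * d) * hc2
    rw [this, this]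
  hamilton := by
    intro τ z w
    rw [(rightΨ_hasDerivAt T τ z).deriv, herm_real_smul_im]
    set y := rightΨ T τ z with hy
    have hH : HasFDerivAt (rightH T τ) _ y := ((fR_hasFDerivAt y).const_mul (wT T τ)).neg
    rw [hH.fderiv]
    simp [herm, Fin.sum_univ_five, Complex.mul_im]
    ring

end Crest.Agent.Lib.QuadricLeft
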