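import Mathlib

/-!
The Cayley rotation of `ℝ³` attached to a vector `k` and a time `τ`: the rotation about `k` with
`tan (angle / 2) = τ ‖k‖`.
-/

set_option autoImplicit false

namespace Crest.Agent.Lib.QuadricRot

/-- denominator -/
noncomputable def rD (k1 k2 k3 τ : ℝ) : ℝ := 1 + τ ^ 2 * (k1 ^ 2 + k2 ^ 2 + k3 ^ 2)

lemma rD_pos (k1 k2 k3 τ : ℝ) : 0 < rD k1 k2 k3 τ := by
  unfold rD; positivity

lemma rD_ne (k1 k2 k3 τ : ℝ) : rD k1 k2 k3 τ ≠ 0 := (rD_pos k1 k2 k3 τ).ne'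

/-- coefficient of `k × p` -/
noncomputable def fA (k1 k2 k3 τ : ℝ) : ℝ := 2 * τ / rD k1 k2 k3 τ
/-- coefficient of `k × (k × p)` -/
noncomputable def fB (k1 k2 k3 τ : ℝ) : ℝ := 2 * τ ^ 2 / rD k1 k2 k3 τ

/-- first component of the Cayley rotation -/
noncomputable def rot1 (k1 k2 k3 τ p1 p2 p3 : ℝ) : ℝ :=
  p1 + fA k1 k2 k3 τ * (k2 * p3 - k3 * p2)
    + fB k1 k2 k3 τ * (k2 * (k1 * p2 - k2 * p1) - k3 * (k3 * p1 - k1 * p3))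
/-- second component of the Cayley rotation -/
noncomputable def rot2 (k1 k2 k3 τ p1 p2 p3 : ℝ) : ℝ :=
  p2 + fA k1 k2 k3 τ * (k3 * p1 - k1 * p3)
    + fB k1 k2 k3 τ * (k3 * (k2 * p3 - k3 * p2) - k1 * (k1 * p2 - k2 * p1))
/-- third component of the Cayley rotation -/
noncomputable def rot3 (k1 k2 k3 τ p1 p2 p3 : ℝ) : ℝ :=
  p3 + fA k1 k2 k3 τ * (k1 * p2 - k2 * p1)
    + fB k1 k2 k3 τ * (k1 * (k3 * p1 - k1 * p3) - k2 * (k2 * p3 - k3 * p2))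

variable (k1 k2 k3 τ p1 p2 p3 q1 q2 q3 : ℝ)

lemma rot_dot :
    rot1 k1 k2 k3 τ p1 p2 p3 * rot1 k1 k2 k3 τ q1 q2 q3
      + rot2 k1 k2 k3 τ p1 p2 p3 * rot2 k1 k2 k3 τ q1 q2 q3
      + rot3 k1 k2 k3 τ p1 p2 p3 * rot3 k1 k2 k3 τ q1 q2 q3 = p1 * q1 + p2 * q2 + p3 * q3 := by
  have h := rD_ne k1 k2 k3 τ
  simp only [rot1, rot2, rot3, fA, fB]
  field_simp
  simp only [rD]
  ring

lemma rot_cross1 :
    rot2 k1 k2 k3 τ p1 p2 p3 * rot3 k1 k2 k3 τ q1 q2 q3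
      - rot3 k1 k2 k3 τ p1 p2 p3 * rot2 k1 k2 k3 τ q1 q2 q3
      = rot1 k1 k2 k3 τ (p2 * q3 - p3 * q2) (p3 * q1 - p1 * q3) (p1 * q2 - p2 * q1) := by
  have h := rD_ne k1 k2 k3 τ
  simp only [rot1, rot2, rot3, fA, fB]
  field_simp
  simp only [rD]
  ring

lemma rot_cross2 :
    rot3 k1 k2 k3 τ p1 p2 p3 * rot1 k1 k2 k3 τ q1 q2 q3
      - rot1 k1 k2 k3 τ p1 p2 p3 * rot3 k1 k2 k3 τ q1 q2 q3
      = rot2 k1 k2 k3 τ (p2 * q3 - p3 * q2) (p3 * q1 - p1 * q3) (p1 * q2 - p2 * q1) := by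
  have h := rD_ne k1 k2 k3 τ
  simp only [rot1, rot2, rot3, fA, fB]
  field_simp
  simp only [rD]
  ring

lemma rot_cross3 :
    rot1 k1 k2 k3 τ p1 p2 p3 * rot2 k1 k2 k3 τ q1 q2 q3
      - rot2 k1 k2 k3 τ p1 p2 p3 * rot1 k1 k2 k3 τ q1 q2 q3
      = rot3 k1 k2 k3 τ (p2 * q3 - p3 * q2) (p3 * q1 - p1 * q3) (p1 * q2 - p2 * q1) := by
  have h := rD_ne k1 k2 k3 τ
  simp only [rot1, rot2, rot3, fA, fB]
  field_simp
  simp only [rD]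
  ring

/-- The Cayley relation, first component. -/
lemma rot_rel1 :
    rot1 k1 k2 k3 τ p1 p2 p3 - p1 =
      τ * (k2 * (rot3 k1 k2 k3 τ p1 p2 p3 + p3) - k3 * (rot2 k1 k2 k3 τ p1 p2 p3 + p2)) := by
  have h := rD_ne k1 k2 k3 τ
  simp only [rot1, rot2, rot3, fA, fB]
  field_simp
  simp only [rD]
  ring

lemma rot_rel2 :
    rot2 k1 k2 k3 τ p1 p2 p3 - p2 =
      τ * (k3 * (rot1 k1 k2 k3 τ p1 p2 p3 + p1) - k1 * (rot3 k1 k2 k3 τ p1 p2 p3 + p3)) := by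
  have h := rD_ne k1 k2 k3 τ
  simp only [rot1, rot2, rot3, fA, fB]
  field_simp
  simp only [rD]
  ring

lemma rot_rel3 :
    rot3 k1 k2 k3 τ p1 p2 p3 - p3 =
      τ * (k1 * (rot2 k1 k2 k3 τ p1 p2 p3 + p2) - k2 * (rot1 k1 k2 k3 τ p1 p2 p3 + p1)) := by
  have h := rD_ne k1 k2 k3 τ
  simp only [rot1, rot2, rot3, fA, fB]
  field_simp
  simp only [rD]
  ring

/-- The relation characterises the rotation. -/
lemma rot_unique {a1 a2 a3 : ℝ}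
    (h1 : a1 - p1 = τ * (k2 * (a3 + p3) - k3 * (a2 + p2)))
    (h2 : a2 - p2 = τ * (k3 * (a1 + p1) - k1 * (a3 + p3)))
    (h3 : a3 - p3 = τ * (k1 * (a2 + p2) - k2 * (a1 + p1))) :
    a1 = rot1 k1 k2 k3 τ p1 p2 p3 ∧ a2 = rot2 k1 k2 k3 τ p1 p2 p3 ∧
      a3 = rot3 k1 k2 k3 τ p1 p2 p3 := by
  have r1 := rot_rel1 k1 k2 k3 τ p1 p2 p3
  have r2 := rot_rel2 k1 k2 k3 τ p1 p2 p3
  have r3 := rot_rel3 k1 k2 k3 τ p1 p2 p3
  set b1 := rot1 k1 k2 k3 τ p1 p2 p3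
  set b2 := rot2 k1 k2 k3 τ p1 p2 p3
  set b3 := rot3 k1 k2 k3 τ p1 p2 p3
  have w1 : a1 - b1 = τ * (k2 * (a3 - b3) - k3 * (a2 - b2)) := by linear_combination h1 - r1
  have w2 : a2 - b2 = τ * (k3 * (a1 - b1) - k1 * (a3 - b3)) := by linear_combination h2 - r2
  have w3 : a3 - b3 = τ * (k1 * (a2 - b2) - k2 * (a1 - b1)) := by linear_combination h3 - r3
  have hs : (a1 - b1) ^ 2 + (a2 - b2) ^ 2 + (a3 - b3) ^ 2 = 0 := by
    linear_combination (a1 - b1) * w1 + (a2 - b2) * w2 + (a3 - b3) * w3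
  have e1 : a1 - b1 = 0 := by nlinarith [sq_nonneg (a1 - b1), sq_nonneg (a2 - b2), sq_nonneg (a3 - b3)]
  have e2 : a2 - b2 = 0 := by nlinarith [sq_nonneg (a1 - b1), sq_nonneg (a2 - b2), sq_nonneg (a3 - b3)]
  have e3 : a3 - b3 = 0 := by nlinarith [sq_nonneg (a1 - b1), sq_nonneg (a2 - b2), sq_nonneg (a3 - b3)]
  exact ⟨by linarith, by linarith, by linarith⟩

/-- The rotation fixes its axis. -/
lemma rot1_axis : rot1 k1 k2 k3 τ k1 k2 k3 = k1 := by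
  simp only [rot1]; ring
lemma rot2_axis : rot2 k1 k2 k3 τ k1 k2 k3 = k2 := by
  simp only [rot2]; ring
lemma rot3_axis : rot3 k1 k2 k3 τ k1 k2 k3 = k3 := by
  simp only [rot3]; ring

/-- The rotation fixes multiples of its axis. -/
lemma rot1_par (a m1 m2 m3 τ : ℝ) : rot1 (a * m1) (a * m2) (a * m3) τ m1 m2 m3 = m1 := by
  simp only [rot1]; ring
lemma rot2_par (a m1 m2 m3 τ : ℝ) : rot2 (a * m1) (a * m2) (a * m3) τ m1 m2 m3 = m2 := by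
  simp only [rot2]; ring
lemma rot3_par (a m1 m2 m3 τ : ℝ) : rot3 (a * m1) (a * m2) (a * m3) τ m1 m2 m3 = m3 := by
  simp only [rot3]; ring

/-- time derivative of the coefficient `fA` -/
noncomputable def dfA (k1 k2 k3 τ : ℝ) : ℝ :=
  2 * (1 - τ ^ 2 * (k1 ^ 2 + k2 ^ 2 + k3 ^ 2)) / rD k1 k2 k3 τ ^ 2
/-- time derivative of the coefficient `fB` -/
noncomputable def dfB (k1 k2 k3 τ : ℝ) : ℝ := 4 * τ / rD k1 k2 k3 τ ^ 2

lemma rD_hasDerivAt : HasDerivAt (fun s => rD k1 k2 k3 s)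
    (2 * τ * (k1 ^ 2 + k2 ^ 2 + k3 ^ 2)) τ := by
  have := ((hasDerivAt_id τ).fun_pow 2).mul_const (k1 ^ 2 + k2 ^ 2 + k3 ^ 2)
  have h := this.const_add 1
  refine h.congr_deriv ?_
  simp

lemma fA_hasDerivAt : HasDerivAt (fun s => fA k1 k2 k3 s) (dfA k1 k2 k3 τ) τ := by
  have h := ((hasDerivAt_id τ).const_mul 2).div (rD_hasDerivAt k1 k2 k3 τ) (rD_ne k1 k2 k3 τ)
  refine h.congr_deriv ?_
  have hne := rD_ne k1 k2 k3 τ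
  simp only [dfA, id]
  field_simp
  simp only [rD]
  ring

lemma fB_hasDerivAt : HasDerivAt (fun s => fB k1 k2 k3 s) (dfB k1 k2 k3 τ) τ := by
  have h := (((hasDerivAt_id τ).fun_pow 2).const_mul 2).div (rD_hasDerivAt k1 k2 k3 τ)
    (rD_ne k1 k2 k3 τ)
  refine h.congr_deriv ?_
  have hne := rD_ne k1 k2 k3 τ
  simp only [dfB, id]
  field_simp
  simp only [rD]
  ring

lemma rot_vel1 :
    dfA k1 k2 k3 τ * (k2 * p3 - k3 * p2)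
      + dfB k1 k2 k3 τ * (k2 * (k1 * p2 - k2 * p1) - k3 * (k3 * p1 - k1 * p3))
      = 2 / rD k1 k2 k3 τ * (k2 * rot3 k1 k2 k3 τ p1 p2 p3 - k3 * rot2 k1 k2 k3 τ p1 p2 p3) := by
  have hne := rD_ne k1 k2 k3 τ
  simp only [rot2, rot3, fA, fB, dfA, dfB]
  field_simp
  simp only [rD]
  ring

lemma rot_vel2 :
    dfA k1 k2 k3 τ * (k3 * p1 - k1 * p3)
      + dfB k1 k2 k3 τ * (k3 * (k2 * p3 - k3 * p2) - k1 * (k1 * p2 - k2 * p1))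
      = 2 / rD k1 k2 k3 τ * (k3 * rot1 k1 k2 k3 τ p1 p2 p3 - k1 * rot3 k1 k2 k3 τ p1 p2 p3) := by
  have hne := rD_ne k1 k2 k3 τ
  simp only [rot1, rot3, fA, fB, dfA, dfB]
  field_simp
  simp only [rD]
  ring

lemma rot_vel3 :
    dfA k1 k2 k3 τ * (k1 * p2 - k2 * p1)
      + dfB k1 k2 k3 τ * (k1 * (k3 * p1 - k1 * p3) - k2 * (k2 * p3 - k3 * p2))
      = 2 / rD k1 k2 k3 τ * (k1 * rot2 k1 k2 k3 τ p1 p2 p3 - k2 * rot1 k1 k2 k3 τ p1 p2 p3) := by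
  have hne := rD_ne k1 k2 k3 τ
  simp only [rot1, rot2, fA, fB, dfA, dfB]
  field_simp
  simp only [rD]
  ring

end Crest.Agent.Lib.QuadricRot
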