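import Crest.Agent.Lib.QuadricLeft
import Crest.Agent.Lib.QuadricRot

/-!
The twist block: the flow of a function of the squared norm of the `SO(3)`-moment map, in Cayley
parametrisation.
-/

set_option autoImplicit false
open Crest.GeometryTopology.Quadric
open Crest.Agent.Lib.QuadricBlock Crest.Agent.Lib.QuadricLeft Crest.Agent.Lib.QuadricRot
open scoped Topology

namespace Crest.Agent.Lib.QuadricTwist

/-! ### The function `log (1 + u) / u` -/

/-- `log (1 + u)` -/
noncomputable def logF (u : ℝ) : ℝ := Real.log (1 + u)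

/-- `log (1 + u) / u`, extended smoothly over `0` -/
noncomputable def gL (u : ℝ) : ℝ := dslope logF 0 u

lemma logF_analyticAt {u : ℝ} (hu : -1 < u) : AnalyticAt ℝ logF u := by
  have h1 : AnalyticAt ℝ (fun x : ℝ => 1 + x) u := analyticAt_const.add analyticAt_id
  exact h1.log (by linarith)

lemma gL_contDiffAt {u : ℝ} (hu : -1 < u) : ContDiffAt ℝ sm gL u := by
  by_cases h : u = 0
  · subst h
    obtain ⟨p, hp⟩ := logF_analyticAt hu
    exact (hp.has_fpower_series_dslope_fslope).analyticAt.contDiffAt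
  · have h1 : gL =ᶠ[𝓝 u] fun x => (x - 0)⁻¹ • (logF x - logF 0) := by
      have := dslope_eventuallyEq_slope_of_ne (𝕜 := ℝ) logF h
      filter_upwards [this] with x hx
      rw [show gL x = dslope logF 0 x from rfl, hx, slope_def_module]
    refine ContDiffAt.congr_of_eventuallyEq ?_ h1
    have h2 : ContDiffAt ℝ sm logF u := (logF_analyticAt hu).contDiffAt
    have h3 : ContDiffAt ℝ sm (fun x : ℝ => (x - 0)⁻¹) u :=
      ContDiffAt.inv (contDiffAt_id.sub contDiffAt_const) (by simpa using h)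
    exact h3.smul (h2.sub contDiffAt_const)

lemma gL_zero : gL 0 = 1 := by
  have h : HasDerivAt logF 1 0 := by
    have := (hasDerivAt_id (0 : ℝ)).const_add 1
    have h2 := this.log (by norm_num)
    show HasDerivAt (fun y => Real.log (1 + y)) 1 0
    simpa using h2
  simp [gL, dslope_same, h.deriv]

lemma mul_gL (a r : ℝ) (ha : a ≠ 0) : r * gL (a * r) = Real.log (1 + a * r) / a := by
  by_cases hr : r = 0
  · subst hr; simp
  · have h : a * r ≠ 0 := mul_ne_zero ha hr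
    rw [gL, dslope_of_ne _ h, slope_def_field]
    simp only [logF, add_zero, Real.log_one, sub_zero]
    field_simp

/-- The derivative of `r ↦ r * gL (a * r)`. -/
lemma hasDerivAt_mul_gL {a r : ℝ} (ha : 0 ≤ a) (hr : 0 ≤ r) :
    HasDerivAt (fun x => x * gL (a * x)) (1 / (1 + a * r)) r := by
  rcases ha.eq_or_lt with rfl | ha'
  · have : (fun x : ℝ => x * gL (0 * x)) = fun x => x := by
      funext x; simp [gL_zero]
    rw [this]; simpa using hasDerivAt_id' r
  · have : (fun x : ℝ => x * gL (a * x)) = fun x => Real.log (1 + a * x) / a := by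
      funext x; exact mul_gL a x ha'.ne'
    rw [this]
    have h1 : HasDerivAt (fun x : ℝ => 1 + a * x) a r := by
      simpa using ((hasDerivAt_id r).const_mul a).const_add 1
    have hpos : 0 < 1 + a * r := by positivity
    have h2 := (h1.log hpos.ne').div_const a
    refine h2.congr_deriv ?_
    field_simp

/-! ### The moment map of the `SO(3)` acting on coordinates `1, 2, 3` -/

/-- first component of the moment map -/
noncomputable def sv1 (z : E) : ℝ := -4 * ((z 2).re * (z 3).im - (z 3).re * (z 2).im)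
/-- second component of the moment map -/
noncomputable def sv2 (z : E) : ℝ := -4 * ((z 3).re * (z 1).im - (z 1).re * (z 3).im)
/-- third component of the moment map -/
noncomputable def sv3 (z : E) : ℝ := -4 * ((z 1).re * (z 2).im - (z 2).re * (z 1).im)

/-- squared norm of the moment map -/
noncomputable def rr (z : E) : ℝ := sv1 z ^ 2 + sv2 z ^ 2 + sv3 z ^ 2

lemma rr_nonneg (z : E) : 0 ≤ rr z := by unfold rr; positivity

lemma sv1_hasFDerivAt (y : E) : HasFDerivAt sv1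
    ((-4 : ℝ) • ((y 2).re • imL 3 + (y 3).im • reL 2 - ((y 3).re • imL 2 + (y 2).im • reL 3))) y := by
  unfold sv1
  exact (((hre 2 y).mul (him 3 y)).sub ((hre 3 y).mul (him 2 y))).const_mul (-4 : ℝ)

lemma sv2_hasFDerivAt (y : E) : HasFDerivAt sv2
    ((-4 : ℝ) • ((y 3).re • imL 1 + (y 1).im • reL 3 - ((y 1).re • imL 3 + (y 3).im • reL 1))) y := by
  unfold sv2
  exact (((hre 3 y).mul (him 1 y)).sub ((hre 1 y).mul (him 3 y))).const_mul (-4 : ℝ)

lemma sv3_hasFDerivAt (y : E) : HasFDerivAt sv3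
    ((-4 : ℝ) • ((y 1).re • imL 2 + (y 2).im • reL 1 - ((y 2).re • imL 1 + (y 1).im • reL 2))) y := by
  unfold sv3
  exact (((hre 1 y).mul (him 2 y)).sub ((hre 2 y).mul (him 1 y))).const_mul (-4 : ℝ)

/-- the derivative of `sv1` -/
noncomputable def d1 (y : E) : E →L[ℝ] ℝ :=
  (-4 : ℝ) • ((y 2).re • imL 3 + (y 3).im • reL 2 - ((y 3).re • imL 2 + (y 2).im • reL 3))
/-- the derivative of `sv2` -/
noncomputable def d2 (y : E) : E →L[ℝ] ℝ :=
  (-4 : ℝ) • ((y 3).re • imL 1 + (y 1).im • reL 3 - ((y 1).re • imL 3 + (y 3).im • reL 1))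
/-- the derivative of `sv3` -/
noncomputable def d3 (y : E) : E →L[ℝ] ℝ :=
  (-4 : ℝ) • ((y 1).re • imL 2 + (y 2).im • reL 1 - ((y 2).re • imL 1 + (y 1).im • reL 2))

/-- the derivative of `rr`, as a linear functional -/
noncomputable def rrD (y : E) : E →L[ℝ] ℝ :=
  (sv1 y • d1 y + sv1 y • d1 y) + (sv2 y • d2 y + sv2 y • d2 y) + (sv3 y • d3 y + sv3 y • d3 y)

lemma rr_hasFDerivAt (y : E) : HasFDerivAt rr (rrD y) y := by
  have h1 := (sv1_hasFDerivAt y).mul (sv1_hasFDerivAt y)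
  have h2 := (sv2_hasFDerivAt y).mul (sv2_hasFDerivAt y)
  have h3 := (sv3_hasFDerivAt y).mul (sv3_hasFDerivAt y)
  have e : rr = (fun x => sv1 x * sv1 x) + (fun x => sv2 x * sv2 x) + (fun x => sv3 x * sv3 x) := by
    funext x; simp only [rr, Pi.add_apply]; ring
  rw [e]
  exact (h1.add h2).add h3

/-- The moment map under the unit scalars. -/
lemma unit_cross (c : ℂ) (hc2 : c.re ^ 2 + c.im ^ 2 = 1) (a b : ℂ) :
    (c * a).re * (c * b).im - (c * b).re * (c * a).im = a.re * b.im - b.re * a.im := by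
  simp only [Complex.mul_re, Complex.mul_im]
  linear_combination (a.re * b.im - b.re * a.im) * hc2

lemma unit_sq (c : ℂ) (hc : ‖c‖ = 1) : c.re ^ 2 + c.im ^ 2 = 1 := by
  have := Complex.sq_norm c
  rw [hc, Complex.normSq_apply] at this
  nlinarith

/-! ### The twist -/

/-- The twist: rotate coordinates `1, 2, 3` by the Cayley rotation about `c0 * s(z)`. -/
noncomputable def twΨ (c0 τ : ℝ) (z : E) : E :=
  let k1 := c0 * sv1 z
  let k2 := c0 * sv2 z
  let k3 := c0 * sv3 z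
  let A := fA k1 k2 k3 τ
  let B := fB k1 k2 k3 τ
  let X1 := k2 • z 3 - k3 • z 2
  let X2 := k3 • z 1 - k1 • z 3
  let X3 := k1 • z 2 - k2 • z 1
  ![z 0, z 1 + A • X1 + B • (k2 • X3 - k3 • X2), z 2 + A • X2 + B • (k3 • X1 - k1 • X3),
    z 3 + A • X3 + B • (k1 • X2 - k2 • X1), z 4]

/-- The Hamiltonian of the twist. -/
noncomputable def twH (c0 τ : ℝ) (x : E) : ℝ :=
  -(c0 / 2) * (rr x * gL ((τ * c0) ^ 2 * rr x))

section coords
variable (c0 τ : ℝ) (z : E)

lemma tw_re0 : (twΨ c0 τ z 0).re = (z 0).re := rfl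
lemma tw_im0 : (twΨ c0 τ z 0).im = (z 0).im := rfl
lemma tw_re4 : (twΨ c0 τ z 4).re = (z 4).re := rfl
lemma tw_im4 : (twΨ c0 τ z 4).im = (z 4).im := rfl

lemma tw_re1 : (twΨ c0 τ z 1).re = rot1 (c0 * sv1 z) (c0 * sv2 z) (c0 * sv3 z) τ
    (z 1).re (z 2).re (z 3).re := by
  simp [twΨ, rot1]
lemma tw_im1 : (twΨ c0 τ z 1).im = rot1 (c0 * sv1 z) (c0 * sv2 z) (c0 * sv3 z) τ
    (z 1).im (z 2).im (z 3).im := by
  simp [twΨ, rot1]
lemma tw_re2 : (twΨ c0 τ z 2).re = rot2 (c0 * sv1 z) (c0 * sv2 z) (c0 * sv3 z) τ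
    (z 1).re (z 2).re (z 3).re := by
  simp [twΨ, rot2]
lemma tw_im2 : (twΨ c0 τ z 2).im = rot2 (c0 * sv1 z) (c0 * sv2 z) (c0 * sv3 z) τ
    (z 1).im (z 2).im (z 3).im := by
  simp [twΨ, rot2]
lemma tw_re3 : (twΨ c0 τ z 3).re = rot3 (c0 * sv1 z) (c0 * sv2 z) (c0 * sv3 z) τ
    (z 1).re (z 2).re (z 3).re := by
  simp [twΨ, rot3]
lemma tw_im3 : (twΨ c0 τ z 3).im = rot3 (c0 * sv1 z) (c0 * sv2 z) (c0 * sv3 z) τ
    (z 1).im (z 2).im (z 3).im := by
  simp [twΨ, rot3]

/-- The moment map is preserved by the twist. -/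
lemma sv1_tw : sv1 (twΨ c0 τ z) = sv1 z := by
  have h := rot_cross1 (c0 * sv1 z) (c0 * sv2 z) (c0 * sv3 z) τ (z 1).re (z 2).re (z 3).re
    (z 1).im (z 2).im (z 3).im
  have h2 := rot1_par (c0 * (-4)) ((z 2).re * (z 3).im - (z 3).re * (z 2).im)
    ((z 3).re * (z 1).im - (z 1).re * (z 3).im) ((z 1).re * (z 2).im - (z 2).re * (z 1).im) τ
  have e : ∀ m : ℝ, c0 * (-4) * m = c0 * (-4 * m) := fun m => by ring
  simp only [e] at h2
  show -4 * ((twΨ c0 τ z 2).re * (twΨ c0 τ z 3).im - (twΨ c0 τ z 3).re * (twΨ c0 τ z 2).im) = _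
  rw [tw_re2, tw_re3, tw_im2, tw_im3, h]
  exact congrArg (fun t => -4 * t) h2

lemma sv2_tw : sv2 (twΨ c0 τ z) = sv2 z := by
  have h := rot_cross2 (c0 * sv1 z) (c0 * sv2 z) (c0 * sv3 z) τ (z 1).re (z 2).re (z 3).re
    (z 1).im (z 2).im (z 3).im
  have h2 := rot2_par (c0 * (-4)) ((z 2).re * (z 3).im - (z 3).re * (z 2).im)
    ((z 3).re * (z 1).im - (z 1).re * (z 3).im) ((z 1).re * (z 2).im - (z 2).re * (z 1).im) τ
  have e : ∀ m : ℝ, c0 * (-4) * m = c0 * (-4 * m) := fun m => by ring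
  simp only [e] at h2
  show -4 * ((twΨ c0 τ z 3).re * (twΨ c0 τ z 1).im - (twΨ c0 τ z 1).re * (twΨ c0 τ z 3).im) = _
  rw [tw_re3, tw_re1, tw_im3, tw_im1, h]
  exact congrArg (fun t => -4 * t) h2

lemma sv3_tw : sv3 (twΨ c0 τ z) = sv3 z := by
  have h := rot_cross3 (c0 * sv1 z) (c0 * sv2 z) (c0 * sv3 z) τ (z 1).re (z 2).re (z 3).re
    (z 1).im (z 2).im (z 3).im
  have h2 := rot3_par (c0 * (-4)) ((z 2).re * (z 3).im - (z 3).re * (z 2).im)
    ((z 3).re * (z 1).im - (z 1).re * (z 3).im) ((z 1).re * (z 2).im - (z 2).re * (z 1).im) τ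
  have e : ∀ m : ℝ, c0 * (-4) * m = c0 * (-4 * m) := fun m => by ring
  simp only [e] at h2
  show -4 * ((twΨ c0 τ z 1).re * (twΨ c0 τ z 2).im - (twΨ c0 τ z 2).re * (twΨ c0 τ z 1).im) = _
  rw [tw_re1, tw_re2, tw_im1, tw_im2, h]
  exact congrArg (fun t => -4 * t) h2

lemma rr_tw : rr (twΨ c0 τ z) = rr z := by
  simp only [rr, sv1_tw, sv2_tw, sv3_tw]

end coords

/-- The imaginary part of the Hermitian product in real coordinates. -/
lemma herm_im_expand (V w : E) : (herm V w).im =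
    (V 0).re * (w 0).im - (V 0).im * (w 0).re + ((V 1).re * (w 1).im - (V 1).im * (w 1).re) +
    ((V 2).re * (w 2).im - (V 2).im * (w 2).re) + ((V 3).re * (w 3).im - (V 3).im * (w 3).re) +
    ((V 4).re * (w 4).im - (V 4).im * (w 4).re) := by
  simp only [herm, Fin.sum_univ_five, Complex.add_im, Complex.mul_im, Complex.conj_re,
    Complex.conj_im]
  ring

/-- the velocity field of the twist -/
noncomputable def velo (Om k1 k2 k3 : ℝ) (y : E) : E :=
  ![0, Om • (k2 • y 3 - k3 • y 2), Om • (k3 • y 1 - k1 • y 3), Om • (k1 • y 2 - k2 • y 1), 0]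

lemma twΨ_hasDerivAt (c0 τ : ℝ) (z : E) : HasDerivAt (fun s : ℝ => twΨ c0 s z)
    (velo (2 / rD (c0 * sv1 z) (c0 * sv2 z) (c0 * sv3 z) τ) (c0 * sv1 z) (c0 * sv2 z) (c0 * sv3 z)
      (twΨ c0 τ z)) τ := by
  set k1 := c0 * sv1 z with hk1
  set k2 := c0 * sv2 z with hk2
  set k3 := c0 * sv3 z with hk3
  have hA := fA_hasDerivAt k1 k2 k3 τ
  have hB := fB_hasDerivAt k1 k2 k3 τ
  rw [hasDerivAt_pi]
  intro i
  fin_cases i
  · simpa [velo, twΨ] using hasDerivAt_const τ (z 0)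
  · have := ((hA.smul_const (k2 • z 3 - k3 • z 2)).const_add (z 1)).add
      (hB.smul_const (k2 • (k1 • z 2 - k2 • z 1) - k3 • (k3 • z 1 - k1 • z 3)))
    refine this.congr_deriv ?_
    show _ = (2 / rD k1 k2 k3 τ) • (k2 • twΨ c0 τ z 3 - k3 • twΨ c0 τ z 2)
    apply Complex.ext
    · have := rot_vel1 k1 k2 k3 τ (z 1).re (z 2).re (z 3).re
      simp only [Complex.add_re, Complex.sub_re, Complex.smul_re, smul_eq_mul, tw_re2, tw_re3]
      exact this
    · have := rot_vel1 k1 k2 k3 τ (z 1).im (z 2).im (z 3).im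
      simp only [Complex.add_im, Complex.sub_im, Complex.smul_im, smul_eq_mul, tw_im2, tw_im3]
      exact this
  · have := ((hA.smul_const (k3 • z 1 - k1 • z 3)).const_add (z 2)).add
      (hB.smul_const (k3 • (k2 • z 3 - k3 • z 2) - k1 • (k1 • z 2 - k2 • z 1)))
    refine this.congr_deriv ?_
    show _ = (2 / rD k1 k2 k3 τ) • (k3 • twΨ c0 τ z 1 - k1 • twΨ c0 τ z 3)
    apply Complex.ext
    · have := rot_vel2 k1 k2 k3 τ (z 1).re (z 2).re (z 3).re
      simp only [Complex.add_re, Complex.sub_re, Complex.smul_re, smul_eq_mul, tw_re1, tw_re3]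
      exact this
    · have := rot_vel2 k1 k2 k3 τ (z 1).im (z 2).im (z 3).im
      simp only [Complex.add_im, Complex.sub_im, Complex.smul_im, smul_eq_mul, tw_im1, tw_im3]
      exact this
  · have := ((hA.smul_const (k1 • z 2 - k2 • z 1)).const_add (z 3)).add
      (hB.smul_const (k1 • (k3 • z 1 - k1 • z 3) - k2 • (k2 • z 3 - k3 • z 2)))
    refine this.congr_deriv ?_
    show _ = (2 / rD k1 k2 k3 τ) • (k1 • twΨ c0 τ z 2 - k2 • twΨ c0 τ z 1)
    apply Complex.ext
    · have := rot_vel3 k1 k2 k3 τ (z 1).re (z 2).re (z 3).re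
      simp only [Complex.add_re, Complex.sub_re, Complex.smul_re, smul_eq_mul, tw_re1, tw_re2]
      exact this
    · have := rot_vel3 k1 k2 k3 τ (z 1).im (z 2).im (z 3).im
      simp only [Complex.add_im, Complex.sub_im, Complex.smul_im, smul_eq_mul, tw_im1, tw_im2]
      exact this
  · simpa [velo, twΨ] using hasDerivAt_const τ (z 4)

lemma twH_hasFDerivAt (c0 τ : ℝ) (y : E) : HasFDerivAt (twH c0 τ)
    ((-(c0 / 2)) • ((1 / (1 + (τ * c0) ^ 2 * rr y)) • rrD y)) y := by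
  have h1 : HasDerivAt (fun x => x * gL ((τ * c0) ^ 2 * x)) (1 / (1 + (τ * c0) ^ 2 * rr y)) (rr y) :=
    hasDerivAt_mul_gL (by positivity) (rr_nonneg y)
  have h2 := h1.comp_hasFDerivAt y (rr_hasFDerivAt y)
  exact h2.const_mul (-(c0 / 2))

section smooth

lemma contDiff_sv1 : ContDiff ℝ sm (fun p : ℝ × E => sv1 p.2) := by
  have hz : ∀ i, ContDiff ℝ sm (fun p : ℝ × E => p.2 i) := fun i => coord_contDiff contDiff_snd i
  unfold sv1; fun_prop
lemma contDiff_sv2 : ContDiff ℝ sm (fun p : ℝ × E => sv2 p.2) := by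
  have hz : ∀ i, ContDiff ℝ sm (fun p : ℝ × E => p.2 i) := fun i => coord_contDiff contDiff_snd i
  unfold sv2; fun_prop
lemma contDiff_sv3 : ContDiff ℝ sm (fun p : ℝ × E => sv3 p.2) := by
  have hz : ∀ i, ContDiff ℝ sm (fun p : ℝ × E => p.2 i) := fun i => coord_contDiff contDiff_snd i
  unfold sv3; fun_prop

lemma contDiff_rr : ContDiff ℝ sm (fun p : ℝ × E => rr p.2) := by
  have h1 := contDiff_sv1
  have h2 := contDiff_sv2
  have h3 := contDiff_sv3
  unfold rr; fun_prop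

lemma contDiff_gL_comp {f : ℝ × E → ℝ} (hf : ContDiff ℝ sm f) (h0 : ∀ p, 0 ≤ f p) :
    ContDiff ℝ sm (fun p => gL (f p)) := by
  rw [contDiff_iff_contDiffAt]
  intro p
  exact (gL_contDiffAt (by linarith [h0 p])).comp p hf.contDiffAt

end smooth

lemma sv1_smul (z : E) (c : ℂ) (hc : ‖c‖ = 1) : sv1 (c • z) = sv1 z := by
  have := unit_cross c (unit_sq c hc) (z 2) (z 3)
  simp only [sv1, Pi.smul_apply, smul_eq_mul]
  rw [this]

lemma sv2_smul (z : E) (c : ℂ) (hc : ‖c‖ = 1) : sv2 (c • z) = sv2 z := by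
  have := unit_cross c (unit_sq c hc) (z 3) (z 1)
  simp only [sv2, Pi.smul_apply, smul_eq_mul]
  rw [this]

lemma sv3_smul (z : E) (c : ℂ) (hc : ‖c‖ = 1) : sv3 (c • z) = sv3 z := by
  have := unit_cross c (unit_sq c hc) (z 1) (z 2)
  simp only [sv3, Pi.smul_apply, smul_eq_mul]
  rw [this]

lemma rr_smul (z : E) (c : ℂ) (hc : ‖c‖ = 1) : rr (c • z) = rr z := by
  simp only [rr, sv1_smul z c hc, sv2_smul z c hc, sv3_smul z c hc]

/-- The twist block. -/
noncomputable def twistBlock (c0 : ℝ) : ConeBlock where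
  Ψ := twΨ c0
  H := twH c0
  smooth_Ψ := by
    have hz : ∀ i, ContDiff ℝ sm (fun p : ℝ × E => p.2 i) := fun i => coord_contDiff contDiff_snd i
    have h1 := contDiff_sv1
    have h2 := contDiff_sv2
    have h3 := contDiff_sv3
    have hD : ContDiff ℝ sm (fun p : ℝ × E => rD (c0 * sv1 p.2) (c0 * sv2 p.2) (c0 * sv3 p.2) p.1) := by
      unfold rD; fun_prop
    have hA : ContDiff ℝ sm (fun p : ℝ × E => fA (c0 * sv1 p.2) (c0 * sv2 p.2) (c0 * sv3 p.2) p.1) := by
      unfold fA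
      exact ContDiff.div (by fun_prop) hD (fun p => rD_ne _ _ _ _)
    have hB : ContDiff ℝ sm (fun p : ℝ × E => fB (c0 * sv1 p.2) (c0 * sv2 p.2) (c0 * sv3 p.2) p.1) := by
      unfold fB
      exact ContDiff.div (by fun_prop) hD (fun p => rD_ne _ _ _ _)
    rw [contDiff_pi]
    intro i
    simp only [twΨ]
    fin_cases i
    · exact hz 0
    · show ContDiff ℝ sm (fun p : ℝ × E => p.2 1 + _ • _ + _ • _)
      fun_prop
    · show ContDiff ℝ sm (fun p : ℝ × E => p.2 2 + _ • _ + _ • _)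
      fun_prop
    · show ContDiff ℝ sm (fun p : ℝ × E => p.2 3 + _ • _ + _ • _)
      fun_prop
    · exact hz 4
  smooth_H := by
    have h := contDiff_rr
    have h2 : ContDiff ℝ sm (fun p : ℝ × E => gL ((p.1 * c0) ^ 2 * rr p.2)) :=
      contDiff_gL_comp (by fun_prop) (fun p => mul_nonneg (by positivity) (rr_nonneg _))
    unfold twH
    fun_prop
  mapsTo_cone := by
    intro τ z hz
    rw [mem_unitCone_iff] at hz ⊢
    obtain ⟨h1, h2, h3⟩ := hz
    have e1 := rot_dot (c0 * sv1 z) (c0 * sv2 z) (c0 * sv3 z) τ (z 1).re (z 2).re (z 3).re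
      (z 1).re (z 2).re (z 3).re
    have e2 := rot_dot (c0 * sv1 z) (c0 * sv2 z) (c0 * sv3 z) τ (z 1).im (z 2).im (z 3).im
      (z 1).im (z 2).im (z 3).im
    have e3 := rot_dot (c0 * sv1 z) (c0 * sv2 z) (c0 * sv3 z) τ (z 1).re (z 2).re (z 3).re
      (z 1).im (z 2).im (z 3).im
    simp only [NN, I1, I2] at *
    simp only [tw_re0, tw_im0, tw_re1, tw_im1, tw_re2, tw_im2, tw_re3, tw_im3, tw_re4, tw_im4]
    refine ⟨?_, ?_, ?_⟩
    · linear_combination h1 + e1 + e2
    · linear_combination h2 + e1 - e2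
    · linear_combination h3 + e3
  compatible := by
    intro τ z c hc
    funext i
    simp only [twΨ, sv1_smul z c hc, sv2_smul z c hc, sv3_smul z c hc]
    fin_cases i <;> simp [Complex.real_smul] <;> ring
  start := by
    intro z
    funext i
    have hA : ∀ a b d : ℝ, fA a b d 0 = 0 := fun a b d => by simp [fA]
    have hB : ∀ a b d : ℝ, fB a b d 0 = 0 := fun a b d => by simp [fB]
    simp only [twΨ, hA, hB]
    fin_cases i <;> simp
  invariant := by
    intro τ z c hc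
    simp only [twH, rr_smul z c hc]
  hamilton := by
    intro τ z w
    rw [(twΨ_hasDerivAt c0 τ z).deriv, (twH_hasFDerivAt c0 τ _).fderiv, rr_tw, herm_im_expand]
    have hDe : rD (c0 * sv1 z) (c0 * sv2 z) (c0 * sv3 z) τ = 1 + (τ * c0) ^ 2 * rr z := by
      simp only [rD, rr]; ring
    have hne : 1 + (τ * c0) ^ 2 * rr z ≠ 0 := by
      have := rr_nonneg z
      positivity
    rw [hDe]
    set y := twΨ c0 τ z with hy
    have e1 : sv1 z = sv1 y := (sv1_tw c0 τ z).symm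
    have e2 : sv2 z = sv2 y := (sv2_tw c0 τ z).symm
    have e3 : sv3 z = sv3 y := (sv3_tw c0 τ z).symm
    rw [e1, e2, e3]
    set D := 1 + (τ * c0) ^ 2 * rr z with hD
    simp only [velo, rrD, d1, d2, d3]
    simp
    field_simp
    ring

end Crest.Agent.Lib.QuadricTwist
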