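import Mathlib

set_option autoImplicit false
open MeasureTheory
open scoped ENNReal RealInnerProductSpace

namespace Crest.Agent.Lib.S0328

abbrev E3 := EuclideanSpace ℝ (Fin 3)
abbrev E2 := EuclideanSpace ℝ (Fin 2)

/-- Membership in the convex hull of three points. -/
lemma mem_convexHull_three {V : Type*} [AddCommGroup V] [Module ℝ V] (P Q R x : V) :
    x ∈ convexHull ℝ ({P, Q, R} : Set V) ↔
      ∃ u v w : ℝ, 0 ≤ u ∧ 0 ≤ v ∧ 0 ≤ w ∧ u + v + w = 1 ∧ x = u • P + v • Q + w • R := by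
  constructor
  · intro hx
    have hconv : Convex ℝ {x : V | ∃ u v w : ℝ, 0 ≤ u ∧ 0 ≤ v ∧ 0 ≤ w ∧ u + v + w = 1 ∧
        x = u • P + v • Q + w • R} := by
      intro x hx y hy a b ha hb hab
      obtain ⟨u, v, w, hu, hv, hw, h1, rfl⟩ := hx
      obtain ⟨u', v', w', hu', hv', hw', h1', rfl⟩ := hy
      refine ⟨a * u + b * u', a * v + b * v', a * w + b * w', by positivity, by positivity,
        by positivity, ?_, ?_⟩
      · linear_combination a * h1 + b * h1' + hab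
      · module
    refine convexHull_min ?_ hconv hx
    intro y hy
    simp only [Set.mem_insert_iff, Set.mem_singleton_iff] at hy
    rcases hy with rfl | rfl | rfl
    · exact ⟨1, 0, 0, by norm_num, by norm_num, by norm_num, by norm_num, by simp⟩
    · exact ⟨0, 1, 0, by norm_num, by norm_num, by norm_num, by norm_num, by simp⟩
    · exact ⟨0, 0, 1, by norm_num, by norm_num, by norm_num, by norm_num, by simp⟩
  · rintro ⟨u, v, w, hu, hv, hw, h1, rfl⟩
    have hP : P ∈ convexHull ℝ ({P, Q, R} : Set V) := subset_convexHull ℝ _ (by simp)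
    have hQ : Q ∈ convexHull ℝ ({P, Q, R} : Set V) := subset_convexHull ℝ _ (by simp)
    have hR : R ∈ convexHull ℝ ({P, Q, R} : Set V) := subset_convexHull ℝ _ (by simp)
    have := (convex_convexHull ℝ ({P, Q, R} : Set V)).sum_mem (t := Finset.univ)
      (w := ![u, v, w]) (z := ![P, Q, R])
      (by intro i _; fin_cases i <;> simpa)
      (by simp [Fin.sum_univ_three, h1])
      (by intro i _; fin_cases i <;> simp [hP, hQ, hR])
    simpa [Fin.sum_univ_three] using this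

/-- The standard triangle in the plane. -/
def stdTri : Set E2 := {s | 0 ≤ s 0 ∧ 0 ≤ s 1 ∧ s 0 + s 1 ≤ 1}

lemma convex_stdTri : Convex ℝ stdTri := by
  intro x hx y hy a b ha hb hab
  obtain ⟨h0, h1, h2⟩ := hx
  obtain ⟨h0', h1', h2'⟩ := hy
  simp only [stdTri, Set.mem_ofPred_eq, PiLp.add_apply, PiLp.smul_apply, smul_eq_mul]
  refine ⟨by positivity, by positivity, ?_⟩
  nlinarith [mul_le_mul_of_nonneg_left h2 ha, mul_le_mul_of_nonneg_left h2' hb]

lemma volume_prodTri : volume {p : ℝ × ℝ | 0 ≤ p.1 ∧ 0 ≤ p.2 ∧ p.1 + p.2 ≤ 1} = ENNReal.ofReal (1/2) := by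
  have hmeas : MeasurableSet {p : ℝ × ℝ | 0 ≤ p.1 ∧ 0 ≤ p.2 ∧ p.1 + p.2 ≤ 1} := by
    apply IsClosed.measurableSet
    apply IsClosed.inter (isClosed_le continuous_const continuous_fst)
    apply IsClosed.inter (isClosed_le continuous_const continuous_snd)
    exact isClosed_le (continuous_fst.add continuous_snd) continuous_const
  rw [Measure.volume_eq_prod, Measure.prod_apply hmeas]
  have hslice : ∀ x : ℝ, volume (Prod.mk x ⁻¹' {p : ℝ × ℝ | 0 ≤ p.1 ∧ 0 ≤ p.2 ∧ p.1 + p.2 ≤ 1}) =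
      (Set.Icc (0:ℝ) 1).indicator (fun x => ENNReal.ofReal (1 - x)) x := by
    intro x
    by_cases hx : x ∈ Set.Icc (0:ℝ) 1
    · rw [Set.indicator_of_mem hx]
      have : Prod.mk x ⁻¹' {p : ℝ × ℝ | 0 ≤ p.1 ∧ 0 ≤ p.2 ∧ p.1 + p.2 ≤ 1} = Set.Icc 0 (1 - x) := by
        ext y
        simp only [Set.mem_preimage, Set.mem_ofPred_eq, Set.mem_Icc]
        constructor
        · rintro ⟨_, h1, h2⟩; exact ⟨h1, by linarith⟩
        · rintro ⟨h1, h2⟩; exact ⟨hx.1, h1, by linarith⟩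
      rw [this, Real.volume_Icc]; simp
    · rw [Set.indicator_of_notMem hx]
      have : Prod.mk x ⁻¹' {p : ℝ × ℝ | 0 ≤ p.1 ∧ 0 ≤ p.2 ∧ p.1 + p.2 ≤ 1} = ∅ := by
        ext y
        simp only [Set.mem_preimage, Set.mem_ofPred_eq, Set.mem_empty_iff_false, iff_false]
        rintro ⟨h0, h1, h2⟩
        exact hx ⟨h0, by linarith⟩
      rw [this]; simp
  simp_rw [hslice]
  rw [lintegral_indicator measurableSet_Icc]
  rw [← ofReal_integral_eq_lintegral_ofReal]
  · congr 1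
    rw [integral_Icc_eq_integral_Ioc, ← intervalIntegral.integral_of_le (by norm_num)]
    rw [intervalIntegral.integral_sub (by simp) (by simp)]
    norm_num [integral_id]
  · exact (Continuous.integrableOn_Icc (by fun_prop))
  · refine (ae_restrict_iff' measurableSet_Icc).2 (Filter.Eventually.of_forall ?_)
    intro x hx
    have := hx.2
    simp only [Pi.zero_apply]
    linarith

lemma measurable_prodTri : MeasurableSet {p : ℝ × ℝ | 0 ≤ p.1 ∧ 0 ≤ p.2 ∧ p.1 + p.2 ≤ 1} := by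
  apply IsClosed.measurableSet
  apply IsClosed.inter (isClosed_le continuous_const continuous_fst)
  apply IsClosed.inter (isClosed_le continuous_const continuous_snd)
  exact isClosed_le (continuous_fst.add continuous_snd) continuous_const

lemma volume_stdTri : volume stdTri = ENNReal.ofReal (1/2) := by
  have h2 := (volume_preserving_finTwoArrow ℝ).measure_preimage measurable_prodTri.nullMeasurableSet
  have hm : MeasurableSet ((MeasurableEquiv.finTwoArrow (α := ℝ)) ⁻¹' {p : ℝ × ℝ | 0 ≤ p.1 ∧ 0 ≤ p.2 ∧ p.1 + p.2 ≤ 1}) :=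
    (MeasurableEquiv.finTwoArrow (α := ℝ)).measurable measurable_prodTri
  have h1 := (PiLp.volume_preserving_ofLp (Fin 2)).measure_preimage hm.nullMeasurableSet
  rw [volume_prodTri] at h2
  rw [← h2, ← h1]
  rfl

/-- Area of a triangle in three-space (Gram determinant form). -/
theorem area_triangle (p u v : E3) :
    μHE[2] (convexHull ℝ ({p, p + u, p + v} : Set E3)) =
      ENNReal.ofReal (1 / 2 * Real.sqrt (‖u‖ ^ 2 * ‖v‖ ^ 2 - ⟪u, v⟫ ^ 2)) := by
  let f : E2 →ₗ[ℝ] E3 :=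
    { toFun := fun s => s 0 • u + s 1 • v
      map_add' := by intro x y; simp only [PiLp.add_apply]; module
      map_smul' := by intro c x; simp only [PiLp.smul_apply, smul_eq_mul, RingHom.id_apply]; module }
  have hf : ∀ s, f s = s 0 • u + s 1 • v := fun s => rfl
  have hset : convexHull ℝ ({p, p + u, p + v} : Set E3) = (fun x => p + x) '' (f '' stdTri) := by
    ext x
    rw [mem_convexHull_three]
    constructor
    · rintro ⟨a, b, c, ha, hb, hc, h1, rfl⟩
      refine ⟨f (!₂[b, c]), ⟨!₂[b, c], ⟨by simpa using hb, by simpa using hc, ?_⟩, rfl⟩, ?_⟩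
      · simp only [Matrix.cons_val_zero, Matrix.cons_val_one]; linarith
      · have ha' : a = 1 - b - c := by linarith
        subst ha'
        simp only [hf, Matrix.cons_val_zero, Matrix.cons_val_one]
        module
    · rintro ⟨_, ⟨s, ⟨h0, h1, h2⟩, rfl⟩, rfl⟩
      refine ⟨1 - s 0 - s 1, s 0, s 1, by linarith, h0, h1, by ring, ?_⟩
      simp only [hf]
      module
  have hgram : ((f.normDet ^ 2 : ℝ)) = ‖u‖ ^ 2 * ‖v‖ ^ 2 - ⟪u, v⟫ ^ 2 := by
    have := f.normDet_sq_eq_det_gram (EuclideanSpace.basisFun (Fin 2) ℝ)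
    simp only [RCLike.ofReal_real_eq_id, id] at this
    rw [this, Matrix.det_fin_two]
    have e0 : f ((EuclideanSpace.basisFun (Fin 2) ℝ) 0) = u := by simp [hf]
    have e1 : f ((EuclideanSpace.basisFun (Fin 2) ℝ) 1) = v := by simp [hf]
    simp only [Matrix.gram_apply, e0, e1]
    rw [real_inner_self_eq_norm_sq, real_inner_self_eq_norm_sq, real_inner_comm u v]
    ring
  have hnd : f.normDet = Real.sqrt (‖u‖ ^ 2 * ‖v‖ ^ 2 - ⟪u, v⟫ ^ 2) := by
    rw [← hgram, Real.sqrt_sq f.normDet_nonneg]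
  have hiso : Isometry (fun x : E3 => p + x) := (IsometryEquiv.addLeft p).isometry
  rw [hset, hiso.euclideanHausdorffMeasure_image]
  have hfr : Module.finrank ℝ E2 = 2 := by simp
  have := f.euclideanHausdorffMeasure_image_eq_normDet_mul_volume stdTri
  rw [hfr] at this
  rw [this, volume_stdTri, hnd, ← ENNReal.ofReal_mul (Real.sqrt_nonneg _), mul_comm]

/-- Positivity of the Gram determinant ⇒ affine independence. -/
lemma affineIndependent_of_gram (p u v : E3) (h : 0 < ‖u‖ ^ 2 * ‖v‖ ^ 2 - ⟪u, v⟫ ^ 2) :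
    AffineIndependent ℝ ![p, p + u, p + v] := by
  rw [affineIndependent_iff_not_collinear_set]
  intro hcol
  rw [collinear_iff_of_mem (p₀ := p) (by simp)] at hcol
  obtain ⟨d, hd⟩ := hcol
  obtain ⟨r₁, h₁⟩ := hd (p + u) (by simp)
  obtain ⟨r₂, h₂⟩ := hd (p + v) (by simp)
  have hu : u = r₁ • d := by
    have : p + u = p + r₁ • d := by rw [h₁, vadd_eq_add, add_comm]
    exact add_left_cancel this
  have hv : v = r₂ • d := by
    have : p + v = p + r₂ • d := by rw [h₂, vadd_eq_add, add_comm]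
    exact add_left_cancel this
  subst hu hv
  have : ‖r₁ • d‖ ^ 2 * ‖r₂ • d‖ ^ 2 - ⟪r₁ • d, r₂ • d⟫ ^ 2 = 0 := by
    rw [real_inner_smul_left, real_inner_smul_right, real_inner_self_eq_norm_sq, norm_smul, norm_smul,
      mul_pow, mul_pow, Real.norm_eq_abs, Real.norm_eq_abs, sq_abs, sq_abs]
    ring
  linarith

/-- Strict Cauchy–Schwarz for independent vectors. -/
lemma gram_pos_of_linearIndependent (a b : E3) (hab : LinearIndependent ℝ ![a, b]) :
    0 < ‖a‖ ^ 2 * ‖b‖ ^ 2 - ⟪a, b⟫ ^ 2 := by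
  rw [LinearIndependent.pair_iff] at hab
  have hb : b ≠ 0 := by
    rintro rfl
    have := hab 0 1 (by simp)
    simp at this
  have hb2 : 0 < ‖b‖ ^ 2 := by positivity
  set v : E3 := (‖b‖ ^ 2) • a - ⟪a, b⟫ • b with hv
  have hvne : v ≠ 0 := by
    intro h0
    have := hab (‖b‖ ^ 2) (-⟪a, b⟫) (by rw [neg_smul, ← sub_eq_add_neg]; exact h0)
    exact hb2.ne' this.1
  have hvv : ⟪v, v⟫ = ‖b‖ ^ 2 * (‖a‖ ^ 2 * ‖b‖ ^ 2 - ⟪a, b⟫ ^ 2) := by
    rw [hv]
    simp only [inner_sub_left, inner_sub_right, real_inner_smul_left, real_inner_smul_right]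
    simp only [real_inner_self_eq_norm_sq, real_inner_comm a b]
    ring
  have hvpos : 0 < ⟪v, v⟫ := by
    rw [real_inner_self_eq_norm_sq]; positivity
  rw [hvv] at hvpos
  exact (mul_pos_iff_of_pos_left hb2).1 hvpos

/-- Coordinates: three vectors orthogonal to a unit vector are coplanar. -/
lemma coplanar_identity (u v w e : E3) (he : ‖e‖ = 1) (hu : ⟪u, e⟫ = 0) (hv : ⟪v, e⟫ = 0)
    (hw : ⟪w, e⟫ = 0) :
    (‖u‖ ^ 2 * ‖v‖ ^ 2 - ⟪u, v⟫ ^ 2) * ‖w‖ ^ 2 =
      ‖v‖ ^ 2 * ⟪u, w⟫ ^ 2 + ‖u‖ ^ 2 * ⟪v, w⟫ ^ 2 - 2 * ⟪u, v⟫ * ⟪u, w⟫ * ⟪v, w⟫ := by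
  have hee : ⟪e, e⟫ = 1 := by rw [real_inner_self_eq_norm_sq, he]; norm_num
  simp only [← real_inner_self_eq_norm_sq]
  simp only [PiLp.inner_apply, Fin.sum_univ_three, RCLike.inner_apply, conj_trivial] at *
  set u0 := u 0
  set u1 := u 1
  set u2 := u 2
  set v0 := v 0
  set v1 := v 1
  set v2 := v 2
  set w0 := w 0
  set w1 := w 1
  set w2 := w 2
  set e0 := e 0
  set e1 := e 1
  set e2 := e 2
  -- the determinant vanishes
  have hdet : u0 * (v1 * w2 - v2 * w1) - u1 * (v0 * w2 - v2 * w0) + u2 * (v0 * w1 - v1 * w0) = 0 := by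
    have hu' : e0 * u0 + e1 * u1 + e2 * u2 = 0 := by linarith
    have hv' : e0 * v0 + e1 * v1 + e2 * v2 = 0 := by linarith
    have hw' : e0 * w0 + e1 * w1 + e2 * w2 = 0 := by linarith
    have hee' : e0 * e0 + e1 * e1 + e2 * e2 = 1 := by linarith
    linear_combination
      (-(u0 * (v1 * w2 - v2 * w1) - u1 * (v0 * w2 - v2 * w0) + u2 * (v0 * w1 - v1 * w0))) * hee'
      + (e0 * (v1 * w2 - v2 * w1) - e1 * (v0 * w2 - v2 * w0) + e2 * (v0 * w1 - v1 * w0)) * hu'
      + (-(e0 * (u1 * w2 - u2 * w1) - e1 * (u0 * w2 - u2 * w0) + e2 * (u0 * w1 - u1 * w0))) * hv'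
      + (e0 * (u1 * v2 - u2 * v1) - e1 * (u0 * v2 - u2 * v0) + e2 * (u0 * v1 - u1 * v0)) * hw'
  linear_combination
    (u0 * (v1 * w2 - v2 * w1) - u1 * (v0 * w2 - v2 * w0) + u2 * (v0 * w1 - v1 * w0)) * hdet

/-- Orthogonal projection along `W`, as in the statement. -/
noncomputable def proj (W : E3) : E3 →ₗ[ℝ] E3 where
  toFun y := y - (⟪y, W⟫ / ‖W‖ ^ 2) • W
  map_add' := by
    intro x y
    simp only [inner_add_left, add_div]
    module
  map_smul' := by
    intro c x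
    simp only [real_inner_smul_left, RingHom.id_apply, mul_div_assoc]
    module

lemma proj_apply (W y : E3) : proj W y = y - (⟪y, W⟫ / ‖W‖ ^ 2) • W := rfl

lemma inner_proj_self (W y : E3) (hW : W ≠ 0) : ⟪proj W y, W⟫ = 0 := by
  have h2 : ‖W‖ ^ 2 ≠ 0 := by positivity
  rw [proj_apply, inner_sub_left, real_inner_smul_left, real_inner_self_eq_norm_sq]
  field_simp
  ring

lemma proj_self (W : E3) (hW : W ≠ 0) : proj W W = 0 := by
  have h2 : ‖W‖ ^ 2 ≠ 0 := by positivity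
  rw [proj_apply, real_inner_self_eq_norm_sq, div_self h2, one_smul, sub_self]

lemma proj_add_smul (W y : E3) (σ : ℝ) (hW : W ≠ 0) : proj W (y + σ • W) = proj W y := by
  rw [map_add, map_smul, proj_self W hW, smul_zero, add_zero]

lemma eq_proj_add (W y : E3) : y = proj W y + (⟪y, W⟫ / ‖W‖ ^ 2) • W := by
  rw [proj_apply]; abel

lemma inner_proj_proj (W u v : E3) (hW : W ≠ 0) :
    ⟪proj W u, proj W v⟫ = ⟪u, v⟫ - ⟪u, W⟫ * ⟪v, W⟫ / ‖W‖ ^ 2 := by
  have h2 : ‖W‖ ^ 2 ≠ 0 := by positivity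
  rw [proj_apply, proj_apply]
  simp only [inner_sub_left, inner_sub_right, real_inner_smul_left, real_inner_smul_right]
  rw [real_inner_self_eq_norm_sq, real_inner_comm v W]
  field_simp
  ring

/-- Norm of the axis. -/
lemma norm_axis_sq (e w : E3) (he : ‖e‖ = 1) (hw : ⟪w, e⟫ = 0) :
    ‖e + w‖ ^ 2 = 1 + ‖w‖ ^ 2 := by
  rw [← real_inner_self_eq_norm_sq, inner_add_left, inner_add_right, inner_add_right,
    real_inner_self_eq_norm_sq, real_inner_self_eq_norm_sq, he, hw, real_inner_comm, hw]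
  ring

lemma axis_ne_zero (e w : E3) (he : ‖e‖ = 1) (hw : ⟪w, e⟫ = 0) : e + w ≠ 0 := by
  intro h
  have := norm_axis_sq e w he hw
  rw [h, norm_zero] at this
  nlinarith [sq_nonneg ‖w‖]

/-- Gram determinants under the projection along `e + w`. -/
lemma gram_proj (u v w e : E3) (he : ‖e‖ = 1) (hu : ⟪u, e⟫ = 0) (hv : ⟪v, e⟫ = 0)
    (hw : ⟪w, e⟫ = 0) :
    ‖proj (e + w) u‖ ^ 2 * ‖proj (e + w) v‖ ^ 2 - ⟪proj (e + w) u, proj (e + w) v⟫ ^ 2 =
      (‖u‖ ^ 2 * ‖v‖ ^ 2 - ⟪u, v⟫ ^ 2) / (1 + ‖w‖ ^ 2) := by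
  have hW := axis_ne_zero e w he hw
  have hn := norm_axis_sq e w he hw
  have hcop := coplanar_identity u v w e he hu hv hw
  have hn0 : (1 + ‖w‖ ^ 2) ≠ 0 := by positivity
  have hu' : ⟪u, e + w⟫ = ⟪u, w⟫ := by rw [inner_add_right, hu, zero_add]
  have hv' : ⟪v, e + w⟫ = ⟪v, w⟫ := by rw [inner_add_right, hv, zero_add]
  rw [← real_inner_self_eq_norm_sq (proj (e + w) u), ← real_inner_self_eq_norm_sq (proj (e + w) v),
    inner_proj_proj _ _ _ hW, inner_proj_proj _ _ _ hW, inner_proj_proj _ _ _ hW, hn, hu', hv',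
    real_inner_self_eq_norm_sq, real_inner_self_eq_norm_sq]
  field_simp
  linear_combination (1 + ‖w‖ ^ 2) * hcop

/-- Gram determinant of the cone directions. -/
lemma gram_cone (a b : E3) (G m n : ℝ) :
    ‖G • (a + m • b)‖ ^ 2 * ‖G • (a + n • b)‖ ^ 2 - ⟪G • (a + m • b), G • (a + n • b)⟫ ^ 2 =
      (G ^ 2 * (n - m) * Real.sqrt (‖a‖ ^ 2 * ‖b‖ ^ 2 - ⟪a, b⟫ ^ 2)) ^ 2 := by
  have hnn : 0 ≤ ‖a‖ ^ 2 * ‖b‖ ^ 2 - ⟪a, b⟫ ^ 2 := by
    have := real_inner_mul_inner_self_le a b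
    rw [real_inner_self_eq_norm_sq, real_inner_self_eq_norm_sq] at this
    nlinarith
  rw [mul_pow, Real.sq_sqrt hnn]
  simp only [← real_inner_self_eq_norm_sq (G • (a + m • b)),
    ← real_inner_self_eq_norm_sq (G • (a + n • b))]
  simp only [inner_add_left, inner_add_right, real_inner_smul_left, real_inner_smul_right]
  simp only [real_inner_self_eq_norm_sq, real_inner_comm a b]
  ring

/-- Area of a projected triangle with cone edges. -/
theorem area_cone (a b e w P : E3) (he : ‖e‖ = 1) (ha : ⟪a, e⟫ = 0) (hb : ⟪b, e⟫ = 0)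
    (hw : ⟪w, e⟫ = 0) (G m n : ℝ) (hmn : m ≤ n) :
    μHE[2] (convexHull ℝ ({proj (e + w) P, proj (e + w) (P + G • (a + m • b)),
        proj (e + w) (P + G • (a + n • b))} : Set E3)) =
      ENNReal.ofReal (1 / 2 * (G ^ 2 * (n - m)) *
        Real.sqrt (‖a‖ ^ 2 * ‖b‖ ^ 2 - ⟪a, b⟫ ^ 2) / Real.sqrt (1 + ‖w‖ ^ 2)) := by
  have hperp : ∀ x : ℝ, ⟪G • (a + x • b), e⟫ = 0 := by
    intro x
    simp only [real_inner_smul_left, inner_add_left, ha, hb]
    ring
  have hg := gram_proj _ _ w e he (hperp m) (hperp n) hw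
  rw [gram_cone] at hg
  rw [map_add, map_add, area_triangle, hg, Real.sqrt_div (sq_nonneg _), Real.sqrt_sq]
  · ring_nf
  · have : 0 ≤ n - m := by linarith
    positivity

/-- Nondegeneracy of a projected cone triangle. -/
theorem affineIndependent_cone (a b e w P : E3) (he : ‖e‖ = 1) (ha : ⟪a, e⟫ = 0) (hb : ⟪b, e⟫ = 0)
    (hw : ⟪w, e⟫ = 0) (hκ : 0 < ‖a‖ ^ 2 * ‖b‖ ^ 2 - ⟪a, b⟫ ^ 2) (G m n : ℝ) (hG : 0 < G) (hmn : m < n) :
    AffineIndependent ℝ ![proj (e + w) P, proj (e + w) (P + G • (a + m • b)),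
        proj (e + w) (P + G • (a + n • b))] := by
  have hperp : ∀ x : ℝ, ⟪G • (a + x • b), e⟫ = 0 := by
    intro x
    simp only [real_inner_smul_left, inner_add_left, ha, hb]
    ring
  have hg := gram_proj _ _ w e he (hperp m) (hperp n) hw
  rw [gram_cone] at hg
  rw [map_add, map_add]
  apply affineIndependent_of_gram
  rw [hg]
  have : 0 < n - m := by linarith
  positivity

end Crest.Agent.Lib.S0328
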