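import Crest.Agent.Lib.S0328Geom

set_option autoImplicit false
open MeasureTheory Set
open scoped ENNReal RealInnerProductSpace

namespace Crest.Agent.Lib.S0328

/-- Integrating `w' = lam (a + t b)`. -/
lemma w_decomp (a b : E3) (α β : ℝ) (hαβ : α ≤ β) (w : ℝ → E3) (lam : ℝ → ℝ)
    (hlam : ContinuousOn lam (Icc α β))
    (hw' : ∀ t ∈ Icc α β, HasDerivWithinAt w (lam t • (a + t • b)) (Icc α β) t)
    (Λ : ℝ) (hΛ : ∀ t ∈ Icc α β, |lam t| ≤ Λ) (c τ : ℝ) (hc : c ∈ Icc α β) (hτ : τ ∈ Icc α β) :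
    ∃ I J : ℝ, w τ - w c = I • a + J • b ∧ |I| ≤ Λ * |τ - c| ∧ |J - τ * I| ≤ Λ * |τ - c| ^ 2 := by
  classical
  -- continuous extension of lam
  let l : ℝ → ℝ := IccExtend hαβ (domRestrict (Icc α β) lam)
  have hl : Continuous l := (continuousOn_iff_continuous_domRestrict.1 hlam).Icc_extend'
  have hll : ∀ t ∈ Icc α β, l t = lam t := by
    intro t ht
    simp only [l]
    rw [IccExtend_of_mem _ _ ht]
    rfl
  have hl2 : Continuous (fun u => u * l u) := continuous_id.mul hl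
  let g : ℝ → E3 := fun σ => w σ - (∫ u in c..σ, l u) • a - (∫ u in c..σ, u * l u) • b
  have hg : ∀ σ ∈ Icc α β, HasDerivWithinAt g (0 : E3) (Icc α β) σ := by
    intro σ hσ
    have h1 : HasDerivAt (fun σ => ∫ u in c..σ, l u) (l σ) σ :=
      (hl.integral_hasStrictDerivAt c σ).hasDerivAt
    have h2 : HasDerivAt (fun σ => ∫ u in c..σ, u * l u) (σ * l σ) σ :=
      (hl2.integral_hasStrictDerivAt c σ).hasDerivAt
    have h3 := ((hw' σ hσ).sub ((h1.smul_const a).hasDerivWithinAt)).sub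
      ((h2.smul_const b).hasDerivWithinAt)
    have h4 : (0 : E3) = lam σ • (a + σ • b) - l σ • a - (σ * l σ) • b := by
      rw [hll σ hσ]
      module
    rw [h4]
    exact h3
  have hconst : g τ = g c := by
    have := Convex.norm_image_sub_le_of_norm_hasDerivWithin_le (C := 0) hg (by simp)
      (convex_Icc α β) hc hτ
    rw [zero_mul] at this
    exact sub_eq_zero.1 (norm_le_zero_iff.1 this)
  have hgc : g c = w c := by simp [g]
  rw [hgc] at hconst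
  have hsub : uIoc c τ ⊆ Icc α β := by
    intro x hx
    have := uIoc_subset_uIcc hx
    exact (uIcc_subset_Icc hc hτ) this
  refine ⟨∫ u in c..τ, l u, ∫ u in c..τ, u * l u, ?_, ?_, ?_⟩
  · simp only [g] at hconst
    rw [← hconst]; abel
  · have := intervalIntegral.norm_integral_le_of_norm_le_const (a := c) (b := τ) (f := l) (C := Λ)
      (fun x hx => by rw [hll x (hsub hx), Real.norm_eq_abs]; exact hΛ x (hsub hx))
    simpa using this
  · have heq : (∫ u in c..τ, u * l u) - τ * (∫ u in c..τ, l u) = ∫ u in c..τ, (u - τ) * l u := by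
      have hcm : IntervalIntegrable (fun u => τ * l u) volume c τ :=
        (continuous_const.mul hl).intervalIntegrable _ _
      have hcm2 : IntervalIntegrable (fun u => u * l u) volume c τ :=
        hl2.intervalIntegrable _ _
      rw [← intervalIntegral.integral_const_mul, ← intervalIntegral.integral_sub hcm2 hcm]
      congr 1; ext u; ring
    rw [heq]
    have := intervalIntegral.norm_integral_le_of_norm_le_const (a := c) (b := τ)
      (f := fun u => (u - τ) * l u) (C := |τ - c| * Λ) (fun x hx => by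
        rw [Real.norm_eq_abs, abs_mul, hll x (hsub hx)]
        apply mul_le_mul _ (hΛ x (hsub hx)) (abs_nonneg _) (abs_nonneg _)
        have hx' := uIoc_subset_uIcc hx
        rw [abs_sub_comm x τ]
        exact abs_sub_right_of_mem_uIcc hx')
    simp only [Real.norm_eq_abs] at this
    calc _ ≤ |τ - c| * Λ * |τ - c| := this
      _ = _ := by ring

lemma vec_id (p₀ a b : E3) (ε c m n G u v w : ℝ) (hu : u + v + w = 1) :
    p₀ + (v * G + w * G - ε) • a + (v * G * m + w * G * n - ε * c) • b =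
      u • (p₀ - ε • (a + c • b)) + v • (p₀ - ε • (a + c • b) + G • (a + m • b)) +
        w • (p₀ - ε • (a + c • b) + G • (a + n • b)) := by
  have hu' : u = 1 - v - w := by linarith
  subst hu'
  module

/-- Barycentric coordinates in the planar triangle, transported by the projection. -/
lemma bary_mem (a b p₀ W : E3) (ε c m n G X Y : ℝ) (hG : 0 < G) (hmn : m < n)
    (h1 : 0 ≤ X + ε) (h2 : X + ε ≤ G)
    (h3 : 0 ≤ Y + ε * c - (X + ε) * m) (h4 : 0 ≤ (X + ε) * n - Y - ε * c) :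
    proj W (p₀ + X • a + Y • b) ∈ convexHull ℝ ({proj W (p₀ - ε • (a + c • b)),
      proj W (p₀ - ε • (a + c • b) + G • (a + m • b)),
      proj W (p₀ - ε • (a + c • b) + G • (a + n • b))} : Set E3) := by
  have hnm : 0 < n - m := by linarith
  have hD : 0 < G * (n - m) := by positivity
  set v : ℝ := ((X + ε) * n - Y - ε * c) / (G * (n - m)) with hv
  set w : ℝ := (Y + ε * c - (X + ε) * m) / (G * (n - m)) with hw
  set u : ℝ := 1 - (X + ε) / G with hu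
  have hv0 : 0 ≤ v := div_nonneg h4 hD.le
  have hw0 : 0 ≤ w := div_nonneg h3 hD.le
  have hu0 : 0 ≤ u := by
    rw [hu, sub_nonneg, div_le_one hG]; exact h2
  have hA : v * G + w * G = X + ε := by
    rw [hv, hw]; field_simp; ring
  have hB : v * G * m + w * G * n = Y + ε * c := by
    rw [hv, hw]; field_simp; ring
  have hsum : u + v + w = 1 := by
    have : v + w = (X + ε) / G := by
      rw [eq_div_iff hG.ne']; linarith
    rw [hu]; linarith
  have hvec := vec_id p₀ a b ε c m n G u v w hsum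
  have hX : v * G + w * G - ε = X := by linarith
  have hY : v * G * m + w * G * n - ε * c = Y := by linarith
  rw [hX, hY] at hvec
  rw [mem_convexHull_three]
  refine ⟨u, v, w, hu0, hv0, hw0, hsum, ?_⟩
  rw [hvec, map_add, map_add (proj W) (u • _), map_smul, map_smul, map_smul]

/-- The arithmetic behind containment in the planar triangle. -/
lemma arith_contain (X E τ c m n h x₀ ε : ℝ) (hh : 0 < h) (hx₀ : 0 ≤ x₀) (hε : 0 < ε)
    (hX : -x₀ ≤ X) (hE : |E| ≤ x₀ * h) (hsm : 3 * x₀ ≤ ε ^ 2)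
    (hτm1 : ε * h ≤ τ - m) (hτm2 : τ - m ≤ 2 * h) (hcm : ε * h ≤ c - m)
    (hτn1 : ε * h ≤ n - τ) (hτn2 : n - τ ≤ 2 * h) (hcn : ε * h ≤ n - c) :
    0 ≤ (τ * X + E) + ε * c - (X + ε) * m ∧ 0 ≤ (X + ε) * n - (τ * X + E) - ε * c := by
  have hE' := abs_le.1 hE
  have h1 : -x₀ * (2 * h) ≤ X * (τ - m) := by
    have hp : 0 ≤ τ - m := le_trans (by positivity) hτm1
    nlinarith [mul_nonneg (sub_nonneg.2 hX) hp, mul_nonneg hx₀ (sub_nonneg.2 hτm2)]
  have h2 : -x₀ * (2 * h) ≤ X * (n - τ) := by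
    have hp : 0 ≤ n - τ := le_trans (by positivity) hτn1
    nlinarith [mul_nonneg (sub_nonneg.2 hX) hp, mul_nonneg hx₀ (sub_nonneg.2 hτn2)]
  have h3 : ε * (ε * h) ≤ ε * (c - m) := mul_le_mul_of_nonneg_left hcm hε.le
  have h4 : ε * (ε * h) ≤ ε * (n - c) := mul_le_mul_of_nonneg_left hcn hε.le
  have h5 : 3 * x₀ * h ≤ ε ^ 2 * h := mul_le_mul_of_nonneg_right hsm hh.le
  constructor
  · nlinarith
  · nlinarith

/-- One piece of the partition. -/
theorem piece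
    (e a b p₀ : E3) (he : ‖e‖ = 1) (ha : ⟪a, e⟫ = 0) (hb : ⟪b, e⟫ = 0)
    (hκ : 0 < ‖a‖ ^ 2 * ‖b‖ ^ 2 - ⟪a, b⟫ ^ 2)
    (L : ℝ) (hL : 0 < L) (α β : ℝ)
    (R : ℝ → ℝ) (hR0 : ∀ t ∈ Icc α β, 0 ≤ R t)
    (w : ℝ → E3) (hw : ∀ t ∈ Icc α β, ⟪w t, e⟫ = 0)
    (Λ : ℝ) (hΛ0 : 0 ≤ Λ)
    (hdec : ∀ c ∈ Icc α β, ∀ τ ∈ Icc α β, ∃ I J : ℝ, w τ - w c = I • a + J • b ∧
      |I| ≤ Λ * |τ - c| ∧ |J - τ * I| ≤ Λ * |τ - c| ^ 2)
    (ε : ℝ) (hε : 0 < ε) (hε1 : ε ≤ 1)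
    (t₁ t₂ c : ℝ) (ht : t₁ < t₂) (h1 : α ≤ t₁) (h2 : t₂ ≤ β) (hc1 : t₁ ≤ c) (hc2 : c ≤ t₂)
    (hsmall : 3 * L * Λ * (t₂ - t₁) ≤ ε ^ 2)
    (hRc : ∀ τ ∈ Icc t₁ t₂, |R τ - R c| ≤ ε) :
    ∃ p q r : E3, (⟪p, e + w c⟫ = 0 ∧ ⟪q, e + w c⟫ = 0 ∧ ⟪r, e + w c⟫ = 0) ∧
      AffineIndependent ℝ ![p, q, r] ∧
      (∀ x, (∃ τ ∈ Icc t₁ t₂, ∃ ρ ∈ Icc 0 (R τ), ∃ s : ℝ, |s| ≤ L ∧
          x = p₀ + ρ • (a + τ • b) + s • (e + w τ)) →
        ∃ y ∈ convexHull ℝ ({p, q, r} : Set E3), ∃ σ : ℝ, x = y + σ • (e + w c)) ∧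
      (μHE[2] (convexHull ℝ ({p, q, r} : Set E3))).toReal =
        1 / 2 * ((R c + 3 * ε) ^ 2 * ((1 + 2 * ε) * (t₂ - t₁))) *
          Real.sqrt (‖a‖ ^ 2 * ‖b‖ ^ 2 - ⟪a, b⟫ ^ 2) / Real.sqrt (1 + ‖w c‖ ^ 2) ∧
      1 / 2 * ((max (R c - ε) 0) ^ 2 * (t₂ - t₁)) *
          Real.sqrt (‖a‖ ^ 2 * ‖b‖ ^ 2 - ⟪a, b⟫ ^ 2) / Real.sqrt (1 + ‖w c‖ ^ 2) ≤
        (μHE[2] (proj (e + w c) '' {x : E3 | ∃ τ ∈ Icc t₁ t₂, ∃ ρ ∈ Icc 0 (R τ), ∃ s : ℝ, |s| ≤ L ∧
          x = p₀ + ρ • (a + τ • b) + s • (e + w τ)})).toReal ∧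
      (μHE[2] (proj (e + w c) '' {x : E3 | ∃ τ ∈ Icc t₁ t₂, ∃ ρ ∈ Icc 0 (R τ), ∃ s : ℝ, |s| ≤ L ∧
          x = p₀ + ρ • (a + τ • b) + s • (e + w τ)})).toReal ≤
        1 / 2 * ((R c + 3 * ε) ^ 2 * ((1 + 2 * ε) * (t₂ - t₁))) *
          Real.sqrt (‖a‖ ^ 2 * ‖b‖ ^ 2 - ⟪a, b⟫ ^ 2) / Real.sqrt (1 + ‖w c‖ ^ 2) := by
  have hcI : c ∈ Icc α β := ⟨h1.trans hc1, hc2.trans h2⟩
  have hsubI : Icc t₁ t₂ ⊆ Icc α β := Icc_subset_Icc h1 h2
  have hwc := hw c hcI
  set W : E3 := e + w c with hWdef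
  have hW : W ≠ 0 := axis_ne_zero e (w c) he hwc
  set h : ℝ := t₂ - t₁ with hh
  have hhpos : 0 < h := sub_pos.2 ht
  set m : ℝ := t₁ - ε * h with hm
  set n : ℝ := t₂ + ε * h with hn
  have hnm : n - m = (1 + 2 * ε) * h := by rw [hm, hn, hh]; ring
  have hmn : m < n := by
    have : 0 < (1 + 2 * ε) * h := by positivity
    linarith
  have hRc0 : 0 ≤ R c := hR0 c hcI
  set G : ℝ := R c + 3 * ε with hGdef
  have hG : 0 < G := by positivity
  set P : E3 := p₀ - ε • (a + c • b) with hP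
  -- the key inclusion
  have key : ∀ τ ∈ Icc t₁ t₂, ∀ ρ ∈ Icc 0 (R τ), ∀ s : ℝ, |s| ≤ L →
      proj W (p₀ + ρ • (a + τ • b) + s • (e + w τ)) ∈ convexHull ℝ ({proj W P,
        proj W (P + G • (a + m • b)), proj W (P + G • (a + n • b))} : Set E3) := by
    intro τ hτ ρ hρ s hs
    obtain ⟨I, J, hIJ, hI, hJ⟩ := hdec c hcI τ (hsubI hτ)
    have hτc : |τ - c| ≤ h := by
      rw [abs_le, hh]
      constructor <;> linarith [hτ.1, hτ.2]
    set x₀ : ℝ := L * Λ * h with hx₀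
    have hx₀0 : 0 ≤ x₀ := by positivity
    have hx₀ε2 : 3 * x₀ ≤ ε ^ 2 := by rw [hx₀]; linarith
    have hε2 : ε ^ 2 ≤ ε := by nlinarith
    have hx₀ε : x₀ ≤ ε := by nlinarith
    set X : ℝ := ρ + s * I with hX
    set E : ℝ := s * (J - τ * I) with hE
    set Y : ℝ := τ * X + E with hY
    have hsI : |s * I| ≤ x₀ := by
      rw [abs_mul, hx₀]
      have : |I| ≤ Λ * h := hI.trans (mul_le_mul_of_nonneg_left hτc hΛ0)
      calc |s| * |I| ≤ L * (Λ * h) := mul_le_mul hs this (abs_nonneg _) hL.le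
        _ = _ := by ring
    have hE' : |E| ≤ x₀ * h := by
      rw [hE, abs_mul, hx₀]
      have h3 : |τ - c| ^ 2 ≤ h ^ 2 := by
        exact pow_le_pow_left₀ (abs_nonneg _) hτc 2
      have : |J - τ * I| ≤ Λ * h ^ 2 := hJ.trans (mul_le_mul_of_nonneg_left h3 hΛ0)
      calc |s| * |J - τ * I| ≤ L * (Λ * h ^ 2) := mul_le_mul hs this (abs_nonneg _) hL.le
        _ = _ := by ring
    have hsI' := abs_le.1 hsI
    have hXlo : -x₀ ≤ X := by rw [hX]; linarith [hρ.1]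
    have hXhi : X ≤ R c + 2 * ε := by
      have h5 := (abs_le.1 (hRc τ hτ)).2
      rw [hX]; linarith [hρ.2]
    -- rewrite the point
    have hpt : p₀ + ρ • (a + τ • b) + s • (e + w τ) = (p₀ + X • a + Y • b) + s • W := by
      have hwτ : w τ = w c + (I • a + J • b) := by rw [← hIJ]; abel
      rw [hwτ, hWdef, hY, hE, hX]
      module
    rw [hpt, proj_add_smul _ _ _ hW]
    have harith := arith_contain X E τ c m n h x₀ ε hhpos hx₀0 hε hXlo hE' hx₀ε2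
      (by rw [hm]; linarith [hτ.1]) (by rw [hm]; nlinarith [hτ.2])
      (by rw [hm]; linarith)
      (by rw [hn]; linarith [hτ.2]) (by rw [hn]; nlinarith [hτ.1])
      (by rw [hn]; linarith)
    exact bary_mem a b p₀ W ε c m n G X Y hG hmn (by linarith) (by rw [hGdef]; linarith)
      harith.1 harith.2
  have hSsub : proj W '' {x : E3 | ∃ τ ∈ Icc t₁ t₂, ∃ ρ ∈ Icc 0 (R τ), ∃ s : ℝ, |s| ≤ L ∧
      x = p₀ + ρ • (a + τ • b) + s • (e + w τ)} ⊆ convexHull ℝ ({proj W P,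
        proj W (P + G • (a + m • b)), proj W (P + G • (a + n • b))} : Set E3) := by
    rintro _ ⟨x, ⟨τ, hτ, ρ, hρ, s, hs, rfl⟩, rfl⟩
    exact key τ hτ ρ hρ s hs
  have harea := area_cone a b e (w c) P he ha hb hwc G m n hmn.le
  rw [← hWdef] at harea
  have hareaval : 1 / 2 * (G ^ 2 * (n - m)) * Real.sqrt (‖a‖ ^ 2 * ‖b‖ ^ 2 - ⟪a, b⟫ ^ 2) /
      Real.sqrt (1 + ‖w c‖ ^ 2) = 1 / 2 * (G ^ 2 * ((1 + 2 * ε) * h)) *
      Real.sqrt (‖a‖ ^ 2 * ‖b‖ ^ 2 - ⟪a, b⟫ ^ 2) / Real.sqrt (1 + ‖w c‖ ^ 2) := by rw [hnm]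
  rw [hareaval] at harea
  have hAnn : 0 ≤ 1 / 2 * (G ^ 2 * ((1 + 2 * ε) * h)) *
      Real.sqrt (‖a‖ ^ 2 * ‖b‖ ^ 2 - ⟪a, b⟫ ^ 2) / Real.sqrt (1 + ‖w c‖ ^ 2) := by positivity
  refine ⟨proj W P, proj W (P + G • (a + m • b)), proj W (P + G • (a + n • b)),
    ⟨inner_proj_self W _ hW, inner_proj_self W _ hW, inner_proj_self W _ hW⟩,
    affineIndependent_cone a b e (w c) P he ha hb hwc hκ G m n hG hmn, ?_, ?_, ?_, ?_⟩
  · rintro x ⟨τ, hτ, ρ, hρ, s, hs, rfl⟩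
    refine ⟨_, key τ hτ ρ hρ s hs, _, eq_proj_add W _⟩
  · rw [harea, ENNReal.toReal_ofReal hAnn]
  · -- lower bound
    set r₀ : ℝ := max (R c - ε) 0 with hr₀
    have hr₀0 : 0 ≤ r₀ := le_max_right _ _
    have hr₀R : ∀ τ ∈ Icc t₁ t₂, r₀ ≤ R τ := by
      intro τ hτ
      apply max_le
      · have := (abs_le.1 (hRc τ hτ)).1; linarith
      · exact hR0 τ (hsubI hτ)
    have hlo := area_cone a b e (w c) p₀ he ha hb hwc r₀ t₁ t₂ ht.le
    rw [← hWdef] at hlo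
    have hsubLo : convexHull ℝ ({proj W p₀, proj W (p₀ + r₀ • (a + t₁ • b)),
        proj W (p₀ + r₀ • (a + t₂ • b))} : Set E3) ⊆
        proj W '' {x : E3 | ∃ τ ∈ Icc t₁ t₂, ∃ ρ ∈ Icc 0 (R τ), ∃ s : ℝ, |s| ≤ L ∧
          x = p₀ + ρ • (a + τ • b) + s • (e + w τ)} := by
      intro y hy
      rw [mem_convexHull_three] at hy
      obtain ⟨u, v, v', hu, hv, hv', hsum, rfl⟩ := hy
      have hμ : 0 ≤ v + v' := by positivity
      by_cases hz : v + v' = 0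
      · have hv0 : v = 0 := by linarith
        have hv'0 : v' = 0 := by linarith
        have hu1 : u = 1 := by linarith
        refine ⟨p₀, ⟨t₁, ⟨le_refl _, ht.le⟩, 0, ⟨le_refl _, hR0 t₁ (hsubI ⟨le_refl _, ht.le⟩)⟩, 0,
          by simpa using hL.le, by simp⟩, ?_⟩
        simp [hv0, hv'0, hu1]
      · have hμ' : 0 < v + v' := lt_of_le_of_ne hμ (Ne.symm hz)
        set τ : ℝ := (v * t₁ + v' * t₂) / (v + v') with hτ
        have hτ1 : t₁ ≤ τ := by
          rw [hτ, le_div_iff₀ hμ']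
          nlinarith [mul_le_mul_of_nonneg_left ht.le hv']
        have hτ2 : τ ≤ t₂ := by
          rw [hτ, div_le_iff₀ hμ']
          nlinarith [mul_le_mul_of_nonneg_left ht.le hv]
        have hτmem : τ ∈ Icc t₁ t₂ := ⟨hτ1, hτ2⟩
        have hμ1 : v + v' ≤ 1 := by linarith
        have hρ : (v + v') * r₀ ∈ Icc 0 (R τ) := by
          refine ⟨by positivity, ?_⟩
          calc (v + v') * r₀ ≤ 1 * r₀ := mul_le_mul_of_nonneg_right hμ1 hr₀0
            _ = r₀ := one_mul _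
            _ ≤ R τ := hr₀R τ hτmem
        refine ⟨p₀ + ((v + v') * r₀) • (a + τ • b) + (0 : ℝ) • (e + w τ),
          ⟨τ, hτmem, (v + v') * r₀, hρ, 0, by simpa using hL.le, rfl⟩, ?_⟩
        have hvec : p₀ + ((v + v') * r₀) • (a + τ • b) + (0 : ℝ) • (e + w τ) =
            u • p₀ + v • (p₀ + r₀ • (a + t₁ • b)) + v' • (p₀ + r₀ • (a + t₂ • b)) := by
          have hτ' : (v + v') * τ = v * t₁ + v' * t₂ := by rw [hτ]; field_simp
          have hu' : u = 1 - v - v' := by linarith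
          have h6 : ((v + v') * r₀) • (a + τ • b) =
              ((v + v') * r₀) • a + (r₀ * ((v + v') * τ)) • b := by module
          rw [h6, hτ', hu']
          module
        rw [hvec, map_add, map_add (proj W) (u • _), map_smul, map_smul, map_smul]
    have hmono := measure_mono (μ := (μHE[2] : Measure E3)) hSsub
    rw [harea] at hmono
    have hne : μHE[2] (proj W '' {x : E3 | ∃ τ ∈ Icc t₁ t₂, ∃ ρ ∈ Icc 0 (R τ), ∃ s : ℝ, |s| ≤ L ∧
          x = p₀ + ρ • (a + τ • b) + s • (e + w τ)}) ≠ ⊤ :=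
      ne_top_of_le_ne_top ENNReal.ofReal_ne_top hmono
    have hmonolo := measure_mono (μ := (μHE[2] : Measure E3)) hsubLo
    rw [hlo] at hmonolo
    have := ENNReal.toReal_mono hne hmonolo
    rwa [ENNReal.toReal_ofReal (by positivity)] at this
  · have hmono := measure_mono (μ := (μHE[2] : Measure E3)) hSsub
    rw [harea] at hmono
    have := ENNReal.toReal_mono ENNReal.ofReal_ne_top hmono
    rwa [ENNReal.toReal_ofReal hAnn] at this

end Crest.Agent.Lib.S0328
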