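import Mathlib

set_option autoImplicit false

namespace Crest.Agent.Lib.S0423A

open MeasureTheory Set Filter Topology

/-- Discrete log-concavity. -/
def TP2 (Φ : ℝ → ℝ) : Prop :=
  ∀ x y δ : ℝ, x ≤ y → 0 ≤ δ → Φ (x - δ) * Φ (y + δ) ≤ Φ x * Φ y

/-! ### chords of convex functions -/

lemma chord_le {D : Set ℝ} {f : ℝ → ℝ} (hf : ConvexOn ℝ D f) {p q x : ℝ} (hp : p ∈ D) (hq : q ∈ D)
    (hpq : p < q) (hx : x ∈ Icc p q) :
    f x ≤ f p + (f q - f p) / (q - p) * (x - p) := by
  have hd : 0 < q - p := sub_pos.2 hpq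
  have h := hf.2 hp hq (show 0 ≤ (q - x) / (q - p) from div_nonneg (sub_nonneg.2 hx.2) hd.le)
    (show 0 ≤ (x - p) / (q - p) from div_nonneg (sub_nonneg.2 hx.1) hd.le)
    (by field_simp; ring)
  have e : ((q - x) / (q - p)) • p + ((x - p) / (q - p)) • q = x := by
    simp only [smul_eq_mul]; field_simp; ring
  rw [e] at h
  simp only [smul_eq_mul] at h
  calc f x ≤ _ := h
    _ = _ := by field_simp; ring

lemma chord_ge_right {D : Set ℝ} {f : ℝ → ℝ} (hf : ConvexOn ℝ D f) {p q x : ℝ} (hp : p ∈ D)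
    (hq : q ∈ D) (hx : x ∈ D) (hpq : p < q) (hqx : q ≤ x) :
    f p + (f q - f p) / (q - p) * (x - p) ≤ f x := by
  have hd : 0 < q - p := sub_pos.2 hpq
  have hd' : 0 < x - p := by linarith
  have h := hf.2 hp hx (show 0 ≤ (x - q) / (x - p) from div_nonneg (sub_nonneg.2 hqx) hd'.le)
    (show 0 ≤ (q - p) / (x - p) from div_nonneg hd.le hd'.le)
    (by field_simp; ring)
  have e : ((x - q) / (x - p)) • p + ((q - p) / (x - p)) • x = q := by
    simp only [smul_eq_mul]; field_simp; ring
  rw [e] at h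
  simp only [smul_eq_mul] at h
  have h2 : (x - p) * f q ≤ (x - q) * f p + (q - p) * f x := by
    have := mul_le_mul_of_nonneg_left h hd'.le
    calc (x - p) * f q ≤ _ := this
      _ = _ := by field_simp
  have e2 : f p + (f q - f p) / (q - p) * (x - p)
      = ((q - p) * f p + (f q - f p) * (x - p)) / (q - p) := by field_simp
  rw [e2, div_le_iff₀ hd]
  nlinarith

lemma chord_ge_left {D : Set ℝ} {f : ℝ → ℝ} (hf : ConvexOn ℝ D f) {p q x : ℝ} (hp : p ∈ D)
    (hq : q ∈ D) (hx : x ∈ D) (hpq : p < q) (hxp : x ≤ p) :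
    f p + (f q - f p) / (q - p) * (x - p) ≤ f x := by
  have hd : 0 < q - p := sub_pos.2 hpq
  have hd' : 0 < q - x := by linarith
  have h := hf.2 hx hq (show 0 ≤ (q - p) / (q - x) from div_nonneg hd.le hd'.le)
    (show 0 ≤ (p - x) / (q - x) from div_nonneg (sub_nonneg.2 hxp) hd'.le)
    (by field_simp; ring)
  have e : ((q - p) / (q - x)) • x + ((p - x) / (q - x)) • q = p := by
    simp only [smul_eq_mul]; field_simp; ring
  rw [e] at h
  simp only [smul_eq_mul] at h
  have h2 : (q - x) * f p ≤ (q - p) * f x + (p - x) * f q := by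
    have := mul_le_mul_of_nonneg_left h hd'.le
    calc (q - x) * f p ≤ _ := this
      _ = _ := by field_simp
  have e2 : f p + (f q - f p) / (q - p) * (x - p)
      = ((q - p) * f p + (f q - f p) * (x - p)) / (q - p) := by field_simp
  rw [e2, div_le_iff₀ hd]
  nlinarith

/-! ### from midpoint convexity and continuity to convexity -/

lemma convexOn_of_continuous_midpoint {G : ℝ → ℝ} (hc : Continuous G)
    (hm : ∀ x t : ℝ, 2 * G x ≤ G (x - t) + G (x + t)) : ConvexOn ℝ univ G := by
  refine ⟨convex_univ, ?_⟩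
  -- key: on an interval the function lies below its chord
  have key : ∀ u v : ℝ, u < v → ∀ w ∈ Icc u v,
      G w ≤ G u + (G v - G u) / (v - u) * (w - u) := by
    intro u v huv w hw
    by_contra hcon
    push Not at hcon
    set D : ℝ → ℝ := fun x => G x - (G u + (G v - G u) / (v - u) * (x - u)) with hD
    have hDc : Continuous D := by
      simp only [hD]; fun_prop
    have hDu : D u = 0 := by simp [hD]
    have hne : v - u ≠ 0 := (sub_pos.2 huv).ne'
    have hDv : D v = 0 := by simp only [hD]; field_simp; ring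
    have hDw : 0 < D w := by simp only [hD]; linarith
    have hDm : ∀ x t : ℝ, 2 * D x ≤ D (x - t) + D (x + t) := by
      intro x t
      have := hm x t
      simp only [hD]; nlinarith
    -- take a maximum point, leftmost
    obtain ⟨x0, hx0, hmax⟩ := (isCompact_Icc (a := u) (b := v)).exists_isMaxOn
      ⟨w, hw⟩ hDc.continuousOn
    have hMpos : 0 < D x0 := lt_of_lt_of_le hDw (hmax hw)
    set S : Set ℝ := Icc u v ∩ D ⁻¹' {D x0} with hS
    have hSc : IsCompact S := by
      refine (isCompact_Icc).inter_right ?_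
      exact (isClosed_singleton).preimage hDc
    have hSne : S.Nonempty := ⟨x0, hx0, rfl⟩
    obtain ⟨x1, hx1, hmin⟩ := hSc.exists_isLeast hSne
    have hx1I : x1 ∈ Icc u v := hx1.1
    have hx1D : D x1 = D x0 := hx1.2
    have hx1u : u < x1 := by
      rcases lt_or_eq_of_le hx1I.1 with h | h
      · exact h
      · exfalso
        rw [← h, hDu] at hx1D
        linarith
    have hx1v : x1 < v := by
      rcases lt_or_eq_of_le hx1I.2 with h | h
      · exact h
      · exfalso
        rw [h, hDv] at hx1D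
        linarith
    -- small step
    set t := min (x1 - u) (v - x1) with ht
    have htpos : 0 < t := lt_min (by linarith) (by linarith)
    have h1 : x1 - t ∈ Icc u v := by
      constructor
      · have := min_le_left (x1 - u) (v - x1); linarith
      · linarith
    have h2 : x1 + t ∈ Icc u v := by
      constructor
      · linarith
      · have := min_le_right (x1 - u) (v - x1); linarith
    have h3 : D (x1 + t) ≤ D x0 := hmax h2
    have h4 : D (x1 - t) < D x0 := by
      have hle : D (x1 - t) ≤ D x0 := hmax h1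
      rcases lt_or_eq_of_le hle with h | h
      · exact h
      · exfalso
        have hmem : x1 - t ∈ S := ⟨h1, h⟩
        have := hmin hmem
        linarith
    have h5 := hDm x1 t
    rw [hx1D] at h5
    linarith
  intro x _ y _ a b ha hb hab
  simp only [smul_eq_mul]
  rcases lt_trichotomy x y with hxy | hxy | hxy
  · have hmem : a * x + b * y ∈ Icc x y := by
      have e1 : a * x + b * y - x = b * (y - x) := by
        have : a = 1 - b := by linarith
        subst this; ring
      have e2 : y - (a * x + b * y) = a * (y - x) := by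
        have : b = 1 - a := by linarith
        subst this; ring
      have h1 := mul_nonneg hb (sub_pos.2 hxy).le
      have h2 := mul_nonneg ha (sub_pos.2 hxy).le
      constructor <;> linarith
    have := key x y hxy _ hmem
    have hne : y - x ≠ 0 := (sub_pos.2 hxy).ne'
    have e : G x + (G y - G x) / (y - x) * (a * x + b * y - x) = a * G x + b * G y := by
      have ha' : a = 1 - b := by linarith
      subst ha'
      field_simp
      ring
    linarith
  · subst hxy
    have : a * x + b * x = x := by rw [← add_mul, hab, one_mul]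
    rw [this, ← add_mul, hab, one_mul]
  · have hmem : a * x + b * y ∈ Icc y x := by
      have e1 : a * x + b * y - y = a * (x - y) := by
        have : b = 1 - a := by linarith
        subst this; ring
      have e2 : x - (a * x + b * y) = b * (x - y) := by
        have : a = 1 - b := by linarith
        subst this; ring
      have h1 := mul_nonneg ha (sub_pos.2 hxy).le
      have h2 := mul_nonneg hb (sub_pos.2 hxy).le
      constructor <;> linarith
    have := key y x hxy _ hmem
    have hne : x - y ≠ 0 := (sub_pos.2 hxy).ne'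
    have e : G y + (G x - G y) / (x - y) * (a * x + b * y - y) = a * G x + b * G y := by
      have ha' : b = 1 - a := by linarith
      subst ha'
      field_simp
      ring
    linarith


/-! ### survival functions of mean `c` log-concave variables -/

/-- The properties of the survival function we use. -/
structure Good (Ξ : ℝ → ℝ) (c : ℝ) : Prop where
  pos : ∀ x, 0 < Ξ x
  lt_one : ∀ x, Ξ x < 1
  anti : Antitone Ξ
  tp2 : TP2 Ξ
  intR : IntegrableOn Ξ (Ioi c)
  intL : IntegrableOn (fun x => 1 - Ξ x) (Iic c)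
  mean : ∫ x in Ioi c, Ξ x = ∫ x in Iic c, (1 - Ξ x)

/-- minus the logarithm of a survival function -/
noncomputable def GG (Ξ : ℝ → ℝ) (x : ℝ) : ℝ := - Real.log (Ξ x)

namespace Good

variable {Ξ : ℝ → ℝ} {c : ℝ} (h : Good Ξ c)
include h

lemma G_pos (x : ℝ) : 0 < GG Ξ x := by
  unfold GG
  have := Real.log_neg (h.pos x) (h.lt_one x)
  linarith

lemma exp_neg_G (x : ℝ) : Real.exp (- GG Ξ x) = Ξ x := by
  unfold GG
  rw [neg_neg, Real.exp_log (h.pos x)]

lemma G_mono : Monotone (GG Ξ) := by
  intro x y hxy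
  unfold GG
  have := Real.log_le_log (h.pos y) (h.anti hxy)
  linarith

lemma G_incr {x y δ : ℝ} (hxy : x ≤ y) (hδ : 0 ≤ δ) :
    GG Ξ x + GG Ξ y ≤ GG Ξ (x - δ) + GG Ξ (y + δ) := by
  unfold GG
  have h1 := h.tp2 x y δ hxy hδ
  have h2 := Real.log_le_log (mul_pos (h.pos _) (h.pos _)) h1
  rw [Real.log_mul (h.pos _).ne' (h.pos _).ne', Real.log_mul (h.pos _).ne' (h.pos _).ne'] at h2
  linarith

lemma G_n_incr (w t : ℝ) (ht : 0 ≤ t) (n : ℕ) :
    (n : ℝ) * (GG Ξ (w + t) - GG Ξ w) ≤ GG Ξ (w + n * t) - GG Ξ w := by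
  induction n with
  | zero => simp
  | succ n ih =>
    have hstep : GG Ξ (w + t) - GG Ξ w ≤ GG Ξ (w + (n + 1 : ℕ) * t) - GG Ξ (w + n * t) := by
      rcases Nat.eq_zero_or_pos n with rfl | hn
      · simp
      · have hn' : (1 : ℝ) ≤ n := by exact_mod_cast hn
        have hle : w + t ≤ w + n * t := by nlinarith
        have := h.G_incr hle ht
        have e1 : w + t - t = w := by ring
        have e2 : w + n * t + t = w + (n + 1 : ℕ) * t := by push_cast; ring
        rw [e1, e2] at this
        linarith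
    push_cast at hstep ⊢
    nlinarith

lemma G_continuous : Continuous (GG Ξ) := by
  rw [continuous_iff_continuousAt]
  intro y
  rw [Metric.continuousAt_iff]
  intro ε hε
  have hmono := h.G_mono
  set C := GG Ξ (y + 1) - GG Ξ (y - 1) with hC
  have hC0 : 0 ≤ C := by
    have := hmono (show y - 1 ≤ y + 1 by linarith)
    simp only [hC]; linarith
  obtain ⟨n, hn⟩ := exists_nat_gt (C / ε)
  set N : ℝ := (n : ℝ) + 1 with hN
  have hN1 : (1 : ℝ) ≤ N := by
    have : (0 : ℝ) ≤ n := Nat.cast_nonneg n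
    simp only [hN]; linarith
  have hNpos : 0 < N := by linarith
  have hNε : C < N * ε := by
    have h1 : C / ε < N := by simp only [hN]; linarith
    rwa [div_lt_iff₀ hε] at h1
  refine ⟨1 / N, by positivity, ?_⟩
  intro z hz
  rw [Real.dist_eq] at hz ⊢
  have hz' : |z - y| * N < 1 := by
    rwa [lt_div_iff₀ hNpos] at hz
  rcases le_total y z with hyz | hzy
  · -- z to the right
    have ht : 0 ≤ z - y := by linarith
    have habs : |z - y| = z - y := abs_of_nonneg ht
    rw [habs] at hz'
    have h1 := h.G_n_incr y (z - y) ht (n + 1)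
    have e : y + (z - y) = z := by ring
    rw [e] at h1
    push_cast at h1
    have h2 : GG Ξ (y + ((n : ℝ) + 1) * (z - y)) ≤ GG Ξ (y + 1) := by
      apply hmono
      have : (z - y) * N = ((n : ℝ) + 1) * (z - y) := by simp only [hN]; ring
      linarith
    have h3 := hmono (show y - 1 ≤ y by linarith)
    have h4 : GG Ξ y ≤ GG Ξ z := hmono hyz
    have h5 : N * (GG Ξ z - GG Ξ y) ≤ C := by
      simp only [hC]
      simp only [hN]
      linarith
    have h6 : GG Ξ z - GG Ξ y < ε := by
      by_contra hcon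
      push Not at hcon
      have := mul_le_mul_of_nonneg_left hcon hNpos.le
      linarith
    rw [abs_of_nonneg (by linarith)]
    exact h6
  · -- z to the left
    have ht : 0 ≤ y - z := by linarith
    have habs : |z - y| = y - z := by rw [abs_sub_comm]; exact abs_of_nonneg ht
    rw [habs] at hz'
    have hylt : y - z < 1 := by nlinarith
    have h1 := h.G_n_incr z (y - z) ht (n + 1)
    have e : z + (y - z) = y := by ring
    rw [e] at h1
    push_cast at h1
    have h2 : GG Ξ (z + ((n : ℝ) + 1) * (y - z)) ≤ GG Ξ (y + 1) := by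
      apply hmono
      have : (y - z) * N = ((n : ℝ) + 1) * (y - z) := by simp only [hN]; ring
      linarith
    have h3 := hmono (show y - 1 ≤ z by linarith)
    have h4 : GG Ξ z ≤ GG Ξ y := hmono hzy
    have h5 : N * (GG Ξ y - GG Ξ z) ≤ C := by
      simp only [hC]
      simp only [hN]
      linarith
    have h6 : GG Ξ y - GG Ξ z < ε := by
      by_contra hcon
      push Not at hcon
      have := mul_le_mul_of_nonneg_left hcon hNpos.le
      linarith
    rw [abs_sub_comm, abs_of_nonneg (by linarith)]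
    exact h6

lemma G_convex : ConvexOn ℝ univ (GG Ξ) := by
  apply convexOn_of_continuous_midpoint h.G_continuous
  intro x t
  rcases le_total 0 t with ht | ht
  · have := h.G_incr (le_refl x) ht
    linarith
  · have := h.G_incr (le_refl x) (show 0 ≤ -t by linarith)
    have e1 : x - -t = x + t := by ring
    have e2 : x + -t = x - t := by ring
    rw [e1, e2] at this
    linarith

lemma G_strict {x y : ℝ} (hxy : x < y) : GG Ξ x < GG Ξ y := by
  have hmono := h.G_mono
  have hconv := h.G_convex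
  by_contra hcon
  push Not at hcon
  have heq : GG Ξ x = GG Ξ y := le_antisymm (hmono hxy.le) hcon
  -- constant on the left of `x`
  have hconst : ∀ z, z ≤ x → GG Ξ z = GG Ξ x := by
    intro z hz
    apply le_antisymm (hmono hz)
    have := chord_ge_left hconv (mem_univ x) (mem_univ y) (mem_univ z) hxy hz
    rw [heq, sub_self, zero_div, zero_mul, add_zero] at this
    rw [heq]; exact this
  have hΞconst : ∀ z, z ≤ x → Ξ z = Ξ x := by
    intro z hz
    rw [← h.exp_neg_G z, ← h.exp_neg_G x, hconst z hz]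
  -- contradiction with integrability of `1 - Ξ`
  set m := min x c with hm
  have hsub : Iic m ⊆ Iic c := Iic_subset_Iic.2 (min_le_right _ _)
  have hint : IntegrableOn (fun z => 1 - Ξ z) (Iic m) := h.intL.mono_set hsub
  have heqOn : EqOn (fun z => 1 - Ξ z) (fun _ => 1 - Ξ x) (Iic m) := by
    intro z hz
    have hz' : z ≤ x := le_trans hz (min_le_left _ _)
    simp only [hΞconst z hz']
  have hint2 : IntegrableOn (fun _ => 1 - Ξ x) (Iic m) :=
    hint.congr_fun heqOn measurableSet_Iic
  rw [integrableOn_const_iff] at hint2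
  rcases hint2 with h0 | h1
  · have := h.lt_one x
    have h0' := enorm_eq_zero.1 h0
    linarith
  · simp at h1

end Good


/-! ### the comparison exponential survival functions -/

/-- Survival function of `b + A X`, `X` a mean one exponential variable. -/
noncomputable def SS (A b x : ℝ) : ℝ := if x ≤ b then 1 else Real.exp (-(x - b) / A)

lemma SS_measurable (A b : ℝ) : Measurable (SS A b) := by
  unfold SS
  exact Measurable.ite measurableSet_Iic measurable_const (by fun_prop)

lemma SS_pos (A b x : ℝ) : 0 < SS A b x := by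
  unfold SS
  split_ifs
  · exact one_pos
  · exact Real.exp_pos _

lemma SS_le_one {A : ℝ} (hA : 0 < A) (b x : ℝ) : SS A b x ≤ 1 := by
  unfold SS
  split_ifs with h
  · exact le_refl _
  · push Not at h
    rw [Real.exp_le_one_iff]
    apply div_nonpos_of_nonpos_of_nonneg _ hA.le
    linarith

lemma SS_of_gt {A b x : ℝ} (h : b < x) : SS A b x = Real.exp (-(x - b) / A) := by
  unfold SS
  rw [if_neg (not_le.2 h)]

lemma SS_of_le {A b x : ℝ} (h : x ≤ b) : SS A b x = 1 := by
  unfold SS
  rw [if_pos h]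

/-- monotone in the shift -/
lemma SS_mono_shift {A b b' : ℝ} (hA : 0 < A) (hb : b' ≤ b) (x : ℝ) : SS A b' x ≤ SS A b x := by
  rcases le_or_gt x b with h | h
  · rw [SS_of_le h]; exact SS_le_one hA _ _
  · rw [SS_of_gt h, SS_of_gt (lt_of_le_of_lt hb h)]
    apply Real.exp_le_exp.2
    apply (div_le_div_iff_of_pos_right hA).2
    linarith

lemma tendsto_exp_affine {A : ℝ} (hA : 0 < A) (b : ℝ) :
    Tendsto (fun x : ℝ => Real.exp (-(x - b) / A)) atTop (𝓝 0) := by
  apply Real.tendsto_exp_atBot.comp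
  have h1 : Tendsto (fun x : ℝ => x - b) atTop atTop := tendsto_atTop_add_const_right _ _ tendsto_id
  have h2 : Tendsto (fun x : ℝ => -(x - b)) atTop atBot := tendsto_neg_atTop_atBot.comp h1
  exact h2.atBot_div_const hA

lemma hasDeriv_exp_affine (A b x : ℝ) (hA : A ≠ 0) :
    HasDerivAt (fun x : ℝ => - A * Real.exp (-(x - b) / A)) (Real.exp (-(x - b) / A)) x := by
  have h1 : HasDerivAt (fun x : ℝ => -(x - b) / A) (-1 / A) x := by
    have := ((hasDerivAt_id x).sub_const b).neg.div_const A
    simpa using this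
  have h2 := (h1.exp).const_mul (-A)
  have e : -A * (Real.exp (-(x - b) / A) * (-1 / A)) = Real.exp (-(x - b) / A) := by field_simp
  rw [e] at h2
  exact h2

lemma integrableOn_exp_affine {A : ℝ} (hA : 0 < A) (b c : ℝ) :
    IntegrableOn (fun x : ℝ => Real.exp (-(x - b) / A)) (Ioi c) := by
  apply integrableOn_Ioi_deriv_of_nonneg' (g := fun x : ℝ => - A * Real.exp (-(x - b) / A))
    (l := - A * 0)
  · intro x _
    exact hasDeriv_exp_affine A b x hA.ne'
  · intro x _
    exact (Real.exp_pos _).le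
  · exact (tendsto_exp_affine hA b).const_mul _

lemma integral_exp_affine {A : ℝ} (hA : 0 < A) (b c : ℝ) :
    ∫ x in Ioi c, Real.exp (-(x - b) / A) = A * Real.exp (-(c - b) / A) := by
  have := integral_Ioi_of_hasDerivAt_of_tendsto' (a := c) (m := - A * 0)
    (f := fun x : ℝ => - A * Real.exp (-(x - b) / A))
    (f' := fun x : ℝ => Real.exp (-(x - b) / A))
    (fun x _ => hasDeriv_exp_affine A b x hA.ne')
    (integrableOn_exp_affine hA b c)
    ((tendsto_exp_affine hA b).const_mul _)
  rw [this]; ring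

lemma SS_integrableOn_Ioi {A b c : ℝ} (hA : 0 < A) (hb : b < c) :
    IntegrableOn (SS A b) (Ioi c) := by
  apply (integrableOn_exp_affine hA b c).congr_fun _ measurableSet_Ioi
  intro x hx
  exact (SS_of_gt (lt_trans hb hx)).symm

lemma SS_integral_Ioi {A b c : ℝ} (hA : 0 < A) (hb : b < c) :
    ∫ x in Ioi c, SS A b x = A * Real.exp (-(c - b) / A) := by
  rw [← integral_exp_affine hA b c]
  apply setIntegral_congr_fun measurableSet_Ioi
  intro x hx
  exact SS_of_gt (lt_trans hb hx)

lemma one_sub_SS_integrableOn_Iic {A b c : ℝ} (hA : 0 < A) (hb : b < c) :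
    IntegrableOn (fun x => 1 - SS A b x) (Iic c) := by
  have hu : Iic c = Iic b ∪ Ioc b c := (Iic_union_Ioc_eq_Iic hb.le).symm
  rw [hu]
  apply IntegrableOn.union
  · have : IntegrableOn (fun _ : ℝ => (0 : ℝ)) (Iic b) := integrableOn_zero
    apply this.congr_fun _ measurableSet_Iic
    intro x hx
    simp only [SS_of_le hx, sub_self]
  · have hbd : IntegrableOn (fun x : ℝ => 1 - Real.exp (-(x - b) / A)) (Ioc b c) := by
      have hcont : Continuous (fun x : ℝ => 1 - Real.exp (-(x - b) / A)) := by fun_prop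
      exact (hcont.integrableOn_Icc (a := b) (b := c)).mono_set Ioc_subset_Icc_self
    apply hbd.congr_fun _ measurableSet_Ioc
    intro x hx
    simp only [SS_of_gt hx.1]

lemma one_sub_SS_integral_Iic {A b c : ℝ} (hA : 0 < A) (hb : b < c) :
    ∫ x in Iic c, (1 - SS A b x) = (c - b) - A * (1 - Real.exp (-(c - b) / A)) := by
  have hu : Iic c = Iic b ∪ Ioc b c := (Iic_union_Ioc_eq_Iic hb.le).symm
  have hint := one_sub_SS_integrableOn_Iic hA hb
  rw [hu] at hint ⊢
  rw [setIntegral_union (Iic_disjoint_Ioc le_rfl) measurableSet_Ioc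
    (hint.mono_set subset_union_left) (hint.mono_set subset_union_right)]
  have h1 : ∫ x in Iic b, (1 - SS A b x) = 0 := by
    have : ∫ x in Iic b, (1 - SS A b x) = ∫ x in Iic b, (0 : ℝ) := by
      apply setIntegral_congr_fun measurableSet_Iic
      intro x hx
      simp only [SS_of_le hx, sub_self]
    rw [this]; simp
  have h2 : ∫ x in Ioc b c, (1 - SS A b x) = ∫ x in Ioc b c, (1 - Real.exp (-(x - b) / A)) := by
    apply setIntegral_congr_fun measurableSet_Ioc
    intro x hx
    simp only [SS_of_gt hx.1]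
  rw [h1, h2, zero_add, ← intervalIntegral.integral_of_le hb.le]
  have hderiv : ∀ x ∈ uIcc b c, HasDerivAt (fun x : ℝ => x + A * Real.exp (-(x - b) / A))
      (1 - Real.exp (-(x - b) / A)) x := by
    intro x _
    have := (hasDerivAt_id x).sub (hasDeriv_exp_affine A b x hA.ne')
    have e : (fun x : ℝ => x + A * Real.exp (-(x - b) / A))
        = (id - fun x : ℝ => - A * Real.exp (-(x - b) / A)) := by
      ext y; simp
    rw [e]
    exact this
  rw [intervalIntegral.integral_eq_sub_of_hasDerivAt hderiv]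
  · simp
    ring
  · apply Continuous.intervalIntegrable
    fun_prop


/-! ### the weight `x e^{-x}` -/

lemma hasDeriv_weight (r x : ℝ) (hr : r ≠ 0) :
    HasDerivAt (fun x : ℝ => - (x / r + 1 / r ^ 2) * Real.exp (- r * x))
      (x * Real.exp (- r * x)) x := by
  have h1 : HasDerivAt (fun x : ℝ => - r * x) (- r) x := by
    simpa using (hasDerivAt_id x).const_mul (-r)
  have h2 : HasDerivAt (fun x : ℝ => - (x / r + 1 / r ^ 2)) (- (1 / r)) x := by
    have h := ((hasDerivAt_id x).div_const r).add_const (1 / r ^ 2)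
    exact h.neg
  have h3 := h2.mul h1.exp
  have e : -(1 / r) * Real.exp (- r * x) + -(x / r + 1 / r ^ 2) * (Real.exp (- r * x) * -r)
      = x * Real.exp (- r * x) := by
    field_simp
    ring
  rw [e] at h3
  exact h3

lemma tendsto_weight {r : ℝ} (hr : 0 < r) :
    Tendsto (fun x : ℝ => - (x / r + 1 / r ^ 2) * Real.exp (- r * x)) atTop (𝓝 0) := by
  have h1 : Tendsto (fun x : ℝ => x * Real.exp (- r * x)) atTop (𝓝 0) := by
    have := Real.tendsto_pow_mul_exp_neg_atTop_nhds_zero 1
    have h2 : Tendsto (fun x : ℝ => r * x) atTop atTop := tendsto_id.const_mul_atTop hr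
    have h3 := (this.comp h2).const_mul (1 / r)
    simp only [mul_zero] at h3
    refine h3.congr ?_
    intro x
    simp only [Function.comp, pow_one]
    have : -(r * x) = - r * x := by ring
    rw [this]
    field_simp
  have h4 : Tendsto (fun x : ℝ => Real.exp (- r * x)) atTop (𝓝 0) := by
    apply Real.tendsto_exp_atBot.comp
    have : Tendsto (fun x : ℝ => - r * x) atTop atBot := by
      have h5 : Tendsto (fun x : ℝ => r * x) atTop atTop := tendsto_id.const_mul_atTop hr
      have := tendsto_neg_atTop_atBot.comp h5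
      refine this.congr ?_
      intro x; simp
    exact this
  have h6 := (h1.const_mul (- (1 / r))).add (h4.const_mul (- (1 / r ^ 2)))
  simp only [mul_zero, add_zero] at h6
  refine h6.congr ?_
  intro x
  field_simp
  ring

lemma integrableOn_weight {r b : ℝ} (hr : 0 < r) (hb : 0 ≤ b) :
    IntegrableOn (fun x : ℝ => x * Real.exp (- r * x)) (Ioi b) := by
  apply integrableOn_Ioi_deriv_of_nonneg'
    (g := fun x : ℝ => - (x / r + 1 / r ^ 2) * Real.exp (- r * x)) (l := 0)
  · intro x _
    exact hasDeriv_weight r x hr.ne'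
  · intro x hx
    have : 0 < x := lt_of_le_of_lt hb hx
    positivity
  · exact tendsto_weight hr

lemma integral_weight {r b : ℝ} (hr : 0 < r) (hb : 0 ≤ b) :
    ∫ x in Ioi b, x * Real.exp (- r * x) = (b / r + 1 / r ^ 2) * Real.exp (- r * b) := by
  have := integral_Ioi_of_hasDerivAt_of_tendsto' (a := b) (m := 0)
    (f := fun x : ℝ => - (x / r + 1 / r ^ 2) * Real.exp (- r * x))
    (f' := fun x : ℝ => x * Real.exp (- r * x))
    (fun x _ => hasDeriv_weight r x hr.ne')
    (integrableOn_weight hr hb)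
    (tendsto_weight hr)
  rw [this]; ring

/-- the weight -/
noncomputable def wt (x : ℝ) : ℝ := x * Real.exp (- x)

lemma wt_integrableOn : IntegrableOn wt (Ioi 0) := by
  have h := integrableOn_weight (r := 1) (b := 0) one_pos le_rfl
  have e : wt = fun x => x * Real.exp (-1 * x) := by ext x; simp [wt]
  rw [e]; exact h

lemma wt_mul_integrableOn {f : ℝ → ℝ} (hf : Measurable f) (hb : ∀ x, |f x| ≤ 1) :
    IntegrableOn (fun x => wt x * f x) (Ioi 0) := by
  have := wt_integrableOn.mul_bdd (c := 1) hf.aestronglyMeasurable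
    (Eventually.of_forall (fun x => by simpa using hb x))
  exact this


namespace Good

variable {Ξ : ℝ → ℝ} {c : ℝ} (h : Good Ξ c)
include h

lemma meas : Measurable Ξ := h.anti.measurable

lemma abs_le_one (x : ℝ) : |Ξ x| ≤ 1 := by
  rw [abs_of_pos (h.pos x)]; exact (h.lt_one x).le

lemma diff_integrableOn_Ioi {A b : ℝ} (hA : 0 < A) (hb : b < c) :
    IntegrableOn (fun x => Ξ x - SS A b x) (Ioi c) :=
  h.intR.sub (SS_integrableOn_Ioi hA hb)

lemma diff_integrableOn_Iic {A b : ℝ} (hA : 0 < A) (hb : b < c) :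
    IntegrableOn (fun x => Ξ x - SS A b x) (Iic c) := by
  have := (one_sub_SS_integrableOn_Iic hA hb).sub h.intL
  refine this.congr_fun ?_ measurableSet_Iic
  intro x _
  simp

lemma diff_integrable {A b : ℝ} (hA : 0 < A) (hb : b < c) :
    Integrable (fun x => Ξ x - SS A b x) := by
  have := (h.diff_integrableOn_Iic hA hb).union (h.diff_integrableOn_Ioi hA hb)
  rwa [Iic_union_Ioi, integrableOn_univ] at this

lemma diff_integral {A b : ℝ} (hA : 0 < A) (hb : b < c) :
    ∫ x, (Ξ x - SS A b x) = -(A + b - c) := by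
  rw [← intervalIntegral.integral_Iic_add_Ioi (h.diff_integrableOn_Iic hA hb)
    (h.diff_integrableOn_Ioi hA hb)]
  have e1 : ∫ x in Iic c, (Ξ x - SS A b x) = ∫ x in Iic c, ((1 - SS A b x) - (1 - Ξ x)) := by
    apply integral_congr_ae
    exact Eventually.of_forall (fun x => by ring)
  rw [e1, integral_sub (one_sub_SS_integrableOn_Iic hA hb) h.intL,
    integral_sub h.intR (SS_integrableOn_Ioi hA hb), one_sub_SS_integral_Iic hA hb,
    SS_integral_Ioi hA hb, h.mean]
  ring

lemma compare {A b κ : ℝ} (hA : 0 < A) (hb : b < c) (hκ : 0 ≤ κ)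
    (h1 : ∀ x, 0 < x → 0 ≤ (wt x - κ) * (Ξ x - SS A b x))
    (h2 : ∀ x, x ≤ 0 → Ξ x - SS A b x ≤ 0) :
    (∫ x in Ioi 0, wt x * SS A b x) - κ * (A + b - c) ≤ ∫ x in Ioi 0, wt x * Ξ x := by
  have hint := h.diff_integrable hA hb
  have hI1 : IntegrableOn (fun x => Ξ x - SS A b x) (Ioi 0) := hint.integrableOn
  have hI2 : IntegrableOn (fun x => Ξ x - SS A b x) (Iic 0) := hint.integrableOn
  have hS : ∀ x, |SS A b x| ≤ 1 := fun x => by
    rw [abs_of_pos (SS_pos A b x)]; exact SS_le_one hA b x
  have hwΞ := wt_mul_integrableOn h.meas h.abs_le_one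
  have hwS := wt_mul_integrableOn (SS_measurable A b) hS
  have e : (∫ x in Iic 0, (Ξ x - SS A b x)) + (∫ x in Ioi 0, (Ξ x - SS A b x)) = -(A + b - c) := by
    rw [intervalIntegral.integral_Iic_add_Ioi hI2 hI1]
    exact h.diff_integral hA hb
  have hnp : ∫ x in Iic 0, (Ξ x - SS A b x) ≤ 0 :=
    setIntegral_nonpos measurableSet_Iic (fun x hx => h2 x hx)
  have hnn : 0 ≤ ∫ x in Ioi 0, (wt x - κ) * (Ξ x - SS A b x) :=
    setIntegral_nonneg measurableSet_Ioi (fun x hx => h1 x hx)
  have e2 : ∫ x in Ioi 0, (wt x - κ) * (Ξ x - SS A b x)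
      = (∫ x in Ioi 0, wt x * Ξ x) - (∫ x in Ioi 0, wt x * SS A b x)
        - κ * (∫ x in Ioi 0, (Ξ x - SS A b x)) := by
    have hsub : IntegrableOn (fun x => wt x * Ξ x - wt x * SS A b x) (Ioi 0) := hwΞ.sub hwS
    calc ∫ x in Ioi 0, (wt x - κ) * (Ξ x - SS A b x)
        = ∫ x in Ioi 0, ((wt x * Ξ x - wt x * SS A b x) - κ * (Ξ x - SS A b x)) := by
          apply integral_congr_ae
          exact Eventually.of_forall (fun x => by simp only; ring)
      _ = (∫ x in Ioi 0, (wt x * Ξ x - wt x * SS A b x)) - ∫ x in Ioi 0, κ * (Ξ x - SS A b x) :=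
          integral_sub hsub (hI1.const_mul κ)
      _ = _ := by rw [integral_sub hwΞ hwS, integral_const_mul]
  nlinarith

end Good

/-! ### the sign of the weight -/

/-- left end of the level sets of the weight -/
noncomputable def x1 (t : ℝ) : ℝ := t / (Real.exp t - 1)

/-- right end of the level sets of the weight -/
noncomputable def x2 (t : ℝ) : ℝ := x1 t + t

lemma exp_sub_one_pos {t : ℝ} (ht : 0 < t) : 0 < Real.exp t - 1 := by
  have := Real.add_one_lt_exp ht.ne'
  linarith

lemma x1_pos {t : ℝ} (ht : 0 < t) : 0 < x1 t := div_pos ht (exp_sub_one_pos ht)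

lemma x1_le_one {t : ℝ} (ht : 0 < t) : x1 t ≤ 1 := by
  unfold x1
  rw [div_le_one (exp_sub_one_pos ht)]
  have := Real.add_one_le_exp t
  linarith

lemma x2_eq {t : ℝ} (ht : 0 < t) : x2 t = x1 t * Real.exp t := by
  unfold x2 x1
  have := (exp_sub_one_pos ht).ne'
  field_simp
  ring

lemma wt_eq_exp {x : ℝ} (hx : 0 < x) : wt x = Real.exp (-(x - Real.log x)) := by
  unfold wt
  rw [neg_sub, Real.exp_sub, Real.exp_log hx, Real.exp_neg]
  rfl

lemma f_convex : ConvexOn ℝ (Ioi 0) (fun x : ℝ => x - Real.log x) := by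
  have h1 : ConvexOn ℝ (Ioi (0 : ℝ)) (fun x : ℝ => - Real.log x) :=
    (strictConcaveOn_log_Ioi.concaveOn).neg
  have h2 : ConvexOn ℝ (Ioi (0 : ℝ)) (fun x : ℝ => x) := convexOn_id (convex_Ioi 0)
  have e : (fun x : ℝ => x - Real.log x) = (fun x => x) + fun x => -Real.log x := by
    ext x; simp [sub_eq_add_neg]
  rw [e]
  exact h2.add h1

lemma f_eq {t : ℝ} (ht : 0 < t) : x2 t - Real.log (x2 t) = x1 t - Real.log (x1 t) := by
  rw [x2_eq ht, Real.log_mul (x1_pos ht).ne' (Real.exp_pos t).ne', Real.log_exp]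
  have : x1 t * Real.exp t = x1 t + t := (x2_eq ht).symm
  rw [this]
  ring

lemma wt_eq {t : ℝ} (ht : 0 < t) : wt (x2 t) = wt (x1 t) := by
  have h2 : 0 < x2 t := by unfold x2; have := x1_pos ht; linarith
  rw [wt_eq_exp h2, wt_eq_exp (x1_pos ht), f_eq ht]

lemma x1_lt_x2 {t : ℝ} (ht : 0 < t) : x1 t < x2 t := by unfold x2; linarith

lemma wt_ge {t x : ℝ} (ht : 0 < t) (hx : x ∈ Icc (x1 t) (x2 t)) : wt (x1 t) ≤ wt x := by
  have h1 := x1_pos ht
  have h12 := x1_lt_x2 ht
  have hx0 : 0 < x := lt_of_lt_of_le h1 hx.1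
  have := chord_le f_convex (show x1 t ∈ Ioi 0 from h1) (show x2 t ∈ Ioi 0 from h1.trans h12) h12 hx
  simp only [f_eq ht, sub_self, zero_div, zero_mul, add_zero] at this
  rw [wt_eq_exp hx0, wt_eq_exp h1]
  apply Real.exp_le_exp.2
  linarith

lemma wt_le {t x : ℝ} (ht : 0 < t) (hx0 : 0 < x) (hx : x ∉ Icc (x1 t) (x2 t)) :
    wt x ≤ wt (x1 t) := by
  have h1 := x1_pos ht
  have h12 := x1_lt_x2 ht
  rw [wt_eq_exp hx0, wt_eq_exp h1]
  apply Real.exp_le_exp.2
  have hcases : x ≤ x1 t ∨ x2 t ≤ x := by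
    by_contra hcon
    push Not at hcon
    exact hx ⟨hcon.1.le, hcon.2.le⟩
  rcases hcases with hc | hc
  · have := chord_ge_left f_convex (show x1 t ∈ Ioi 0 from h1) (show x2 t ∈ Ioi 0 from h1.trans h12)
      (show x ∈ Ioi 0 from hx0) h12 hc
    simp only [f_eq ht, sub_self, zero_div, zero_mul, add_zero] at this
    linarith
  · have := chord_ge_right f_convex (show x1 t ∈ Ioi 0 from h1)
      (show x2 t ∈ Ioi 0 from h1.trans h12) (show x ∈ Ioi 0 from hx0) h12 hc
    simp only [f_eq ht, sub_self, zero_div, zero_mul, add_zero] at this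
    linarith

lemma wt_nonneg {x : ℝ} (hx : 0 < x) : 0 ≤ wt x := by
  unfold wt; positivity

lemma wt_le_self {x : ℝ} (hx : 0 < x) : wt x ≤ x := by
  unfold wt
  have : Real.exp (-x) ≤ 1 := Real.exp_le_one_iff.2 (by linarith)
  nlinarith


/-! ### the exponential comparison variables -/

lemma Jstar_le : 4 / 9 * Real.exp (-(1 / 3)) ≤ (16 / 49 : ℝ) := by
  have h1 : (49 / 36 : ℝ) ≤ Real.exp (1 / 3) := by
    have := Real.quadratic_le_exp_of_nonneg (x := 1 / 3) (by norm_num)
    linarith [this, (by norm_num : (1 : ℝ) + 1 / 3 + (1 / 3) ^ 2 / 2 = 25 / 18)]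
  have h2 : Real.exp (-(1 / 3)) ≤ 36 / 49 := by
    rw [Real.exp_neg, inv_le_comm₀ (Real.exp_pos _) (by norm_num)]
    norm_num
    norm_num at h1
    exact h1
  linarith

lemma cubic_le_exp {b : ℝ} (hb : 0 ≤ b) : 1 + b + b ^ 2 / 2 + b ^ 3 / 6 ≤ Real.exp b := by
  have := Real.sum_le_exp_of_nonneg hb 4
  simp only [Finset.sum_range_succ, Finset.sum_range_zero, Nat.factorial] at this
  norm_num at this
  linarith

lemma poly_ineq {b : ℝ} (hb : 0 ≤ b) (hb' : b ≤ 4 / 3) :
    0 ≤ 33 / 49 * (1 + b + b ^ 2 / 2 + b ^ 3 / 6) * (7 / 3 - b) ^ 2 - 7 / 3 * (7 / 3 - b)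
      + (4 / 3 - b) ^ 2 := by
  have h : 0 ≤ b * (4 / 21 + 107 / 294 * b - 253 / 882 * b ^ 2 - 55 / 294 * b ^ 3
      + 11 / 98 * b ^ 4) := by
    apply mul_nonneg hb
    have h1 : 0 ≤ 4 / 3 - b := by linarith
    have h2 : 0 ≤ b * (4 / 3 - b) := mul_nonneg hb h1
    have h3 : 0 ≤ b ^ 2 * (4 / 3 - b) := mul_nonneg (by positivity) h1
    have h4 : 0 ≤ b ^ 3 * (4 / 3 - b) := mul_nonneg (by positivity) h1
    nlinarith [h2, h3, h4, sq_nonneg b, sq_nonneg (b ^ 2), mul_nonneg h2 h1, mul_nonneg h3 h1]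
  have e : 33 / 49 * (1 + b + b ^ 2 / 2 + b ^ 3 / 6) * (7 / 3 - b) ^ 2 - 7 / 3 * (7 / 3 - b)
      + (4 / 3 - b) ^ 2 = b * (4 / 21 + 107 / 294 * b - 253 / 882 * b ^ 2 - 55 / 294 * b ^ 3
      + 11 / 98 * b ^ 4) := by ring
  rw [e]; exact h

lemma J_A_large {A : ℝ} (hA : 4 / 3 ≤ A) :
    4 / 9 * Real.exp (-(1 / 3)) ≤ ∫ x in Ioi 0, wt x * SS A (4 / 3 - A) x := by
  have hA0 : 0 < A := by linarith
  set u := 1 / A with hu
  have hu0 : 0 < u := by positivity
  set r := 1 + u with hr
  have hr0 : 0 < r := by positivity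
  have e : ∫ x in Ioi 0, wt x * SS A (4 / 3 - A) x
      = ∫ x in Ioi 0, Real.exp (4 / 3 * u - 1) * (x * Real.exp (- r * x)) := by
    apply setIntegral_congr_fun measurableSet_Ioi
    intro x hx
    have hx' : (4 / 3 - A) < x := by
      have : (0 : ℝ) < x := hx
      linarith
    simp only
    rw [SS_of_gt hx']
    unfold wt
    have : Real.exp (- x) * Real.exp (-(x - (4 / 3 - A)) / A)
        = Real.exp (4 / 3 * u - 1) * Real.exp (- r * x) := by
      rw [← Real.exp_add, ← Real.exp_add]
      congr 1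
      simp only [hr, hu]
      field_simp
      ring
    calc x * Real.exp (- x) * Real.exp (-(x - (4 / 3 - A)) / A)
        = x * (Real.exp (- x) * Real.exp (-(x - (4 / 3 - A)) / A)) := by ring
      _ = _ := by rw [this]; ring
  rw [e, integral_const_mul, integral_weight hr0 le_rfl]
  simp only [zero_div, zero_add, mul_zero, Real.exp_zero, mul_one]
  have hz : (2 / 3 * r) ≤ Real.exp (2 / 3 * r - 1) := by
    have := Real.add_one_le_exp (2 / 3 * r - 1)
    linarith
  have hz0 : 0 < 2 / 3 * r := by positivity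
  have hz2 : (2 / 3 * r) ^ 2 ≤ Real.exp (2 / 3 * r - 1) ^ 2 :=
    pow_le_pow_left₀ hz0.le hz 2
  have hexp : Real.exp (2 / 3 * r - 1) ^ 2 = Real.exp (4 / 3 * u - 2 / 3) := by
    rw [← Real.exp_nat_mul]
    congr 1
    simp only [hr]
    push_cast
    ring
  rw [hexp] at hz2
  have h3 : Real.exp (4 / 3 * u - 1) = Real.exp (4 / 3 * u - 2 / 3) * Real.exp (-(1 / 3)) := by
    rw [← Real.exp_add]; congr 1; ring
  rw [h3]
  have hexp3 := Real.exp_pos (-(1 / 3 : ℝ))
  have hr2 : 0 < r ^ 2 := by positivity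
  rw [show Real.exp (4 / 3 * u - 2 / 3) * Real.exp (-(1 / 3)) * (1 / r ^ 2)
    = Real.exp (-(1 / 3)) * (Real.exp (4 / 3 * u - 2 / 3) / r ^ 2) by ring]
  have h4 : 4 / 9 ≤ Real.exp (4 / 3 * u - 2 / 3) / r ^ 2 := by
    rw [le_div_iff₀ hr2]
    nlinarith
  nlinarith

lemma J_A_small {A : ℝ} (hA0 : 0 < A) (hA : A < 4 / 3) :
    4 / 9 * Real.exp (-(1 / 3)) ≤ ∫ x in Ioi 0, wt x * SS A (4 / 3 - A) x := by
  set b := 4 / 3 - A with hb
  have hb0 : 0 < b := by simp only [hb]; linarith
  have hbA : b ≤ 4 / 3 := by simp only [hb]; linarith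
  set u := 1 / A with hu
  have hu0 : 0 < u := by positivity
  set r := 1 + u with hr
  have hr0 : 0 < r := by positivity
  have hS : ∀ x, |SS A b x| ≤ 1 := fun x => by
    rw [abs_of_pos (SS_pos A b x)]; exact SS_le_one hA0 b x
  have hint := wt_mul_integrableOn (SS_measurable A b) hS
  have hu' : Ioi (0 : ℝ) = Ioc 0 b ∪ Ioi b := (Ioc_union_Ioi_eq_Ioi hb0.le).symm
  have e0 : ∫ x in Ioi 0, wt x * SS A b x
      = (∫ x in Ioc 0 b, wt x * SS A b x) + ∫ x in Ioi b, wt x * SS A b x := by
    rw [hu'] at hint ⊢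
    exact setIntegral_union (Ioc_disjoint_Ioi le_rfl) measurableSet_Ioi
      (hint.mono_set subset_union_left) (hint.mono_set subset_union_right)
  have e1 : ∫ x in Ioc 0 b, wt x * SS A b x = 1 - (b + 1) * Real.exp (- b) := by
    have h1 : ∫ x in Ioc 0 b, wt x * SS A b x = ∫ x in Ioc 0 b, wt x := by
      apply setIntegral_congr_fun measurableSet_Ioc
      intro x hx
      simp only [SS_of_le hx.2, mul_one]
    rw [h1]
    have hw := wt_integrableOn
    have h2 : ∫ x in Ioi 0, wt x = (∫ x in Ioc 0 b, wt x) + ∫ x in Ioi b, wt x := by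
      rw [hu'] at hw ⊢
      exact setIntegral_union (Ioc_disjoint_Ioi le_rfl) measurableSet_Ioi
        (hw.mono_set subset_union_left) (hw.mono_set subset_union_right)
    have h3 : ∀ c : ℝ, 0 ≤ c → ∫ x in Ioi c, wt x = (c + 1) * Real.exp (- c) := by
      intro c hc
      have := integral_weight (r := 1) (b := c) one_pos hc
      simp only [one_mul, one_pow, div_one, neg_mul] at this
      simpa [wt] using this
    rw [h3 0 le_rfl, h3 b hb0.le] at h2
    simp only [zero_add, one_mul, neg_zero, Real.exp_zero] at h2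
    linarith
  have e2 : ∫ x in Ioi b, wt x * SS A b x = (b / r + 1 / r ^ 2) * Real.exp (- b) := by
    have h1 : ∫ x in Ioi b, wt x * SS A b x
        = ∫ x in Ioi b, Real.exp (b * u) * (x * Real.exp (- r * x)) := by
      apply setIntegral_congr_fun measurableSet_Ioi
      intro x hx
      simp only
      rw [SS_of_gt hx]
      unfold wt
      have : Real.exp (- x) * Real.exp (-(x - b) / A)
          = Real.exp (b * u) * Real.exp (- r * x) := by
        rw [← Real.exp_add, ← Real.exp_add]
        congr 1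
        simp only [hr, hu]
        field_simp
        ring
      calc x * Real.exp (- x) * Real.exp (-(x - b) / A)
          = x * (Real.exp (- x) * Real.exp (-(x - b) / A)) := by ring
        _ = _ := by rw [this]; ring
    rw [h1, integral_const_mul, integral_weight hr0 hb0.le]
    have : Real.exp (b * u) * Real.exp (- r * b) = Real.exp (- b) := by
      rw [← Real.exp_add]; congr 1; simp only [hr]; ring
    calc Real.exp (b * u) * ((b / r + 1 / r ^ 2) * Real.exp (- r * b))
        = (b / r + 1 / r ^ 2) * (Real.exp (b * u) * Real.exp (- r * b)) := by ring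
      _ = _ := by rw [this]
  rw [e0, e1, e2]
  refine le_trans Jstar_le ?_
  -- the inequality
  set T := 1 + b + b ^ 2 / 2 + b ^ 3 / 6 with hT
  have hTe : T ≤ Real.exp b := cubic_le_exp hb0.le
  have hTpos : 0 < T := by positivity
  have hPoly := poly_ineq hb0.le hbA
  have hs : 7 / 3 - b = 1 + A := by simp only [hb]; ring
  have hA4 : 4 / 3 - b = A := by simp only [hb]; ring
  rw [hs, hA4, ← hT] at hPoly
  have hsp : 0 < 1 + A := by linarith
  have hr' : r = (1 + A) / A := by
    simp only [hr, hu]; field_simp; ring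
  have hR : (b + 1) - b / r - 1 / r ^ 2 ≤ 33 / 49 * T := by
    have e3 : (b + 1) - b / r - 1 / r ^ 2 = (7 / 3 * (1 + A) - A ^ 2) / (1 + A) ^ 2 := by
      rw [hr']
      have : b = 4 / 3 - A := rfl
      rw [this]
      field_simp
      ring
    rw [e3, div_le_iff₀ (by positivity)]
    linarith
  have hexpb : Real.exp (- b) * Real.exp b = 1 := by
    rw [← Real.exp_add]; simp
  have hexpb0 := Real.exp_pos (- b)
  have h5 : ((b + 1) - b / r - 1 / r ^ 2) * Real.exp (- b) ≤ 33 / 49 := by
    calc ((b + 1) - b / r - 1 / r ^ 2) * Real.exp (- b)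
        ≤ 33 / 49 * T * Real.exp (- b) := mul_le_mul_of_nonneg_right hR hexpb0.le
      _ ≤ 33 / 49 * Real.exp b * Real.exp (- b) := by
          apply mul_le_mul_of_nonneg_right _ hexpb0.le
          linarith
      _ = 33 / 49 := by rw [mul_assoc, mul_comm (Real.exp b), hexpb, mul_one]
  nlinarith

lemma J_A_ge {A : ℝ} (hA0 : 0 < A) :
    4 / 9 * Real.exp (-(1 / 3)) ≤ ∫ x in Ioi 0, wt x * SS A (4 / 3 - A) x := by
  rcases le_or_gt (4 / 3) A with h | h
  · exact J_A_large h
  · exact J_A_small hA0 h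


/-! ### the chord comparison -/

namespace Good

variable {Ξ : ℝ → ℝ} {c : ℝ} (h : Good Ξ c)
include h

/-- Chord comparison. -/
lemma chord_compare {p q κ : ℝ} (hp : 0 < p) (hpq : p < q) (hκ : 0 ≤ κ)
    (hw1 : ∀ x ∈ Icc p q, κ ≤ wt x) (hw2 : ∀ x, 0 < x → x ∉ Icc p q → wt x ≤ κ)
    (σ : ℝ) (hσ : σ = (GG Ξ q - GG Ξ p) / (q - p))
    (E : ℝ) (hE : E = GG Ξ p + σ * (c - p)) (hE0 : 0 < E) :
    (∫ x in Ioi 0, wt x * SS (1 / σ) (c - (1 / σ) * E) x) - κ * ((1 / σ) * (1 - E))
      ≤ ∫ x in Ioi 0, wt x * Ξ x := by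
  have hconv := h.G_convex
  have hd : 0 < q - p := sub_pos.2 hpq
  have hG : GG Ξ p < GG Ξ q := h.G_strict hpq
  have hσ0 : 0 < σ := by rw [hσ]; exact div_pos (sub_pos.2 hG) hd
  set A := 1 / σ with hAdef
  have hA : 0 < A := by positivity
  have hAσ : A * σ = 1 := by simp only [hAdef]; field_simp
  set b := c - A * E with hbdef
  have hb : b < c := by
    have : 0 < A * E := mul_pos hA hE0
    simp only [hbdef]; linarith
  -- the line
  have hline : ∀ x, (x - b) / A = GG Ξ p + (GG Ξ q - GG Ξ p) / (q - p) * (x - p) := by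
    intro x
    rw [← hσ]
    simp only [hbdef, hE]
    have hσinv : 1 / A = σ := by simp only [hAdef]; field_simp
    rw [div_eq_mul_one_div, hσinv]
    have : (x - (c - A * (GG Ξ p + σ * (c - p)))) * σ
        = σ * (x - c) + (A * σ) * (GG Ξ p + σ * (c - p)) := by ring
    rw [this, hAσ]
    ring
  have hexpS : ∀ x, b < x → SS A b x = Real.exp (- (GG Ξ p + (GG Ξ q - GG Ξ p) / (q - p) * (x - p))) := by
    intro x hx
    rw [SS_of_gt hx, ← hline x, neg_div]
  -- pointwise comparison
  have hin : ∀ x ∈ Icc p q, 0 ≤ Ξ x - SS A b x := by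
    intro x hx
    have h1 := chord_le hconv (mem_univ p) (mem_univ q) hpq hx
    have h2 : b < x := by
      have h3 := h.G_pos x
      have h4 : 0 < (x - b) / A := by rw [hline x]; linarith
      by_contra hcon
      push Not at hcon
      have : (x - b) / A ≤ 0 := div_nonpos_of_nonpos_of_nonneg (by linarith) hA.le
      linarith
    rw [hexpS x h2, ← h.exp_neg_G x]
    have := Real.exp_le_exp.2 (neg_le_neg h1)
    linarith
  have hout : ∀ x, x ∉ Icc p q → Ξ x - SS A b x ≤ 0 := by
    intro x hx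
    have hcases : x ≤ p ∨ q ≤ x := by
      by_contra hcon
      push Not at hcon
      exact hx ⟨hcon.1.le, hcon.2.le⟩
    have h1 : GG Ξ p + (GG Ξ q - GG Ξ p) / (q - p) * (x - p) ≤ GG Ξ x := by
      rcases hcases with hc | hc
      · exact chord_ge_left hconv (mem_univ p) (mem_univ q) (mem_univ x) hpq hc
      · exact chord_ge_right hconv (mem_univ p) (mem_univ q) (mem_univ x) hpq hc
    rcases le_or_gt x b with hxb | hxb
    · rw [SS_of_le hxb]
      have := h.lt_one x
      linarith
    · rw [hexpS x hxb, ← h.exp_neg_G x]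
      have := Real.exp_le_exp.2 (neg_le_neg h1)
      linarith
  have h1 : ∀ x, 0 < x → 0 ≤ (wt x - κ) * (Ξ x - SS A b x) := by
    intro x hx
    by_cases hmem : x ∈ Icc p q
    · exact mul_nonneg (sub_nonneg.2 (hw1 x hmem)) (hin x hmem)
    · exact mul_nonneg_of_nonpos_of_nonpos (sub_nonpos.2 (hw2 x hx hmem)) (hout x hmem)
  have h2 : ∀ x, x ≤ 0 → Ξ x - SS A b x ≤ 0 := by
    intro x hx
    apply hout
    intro hmem
    have := hmem.1
    linarith
  have := h.compare hA hb hκ h1 h2
  have e : A + b - c = A * (1 - E) := by simp only [hbdef]; ring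
  rw [e] at this
  exact this

end Good

end Crest.Agent.Lib.S0423A
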