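import Mathlib

/-!
Log-concavity is preserved by convolving with a one-sided exponential density.
Helper library for statement S0423.
-/

namespace Crest.Agent.Lib.S0423LogConc

open MeasureTheory Set Filter Topology

/-- Positive, bounded by one, continuous, log-concave. -/
structure LC (F : ℝ → ℝ) : Prop where
  pos : ∀ t, 0 < F t
  le_one : ∀ t, F t ≤ 1
  cont : Continuous F
  conc : ConcaveOn ℝ univ (fun t => Real.log (F t))

lemma concave_shift {φ : ℝ → ℝ} (hφ : ConcaveOn ℝ univ φ) {z x δ : ℝ} (hzx : z ≤ x) (hδ : 0 ≤ δ) :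
    φ (x + δ) + φ z ≤ φ x + φ (z + δ) := by
  rcases eq_or_lt_of_le (show z ≤ x + δ by linarith) with h | h
  · have hδ0 : δ = 0 := by linarith
    have hxz : x = z := by linarith
    subst hδ0; subst hxz; simp
  · set L := x + δ - z with hL
    have hLpos : 0 < L := by linarith
    have hθ0 : 0 ≤ (x - z) / L := div_nonneg (by linarith) hLpos.le
    have hθ1 : 0 ≤ δ / L := div_nonneg hδ hLpos.le
    have hsum : δ / L + (x - z) / L = 1 := by
      rw [← add_div, div_eq_one_iff_eq hLpos.ne']; simp only [hL]; ring
    have hsum' : (x - z) / L + δ / L = 1 := by linarith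
    have h1 := hφ.2 (mem_univ z) (mem_univ (x + δ)) hθ1 hθ0 hsum
    have h2 := hφ.2 (mem_univ z) (mem_univ (x + δ)) hθ0 hθ1 hsum'
    simp only [smul_eq_mul] at h1 h2
    have e1 : δ / L * z + (x - z) / L * (x + δ) = x := by
      field_simp; simp only [hL]; ring
    have e2 : (x - z) / L * z + δ / L * (x + δ) = z + δ := by
      field_simp; simp only [hL]; ring
    rw [e1] at h1; rw [e2] at h2
    have key : φ z + φ (x + δ) = (δ / L * φ z + (x - z) / L * φ (x + δ)) +
        ((x - z) / L * φ z + δ / L * φ (x + δ)) := by
      have : (δ / L * φ z + (x - z) / L * φ (x + δ)) + ((x - z) / L * φ z + δ / L * φ (x + δ)) =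
          (δ / L + (x - z) / L) * φ z + ((x - z) / L + δ / L) * φ (x + δ) := by ring
      rw [this, hsum, hsum']; ring
    linarith

/-- The exponential smoothing `G(t) = ∫_{u>0} F(t - a u) e^{-u} du`. -/
noncomputable def smooth (F : ℝ → ℝ) (a t : ℝ) : ℝ :=
  ∫ u in Ioi (0 : ℝ), F (t - a * u) * Real.exp (-u)

variable {F : ℝ → ℝ}

lemma LC.measurable (hF : LC F) : Measurable F := hF.cont.measurable

section pos

variable {a : ℝ} (hF : LC F) (ha : 0 < a)
include hF ha

omit ha in
/-- density `h z = F z e^{z/a}` -/
lemma h_cont : Continuous fun z => F z * Real.exp (a⁻¹ * z) := by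
  have := hF.cont
  fun_prop

lemma h_integrableOn (t : ℝ) : IntegrableOn (fun z => F z * Real.exp (a⁻¹ * z)) (Iic t) := by
  have hb : IntegrableOn (fun z => Real.exp (a⁻¹ * z)) (Iic t) :=
    integrableOn_exp_mul_Iic (inv_pos.mpr ha) t
  refine Integrable.mono' hb (h_cont hF).aestronglyMeasurable ?_
  refine Eventually.of_forall fun z => ?_
  rw [Real.norm_eq_abs, abs_of_pos (mul_pos (hF.pos z) (Real.exp_pos _))]
  exact mul_le_of_le_one_left (Real.exp_pos _).le (hF.le_one z)

lemma H_pos (t : ℝ) : 0 < ∫ z in Iic t, F z * Real.exp (a⁻¹ * z) := by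
  rw [setIntegral_pos_iff_support_of_nonneg_ae]
  · have hs : Function.support (fun z => F z * Real.exp (a⁻¹ * z)) = univ := by
      ext z; simp [(hF.pos z).ne', (Real.exp_pos _).ne']
    rw [hs, univ_inter]
    simp
  · refine Eventually.of_forall fun z => ?_
    exact (mul_pos (hF.pos z) (Real.exp_pos _)).le
  · exact h_integrableOn hF ha t

lemma H_hasDerivAt (t : ℝ) :
    HasDerivAt (fun t => ∫ z in Iic t, F z * Real.exp (a⁻¹ * z))
      (F t * Real.exp (a⁻¹ * t)) t := by
  have h1 : (fun t => ∫ z in Iic t, F z * Real.exp (a⁻¹ * z)) =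
      fun t => (∫ z in (0:ℝ)..t, F z * Real.exp (a⁻¹ * z)) +
        ∫ z in Iic (0:ℝ), F z * Real.exp (a⁻¹ * z) := by
    ext t
    rw [← intervalIntegral.integral_Iic_sub_Iic (h_integrableOn hF ha 0) (h_integrableOn hF ha t)]
    ring
  rw [h1]
  exact ((h_cont hF).integral_hasStrictDerivAt 0 t).hasDerivAt.add_const _

lemma smooth_eq (t : ℝ) :
    smooth F a t = a⁻¹ * Real.exp (-(a⁻¹ * t)) * ∫ z in Iic t, F z * Real.exp (a⁻¹ * z) := by
  unfold smooth
  have h1 : ∀ u : ℝ, F (t - a * u) * Real.exp (-u) =
      (fun v => F (t - v) * Real.exp (-(a⁻¹ * v))) (a * u) := by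
    intro u
    simp only
    rw [← mul_assoc, inv_mul_cancel₀ ha.ne', one_mul]
  simp_rw [h1]
  rw [integral_comp_mul_left_Ioi (fun v => F (t - v) * Real.exp (-(a⁻¹ * v))) 0 ha]
  rw [mul_zero, smul_eq_mul, mul_assoc]
  congr 1
  have h2 : (fun v : ℝ => F (t - v) * Real.exp (-(a⁻¹ * v))) = fun v =>
      (fun y => (fun z => Real.exp (-(a⁻¹ * t)) * (F z * Real.exp (a⁻¹ * z))) (t + y)) (-v) := by
    funext v
    simp only
    have : Real.exp (-(a⁻¹ * t)) * Real.exp (a⁻¹ * (t + -v)) = Real.exp (-(a⁻¹ * v)) := by
      rw [← Real.exp_add]; congr 1; ring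
    rw [show t + -v = t - v by ring] at this ⊢
    calc F (t - v) * Real.exp (-(a⁻¹ * v))
        = F (t - v) * (Real.exp (-(a⁻¹ * t)) * Real.exp (a⁻¹ * (t - v))) := by rw [this]
      _ = _ := by ring
  rw [h2, integral_comp_neg_Ioi 0 (fun y => (fun z => Real.exp (-(a⁻¹ * t)) *
    (F z * Real.exp (a⁻¹ * z))) (t + y)), neg_zero]
  have h3 := (measurePreserving_add_left (volume : Measure ℝ) t).setIntegral_preimage_emb
    (measurableEmbedding_addLeft t)
    (fun z => Real.exp (-(a⁻¹ * t)) * (F z * Real.exp (a⁻¹ * z))) (Iic t)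
  have h4 : (fun x => t + x) ⁻¹' Iic t = Iic (0:ℝ) := by
    ext x; simp
  rw [h4] at h3
  rw [h3, integral_const_mul]

lemma smooth_pos_case : LC (smooth F a) := by
  have hform := smooth_eq hF ha
  have hHp := H_pos hF ha
  have hHd := H_hasDerivAt hF ha
  have hHc : Continuous fun t => ∫ z in Iic t, F z * Real.exp (a⁻¹ * z) :=
    continuous_iff_continuousAt.mpr fun t => (hHd t).continuousAt
  have hainv : 0 < a⁻¹ := inv_pos.mpr ha
  refine ⟨fun t => ?_, fun t => ?_, ?_, ?_⟩
  · rw [hform]
    exact mul_pos (mul_pos hainv (Real.exp_pos _)) (hHp t)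
  · -- bound by one
    have h1 : smooth F a t ≤ ∫ u in Ioi (0:ℝ), Real.exp (-u) := by
      unfold smooth
      refine setIntegral_mono_on ?_ (integrableOn_exp_neg_Ioi 0) measurableSet_Ioi ?_
      · have hb := integrableOn_exp_neg_Ioi 0
        refine Integrable.mono' hb ?_ ?_
        · have := hF.cont
          exact (by fun_prop : Continuous fun u => F (t - a * u) * Real.exp (-u)).aestronglyMeasurable
        · refine Eventually.of_forall fun u => ?_
          rw [Real.norm_eq_abs, abs_of_pos (mul_pos (hF.pos _) (Real.exp_pos _))]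
          exact mul_le_of_le_one_left (Real.exp_pos _).le (hF.le_one _)
      · intro u _
        exact mul_le_of_le_one_left (Real.exp_pos _).le (hF.le_one _)
    rwa [integral_exp_neg_Ioi_zero] at h1
  · have : smooth F a = fun t => a⁻¹ * Real.exp (-(a⁻¹ * t)) *
        ∫ z in Iic t, F z * Real.exp (a⁻¹ * z) := funext hform
    rw [this]
    fun_prop
  · -- log-concavity
    have hlog : (fun t => Real.log (smooth F a t)) = fun t =>
        (Real.log a⁻¹ - a⁻¹ * t) + Real.log (∫ z in Iic t, F z * Real.exp (a⁻¹ * z)) := by
      ext t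
      rw [hform, Real.log_mul (mul_pos hainv (Real.exp_pos _)).ne' (hHp t).ne',
        Real.log_mul hainv.ne' (Real.exp_pos _).ne', Real.log_exp]
      ring
    rw [hlog]
    refine ConcaveOn.add ?_ ?_
    · -- affine part
      refine ⟨convex_univ, ?_⟩
      intro x _ y _ p q _ _ hpq
      simp only [smul_eq_mul]
      have : q = 1 - p := by linarith
      subst this
      apply le_of_eq; ring
    · -- log H concave
      have hldiff : ∀ t, HasDerivAt (fun t => Real.log (∫ z in Iic t, F z * Real.exp (a⁻¹ * z)))
          ((F t * Real.exp (a⁻¹ * t)) / ∫ z in Iic t, F z * Real.exp (a⁻¹ * z)) t :=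
        fun t => (hHd t).log (hHp t).ne'
      refine AntitoneOn.concaveOn_of_deriv convex_univ ?_ ?_ ?_
      · exact (continuous_iff_continuousAt.mpr fun t => (hldiff t).continuousAt).continuousOn
      · exact fun t _ => (hldiff t).differentiableAt.differentiableWithinAt
      · intro x _ y _ hxy
        rw [(hldiff x).deriv, (hldiff y).deriv]
        rw [div_le_div_iff₀ (hHp y) (hHp x)]
        set h : ℝ → ℝ := fun z => F z * Real.exp (a⁻¹ * z) with hh
        set δ := y - x with hδ
        have hδ0 : 0 ≤ δ := sub_nonneg.mpr hxy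
        -- translate H y
        have htr : (∫ z in Iic y, h z) = ∫ z in Iic x, h (δ + z) := by
          have h3 := (measurePreserving_add_left (volume : Measure ℝ) δ).setIntegral_preimage_emb
            (measurableEmbedding_addLeft δ) h (Iic y)
          have h4 : (fun z => δ + z) ⁻¹' Iic y = Iic x := by
            ext z; simp only [mem_preimage, mem_Iic, hδ]; constructor <;> intro hz <;> linarith
          rw [h4] at h3
          exact h3.symm
        rw [htr, ← integral_const_mul, mul_comm (h x), ← integral_mul_const]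
        have hpos : ∀ z, 0 < h z := fun z => mul_pos (hF.pos z) (Real.exp_pos _)
        have hlc : ConcaveOn ℝ univ (fun z => Real.log (h z)) := by
          have : (fun z => Real.log (h z)) = fun z => Real.log (F z) + a⁻¹ * z := by
            ext z
            simp only [hh]
            rw [Real.log_mul (hF.pos z).ne' (Real.exp_pos _).ne', Real.log_exp]
          rw [this]
          refine ConcaveOn.add hF.conc ?_
          refine ⟨convex_univ, ?_⟩
          intro p _ q _ r s _ _ hrs
          simp only [smul_eq_mul]
          have : s = 1 - r := by linarith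
          subst this
          apply le_of_eq; ring
        refine setIntegral_mono_on ?_ ?_ measurableSet_Iic ?_
        · exact (h_integrableOn hF ha x).const_mul _
        · have hcomp : IntegrableOn (fun z => h (δ + z)) (Iic x) := by
            have h3 := (measurePreserving_add_left (volume : Measure ℝ) δ).integrableOn_comp_preimage
              (measurableEmbedding_addLeft δ) (f := h) (s := Iic y)
            have h4 : (fun z => δ + z) ⁻¹' Iic y = Iic x := by
              ext z; simp only [mem_preimage, mem_Iic, hδ]; constructor <;> intro hz <;> linarith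
            rw [h4] at h3
            exact h3.mpr (h_integrableOn hF ha y)
          exact hcomp.mul_const _
        · intro z hz
          have hzx : z ≤ x := hz
          have hk := concave_shift hlc hzx hδ0
          have hyeq : x + δ = y := by simp only [hδ]; ring
          rw [hyeq] at hk
          have hzδ : z + δ = δ + z := add_comm _ _
          rw [hzδ] at hk
          rw [← Real.log_mul (hpos y).ne' (hpos z).ne',
            ← Real.log_mul (hpos x).ne' (hpos _).ne'] at hk
          have := (Real.log_le_log_iff (mul_pos (hpos y) (hpos z))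
            (mul_pos (hpos x) (hpos _))).mp hk
          nlinarith [this]

end pos

/-- Reflection. -/
lemma LC.reflect (hF : LC F) : LC (fun t => F (-t)) := by
  refine ⟨fun t => hF.pos _, fun t => hF.le_one _, ?_, ?_⟩
  · have := hF.cont
    fun_prop
  · refine ⟨convex_univ, ?_⟩
    intro x _ y _ p q hp hq hpq
    have := hF.conc.2 (mem_univ (-x)) (mem_univ (-y)) hp hq hpq
    simp only [smul_eq_mul] at this ⊢
    have e : p * -x + q * -y = -(p * x + q * y) := by ring
    rw [e] at this
    exact this

/-- Smoothing with any coefficient keeps the class `LC`. -/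
theorem LC.smooth (hF : LC F) (a : ℝ) : LC (smooth F a) := by
  rcases lt_trichotomy a 0 with ha | ha | ha
  · -- negative coefficient: reflect
    have h := smooth_pos_case hF.reflect (neg_pos.mpr ha)
    have e : Crest.Agent.Lib.S0423LogConc.smooth F a = fun t =>
        Crest.Agent.Lib.S0423LogConc.smooth (fun t => F (-t)) (-a) (-t) := by
      ext t
      unfold Crest.Agent.Lib.S0423LogConc.smooth
      congr 1
      ext u
      congr 2
      ring
    rw [e]
    exact h.reflect
  · -- zero coefficient
    subst ha
    have e : Crest.Agent.Lib.S0423LogConc.smooth F 0 = F := by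
      ext t
      unfold Crest.Agent.Lib.S0423LogConc.smooth
      simp only [zero_mul, sub_zero]
      rw [integral_const_mul, integral_exp_neg_Ioi_zero, mul_one]
    rw [e]
    exact hF
  · exact smooth_pos_case hF ha

end Crest.Agent.Lib.S0423LogConc
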