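import Mathlib
import Crest.Agent.Lib.S0423LogConc

/-!
The law of `∑ a_i X_i` for independent standard exponential variables: orthant integrals,
moments, tail function and its log-concavity.  Helper library for statement S0423.
-/

namespace Crest.Agent.Lib.S0423Law

open MeasureTheory ProbabilityTheory Set Filter Topology
open Crest.Agent.Lib.S0423LogConc

/-- The standard exponential law. -/
noncomputable def expLaw : Measure ℝ :=
  (volume.restrict (Ioi (0 : ℝ))).withDensity fun x => ENNReal.ofReal (Real.exp (-x))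

lemma expDensity_measurable : Measurable fun x : ℝ => ENNReal.ofReal (Real.exp (-x)) := by
  fun_prop

lemma expLaw_apply {s : Set ℝ} (hs : MeasurableSet s) :
    expLaw s = ENNReal.ofReal (∫ x in s ∩ Ioi 0, Real.exp (-x)) := by
  unfold expLaw
  rw [withDensity_apply _ hs, Measure.restrict_restrict hs,
    ofReal_integral_eq_lintegral_ofReal]
  · exact (integrableOn_exp_neg_Ioi 0).mono_set inter_subset_right
  · exact Eventually.of_forall fun x => (Real.exp_pos _).le

instance expLaw_isProb : IsProbabilityMeasure expLaw := by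
  constructor
  rw [expLaw_apply MeasurableSet.univ, univ_inter, integral_exp_neg_Ioi_zero]
  simp

lemma expLaw_integral (f : ℝ → ℝ) :
    ∫ x, f x ∂expLaw = ∫ x in Ioi (0 : ℝ), f x * Real.exp (-x) := by
  unfold expLaw
  rw [integral_withDensity_eq_integral_toReal_smul expDensity_measurable
    (Eventually.of_forall fun x => ENNReal.ofReal_lt_top)]
  refine integral_congr_ae (Eventually.of_forall fun x => ?_)
  simp only [smul_eq_mul]
  rw [ENNReal.toReal_ofReal (Real.exp_pos _).le]
  ring

lemma expLaw_Ioi_real {r : ℝ} (hr : 0 ≤ r) : expLaw.real (Ioi r) = Real.exp (-r) := by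
  unfold Measure.real
  rw [expLaw_apply measurableSet_Ioi]
  have : Ioi r ∩ Ioi (0:ℝ) = Ioi r := by
    ext x; simp only [mem_inter_iff, mem_Ioi]; constructor
    · exact fun h => h.1
    · exact fun h => ⟨h, lt_of_le_of_lt hr h⟩
  rw [this, integral_exp_neg_Ioi, ENNReal.toReal_ofReal (Real.exp_pos _).le]

lemma expLaw_Ioi_real_of_neg {r : ℝ} (hr : r ≤ 0) : expLaw.real (Ioi r) = 1 := by
  unfold Measure.real
  rw [expLaw_apply measurableSet_Ioi]
  have : Ioi r ∩ Ioi (0:ℝ) = Ioi 0 := by
    ext x; simp only [mem_inter_iff, mem_Ioi]; constructor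
    · exact fun h => h.2
    · exact fun h => ⟨lt_of_le_of_lt hr h, h⟩
  rw [this, integral_exp_neg_Ioi_zero]
  simp

lemma expLaw_eq_zero_iff {s : Set ℝ} (hs : MeasurableSet s) :
    expLaw s = 0 ↔ volume (s ∩ Ioi 0) = 0 := by
  unfold expLaw
  rw [withDensity_apply_eq_zero' expDensity_measurable.aemeasurable]
  have hne : {x : ℝ | ENNReal.ofReal (Real.exp (-x)) ≠ 0} = univ := by
    ext x
    simp [Real.exp_pos]
  rw [hne, univ_inter, Measure.restrict_apply hs]

/-- The box computation: density on the orthant gives the product of exponential laws. -/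
lemma pi_expLaw_eq (N : ℕ) :
    Measure.pi (fun _ : Fin N => expLaw) =
      ((volume : Measure (Fin N → ℝ)).restrict (Set.pi univ fun _ => Ioi (0 : ℝ))).withDensity
        fun x => ENNReal.ofReal (Real.exp (-∑ i, x i)) := by
  refine Measure.pi_eq fun s hs => ?_
  have hmeas : Measurable fun x : Fin N → ℝ => ENNReal.ofReal (Real.exp (-∑ i, x i)) := by
    fun_prop
  rw [withDensity_apply _ (MeasurableSet.univ_pi hs)]
  rw [volume_pi, Measure.restrict_pi_pi, Measure.restrict_pi_pi]
  -- turn into a real integral of a product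
  have hν' : ∀ i : Fin N, ((volume : Measure ℝ).restrict (Ioi 0)).restrict (s i) =
      (volume : Measure ℝ).restrict (s i ∩ Ioi 0) := fun i => Measure.restrict_restrict (hs i)
  simp_rw [hν']
  have h1 : ∀ x : Fin N → ℝ, Real.exp (-∑ i, x i) = ∏ i, Real.exp (-x i) := by
    intro x
    rw [← Real.exp_sum, Finset.sum_neg_distrib]
  have hint : Integrable (fun x : Fin N → ℝ => ∏ i, Real.exp (-x i))
      (Measure.pi fun i => (volume : Measure ℝ).restrict (s i ∩ Ioi 0)) := by
    refine Integrable.fintype_prod (f := fun _ u => Real.exp (-u)) fun i => ?_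
    exact (integrableOn_exp_neg_Ioi 0).mono_set inter_subset_right
  have h2 : (∫⁻ x, ENNReal.ofReal (Real.exp (-∑ i, x i))
      ∂Measure.pi fun i => (volume : Measure ℝ).restrict (s i ∩ Ioi 0)) =
      ENNReal.ofReal (∫ x, ∏ i, Real.exp (-x i)
        ∂Measure.pi fun i => (volume : Measure ℝ).restrict (s i ∩ Ioi 0)) := by
    rw [ofReal_integral_eq_lintegral_ofReal hint]
    · simp_rw [h1]
    · exact Eventually.of_forall fun x => Finset.prod_nonneg fun i _ => (Real.exp_pos _).le
  rw [h2, integral_fintype_prod_eq_prod (𝕜 := ℝ) (fun _ u => Real.exp (-u)),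
    ENNReal.ofReal_prod_of_nonneg]
  · refine Finset.prod_congr rfl fun i _ => ?_
    rw [expLaw_apply (hs i)]
  · exact fun i _ => integral_nonneg fun u => (Real.exp_pos _).le

/-- Orthant integrals against the density `exp (-∑ x_i)` are expectations under the product law. -/
lemma orthant_integral (N : ℕ) (F : (Fin N → ℝ) → ℝ) :
    ∫ x in Set.pi univ (fun _ : Fin N => Ioi (0 : ℝ)), F x * Real.exp (-∑ i, x i) =
      ∫ x, F x ∂Measure.pi (fun _ : Fin N => expLaw) := by
  rw [pi_expLaw_eq, integral_withDensity_eq_integral_toReal_smul (by fun_prop)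
    (Eventually.of_forall fun x => ENNReal.ofReal_lt_top)]
  refine integral_congr_ae (Eventually.of_forall fun x => ?_)
  simp only [smul_eq_mul]
  rw [ENNReal.toReal_ofReal (Real.exp_pos _).le]
  ring

/-! ### Moments -/

lemma expLaw_integrable_pow (k : ℕ) : Integrable (fun u : ℝ => u ^ k) expLaw := by
  have hm : Measurable fun u : ℝ => u ^ k := by fun_prop
  unfold expLaw
  rw [integrable_withDensity_iff_integrable_smul' expDensity_measurable
    (Eventually.of_forall fun x => ENNReal.ofReal_lt_top)]
  have h := Real.GammaIntegral_convergent (s := (k : ℝ) + 1) (by positivity)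
  refine (integrableOn_congr_fun (fun x hx => ?_) measurableSet_Ioi).mp h
  simp only [smul_eq_mul, add_sub_cancel_right, Real.rpow_natCast]
  rw [ENNReal.toReal_ofReal (Real.exp_pos _).le]

lemma expLaw_integral_pow (k : ℕ) : ∫ u, u ^ k ∂expLaw = (k.factorial : ℝ) := by
  rw [expLaw_integral]
  have h := Real.Gamma_nat_eq_factorial k
  rw [Real.Gamma_eq_integral (by positivity)] at h
  rw [← h]
  refine setIntegral_congr_fun measurableSet_Ioi fun x _ => ?_
  simp only [add_sub_cancel_right, Real.rpow_natCast]
  ring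

lemma expLaw_integrable_id : Integrable (fun u : ℝ => u) expLaw := by
  simpa using expLaw_integrable_pow 1

lemma expLaw_mean : ∫ u, u ∂expLaw = 1 := by
  simpa using expLaw_integral_pow 1

lemma expLaw_second : ∫ u, u ^ 2 ∂expLaw = 2 := by
  simpa using expLaw_integral_pow 2

lemma expLaw_memLp_two : MemLp (fun u : ℝ => u) 2 expLaw := by
  rw [memLp_two_iff_integrable_sq measurable_id'.aestronglyMeasurable]
  exact expLaw_integrable_pow 2

variable {N : ℕ}

/-- The product law on `Fin N → ℝ`. -/
noncomputable abbrev P (N : ℕ) : Measure (Fin N → ℝ) := Measure.pi fun _ : Fin N => expLaw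

lemma P_coord_integrable (i : Fin N) : Integrable (fun x : Fin N → ℝ => x i) (P N) :=
  (measurePreserving_eval (fun _ : Fin N => expLaw) i).integrable_comp_of_integrable
    expLaw_integrable_id

lemma P_eval_integral (i : Fin N) {f : ℝ → ℝ} (hf : AEStronglyMeasurable f expLaw) :
    ∫ x, f (x i) ∂(P N) = ∫ u, f u ∂expLaw := by
  have h := (measurePreserving_eval (fun _ : Fin N => expLaw) i).map_eq
  have hf' : AEStronglyMeasurable f ((P N).map (Function.eval i)) := by rw [h]; exact hf
  have := integral_map (μ := P N) (measurable_pi_apply i).aemeasurable hf'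
  rw [h] at this
  exact this.symm

lemma P_coord_mean (i : Fin N) : ∫ x, x i ∂(P N) = 1 := by
  rw [P_eval_integral i (f := fun u => u) measurable_id'.aestronglyMeasurable]
  exact expLaw_mean

/-- The linear form. -/
def wsum (a x : Fin N → ℝ) : ℝ := ∑ i, a i * x i

lemma measurable_wsum (a : Fin N → ℝ) : Measurable (wsum a) := by
  unfold wsum; fun_prop

/-- The law of `∑ a_i X_i`. -/
noncomputable def law (a : Fin N → ℝ) : Measure ℝ := (P N).map (wsum a)

instance law_isProb (a : Fin N → ℝ) : IsProbabilityMeasure (law a) :=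
  Measure.isProbabilityMeasure_map (measurable_wsum a).aemeasurable

lemma wsum_integrable (a : Fin N → ℝ) : Integrable (wsum a) (P N) := by
  unfold wsum
  exact integrable_finsetSum _ fun i _ => (P_coord_integrable i).const_mul _

lemma law_integral (a : Fin N → ℝ) {f : ℝ → ℝ} (hf : AEStronglyMeasurable f (law a)) :
    ∫ w, f w ∂(law a) = ∫ x, f (wsum a x) ∂(P N) :=
  integral_map (measurable_wsum a).aemeasurable hf

lemma law_integrable_id (a : Fin N → ℝ) : Integrable (fun w : ℝ => w) (law a) := by
  unfold law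
  rw [integrable_map_measure measurable_id'.aestronglyMeasurable (measurable_wsum a).aemeasurable]
  exact wsum_integrable a

lemma law_mean (a : Fin N → ℝ) : ∫ w, w ∂(law a) = ∑ i, a i := by
  rw [law_integral a (f := fun w => w) measurable_id'.aestronglyMeasurable]
  unfold wsum
  rw [integral_finsetSum _ fun i _ => (P_coord_integrable i).const_mul _]
  refine Finset.sum_congr rfl fun i _ => ?_
  rw [integral_const_mul, P_coord_mean, mul_one]

/-- Tail function of a partial sum. -/
noncomputable def tail (a : Fin N → ℝ) (s : Finset (Fin N)) (t : ℝ) : ℝ :=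
  (P N).real {x | t < ∑ i ∈ s, a i * x i}

lemma measurable_partial (a : Fin N → ℝ) (s : Finset (Fin N)) :
    Measurable fun x : Fin N → ℝ => ∑ i ∈ s, a i * x i := by
  fun_prop

lemma tail_antitone (a : Fin N → ℝ) (s : Finset (Fin N)) : Antitone (tail a s) := by
  intro t t' htt'
  unfold tail
  refine measureReal_mono (fun x hx => ?_) (measure_ne_top _ _)
  exact lt_of_le_of_lt htt' hx

lemma indep_partial (a : Fin N → ℝ) (s : Finset (Fin N)) {j : Fin N} (hj : j ∉ s) :
    IndepFun (fun x : Fin N → ℝ => ∑ i ∈ s, a i * x i) (fun x : Fin N → ℝ => x j) (P N) := by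
  have h0 : iIndepFun (fun (i : Fin N) (ω : Fin N → ℝ) => ω i) (P N) :=
    iIndepFun_pi (X := fun _ u => u) (fun _ => aemeasurable_id)
  let g : Fin N → ℝ → ℝ := fun i u => if i = j then u else a i * u
  have hg : ∀ i, Measurable (g i) := by
    intro i
    by_cases h : i = j
    · simp only [g, h, if_true]; exact measurable_id
    · simp only [g, h, if_false]; fun_prop
  have h1 : iIndepFun (fun i => g i ∘ fun ω : Fin N → ℝ => ω i) (P N) := h0.comp g hg
  have hm : ∀ i, Measurable (g i ∘ fun ω : Fin N → ℝ => ω i) := fun i =>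
    (hg i).comp (measurable_pi_apply i)
  have h2 := h1.indepFun_finsetSum_of_notMem hm hj
  have e1 : (∑ i ∈ s, g i ∘ fun ω : Fin N → ℝ => ω i) =
      fun x : Fin N → ℝ => ∑ i ∈ s, a i * x i := by
    funext x
    rw [Finset.sum_apply]
    refine Finset.sum_congr rfl fun i hi => ?_
    have : i ≠ j := fun h => hj (h ▸ hi)
    simp [g, this]
  have e2 : (g j ∘ fun ω : Fin N → ℝ => ω j) = fun x : Fin N → ℝ => x j := by
    funext x
    simp [g]
  rwa [e1, e2] at h2

lemma tail_insert (a : Fin N → ℝ) (s : Finset (Fin N)) {j : Fin N} (hj : j ∉ s) (t : ℝ) :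
    tail a (insert j s) t = smooth (tail a s) (a j) t := by
  set W : (Fin N → ℝ) → ℝ := fun x => ∑ i ∈ s, a i * x i with hW
  have hWm : Measurable W := measurable_partial a s
  have hindep := indep_partial a s hj
  have hjm : Measurable fun x : Fin N → ℝ => x j := measurable_pi_apply j
  have hprod := (indepFun_iff_map_prod_eq_prod_map_map hWm.aemeasurable hjm.aemeasurable).mp hindep
  have hmapj : (P N).map (fun x : Fin N → ℝ => x j) = expLaw :=
    (measurePreserving_eval (fun _ : Fin N => expLaw) j).map_eq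
  rw [hmapj] at hprod
  set S : Set (ℝ × ℝ) := {q | t < q.1 + a j * q.2} with hS
  have hSm : MeasurableSet S := measurableSet_lt measurable_const (by fun_prop)
  have hset : {x : Fin N → ℝ | t < ∑ i ∈ insert j s, a i * x i} =
      (fun x : Fin N → ℝ => (W x, x j)) ⁻¹' S := by
    ext x
    simp only [mem_ofPred_eq, mem_preimage, hS, hW, Finset.sum_insert hj]
    rw [add_comm]
  have hpm : Measurable fun x : Fin N → ℝ => (W x, x j) := hWm.prodMk hjm
  have h1 : (P N) {x | t < ∑ i ∈ insert j s, a i * x i} =
      (((P N).map W).prod expLaw) S := by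
    rw [hset, ← hprod, Measure.map_apply hpm hSm]
  have h2 : (((P N).map W).prod expLaw) S =
      ∫⁻ u, ENNReal.ofReal (tail a s (t - a j * u)) ∂expLaw := by
    rw [Measure.prod_apply_symm hSm]
    refine lintegral_congr fun u => ?_
    have hsec : (fun w => (w, u)) ⁻¹' S = {w | t - a j * u < w} := by
      ext w
      simp only [mem_preimage, hS, mem_ofPred_eq]
      constructor <;> intro h <;> linarith
    rw [hsec, show {w | t - a j * u < w} = Ioi (t - a j * u) from rfl,
      Measure.map_apply hWm measurableSet_Ioi]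
    unfold tail
    rw [ofReal_measureReal]
    rfl
  have hmF : Measurable fun u => tail a s (t - a j * u) :=
    (tail_antitone a s).measurable.comp (by fun_prop)
  unfold smooth
  rw [← expLaw_integral]
  have h3 : ∫ u, tail a s (t - a j * u) ∂expLaw =
      (∫⁻ u, ENNReal.ofReal (tail a s (t - a j * u)) ∂expLaw).toReal :=
    integral_eq_lintegral_of_nonneg_ae
      (Eventually.of_forall fun u => (measureReal_nonneg : (0:ℝ) ≤ (P N).real _))
      hmF.aestronglyMeasurable
  rw [h3, ← h2, ← h1]
  rfl

/-- The base case: one positive coefficient. -/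
lemma tail_singleton_eq (a : Fin N → ℝ) {i₀ : Fin N} (h : 0 < a i₀) (t : ℝ) :
    tail a {i₀} t = Real.exp (-max (t / a i₀) 0) := by
  unfold tail
  simp only [Finset.sum_singleton]
  have hset : {x : Fin N → ℝ | t < a i₀ * x i₀} = (fun x : Fin N → ℝ => x i₀) ⁻¹' Ioi (t / a i₀) := by
    ext x
    simp only [mem_ofPred_eq, mem_preimage, mem_Ioi]
    rw [div_lt_iff₀ h, mul_comm]
  have hmp := measurePreserving_eval (fun _ : Fin N => expLaw) i₀
  have hm : (P N).real {x : Fin N → ℝ | t < a i₀ * x i₀} = expLaw.real (Ioi (t / a i₀)) := by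
    rw [hset]
    unfold Measure.real
    rw [show (P N) ((fun x : Fin N → ℝ => x i₀) ⁻¹' Ioi (t / a i₀)) = expLaw (Ioi (t / a i₀)) from
      hmp.measure_preimage measurableSet_Ioi.nullMeasurableSet]
  rw [hm]
  rcases le_total (t / a i₀) 0 with h0 | h0
  · rw [expLaw_Ioi_real_of_neg h0, max_eq_right h0, neg_zero, Real.exp_zero]
  · rw [expLaw_Ioi_real h0, max_eq_left h0]

lemma tail_singleton_LC (a : Fin N → ℝ) {i₀ : Fin N} (h : 0 < a i₀) : LC (tail a {i₀}) := by
  have e : tail a {i₀} = fun t => Real.exp (-max (t / a i₀) 0) :=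
    funext (tail_singleton_eq a h)
  rw [e]
  refine ⟨fun t => Real.exp_pos _, fun t => ?_, ?_, ?_⟩
  · rw [Real.exp_le_one_iff]
    simp
  · fun_prop
  · simp only [Real.log_exp]
    have hc : ConvexOn ℝ univ (fun t : ℝ => max (t / a i₀) 0) := by
      refine ConvexOn.sup ?_ (convexOn_const 0 convex_univ)
      refine ⟨convex_univ, ?_⟩
      intro x _ y _ p q _ _ _
      simp only [smul_eq_mul]
      apply le_of_eq
      ring
    exact hc.neg

lemma tail_insert_LC (a : Fin N → ℝ) {i₀ : Fin N} (h : 0 < a i₀) (s : Finset (Fin N)) :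
    i₀ ∉ s → LC (tail a (insert i₀ s)) := by
  induction s using Finset.induction_on with
  | empty =>
    intro _
    simpa using tail_singleton_LC a h
  | insert j s hj ih =>
    intro hi
    have hi' : i₀ ∉ s := fun hh => hi (Finset.mem_insert_of_mem hh)
    have hne : i₀ ≠ j := fun hh => hi (hh ▸ Finset.mem_insert_self _ _)
    have hLC := ih hi'
    rw [Finset.insert_comm]
    have hj' : j ∉ insert i₀ s := by
      simp only [Finset.mem_insert, not_or]
      exact ⟨fun hh => hne hh.symm, hj⟩
    have e : tail a (insert j (insert i₀ s)) = smooth (tail a (insert i₀ s)) (a j) :=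
      funext (tail_insert a (insert i₀ s) hj')
    rw [e]
    exact hLC.smooth (a j)

theorem tail_univ_LC (a : Fin N → ℝ) {i₀ : Fin N} (h : 0 < a i₀) : LC (tail a Finset.univ) := by
  have := tail_insert_LC a h (Finset.univ.erase i₀) (Finset.notMem_erase _ _)
  rwa [Finset.insert_erase (Finset.mem_univ _)] at this

lemma law_real_Ioi (a : Fin N → ℝ) (t : ℝ) : (law a).real (Ioi t) = tail a Finset.univ t := by
  unfold law tail Measure.real
  rw [Measure.map_apply (measurable_wsum a) measurableSet_Ioi]
  rfl

/-- All hypotheses of the abstract theorem about the law, when one coefficient is positive. -/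
theorem law_pos (a : Fin N → ℝ) {i₀ : Fin N} (h : 0 < a i₀) (t : ℝ) :
    0 < (law a).real (Ioi t) := by
  rw [law_real_Ioi]; exact (tail_univ_LC a h).pos t

theorem law_cont (a : Fin N → ℝ) {i₀ : Fin N} (h : 0 < a i₀) :
    Continuous fun t => (law a).real (Ioi t) := by
  simp_rw [law_real_Ioi]; exact (tail_univ_LC a h).cont

theorem law_conc (a : Fin N → ℝ) {i₀ : Fin N} (h : 0 < a i₀) :
    ConcaveOn ℝ univ fun t => Real.log ((law a).real (Ioi t)) := by
  simp_rw [law_real_Ioi]; exact (tail_univ_LC a h).conc

/-- If some coefficient is negative, the tail is strictly below one. -/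
theorem law_lt_one (a : Fin N → ℝ) {j : Fin N} (h : a j < 0) (t : ℝ) :
    (law a).real (Ioi t) < 1 := by
  rw [law_real_Ioi]
  unfold tail
  set K : ℝ := max 0 ((∑ i, |a i| - t) / |a j|) with hK
  have hK0 : 0 ≤ K := le_max_left _ _
  have hajpos : 0 < |a j| := abs_pos.mpr h.ne
  have hKbd : ∑ i, |a i| - t ≤ K * |a j| := by
    have : (∑ i, |a i| - t) / |a j| ≤ K := le_max_right _ _
    exact (div_le_iff₀ hajpos).mp this
  -- the box
  let I : Fin N → Set ℝ := fun i => if i = j then Ioi K else Ioo 0 1
  have hI : ∀ i, MeasurableSet (I i) := by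
    intro i
    by_cases hi : i = j
    · simp only [I, hi, if_true]; exact measurableSet_Ioi
    · simp only [I, hi, if_false]; exact measurableSet_Ioo
  have hIpos : ∀ i, expLaw (I i) ≠ 0 := by
    intro i
    rw [Ne, expLaw_eq_zero_iff (hI i)]
    by_cases hi : i = j
    · simp only [I, hi, if_true]
      have : Ioi K ∩ Ioi (0:ℝ) = Ioi K := by
        ext x; simp only [mem_inter_iff, mem_Ioi]
        exact ⟨fun hh => hh.1, fun hh => ⟨hh, lt_of_le_of_lt hK0 hh⟩⟩
      rw [this]
      simp
    · simp only [I, hi, if_false]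
      have : Ioo (0:ℝ) 1 ∩ Ioi 0 = Ioo 0 1 := by
        ext x; simp only [mem_inter_iff, mem_Ioo, mem_Ioi]
        exact ⟨fun hh => hh.1, fun hh => ⟨hh, hh.1⟩⟩
      rw [this]
      simp
  have hboxpos : (P N) (Set.pi univ I) ≠ 0 := by
    rw [Measure.pi_pi]
    exact Finset.prod_ne_zero_iff.mpr fun i _ => hIpos i
  have hboxsub : Set.pi univ I ⊆ {x : Fin N → ℝ | t < ∑ i ∈ Finset.univ, a i * x i}ᶜ := by
    intro x hx
    simp only [mem_compl_iff, mem_ofPred_eq, not_lt]
    have hxj : K < x j := by
      have := hx j (mem_univ j)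
      simpa [I] using this
    have hbd : ∀ i ∈ Finset.univ.erase j, a i * x i ≤ |a i| := by
      intro i hi
      have hij : i ≠ j := Finset.ne_of_mem_erase hi
      have hxi : x i ∈ Ioo (0:ℝ) 1 := by
        have := hx i (mem_univ i)
        simpa [I, hij] using this
      calc a i * x i ≤ |a i * x i| := le_abs_self _
        _ = |a i| * |x i| := abs_mul _ _
        _ ≤ |a i| * 1 := by
            refine mul_le_mul_of_nonneg_left ?_ (abs_nonneg _)
            rw [abs_of_pos hxi.1]; exact hxi.2.le
        _ = |a i| := mul_one _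
    have hsum : ∑ i, a i * x i = a j * x j + ∑ i ∈ Finset.univ.erase j, a i * x i := by
      exact (Finset.add_sum_erase Finset.univ (fun i => a i * x i) (Finset.mem_univ j)).symm
    have hsum2 : ∑ i, |a i| = |a j| + ∑ i ∈ Finset.univ.erase j, |a i| :=
      (Finset.add_sum_erase Finset.univ (fun i => |a i|) (Finset.mem_univ j)).symm
    have h3 : ∑ i ∈ Finset.univ.erase j, a i * x i ≤ ∑ i ∈ Finset.univ.erase j, |a i| :=
      Finset.sum_le_sum hbd
    have h4 : a j * x j ≤ a j * K := mul_le_mul_of_nonpos_left hxj.le h.le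
    have h5 : a j = -|a j| := by rw [abs_of_neg h]; ring
    have h6 : a j * K = -(K * |a j|) := by rw [h5]; simp only [abs_neg, abs_abs]; ring
    rw [hsum]
    nlinarith [abs_nonneg (a j)]
  have hmeasS : MeasurableSet {x : Fin N → ℝ | t < ∑ i ∈ Finset.univ, a i * x i} :=
    measurableSet_lt measurable_const (measurable_partial a _)
  have hcompl : (P N) {x : Fin N → ℝ | t < ∑ i ∈ Finset.univ, a i * x i}ᶜ ≠ 0 := by
    intro h0
    exact hboxpos (measure_mono_null hboxsub h0)
  have hreal : (P N).real {x : Fin N → ℝ | t < ∑ i ∈ Finset.univ, a i * x i}ᶜ ≠ 0 := by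
    unfold Measure.real
    rw [ENNReal.toReal_ne_zero]
    exact ⟨hcompl, measure_ne_top _ _⟩
  have hadd := probReal_add_probReal_compl (μ := P N) hmeasS
  have hnn : 0 ≤ (P N).real {x : Fin N → ℝ | t < ∑ i ∈ Finset.univ, a i * x i}ᶜ :=
    measureReal_nonneg
  have hlt : 0 < (P N).real {x : Fin N → ℝ | t < ∑ i ∈ Finset.univ, a i * x i}ᶜ :=
    lt_of_le_of_ne hnn (Ne.symm hreal)
  linarith

end Crest.Agent.Lib.S0423Law
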