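import Mathlib
import Crest.Prelude.Def_TruncExpWeight
import Crest.Agent.Lib.S0423Law

/-!
The approach half of S0423: with `a = (2, -2/M, …, -2/M)` the expectation tends to the extremal
value (law of large numbers via a second moment computation).
-/

namespace Crest.Agent.Lib.S0423Approach

open MeasureTheory ProbabilityTheory Set Filter Topology
open Crest.Agent.Lib.S0423Law
open Crest.AlgGeometry

/-- `(1 + y) e^{-y}`. -/
noncomputable def kk (y : ℝ) : ℝ := (1 + y) * Real.exp (-y)

lemma truncExpWeight_eq (y : ℝ) : truncExpWeight y = kk (max y 0) := by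
  unfold truncExpWeight kk
  by_cases h : y ≤ 0
  · rw [if_pos h, max_eq_right h]; simp
  · rw [if_neg h, max_eq_left (not_le.mp h).le]

lemma kk_hasDerivAt (y : ℝ) : HasDerivAt kk (-(y * Real.exp (-y))) y := by
  unfold kk
  have h1 : HasDerivAt (fun y : ℝ => 1 + y) 1 y := (hasDerivAt_id y).const_add 1
  have h2 : HasDerivAt (fun y : ℝ => Real.exp (-y)) (Real.exp (-y) * (-1)) y :=
    (hasDerivAt_neg y).exp
  have h := h1.mul h2
  have e : 1 * Real.exp (-y) + (1 + y) * (Real.exp (-y) * -1) = -(y * Real.exp (-y)) := by ring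
  rw [e] at h
  exact h

lemma kk_continuous : Continuous kk := by
  unfold kk; fun_prop

lemma kk_lipschitz {u v : ℝ} (hu : 0 ≤ u) (hv : 0 ≤ v) : |kk u - kk v| ≤ |u - v| := by
  have hbound : ∀ x ∈ Ici (0:ℝ), ‖-(x * Real.exp (-x))‖ ≤ 1 := by
    intro x hx
    have hx0 : (0:ℝ) ≤ x := hx
    rw [norm_neg, Real.norm_eq_abs, abs_of_nonneg (mul_nonneg hx0 (Real.exp_pos _).le)]
    have h1 : x + 1 ≤ Real.exp x := Real.add_one_le_exp x
    have h2 : Real.exp (-x) * Real.exp x = 1 := by
      rw [← Real.exp_add]; simp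
    have h3 : x ≤ Real.exp x := by linarith
    calc x * Real.exp (-x) ≤ Real.exp x * Real.exp (-x) :=
          mul_le_mul_of_nonneg_right h3 (Real.exp_pos _).le
      _ = 1 := by rw [mul_comm]; exact h2
  have := Convex.norm_image_sub_le_of_norm_hasDerivWithin_le
    (f := kk) (f' := fun x => -(x * Real.exp (-x))) (C := 1) (s := Ici (0:ℝ)) (x := v) (y := u)
    (fun x _ => (kk_hasDerivAt x).hasDerivWithinAt) hbound (convex_Ici 0) hv hu
  simpa [Real.norm_eq_abs] using this

lemma truncExpWeight_lipschitz (u v : ℝ) :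
    |truncExpWeight u - truncExpWeight v| ≤ |u - v| := by
  rw [truncExpWeight_eq, truncExpWeight_eq]
  exact (kk_lipschitz (le_max_right _ _) (le_max_right _ _)).trans (abs_max_sub_max_le_abs _ _ _)

lemma truncExpWeight_continuous : Continuous truncExpWeight := by
  have : truncExpWeight = fun y => kk (max y 0) := funext truncExpWeight_eq
  rw [this]
  exact kk_continuous.comp (continuous_id.max continuous_const)

lemma truncExpWeight_nonneg (y : ℝ) : 0 ≤ truncExpWeight y := by
  rw [truncExpWeight_eq]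
  unfold kk
  have : 0 ≤ max y 0 := le_max_right _ _
  exact mul_nonneg (by linarith) (Real.exp_pos _).le

lemma truncExpWeight_le_one (y : ℝ) : truncExpWeight y ≤ 1 := by
  rw [truncExpWeight_eq]
  unfold kk
  set z := max y 0
  have h1 : z + 1 ≤ Real.exp z := Real.add_one_le_exp z
  have h2 : Real.exp (-z) * Real.exp z = 1 := by
    rw [← Real.exp_add]; simp
  calc (1 + z) * Real.exp (-z) ≤ Real.exp z * Real.exp (-z) :=
        mul_le_mul_of_nonneg_right (by linarith) (Real.exp_pos _).le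
    _ = 1 := by rw [mul_comm]; exact h2

/-- A bounded continuous weight composed with a measurable map is integrable for a
probability measure. -/
lemma integrable_truncExpWeight_comp {Ω : Type*} {mΩ : MeasurableSpace Ω} (μ : Measure Ω)
    [IsProbabilityMeasure μ] {f : Ω → ℝ} (hf : Measurable f) :
    Integrable (fun ω => truncExpWeight (f ω)) μ := by
  refine Integrable.of_bound (truncExpWeight_continuous.measurable.comp hf).aestronglyMeasurable 1 ?_
  refine Eventually.of_forall fun ω => ?_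
  rw [Real.norm_eq_abs, abs_of_nonneg (truncExpWeight_nonneg _)]
  exact truncExpWeight_le_one _

/-! ### The one-dimensional value -/

lemma value_first : ∫ u in Ioc (0:ℝ) (1/3), Real.exp (-u) = 1 - Real.exp (-(1/3)) := by
  have h : ∫ u in (0:ℝ)..(1/3), Real.exp (-u) = (-Real.exp (-(1/3))) - (-Real.exp (-0)) := by
    refine intervalIntegral.integral_eq_sub_of_hasDerivAt (f := fun u => -Real.exp (-u)) ?_ ?_
    · intro x _
      have h2 : HasDerivAt (fun y : ℝ => Real.exp (-y)) (Real.exp (-x) * (-1)) x :=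
        (hasDerivAt_neg x).exp
      have h3 := h2.neg
      have e : -(Real.exp (-x) * -1) = Real.exp (-x) := by ring
      rw [e] at h3
      exact h3
    · exact (by fun_prop : Continuous fun u : ℝ => Real.exp (-u)).intervalIntegrable _ _
  rw [intervalIntegral.integral_of_le (by norm_num)] at h
  rw [h]
  simp
  ring

lemma value_F_integrable :
    IntegrableOn (fun u => truncExpWeight (2 * u - 2 / 3) * Real.exp (-u)) (Ioi 0) := by
  have hb := integrableOn_exp_neg_Ioi 0
  refine Integrable.mono' hb ?_ ?_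
  · have := truncExpWeight_continuous
    exact (by fun_prop : Continuous fun u =>
      truncExpWeight (2 * u - 2 / 3) * Real.exp (-u)).aestronglyMeasurable
  · refine Eventually.of_forall fun u => ?_
    rw [Real.norm_eq_abs, abs_of_nonneg (mul_nonneg (truncExpWeight_nonneg _) (Real.exp_pos _).le)]
    exact mul_le_of_le_one_left (Real.exp_pos _).le (truncExpWeight_le_one _)

lemma value_second :
    ∫ u in Ioi ((1:ℝ)/3), truncExpWeight (2 * u - 2 / 3) * Real.exp (-u) =
      5 / 9 * Real.exp (-(1/3)) := by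
  set f : ℝ → ℝ := fun u => -(Real.exp (2 / 3 - 3 * u) * (1 / 3 + 2 / 3 * u)) with hf
  have hform : ∀ u ∈ Ioi ((1:ℝ)/3), truncExpWeight (2 * u - 2 / 3) * Real.exp (-u) =
      Real.exp (2 / 3 - 3 * u) * (1 / 3 + 2 * u) := by
    intro u hu
    have hu' : (1:ℝ)/3 < u := hu
    unfold truncExpWeight
    rw [if_neg (by linarith)]
    have e : Real.exp (2 / 3 - 3 * u) = Real.exp (-(2 * u - 2 / 3)) * Real.exp (-u) := by
      rw [← Real.exp_add]; congr 1; ring
    rw [e]
    ring
  rw [setIntegral_congr_fun measurableSet_Ioi hform]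
  have hderiv : ∀ x ∈ Ioi ((1:ℝ)/3), HasDerivAt f (Real.exp (2 / 3 - 3 * x) * (1 / 3 + 2 * x)) x := by
    intro x _
    have h1 : HasDerivAt (fun u : ℝ => Real.exp (2 / 3 - 3 * u))
        (Real.exp (2 / 3 - 3 * x) * (-(3 * 1))) x :=
      ((hasDerivAt_id' x).const_mul 3 |>.const_sub (2/3)).exp
    have h2 : HasDerivAt (fun u : ℝ => 1 / 3 + 2 / 3 * u) (0 + 2 / 3 * 1) x :=
      ((hasDerivAt_id x).const_mul (2/3)).const_add (1/3) |>.congr_deriv (by simp)
    have h3 := (h1.mul h2).neg
    have e : -(Real.exp (2 / 3 - 3 * x) * (-(3 * 1)) * (1 / 3 + 2 / 3 * x) +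
        Real.exp (2 / 3 - 3 * x) * (0 + 2 / 3 * 1)) =
        Real.exp (2 / 3 - 3 * x) * (1 / 3 + 2 * x) := by ring
    rw [e] at h3
    exact h3
  have hint : IntegrableOn (fun x => Real.exp (2 / 3 - 3 * x) * (1 / 3 + 2 * x)) (Ioi ((1:ℝ)/3)) := by
    have h0 : IntegrableOn (fun u => truncExpWeight (2 * u - 2 / 3) * Real.exp (-u)) (Ioi ((1:ℝ)/3)) :=
      value_F_integrable.mono_set (Ioi_subset_Ioi (by norm_num))
    exact (integrableOn_congr_fun hform measurableSet_Ioi).mp h0
  have htend : Tendsto f atTop (𝓝 0) := by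
    have hb : Tendsto (fun u : ℝ => Real.exp (2/3) * Real.exp (-u)) atTop (𝓝 (Real.exp (2/3) * 0)) :=
      (Real.tendsto_exp_atBot.comp tendsto_neg_atTop_atBot).const_mul _
    rw [mul_zero] at hb
    refine squeeze_zero_norm' ?_ hb
    filter_upwards [eventually_ge_atTop (0:ℝ)] with u hu
    rw [hf, norm_neg, Real.norm_eq_abs, abs_of_nonneg
      (mul_nonneg (Real.exp_pos _).le (by positivity))]
    have h1 : 1 / 3 + 2 / 3 * u ≤ Real.exp (2 * u) := by
      have := Real.add_one_le_exp (2 * u)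
      linarith
    have e : Real.exp (2 / 3) * Real.exp (-u) = Real.exp (2 / 3 - 3 * u) * Real.exp (2 * u) := by
      rw [← Real.exp_add, ← Real.exp_add]; congr 1; ring
    rw [e]
    exact mul_le_mul_of_nonneg_left h1 (Real.exp_pos _).le
  have hcont : ContinuousWithinAt f (Ici ((1:ℝ)/3)) (1/3) := by
    have : Continuous f := by rw [hf]; fun_prop
    exact this.continuousWithinAt
  rw [integral_Ioi_of_hasDerivAt_of_tendsto hcont hderiv hint htend]
  simp only [hf]
  have e : Real.exp (2 / 3 - 3 * (1 / 3)) = Real.exp (-(1/3)) := by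
    congr 1; ring
  rw [e]
  ring

/-- The extremal value. -/
lemma value_eq :
    ∫ u, truncExpWeight (2 * u - 2 / 3) ∂expLaw = 1 - 4 / 9 * Real.exp (-(1/3)) := by
  rw [expLaw_integral]
  have hU : Ioi (0:ℝ) = Ioc 0 (1/3) ∪ Ioi (1/3) := (Ioc_union_Ioi_eq_Ioi (by norm_num)).symm
  have hdisj : Disjoint (Ioc (0:ℝ) (1/3)) (Ioi (1/3)) := Ioc_disjoint_Ioi le_rfl
  rw [hU, setIntegral_union hdisj measurableSet_Ioi
    (value_F_integrable.mono_set (by rw [hU]; exact subset_union_left))
    (value_F_integrable.mono_set (by rw [hU]; exact subset_union_right)),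
    value_second]
  have h1 : ∫ u in Ioc (0:ℝ) (1/3), truncExpWeight (2 * u - 2 / 3) * Real.exp (-u) =
      ∫ u in Ioc (0:ℝ) (1/3), Real.exp (-u) := by
    refine setIntegral_congr_fun measurableSet_Ioc fun u hu => ?_
    have hu' : u ≤ 1/3 := hu.2
    unfold truncExpWeight
    rw [if_pos (by linarith), one_mul]
  rw [h1, value_first]
  ring

/-! ### Second moment -/

variable {N : ℕ}

lemma coord_centered_memLp (c : ℝ) : MemLp (fun u : ℝ => c * (u - 1)) 2 expLaw := by
  have h1 : MemLp (fun u : ℝ => u - 1) 2 expLaw := expLaw_memLp_two.sub (memLp_const 1)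
  exact h1.const_mul c

lemma coord_centered_integrable (c : ℝ) : Integrable (fun u : ℝ => c * (u - 1)) expLaw :=
  (coord_centered_memLp c).integrable one_le_two

lemma coord_centered_mean (c : ℝ) : ∫ u, c * (u - 1) ∂expLaw = 0 := by
  rw [integral_const_mul, integral_sub expLaw_integrable_id (integrable_const 1), expLaw_mean]
  simp

lemma coord_centered_second (c : ℝ) : ∫ u, (c * (u - 1)) ^ 2 ∂expLaw = c ^ 2 := by
  have e : ∀ u : ℝ, (c * (u - 1)) ^ 2 = c ^ 2 * (u ^ 2 - 2 * u + 1) := fun u => by ring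
  simp_rw [e]
  rw [integral_const_mul]
  have h2 : Integrable (fun u : ℝ => u ^ 2) expLaw := expLaw_integrable_pow 2
  have h1 : Integrable (fun u : ℝ => 2 * u) expLaw := expLaw_integrable_id.const_mul 2
  have h3 : Integrable (fun u : ℝ => u ^ 2 - 2 * u) expLaw := h2.sub h1
  rw [integral_add h3 (integrable_const 1), integral_sub h2 h1, expLaw_second,
    integral_const_mul, expLaw_mean]
  simp

lemma sum_centered_second (c : Fin N → ℝ) :
    ∫ x, (∑ i, c i * (x i - 1)) ^ 2 ∂(P N) = ∑ i, c i ^ 2 := by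
  have hvar := variance_sum_pi (μ := fun _ : Fin N => expLaw)
    (X := fun i u => c i * (u - 1)) (fun i => coord_centered_memLp (c i))
  have hfun : (∑ i, fun ω : Fin N → ℝ => c i * (ω i - 1)) =
      fun x : Fin N → ℝ => ∑ i, c i * (x i - 1) := by
    funext x
    rw [Finset.sum_apply]
  rw [hfun] at hvar
  have hm : Measurable fun x : Fin N → ℝ => ∑ i, c i * (x i - 1) := by fun_prop
  have hmean : ∫ x, ∑ i, c i * (x i - 1) ∂(P N) = 0 := by
    rw [integral_finsetSum]
    · refine Finset.sum_eq_zero fun i _ => ?_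
      rw [P_eval_integral i (f := fun u => c i * (u - 1))
        (by fun_prop : Measurable fun u : ℝ => c i * (u - 1)).aestronglyMeasurable]
      exact coord_centered_mean _
    · intro i _
      exact ((P_coord_integrable i).sub (integrable_const 1)).const_mul _
  rw [variance_of_integral_eq_zero hm.aemeasurable hmean] at hvar
  rw [hvar]
  refine Finset.sum_congr rfl fun i _ => ?_
  have hmi : Measurable fun u : ℝ => c i * (u - 1) := by fun_prop
  rw [variance_of_integral_eq_zero hmi.aemeasurable (coord_centered_mean _)]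
  exact coord_centered_second _

lemma sum_centered_memLp (c : Fin N → ℝ) :
    MemLp (fun x : Fin N → ℝ => ∑ i, c i * (x i - 1)) 2 (P N) := by
  have : (fun x : Fin N → ℝ => ∑ i, c i * (x i - 1)) =
      ∑ i, fun x : Fin N → ℝ => c i * (x i - 1) := by
    funext x
    rw [Finset.sum_apply]
  rw [this]
  refine memLp_finsetSum' _ fun i _ => ?_
  exact (coord_centered_memLp (c i)).comp_measurePreserving
    (measurePreserving_eval (fun _ : Fin N => expLaw) i)

/-! ### The coefficient vector -/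

/-- The vector `(2, -2/M, …, -2/M)`. -/
noncomputable def aa (M : ℕ) : Fin (M + 1) → ℝ := Fin.cons 2 (fun _ => -2 / M)

/-- The noise coefficients `(0, 2/M, …, 2/M)`. -/
noncomputable def cc (M : ℕ) : Fin (M + 1) → ℝ := Fin.cons 0 (fun _ => 2 / M)

lemma aa_sum {M : ℕ} (hM : 0 < M) : ∑ i, aa M i = 0 := by
  rw [Fin.sum_univ_succ]
  simp only [aa, Fin.cons_zero, Fin.cons_succ, Finset.sum_const, Finset.card_univ,
    Fintype.card_fin, nsmul_eq_mul]
  have : (M : ℝ) ≠ 0 := by positivity
  field_simp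
  ring

lemma cc_sq {M : ℕ} (hM : 0 < M) : ∑ i, cc M i ^ 2 = 4 / M := by
  rw [Fin.sum_univ_succ]
  simp only [cc, Fin.cons_zero, Fin.cons_succ, Finset.sum_const, Finset.card_univ,
    Fintype.card_fin, nsmul_eq_mul]
  have : (M : ℝ) ≠ 0 := by positivity
  field_simp
  ring

lemma wsum_aa {M : ℕ} (hM : 0 < M) (x : Fin (M + 1) → ℝ) :
    4 / 3 + ∑ i, aa M i * x i = (2 * x 0 - 2 / 3) - ∑ i, cc M i * (x i - 1) := by
  rw [Fin.sum_univ_succ, Fin.sum_univ_succ]
  simp only [aa, cc, Fin.cons_zero, Fin.cons_succ]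
  have hM' : (M : ℝ) ≠ 0 := by positivity
  have e1 : ∑ i : Fin M, -2 / (M : ℝ) * x i.succ = -(2 / (M : ℝ) * ∑ i : Fin M, x i.succ) := by
    rw [Finset.mul_sum, ← Finset.sum_neg_distrib]
    refine Finset.sum_congr rfl fun i _ => ?_
    ring
  have e2 : ∑ i : Fin M, 2 / (M : ℝ) * (x i.succ - 1) =
      2 / (M : ℝ) * ∑ i : Fin M, x i.succ - 2 := by
    have : ∑ i : Fin M, 2 / (M : ℝ) * (x i.succ - 1) =
        ∑ i : Fin M, (2 / (M : ℝ) * x i.succ - 2 / (M : ℝ)) := by
      refine Finset.sum_congr rfl fun i _ => ?_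
      ring
    rw [this, Finset.sum_sub_distrib, Finset.sum_const, Finset.card_univ, Fintype.card_fin,
      nsmul_eq_mul, Finset.mul_sum]
    field_simp
  rw [e1, e2]
  ring

/-- Lower bound for the expectation with a fixed `M`. -/
lemma expectation_lower {M : ℕ} (hM : 0 < M) {κ : ℝ} (hκ : 0 < κ) :
    1 - 4 / 9 * Real.exp (-(1/3)) - (κ / 2 + (4 / M) / (2 * κ)) ≤
      ∫ x, truncExpWeight (4 / 3 + ∑ i, aa M i * x i) ∂(P (M + 1)) := by
  set T : (Fin (M + 1) → ℝ) → ℝ := fun x => ∑ i, cc M i * (x i - 1) with hT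
  have hTm : Measurable T := by rw [hT]; fun_prop
  have hTL2 : MemLp T 2 (P (M + 1)) := sum_centered_memLp (cc M)
  have hTsq : Integrable (fun x => T x ^ 2) (P (M + 1)) :=
    (memLp_two_iff_integrable_sq hTm.aestronglyMeasurable).mp hTL2
  have hTsqval : ∫ x, T x ^ 2 ∂(P (M + 1)) = 4 / M := by
    rw [hT, sum_centered_second, cc_sq hM]
  have hg1 : Integrable (fun x : Fin (M + 1) → ℝ => truncExpWeight (2 * x 0 - 2 / 3)) (P (M + 1)) :=
    integrable_truncExpWeight_comp _ (by fun_prop)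
  have hg2 : Integrable (fun x : Fin (M + 1) → ℝ => truncExpWeight (4 / 3 + ∑ i, aa M i * x i))
      (P (M + 1)) :=
    integrable_truncExpWeight_comp _ (by fun_prop)
  have hval : ∫ x : Fin (M + 1) → ℝ, truncExpWeight (2 * x 0 - 2 / 3) ∂(P (M + 1)) =
      1 - 4 / 9 * Real.exp (-(1/3)) := by
    have := P_eval_integral (N := M + 1) 0 (f := fun u => truncExpWeight (2 * u - 2 / 3))
      (truncExpWeight_continuous.measurable.comp (by fun_prop)).aestronglyMeasurable
    rw [this]
    exact value_eq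
  -- pointwise lower bound
  have hpt : ∀ x : Fin (M + 1) → ℝ, truncExpWeight (2 * x 0 - 2 / 3) -
      (κ / 2 + (1 / (2 * κ)) * T x ^ 2) ≤ truncExpWeight (4 / 3 + ∑ i, aa M i * x i) := by
    intro x
    have h1 := truncExpWeight_lipschitz (2 * x 0 - 2 / 3) (4 / 3 + ∑ i, aa M i * x i)
    have h2 : (2 * x 0 - 2 / 3) - (4 / 3 + ∑ i, aa M i * x i) = T x := by
      rw [wsum_aa hM]; simp only [hT]; ring
    rw [h2] at h1
    have h3 : |T x| ≤ κ / 2 + (1 / (2 * κ)) * T x ^ 2 := by
      have h4 : 0 ≤ (|T x| - κ) ^ 2 := sq_nonneg _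
      have h5 : |T x| ^ 2 = T x ^ 2 := sq_abs _
      have h6 : κ / 2 + (1 / (2 * κ)) * T x ^ 2 - |T x| = (|T x| - κ) ^ 2 / (2 * κ) := by
        rw [← h5]
        field_simp
        ring
      have h7 : 0 ≤ (|T x| - κ) ^ 2 / (2 * κ) := div_nonneg h4 (by positivity)
      linarith
    have h8 := (abs_le.mp h1).2
    linarith
  have hconstadd : Integrable (fun x : Fin (M + 1) → ℝ => κ / 2 + (1 / (2 * κ)) * T x ^ 2)
      (P (M + 1)) := (integrable_const (κ / 2)).add (hTsq.const_mul (1 / (2 * κ)))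
  have hint3 : Integrable (fun x : Fin (M + 1) → ℝ => truncExpWeight (2 * x 0 - 2 / 3) -
      (κ / 2 + (1 / (2 * κ)) * T x ^ 2)) (P (M + 1)) := hg1.sub hconstadd
  have hmono := integral_mono hint3 hg2 hpt
  have hI2 : ∫ x : Fin (M + 1) → ℝ, (κ / 2 + (1 / (2 * κ)) * T x ^ 2) ∂(P (M + 1)) =
      κ / 2 + (1 / (2 * κ)) * (4 / M) := by
    rw [integral_add (f := fun _ => κ / 2) (g := fun x => (1 / (2 * κ)) * T x ^ 2)
      (integrable_const _) (hTsq.const_mul _), integral_const_mul, hTsqval]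
    simp
  rw [integral_sub hg1 hconstadd, hI2, hval] at hmono
  have e : (4 / (M : ℝ)) / (2 * κ) = 1 / (2 * κ) * (4 / M) := by ring
  rw [e]
  exact hmono

/-- The identity between the normalisations. -/
lemma norm_identity :
    Real.exp (4 / 3) / (4 / 3) * (1 - 4 / 9 * Real.exp (-(1/3))) =
      3 / 4 * Real.exp (4 / 3) - Real.exp 1 / 3 := by
  have h : Real.exp (4 / 3) * Real.exp (-(1/3)) = Real.exp 1 := by
    rw [← Real.exp_add]; congr 1; norm_num
  calc Real.exp (4 / 3) / (4 / 3) * (1 - 4 / 9 * Real.exp (-(1/3)))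
      = 3 / 4 * Real.exp (4 / 3) - 1 / 3 * (Real.exp (4 / 3) * Real.exp (-(1/3))) := by ring
    _ = 3 / 4 * Real.exp (4 / 3) - Real.exp 1 / 3 := by rw [h]; ring

/-- The second conjunct of S0423. -/
theorem approach (ε : ℝ) (hε : 0 < ε) :
    ∃ (N : ℕ) (a : Fin N → ℝ), 1 ≤ N ∧ ∑ i, a i = 0 ∧
      3 / 4 * Real.exp (4 / 3) - Real.exp 1 / 3 - ε <
        Real.exp (4 / 3) / (4 / 3) *
          ∫ x in Set.pi Set.univ (fun _ : Fin N => Set.Ioi (0 : ℝ)),
            truncExpWeight (4 / 3 + ∑ i, a i * x i) * Real.exp (-∑ i, x i) := by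
  set A : ℝ := Real.exp (4 / 3) / (4 / 3) with hA
  have hApos : 0 < A := by rw [hA]; positivity
  set δ : ℝ := ε / A with hδ
  have hδpos : 0 < δ := div_pos hε hApos
  obtain ⟨M, hMgt⟩ := exists_nat_gt (4 / δ ^ 2)
  have hMpos : 0 < M := by
    have : (0:ℝ) < M := lt_trans (by positivity) hMgt
    exact_mod_cast this
  have hMposR : (0:ℝ) < M := by exact_mod_cast hMpos
  refine ⟨M + 1, aa M, by omega, aa_sum hMpos, ?_⟩
  have horth := orthant_integral (M + 1)
    (fun x => truncExpWeight (4 / 3 + ∑ i, aa M i * x i))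
  rw [horth]
  have hlow := expectation_lower hMpos hδpos
  have hsmall : δ / 2 + (4 / (M : ℝ)) / (2 * δ) < δ := by
    have h1 : 4 / (M : ℝ) < δ ^ 2 := by
      rw [div_lt_iff₀ hMposR]
      rw [div_lt_iff₀ (by positivity)] at hMgt
      linarith
    have h2 : (4 / (M : ℝ)) / (2 * δ) < δ ^ 2 / (2 * δ) :=
      div_lt_div_of_pos_right h1 (by positivity)
    have h3 : δ ^ 2 / (2 * δ) = δ / 2 := by
      field_simp
    linarith
  have hfinal : 1 - 4 / 9 * Real.exp (-(1/3)) - δ <
      ∫ x, truncExpWeight (4 / 3 + ∑ i, aa M i * x i) ∂(P (M + 1)) := by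
    linarith
  have hmul := mul_lt_mul_of_pos_left hfinal hApos
  rw [mul_sub, hA, norm_identity, ← hA] at hmul
  have hAδ : A * δ = ε := by
    rw [hδ]; field_simp
  rw [hAδ] at hmul
  exact hmul

end Crest.Agent.Lib.S0423Approach
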