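import Mathlib
import Crest.Prelude.Def_TruncExpWeight
import Crest.Agent.Lib.S0423Approach

/-!
The one-parameter family `E g(c + s (X - 1))`, `c = 4/3`, is at most `1 - (4/9) e^{-1/3}`.
Helper library for S0423.
-/

namespace Crest.Agent.Lib.S0423Family

open MeasureTheory Set Filter Topology
open Crest.Agent.Lib.S0423Law Crest.Agent.Lib.S0423Approach
open Crest.AlgGeometry

lemma lin_exp_integrable (α β : ℝ) {γ : ℝ} (hγ : 0 < γ) :
    IntegrableOn (fun w => (α + β * w) * Real.exp (-(γ * w))) (Ioi 0) := by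
  have h1 : Integrable (fun w => Real.exp (-γ * w)) (volume.restrict (Ioi 0)) :=
    exp_neg_integrableOn_Ioi 0 hγ
  have h2 : Integrable (fun w : ℝ => w ^ (1:ℝ) * Real.exp (-γ * w ^ (1:ℝ)))
      (volume.restrict (Ioi 0)) :=
    integrableOn_rpow_mul_exp_neg_mul_rpow (by norm_num) one_pos hγ
  have h2' : Integrable (fun w : ℝ => w * Real.exp (-γ * w)) (volume.restrict (Ioi 0)) := by
    simpa using h2
  have h3 : Integrable (fun w => α * Real.exp (-γ * w) + β * (w * Real.exp (-γ * w)))
      (volume.restrict (Ioi 0)) :=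
    (h1.const_mul α).add (h2'.const_mul β)
  refine h3.congr (Eventually.of_forall fun w => ?_)
  simp only [neg_mul]
  ring

lemma lin_exp_integral (α β : ℝ) {γ : ℝ} (hγ : 0 < γ) :
    ∫ w in Ioi (0:ℝ), (α + β * w) * Real.exp (-(γ * w)) = α / γ + β / γ ^ 2 := by
  have h1 : ∫ w in Ioi (0:ℝ), Real.exp (-(γ * w)) = 1 / γ := by
    have := integral_exp_mul_Ioi (a := -γ) (by linarith) 0
    simp only [neg_mul, mul_zero, Real.exp_zero] at this
    rw [this]
    field_simp
  have h2 : ∫ w in Ioi (0:ℝ), w * Real.exp (-(γ * w)) = 1 / γ ^ 2 := by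
    have := Real.integral_rpow_mul_exp_neg_mul_Ioi (a := 2) (r := γ) (by norm_num) hγ
    simp only [show (2:ℝ) - 1 = 1 by norm_num, Real.rpow_one, Real.Gamma_two, mul_one] at this
    rw [this]
    rw [Real.rpow_two]
    field_simp
  have h1i : IntegrableOn (fun w => Real.exp (-(γ * w))) (Ioi 0) := by
    have := exp_neg_integrableOn_Ioi 0 hγ
    refine (integrableOn_congr_fun (fun w _ => ?_) measurableSet_Ioi).mp this
    simp only [neg_mul]
  have h2i : IntegrableOn (fun w => w * Real.exp (-(γ * w))) (Ioi 0) := by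
    have := lin_exp_integrable 0 1 hγ
    refine (integrableOn_congr_fun (fun w _ => ?_) measurableSet_Ioi).mp this
    simp only [zero_add, one_mul]
  have e : ∀ w : ℝ, (α + β * w) * Real.exp (-(γ * w)) =
      α * Real.exp (-(γ * w)) + β * (w * Real.exp (-(γ * w))) := fun w => by ring
  simp_rw [e]
  rw [integral_add (h1i.const_mul α) (h2i.const_mul β), integral_const_mul, integral_const_mul,
    h1, h2]
  ring

/-- The case of a nonnegative shift. -/
lemma Phi_nonneg {y s : ℝ} (hy : 0 ≤ y) (hs : 0 < s) :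
    ∫ u, truncExpWeight (y + s * u) ∂expLaw =
      Real.exp (-y) * ((1 + y) / (1 + s) + s / (1 + s) ^ 2) := by
  rw [expLaw_integral]
  have h1 : ∀ u ∈ Ioi (0:ℝ), truncExpWeight (y + s * u) * Real.exp (-u) =
      Real.exp (-y) * (((1 + y) + s * u) * Real.exp (-((1 + s) * u))) := by
    intro u hu
    have hu' : (0:ℝ) < u := hu
    have hpos : 0 < y + s * u := by positivity
    rw [truncExpWeight_eq, max_eq_left hpos.le]
    unfold kk
    have e : Real.exp (-(y + s * u)) * Real.exp (-u) =
        Real.exp (-y) * Real.exp (-((1 + s) * u)) := by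
      rw [← Real.exp_add, ← Real.exp_add]; congr 1; ring
    calc (1 + (y + s * u)) * Real.exp (-(y + s * u)) * Real.exp (-u)
        = (1 + (y + s * u)) * (Real.exp (-(y + s * u)) * Real.exp (-u)) := by ring
      _ = _ := by rw [e]; ring
  rw [setIntegral_congr_fun measurableSet_Ioi h1, integral_const_mul,
    lin_exp_integral _ _ (by linarith : 0 < 1 + s)]

/-- The case of a nonpositive shift. -/
lemma Phi_nonpos {y s : ℝ} (hy : y ≤ 0) (hs : 0 < s) :
    ∫ u, truncExpWeight (y + s * u) ∂expLaw =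
      1 - Real.exp (y / s) * (s ^ 2 / (1 + s) ^ 2) := by
  rw [expLaw_integral]
  set u₀ : ℝ := -y / s with hu₀
  have hu₀nn : 0 ≤ u₀ := div_nonneg (by linarith) hs.le
  have hint : IntegrableOn (fun u => truncExpWeight (y + s * u) * Real.exp (-u)) (Ioi 0) := by
    have hb := integrableOn_exp_neg_Ioi 0
    refine Integrable.mono' hb ?_ ?_
    · have := truncExpWeight_continuous
      exact (by fun_prop : Continuous fun u =>
        truncExpWeight (y + s * u) * Real.exp (-u)).aestronglyMeasurable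
    · refine Eventually.of_forall fun u => ?_
      rw [Real.norm_eq_abs, abs_of_nonneg (mul_nonneg (truncExpWeight_nonneg _) (Real.exp_pos _).le)]
      exact mul_le_of_le_one_left (Real.exp_pos _).le (truncExpWeight_le_one _)
  have hU : Ioi (0:ℝ) = Ioc 0 u₀ ∪ Ioi u₀ := (Ioc_union_Ioi_eq_Ioi hu₀nn).symm
  have hdisj : Disjoint (Ioc (0:ℝ) u₀) (Ioi u₀) := Ioc_disjoint_Ioi le_rfl
  rw [hU, setIntegral_union hdisj measurableSet_Ioi
    (hint.mono_set (by rw [hU]; exact subset_union_left))
    (hint.mono_set (by rw [hU]; exact subset_union_right))]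
  -- first piece
  have h1 : ∫ u in Ioc (0:ℝ) u₀, truncExpWeight (y + s * u) * Real.exp (-u) =
      1 - Real.exp (-u₀) := by
    have e1 : ∀ u ∈ Ioc (0:ℝ) u₀, truncExpWeight (y + s * u) * Real.exp (-u) = Real.exp (-u) := by
      intro u hu
      have hu' : u ≤ u₀ := hu.2
      have : s * u ≤ s * u₀ := mul_le_mul_of_nonneg_left hu' hs.le
      have e : s * u₀ = -y := by rw [hu₀]; field_simp
      unfold truncExpWeight
      rw [if_pos (by linarith), one_mul]
    rw [setIntegral_congr_fun measurableSet_Ioc e1]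
    have h : ∫ u in (0:ℝ)..u₀, Real.exp (-u) = (-Real.exp (-u₀)) - (-Real.exp (-0)) := by
      refine intervalIntegral.integral_eq_sub_of_hasDerivAt (f := fun u => -Real.exp (-u)) ?_ ?_
      · intro x _
        have h2 : HasDerivAt (fun y : ℝ => Real.exp (-y)) (Real.exp (-x) * (-1)) x :=
          (hasDerivAt_neg x).exp
        have h3 := h2.neg
        have e : -(Real.exp (-x) * -1) = Real.exp (-x) := by ring
        rw [e] at h3
        exact h3
      · exact (by fun_prop : Continuous fun u : ℝ => Real.exp (-u)).intervalIntegrable _ _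
    rw [intervalIntegral.integral_of_le hu₀nn] at h
    rw [h]
    simp only [neg_zero, Real.exp_zero]
    ring
  -- second piece
  have h2 : ∫ u in Ioi u₀, truncExpWeight (y + s * u) * Real.exp (-u) =
      Real.exp (-u₀) * ((1 + 0) / (1 + s) + s / (1 + s) ^ 2) := by
    have h3 := (measurePreserving_add_left (volume : Measure ℝ) u₀).setIntegral_preimage_emb
      (measurableEmbedding_addLeft u₀)
      (fun u => truncExpWeight (y + s * u) * Real.exp (-u)) (Ioi u₀)
    have h4 : (fun w => u₀ + w) ⁻¹' Ioi u₀ = Ioi (0:ℝ) := by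
      ext w; simp
    rw [h4] at h3
    rw [← h3]
    have e1 : ∀ w : ℝ, truncExpWeight (y + s * (u₀ + w)) * Real.exp (-(u₀ + w)) =
        Real.exp (-u₀) * (truncExpWeight (0 + s * w) * Real.exp (-w)) := by
      intro w
      have e : y + s * (u₀ + w) = 0 + s * w := by
        have : s * u₀ = -y := by rw [hu₀]; field_simp
        nlinarith
      rw [e, neg_add, Real.exp_add]
      ring
    simp_rw [e1]
    rw [integral_const_mul, ← expLaw_integral, Phi_nonneg le_rfl hs]
    simp
  rw [h1, h2]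
  have e3 : Real.exp (-u₀) = Real.exp (y / s) := by
    congr 1
    rw [hu₀]; ring
  rw [e3]
  have hne : (1 + s) ≠ 0 := by positivity
  field_simp
  ring

/-- `e^{-1/3} ≤ 18/25`. -/
lemma exp_neg_third_le : Real.exp (-(1/3)) ≤ 18 / 25 := by
  have h := Real.quadratic_le_exp_of_nonneg (x := 1/3) (by norm_num)
  have hpos := Real.exp_pos (1/3 : ℝ)
  rw [Real.exp_neg, inv_eq_one_div, div_le_iff₀ hpos]
  nlinarith

/-- The family bound. -/
theorem family_bound {s : ℝ} (hs : 0 < s) :
    ∫ u, truncExpWeight (4 / 3 - s + s * u) ∂expLaw ≤ 1 - 4 / 9 * Real.exp (-(1/3)) := by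
  rcases le_or_gt (4/3) s with h | h
  · -- `s ≥ 4/3`
    rw [Phi_nonpos (by linarith) hs]
    set u : ℝ := 1 / s with hu
    have hupos : 0 < u := by positivity
    have hsu : s * u = 1 := by rw [hu]; field_simp
    have hx := Real.add_one_le_exp ((2/3) * (u - 1/2))
    have h1 : (2/3) * (1 + u) ≤ Real.exp ((2/3) * (u - 1/2)) := by linarith
    have h1nn : 0 ≤ (2/3) * (1 + u) := by positivity
    have h2 : ((2/3) * (1 + u)) ^ 2 ≤ Real.exp ((2/3) * (u - 1/2)) ^ 2 :=
      pow_le_pow_left₀ h1nn h1 2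
    have h3 : Real.exp ((2/3) * (u - 1/2)) ^ 2 = Real.exp (4/3 * u - 2/3) := by
      rw [← Real.exp_nat_mul]; congr 1; push_cast; ring
    rw [h3] at h2
    have h4 : (4 / 3 - s) / s = 4/3 * u - 1 := by
      rw [hu]; field_simp
    have h5 : s ^ 2 / (1 + s) ^ 2 = 1 / (1 + u) ^ 2 := by
      rw [hu]; field_simp
      ring
    rw [h4, h5]
    have h6 : Real.exp (4/3 * u - 1) = Real.exp (4/3 * u - 2/3) * Real.exp (-(1/3)) := by
      rw [← Real.exp_add]; congr 1; ring
    rw [h6]
    have hE := Real.exp_pos (-(1/3) : ℝ)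
    have h7 : 4 / 9 ≤ Real.exp (4/3 * u - 2/3) * (1 / (1 + u) ^ 2) := by
      rw [mul_one_div, le_div_iff₀ (by positivity)]
      calc 4 / 9 * (1 + u) ^ 2 = ((2/3) * (1 + u)) ^ 2 := by ring
        _ ≤ _ := h2
    have h8 := mul_le_mul_of_nonneg_right h7 hE.le
    nlinarith
  · -- `s < 4/3`
    set y : ℝ := 4 / 3 - s with hy
    have hypos : 0 < y := by rw [hy]; linarith
    rw [Phi_nonneg hypos.le hs]
    have hexp : 1 + y + y ^ 2 / 2 + y ^ 3 / 6 ≤ Real.exp y := by
      have := Real.sum_le_exp_of_nonneg hypos.le 4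
      simp only [Finset.sum_range_succ, Finset.sum_range_zero, Nat.factorial] at this
      norm_num at this
      linarith
    have hsy : s = 4 / 3 - y := by rw [hy]; ring
    have hkey : (1 + y) / (1 + s) + s / (1 + s) ^ 2 ≤
        68 / 100 * (1 + y + y ^ 2 / 2 + y ^ 3 / 6) := by
      have hden : 0 < (1 + s) ^ 2 := by positivity
      have e : (1 + y) / (1 + s) + s / (1 + s) ^ 2 = ((1 + y) * (1 + s) + s) / (1 + s) ^ 2 := by
        field_simp
      rw [e, div_le_iff₀ hden]
      have hpoly : 68 / 100 * (1 + y + y ^ 2 / 2 + y ^ 3 / 6) * (1 + s) ^ 2 -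
          ((1 + y) * (1 + s) + s) =
          3 / 100 * y ^ 5 + 11 / 40 * s * y ^ 4 + 7157 / 9600 * s ^ 2 * y ^ 3 +
          309 / 640 * s ^ 3 * y ^ 2 + 333 / 3200 * s ^ 4 * y + 27 / 3200 * s ^ 5 := by
        rw [hsy]; ring
      have hnn : 0 ≤ 3 / 100 * y ^ 5 + 11 / 40 * s * y ^ 4 + 7157 / 9600 * s ^ 2 * y ^ 3 +
          309 / 640 * s ^ 3 * y ^ 2 + 333 / 3200 * s ^ 4 * y + 27 / 3200 * s ^ 5 := by positivity
      linarith
    have hfinal : (1 + y) / (1 + s) + s / (1 + s) ^ 2 ≤ 68 / 100 * Real.exp y :=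
      hkey.trans (mul_le_mul_of_nonneg_left hexp (by norm_num))
    have hv : (68:ℝ) / 100 ≤ 1 - 4 / 9 * Real.exp (-(1/3)) := by
      have := exp_neg_third_le
      linarith
    refine le_trans ?_ hv
    have hEpos := Real.exp_pos y
    rw [Real.exp_neg]
    rw [inv_mul_le_iff₀ hEpos]
    linarith

end Crest.Agent.Lib.S0423Family
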