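import Mathlib

/-!
A Fubini formula expressing expectations through tail functions.  Helper library for S0423.
-/

namespace Crest.Agent.Lib.S0423Tail

open MeasureTheory Set Filter Topology

/-- `A_μ(t) = μ(t,∞) - 1_{t<0}`. -/
noncomputable def tailDiff (μ : Measure ℝ) (t : ℝ) : ℝ :=
  μ.real (Ioi t) - (Iio (0:ℝ)).indicator 1 t

/-- The kernel `1_{t<w} - 1_{t<0}`. -/
noncomputable def ker (w t : ℝ) : ℝ :=
  (Iio w).indicator 1 t - (Iio (0:ℝ)).indicator 1 t

lemma ker_nonneg_case {w : ℝ} (hw : 0 ≤ w) (t : ℝ) : ker w t = (Ico 0 w).indicator 1 t := by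
  unfold ker
  by_cases h1 : t < 0
  · have h2 : t < w := lt_of_lt_of_le h1 hw
    have h3 : t ∉ Ico 0 w := fun h => absurd h.1 (not_le.mpr h1)
    simp [h1, h2, h3]
  · by_cases h2 : t < w
    · have h3 : t ∈ Ico 0 w := ⟨not_lt.mp h1, h2⟩
      simp [h1, h2, h3]
    · have h3 : t ∉ Ico 0 w := fun h => h2 h.2
      simp [h1, h2, h3]

lemma ker_neg_case {w : ℝ} (hw : w < 0) (t : ℝ) : ker w t = -(Ico w 0).indicator 1 t := by
  unfold ker
  by_cases h1 : t < w
  · have h2 : t < 0 := lt_trans h1 hw
    have h3 : t ∉ Ico w 0 := fun h => absurd h.1 (not_le.mpr h1)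
    simp [h1, h2, h3]
  · by_cases h2 : t < 0
    · have h3 : t ∈ Ico w 0 := ⟨not_lt.mp h1, h2⟩
      simp [h1, h2, h3]
    · have h3 : t ∉ Ico w 0 := fun h => h2 h.2
      simp [h1, h2, h3]

lemma ker_abs_le_one (w t : ℝ) : |ker w t| ≤ 1 := by
  rcases le_or_gt 0 w with hw | hw
  · rw [ker_nonneg_case hw]
    by_cases h : t ∈ Ico 0 w <;> simp [h]
  · rw [ker_neg_case hw]
    by_cases h : t ∈ Ico w 0 <;> simp [h]

lemma measurable_ker_uncurry : Measurable (Function.uncurry ker) := by
  have h1 : MeasurableSet {q : ℝ × ℝ | q.2 < q.1} := measurableSet_lt measurable_snd measurable_fst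
  have h2 : Measurable fun q : ℝ × ℝ => ({q : ℝ × ℝ | q.2 < q.1}).indicator (1 : ℝ × ℝ → ℝ) q :=
    measurable_one.indicator h1
  have h3 : Measurable fun q : ℝ × ℝ => (Iio (0:ℝ)).indicator (1 : ℝ → ℝ) q.2 :=
    (measurable_one.indicator measurableSet_Iio).comp measurable_snd
  have e : Function.uncurry ker = fun q : ℝ × ℝ =>
      ({q : ℝ × ℝ | q.2 < q.1}).indicator (1 : ℝ × ℝ → ℝ) q -
        (Iio (0:ℝ)).indicator (1 : ℝ → ℝ) q.2 := by
    funext q
    simp only [Function.uncurry, ker, indicator, mem_Iio, mem_ofPred_eq, Pi.one_apply]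
  rw [e]
  exact h2.sub h3

section main

variable {k : ℝ → ℝ}

lemma ker_integral (hk : Measurable k) {C : ℝ} (hC : ∀ t, |k t| ≤ C) (w : ℝ) :
    ∫ t, k t * ker w t = ∫ t in (0:ℝ)..w, k t := by
  have hkint : ∀ a b : ℝ, IntervalIntegrable k volume a b := by
    intro a b
    refine (intervalIntegrable_const (c := C)).mono_fun' hk.aestronglyMeasurable ?_
    exact Eventually.of_forall fun t => by
      show ‖k t‖ ≤ C
      rw [Real.norm_eq_abs]; exact hC t
  rcases le_or_gt 0 w with hw | hw
  · have h1 : (fun t => k t * ker w t) = (Ico 0 w).indicator k := by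
      funext t
      rw [ker_nonneg_case hw]
      by_cases h : t ∈ Ico 0 w <;> simp [h]
    rw [h1, integral_indicator measurableSet_Ico, intervalIntegral.integral_of_le hw,
      integral_Ico_eq_integral_Ioc]
  · have h1 : (fun t => k t * ker w t) = (Ico w 0).indicator (fun t => - k t) := by
      funext t
      rw [ker_neg_case hw]
      by_cases h : t ∈ Ico w 0 <;> simp [h]
    rw [h1, integral_indicator measurableSet_Ico, intervalIntegral.integral_symm,
      intervalIntegral.integral_of_le hw.le, integral_Ico_eq_integral_Ioc, integral_neg]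

lemma ker_abs_integral (w : ℝ) : ∫ t, |ker w t| = |w| := by
  rcases le_or_gt 0 w with hw | hw
  · have h1 : (fun t => |ker w t|) = (Ico 0 w).indicator 1 := by
      funext t
      rw [ker_nonneg_case hw]
      by_cases h : t ∈ Ico 0 w <;> simp [h]
    rw [h1, integral_indicator measurableSet_Ico, abs_of_nonneg hw]
    simp [hw]
  · have h1 : (fun t => |ker w t|) = (Ico w 0).indicator 1 := by
      funext t
      rw [ker_neg_case hw]
      by_cases h : t ∈ Ico w 0 <;> simp [h]
    rw [h1, integral_indicator measurableSet_Ico, abs_of_neg hw]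
    simp [hw.le]

lemma ker_integrable (w : ℝ) : Integrable (ker w) := by
  rcases le_or_gt 0 w with hw | hw
  · have h1 : ker w = (Ico 0 w).indicator 1 := funext (ker_nonneg_case hw)
    rw [h1]
    exact (integrable_indicator_iff measurableSet_Ico).mpr (integrableOn_const (by simp) (by simp))
  · have h1 : ker w = fun t => -(Ico w 0).indicator (1 : ℝ → ℝ) t := funext (ker_neg_case hw)
    rw [h1]
    exact ((integrable_indicator_iff measurableSet_Ico).mpr
      (integrableOn_const (by simp) (by simp))).neg

variable (μ : Measure ℝ) [IsProbabilityMeasure μ]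

lemma F_integrable (hint : Integrable (fun w : ℝ => w) μ) (hk : Measurable k) {C : ℝ}
    (hC : ∀ t, |k t| ≤ C) :
    Integrable (Function.uncurry fun w t => k t * ker w t) (μ.prod volume) := by
  have hm : Measurable (Function.uncurry fun w t => k t * ker w t) := by
    have : (Function.uncurry fun w t => k t * ker w t) =
        fun q : ℝ × ℝ => k q.2 * Function.uncurry ker q := rfl
    rw [this]
    exact (hk.comp measurable_snd).mul measurable_ker_uncurry
  have hC0 : 0 ≤ C := (abs_nonneg _).trans (hC 0)
  rw [integrable_prod_iff hm.aestronglyMeasurable]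
  constructor
  · refine Eventually.of_forall fun w => ?_
    have : Integrable (fun t => C * ker w t) := (ker_integrable w).const_mul C
    refine Integrable.mono' this.norm (hk.mul (measurable_ker_uncurry.comp measurable_prodMk_left)).aestronglyMeasurable ?_
    refine Eventually.of_forall fun t => ?_
    simp only [Function.uncurry, norm_mul, Real.norm_eq_abs]
    rw [abs_of_nonneg hC0]
    exact mul_le_mul_of_nonneg_right (hC t) (abs_nonneg _)
  · have hbound : Integrable (fun w : ℝ => C * |w|) μ := hint.abs.const_mul C
    refine Integrable.mono' hbound ?_ ?_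
    · exact hm.norm.aestronglyMeasurable.integral_prod_right'
    · refine Eventually.of_forall fun w => ?_
      rw [Real.norm_eq_abs, abs_of_nonneg (integral_nonneg fun t => norm_nonneg _)]
      have h1 : ∫ t, ‖Function.uncurry (fun w t => k t * ker w t) (w, t)‖ ≤ ∫ t, C * |ker w t| := by
        refine integral_mono_of_nonneg (Eventually.of_forall fun t => norm_nonneg _) ?_ ?_
        · exact ((ker_integrable w).norm).const_mul C
        · refine Eventually.of_forall fun t => ?_
          simp only [Function.uncurry, norm_mul, Real.norm_eq_abs]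
          exact mul_le_mul_of_nonneg_right (hC t) (abs_nonneg _)
      rw [integral_const_mul, ker_abs_integral] at h1
      exact h1

/-- The tail formula. -/
theorem tail_formula (hint : Integrable (fun w : ℝ => w) μ) (hk : Measurable k) {C : ℝ}
    (hC : ∀ t, |k t| ≤ C) {h : ℝ → ℝ} (hh : ∀ w, h w - h 0 = ∫ t in (0:ℝ)..w, k t) :
    Integrable (fun t => k t * tailDiff μ t) ∧
      ∫ w, h w ∂μ = h 0 + ∫ t, k t * tailDiff μ t := by
  have hF := F_integrable μ hint hk hC
  have hswap := hF.swap
  have hinner : ∀ t, ∫ w, k t * ker w t ∂μ = k t * tailDiff μ t := by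
    intro t
    rw [integral_const_mul]
    congr 1
    unfold ker tailDiff
    have hi1 : Integrable (fun w : ℝ => (Iio w).indicator (1 : ℝ → ℝ) t) μ := by
      have e : (fun w : ℝ => (Iio w).indicator (1 : ℝ → ℝ) t) = (Ioi t).indicator 1 := by
        funext w
        by_cases h : t < w <;> simp [h]
      rw [e]
      exact (integrable_indicator_iff measurableSet_Ioi).mpr (integrableOn_const (by simp) (by simp))
    rw [integral_sub hi1 (integrable_const _)]
    have e : (fun w : ℝ => (Iio w).indicator (1 : ℝ → ℝ) t) = (Ioi t).indicator 1 := by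
      funext w
      by_cases h : t < w <;> simp [h]
    rw [e, integral_indicator measurableSet_Ioi]
    simp
  constructor
  · have := hswap.integral_prod_left
    refine this.congr ?_
    refine Eventually.of_forall fun t => ?_
    exact hinner t
  · have hI : ∀ w, ∫ t, k t * ker w t = h w - h 0 := fun w => by
      rw [ker_integral hk hC, hh]
    have hint_h : Integrable h μ := by
      have := hF.integral_prod_left
      refine (this.add (integrable_const (h 0))).congr ?_
      refine Eventually.of_forall fun w => ?_
      simp only [Function.uncurry, Pi.add_apply, hI w]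
      ring
    have e1 : ∫ w, (∫ t, k t * ker w t) ∂μ = ∫ t, (∫ w, k t * ker w t ∂μ) :=
      integral_integral_swap hF
    simp_rw [hI, hinner] at e1
    rw [integral_sub hint_h (integrable_const _)] at e1
    simp at e1
    linarith

end main

end Crest.Agent.Lib.S0423Tail
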