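import Mathlib
import Crest.Prelude.Def_TruncExpWeight
import Crest.Agent.Lib.S0423Family
import Crest.Agent.Lib.S0423Tail

/-!
The abstract inequality behind S0423: for a mean-zero probability measure on the line with a
log-concave continuous tail, `∫ g (4/3 + w) dμ ≤ 1 - (4/9) e^{-1/3}`.

The proof compares `μ` with the shifted exponential law whose log-tail is a chord of the log-tail
of `μ`, over two points at which the kernel `max y 0 * exp (-y)` takes the same value.
-/

namespace Crest.Agent.Lib.S0423Chord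

open MeasureTheory Set Filter Topology
open Crest.Agent.Lib.S0423Law Crest.Agent.Lib.S0423Approach Crest.Agent.Lib.S0423Family
open Crest.Agent.Lib.S0423Tail
open Crest.AlgGeometry

/-! ### Chord inequalities for concave functions -/

lemma chord_inside {f : ℝ → ℝ} {D : Set ℝ} (hf : ConcaveOn ℝ D f) {a b t : ℝ} (ha : a ∈ D)
    (hb : b ∈ D) (hab : a < b) (h1 : a ≤ t) (h2 : t ≤ b) :
    (b - t) * f a + (t - a) * f b ≤ (b - a) * f t := by
  have hba : 0 < b - a := by linarith
  have hne : b - a ≠ 0 := hba.ne'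
  have h := hf.2 ha hb (show (0:ℝ) ≤ (b - t) / (b - a) from div_nonneg (by linarith) hba.le)
    (show (0:ℝ) ≤ (t - a) / (b - a) from div_nonneg (by linarith) hba.le)
    (by field_simp; ring)
  have e : ((b - t) / (b - a)) • a + ((t - a) / (b - a)) • b = t := by
    simp only [smul_eq_mul]; field_simp; ring
  rw [e] at h
  simp only [smul_eq_mul] at h
  have h3 := mul_le_mul_of_nonneg_left h hba.le
  have e2 : (b - a) * ((b - t) / (b - a) * f a + (t - a) / (b - a) * f b) =
      (b - t) * f a + (t - a) * f b := by field_simp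
  rw [e2] at h3
  exact h3

lemma chord_outside {f : ℝ → ℝ} {D : Set ℝ} (hf : ConcaveOn ℝ D f) {a b t : ℝ} (ha : a ∈ D)
    (hb : b ∈ D) (ht : t ∈ D) (hab : a < b) (h : t ≤ a ∨ b ≤ t) :
    (b - a) * f t ≤ (b - t) * f a + (t - a) * f b := by
  rcases h with h | h
  · have := chord_inside hf ht hb (lt_of_le_of_lt h hab) h hab.le
    linarith
  · have := chord_inside hf ha ht (lt_of_lt_of_le hab h) hab.le h
    linarith

/-! ### The kernel -/

/-- The kernel `max y 0 * exp (-y)`. -/
noncomputable def psi (y : ℝ) : ℝ := max y 0 * Real.exp (-y)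

lemma psi_continuous : Continuous psi := by
  unfold psi; fun_prop

lemma psi_nonneg (y : ℝ) : 0 ≤ psi y :=
  mul_nonneg (le_max_right _ _) (Real.exp_pos _).le

lemma psi_le_one (y : ℝ) : psi y ≤ 1 := by
  unfold psi
  rcases le_total y 0 with h | h
  · rw [max_eq_right h]; simp
  · rw [max_eq_left h]
    have h1 : y + 1 ≤ Real.exp y := Real.add_one_le_exp y
    have h2 : Real.exp (-y) * Real.exp y = 1 := by
      rw [← Real.exp_add]; simp
    calc y * Real.exp (-y) ≤ Real.exp y * Real.exp (-y) :=
          mul_le_mul_of_nonneg_right (by linarith) (Real.exp_pos _).le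
      _ = 1 := by rw [mul_comm]; exact h2

lemma g_hasDerivAt (y : ℝ) : HasDerivAt truncExpWeight (-psi y) y := by
  rcases lt_trichotomy y 0 with h | h | h
  · have e : truncExpWeight =ᶠ[𝓝 y] fun _ => (1:ℝ) := by
      filter_upwards [Iio_mem_nhds h] with t ht
      unfold truncExpWeight
      rw [if_pos (le_of_lt ht)]
    have hp : psi y = 0 := by
      unfold psi; rw [max_eq_right h.le]; simp
    rw [hp, neg_zero]
    exact (hasDerivAt_const y (1:ℝ)).congr_of_eventuallyEq e
  · subst h
    have hp : psi 0 = 0 := by simp [psi]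
    rw [hp, neg_zero]
    have h1 : HasDerivWithinAt truncExpWeight 0 (Iic 0) 0 :=
      (hasDerivWithinAt_const (0:ℝ) (Iic 0) (1:ℝ)).congr
        (fun t ht => by unfold truncExpWeight; rw [if_pos (mem_Iic.mp ht)])
        (by unfold truncExpWeight; rw [if_pos le_rfl])
    have h2 : HasDerivWithinAt truncExpWeight 0 (Ici 0) 0 := by
      have := (kk_hasDerivAt 0).hasDerivWithinAt (s := Ici 0)
      have e0 : -((0:ℝ) * Real.exp (-0)) = 0 := by simp
      rw [e0] at this
      refine this.congr (fun t ht => ?_) ?_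
      · rw [truncExpWeight_eq, max_eq_left ht]
      · rw [truncExpWeight_eq, max_eq_left le_rfl]
    have h3 := h1.union h2
    rwa [Iic_union_Ici, hasDerivWithinAt_univ] at h3
  · have e : truncExpWeight =ᶠ[𝓝 y] kk := by
      filter_upwards [Ioi_mem_nhds h] with t ht
      rw [truncExpWeight_eq, max_eq_left (le_of_lt ht)]
    have hp : psi y = y * Real.exp (-y) := by
      unfold psi; rw [max_eq_left h.le]
    rw [hp]
    exact (kk_hasDerivAt y).congr_of_eventuallyEq e

lemma g_antitone : Antitone truncExpWeight := by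
  refine antitone_of_deriv_nonpos (fun y => (g_hasDerivAt y).differentiableAt) fun y => ?_
  rw [(g_hasDerivAt y).deriv]
  have := psi_nonneg y
  linarith

/-- The functional with kernel `lam - psi (c + t)`. -/
lemma h_ftc (c lam w : ℝ) :
    (truncExpWeight (c + w) + lam * w) - (truncExpWeight (c + 0) + lam * 0) =
      ∫ t in (0:ℝ)..w, (lam - psi (c + t)) := by
  have hd : ∀ t ∈ uIcc (0:ℝ) w, HasDerivAt (fun t => truncExpWeight (c + t) + lam * t)
      (lam - psi (c + t)) t := by
    intro t _
    have h1 : HasDerivAt (fun t : ℝ => truncExpWeight (c + t)) (-psi (c + t)) t := by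
      exact HasDerivAt.comp_const_add c t (g_hasDerivAt (c + t))
    have h2 : HasDerivAt (fun t : ℝ => lam * t) lam t := by
      simpa using (hasDerivAt_id t).const_mul lam
    have := h1.add h2
    have e : -psi (c + t) + lam = lam - psi (c + t) := by ring
    rw [e] at this
    exact this
  have hc : IntervalIntegrable (fun t => lam - psi (c + t)) volume 0 w := by
    have : Continuous fun t => lam - psi (c + t) := by
      have := psi_continuous
      fun_prop
    exact this.intervalIntegrable _ _
  rw [intervalIntegral.integral_eq_sub_of_hasDerivAt hd hc]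

/-! ### The level parametrization -/

/-- The lower level point. -/
noncomputable def q1 (x : ℝ) : ℝ := x / (Real.exp x - 1)

lemma exp_sub_one_pos {x : ℝ} (hx : 0 < x) : 0 < Real.exp x - 1 := by
  have := Real.add_one_lt_exp hx.ne'
  linarith

lemma q1_pos {x : ℝ} (hx : 0 < x) : 0 < q1 x := div_pos hx (exp_sub_one_pos hx)

lemma q1_lt_one {x : ℝ} (hx : 0 < x) : q1 x < 1 := by
  unfold q1
  rw [div_lt_one (exp_sub_one_pos hx)]
  have := Real.add_one_lt_exp hx.ne'
  linarith

lemma q1_le {x : ℝ} (hx : 0 < x) : q1 x ≤ 2 / x := by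
  unfold q1
  rw [div_le_div_iff₀ (exp_sub_one_pos hx) hx]
  have := Real.quadratic_le_exp_of_nonneg hx.le
  nlinarith

lemma q1_add (x : ℝ) (hx : 0 < x) : q1 x + x = q1 x * Real.exp x := by
  unfold q1
  have := (exp_sub_one_pos hx).ne'
  field_simp
  ring

lemma q1_continuousOn : ContinuousOn q1 (Ioi 0) := by
  unfold q1
  refine continuousOn_id.div (by fun_prop) fun x hx => (exp_sub_one_pos hx).ne'

lemma phi_concave : ConcaveOn ℝ (Ioi 0) fun y : ℝ => Real.log y - y :=
  strictConcaveOn_log_Ioi.concaveOn.sub (convexOn_id (convex_Ioi 0))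

/-- The common value of the kernel at the two level points. -/
noncomputable def lam (x : ℝ) : ℝ := q1 x * Real.exp (-q1 x)

lemma lam_pos {x : ℝ} (hx : 0 < x) : 0 < lam x := mul_pos (q1_pos hx) (Real.exp_pos _)

lemma lam_le {x : ℝ} (hx : 0 < x) : lam x ≤ 2 / x := by
  unfold lam
  have h1 : Real.exp (-q1 x) ≤ 1 := by
    rw [Real.exp_le_one_iff]; linarith [q1_pos hx]
  calc q1 x * Real.exp (-q1 x) ≤ q1 x * 1 :=
        mul_le_mul_of_nonneg_left h1 (q1_pos hx).le
    _ ≤ 2 / x := by rw [mul_one]; exact q1_le hx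

lemma lam_eq_exp {x : ℝ} (hx : 0 < x) : lam x = Real.exp (Real.log (q1 x) - q1 x) := by
  unfold lam
  rw [sub_eq_add_neg, Real.exp_add, Real.exp_log (q1_pos hx)]

lemma phi_q2 {x : ℝ} (hx : 0 < x) :
    Real.log (q1 x + x) - (q1 x + x) = Real.log (q1 x) - q1 x := by
  rw [q1_add x hx, Real.log_mul (q1_pos hx).ne' (Real.exp_pos x).ne', Real.log_exp,
    ← q1_add x hx]
  ring

lemma psi_eq_exp {y : ℝ} (hy : 0 < y) : psi y = Real.exp (Real.log y - y) := by
  unfold psi
  rw [max_eq_left hy.le, sub_eq_add_neg, Real.exp_add, Real.exp_log hy]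

/-- The kernel is above its level between the two level points. -/
lemma psi_ge_lam {x y : ℝ} (hx : 0 < x) (h1 : q1 x ≤ y) (h2 : y ≤ q1 x + x) : lam x ≤ psi y := by
  have hq := q1_pos hx
  have hy : 0 < y := lt_of_lt_of_le hq h1
  rw [psi_eq_exp hy, lam_eq_exp hx, Real.exp_le_exp]
  have h := chord_inside phi_concave (a := q1 x) (b := q1 x + x) (t := y) hq
    (by simp only [mem_Ioi]; linarith) (by linarith) h1 h2
  rw [phi_q2 hx] at h
  have e : (q1 x + x - y) * (Real.log (q1 x) - q1 x) + (y - q1 x) * (Real.log (q1 x) - q1 x) =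
      x * (Real.log (q1 x) - q1 x) := by ring
  rw [e, add_sub_cancel_left] at h
  exact le_of_mul_le_mul_left h hx

/-- The kernel is below its level outside the two level points. -/
lemma psi_le_lam {x y : ℝ} (hx : 0 < x) (h : y ≤ q1 x ∨ q1 x + x ≤ y) : psi y ≤ lam x := by
  have hq := q1_pos hx
  rcases le_or_gt y 0 with hy | hy
  · have : psi y = 0 := by
      unfold psi; rw [max_eq_right hy]; simp
    rw [this]; exact (lam_pos hx).le
  rw [psi_eq_exp hy, lam_eq_exp hx, Real.exp_le_exp]
  have h' := chord_outside phi_concave (a := q1 x) (b := q1 x + x) (t := y) hq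
    (by simp only [mem_Ioi]; linarith) hy (by linarith) h
  rw [phi_q2 hx] at h'
  have e : (q1 x + x - y) * (Real.log (q1 x) - q1 x) + (y - q1 x) * (Real.log (q1 x) - q1 x) =
      x * (Real.log (q1 x) - q1 x) := by ring
  rw [e, add_sub_cancel_left] at h'
  exact le_of_mul_le_mul_left h' hx

/-! ### Shifted exponential laws -/

/-- The law of `τ + s U` with `U` exponential. -/
noncomputable def shiftLaw (τ s : ℝ) : Measure ℝ := expLaw.map fun u => τ + s * u

lemma shift_measurable (τ s : ℝ) : Measurable fun u : ℝ => τ + s * u := by fun_prop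

instance shiftLaw_isProb (τ s : ℝ) : IsProbabilityMeasure (shiftLaw τ s) :=
  Measure.isProbabilityMeasure_map (shift_measurable τ s).aemeasurable

lemma shiftLaw_integral (τ s : ℝ) {f : ℝ → ℝ} (hf : Measurable f) :
    ∫ w, f w ∂(shiftLaw τ s) = ∫ u, f (τ + s * u) ∂expLaw :=
  integral_map (shift_measurable τ s).aemeasurable hf.aestronglyMeasurable

lemma shift_integrable (τ s : ℝ) : Integrable (fun u : ℝ => τ + s * u) expLaw :=
  (integrable_const τ).add (expLaw_integrable_id.const_mul s)

lemma shiftLaw_integrable_id (τ s : ℝ) : Integrable (fun w : ℝ => w) (shiftLaw τ s) := by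
  unfold shiftLaw
  rw [integrable_map_measure (by fun_prop) (shift_measurable τ s).aemeasurable]
  exact shift_integrable τ s

lemma shift_mean (τ s : ℝ) : ∫ u, (τ + s * u) ∂expLaw = τ + s := by
  rw [integral_add (integrable_const τ) (expLaw_integrable_id.const_mul s), integral_const_mul,
    expLaw_mean]
  simp

/-- The tail of the shifted exponential law. -/
noncomputable def tildeS (τ s t : ℝ) : ℝ := Real.exp (-max ((t - τ) / s) 0)

lemma shiftLaw_tail {τ s : ℝ} (hs : 0 < s) (t : ℝ) :
    (shiftLaw τ s).real (Ioi t) = tildeS τ s t := by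
  unfold Measure.real shiftLaw
  rw [Measure.map_apply (shift_measurable τ s) measurableSet_Ioi]
  have e : (fun u : ℝ => τ + s * u) ⁻¹' Ioi t = Ioi ((t - τ) / s) := by
    ext u
    simp only [mem_preimage, mem_Ioi]
    rw [div_lt_iff₀ hs]
    constructor <;> intro h <;> linarith
  rw [e]
  unfold tildeS
  rcases le_total ((t - τ) / s) 0 with h | h
  · have := expLaw_Ioi_real_of_neg h
    unfold Measure.real at this
    rw [this, max_eq_right h]; simp
  · have := expLaw_Ioi_real h
    unfold Measure.real at this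
    rw [this, max_eq_left h]

/-! ### Comparison through tails -/

lemma compare (μ ν : Measure ℝ) [IsProbabilityMeasure μ] [IsProbabilityMeasure ν]
    (hμ : Integrable (fun w : ℝ => w) μ) (hν : Integrable (fun w : ℝ => w) ν)
    {k : ℝ → ℝ} (hk : Measurable k) {C : ℝ} (hC : ∀ t, |k t| ≤ C) {h : ℝ → ℝ}
    (hh : ∀ w, h w - h 0 = ∫ t in (0:ℝ)..w, k t)
    (hsign : ∀ t, k t * (μ.real (Ioi t) - ν.real (Ioi t)) ≤ 0) :
    ∫ w, h w ∂μ ≤ ∫ w, h w ∂ν := by
  obtain ⟨i1, e1⟩ := tail_formula μ hμ hk hC hh
  obtain ⟨i2, e2⟩ := tail_formula ν hν hk hC hh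
  rw [e1, e2]
  have : ∫ t, k t * tailDiff μ t ≤ ∫ t, k t * tailDiff ν t := by
    refine integral_mono i1 i2 fun t => ?_
    have := hsign t
    simp only [tailDiff]
    nlinarith
  linarith

/-- The mean as an integral of the tail difference. -/
lemma mean_eq (μ : Measure ℝ) [IsProbabilityMeasure μ] (hμ : Integrable (fun w : ℝ => w) μ) :
    Integrable (tailDiff μ) ∧ ∫ w, w ∂μ = ∫ t, tailDiff μ t := by
  have hh : ∀ w : ℝ, w - 0 = ∫ _t in (0:ℝ)..w, (1:ℝ) := by
    intro w; simp
  obtain ⟨i1, e1⟩ := tail_formula μ hμ (k := fun _ => 1) measurable_const (C := 1)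
    (fun _ => by simp) (h := fun w => w) hh
  simp only [one_mul, zero_add] at i1 e1
  exact ⟨i1, e1⟩

end Crest.Agent.Lib.S0423Chord
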