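import Mathlib
import Crest.Agent.Lib.S0423Chord

/-!
The abstract inequality behind S0423: for a mean-zero probability measure on the line with a
log-concave continuous tail, `∫ g (4/3 + w) dμ ≤ 1 - (4/9) e^{-1/3}`.
-/

namespace Crest.Agent.Lib.S0423Abstract

set_option linter.unusedSectionVars false

open MeasureTheory Set Filter Topology
open Crest.Agent.Lib.S0423Law Crest.Agent.Lib.S0423Approach Crest.Agent.Lib.S0423Family
open Crest.Agent.Lib.S0423Tail Crest.Agent.Lib.S0423Chord
open Crest.AlgGeometry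

/-- The log-tail. -/
noncomputable def LL (μ : Measure ℝ) (t : ℝ) : ℝ := Real.log (μ.real (Ioi t))

/-- The hypotheses of the abstract theorem. -/
structure Good (μ : Measure ℝ) : Prop where
  hint : Integrable (fun x : ℝ => x) μ
  hmean : ∫ x, x ∂μ = 0
  hpos : ∀ t, 0 < μ.real (Ioi t)
  hlt : ∀ t, μ.real (Ioi t) < 1
  hcont : Continuous fun t => μ.real (Ioi t)
  hconc : ConcaveOn ℝ univ (LL μ)

variable {μ : Measure ℝ} [IsProbabilityMeasure μ]

lemma S_anti {t u : ℝ} (h : t ≤ u) : μ.real (Ioi u) ≤ μ.real (Ioi t) :=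
  measureReal_mono (Ioi_subset_Ioi h)

lemma S_tendsto : Tendsto (fun t => μ.real (Ioi t)) atBot (𝓝 1) := by
  have h := ProbabilityTheory.tendsto_cdf_atBot μ
  have e : ∀ t, μ.real (Ioi t) = 1 - ProbabilityTheory.cdf μ t := by
    intro t
    rw [ProbabilityTheory.cdf_eq_real, ← compl_Iic, probReal_compl_eq_one_sub measurableSet_Iic]
  simp_rw [e]
  simpa using h.const_sub 1

namespace Good

variable (H : Good μ)
include H

lemma LL_neg (t : ℝ) : LL μ t < 0 := Real.log_neg (H.hpos t) (H.hlt t)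

lemma LL_anti {t u : ℝ} (h : t ≤ u) : LL μ u ≤ LL μ t :=
  Real.log_le_log (H.hpos u) (S_anti h)

lemma exp_LL (t : ℝ) : Real.exp (LL μ t) = μ.real (Ioi t) := Real.exp_log (H.hpos t)

lemma LL_continuous : Continuous (LL μ) := H.hcont.log fun t => (H.hpos t).ne'

lemma LL_strict {t u : ℝ} (h : t < u) : LL μ u < LL μ t := by
  by_contra hcon
  push Not at hcon
  have key : ∀ r, r < t → LL μ r ≤ LL μ t := by
    intro r hr
    have h0 := chord_inside H.hconc (mem_univ r) (mem_univ u) (hr.trans h) hr.le h.le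
    have h1 : (t - r) * LL μ t ≤ (t - r) * LL μ u :=
      mul_le_mul_of_nonneg_left hcon (by linarith)
    have h2 : (u - t) * LL μ r ≤ (u - t) * LL μ t := by nlinarith
    exact le_of_mul_le_mul_left h2 (by linarith)
  have hS : ∀ᶠ r in atBot, μ.real (Ioi r) ≤ μ.real (Ioi t) := by
    filter_upwards [Iio_mem_atBot t] with r hr
    rw [← H.exp_LL r, ← H.exp_LL t, Real.exp_le_exp]
    exact key r hr
  have := le_of_tendsto S_tendsto hS
  linarith [H.hlt t]

end Good

/-- The left level point (shifted). -/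
noncomputable def pp (x : ℝ) : ℝ := q1 x - 4 / 3
/-- The right level point (shifted). -/
noncomputable def qq (x : ℝ) : ℝ := q1 x + x - 4 / 3
/-- The chord gap. -/
noncomputable def DD (μ : Measure ℝ) (x : ℝ) : ℝ := LL μ (pp x) - LL μ (qq x)
/-- The scale of the chord law. -/
noncomputable def ss (μ : Measure ℝ) (x : ℝ) : ℝ := x / DD μ x
/-- The location of the chord law. -/
noncomputable def tt (μ : Measure ℝ) (x : ℝ) : ℝ := pp x + LL μ (pp x) * ss μ x
/-- The mean of the chord law. -/
noncomputable def mm (μ : Measure ℝ) (x : ℝ) : ℝ := tt μ x + ss μ x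

/-- A uniform lower bound for the slope. -/
noncomputable def b0 (μ : Measure ℝ) : ℝ := LL μ (-(4 / 3) - 1) - LL μ (-(4 / 3))

/-- Uniform lower bound for the location. -/
noncomputable def t0 (μ : Measure ℝ) : ℝ := -(4 / 3) + LL μ (-(1 / 3)) * (1 / b0 μ)

/-- A uniform gap. -/
noncomputable def k0 (μ : Measure ℝ) : ℝ := 1 - μ.real (Ioi (t0 μ - 1))

lemma tilde_mem {τ s t : ℝ} : 0 ≤ tildeS τ s t ∧ tildeS τ s t ≤ 1 := by
  unfold tildeS
  refine ⟨(Real.exp_pos _).le, ?_⟩
  rw [Real.exp_le_one_iff]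
  have := le_max_right ((t - τ) / s) 0
  linarith

lemma pp_lt_qq {x : ℝ} (hx : 0 < x) : pp x < qq x := by
  unfold pp qq; linarith

namespace Good

variable (H : Good μ)
include H

lemma DD_pos {x : ℝ} (hx : 0 < x) : 0 < DD μ x := by
  unfold DD
  have := H.LL_strict (pp_lt_qq hx)
  linarith

lemma ss_pos {x : ℝ} (hx : 0 < x) : 0 < ss μ x := div_pos hx (H.DD_pos hx)

lemma ell_eq {x : ℝ} (hx : 0 < x) (t : ℝ) :
    (t - tt μ x) / ss μ x = (t - pp x) * DD μ x / x - LL μ (pp x) := by
  have hD := (H.DD_pos hx).ne'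
  have hxne := hx.ne'
  unfold tt ss
  field_simp
  ring

lemma chord_in {x t : ℝ} (hx : 0 < x) (h1 : pp x ≤ t) (h2 : t ≤ qq x) :
    -((t - tt μ x) / ss μ x) ≤ LL μ t := by
  rw [H.ell_eq hx]
  have h := chord_inside H.hconc (mem_univ (pp x)) (mem_univ (qq x)) (pp_lt_qq hx) h1 h2
  have e : qq x - pp x = x := by unfold pp qq; ring
  rw [e] at h
  have h3 : -((t - pp x) * DD μ x / x - LL μ (pp x)) =
      (x * LL μ (pp x) - (t - pp x) * DD μ x) / x := by
    field_simp
    ring
  rw [h3, div_le_iff₀ hx]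
  unfold DD
  have e2 : qq x - t = x - (t - pp x) := by linarith
  rw [e2] at h
  linarith

lemma chord_out {x t : ℝ} (hx : 0 < x) (h : t ≤ pp x ∨ qq x ≤ t) :
    LL μ t ≤ -((t - tt μ x) / ss μ x) := by
  rw [H.ell_eq hx]
  have h' := chord_outside H.hconc (mem_univ (pp x)) (mem_univ (qq x)) (mem_univ t) (pp_lt_qq hx) h
  have e : qq x - pp x = x := by unfold pp qq; ring
  rw [e] at h'
  have h3 : -((t - pp x) * DD μ x / x - LL μ (pp x)) =
      (x * LL μ (pp x) - (t - pp x) * DD μ x) / x := by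
    field_simp
    ring
  rw [h3, le_div_iff₀ hx]
  unfold DD
  have e2 : qq x - t = x - (t - pp x) := by linarith
  rw [e2] at h'
  linarith

lemma tilde_le_S {x t : ℝ} (hx : 0 < x) (h1 : pp x ≤ t) (h2 : t ≤ qq x) :
    tildeS (tt μ x) (ss μ x) t ≤ μ.real (Ioi t) := by
  unfold tildeS
  rw [← H.exp_LL t, Real.exp_le_exp]
  have := H.chord_in hx h1 h2
  have h3 := le_max_left ((t - tt μ x) / ss μ x) 0
  linarith

lemma S_le_tilde {x t : ℝ} (hx : 0 < x) (h : t ≤ pp x ∨ qq x ≤ t) :
    μ.real (Ioi t) ≤ tildeS (tt μ x) (ss μ x) t := by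
  unfold tildeS
  rw [← H.exp_LL t, Real.exp_le_exp, le_neg, max_le_iff]
  have := H.chord_out hx h
  have h3 := H.LL_neg t
  constructor <;> linarith

/-- The comparison with the chord law. -/
theorem main_ineq {x : ℝ} (hx : 0 < x) :
    ∫ w, truncExpWeight (4 / 3 + w) ∂μ ≤
      ∫ u, truncExpWeight (4 / 3 + (tt μ x + ss μ x * u)) ∂expLaw + lam x * mm μ x := by
  have hs := H.ss_pos hx
  have hk : Measurable fun t : ℝ => lam x - psi (4 / 3 + t) := by
    have := psi_continuous
    exact (by fun_prop : Continuous fun t : ℝ => lam x - psi (4 / 3 + t)).measurable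
  have hC : ∀ t : ℝ, |lam x - psi (4 / 3 + t)| ≤ lam x + 1 := by
    intro t
    have h1 := psi_nonneg (4 / 3 + t)
    have h2 := psi_le_one (4 / 3 + t)
    have h3 := lam_pos hx
    rw [abs_le]
    constructor <;> linarith
  have hh : ∀ w : ℝ, (fun w => truncExpWeight (4 / 3 + w) + lam x * w) w -
      (fun w => truncExpWeight (4 / 3 + w) + lam x * w) 0 =
      ∫ t in (0:ℝ)..w, (lam x - psi (4 / 3 + t)) := fun w => h_ftc (4 / 3) (lam x) w
  have hsign : ∀ t, (lam x - psi (4 / 3 + t)) *
      (μ.real (Ioi t) - (shiftLaw (tt μ x) (ss μ x)).real (Ioi t)) ≤ 0 := by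
    intro t
    rw [shiftLaw_tail hs]
    by_cases hin : pp x ≤ t ∧ t ≤ qq x
    · have h1 : lam x ≤ psi (4 / 3 + t) := by
        refine psi_ge_lam hx ?_ ?_
        · have := hin.1; unfold pp at this; linarith
        · have := hin.2; unfold qq at this; linarith
      have h2 := H.tilde_le_S hx hin.1 hin.2
      exact mul_nonpos_of_nonpos_of_nonneg (by linarith) (by linarith)
    · have hout : t ≤ pp x ∨ qq x ≤ t := by
        by_contra hcon
        push Not at hcon
        exact hin ⟨hcon.1.le, hcon.2.le⟩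
      have h1 : psi (4 / 3 + t) ≤ lam x := by
        refine psi_le_lam hx ?_
        rcases hout with h | h
        · left; unfold pp at h; linarith
        · right; unfold qq at h; linarith
      have h2 := H.S_le_tilde hx hout
      exact mul_nonpos_of_nonneg_of_nonpos (by linarith) (by linarith)
  have hcomp := compare μ (shiftLaw (tt μ x) (ss μ x)) H.hint (shiftLaw_integrable_id _ _)
    hk hC hh hsign
  have hg := truncExpWeight_continuous
  have hgm : Measurable fun w : ℝ => truncExpWeight (4 / 3 + w) :=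
    (by fun_prop : Continuous fun w : ℝ => truncExpWeight (4 / 3 + w)).measurable
  -- left side
  have hL : ∫ w, (truncExpWeight (4 / 3 + w) + lam x * w) ∂μ =
      ∫ w, truncExpWeight (4 / 3 + w) ∂μ := by
    rw [integral_add (integrable_truncExpWeight_comp μ (by fun_prop)) (H.hint.const_mul _),
      integral_const_mul, H.hmean]
    ring
  -- right side
  have hR : ∫ w, (truncExpWeight (4 / 3 + w) + lam x * w) ∂(shiftLaw (tt μ x) (ss μ x)) =
      ∫ u, truncExpWeight (4 / 3 + (tt μ x + ss μ x * u)) ∂expLaw + lam x * mm μ x := by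
    have hm : Measurable fun w : ℝ => truncExpWeight (4 / 3 + w) + lam x * w :=
      hgm.add (by fun_prop)
    rw [shiftLaw_integral _ _ hm,
      integral_add (integrable_truncExpWeight_comp expLaw (by fun_prop))
        ((shift_integrable _ _).const_mul _), integral_const_mul, shift_mean]
    rfl
  rw [hL, hR] at hcomp
  exact hcomp

/-- The bound when the chord law has nonnegative mean. -/
theorem step2 {x : ℝ} (hx : 0 < x) (hm : 0 ≤ mm μ x) :
    ∫ w, truncExpWeight (4 / 3 + w) ∂μ ≤ 1 - 4 / 9 * Real.exp (-(1/3)) + lam x * mm μ x := by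
  have hs := H.ss_pos hx
  have h1 := H.main_ineq hx
  have h2 : ∫ u, truncExpWeight (4 / 3 + (tt μ x + ss μ x * u)) ∂expLaw ≤
      ∫ u, truncExpWeight (4 / 3 - ss μ x + ss μ x * u) ∂expLaw := by
    refine integral_mono (integrable_truncExpWeight_comp expLaw (by fun_prop))
      (integrable_truncExpWeight_comp expLaw (by fun_prop)) fun u => ?_
    refine g_antitone ?_
    unfold mm at hm
    linarith
  have h3 := family_bound hs
  linarith

/-! ### Uniform bounds -/

lemma b0_pos : 0 < b0 μ := by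
  unfold b0
  have := H.LL_strict (t := -(4 / 3) - 1) (u := -(4 / 3)) (by norm_num)
  linarith

lemma slope_bound {x : ℝ} (hx : 0 < x) : x * b0 μ ≤ DD μ x := by
  have hq := q1_pos hx
  have hp : -(4 / 3 : ℝ) < pp x := by unfold pp; linarith
  have hpq := pp_lt_qq hx
  have h1 := H.hconc.slope_anti_adjacent (mem_univ (-(4 / 3 : ℝ) - 1)) (mem_univ (pp x))
    (y := -(4 / 3)) (by norm_num) hp
  have h2 := H.hconc.slope_anti_adjacent (mem_univ (-(4 / 3 : ℝ))) (mem_univ (qq x))
    (y := pp x) hp hpq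
  have e : qq x - pp x = x := by unfold pp qq; ring
  have e2 : -(4 / 3 : ℝ) - (-(4 / 3) - 1) = 1 := by norm_num
  rw [e] at h2
  rw [e2, div_one] at h1
  have h3 := h2.trans h1
  rw [div_le_iff₀ hx] at h3
  unfold DD b0
  nlinarith

lemma ss_le {x : ℝ} (hx : 0 < x) : ss μ x ≤ 1 / b0 μ := by
  unfold ss
  rw [div_le_div_iff₀ (H.DD_pos hx) (H.b0_pos)]
  have := H.slope_bound hx
  linarith

lemma t0_le {x : ℝ} (hx : 0 < x) : t0 μ ≤ tt μ x := by
  have hq := q1_pos hx
  have hq1 := q1_lt_one hx
  have hs := H.ss_pos hx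
  have hs' := H.ss_le hx
  have hA : LL μ (-(1 / 3)) ≤ LL μ (pp x) := H.LL_anti (by unfold pp; linarith)
  have hA0 := H.LL_neg (-(1 / 3))
  unfold t0 tt
  have h1 : -(4 / 3 : ℝ) ≤ pp x := by unfold pp; linarith
  have h2 : LL μ (-(1 / 3)) * (1 / b0 μ) ≤ LL μ (-(1 / 3)) * ss μ x :=
    mul_le_mul_of_nonpos_left hs' hA0.le
  have h3 : LL μ (-(1 / 3)) * ss μ x ≤ LL μ (pp x) * ss μ x :=
    mul_le_mul_of_nonneg_right hA hs.le
  linarith

lemma tt_lt_pp {x : ℝ} (hx : 0 < x) : tt μ x < pp x := by
  unfold tt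
  have := mul_neg_of_neg_of_pos (H.LL_neg (pp x)) (H.ss_pos hx)
  linarith

lemma k0_pos : 0 < k0 μ := by
  unfold k0
  have := H.hlt (t0 μ - 1)
  linarith

/-- The mean of the chord law is bounded below. -/
theorem mm_ge {x : ℝ} (hx : 0 < x) : k0 μ - x ≤ mm μ x := by
  have hs := H.ss_pos hx
  obtain ⟨i1, e1⟩ := mean_eq μ H.hint
  obtain ⟨i2, e2⟩ := mean_eq (shiftLaw (tt μ x) (ss μ x)) (shiftLaw_integrable_id _ _)
  have e3 : ∫ w, w ∂(shiftLaw (tt μ x) (ss μ x)) = mm μ x := by
    rw [shiftLaw_integral _ _ measurable_id']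
    exact shift_mean _ _
  rw [H.hmean] at e1
  rw [e3] at e2
  -- the bounding function
  set B : ℝ → ℝ := fun t => (k0 μ) * (Ico (tt μ x - 1) (tt μ x)).indicator 1 t -
    (Icc (pp x) (qq x)).indicator 1 t with hB
  have hi1 : Integrable ((Ico (tt μ x - 1) (tt μ x)).indicator (1 : ℝ → ℝ)) :=
    (integrable_indicator_iff measurableSet_Ico).mpr (integrableOn_const (by simp) (by simp))
  have hi2 : Integrable ((Icc (pp x) (qq x)).indicator (1 : ℝ → ℝ)) :=
    (integrable_indicator_iff measurableSet_Icc).mpr (integrableOn_const (by simp) (by simp))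
  have hBint : Integrable B := (hi1.const_mul _).sub hi2
  have hBval : ∫ t, B t = k0 μ - x := by
    rw [hB, integral_sub (hi1.const_mul _) hi2, integral_const_mul,
      integral_indicator measurableSet_Ico, integral_indicator measurableSet_Icc]
    have e4 : qq x - pp x = x := by unfold pp qq; ring
    simp only [Pi.one_def, integral_const, MeasurableSet.univ, measureReal_restrict_apply,
      univ_inter, Real.volume_real_Ico, Real.volume_real_Icc, smul_eq_mul, mul_one]
    rw [e4, max_eq_left hx.le, max_eq_left (by norm_num)]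
    norm_num
  have hpt : ∀ t, B t ≤ tailDiff (shiftLaw (tt μ x) (ss μ x)) t - tailDiff μ t := by
    intro t
    unfold tailDiff
    rw [shiftLaw_tail hs]
    have hS1 : μ.real (Ioi t) < 1 := H.hlt t
    have hS0 : 0 < μ.real (Ioi t) := H.hpos t
    have hT := tilde_mem (τ := tt μ x) (s := ss μ x) (t := t)
    rw [hB]
    simp only
    by_cases hin : t ∈ Icc (pp x) (qq x)
    · have hnot : t ∉ Ico (tt μ x - 1) (tt μ x) := by
        intro h
        have := H.tt_lt_pp hx
        linarith [h.2, hin.1]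
      rw [indicator_of_mem hin, indicator_of_notMem hnot]
      simp only [Pi.one_apply, mul_zero]
      linarith
    · rw [indicator_of_notMem hin]
      have hout : t ≤ pp x ∨ qq x ≤ t := by
        by_contra hcon
        push Not at hcon
        exact hin ⟨hcon.1.le, hcon.2.le⟩
      have hSle := H.S_le_tilde hx hout
      by_cases hin2 : t ∈ Ico (tt μ x - 1) (tt μ x)
      · rw [indicator_of_mem hin2]
        simp only [Pi.one_apply, mul_one]
        -- `tildeS = 1` and `S t ≤ S (t0 - 1)`
        have h1 : tildeS (tt μ x) (ss μ x) t = 1 := by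
          unfold tildeS
          have : (t - tt μ x) / ss μ x ≤ 0 :=
            div_nonpos_of_nonpos_of_nonneg (by linarith [hin2.2]) hs.le
          rw [max_eq_right this]
          simp
        have h2 : μ.real (Ioi t) ≤ μ.real (Ioi (t0 μ - 1)) := by
          apply S_anti
          have := H.t0_le hx
          linarith [hin2.1]
        unfold k0
        rw [h1]
        linarith
      · rw [indicator_of_notMem hin2]
        simp only [mul_zero, sub_zero]
        linarith
  have hmono : ∫ t, B t ≤ ∫ t, (tailDiff (shiftLaw (tt μ x) (ss μ x)) t - tailDiff μ t) :=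
    integral_mono hBint (i2.sub i1) hpt
  rw [hBval, integral_sub i2 i1, ← e1, ← e2, sub_zero] at hmono
  exact hmono

/-- Continuity of the mean of the chord law in the parameter. -/
lemma mm_continuousOn : ContinuousOn (mm μ) (Ioi 0) := by
  have hq1 := q1_continuousOn
  have hp : ContinuousOn pp (Ioi 0) := by
    unfold pp
    exact hq1.sub continuousOn_const
  have hq : ContinuousOn qq (Ioi 0) := by
    unfold qq
    exact (hq1.add continuousOn_id).sub continuousOn_const
  have hL := H.LL_continuous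
  have hLp : ContinuousOn (fun x => LL μ (pp x)) (Ioi 0) := hL.comp_continuousOn hp
  have hLq : ContinuousOn (fun x => LL μ (qq x)) (Ioi 0) := hL.comp_continuousOn hq
  have hD : ContinuousOn (DD μ) (Ioi 0) := hLp.sub hLq
  have hs : ContinuousOn (ss μ) (Ioi 0) :=
    continuousOn_id.div hD fun x hx => (H.DD_pos hx).ne'
  have ht : ContinuousOn (tt μ) (Ioi 0) := hp.add (hLp.mul hs)
  exact ht.add hs

lemma mm_le {x : ℝ} (hx : 0 < x) : mm μ x ≤ 1 + 1 / b0 μ := by
  have hs := H.ss_pos hx
  have hs' := H.ss_le hx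
  have hq1 := q1_lt_one hx
  have := mul_neg_of_neg_of_pos (H.LL_neg (pp x)) hs
  unfold mm tt pp
  unfold pp at this
  linarith

end Good

/-- The abstract inequality. -/
theorem abstract_bound (H : Good μ) :
    ∫ w, truncExpWeight (4 / 3 + w) ∂μ ≤ 1 - 4 / 9 * Real.exp (-(1/3)) := by
  have hk := H.k0_pos
  by_cases hex : ∃ x, 0 < x ∧ mm μ x ≤ 0
  · obtain ⟨x, hx, hmx⟩ := hex
    have hx1 : 0 < k0 μ / 2 := by linarith
    have hm1 : 0 < mm μ (k0 μ / 2) := by
      have := H.mm_ge hx1
      linarith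
    have hsub : uIcc x (k0 μ / 2) ⊆ Ioi 0 := by
      intro y hy
      rcases mem_uIcc.mp hy with h | h
      · exact lt_of_lt_of_le hx h.1
      · exact lt_of_lt_of_le hx1 h.1
    have hIVT := intermediate_value_uIcc (H.mm_continuousOn.mono hsub)
    have h0 : (0:ℝ) ∈ uIcc (mm μ x) (mm μ (k0 μ / 2)) :=
      mem_uIcc.mpr (Or.inl ⟨hmx, hm1.le⟩)
    obtain ⟨x₀, hx₀, hm₀⟩ := hIVT h0
    have hx₀pos : 0 < x₀ := hsub hx₀
    have := H.step2 hx₀pos hm₀.ge
    rw [hm₀, mul_zero, add_zero] at this
    exact this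
  · push Not at hex
    refine le_of_forall_pos_le_add fun ε hε => ?_
    have hb := H.b0_pos
    set M : ℝ := 1 + 1 / b0 μ with hM
    have hMpos : 0 < M := by positivity
    set x : ℝ := 2 * M / ε with hxdef
    have hx : 0 < x := by positivity
    have hmpos := hex x hx
    have h1 := H.step2 hx hmpos.le
    have h2 : lam x * mm μ x ≤ 2 / x * M :=
      mul_le_mul (lam_le hx) (H.mm_le hx) hmpos.le (by positivity)
    have h3 : 2 / x * M = ε := by
      rw [hxdef]
      field_simp
    linarith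

end Crest.Agent.Lib.S0423Abstract
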