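import Crest.Agent.Lib.S0423A

set_option autoImplicit false

namespace Crest.Agent.Lib.S0423A

open MeasureTheory Set Filter Topology

namespace Good

variable {Ξ : ℝ → ℝ} {c : ℝ} (h : Good Ξ c)
include h

/-- `P(Y > E Y) ≥ 1/e` (Grünbaum) -/
lemma G_c_le_one : GG Ξ c ≤ 1 := by
  by_contra hcon
  push Not at hcon
  have hG := h.G_continuous
  have hΞc : Continuous Ξ := by
    have e : Ξ = fun x => Real.exp (- GG Ξ x) := by
      ext x; rw [h.exp_neg_G]
    rw [e]
    exact (hG.neg).rexp
  -- choose a small step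
  have hev1 : ∀ᶠ x in 𝓝[>] c, GG Ξ x - GG Ξ c < 1 := by
    have : Tendsto (fun x => GG Ξ x - GG Ξ c) (𝓝 c) (𝓝 0) := by
      have := (hG.tendsto c).sub_const (GG Ξ c)
      simpa using this
    exact (this.mono_left nhdsWithin_le_nhds).eventually (gt_mem_nhds one_pos)
  have hev2 : ∀ᶠ x in 𝓝[>] c, Ξ c - Ξ x < GG Ξ c - 1 := by
    have : Tendsto (fun x => Ξ c - Ξ x) (𝓝 c) (𝓝 0) := by
      have := (hΞc.tendsto c).const_sub (Ξ c)
      simpa using this
    exact (this.mono_left nhdsWithin_le_nhds).eventually (gt_mem_nhds (by linarith))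
  obtain ⟨d, hd1, hd2, hd3⟩ := (hev1.and (hev2.and eventually_mem_nhdsWithin)).exists
  have hcd : c < d := hd3
  set ε := d - c with hε
  have hε0 : 0 < ε := sub_pos.2 hcd
  have hGs : GG Ξ c < GG Ξ d := h.G_strict hcd
  set σ := (GG Ξ d - GG Ξ c) / ε with hσ
  have hσ0 : 0 < σ := div_pos (sub_pos.2 hGs) hε0
  set A := 1 / σ with hAdef
  have hA : 0 < A := by positivity
  have hGc0 := h.G_pos c
  set b := c - A * GG Ξ c with hbdef
  have hb : b < c := by
    have : 0 < A * GG Ξ c := mul_pos hA hGc0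
    simp only [hbdef]; linarith
  have hconv := h.G_convex
  have hAσ : A * σ = 1 := by simp only [hAdef]; field_simp
  have hline : ∀ x, (x - b) / A = GG Ξ c + (GG Ξ d - GG Ξ c) / (d - c) * (x - c) := by
    intro x
    have hσinv : 1 / A = σ := by simp only [hAdef]; field_simp
    rw [show (GG Ξ d - GG Ξ c) / (d - c) = σ from rfl]
    rw [div_eq_mul_one_div, hσinv]
    simp only [hbdef]
    have : (x - (c - A * GG Ξ c)) * σ = σ * (x - c) + (A * σ) * GG Ξ c := by ring
    rw [this, hAσ]
    ring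
  have hexpS : ∀ x, b < x →
      SS A b x = Real.exp (- (GG Ξ c + (GG Ξ d - GG Ξ c) / (d - c) * (x - c))) := by
    intro x hx
    rw [SS_of_gt hx, ← hline x, neg_div]
  have hbd : b < d := hb.trans hcd
  have hSd : SS A b d = Ξ d := by
    rw [hexpS d hbd, ← h.exp_neg_G d]
    congr 2
    have : d - c ≠ 0 := hε0.ne'
    field_simp
    ring
  have hSanti : ∀ x, x ≤ d → SS A b d ≤ SS A b x := by
    intro x hx
    rcases le_or_gt x b with hxb | hxb
    · rw [SS_of_le hxb]
      exact SS_le_one hA b d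
    · rw [SS_of_gt hxb, SS_of_gt hbd]
      apply Real.exp_le_exp.2
      apply (div_le_div_iff_of_pos_right hA).2
      linarith
  set D := Ξ c - Ξ d with hD
  have hD0 : 0 ≤ D := by
    have := h.anti hcd.le
    simp only [hD]; linarith
  -- pointwise bound
  have hpt : ∀ x, Ξ x - SS A b x ≤ (Icc c d).indicator (fun _ => D) x := by
    intro x
    by_cases hmem : x ∈ Icc c d
    · rw [indicator_of_mem hmem]
      have h1 := h.anti hmem.1
      have h2 := hSanti x hmem.2
      rw [hSd] at h2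
      simp only [hD]; linarith
    · rw [indicator_of_notMem hmem]
      have hcases : x ≤ c ∨ d ≤ x := by
        by_contra hc
        push Not at hc
        exact hmem ⟨hc.1.le, hc.2.le⟩
      have h1 : GG Ξ c + (GG Ξ d - GG Ξ c) / (d - c) * (x - c) ≤ GG Ξ x := by
        rcases hcases with hc | hc
        · exact chord_ge_left hconv (mem_univ c) (mem_univ d) (mem_univ x) hcd hc
        · exact chord_ge_right hconv (mem_univ c) (mem_univ d) (mem_univ x) hcd hc
      rcases le_or_gt x b with hxb | hxb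
      · rw [SS_of_le hxb]
        have := h.lt_one x
        linarith
      · rw [hexpS x hxb, ← h.exp_neg_G x]
        have := Real.exp_le_exp.2 (neg_le_neg h1)
        linarith
  have hintD : Integrable ((Icc c d).indicator (fun _ => D)) := by
    rw [integrable_indicator_iff measurableSet_Icc]
    exact integrableOn_const (by simp) (by simp)
  have hle := integral_mono (h.diff_integrable hA hb) hintD hpt
  rw [h.diff_integral hA hb, integral_indicator measurableSet_Icc] at hle
  simp only [integral_const, MeasurableSet.univ, measureReal_restrict_apply, univ_inter,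
    Real.volume_real_Icc, smul_eq_mul] at hle
  have hmax : max (d - c) 0 = ε := by
    rw [max_eq_left hε0.le]
  rw [hmax] at hle
  have e1 : -(A + b - c) = A * (GG Ξ c - 1) := by simp only [hbdef]; ring
  rw [e1] at hle
  -- conclude
  have hAε : A = ε / (GG Ξ d - GG Ξ c) := by
    simp only [hAdef, hσ]
    have : GG Ξ d - GG Ξ c ≠ 0 := (sub_pos.2 hGs).ne'
    field_simp
  rw [hAε] at hle
  have hGdiff : 0 < GG Ξ d - GG Ξ c := sub_pos.2 hGs
  have h3 : GG Ξ c - 1 ≤ (GG Ξ d - GG Ξ c) * D := by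
    have h4 : ε / (GG Ξ d - GG Ξ c) * (GG Ξ c - 1) = ε * ((GG Ξ c - 1) / (GG Ξ d - GG Ξ c)) := by
      ring
    rw [h4] at hle
    have h5 := le_of_mul_le_mul_left hle hε0
    rwa [div_le_iff₀ hGdiff, mul_comm] at h5
  have hGc1 : 0 < GG Ξ c - 1 := by linarith
  have h6 : (GG Ξ d - GG Ξ c) * D < 1 * (GG Ξ c - 1) := by
    apply mul_lt_mul'' hd1 hd2 hGdiff.le hD0
  linarith

end Good

/-- the value at `4/3` of the chord between the level points -/
noncomputable def EE (Ξ : ℝ → ℝ) (t : ℝ) : ℝ :=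
  GG Ξ (x1 t) + ((GG Ξ (x2 t) - GG Ξ (x1 t)) / (x2 t - x1 t)) * (4 / 3 - x1 t)

lemma x1_continuousOn : ContinuousOn x1 (Ioi 0) := by
  unfold x1
  apply ContinuousOn.div continuousOn_id
  · fun_prop
  · intro x hx
    exact (exp_sub_one_pos hx).ne'

lemma x2_continuousOn : ContinuousOn x2 (Ioi 0) := by
  unfold x2
  exact x1_continuousOn.add continuousOn_id

lemma x2_sub_x1 (t : ℝ) : x2 t - x1 t = t := by unfold x2; ring

lemma x1_le_two_div {t : ℝ} (ht : 0 < t) : x1 t ≤ 2 / t := by
  unfold x1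
  have h1 := exp_sub_one_pos ht
  rw [div_le_div_iff₀ h1 ht]
  have := Real.quadratic_le_exp_of_nonneg ht.le
  nlinarith

namespace Good

variable {Ξ : ℝ → ℝ} (h : Good Ξ (4 / 3))
include h

lemma EE_continuousOn : ContinuousOn (EE Ξ) (Ioi 0) := by
  unfold EE
  have hG := h.G_continuous
  have h1 : ContinuousOn (fun t => GG Ξ (x1 t)) (Ioi 0) := hG.comp_continuousOn x1_continuousOn
  have h2 : ContinuousOn (fun t => GG Ξ (x2 t)) (Ioi 0) := hG.comp_continuousOn x2_continuousOn
  apply h1.add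
  apply ContinuousOn.mul
  · apply ContinuousOn.div (h2.sub h1) (x2_continuousOn.sub x1_continuousOn)
    intro t ht
    show x2 t - x1 t ≠ 0
    rw [x2_sub_x1]
    exact (show (0 : ℝ) < t from ht).ne'
  · exact continuousOn_const.sub x1_continuousOn

lemma step {t : ℝ} (ht : 0 < t) (hE0 : 0 < EE Ξ t) (hE1 : EE Ξ t ≤ 1) :
    4 / 9 * Real.exp (-(1 / 3))
        - wt (x1 t) * ((1 / ((GG Ξ (x2 t) - GG Ξ (x1 t)) / (x2 t - x1 t))) * (1 - EE Ξ t))
      ≤ ∫ x in Ioi 0, wt x * Ξ x := by
  have hx1 := x1_pos ht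
  have hx12 := x1_lt_x2 ht
  set σ := (GG Ξ (x2 t) - GG Ξ (x1 t)) / (x2 t - x1 t) with hσ
  have hσ0 : 0 < σ := div_pos (sub_pos.2 (h.G_strict hx12)) (sub_pos.2 hx12)
  have hmain := h.chord_compare hx1 hx12 (wt_nonneg hx1) (fun x hx => wt_ge ht hx)
    (fun x hx hn => wt_le ht hx hn) σ hσ (EE Ξ t) rfl hE0
  set A := 1 / σ with hA
  have hA0 : 0 < A := by positivity
  have hJ := J_A_ge hA0
  have hmono : ∫ x in Ioi 0, wt x * SS A (4 / 3 - A) x
      ≤ ∫ x in Ioi 0, wt x * SS A (4 / 3 - A * EE Ξ t) x := by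
    have hS : ∀ b x, |SS A b x| ≤ 1 := fun b x => by
      rw [abs_of_pos (SS_pos A b x)]; exact SS_le_one hA0 b x
    apply setIntegral_mono_on (wt_mul_integrableOn (SS_measurable _ _) (hS _))
      (wt_mul_integrableOn (SS_measurable _ _) (hS _)) measurableSet_Ioi
    intro x hx
    apply mul_le_mul_of_nonneg_left _ (wt_nonneg hx)
    apply SS_mono_shift hA0
    have : A * EE Ξ t ≤ A * 1 := mul_le_mul_of_nonneg_left hE1 hA0.le
    linarith
  linarith

theorem main : 4 / 9 * Real.exp (-(1 / 3)) ≤ ∫ x in Ioi 0, wt x * Ξ x := by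
  by_cases hex : ∃ t, 0 < t ∧ EE Ξ t = 1
  · obtain ⟨t, ht, hE⟩ := hex
    have := h.step ht (by rw [hE]; norm_num) (le_of_eq hE)
    rw [hE] at this
    simpa using this
  · push Not at hex
    have hconv := h.G_convex
    -- the value at `t = 1/2`
    have ht0 : EE Ξ (1 / 2) < 1 := by
      have hx12 := x1_lt_x2 (t := 1 / 2) (by norm_num)
      have hx2 : x2 (1 / 2) ≤ 4 / 3 := by
        have h1 : x1 (1 / 2) ≤ 4 / 5 := by
          unfold x1
          have h2 := Real.quadratic_le_exp_of_nonneg (x := 1 / 2) (by norm_num)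
          have h3 : (5 / 8 : ℝ) ≤ Real.exp (1 / 2) - 1 := by
            norm_num at h2 ⊢
            linarith
          rw [div_le_iff₀ (by linarith)]
          linarith
        unfold x2
        linarith
      have h1 := chord_ge_right hconv (mem_univ _) (mem_univ _) (mem_univ (4 / 3 : ℝ)) hx12 hx2
      have h2 := h.G_c_le_one
      have h3 : EE Ξ (1 / 2) ≤ 1 := le_trans h1 h2
      exact lt_of_le_of_ne h3 (hex _ (by norm_num))
    have hall : ∀ t, 0 < t → EE Ξ t < 1 := by
      intro t ht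
      by_contra hcon
      push Not at hcon
      have := isPreconnected_Ioi.intermediate_value (a := (1 / 2 : ℝ)) (b := t)
        (s := Ioi (0 : ℝ)) (by norm_num) ht h.EE_continuousOn
      obtain ⟨s, hs, hs1⟩ := this ⟨ht0.le, hcon⟩
      exact hex s hs hs1
    -- the limit
    set σ0 := (GG Ξ 2 - GG Ξ 0) / (2 - 0) with hσ0def
    have hσ0 : 0 < σ0 := div_pos (sub_pos.2 (h.G_strict (by norm_num))) (by norm_num)
    have hkey : ∀ t, 2 ≤ t → 4 / 9 * Real.exp (-(1 / 3)) - (2 / t) * (1 / σ0)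
        ≤ ∫ x in Ioi 0, wt x * Ξ x := by
      intro t ht2
      have ht : 0 < t := by linarith
      have hx1 := x1_pos ht
      have hx11 := x1_le_one ht
      have hx12 := x1_lt_x2 ht
      have hx2t : t ≤ x2 t := by unfold x2; linarith
      have hE0 : 0 < EE Ξ t := by
        have h1 := chord_le hconv (mem_univ (x1 t)) (mem_univ (x2 t)) hx12
          (x := 4 / 3) ⟨by linarith, by linarith⟩
        have h2 := h.G_pos (4 / 3)
        exact lt_of_lt_of_le h2 h1
      have hE1 := hall t ht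
      have hstep := h.step ht hE0 hE1.le
      set σ := (GG Ξ (x2 t) - GG Ξ (x1 t)) / (x2 t - x1 t) with hσ
      have hσge : σ0 ≤ σ := by
        have h1 := hconv.secant_mono (a := 0) (x := 2) (y := x2 t) (mem_univ _) (mem_univ _)
          (mem_univ _) (by norm_num) (by linarith) (by linarith)
        have h2 := hconv.secant_mono (a := x2 t) (x := 0) (y := x1 t) (mem_univ _) (mem_univ _)
          (mem_univ _) (by linarith) (by linarith) hx1.le
        have e1 : (GG Ξ 0 - GG Ξ (x2 t)) / (0 - x2 t) = (GG Ξ (x2 t) - GG Ξ 0) / (x2 t - 0) := by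
          rw [← neg_sub (GG Ξ (x2 t)), ← neg_sub (x2 t) 0, neg_div_neg_eq]
        have e2 : (GG Ξ (x1 t) - GG Ξ (x2 t)) / (x1 t - x2 t) = σ := by
          rw [← neg_sub (GG Ξ (x2 t)), ← neg_sub (x2 t) (x1 t), neg_div_neg_eq]
        rw [e1, e2] at h2
        exact h1.trans h2
      have hσp : 0 < σ := lt_of_lt_of_le hσ0 hσge
      have hκ0 : 0 ≤ wt (x1 t) := wt_nonneg hx1
      have hκ : wt (x1 t) ≤ 2 / t := (wt_le_self hx1).trans (x1_le_two_div ht)
      have hA : 1 / σ ≤ 1 / σ0 := one_div_le_one_div_of_le hσ0 hσge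
      have hA0 : 0 < 1 / σ := by positivity
      have hb : (1 / σ) * (1 - EE Ξ t) ≤ 1 / σ0 := by
        have h1 : (1 / σ) * (1 - EE Ξ t) ≤ (1 / σ) * 1 :=
          mul_le_mul_of_nonneg_left (by linarith) hA0.le
        linarith
      have hb0 : 0 ≤ (1 / σ) * (1 - EE Ξ t) := mul_nonneg hA0.le (by linarith)
      have hprod : wt (x1 t) * ((1 / σ) * (1 - EE Ξ t)) ≤ (2 / t) * (1 / σ0) :=
        mul_le_mul hκ hb hb0 (by positivity)
      linarith
    by_contra hcon
    push Not at hcon
    set J := ∫ x in Ioi 0, wt x * Ξ x with hJ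
    set ε := 4 / 9 * Real.exp (-(1 / 3)) - J with hε
    have hε0 : 0 < ε := by simp only [hε]; linarith
    set t := max 2 (3 / (ε * σ0)) with ht
    have ht2 : 2 ≤ t := le_max_left _ _
    have ht3 : 3 / (ε * σ0) ≤ t := le_max_right _ _
    have htp : 0 < t := by linarith
    have h1 := hkey t ht2
    have h2 : (2 / t) * (1 / σ0) < ε := by
      have hεσ : 0 < ε * σ0 := mul_pos hε0 hσ0
      rw [div_le_iff₀ hεσ] at ht3
      have e : (2 / t) * (1 / σ0) = 2 / (t * σ0) := by field_simp
      rw [e, div_lt_iff₀ (by positivity)]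
      nlinarith
    simp only [hε] at h2
    linarith

end Good

end Crest.Agent.Lib.S0423A
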