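import Crest.Agent.Lib.S0423B

set_option autoImplicit false

namespace Crest.Agent.Lib.S0423A

open MeasureTheory Set Filter Topology

lemma TP2.general {f : ℝ → ℝ} (hf : TP2 f) {u v w z : ℝ} (h1 : u ≤ v) (h2 : u ≤ w)
    (h3 : u + z = v + w) : f u * f z ≤ f v * f w := by
  rcases le_total v w with h | h
  · have := hf v w (v - u) h (by linarith)
    rwa [show v - (v - u) = u by ring, show w + (v - u) = z by linarith] at this
  · have := hf w v (w - u) h (by linarith)
    rw [show w - (w - u) = u by ring, show v + (w - u) = z by linarith] at this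
    linarith [mul_comm (f v) (f w)]

/-- the primitive `∫_{r>0} f (y - r) dr` -/
noncomputable def II (f : ℝ → ℝ) (y : ℝ) : ℝ := ∫ r in Ioi (0 : ℝ), f (y - r)

lemma II_split {f : ℝ → ℝ} (hint : ∀ y, IntegrableOn (fun r => f (y - r)) (Ioi 0)) (w : ℝ)
    {δ : ℝ} (hδ : 0 ≤ δ) :
    II f (w + δ) = (∫ r in Ioc 0 δ, f (w + δ - r)) + II f w := by
  unfold II
  have h1 : ∫ r in Ioi (0 : ℝ), f (w + δ - r)
      = ∫ r in Ioc 0 δ ∪ Ioi δ, f (w + δ - r) := by
    rw [Ioc_union_Ioi_eq_Ioi hδ]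
  rw [h1, setIntegral_union (Ioc_disjoint_Ioi le_rfl) measurableSet_Ioi
    ((hint _).mono_set Ioc_subset_Ioi_self) ((hint _).mono_set (Ioi_subset_Ioi hδ))]
  congr 1
  have h2 := (measurePreserving_add_right (volume : Measure ℝ) δ).setIntegral_preimage_emb
    (measurableEmbedding_addRight δ) (fun r => f (w + δ - r)) (Ioi δ)
  rw [← h2]
  have h3 : (fun x : ℝ => x + δ) ⁻¹' Ioi δ = Ioi 0 := by
    ext x; simp
  rw [h3]
  congr 1
  ext r
  congr 1
  ring

lemma II_tp2 {f : ℝ → ℝ} (hf : TP2 f) (h0 : ∀ x, 0 ≤ f x)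
    (hint : ∀ y, IntegrableOn (fun r => f (y - r)) (Ioi 0)) : TP2 (II f) := by
  intro x y δ hxy hδ
  have hP := II_split hint (x - δ) hδ
  have hQ := II_split hint y hδ
  rw [sub_add_cancel] at hP
  rw [hP, hQ]
  set A := ∫ r in Ioc 0 δ, f (x - δ + δ - r) with hA
  have hA' : A = ∫ r in Ioc 0 δ, f (x - r) := by
    simp only [hA, sub_add_cancel]
  rw [show (∫ r in Ioc 0 δ, f (x - r)) = A from hA'.symm]
  set B := ∫ r in Ioc 0 δ, f (y + δ - r) with hB
  set P := II f (x - δ) with hPdef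
  set Q := II f y with hQdef
  -- key inequality
  have key : P * B ≤ A * Q := by
    have hpt : ∀ s ∈ Ioc 0 δ, P * f (y + δ - s) ≤ Q * f (x - s) := by
      intro s hs
      have e1 : P * f (y + δ - s) = ∫ r in Ioi (0 : ℝ), f (x - δ - r) * f (y + δ - s) := by
        simp only [hPdef, II]
        rw [integral_mul_const]
      have e2 : Q * f (x - s) = ∫ r in Ioi (0 : ℝ), f (y - r) * f (x - s) := by
        simp only [hQdef, II]
        rw [integral_mul_const]
      rw [e1, e2]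
      apply setIntegral_mono_on ((hint _).mul_const _) ((hint _).mul_const _) measurableSet_Ioi
      intro r hr
      have hr' : (0 : ℝ) < r := hr
      apply hf.general
      · linarith
      · linarith [hs.2]
      · ring
    have e1 : P * B = ∫ s in Ioc 0 δ, P * f (y + δ - s) := by
      simp only [hB]; rw [integral_const_mul]
    have e2 : A * Q = ∫ s in Ioc 0 δ, Q * f (x - s) := by
      rw [hA', integral_const_mul, mul_comm]
    rw [e1, e2]
    apply setIntegral_mono_on (((hint _).mono_set Ioc_subset_Ioi_self).const_mul _)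
      (((hint _).mono_set Ioc_subset_Ioi_self).const_mul _) measurableSet_Ioc hpt
  nlinarith

/-- one convolution step with the exponential law -/
noncomputable def Tstep (Φ : ℝ → ℝ) (a y : ℝ) : ℝ := ∫ t in Ioi (0 : ℝ), Real.exp (-t) * Φ (y - a * t)

lemma Tstep_eq {Φ : ℝ → ℝ} {a : ℝ} (ha : 0 < a) (y : ℝ) :
    Tstep Φ a y = a⁻¹ * Real.exp (-y / a) * II (fun s => Φ s * Real.exp (s / a)) y := by
  unfold Tstep II
  have h1 := integral_comp_mul_left_Ioi (fun v => Real.exp (-v / a) * Φ (y - v)) 0 ha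
  simp only [mul_zero, smul_eq_mul] at h1
  have e1 : ∫ t in Ioi (0 : ℝ), Real.exp (-t) * Φ (y - a * t)
      = ∫ t in Ioi (0 : ℝ), Real.exp (-(a * t) / a) * Φ (y - a * t) := by
    apply setIntegral_congr_fun measurableSet_Ioi
    intro t _
    simp only
    rw [show -(a * t) / a = -t by field_simp]
  rw [e1, h1, mul_assoc]
  congr 1
  rw [← integral_const_mul]
  apply setIntegral_congr_fun measurableSet_Ioi
  intro r _
  have : Real.exp (-r / a) = Real.exp (-y / a) * Real.exp ((y - r) / a) := by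
    rw [← Real.exp_add]; congr 1; field_simp; ring
  simp only
  rw [this]; ring

lemma TP2.exp_weight {Φ : ℝ → ℝ} (hΦ : TP2 Φ) (h0 : ∀ x, 0 ≤ Φ x) (a : ℝ) :
    TP2 (fun s => Φ s * Real.exp (s / a)) := by
  intro x y δ hxy hδ
  have h := hΦ x y δ hxy hδ
  have e : Real.exp ((x - δ) / a) * Real.exp ((y + δ) / a)
      = Real.exp (x / a) * Real.exp (y / a) := by
    rw [← Real.exp_add, ← Real.exp_add]; congr 1; ring
  calc Φ (x - δ) * Real.exp ((x - δ) / a) * (Φ (y + δ) * Real.exp ((y + δ) / a))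
      = Φ (x - δ) * Φ (y + δ) * (Real.exp (x / a) * Real.exp (y / a)) := by
        rw [← e]; ring
    _ ≤ Φ x * Φ y * (Real.exp (x / a) * Real.exp (y / a)) :=
        mul_le_mul_of_nonneg_right h (by positivity)
    _ = _ := by ring

lemma Tstep_tp2_pos {Φ : ℝ → ℝ} (hΦ : TP2 Φ) (h0 : ∀ x, 0 ≤ Φ x) (h1 : ∀ x, Φ x ≤ 1)
    (hm : Measurable Φ) {a : ℝ} (ha : 0 < a) : TP2 (Tstep Φ a) := by
  intro x y δ hxy hδ
  have hint : ∀ y, IntegrableOn (fun r => (fun s => Φ s * Real.exp (s / a)) (y - r)) (Ioi 0) := by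
    intro y
    have h2 := integrableOn_exp_affine ha y 0
    refine Integrable.mono' h2 ?_ ?_
    · apply Measurable.aestronglyMeasurable
      apply Measurable.mul
      · exact hm.comp (measurable_const.sub measurable_id)
      · fun_prop
    · refine Eventually.of_forall (fun r => ?_)
      have e : -(r - y) / a = (y - r) / a := by ring
      simp only [e, Real.norm_eq_abs]
      rw [abs_of_nonneg (mul_nonneg (h0 _) (Real.exp_pos _).le)]
      have := h1 (y - r)
      have h3 := Real.exp_pos ((y - r) / a)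
      nlinarith
  have hf := hΦ.exp_weight h0 a
  have hf0 : ∀ x, 0 ≤ (fun s => Φ s * Real.exp (s / a)) x :=
    fun x => mul_nonneg (h0 x) (Real.exp_pos _).le
  have h2 := II_tp2 hf hf0 hint x y δ hxy hδ
  rw [Tstep_eq ha, Tstep_eq ha, Tstep_eq ha, Tstep_eq ha]
  have e : Real.exp (-(x - δ) / a) * Real.exp (-(y + δ) / a)
      = Real.exp (-x / a) * Real.exp (-y / a) := by
    rw [← Real.exp_add, ← Real.exp_add]; congr 1; ring
  have hc : 0 ≤ a⁻¹ * a⁻¹ * (Real.exp (-x / a) * Real.exp (-y / a)) := by positivity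
  have h3 := mul_le_mul_of_nonneg_left h2 hc
  calc _ = a⁻¹ * a⁻¹ * (Real.exp (-(x - δ) / a) * Real.exp (-(y + δ) / a))
        * (II (fun s => Φ s * Real.exp (s / a)) (x - δ)
          * II (fun s => Φ s * Real.exp (s / a)) (y + δ)) := by ring
    _ = a⁻¹ * a⁻¹ * (Real.exp (-x / a) * Real.exp (-y / a))
        * (II (fun s => Φ s * Real.exp (s / a)) (x - δ)
          * II (fun s => Φ s * Real.exp (s / a)) (y + δ)) := by rw [e]
    _ ≤ _ := h3
    _ = _ := by ring

lemma TP2.reflect {Φ : ℝ → ℝ} (hΦ : TP2 Φ) : TP2 (fun s => Φ (-s)) := by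
  intro x y δ hxy hδ
  have h := hΦ (-y) (-x) δ (by linarith) hδ
  simp only
  rw [show -(x - δ) = -x + δ by ring, show -(y + δ) = -y - δ by ring]
  linarith [mul_comm (Φ (-x + δ)) (Φ (-y - δ)), mul_comm (Φ (-x)) (Φ (-y))]

lemma Tstep_reflect (Φ : ℝ → ℝ) (a y : ℝ) : Tstep Φ a y = Tstep (fun s => Φ (-s)) (-a) (-y) := by
  unfold Tstep
  congr 2
  ext t
  simp only
  congr 2
  ring

lemma Tstep_zero (Φ : ℝ → ℝ) (y : ℝ) : Tstep Φ 0 y = Φ y := by
  unfold Tstep
  simp only [zero_mul, sub_zero]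
  rw [integral_mul_const, integral_exp_neg_Ioi_zero, one_mul]

/-- one exponential convolution preserves TP2 -/
lemma Tstep_tp2 {Φ : ℝ → ℝ} (hΦ : TP2 Φ) (h0 : ∀ x, 0 ≤ Φ x) (h1 : ∀ x, Φ x ≤ 1)
    (hm : Measurable Φ) (a : ℝ) : TP2 (Tstep Φ a) := by
  rcases lt_trichotomy a 0 with ha | ha | ha
  · have h2 := Tstep_tp2_pos hΦ.reflect (fun x => h0 _) (fun x => h1 _)
      (hm.comp measurable_neg) (neg_pos.2 ha)
    intro x y δ hxy hδ
    have h3 := h2.reflect x y δ hxy hδ
    simp only at h3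
    rw [Tstep_reflect Φ a, Tstep_reflect Φ a, Tstep_reflect Φ a, Tstep_reflect Φ a]
    exact h3
  · subst ha
    intro x y δ hxy hδ
    simp only [Tstep_zero]
    exact hΦ x y δ hxy hδ
  · exact Tstep_tp2_pos hΦ h0 h1 hm ha

end Crest.Agent.Lib.S0423A
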