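import Crest.Agent.Lib.S0423C

set_option autoImplicit false

namespace Crest.Agent.Lib.S0423A

open MeasureTheory Set Filter Topology

/-- density of the exponential law -/
noncomputable def dens (t : ℝ) : ENNReal := ENNReal.ofReal (Real.exp (-t))

lemma dens_measurable : Measurable dens := by unfold dens; fun_prop

/-- the exponential law -/
noncomputable def ν : Measure ℝ := (volume.restrict (Ioi (0 : ℝ))).withDensity dens

lemma exp_neg_intOn (c : ℝ) : IntegrableOn (fun t : ℝ => Real.exp (-t)) (Ioi c) := by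
  simpa using exp_neg_integrableOn_Ioi c (b := 1) one_pos

lemma integral_ν (f : ℝ → ℝ) : ∫ t, f t ∂ν = ∫ t in Ioi (0 : ℝ), Real.exp (-t) * f t := by
  unfold ν
  rw [integral_withDensity_eq_integral_toReal_smul dens_measurable
    (Eventually.of_forall (fun x => by simp [dens]))]
  apply integral_congr_ae
  refine Eventually.of_forall (fun t => ?_)
  simp [dens, ENNReal.toReal_ofReal (Real.exp_pos _).le]

lemma ν_apply {s : Set ℝ} (hs : MeasurableSet s) :
    ν s = ENNReal.ofReal (∫ t, (s ∩ Ioi 0).indicator (fun t => Real.exp (-t)) t) := by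
  unfold ν
  rw [withDensity_apply _ hs, Measure.restrict_restrict hs,
    integral_indicator (hs.inter measurableSet_Ioi)]
  rw [ofReal_integral_eq_lintegral_ofReal]
  · rfl
  · exact (exp_neg_intOn 0).mono_set inter_subset_right
  · exact Eventually.of_forall (fun x => (Real.exp_pos _).le)

instance : IsProbabilityMeasure ν := by
  constructor
  rw [ν_apply MeasurableSet.univ, univ_inter, integral_indicator measurableSet_Ioi,
    integral_exp_neg_Ioi_zero]
  simp

lemma ν_Ioi {s : ℝ} (hs : 0 ≤ s) : ν (Ioi s) = ENNReal.ofReal (Real.exp (-s)) := by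
  rw [ν_apply measurableSet_Ioi, Ioi_inter_Ioi, max_eq_left hs,
    integral_indicator measurableSet_Ioi, integral_exp_neg_Ioi]

/-- the product law on the orthant -/
noncomputable def μN (N : ℕ) : Measure (Fin N → ℝ) := Measure.pi (fun _ => ν)

instance (N : ℕ) : IsProbabilityMeasure (μN N) := by unfold μN; infer_instance

lemma μN_eq (N : ℕ) :
    μN N = (volume.restrict (pi univ (fun _ : Fin N => Ioi (0 : ℝ)))).withDensity
      (fun x => ENNReal.ofReal (Real.exp (-∑ i, x i))) := by
  unfold μN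
  refine Measure.pi_eq (μ := fun _ : Fin N => ν) fun s hs => ?_
  have hs' : MeasurableSet (pi univ s) := MeasurableSet.univ_pi hs
  rw [withDensity_apply _ hs', Measure.restrict_restrict hs']
  set f : Fin N → ℝ → ℝ := fun i => (s i ∩ Ioi 0).indicator (fun t => Real.exp (-t)) with hf
  have hfint : ∀ i, Integrable (f i) := by
    intro i
    rw [hf]
    simp only
    rw [integrable_indicator_iff ((hs i).inter measurableSet_Ioi)]
    exact (exp_neg_intOn 0).mono_set inter_subset_right
  have hf0 : ∀ i t, 0 ≤ f i t := by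
    intro i t
    simp only [hf]
    exact indicator_nonneg (fun t _ => (Real.exp_pos _).le) t
  have hset : MeasurableSet (pi univ s ∩ pi univ (fun _ : Fin N => Ioi (0 : ℝ))) :=
    hs'.inter (MeasurableSet.univ_pi (fun _ => measurableSet_Ioi))
  have hprod : ∀ x : Fin N → ℝ, ∏ i, f i (x i)
      = (pi univ s ∩ pi univ (fun _ : Fin N => Ioi (0 : ℝ))).indicator
          (fun x => Real.exp (-∑ i, x i)) x := by
    intro x
    by_cases hx : x ∈ pi univ s ∩ pi univ (fun _ : Fin N => Ioi (0 : ℝ))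
    · rw [indicator_of_mem hx]
      have h1 : ∀ i, f i (x i) = Real.exp (-(x i)) := by
        intro i
        simp only [hf]
        apply indicator_of_mem
        exact ⟨hx.1 i (mem_univ i), hx.2 i (mem_univ i)⟩
      simp only [h1]
      rw [← Finset.sum_neg_distrib, Real.exp_sum]
    · rw [indicator_of_notMem hx]
      have : ∃ i, x i ∉ s i ∩ Ioi 0 := by
        by_contra hc
        push Not at hc
        exact hx ⟨fun i _ => (hc i).1, fun i _ => (hc i).2⟩
      obtain ⟨i, hi⟩ := this
      apply Finset.prod_eq_zero (Finset.mem_univ i)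
      simp only [hf]
      exact indicator_of_notMem hi _
  have hint : Integrable (fun x : Fin N → ℝ => ∏ i, f i (x i)) := Integrable.fintype_prod hfint
  have h2 : ∫⁻ x in pi univ s ∩ pi univ (fun _ : Fin N => Ioi (0 : ℝ)),
      ENNReal.ofReal (Real.exp (-∑ i, x i))
      = ENNReal.ofReal (∫ x : Fin N → ℝ, ∏ i, f i (x i)) := by
    rw [ofReal_integral_eq_lintegral_ofReal hint
      (Eventually.of_forall (fun x => Finset.prod_nonneg (fun i _ => hf0 i _)))]
    rw [← lintegral_indicator hset]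
    apply lintegral_congr
    intro x
    rw [hprod x]
    by_cases hx : x ∈ pi univ s ∩ pi univ (fun _ : Fin N => Ioi (0 : ℝ))
    · rw [indicator_of_mem hx, indicator_of_mem hx]
    · rw [indicator_of_notMem hx, indicator_of_notMem hx]; simp
  rw [h2, integral_fintype_prod_volume_eq_prod,
    ENNReal.ofReal_prod_of_nonneg (fun i _ => integral_nonneg (hf0 i))]
  apply Finset.prod_congr rfl
  intro i _
  rw [ν_apply (hs i)]

/-- the bridge to the statement -/
lemma integral_μN {N : ℕ} (F : (Fin N → ℝ) → ℝ) :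
    ∫ x, F x ∂(μN N)
      = ∫ x in pi univ (fun _ : Fin N => Ioi (0 : ℝ)), F x * Real.exp (-∑ i, x i) := by
  rw [μN_eq, integral_withDensity_eq_integral_toReal_smul (by fun_prop)
    (Eventually.of_forall (fun x => by simp))]
  apply integral_congr_ae
  refine Eventually.of_forall (fun x => ?_)
  simp only [smul_eq_mul]
  rw [ENNReal.toReal_ofReal (Real.exp_pos _).le, mul_comm]

/-- the survival function of the linear form -/
noncomputable def Ψ {N : ℕ} (a : Fin N → ℝ) (y : ℝ) : ℝ :=
  (μN N).real {x | y < ∑ i, a i * x i}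

lemma meas_form {N : ℕ} (a : Fin N → ℝ) : Measurable (fun x : Fin N → ℝ => ∑ i, a i * x i) := by
  fun_prop

lemma meas_set {N : ℕ} (a : Fin N → ℝ) (y : ℝ) : MeasurableSet {x : Fin N → ℝ | y < ∑ i, a i * x i} :=
  measurableSet_lt measurable_const (meas_form a)

lemma Ψ_nonneg {N : ℕ} (a : Fin N → ℝ) (y : ℝ) : 0 ≤ Ψ a y := measureReal_nonneg

lemma Ψ_le_one {N : ℕ} (a : Fin N → ℝ) (y : ℝ) : Ψ a y ≤ 1 := measureReal_le_one

lemma Ψ_anti {N : ℕ} (a : Fin N → ℝ) : Antitone (Ψ a) := by
  intro y z hyz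
  apply measureReal_mono _ (measure_ne_top _ _)
  intro x hx
  exact lt_of_le_of_lt hyz hx

lemma Ψ_meas {N : ℕ} (a : Fin N → ℝ) : Measurable (Ψ a) := (Ψ_anti a).measurable

lemma Ψ_abs_le {N : ℕ} (a : Fin N → ℝ) (y : ℝ) : |Ψ a y| ≤ 1 := by
  rw [abs_of_nonneg (Ψ_nonneg a y)]; exact Ψ_le_one a y

lemma Ψ_rec {N : ℕ} (a : Fin (N + 1) → ℝ) (i : Fin (N + 1)) (y : ℝ) :
    Ψ a y = Tstep (Ψ (fun j => a (i.succAbove j))) (a i) y := by
  set a' : Fin N → ℝ := fun j => a (i.succAbove j) with ha'
  have mp : MeasurePreserving (MeasurableEquiv.piFinSuccAbove (fun _ : Fin (N + 1) => ℝ) i)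
      (μN (N + 1)) (ν.prod (μN N)) :=
    measurePreserving_piFinSuccAbove (fun _ : Fin (N + 1) => ν) i
  set S' : Set (ℝ × (Fin N → ℝ)) := {p | y < a i * p.1 + ∑ j, a' j * p.2 j} with hS'def
  have hS' : MeasurableSet S' := by
    apply measurableSet_lt measurable_const
    have := meas_form a'
    fun_prop
  have e : {x : Fin (N + 1) → ℝ | y < ∑ k, a k * x k}
      = (MeasurableEquiv.piFinSuccAbove (fun _ : Fin (N + 1) => ℝ) i) ⁻¹' S' := by
    ext x
    simp only [mem_ofPred_eq, hS'def, mem_preimage, Fin.sum_univ_succAbove _ i]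
    rfl
  unfold Ψ
  rw [measureReal_def, e, mp.measure_preimage_equiv, Measure.prod_apply hS']
  have hmeas : Measurable (fun t : ℝ => (μN N) (Prod.mk t ⁻¹' S')) :=
    measurable_measure_prodMk_left hS'
  have h1 := integral_toReal (μ := ν) (f := fun t : ℝ => (μN N) (Prod.mk t ⁻¹' S'))
    hmeas.aemeasurable (Eventually.of_forall (fun t => measure_lt_top _ _))
  rw [← h1, integral_ν]
  unfold Tstep
  apply setIntegral_congr_fun measurableSet_Ioi
  intro t _
  simp only
  congr 1
  rw [measureReal_def]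
  congr 2
  ext x
  simp only [hS'def, mem_preimage, mem_ofPred_eq]
  constructor <;> intro h <;> linarith

lemma Ψ_zero (a : Fin 0 → ℝ) (y : ℝ) : Ψ a y = if y < 0 then 1 else 0 := by
  unfold Ψ
  simp only [Finset.univ_eq_empty, Finset.sum_empty]
  split_ifs with h
  · have : {x : Fin 0 → ℝ | y < 0} = univ := by ext x; simp [h]
    rw [this]; simp
  · have : {x : Fin 0 → ℝ | y < 0} = ∅ := by ext x; simp [h]
    rw [this]; simp

theorem Ψ_tp2 : ∀ {N : ℕ} (a : Fin N → ℝ), TP2 (Ψ a)
  | 0, a => by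
    intro x y δ hxy hδ
    simp only [Ψ_zero]
    by_cases h : y + δ < 0
    · have h1 : y < 0 := by linarith
      have h2 : x < 0 := by linarith
      have h3 : x - δ < 0 := by linarith
      simp [h, h1, h2, h3]
    · simp only [h, if_false, mul_zero]
      split_ifs <;> norm_num
  | N + 1, a => by
    have h := Ψ_tp2 (fun j : Fin N => a ((0 : Fin (N + 1)).succAbove j))
    have e : Ψ a = Tstep (Ψ (fun j : Fin N => a ((0 : Fin (N + 1)).succAbove j))) (a 0) :=
      funext (Ψ_rec a 0)
    rw [e]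
    exact Tstep_tp2 h (Ψ_nonneg _) (Ψ_le_one _) (Ψ_meas _) _

lemma Tstep_integrable {Φ : ℝ → ℝ} (hm : Measurable Φ) (hb : ∀ x, |Φ x| ≤ 1) (a y : ℝ) :
    IntegrableOn (fun t => Real.exp (-t) * Φ (y - a * t)) (Ioi 0) := by
  have := (exp_neg_intOn 0).mul_bdd (c := 1) (f := fun t => Real.exp (-t))
    (g := fun t => Φ (y - a * t))
    (Measurable.aestronglyMeasurable (hm.comp (by fun_prop)))
    (Eventually.of_forall (fun x => by simpa using hb _))
  exact this

lemma exists_Ψ_pos {N : ℕ} (a : Fin N → ℝ) : ∃ K : ℝ, 0 < Ψ a (-K) := by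
  by_contra hcon
  push Not at hcon
  have hz : ∀ n : ℕ, (μN N) {x | -(n : ℝ) < ∑ i, a i * x i} = 0 := by
    intro n
    have h1 := hcon n
    have h2 : Ψ a (-(n : ℝ)) = 0 := le_antisymm h1 (Ψ_nonneg _ _)
    unfold Ψ at h2
    rwa [measureReal_eq_zero_iff] at h2
  have hU : (univ : Set (Fin N → ℝ)) = ⋃ n : ℕ, {x | -(n : ℝ) < ∑ i, a i * x i} := by
    ext x
    simp only [mem_univ, mem_iUnion, mem_ofPred_eq, true_iff]
    obtain ⟨n, hn⟩ := exists_nat_gt (-(∑ i, a i * x i))
    exact ⟨n, by linarith⟩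
  have h3 : (μN N) univ = 0 := by
    rw [hU]
    exact measure_iUnion_null hz
  simp at h3

lemma Ψ_pos {N : ℕ} (a : Fin N → ℝ) (i : Fin N) (hi : 0 < a i) (y : ℝ) : 0 < Ψ a y := by
  cases N with
  | zero => exact i.elim0
  | succ N =>
    rw [Ψ_rec a i]
    set a' : Fin N → ℝ := fun j => a (i.succAbove j)
    obtain ⟨K, hK⟩ := exists_Ψ_pos a'
    set T := max 0 ((y + K) / a i) with hT
    have hT0 : 0 ≤ T := le_max_left _ _
    have hT1 : (y + K) / a i ≤ T := le_max_right _ _
    have hint := Tstep_integrable (Ψ_meas a') (Ψ_abs_le a') (a i) y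
    unfold Tstep
    have h1 : ∫ t in Ioi T, Real.exp (-t) * Ψ a' (y - a i * t)
        ≤ ∫ t in Ioi (0 : ℝ), Real.exp (-t) * Ψ a' (y - a i * t) := by
      apply setIntegral_mono_set hint
      · refine (ae_restrict_mem measurableSet_Ioi).mono (fun t ht => ?_)
        exact mul_nonneg (Real.exp_pos _).le (Ψ_nonneg _ _)
      · exact (Ioi_subset_Ioi hT0).eventuallyLE
    have h2 : ∫ t in Ioi T, Real.exp (-t) * Ψ a' (-K)
        ≤ ∫ t in Ioi T, Real.exp (-t) * Ψ a' (y - a i * t) := by
      apply setIntegral_mono_on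
      · exact (exp_neg_intOn T).mul_const _
      · exact hint.mono_set (Ioi_subset_Ioi hT0)
      · exact measurableSet_Ioi
      · intro t ht
        apply mul_le_mul_of_nonneg_left _ (Real.exp_pos _).le
        apply Ψ_anti
        have h3 : (y + K) / a i < t := lt_of_le_of_lt hT1 ht
        rw [div_lt_iff₀ hi] at h3
        nlinarith
    have h3 : ∫ t in Ioi T, Real.exp (-t) * Ψ a' (-K) = Real.exp (-T) * Ψ a' (-K) := by
      rw [integral_mul_const, integral_exp_neg_Ioi]
    have h4 : 0 < Real.exp (-T) * Ψ a' (-K) := mul_pos (Real.exp_pos _) hK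
    linarith

lemma Ψ_add_neg_le {N : ℕ} (a : Fin N → ℝ) (y : ℝ) : Ψ a y + Ψ (fun i => - a i) (-y) ≤ 1 := by
  unfold Ψ
  have hd : Disjoint {x : Fin N → ℝ | y < ∑ i, a i * x i}
      {x : Fin N → ℝ | -y < ∑ i, (- a i) * x i} := by
    rw [Set.disjoint_left]
    intro x hx hx'
    simp only [mem_ofPred_eq, neg_mul, Finset.sum_neg_distrib] at hx hx'
    linarith
  rw [← measureReal_union hd (meas_set _ _)]
  exact measureReal_le_one

lemma Ψ_lt_one {N : ℕ} (a : Fin N → ℝ) (i : Fin N) (hi : a i < 0) (y : ℝ) : Ψ a y < 1 := by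
  have h1 := Ψ_pos (fun i => - a i) i (by simpa using hi) (-y)
  have h2 := Ψ_add_neg_le a y
  linarith

end Crest.Agent.Lib.S0423A
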