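import Crest.Agent.Lib.S0423D
import Crest.Prelude.Def_TruncExpWeight

set_option autoImplicit false

namespace Crest.Agent.Lib.S0423A

open MeasureTheory Set Filter Topology

open Crest.AlgGeometry (truncExpWeight)

lemma g_meas : Measurable truncExpWeight := by
  unfold truncExpWeight
  exact Measurable.ite measurableSet_Iic measurable_const (by fun_prop)

lemma g_nonneg (y : ℝ) : 0 ≤ truncExpWeight y := by
  unfold truncExpWeight
  split_ifs with h
  · norm_num
  · push Not at h
    have := Real.exp_pos (-y)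
    positivity

lemma g_le_one (y : ℝ) : truncExpWeight y ≤ 1 := by
  unfold truncExpWeight
  split_ifs with h
  · exact le_rfl
  · have h1 := Real.add_one_le_exp y
    have h2 : Real.exp y * Real.exp (-y) = 1 := by rw [← Real.exp_add]; simp
    have h3 := Real.exp_pos (-y)
    nlinarith

lemma wt_int_zero : ∫ x in Ioi (0 : ℝ), wt x = 1 := by
  have h := integral_weight (r := 1) (b := 0) one_pos le_rfl
  have e : ∀ x : ℝ, wt x = x * Real.exp (-1 * x) := by intro x; simp [wt]
  simp only [e]
  rw [h]; simp

lemma wt_int_Ioi {z : ℝ} (hz : 0 ≤ z) : ∫ x in Ioi z, wt x = (1 + z) * Real.exp (-z) := by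
  have h := integral_weight (r := 1) (b := z) one_pos hz
  have e : ∀ x : ℝ, wt x = x * Real.exp (-1 * x) := by intro x; simp [wt]
  simp only [e]
  rw [h]
  simp only [div_one, one_pow, neg_mul, one_mul]
  ring

/-- primitive of the weight -/
lemma wt_primitive (z : ℝ) :
    ∫ x in Ioi (0 : ℝ), (Iio z).indicator wt x = 1 - truncExpWeight z := by
  unfold truncExpWeight
  rw [setIntegral_indicator measurableSet_Iio]
  split_ifs with h
  · have : Ioi (0 : ℝ) ∩ Iio z = ∅ := by
      ext x
      simp only [mem_inter_iff, mem_Ioi, mem_Iio, mem_empty_iff_false, iff_false, not_and, not_lt]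
      intro hx
      linarith
    rw [this]; simp
  · push Not at h
    have e1 : Ioi (0 : ℝ) ∩ Iio z = Ioo 0 z := rfl
    rw [e1]
    have h2 : ∫ x in Ioi (0 : ℝ), wt x = (∫ x in Ioo 0 z, wt x) + ∫ x in Ici z, wt x := by
      rw [← Ioo_union_Ici_eq_Ioi h, setIntegral_union]
      · rw [Set.disjoint_left]
        intro x hx hx'
        exact absurd hx.2 (not_lt.2 hx')
      · exact measurableSet_Ici
      · exact wt_integrableOn.mono_set Ioo_subset_Ioi_self
      · exact wt_integrableOn.mono_set (fun x hx => lt_of_lt_of_le h hx)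
    rw [integral_Ici_eq_integral_Ioi, wt_int_Ioi h.le, wt_int_zero] at h2
    linarith

lemma wt_meas : Measurable wt := by unfold wt; fun_prop

/-- expectation formula -/
lemma expect_formula {Ω : Type*} [MeasurableSpace Ω] (μ : Measure Ω) [IsProbabilityMeasure μ]
    {Z : Ω → ℝ} (hZ : Measurable Z) :
    ∫ ω, truncExpWeight (Z ω) ∂μ = 1 - ∫ x in Ioi (0 : ℝ), wt x * μ.real {ω | x < Z ω} := by
  have hS : MeasurableSet {p : ℝ × Ω | p.1 < Z p.2} :=
    measurableSet_lt measurable_fst (hZ.comp measurable_snd)
  set F : ℝ → Ω → ℝ := fun x ω => ({p : ℝ × Ω | p.1 < Z p.2}).indicator (fun p => wt p.1) (x, ω)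
    with hF
  have hFint : Integrable (Function.uncurry F) ((volume.restrict (Ioi (0 : ℝ))).prod μ) := by
    have h1 : Integrable (fun p : ℝ × Ω => wt p.1) ((volume.restrict (Ioi (0 : ℝ))).prod μ) :=
      Integrable.comp_fst wt_integrableOn μ
    have h2 := h1.indicator hS
    have e : Function.uncurry F = ({p : ℝ × Ω | p.1 < Z p.2}).indicator (fun p => wt p.1) := by
      ext ⟨x, ω⟩
      rfl
    rw [e]
    exact h2
  have h2 := integral_integral_swap hFint
  have h3 : ∀ x, ∫ ω, F x ω ∂μ = wt x * μ.real {ω | x < Z ω} := by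
    intro x
    have e : (fun ω => F x ω) = ({ω | x < Z ω}).indicator (fun _ => wt x) := by
      ext ω
      simp only [hF, indicator, mem_ofPred_eq]
    rw [e, integral_indicator (measurableSet_lt measurable_const hZ)]
    simp [mul_comm]
  have h4 : ∀ ω, ∫ x in Ioi (0 : ℝ), F x ω = 1 - truncExpWeight (Z ω) := by
    intro ω
    rw [← wt_primitive (Z ω)]
    apply setIntegral_congr_fun measurableSet_Ioi
    intro x _
    simp only [hF, indicator, mem_ofPred_eq, mem_Iio]
  simp only [h3, h4] at h2
  rw [h2]
  have hgint : Integrable (fun ω => truncExpWeight (Z ω)) μ := by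
    apply Integrable.of_bound (C := 1)
    · exact (g_meas.comp hZ).aestronglyMeasurable
    · refine Eventually.of_forall (fun ω => ?_)
      rw [Real.norm_eq_abs, abs_of_nonneg (g_nonneg _)]
      exact g_le_one _
  rw [integral_sub (integrable_const _) hgint]
  simp

lemma sv_integrable {Ω : Type*} [MeasurableSpace Ω] (μ : Measure Ω) [IsProbabilityMeasure μ]
    {f : Ω → ℝ} (hf : Integrable f μ) (h0 : ∀ ω, 0 ≤ f ω) :
    IntegrableOn (fun t => μ.real {ω | t < f ω}) (Ioi 0) := by
  have key := lintegral_eq_lintegral_meas_lt μ (Eventually.of_forall h0) hf.aemeasurable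
  refine ⟨?_, ?_⟩
  · apply Measurable.aestronglyMeasurable
    apply Antitone.measurable
    intro s t hst
    apply measureReal_mono _ (measure_ne_top _ _)
    intro x hx
    exact lt_of_le_of_lt hst hx
  · rw [HasFiniteIntegral]
    have : ∀ t, ‖μ.real {ω | t < f ω}‖ₑ = μ {ω | t < f ω} := by
      intro t
      rw [Real.enorm_of_nonneg measureReal_nonneg, measureReal_def,
        ENNReal.ofReal_toReal (measure_ne_top _ _)]
    simp only [this]
    rw [← key]
    exact hf.lintegral_lt_top

lemma sv_integrable_le {Ω : Type*} [MeasurableSpace Ω] (μ : Measure Ω) [IsProbabilityMeasure μ]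
    {f : Ω → ℝ} (hf : Integrable f μ) (h0 : ∀ ω, 0 ≤ f ω) :
    IntegrableOn (fun t => μ.real {ω | t ≤ f ω}) (Ioi 0) := by
  refine (sv_integrable μ hf h0).congr ?_
  filter_upwards [meas_le_ae_eq_meas_lt μ (volume.restrict (Ioi 0)) f] with t ht
  simp only [measureReal_def, ht]

lemma shift_integrableOn {G : ℝ → ℝ} {c : ℝ} :
    IntegrableOn G (Ioi c) ↔ IntegrableOn (fun t => G (t + c)) (Ioi 0) := by
  have h := (measurePreserving_add_right (volume : Measure ℝ) c).integrableOn_comp_preimage
    (measurableEmbedding_addRight c) (f := G) (s := Ioi c)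
  have h3 : (fun x : ℝ => x + c) ⁻¹' Ioi c = Ioi 0 := by
    ext x; simp
  rw [h3] at h
  exact h.symm

lemma shift_integral (G : ℝ → ℝ) (c : ℝ) :
    ∫ x in Ioi c, G x = ∫ t in Ioi (0 : ℝ), G (t + c) := by
  have h2 := (measurePreserving_add_right (volume : Measure ℝ) c).setIntegral_preimage_emb
    (measurableEmbedding_addRight c) G (Ioi c)
  have h3 : (fun x : ℝ => x + c) ⁻¹' Ioi c = Ioi 0 := by
    ext x; simp
  rw [h3] at h2
  exact h2.symm

lemma reflect_integrableOn {G : ℝ → ℝ} {c : ℝ} :
    IntegrableOn G (Iic c) ↔ IntegrableOn (fun t => G (c - t)) (Ioi 0) := by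
  have h := (Measure.measurePreserving_sub_left (volume : Measure ℝ) c).integrableOn_comp_preimage
    (MeasurableEquiv.subLeft c).measurableEmbedding (f := G) (s := Iio c)
  have h3 : (fun x : ℝ => c - x) ⁻¹' Iio c = Ioi 0 := by
    ext x; simp
  rw [h3] at h
  rw [integrableOn_Iic_iff_integrableOn_Iio]
  exact h.symm

lemma reflect_integral (G : ℝ → ℝ) (c : ℝ) :
    ∫ x in Iic c, G x = ∫ t in Ioi (0 : ℝ), G (c - t) := by
  have h2 := (Measure.measurePreserving_sub_left (volume : Measure ℝ) c).setIntegral_preimage_emb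
    (MeasurableEquiv.subLeft c).measurableEmbedding G (Iio c)
  have h3 : (fun x : ℝ => c - x) ⁻¹' Iio c = Ioi 0 := by
    ext x; simp
  rw [h3] at h2
  rw [integral_Iic_eq_integral_Iio]
  exact h2.symm

/-- the layer cake bookkeeping for a centred variable -/
lemma mean_fields {Ω : Type*} [MeasurableSpace Ω] (μ : Measure Ω) [IsProbabilityMeasure μ]
    {Y : Ω → ℝ} (hY : Integrable Y μ) (hY0 : ∫ ω, Y ω ∂μ = 0) (hYm : Measurable Y) (c : ℝ) :
    IntegrableOn (fun x => μ.real {ω | x - c < Y ω}) (Ioi c) ∧
    IntegrableOn (fun x => 1 - μ.real {ω | x - c < Y ω}) (Iic c) ∧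
    ∫ x in Ioi c, μ.real {ω | x - c < Y ω} = ∫ x in Iic c, (1 - μ.real {ω | x - c < Y ω}) := by
  have hp := hY.pos_part
  have hn := hY.neg_part
  have hp0 : ∀ ω, 0 ≤ max (Y ω) 0 := fun ω => le_max_right _ _
  have hn0 : ∀ ω, 0 ≤ max (-Y ω) 0 := fun ω => le_max_right _ _
  have e1 : ∀ t ∈ Ioi (0 : ℝ), μ.real {ω | t < max (Y ω) 0}
      = (fun x => μ.real {ω | x - c < Y ω}) (t + c) := by
    intro t ht
    have ht' : (0 : ℝ) < t := ht
    simp only
    congr 1
    ext ω
    simp only [mem_ofPred_eq, add_sub_cancel_right, lt_max_iff]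
    constructor
    · rintro (h | h)
      · exact h
      · linarith
    · intro h; exact Or.inl h
  have e2 : ∀ t ∈ Ioi (0 : ℝ), μ.real {ω | t ≤ max (-Y ω) 0}
      = (fun x => 1 - μ.real {ω | x - c < Y ω}) (c - t) := by
    intro t ht
    have ht' : (0 : ℝ) < t := ht
    simp only
    have hset : {ω | t ≤ max (-Y ω) 0} = {ω | c - t - c < Y ω}ᶜ := by
      ext ω
      simp only [mem_ofPred_eq, le_max_iff, mem_compl_iff, not_lt]
      constructor
      · rintro (h | h)
        · linarith
        · linarith
      · intro h; left; linarith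
    rw [hset, probReal_compl_eq_one_sub (measurableSet_lt measurable_const hYm)]
  refine ⟨?_, ?_, ?_⟩
  · rw [shift_integrableOn]
    exact (sv_integrable μ hp hp0).congr_fun e1 measurableSet_Ioi
  · rw [reflect_integrableOn]
    exact (sv_integrable_le μ hn hn0).congr_fun e2 measurableSet_Ioi
  · rw [shift_integral, reflect_integral]
    rw [← setIntegral_congr_fun measurableSet_Ioi e1, ← setIntegral_congr_fun measurableSet_Ioi e2]
    rw [← Integrable.integral_eq_integral_meas_lt hp (Eventually.of_forall hp0),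
      ← Integrable.integral_eq_integral_meas_le hn (Eventually.of_forall hn0)]
    have h1 : ∫ ω, Y ω ∂μ = ∫ ω, max (Y ω) 0 ∂μ - ∫ ω, max (-Y ω) 0 ∂μ := by
      rw [← integral_sub hp hn]
      apply integral_congr_ae
      refine Eventually.of_forall (fun ω => ?_)
      simp only
      rcases le_total (Y ω) 0 with h | h
      · rw [max_eq_right h, max_eq_left (by linarith)]; ring
      · rw [max_eq_left h, max_eq_right (by linarith)]; ring
    linarith

/-- the linear form is integrable, of mean `∑ a i` -/
lemma id_integrable_ν : Integrable id ν := by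
  unfold ν
  rw [integrable_withDensity_iff_integrable_smul' dens_measurable
    (Eventually.of_forall (fun x => by simp [dens]))]
  have h := integrableOn_weight (r := 1) (b := 0) one_pos le_rfl
  refine (h.congr ?_)
  refine Eventually.of_forall (fun t => ?_)
  simp only [dens, id, smul_eq_mul, neg_mul, one_mul]
  rw [ENNReal.toReal_ofReal (Real.exp_pos _).le, mul_comm]

lemma integral_id_ν : ∫ t, t ∂ν = 1 := by
  rw [integral_ν]
  have := wt_int_zero
  unfold wt at this
  rw [← this]
  apply setIntegral_congr_fun measurableSet_Ioi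
  intro t _
  simp only
  ring

lemma form_integrable {N : ℕ} (a : Fin N → ℝ) :
    Integrable (fun x : Fin N → ℝ => ∑ i, a i * x i) (μN N) := by
  apply integrable_finsetSum
  intro i _
  apply Integrable.const_mul
  exact integrable_eval (μ := fun _ : Fin N => ν) (i := i) id_integrable_ν

lemma form_integral {N : ℕ} (a : Fin N → ℝ) :
    ∫ x, ∑ i, a i * x i ∂(μN N) = ∑ i, a i := by
  rw [integral_finsetSum]
  · apply Finset.sum_congr rfl
    intro i _
    rw [integral_const_mul]
    have h : ∫ x : Fin N → ℝ, x i ∂(μN N) = ∫ t, t ∂ν :=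
      integral_eval (μ := fun _ : Fin N => ν) (i := i)
    rw [h, integral_id_ν, mul_one]
  · intro i _
    apply Integrable.const_mul
    exact integrable_eval (μ := fun _ : Fin N => ν) (i := i) id_integrable_ν

/-- the survival function of `c + Y` is `Good` -/
lemma good_of {N : ℕ} (a : Fin N → ℝ) (hsum : ∑ i, a i = 0) (ha : a ≠ 0) (c : ℝ) :
    Good (fun x => Ψ a (x - c)) c := by
  have hpos : ∃ i, 0 < a i := by
    by_contra hcon
    push Not at hcon
    apply ha
    ext i
    have := (Finset.sum_eq_zero_iff_of_nonpos (fun i _ => hcon i)).1 hsum i (Finset.mem_univ i)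
    simpa using this
  have hneg : ∃ i, a i < 0 := by
    by_contra hcon
    push Not at hcon
    apply ha
    ext i
    have := (Finset.sum_eq_zero_iff_of_nonneg (fun i _ => hcon i)).1 hsum i (Finset.mem_univ i)
    simpa using this
  obtain ⟨i, hi⟩ := hpos
  obtain ⟨j, hj⟩ := hneg
  have hm := mean_fields (μN N) (form_integrable a) ((form_integral a).trans hsum)
    (meas_form a) c
  refine ⟨fun x => Ψ_pos a i hi _, fun x => Ψ_lt_one a j hj _, ?_, ?_, hm.1, hm.2.1, hm.2.2⟩
  · intro x y hxy
    exact Ψ_anti a (by linarith)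
  · intro x y δ hxy hδ
    have := Ψ_tp2 a (x - c) (y - c) δ (by linarith) hδ
    simp only
    rwa [show x - δ - c = x - c - δ by ring, show y + δ - c = y - c + δ by ring]

end Crest.Agent.Lib.S0423A
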