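import Crest.Agent.Lib.S0423E

set_option autoImplicit false

namespace Crest.Agent.Lib.S0423A

open MeasureTheory Set Filter Topology

open Crest.AlgGeometry (truncExpWeight)

lemma stmt_integral {N : ℕ} (a : Fin N → ℝ) :
    ∫ x in pi univ (fun _ : Fin N => Ioi (0 : ℝ)),
        truncExpWeight (4 / 3 + ∑ i, a i * x i) * Real.exp (-∑ i, x i)
      = 1 - ∫ x in Ioi (0 : ℝ), wt x * Ψ a (x - 4 / 3) := by
  rw [← integral_μN (fun x => truncExpWeight (4 / 3 + ∑ i, a i * x i))]
  have hm := meas_form a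
  rw [expect_formula (μN N) (Z := fun x => 4 / 3 + ∑ i, a i * x i) (by fun_prop)]
  congr 1
  apply setIntegral_congr_fun measurableSet_Ioi
  intro x _
  simp only
  congr 1
  unfold Ψ
  congr 1
  ext ω
  simp only [mem_ofPred_eq]
  constructor <;> intro h <;> linarith

/-- the upper bound of the statement -/
theorem part1 (N : ℕ) (a : Fin N → ℝ) (hsum : ∑ i, a i = 0) :
    Real.exp (4 / 3) / (4 / 3) *
        ∫ x in pi univ (fun _ : Fin N => Ioi (0 : ℝ)),
          truncExpWeight (4 / 3 + ∑ i, a i * x i) * Real.exp (-∑ i, x i)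
      ≤ 3 / 4 * Real.exp (4 / 3) - Real.exp 1 / 3 := by
  have hpos : 0 < Real.exp (4 / 3) / (4 / 3) := by positivity
  by_cases ha : a = 0
  · rw [← integral_μN (fun x => truncExpWeight (4 / 3 + ∑ i, a i * x i))]
    have h1 : ∫ x, truncExpWeight (4 / 3 + ∑ i, a i * x i) ∂(μN N)
        = (1 + 4 / 3) * Real.exp (-(4 / 3)) := by
      subst ha
      simp only [Pi.zero_apply, zero_mul, Finset.sum_const_zero, add_zero, integral_const,
        probReal_univ, one_smul]
      unfold truncExpWeight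
      rw [if_neg (by norm_num)]
    rw [h1]
    have h2 : Real.exp (4 / 3) * Real.exp (-(4 / 3)) = 1 := by
      rw [← Real.exp_add]; simp
    have h3 : Real.exp (4 / 3) / (4 / 3) * ((1 + 4 / 3) * Real.exp (-(4 / 3))) = 7 / 4 := by
      calc _ = (7 / 4) * (Real.exp (4 / 3) * Real.exp (-(4 / 3))) := by ring
        _ = _ := by rw [h2]; ring
    rw [h3]
    have h4 : Real.exp (4 / 3) = Real.exp 1 * Real.exp (1 / 3) := by
      rw [← Real.exp_add]; norm_num
    have h5 : (25 / 18 : ℝ) ≤ Real.exp (1 / 3) := by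
      have := Real.quadratic_le_exp_of_nonneg (x := 1 / 3) (by norm_num)
      norm_num at this ⊢
      linarith
    have h6 := Real.exp_one_gt_d9
    rw [h4]
    nlinarith
  · rw [stmt_integral]
    have hg := good_of a hsum ha (4 / 3)
    have hJ := hg.main
    have h1 := mul_le_mul_of_nonneg_left
      (show 1 - ∫ x in Ioi (0 : ℝ), wt x * Ψ a (x - 4 / 3) ≤ 1 - 4 / 9 * Real.exp (-(1 / 3)) by
        linarith) hpos.le
    refine h1.trans (le_of_eq ?_)
    have h2 : Real.exp (4 / 3) * Real.exp (-(1 / 3)) = Real.exp 1 := by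
      rw [← Real.exp_add]; norm_num
    calc _ = 3 / 4 * Real.exp (4 / 3) - 1 / 3 * (Real.exp (4 / 3) * Real.exp (-(1 / 3))) := by ring
      _ = _ := by rw [h2]; ring

/-! ### sharpness -/

lemma meas_cons {N : ℕ} (a₀ : ℝ) (a' : Fin N → ℝ) (y : ℝ) :
    (μN (N + 1)) {x | y < ∑ k, (Fin.cons a₀ a' : Fin (N + 1) → ℝ) k * x k}
      = ∫⁻ x', ν {t | y < a₀ * t + ∑ j, a' j * x' j} ∂(μN N) := by
  have mp : MeasurePreserving (MeasurableEquiv.piFinSuccAbove (fun _ : Fin (N + 1) => ℝ) 0)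
      (μN (N + 1)) (ν.prod (μN N)) :=
    measurePreserving_piFinSuccAbove (fun _ : Fin (N + 1) => ν) 0
  set S' : Set (ℝ × (Fin N → ℝ)) := {p | y < a₀ * p.1 + ∑ j, a' j * p.2 j} with hS'def
  have hS' : MeasurableSet S' := by
    apply measurableSet_lt measurable_const
    have := meas_form a'
    fun_prop
  have e : {x : Fin (N + 1) → ℝ | y < ∑ k, (Fin.cons a₀ a' : Fin (N + 1) → ℝ) k * x k}
      = (MeasurableEquiv.piFinSuccAbove (fun _ : Fin (N + 1) => ℝ) 0) ⁻¹' S' := by
    ext x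
    simp only [mem_ofPred_eq, hS'def, mem_preimage, Fin.sum_univ_succ, Fin.cons_zero, Fin.cons_succ]
    rfl
  rw [e, mp.measure_preimage_equiv, Measure.prod_apply_symm hS']
  rfl

lemma ν_Ioi_le (s : ℝ) : ν (Ioi s) ≤ ENNReal.ofReal (Real.exp (-s)) := by
  rcases le_or_gt 0 s with hs | hs
  · rw [ν_Ioi hs]
  · calc ν (Ioi s) ≤ 1 := prob_le_one
      _ ≤ _ := by
        rw [ENNReal.one_le_ofReal]
        exact Real.one_le_exp (by linarith)

/-- the decay rate of the test law -/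
noncomputable def κ (M : ℕ) : ℝ := ((1 + 1 / (M : ℝ)) ^ M)⁻¹

lemma κ_pos {M : ℕ} (hM : 1 ≤ M) : 0 < κ M := by
  unfold κ
  have : (0 : ℝ) < M := by exact_mod_cast hM
  positivity

lemma expMul_integrable {M : ℕ} (hM : 1 ≤ M) :
    Integrable (fun t : ℝ => Real.exp (-t / (M : ℝ))) ν := by
  have hM' : (0 : ℝ) < M := by exact_mod_cast hM
  set A : ℝ := 1 / (1 + 1 / (M : ℝ)) with hA
  have hA0 : 0 < A := by positivity
  unfold ν
  rw [integrable_withDensity_iff_integrable_smul' dens_measurable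
    (Eventually.of_forall (fun x => by simp [dens]))]
  have h := integrableOn_exp_affine hA0 0 0
  refine (h.congr ?_)
  refine Eventually.of_forall (fun t => ?_)
  simp only [dens, smul_eq_mul]
  rw [ENNReal.toReal_ofReal (Real.exp_pos _).le, ← Real.exp_add]
  congr 1
  simp only [hA]
  field_simp
  ring

lemma expMul_integral {M : ℕ} (hM : 1 ≤ M) :
    ∫ t, Real.exp (-t / (M : ℝ)) ∂ν = 1 / (1 + 1 / (M : ℝ)) := by
  have hM' : (0 : ℝ) < M := by exact_mod_cast hM
  set A : ℝ := 1 / (1 + 1 / (M : ℝ)) with hA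
  have hA0 : 0 < A := by positivity
  rw [integral_ν]
  have h := integral_exp_affine hA0 0 0
  simp only [sub_zero, neg_zero, zero_div, Real.exp_zero, mul_one] at h
  rw [← h]
  apply setIntegral_congr_fun measurableSet_Ioi
  intro t _
  simp only
  rw [← Real.exp_add]
  congr 1
  simp only [hA]
  field_simp
  ring

lemma Ψ_bound {M : ℕ} (hM : 1 ≤ M) (y : ℝ) :
    Ψ (Fin.cons 2 (fun _ => -2 / (M : ℝ)) : Fin (M + 1) → ℝ) y
      ≤ Real.exp (-y / 2) * κ M := by
  have hM' : (0 : ℝ) < M := by exact_mod_cast hM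
  set a' : Fin M → ℝ := fun _ => -2 / (M : ℝ) with ha'
  unfold Ψ
  rw [measureReal_def, meas_cons]
  set G : (Fin M → ℝ) → ℝ := fun x' => Real.exp (-y / 2) * ∏ j, Real.exp (-(x' j) / (M : ℝ)) with hG
  have hG0 : ∀ x', 0 ≤ G x' := by
    intro x'
    simp only [hG]
    positivity
  have hGint : Integrable G (μN M) := by
    apply Integrable.const_mul
    exact Integrable.fintype_prod (μ := fun _ : Fin M => ν)
      (f := fun _ t => Real.exp (-t / (M : ℝ))) (fun _ => expMul_integrable hM)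
  have hGval : ∫ x', G x' ∂(μN M) = Real.exp (-y / 2) * κ M := by
    simp only [hG]
    rw [integral_const_mul]
    congr 1
    have := integral_fintype_prod_eq_pow (ι := Fin M) (μ := ν) (𝕜 := ℝ)
      (fun t => Real.exp (-t / (M : ℝ)))
    simp only [Fintype.card_fin] at this
    unfold μN
    rw [this, expMul_integral hM]
    unfold κ
    rw [one_div, inv_pow]
  have hle : ∫⁻ x', ν {t | y < 2 * t + ∑ j, a' j * x' j} ∂(μN M)
      ≤ ENNReal.ofReal (Real.exp (-y / 2) * κ M) := by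
    rw [← hGval, ofReal_integral_eq_lintegral_ofReal hGint (Eventually.of_forall hG0)]
    apply lintegral_mono
    intro x'
    simp only
    have e1 : {t : ℝ | y < 2 * t + ∑ j, a' j * x' j}
        = Ioi ((y - ∑ j, a' j * x' j) / 2) := by
      ext t
      simp only [mem_ofPred_eq, mem_Ioi]
      constructor <;> intro h <;> linarith
    rw [e1]
    refine (ν_Ioi_le _).trans (ENNReal.ofReal_le_ofReal (le_of_eq ?_))
    simp only [hG]
    rw [← Real.exp_sum, ← Real.exp_add]
    congr 1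
    simp only [ha']
    have e2 : ∑ j : Fin M, -2 / (M : ℝ) * x' j = (-2 / (M : ℝ)) * ∑ j, x' j := by
      rw [Finset.mul_sum]
    have e3 : ∑ j : Fin M, -(x' j) / (M : ℝ) = (-1 / (M : ℝ)) * ∑ j, x' j := by
      rw [Finset.mul_sum]
      apply Finset.sum_congr rfl
      intro j _
      ring
    rw [e2, e3]
    ring
  have hκ := κ_pos hM
  exact ENNReal.toReal_le_of_le_ofReal (by positivity) hle

lemma J_bound {M : ℕ} (hM : 1 ≤ M) :
    ∫ x in Ioi (0 : ℝ), wt x * Ψ (Fin.cons 2 (fun _ => -2 / (M : ℝ)) : Fin (M + 1) → ℝ) (x - 4 / 3)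
      ≤ κ M * Real.exp (2 / 3) * (4 / 9) := by
  set a : Fin (M + 1) → ℝ := Fin.cons 2 (fun _ => -2 / (M : ℝ)) with ha
  have hw := integrableOn_weight (r := 3 / 2) (b := 0) (by norm_num) le_rfl
  have hv := integral_weight (r := 3 / 2) (b := 0) (by norm_num) le_rfl
  norm_num at hv
  have hκ := κ_pos hM
  have e : ∀ x : ℝ, wt x * (Real.exp (-(x - 4 / 3) / 2) * κ M)
      = (κ M * Real.exp (2 / 3)) * (x * Real.exp (-(3 / 2) * x)) := by
    intro x
    unfold wt
    have : Real.exp (-(x - 4 / 3) / 2) * Real.exp (-x)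
        = Real.exp (2 / 3) * Real.exp (-(3 / 2) * x) := by
      rw [← Real.exp_add, ← Real.exp_add]; congr 1; ring
    calc _ = x * κ M * (Real.exp (-(x - 4 / 3) / 2) * Real.exp (-x)) := by ring
      _ = _ := by rw [this]; ring
  have hint2 : IntegrableOn (fun x => wt x * (Real.exp (-(x - 4 / 3) / 2) * κ M)) (Ioi 0) := by
    simp only [e]
    exact hw.const_mul _
  have hint1 : IntegrableOn (fun x => wt x * Ψ a (x - 4 / 3)) (Ioi 0) := by
    apply wt_mul_integrableOn
    · exact (Ψ_meas a).comp (by fun_prop)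
    · intro x; exact Ψ_abs_le a _
  have hmono := setIntegral_mono_on hint1 hint2 measurableSet_Ioi (fun x hx => by
    apply mul_le_mul_of_nonneg_left (Ψ_bound hM _) (wt_nonneg hx))
  refine hmono.trans (le_of_eq ?_)
  simp only [e]
  rw [integral_const_mul]
  have hv' : ∫ x in Ioi (0 : ℝ), x * Real.exp (-(3 / 2) * x) = 4 / 9 := by
    rw [integral_weight (r := 3 / 2) (b := 0) (by norm_num) le_rfl]
    norm_num
  rw [hv']

lemma κ_tendsto : Tendsto κ atTop (𝓝 (Real.exp 1)⁻¹) := by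
  unfold κ
  have h := Real.tendsto_one_add_div_pow_exp 1
  exact h.inv₀ (Real.exp_pos _).ne'

theorem part2 (ε : ℝ) (hε : 0 < ε) : ∃ (N : ℕ) (a : Fin N → ℝ), 1 ≤ N ∧ ∑ i, a i = 0 ∧
    3 / 4 * Real.exp (4 / 3) - Real.exp 1 / 3 - ε <
      Real.exp (4 / 3) / (4 / 3) *
        ∫ x in pi univ (fun _ : Fin N => Ioi (0 : ℝ)),
          truncExpWeight (4 / 3 + ∑ i, a i * x i) * Real.exp (-∑ i, x i) := by
  have ht : Tendsto (fun M : ℕ => Real.exp 2 * κ M) atTop
      (𝓝 (Real.exp 2 * (Real.exp 1)⁻¹)) := κ_tendsto.const_mul _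
  have he : Real.exp 2 * (Real.exp 1)⁻¹ = Real.exp 1 := by
    rw [show (2 : ℝ) = 1 + 1 by norm_num, Real.exp_add]
    field_simp
  rw [he] at ht
  have hev : ∀ᶠ M : ℕ in atTop, Real.exp 2 * κ M < Real.exp 1 + 3 * ε :=
    ht.eventually (gt_mem_nhds (by linarith))
  obtain ⟨M, hM1, hM2⟩ := (hev.and (eventually_ge_atTop 1)).exists
  have hM' : (0 : ℝ) < M := by exact_mod_cast hM2
  refine ⟨M + 1, Fin.cons 2 (fun _ => -2 / (M : ℝ)), by omega, ?_, ?_⟩
  · rw [Fin.sum_univ_succ]
    simp only [Fin.cons_zero, Fin.cons_succ, Finset.sum_const, Finset.card_univ, Fintype.card_fin,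
      nsmul_eq_mul]
    field_simp
    ring
  · rw [stmt_integral]
    have hJ := J_bound hM2
    have hpos : 0 < Real.exp (4 / 3) / (4 / 3) := by positivity
    have h1 := mul_le_mul_of_nonneg_left
      (show 1 - κ M * Real.exp (2 / 3) * (4 / 9)
          ≤ 1 - ∫ x in Ioi (0 : ℝ), wt x *
            Ψ (Fin.cons 2 (fun _ => -2 / (M : ℝ)) : Fin (M + 1) → ℝ) (x - 4 / 3) by
        linarith) hpos.le
    refine lt_of_lt_of_le ?_ h1
    have h2 : Real.exp (4 / 3) * Real.exp (2 / 3) = Real.exp 2 := by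
      rw [← Real.exp_add]; norm_num
    have h3 : Real.exp (4 / 3) / (4 / 3) * (1 - κ M * Real.exp (2 / 3) * (4 / 9))
        = 3 / 4 * Real.exp (4 / 3) - 1 / 3 * (Real.exp 2 * κ M) := by
      rw [← h2]; ring
    rw [h3]
    linarith

end Crest.Agent.Lib.S0423A
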