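import Crest.Agent.Lib.SymThreshold

set_option autoImplicit false
set_option linter.unusedSectionVars false
set_option linter.unusedSimpArgs false
set_option linter.unusedVariables false

/-!
The main inequality: variance bounded through total influence, for swap-invariant Boolean functions.
-/

namespace Crest.Agent.Lib.SymMain

open Finset Crest.Agent.Lib.BiasedCube Crest.Agent.Lib.BiasedBonami Crest.Agent.Lib.BlockSym
open Crest.Agent.Lib.SymThreshold

variable {ι : Type*} [Fintype ι] [DecidableEq ι]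

/-- `Var = Σ_{T ≠ ∅} \hat F(T)²` for Boolean `F`. -/
lemma var_eq {p : ℝ} (hp0 : 0 < p) (hp1 : p < 1) (F : (ι → Bool) → ℝ) (hF : IsBool F) :
    Ex p F - Ex p F ^ 2 = ∑ T ∈ (univ : Finset (Finset ι)).erase ∅, coeff p F T ^ 2 := by
  have h1 : Ex p F = Ex p (fun x => F x ^ 2) := Ex_congr p fun x => (IsBool.sq_eq hF x).symm
  have h2 := parseval_sq hp0 hp1 F
  have h3 : ∑ T : Finset ι, coeff p F T ^ 2 =
      coeff p F ∅ ^ 2 + ∑ T ∈ (univ : Finset (Finset ι)).erase ∅, coeff p F T ^ 2 :=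
    (add_sum_erase _ _ (mem_univ _)).symm
  rw [coeff_empty] at h3
  linarith

/-- `ν · I = Σ |T| \hat F(T)²` for Boolean `F`. -/
lemma nu_inf_eq {p : ℝ} (hp0 : 0 < p) (hp1 : p < 1) (F : (ι → Bool) → ℝ) (hF : IsBool F) :
    ∑ T : Finset ι, (T.card : ℝ) * coeff p F T ^ 2 = p * (1 - p) * ∑ e : ι, Inf p F e := by
  rw [sum_card_coeff_sq hp0 hp1]
  congr 1
  refine sum_congr rfl fun e _ => ?_
  exact Ex_congr p fun x => IsBool.dd_sq hF e x

/-- Poincaré inequality. -/
theorem poincare {p : ℝ} (hp0 : 0 < p) (hp1 : p < 1) (F : (ι → Bool) → ℝ) (hF : IsBool F) :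
    Ex p F - Ex p F ^ 2 ≤ p * (1 - p) * ∑ e : ι, Inf p F e := by
  rw [var_eq hp0 hp1 F hF, ← nu_inf_eq hp0 hp1 F hF]
  refine le_trans ?_ (sum_le_sum_of_subset_of_nonneg (subset_univ ((univ : Finset (Finset ι)).erase ∅))
    (fun T _ _ => mul_nonneg (Nat.cast_nonneg _) (sq_nonneg _)))
  refine sum_le_sum fun T hT => ?_
  have hne : T ≠ ∅ := (mem_erase.mp hT).1
  have : (1 : ℝ) ≤ T.card := by
    exact_mod_cast card_pos.mpr (nonempty_iff_ne_empty.mpr hne)
  nlinarith [sq_nonneg (coeff p F T)]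

variable {n : ℕ} {vert : ι → Finset (Fin n)}

/-- The bad sets are attached to many `U`. -/
lemma bad_attached {r w m : ℕ} (hr : 2 ≤ r) (hvert : ∀ e, (vert e).card = r)
    (hinj : Function.Injective vert) (hm : 1 ≤ m) (T : Finset ι) (hT : T.Nonempty)
    (hsmall : r * T.card ≤ w ^ r) :
    (n - w ^ r).choose (m - 1) ≤
      (((univ : Finset (Fin n)).powersetCard m).filter
        (fun U => T ∩ touchSet vert U ∈ attached vert U (w ^ (r - 1)))).card := by
  obtain ⟨u, huW, hdeg⟩ := exists_low_deg hr hvert hinj T hT hsmall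
  set W := T.biUnion vert with hW
  have hWV : W.card ≤ w ^ r := by
    refine le_trans card_biUnion_le ?_
    rw [sum_congr rfl (fun e _ => hvert e)]
    simpa [mul_comm] using hsmall
  refine le_trans (card_U_ge hm huW hWV) (card_le_card ?_)
  intro U hU
  obtain ⟨hU1, hU2⟩ := mem_filter.mp hU
  refine mem_filter.mpr ⟨hU1, ?_⟩
  have huU : u ∈ U := by
    have : u ∈ U ∩ W := by rw [hU2]; simp
    exact (mem_inter.mp this).1
  refine mem_biUnion.mpr ⟨u, huU, mem_lowSets.mpr ⟨?_, ?_, ?_⟩⟩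
  · obtain ⟨e, he, hue⟩ := mem_biUnion.mp huW
    refine ⟨e, mem_inter.mpr ⟨he, mem_filter.mpr ⟨mem_univ _, u, mem_inter.mpr ⟨hue, huU⟩⟩⟩⟩
  · intro e he
    obtain ⟨heT, heU⟩ := mem_inter.mp he
    have hne : (vert e ∩ U).Nonempty := (mem_filter.mp heU).2
    have hsub : vert e ∩ U ⊆ {u} := by
      intro a ha
      obtain ⟨h1, h2⟩ := mem_inter.mp ha
      rw [← hU2]
      exact mem_inter.mpr ⟨h2, mem_biUnion.mpr ⟨e, heT, h1⟩⟩
    refine mem_filter.mpr ⟨mem_univ _, ?_⟩
    rcases subset_singleton_iff.mp hsub with h | h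
    · rw [h] at hne; simp at hne
    · exact h
  · refine le_trans (card_le_card ?_) hdeg
    intro e he
    obtain ⟨heT, heU⟩ := mem_inter.mp he
    have hne : (vert e ∩ U).Nonempty := (mem_filter.mp heU).2
    refine mem_filter.mpr ⟨heT, ?_⟩
    obtain ⟨a, ha⟩ := hne
    obtain ⟨h1, h2⟩ := mem_inter.mp ha
    have : a ∈ U ∩ W := mem_inter.mpr ⟨h2, mem_biUnion.mpr ⟨e, heT, h1⟩⟩
    rw [hU2, mem_singleton] at this
    rwa [this] at h1

/-- The main inequality. -/
theorem main_ineq {r w m : ℕ} (hr : 2 ≤ r) (hvert : ∀ e, (vert e).card = r)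
    (hinj : Function.Injective vert) {p : ℝ} (hp0 : 0 < p) (hp1 : p < 1)
    (F : (ι → Bool) → ℝ) (hF : IsBool F) (hsym : SwapSym vert F) (hw : 1 ≤ w) (hm : 1 ≤ m)
    (hmn : m ≤ n) (c : ℝ) (hc0 : 0 ≤ c)
    (hc3 : (p * (1 - p)) ^ 2 * bK p ^ (w ^ (r - 1)) / m ≤ c ^ 3)
    (hchoose : (n - 1).choose (m - 1) ≤ 2 * (n - w ^ r).choose (m - 1)) :
    Ex p F - Ex p F ^ 2 ≤ ((r : ℝ) * (p * (1 - p)) / (w : ℝ) ^ r + 2 * r * c) * ∑ e : ι, Inf p F e := by
  set I := ∑ e : ι, Inf p F e with hI
  have hI0 : 0 ≤ I := sum_nonneg fun e _ => Inf_nonneg hp0 hp1 F e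
  have hν : 0 < p * (1 - p) := mul_pos hp0 (by linarith)
  set P := (univ : Finset (Fin n)).powersetCard m with hP
  set t := w ^ (r - 1) with ht
  set N : Finset ι → ℕ := fun T => (P.filter
    (fun U => T ∩ touchSet vert U ∈ attached vert U t)).card with hN
  set C := (n - w ^ r).choose (m - 1) with hC
  set C' := (n - 1).choose (m - 1) with hC'
  have hC'pos : 1 ≤ C' := Nat.choose_pos (by omega)
  have hCpos : 1 ≤ C := by omega
  have hCreal : (0 : ℝ) < C := by exact_mod_cast hCpos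
  rw [var_eq hp0 hp1 F hF]
  rw [← sum_filter_add_sum_filter_not _ (fun T => r * T.card ≤ w ^ r)]
  -- the good part
  have hgood : ∑ T ∈ ((univ : Finset (Finset ι)).erase ∅).filter (fun T => ¬ (r * T.card ≤ w ^ r)),
      coeff p F T ^ 2 ≤ (r : ℝ) * (p * (1 - p)) / (w : ℝ) ^ r * I := by
    have hwr : (0 : ℝ) < (w : ℝ) ^ r := by
      have : (0 : ℝ) < w := by exact_mod_cast hw
      positivity
    have h1 : ∀ T ∈ ((univ : Finset (Finset ι)).erase ∅).filter (fun T => ¬ (r * T.card ≤ w ^ r)),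
        coeff p F T ^ 2 ≤ (r : ℝ) / (w : ℝ) ^ r * ((T.card : ℝ) * coeff p F T ^ 2) := by
      intro T hT
      have hT2 := (mem_filter.mp hT).2
      have hlt : (w : ℝ) ^ r ≤ (r : ℝ) * T.card := by
        have : w ^ r ≤ r * T.card := by omega
        exact_mod_cast this
      have hq : 1 ≤ (r : ℝ) / (w : ℝ) ^ r * T.card := by
        rw [div_mul_eq_mul_div, le_div_iff₀ hwr]
        linarith
      have := mul_le_mul_of_nonneg_right hq (sq_nonneg (coeff p F T))
      calc coeff p F T ^ 2 = 1 * coeff p F T ^ 2 := by ring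
        _ ≤ _ := this
        _ = _ := by ring
    refine le_trans (sum_le_sum h1) ?_
    rw [← mul_sum]
    have h2 : ∑ T ∈ ((univ : Finset (Finset ι)).erase ∅).filter (fun T => ¬ (r * T.card ≤ w ^ r)),
        (T.card : ℝ) * coeff p F T ^ 2 ≤ p * (1 - p) * I := by
      rw [hI, ← nu_inf_eq hp0 hp1 F hF]
      exact sum_le_sum_of_subset_of_nonneg (subset_univ _)
        (fun T _ _ => mul_nonneg (Nat.cast_nonneg _) (sq_nonneg _))
    have h3 : (0 : ℝ) ≤ (r : ℝ) / (w : ℝ) ^ r := by positivity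
    calc _ ≤ (r : ℝ) / (w : ℝ) ^ r * (p * (1 - p) * I) := mul_le_mul_of_nonneg_left h2 h3
      _ = _ := by ring
  -- the bad part
  have hbad : ∑ T ∈ ((univ : Finset (Finset ι)).erase ∅).filter (fun T => r * T.card ≤ w ^ r),
      coeff p F T ^ 2 ≤ 2 * r * c * I := by
    set B := ∑ T ∈ ((univ : Finset (Finset ι)).erase ∅).filter (fun T => r * T.card ≤ w ^ r),
      coeff p F T ^ 2 with hB
    have hlow : (C : ℝ) * B ≤ ∑ T : Finset ι, (N T : ℝ) * coeff p F T ^ 2 := by
      rw [hB, mul_sum]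
      refine le_trans (sum_le_sum ?_) (sum_le_sum_of_subset_of_nonneg (subset_univ
        (((univ : Finset (Finset ι)).erase ∅).filter (fun T => r * T.card ≤ w ^ r)))
        (fun T _ _ => mul_nonneg (Nat.cast_nonneg _) (sq_nonneg _)))
      intro T hT
      obtain ⟨hT1, hT2⟩ := mem_filter.mp hT
      have hne : T.Nonempty := nonempty_iff_ne_empty.mpr (mem_erase.mp hT1).1
      have h1 : C ≤ N T := bad_attached hr hvert hinj hm T hne hT2
      have h1' : (C : ℝ) ≤ N T := by exact_mod_cast h1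
      exact mul_le_mul_of_nonneg_right h1' (sq_nonneg _)
    have hup : ∑ T : Finset ι, (N T : ℝ) * coeff p F T ^ 2 ≤ c * ((r : ℝ) * C' * I) := by
      have h1 : ∀ T : Finset ι, (N T : ℝ) * coeff p F T ^ 2 = ∑ U ∈ P,
          if T ∩ touchSet vert U ∈ attached vert U t then coeff p F T ^ 2 else 0 := by
        intro T
        simp only [hN]
        rw [card_filter]
        push_cast
        rw [sum_mul]
        refine sum_congr rfl fun U _ => ?_
        split_ifs <;> simp
      simp_rw [h1]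
      rw [sum_comm]
      have h2 : ∀ U ∈ P, (∑ T : Finset ι, if T ∩ touchSet vert U ∈ attached vert U t then
          coeff p F T ^ 2 else 0) ≤ c * ∑ e ∈ touchSet vert U, Inf p F e := by
        intro U hU
        obtain ⟨-, hUm⟩ := mem_powersetCard.mp hU
        have hUne : U.Nonempty := card_pos.mp (by omega)
        rw [← sum_filter]
        exact per_U vert hinj hp0 hp1 F hF hsym U hUne t c hc0 (by rw [hUm]; exact hc3)
      refine le_trans (sum_le_sum h2) ?_
      rw [← mul_sum]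
      apply mul_le_mul_of_nonneg_left _ hc0
      have h3 : ∑ U ∈ P, ∑ e ∈ touchSet vert U, Inf p F e =
          ∑ e : ι, (((P.filter (fun U => (vert e ∩ U).Nonempty)).card : ℕ) : ℝ) * Inf p F e := by
        have h4 : ∀ U ∈ P, ∑ e ∈ touchSet vert U, Inf p F e =
            ∑ e : ι, if (vert e ∩ U).Nonempty then Inf p F e else 0 := by
          intro U _
          unfold touchSet
          rw [sum_filter]
        rw [sum_congr rfl h4, sum_comm]
        refine sum_congr rfl fun e _ => ?_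
        rw [card_filter]
        push_cast
        rw [sum_mul]
        refine sum_congr rfl fun U _ => ?_
        split_ifs <;> simp
      rw [h3, hI, mul_sum]
      refine sum_le_sum fun e _ => ?_
      have h5 := card_U_touch_le (n := n) hm (vert e) (hvert e)
      have h5' : (((P.filter (fun U => (vert e ∩ U).Nonempty)).card : ℕ) : ℝ) ≤ (r : ℝ) * C' := by
        exact_mod_cast h5
      exact mul_le_mul_of_nonneg_right h5' (Inf_nonneg hp0 hp1 F e)
    have hC2 : (C' : ℝ) ≤ 2 * C := by exact_mod_cast hchoose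
    have hfin : (C : ℝ) * B ≤ (C : ℝ) * (2 * r * c * I) := by
      refine le_trans hlow (le_trans hup ?_)
      have : c * ((r : ℝ) * C' * I) ≤ c * ((r : ℝ) * (2 * C) * I) := by
        apply mul_le_mul_of_nonneg_left _ hc0
        apply mul_le_mul_of_nonneg_right _ hI0
        exact mul_le_mul_of_nonneg_left hC2 (Nat.cast_nonneg _)
      refine le_trans this (le_of_eq (by ring))
    exact le_of_mul_le_mul_left hfin hCreal
  calc _ ≤ 2 * r * c * I + (r : ℝ) * (p * (1 - p)) / (w : ℝ) ^ r * I := add_le_add hbad hgood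
    _ = _ := by ring

end Crest.Agent.Lib.SymMain
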