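import Crest.Agent.Lib.SymMain

set_option autoImplicit false
set_option linter.unusedSectionVars false
set_option linter.unusedSimpArgs false
set_option linter.unusedVariables false

/-!
Choice of the parameters in the main inequality.
-/

namespace Crest.Agent.Lib.SymNumeric

open Finset Crest.Agent.Lib.BiasedCube Crest.Agent.Lib.BiasedBonami Crest.Agent.Lib.BlockSym
open Crest.Agent.Lib.SymThreshold Crest.Agent.Lib.SymMain

/-- ratio of binomial coefficients. -/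
lemma choose_ratio_aux (b k : ℕ) (hk : k ≤ b) (j : ℕ) :
    (((b + j).choose k : ℕ) : ℝ) ≤ (b.choose k : ℝ) * (1 + (k : ℝ) / ((b : ℝ) + 1 - k)) ^ j := by
  have hden : (0 : ℝ) < (b : ℝ) + 1 - k := by
    have : (k : ℝ) ≤ b := by exact_mod_cast hk
    linarith
  induction j with
  | zero => simp
  | succ j ih =>
    have h1 := Nat.choose_mul_succ_eq (b + j) k
    have hle : k ≤ b + j := by omega
    have hpos : (0 : ℝ) < ((b + j : ℕ) : ℝ) + 1 - k := by
      have : (k : ℝ) ≤ ((b + j : ℕ) : ℝ) := by exact_mod_cast hle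
      linarith
    have h1' : (((b + j).choose k : ℕ) : ℝ) * (((b + j : ℕ) : ℝ) + 1) =
        (((b + j + 1).choose k : ℕ) : ℝ) * (((b + j : ℕ) : ℝ) + 1 - k) := by
      have : ((b + j + 1 - k : ℕ) : ℝ) = ((b + j : ℕ) : ℝ) + 1 - k := by
        rw [Nat.cast_sub (by omega)]; push_cast; ring
      rw [← this]
      exact_mod_cast h1
    have hq : (((b + j + 1).choose k : ℕ) : ℝ) =
        (((b + j).choose k : ℕ) : ℝ) * (1 + (k : ℝ) / (((b + j : ℕ) : ℝ) + 1 - k)) := by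
      field_simp
      rw [show ((b + j : ℕ) : ℝ) + 1 - k + k = ((b + j : ℕ) : ℝ) + 1 by ring, h1']
    have hmono : (k : ℝ) / (((b + j : ℕ) : ℝ) + 1 - k) ≤ (k : ℝ) / ((b : ℝ) + 1 - k) := by
      apply div_le_div_of_nonneg_left (Nat.cast_nonneg _) hden
      push_cast
      have : (0 : ℝ) ≤ j := Nat.cast_nonneg _
      linarith
    have hnn : (0 : ℝ) ≤ (k : ℝ) / (((b + j : ℕ) : ℝ) + 1 - k) := by positivity
    rw [show b + (j + 1) = b + j + 1 from rfl, hq, pow_succ, ← mul_assoc]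
    exact mul_le_mul ih (by linarith) (by linarith) (by positivity)

/-- Ratio bound used in the double counting. -/
lemma choose_ratio {n V k : ℕ} (hV : 1 ≤ V) (h : 2 * V * k + V + k ≤ n) :
    (n - 1).choose k ≤ 2 * (n - V).choose k := by
  set b := n - V with hb
  have hbk : k ≤ b := by
    have : V ≤ n := by nlinarith
    omega
  have hb2 : b + (V - 1) = n - 1 := by
    have : V ≤ n := by nlinarith
    omega
  have h1 := choose_ratio_aux b k hbk (V - 1)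
  rw [hb2] at h1
  have hden : (0 : ℝ) < (b : ℝ) + 1 - k := by
    have : (k : ℝ) ≤ b := by exact_mod_cast hbk
    linarith
  -- the factor is at most `2`
  have hfac : (1 + (k : ℝ) / ((b : ℝ) + 1 - k)) ^ (V - 1) ≤ 2 := by
    have h2 : (1 + (k : ℝ) / ((b : ℝ) + 1 - k)) ≤ Real.exp ((k : ℝ) / ((b : ℝ) + 1 - k)) := by
      have := Real.add_one_le_exp ((k : ℝ) / ((b : ℝ) + 1 - k))
      linarith
    have h3 : ((V - 1 : ℕ) : ℝ) * ((k : ℝ) / ((b : ℝ) + 1 - k)) ≤ 1 / 2 := by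
      rw [mul_div_assoc', div_le_iff₀ hden]
      have h4 : 2 * ((V - 1) * k) + k ≤ b + 1 := by
        have : 2 * V * k = 2 * ((V - 1) * k) + 2 * k := by
          obtain ⟨v, rfl⟩ : ∃ v, V = v + 1 := ⟨V - 1, by omega⟩
          simp; ring
        omega
      have h5 : (2 : ℝ) * (((V - 1 : ℕ) : ℝ) * k) + k ≤ (b : ℝ) + 1 := by exact_mod_cast h4
      linarith
    calc (1 + (k : ℝ) / ((b : ℝ) + 1 - k)) ^ (V - 1)
        ≤ Real.exp ((k : ℝ) / ((b : ℝ) + 1 - k)) ^ (V - 1) :=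
          pow_le_pow_left₀ (by positivity) h2 _
      _ = Real.exp (((V - 1 : ℕ) : ℝ) * ((k : ℝ) / ((b : ℝ) + 1 - k))) := by
          rw [← Real.exp_nat_mul]
      _ ≤ Real.exp (1 / 2) := Real.exp_le_exp.mpr h3
      _ ≤ 2 := by
          have h6 : Real.exp (1 / 2) ^ 2 ≤ 2 ^ 2 := by
            rw [← Real.exp_nat_mul]
            have : ((2 : ℕ) : ℝ) * (1 / 2) = 1 := by norm_num
            rw [this]
            have := Real.exp_one_lt_d9
            norm_num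
            linarith
          exact (pow_le_pow_iff_left₀ (Real.exp_pos _).le (by norm_num) (by norm_num)).mp h6
  have h7 : (((n - 1).choose k : ℕ) : ℝ) ≤ (b.choose k : ℝ) * 2 :=
    le_trans h1 (mul_le_mul_of_nonneg_left hfac (Nat.cast_nonneg _))
  have h8 : (((n - 1).choose k : ℕ) : ℝ) ≤ ((2 * b.choose k : ℕ) : ℝ) := by
    push_cast; linarith
  exact_mod_cast h8

/-- `L² ≤ exp (L / 12)` for `L ≥ 300`. -/
lemma sq_le_exp {L : ℝ} (hL : 300 ≤ L) : L ^ 2 ≤ Real.exp (L / 12) := by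
  have h1 : (L / 12) ^ 6 / (Nat.factorial 6 : ℝ) ≤ Real.exp (L / 12) :=
    Real.pow_div_factorial_le_exp (L / 12) (by positivity) 6
  refine le_trans ?_ h1
  have h2 : (Nat.factorial 6 : ℝ) = 720 := by norm_num [Nat.factorial]
  rw [h2, le_div_iff₀ (by norm_num)]
  have h3 : (90000 : ℝ) ≤ L ^ 2 := by nlinarith
  have h4 : (L / 12) ^ 6 = L ^ 2 * (L ^ 4 / 12 ^ 6) := by ring
  rw [h4]
  have h5 : (720 : ℝ) ≤ L ^ 4 / 12 ^ 6 := by
    rw [le_div_iff₀ (by norm_num)]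
    have : L ^ 4 = L ^ 2 * L ^ 2 := by ring
    rw [this]
    nlinarith
  have h6 : (0 : ℝ) ≤ L ^ 2 := by positivity
  nlinarith

/-- `4 log (9 L²) ≤ L` for `L ≥ 300`. -/
lemma four_log_le {L : ℝ} (hL : 300 ≤ L) : 4 * Real.log (9 * L ^ 2) ≤ L := by
  have h0 : 0 < L := by linarith
  have h1 : Real.log (9 * L ^ 2) ≤ L / 12 + Real.log 9 := by
    rw [Real.log_mul (by norm_num) (by positivity)]
    have h2 : Real.log (L ^ 2) ≤ L / 12 := by
      rw [← Real.log_exp (L / 12)]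
      exact Real.log_le_log (by positivity) (sq_le_exp hL)
    linarith
  have h3 : Real.log 9 ≤ 9 := by
    have := Real.log_le_sub_one_of_pos (show (0 : ℝ) < 9 by norm_num)
    linarith
  nlinarith

/-- The constant appearing in the large-`n` bound. -/
noncomputable def Cr (r : ℕ) : ℝ := (r : ℝ) * 2 ^ r * 576 + 2 * r

/-- facts about `E = exp (L/2)`. -/
lemma exp_half_facts {L : ℝ} (hL : 300 ≤ L) :
    2 * L ^ 2 + 2 ≤ Real.exp (L / 2) ∧ 4 ≤ Real.exp (L / 2) := by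
  have hsq := sq_le_exp hL
  have h1 : Real.exp (L / 2) = Real.exp (L / 12) * Real.exp (5 * L / 12) := by
    rw [← Real.exp_add]; congr 1; ring
  have h2 : (4 : ℝ) ≤ Real.exp (5 * L / 12) := by
    have := Real.add_one_le_exp (5 * L / 12)
    linarith
  have hL2 : (90000 : ℝ) ≤ L ^ 2 := by nlinarith
  have h3 : 4 * L ^ 2 ≤ Real.exp (L / 2) := by
    rw [h1]
    have := mul_le_mul hsq h2 (by norm_num) (Real.exp_pos _).le
    linarith
  constructor <;> linarith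

/-- natural square root compared to a real square root. -/
lemma sqrt_facts {n : ℕ} {E : ℝ} (hE0 : 0 < E) (hE4 : 4 ≤ E) (hnE : (n : ℝ) = E ^ 2) :
    1 ≤ Nat.sqrt n ∧ (Nat.sqrt n : ℝ) ≤ E ∧ E ≤ 2 * Nat.sqrt n ∧ Nat.sqrt n ≤ n := by
  have hm0 : (0 : ℝ) ≤ (Nat.sqrt n : ℝ) := Nat.cast_nonneg _
  have hn4 : 4 ≤ n := by
    have : (4 : ℝ) ≤ n := by rw [hnE]; nlinarith
    exact_mod_cast this
  have hm2 : 2 ≤ Nat.sqrt n := by
    rw [Nat.le_sqrt]
    omega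
  have hmE : (Nat.sqrt n : ℝ) ≤ E := by
    have h1 : Nat.sqrt n * Nat.sqrt n ≤ n := Nat.sqrt_le n
    have h2 : (Nat.sqrt n : ℝ) * Nat.sqrt n ≤ n := by exact_mod_cast h1
    rw [hnE] at h2
    nlinarith
  have hEm : E ≤ 2 * Nat.sqrt n := by
    have h1 : n < (Nat.sqrt n + 1) * (Nat.sqrt n + 1) := Nat.lt_succ_sqrt n
    have h2 : (n : ℝ) < ((Nat.sqrt n : ℝ) + 1) * ((Nat.sqrt n : ℝ) + 1) := by exact_mod_cast h1
    rw [hnE] at h2
    have h3 : E < (Nat.sqrt n : ℝ) + 1 := by nlinarith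
    have h4 : (2 : ℝ) ≤ Nat.sqrt n := by exact_mod_cast hm2
    linarith
  exact ⟨by omega, hmE, hEm, Nat.sqrt_le_self n⟩

/-- The choice of `w`. -/
lemma floor_params {x : ℝ} (hx1 : 1 ≤ x) {r : ℕ} (hr : 2 ≤ r) :
    ∃ w : ℕ, 1 ≤ w ∧ ((w ^ (r - 1) : ℕ) : ℝ) ≤ x ∧ (w : ℝ) ^ r ≤ x ^ ((r : ℝ) / ((r : ℝ) - 1)) ∧
      x ^ ((r : ℝ) / ((r : ℝ) - 1)) / 2 ^ r ≤ (w : ℝ) ^ r := by
  set s := r - 1 with hs
  have hs1 : 1 ≤ s := by omega
  have hrs : r = s + 1 := by omega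
  have hsr : (s : ℝ) = (r : ℝ) - 1 := by
    rw [hrs]; push_cast; simp
  have hx0 : 0 < x := by linarith
  have hs0 : (0 : ℝ) < s := by exact_mod_cast hs1
  set y := x ^ ((s : ℝ)⁻¹) with hy
  have hy1 : 1 ≤ y := Real.one_le_rpow hx1 (by positivity)
  have hys : y ^ s = x := Real.rpow_inv_natCast_pow hx0.le (by omega)
  have hyr : y ^ r = x ^ ((r : ℝ) / ((r : ℝ) - 1)) := by
    rw [hy, ← Real.rpow_natCast, ← Real.rpow_mul hx0.le, hsr]
    congr 1
    rw [div_eq_inv_mul]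
  refine ⟨⌊y⌋₊, Nat.le_floor (by simpa using hy1), ?_, ?_, ?_⟩
  · have hwy : ((⌊y⌋₊ : ℕ) : ℝ) ≤ y := Nat.floor_le (by linarith)
    push_cast
    rw [← hys]
    exact pow_le_pow_left₀ (Nat.cast_nonneg _) hwy s
  · have hwy : ((⌊y⌋₊ : ℕ) : ℝ) ≤ y := Nat.floor_le (by linarith)
    rw [← hyr]
    exact pow_le_pow_left₀ (Nat.cast_nonneg _) hwy r
  · have hw1 : 1 ≤ ⌊y⌋₊ := Nat.le_floor (by simpa using hy1)
    have hw1' : (1 : ℝ) ≤ (⌊y⌋₊ : ℝ) := by exact_mod_cast hw1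
    have hyw : y / 2 ≤ (⌊y⌋₊ : ℝ) := by
      have := Nat.lt_floor_add_one y
      linarith
    have h1 := pow_le_pow_left₀ (by positivity) hyw r
    rwa [div_pow, hyr] at h1

/-- `ν (log K)² ≤ 36`. -/
lemma nu_logK_sq {ν K : ℝ} (hν0 : 0 < ν) (hK0 : 1 ≤ K) (h9 : ν * K = 9) :
    ν * Real.log K ^ 2 ≤ 36 := by
  have hK1 := hK0
  replace hK0 : 0 < K := by linarith
  have h1 : Real.log K ≤ 2 * Real.sqrt K := by
    have h2 : Real.log K = 2 * Real.log (Real.sqrt K) := by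
      rw [Real.log_sqrt hK0.le]; ring
    have h3 : Real.log (Real.sqrt K) ≤ Real.sqrt K - 1 :=
      Real.log_le_sub_one_of_pos (Real.sqrt_pos.mpr hK0)
    rw [h2]; linarith
  have h4 : Real.log K ^ 2 ≤ 4 * K := by
    have h0 : 0 ≤ Real.log K := Real.log_nonneg hK1
    have h5 : Real.sqrt K ^ 2 = K := Real.sq_sqrt hK0.le
    have h6 := pow_le_pow_left₀ h0 h1 2
    rw [mul_pow, h5] at h6
    linarith
  calc ν * Real.log K ^ 2 ≤ ν * (4 * K) := mul_le_mul_of_nonneg_left h4 hν0.le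
    _ = 4 * (ν * K) := by ring
    _ = 36 := by rw [h9]; norm_num

variable {ι : Type*} [Fintype ι] [DecidableEq ι] {n : ℕ} {vert : ι → Finset (Fin n)}

/-- final constants -/
lemma const_bound {r : ℕ} (hr : 2 ≤ r) {L lK ν c W : ℝ} (hL0 : 0 < L) (hlK1 : 1 ≤ lK) (hν0 : 0 < ν)
    (hlK2 : ν * lK ^ 2 ≤ 36) (hW : (L / (4 * lK)) ^ ((r : ℝ) / ((r : ℝ) - 1)) / 2 ^ r ≤ W)
    (hc0 : 0 ≤ c) (hc : c * L ^ ((r : ℝ) / ((r : ℝ) - 1)) ≤ 1) :
    (r : ℝ) * ν / W + 2 * r * c ≤ Cr r / L ^ ((r : ℝ) / ((r : ℝ) - 1)) := by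
  set a := (r : ℝ) / ((r : ℝ) - 1) with ha
  have hr2 : (2 : ℝ) ≤ r := by exact_mod_cast hr
  have ha2 : a ≤ 2 := by
    rw [ha, div_le_iff₀ (by linarith)]; linarith
  have hLapos : 0 < L ^ a := Real.rpow_pos_of_pos hL0 a
  have hlK0 : 0 < lK := by linarith
  have hrpos : (0 : ℝ) < r := by linarith
  have h4a0 : (0 : ℝ) < (4 * lK) ^ a := Real.rpow_pos_of_pos (by positivity) a
  have hxa : (L / (4 * lK)) ^ a = L ^ a / (4 * lK) ^ a := by
    rw [Real.div_rpow hL0.le (by positivity)]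
  have hwlow : L ^ a / ((4 * lK) ^ a * 2 ^ r) ≤ W := by
    rw [hxa, div_div] at hW
    exact hW
  have h4lKa : (4 * lK) ^ a ≤ 16 * lK ^ 2 := by
    have h1 : (4 * lK) ^ a ≤ (4 * lK) ^ (2 : ℝ) :=
      Real.rpow_le_rpow_of_exponent_le (by linarith) ha2
    have h2 : (4 * lK) ^ (2 : ℝ) = 16 * lK ^ 2 := by
      rw [Real.rpow_two]; ring
    exact h1.trans_eq h2
  have hfirst : (r : ℝ) * ν / W ≤ (r : ℝ) * 2 ^ r * 576 / L ^ a := by
    have hdenpos : 0 < L ^ a / ((4 * lK) ^ a * 2 ^ r) := by positivity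
    have h1 : (r : ℝ) * ν / W ≤ (r : ℝ) * ν / (L ^ a / ((4 * lK) ^ a * 2 ^ r)) :=
      div_le_div_of_nonneg_left (by positivity) hdenpos hwlow
    refine le_trans h1 ?_
    have h2 : (r : ℝ) * ν / (L ^ a / ((4 * lK) ^ a * 2 ^ r)) =
        (r : ℝ) * 2 ^ r * (ν * (4 * lK) ^ a) / L ^ a := by
      field_simp
    rw [h2]
    apply div_le_div_of_nonneg_right _ hLapos.le
    apply mul_le_mul_of_nonneg_left _ (by positivity)
    calc ν * (4 * lK) ^ a ≤ ν * (16 * lK ^ 2) := mul_le_mul_of_nonneg_left h4lKa hν0.le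
      _ = 16 * (ν * lK ^ 2) := by ring
      _ ≤ 16 * 36 := by linarith
      _ = 576 := by norm_num
  have hsecond : 2 * (r : ℝ) * c ≤ 2 * (r : ℝ) / L ^ a := by
    have h1 : c ≤ 1 / L ^ a := by
      rw [le_div_iff₀ hLapos]
      exact hc
    have h3 : 2 * (r : ℝ) / L ^ a = 2 * (r : ℝ) * (1 / L ^ a) := by ring
    rw [h3]
    exact mul_le_mul_of_nonneg_left h1 (by positivity)
  calc (r : ℝ) * ν / W + 2 * (r : ℝ) * c
      ≤ (r : ℝ) * 2 ^ r * 576 / L ^ a + 2 * (r : ℝ) / L ^ a := add_le_add hfirst hsecond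
    _ = Cr r / L ^ a := by unfold Cr; ring

/-- the condition on `c`. -/
lemma c_bound {L ν KT m : ℝ} (hν0 : 0 < ν) (hν1 : ν ≤ 1 / 4) (hKT0 : 0 ≤ KT)
    (hKT : KT ≤ Real.exp (L / 4)) (hm : 0 < m) (hEm : Real.exp (L / 2) ≤ 2 * m) :
    ν ^ 2 * KT / m ≤ Real.exp (-(L / 12)) ^ 3 := by
  have h1 : Real.exp (-(L / 12)) ^ 3 = Real.exp (-(L / 4)) := by
    rw [← Real.exp_nat_mul]; congr 1; push_cast; ring
  rw [h1, div_le_iff₀ hm]
  have h2 : ν ^ 2 ≤ 1 / 16 := by nlinarith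
  have h3 : Real.exp (-(L / 4)) * Real.exp (L / 2) = Real.exp (L / 4) := by
    rw [← Real.exp_add]; congr 1; ring
  have h4 : 0 < Real.exp (-(L / 4)) := Real.exp_pos _
  have h5 : Real.exp (L / 4) ≤ Real.exp (-(L / 4)) * (2 * m) := by
    rw [← h3]
    exact mul_le_mul_of_nonneg_left hEm h4.le
  calc ν ^ 2 * KT ≤ (1 / 16) * Real.exp (L / 4) :=
        mul_le_mul h2 hKT hKT0 (by norm_num)
    _ ≤ (1 / 16) * (Real.exp (-(L / 4)) * (2 * m)) :=
        mul_le_mul_of_nonneg_left h5 (by norm_num)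
    _ ≤ Real.exp (-(L / 4)) * m := by
        have : 0 ≤ Real.exp (-(L / 4)) * m := by positivity
        nlinarith

/-- the binomial condition -/
lemma choose_cond {n V m : ℕ} {E L : ℝ} (hV1 : 1 ≤ V) (hm1 : 1 ≤ m) (hV : (V : ℝ) ≤ L ^ 2)
    (hmE : (m : ℝ) ≤ E) (hnE : (n : ℝ) = E ^ 2) (hE : 2 * L ^ 2 + 2 ≤ E) :
    (n - 1).choose (m - 1) ≤ 2 * (n - V).choose (m - 1) := by
  apply choose_ratio hV1
  have hk : (((m - 1 : ℕ)) : ℝ) ≤ E := by
    rw [Nat.cast_sub hm1]; push_cast; linarith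
  have hL0 : (0 : ℝ) ≤ L ^ 2 := by positivity
  have h1 : ((2 * V * (m - 1) + V + (m - 1) : ℕ) : ℝ) ≤ n := by
    push_cast
    rw [hnE]
    have hk0 : (0 : ℝ) ≤ ((m - 1 : ℕ) : ℝ) := Nat.cast_nonneg _
    have hV0 : (0 : ℝ) ≤ (V : ℝ) := Nat.cast_nonneg _
    have h2 : (V : ℝ) * ((m - 1 : ℕ) : ℝ) ≤ L ^ 2 * E := mul_le_mul hV hk hk0 hL0
    have hE0 : 0 ≤ E := by linarith
    have hE1 : 1 ≤ E := by linarith
    have h3 : (2 * L ^ 2 + 2) * E ≤ E * E := mul_le_mul_of_nonneg_right hE hE0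
    nlinarith
  exact_mod_cast h1

/-- The bound for large `n` and not too small variance parameter. -/
theorem bound_large {r : ℕ} (hr : 2 ≤ r) (hvert : ∀ e, (vert e).card = r)
    (hinj : Function.Injective vert) {p : ℝ} (hp0 : 0 < p) (hp1 : p < 1)
    (F : (ι → Bool) → ℝ) (hF : IsBool F) (hsym : SwapSym vert F)
    (hL : 300 ≤ Real.log n)
    (hν : 1 / Real.log n ^ ((r : ℝ) / ((r : ℝ) - 1)) < p * (1 - p)) :
    Ex p F - Ex p F ^ 2 ≤
      Cr r / Real.log n ^ ((r : ℝ) / ((r : ℝ) - 1)) * ∑ e : ι, Inf p F e := by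
  set L := Real.log n with hLdef
  have hL0 : 0 < L := by linarith
  have hn0 : (0 : ℝ) < n := by
    by_contra h
    have : (n : ℝ) = 0 := le_antisymm (not_lt.mp h) (Nat.cast_nonneg _)
    rw [hLdef, this, Real.log_zero] at hL
    linarith
  have hnexp : Real.exp L = n := Real.exp_log hn0
  set a := (r : ℝ) / ((r : ℝ) - 1) with ha
  have hr2 : (2 : ℝ) ≤ r := by exact_mod_cast hr
  have ha1 : 1 ≤ a := by
    rw [ha, le_div_iff₀ (by linarith)]; linarith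
  have ha2 : a ≤ 2 := by
    rw [ha, div_le_iff₀ (by linarith)]; linarith
  have hLa2 : L ^ a ≤ L ^ 2 := by
    have := Real.rpow_le_rpow_of_exponent_le (show (1 : ℝ) ≤ L by linarith) ha2
    simpa using this
  have hLapos : 0 < L ^ a := Real.rpow_pos_of_pos hL0 a
  have hν0 : 0 < p * (1 - p) := mul_pos hp0 (by linarith)
  have hν1 : p * (1 - p) ≤ 1 / 4 := nu_le
  have hKeq : bK p = 9 / (p * (1 - p)) := rfl
  have hK36 : 36 ≤ bK p := bK_ge hp0 hp1
  have hK0 : 0 < bK p := by linarith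
  have hlK1 : 1 ≤ Real.log (bK p) := by
    rw [Real.le_log_iff_exp_le hK0]
    have := Real.exp_one_lt_d9
    linarith
  have hK9 : bK p < 9 * L ^ 2 := by
    rw [hKeq, div_lt_iff₀ hν0]
    have h1 : 1 < p * (1 - p) * L ^ a := by
      rwa [div_lt_iff₀ hLapos] at hν
    have h2 : p * (1 - p) * L ^ a ≤ p * (1 - p) * L ^ 2 := mul_le_mul_of_nonneg_left hLa2 hν0.le
    linarith
  have h4lK : 4 * Real.log (bK p) ≤ L := by
    have : Real.log (bK p) ≤ Real.log (9 * L ^ 2) := Real.log_le_log hK0 hK9.le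
    linarith [four_log_le hL]
  have hlK0 : 0 < Real.log (bK p) := by linarith
  have hx1 : 1 ≤ L / (4 * Real.log (bK p)) := by
    rw [le_div_iff₀ (by linarith)]; linarith
  have hx0 : 0 < L / (4 * Real.log (bK p)) := by linarith
  have hxL : L / (4 * Real.log (bK p)) ≤ L := by
    rw [div_le_iff₀ (by linarith)]
    nlinarith
  obtain ⟨w, hw1, htx, hwle, hwge⟩ := floor_params hx1 hr
  have hKt : bK p ^ (w ^ (r - 1)) ≤ Real.exp (L / 4) := by
    have h1 : bK p ^ (w ^ (r - 1)) = Real.exp (((w ^ (r - 1) : ℕ) : ℝ) * Real.log (bK p)) := by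
      rw [Real.exp_nat_mul, Real.exp_log hK0]
    rw [h1]
    apply Real.exp_le_exp.mpr
    calc ((w ^ (r - 1) : ℕ) : ℝ) * Real.log (bK p)
        ≤ L / (4 * Real.log (bK p)) * Real.log (bK p) := mul_le_mul_of_nonneg_right htx hlK0.le
      _ = L / 4 := by field_simp
  -- the choice of `m`
  have hE : Real.exp (L / 2) ^ 2 = n := by
    rw [← hnexp, ← Real.exp_nat_mul]; congr 1; push_cast; ring
  obtain ⟨hE1, hE4⟩ := exp_half_facts hL
  obtain ⟨hm1, hmE, hEm, hmn⟩ := sqrt_facts (Real.exp_pos (L / 2)) hE4 hE.symm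
  -- `c`
  have hc3 := c_bound hν0 hν1 (by positivity) hKt (by exact_mod_cast hm1) hEm
  -- `V`
  have hVle : ((w ^ r : ℕ) : ℝ) ≤ L ^ 2 := by
    push_cast
    calc (w : ℝ) ^ r ≤ (L / (4 * Real.log (bK p))) ^ a := hwle
      _ ≤ L ^ a := Real.rpow_le_rpow hx0.le hxL (by linarith)
      _ ≤ L ^ 2 := hLa2
  have hchoose := choose_cond (Nat.one_le_pow _ _ (by omega)) hm1 hVle hmE hE.symm hE1
  -- main inequality
  have hmain := main_ineq hr hvert hinj hp0 hp1 F hF hsym hw1 hm1 hmn _ (Real.exp_pos _).le hc3 hchoose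
  have hI0 : 0 ≤ ∑ e : ι, Inf p F e := sum_nonneg fun e _ => Inf_nonneg hp0 hp1 F e
  refine le_trans hmain (mul_le_mul_of_nonneg_right ?_ hI0)
  -- the constants
  have hmulK : p * (1 - p) * bK p = 9 := by
    rw [hKeq]
    have : ∀ ν : ℝ, ν ≠ 0 → ν * (9 / ν) = 9 := fun ν h => by field_simp
    exact this _ hν0.ne'
  have hlK2 := nu_logK_sq hν0 (by linarith) hmulK
  refine const_bound hr hL0 hlK1 hν0 hlK2 hwge (Real.exp_pos _).le ?_
  have h2 : Real.exp (-(L / 12)) * Real.exp (L / 12) = 1 := by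
    rw [← Real.exp_add]; simp
  have h3 : Real.exp (-(L / 12)) * L ^ a ≤ Real.exp (-(L / 12)) * Real.exp (L / 12) :=
    mul_le_mul_of_nonneg_left (le_trans hLa2 (sq_le_exp hL)) (Real.exp_pos _).le
  linarith

/-- The bound in all cases for `L ≥ 300`. -/
theorem bound_L_large {r : ℕ} (hr : 2 ≤ r) (hvert : ∀ e, (vert e).card = r)
    (hinj : Function.Injective vert) {p : ℝ} (hp0 : 0 < p) (hp1 : p < 1)
    (F : (ι → Bool) → ℝ) (hF : IsBool F) (hsym : SwapSym vert F)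
    (hL : 300 ≤ Real.log n) :
    Ex p F - Ex p F ^ 2 ≤
      Cr r / Real.log n ^ ((r : ℝ) / ((r : ℝ) - 1)) * ∑ e : ι, Inf p F e := by
  by_cases hν : 1 / Real.log n ^ ((r : ℝ) / ((r : ℝ) - 1)) < p * (1 - p)
  · exact bound_large hr hvert hinj hp0 hp1 F hF hsym hL hν
  · push Not at hν
    have hI0 : 0 ≤ ∑ e : ι, Inf p F e := sum_nonneg fun e _ => Inf_nonneg hp0 hp1 F e
    refine le_trans (poincare hp0 hp1 F hF) (mul_le_mul_of_nonneg_right ?_ hI0)
    refine le_trans hν ?_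
    apply div_le_div_of_nonneg_right _ _
    · have hr2 : (2 : ℝ) ≤ r := by exact_mod_cast hr
      have : (1 : ℝ) ≤ 2 ^ r := one_le_pow₀ (by norm_num)
      unfold Cr
      nlinarith
    · exact Real.rpow_nonneg (by linarith) _

end Crest.Agent.Lib.SymNumeric
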