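import Crest.Agent.Lib.SymTransfer

set_option autoImplicit false
set_option linter.unusedSectionVars false
set_option linter.unusedSimpArgs false
set_option linter.unusedVariables false

/-!
Russo's formula on the biased cube and the integration of the logit inequality.
-/

namespace Crest.Agent.Lib.SymRusso

open Finset Crest.Agent.Lib.BiasedCube Crest.Agent.Lib.BiasedBonami Crest.Agent.Lib.BlockSym

variable {ι : Type*} [Fintype ι] [DecidableEq ι]

/-- Russo's formula. -/
theorem hasDerivAt_Ex {x : ℝ} (hx0 : 0 < x) (hx1 : x < 1) (F : (ι → Bool) → ℝ) :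
    HasDerivAt (fun y => Ex y F) (∑ e : ι, Ex x (dd e F)) x := by
  -- derivative of each weight
  have hw : ∀ ω : ι → Bool, HasDerivAt (fun y => Crest.FinProb.bernoulliWeight y ω)
      (∑ e : ι, (∏ i ∈ univ.erase e, (if ω i then x else 1 - x)) • (if ω e then (1 : ℝ) else -1)) x := by
    intro ω
    unfold Crest.FinProb.bernoulliWeight
    refine HasDerivAt.fun_finsetProd fun e _ => ?_
    by_cases h : ω e = true
    · simp only [h, if_true]
      exact hasDerivAt_id' x
    · simp only [h, if_false]
      have := (hasDerivAt_id' x).const_sub 1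
      simpa using this
  have h1 : HasDerivAt (fun y => Ex y F)
      (∑ ω : ι → Bool, (∑ e : ι, (∏ i ∈ univ.erase e, (if ω i then x else 1 - x)) •
        (if ω e then (1 : ℝ) else -1)) * F ω) x := by
    unfold Ex
    exact HasDerivAt.fun_sum fun ω _ => (hw ω).mul_const (F ω)
  convert h1 using 1
  simp_rw [sum_mul]
  rw [sum_comm]
  refine sum_congr rfl fun e _ => ?_
  -- `Ex (dd e F) = coeff F {e} / σ`
  have hs := sig_pos hx0 hx1
  have hs2 := sig_sq hx0 hx1
  have h2 := coeff_insert hx0 hx1 F (e := e) (S := ∅) (by simp)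
  rw [coeff_empty] at h2
  have h3 : coeff x F (insert e ∅) = ∑ ω : ι → Bool, sig x *
      ((∏ i ∈ univ.erase e, (if ω i then x else 1 - x)) • (if ω e then (1 : ℝ) else -1) * F ω) := by
    unfold coeff Ex
    refine sum_congr rfl fun ω _ => ?_
    have h4 : phi x (insert e ∅) ω = chi x (ω e) := by simp [phi]
    beta_reduce
    rw [h4]
    unfold Crest.FinProb.bernoulliWeight
    rw [← mul_prod_erase univ _ (mem_univ e)]
    by_cases h : ω e = true
    · simp only [h, if_true, chi_true, smul_eq_mul, mul_one]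
      field_simp
      rw [hs2]; ring
    · have h' : ω e = false := by simpa using h
      simp only [h', Bool.false_eq_true, if_false, chi_false, smul_eq_mul]
      field_simp
      rw [hs2]; ring
  rw [h3, ← mul_sum] at h2
  exact (mul_left_cancel₀ hs.ne' h2).symm

/-- Integration of the logit inequality. -/
theorem logit_step {μ μ' : ℝ → ℝ} {p q Q : ℝ} (hpq : p ≤ q) (hQ : 0 < Q)
    (hderiv : ∀ x ∈ Set.Icc p q, HasDerivAt μ (μ' x) x)
    (h01 : ∀ x ∈ Set.Icc p q, 0 < μ x ∧ μ x < 1)
    (hineq : ∀ x ∈ Set.Icc p q, μ x * (1 - μ x) ≤ Q * μ' x) :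
    (q - p) / Q ≤ (Real.log (μ q) - Real.log (1 - μ q)) - (Real.log (μ p) - Real.log (1 - μ p)) := by
  set g : ℝ → ℝ := fun x => Real.log (μ x) - Real.log (1 - μ x) with hg
  have hgd : ∀ x ∈ Set.Icc p q, HasDerivAt g (μ' x / μ x - (-μ' x) / (1 - μ x)) x := by
    intro x hx
    obtain ⟨h0, h1⟩ := h01 x hx
    have h2 := (hderiv x hx).log h0.ne'
    have h3 := ((hderiv x hx).const_sub 1).log (by linarith : (1 - μ x) ≠ 0)
    exact h2.sub h3
  have hmono := Convex.mul_sub_le_image_sub_of_le_deriv (D := Set.Icc p q) (convex_Icc p q)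
    (f := g) (C := 1 / Q)
    (fun x hx => (hgd x hx).continuousAt.continuousWithinAt)
    (fun x hx => (hgd x (interior_subset hx)).differentiableAt.differentiableWithinAt)
    (fun x hx => by
      have hx' := interior_subset hx
      rw [(hgd x hx').deriv]
      obtain ⟨h0, h1⟩ := h01 x hx'
      have h1' : 0 < 1 - μ x := by linarith
      have he : μ' x / μ x - (-μ' x) / (1 - μ x) = μ' x / (μ x * (1 - μ x)) := by
        field_simp
        ring
      rw [he, div_le_div_iff₀ hQ (by positivity)]
      have := hineq x hx'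
      linarith)
    p (Set.left_mem_Icc.mpr hpq) q (Set.right_mem_Icc.mpr hpq) hpq
  have : (q - p) / Q = 1 / Q * (q - p) := by ring
  rw [this]
  exact hmono

/-- The arithmetic of the logit window. -/
lemma logit_arith {ε m : ℝ} (hε0 : 0 < ε) (hε : ε < 1 / 2) (hm0 : 0 < m) (hm1 : m < 1)
    {m' : ℝ} (hm'0 : 0 < m') (hm'1 : m' < 1) (hm' : ε ≤ m')
    (h : 4 * Real.log (1 / (2 * ε)) ≤ (Real.log m - Real.log (1 - m)) - (Real.log m' - Real.log (1 - m'))) :
    1 - ε ≤ m := by
  by_contra hcon
  push Not at hcon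
  have h1ε : 0 < 1 - ε := by linarith
  have hla : Real.log ε ≤ Real.log m' := Real.log_le_log hε0 hm'
  have hlb : Real.log (1 - m') ≤ Real.log (1 - ε) := Real.log_le_log (by linarith) (by linarith)
  have hlc : Real.log m ≤ Real.log (1 - ε) := Real.log_le_log hm0 hcon.le
  have hld : Real.log ε ≤ Real.log (1 - m) := Real.log_le_log hε0 (by linarith)
  have hstrict : Real.log m < Real.log (1 - ε) := Real.log_lt_log hm0 hcon
  have h4 : Real.log (4 * (ε * (1 - ε))) ≤ 0 := by
    apply Real.log_nonpos
    · positivity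
    · nlinarith [sq_nonneg (ε - 1 / 2)]
  have h5 : Real.log (4 * (ε * (1 - ε))) = Real.log 4 + Real.log ε + Real.log (1 - ε) := by
    rw [Real.log_mul (by norm_num) (by positivity), Real.log_mul hε0.ne' h1ε.ne']
    ring
  have h6 : Real.log (1 / (2 * ε)) = -(Real.log 2 + Real.log ε) := by
    rw [one_div, Real.log_inv, Real.log_mul (by norm_num) hε0.ne']
  have h7 : Real.log 4 = 2 * Real.log 2 := by
    rw [show (4 : ℝ) = 2 ^ 2 by norm_num, Real.log_pow]; norm_num
  rw [h6] at h
  linarith

end Crest.Agent.Lib.SymRusso
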