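import Crest.Agent.Lib.BlockSym

set_option autoImplicit false
set_option linter.unusedSectionVars false
set_option linter.unusedSimpArgs false
set_option linter.unusedVariables false

/-!
The main inequality for Boolean functions of `r`-uniform hypergraph coordinates that are invariant
under vertex swaps.
-/

namespace Crest.Agent.Lib.SymThreshold

open Finset Crest.Agent.Lib.BiasedCube Crest.Agent.Lib.BiasedBonami Crest.Agent.Lib.BlockSym

variable {ι : Type*} [Fintype ι] [DecidableEq ι]

/-- coordinates in `A` are taken from `z`, the others from `x`. -/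
def merge (A : Finset ι) (x z : ι → Bool) : ι → Bool := fun e => if e ∈ A then z e else x e

lemma phi_merge (p : ℝ) (A T : Finset ι) (x z : ι → Bool) :
    phi p T (merge A x z) = phi p (T \ A) x * phi p (T ∩ A) z := by
  unfold phi
  conv_lhs => rw [← sdiff_union_inter T A]
  rw [prod_union (disjoint_sdiff_inter T A)]
  congr 1
  · refine prod_congr rfl fun e he => ?_
    have : e ∉ A := (mem_sdiff.mp he).2
    simp [merge, this]
  · refine prod_congr rfl fun e he => ?_
    have : e ∈ A := (mem_inter.mp he).2
    simp [merge, this]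

lemma Ex_Ex_phi_merge {p : ℝ} (hp0 : 0 < p) (hp1 : p < 1) (A T : Finset ι) :
    Ex p (fun x => Ex p (fun z => phi p T (merge A x z))) = if T = ∅ then 1 else 0 := by
  have h1 : ∀ x : ι → Bool, Ex p (fun z => phi p T (merge A x z)) =
      phi p (T \ A) x * (if T ∩ A = ∅ then 1 else 0) := by
    intro x
    simp_rw [phi_merge]
    rw [Ex_const_mul, Ex_phi hp0 hp1]
  simp_rw [h1]
  rw [Ex_mul_const, Ex_phi hp0 hp1]
  by_cases hT : T = ∅
  · simp [hT]
  · simp only [hT, if_false]
    by_cases h2 : T \ A = ∅
    · have h3 : T ∩ A ≠ ∅ := by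
        intro h3
        apply hT
        rw [← sdiff_union_inter T A, h2, h3]; simp
      simp [h3]
    · simp [h2]

lemma Ex_merge {p : ℝ} (hp0 : 0 < p) (hp1 : p < 1) (A : Finset ι) (G : (ι → Bool) → ℝ) :
    Ex p (fun x => Ex p (fun z => G (merge A x z))) = Ex p G := by
  have h1 : ∀ y, G y = ∑ T : Finset ι, coeff p G T * phi p T y := expansion hp0 hp1 G
  have h2 : ∀ x : ι → Bool, Ex p (fun z => G (merge A x z)) =
      ∑ T : Finset ι, coeff p G T * Ex p (fun z => phi p T (merge A x z)) := by
    intro x
    have : (fun z => G (merge A x z)) =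
        fun z => ∑ T : Finset ι, coeff p G T * phi p T (merge A x z) := by
      funext z; exact h1 _
    rw [this, Ex_sum]
    exact sum_congr rfl fun T _ => Ex_const_mul _ _ _
  simp_rw [h2]
  rw [Ex_sum]
  simp_rw [Ex_const_mul, Ex_Ex_phi_merge hp0 hp1]
  simp [coeff_empty]

/-- coefficient of the conditioned coefficient function. -/
lemma coeff_cond {p : ℝ} (hp0 : 0 < p) (hp1 : p < 1) (F : (ι → Bool) → ℝ) (A T : Finset ι) :
    coeff p (fun x => coeff p (fun z => F (merge A x z)) (T ∩ A)) (T \ A) = coeff p F T := by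
  unfold coeff
  rw [← Ex_merge hp0 hp1 A (fun y => F y * phi p T y)]
  refine Ex_congr p fun x => ?_
  rw [mul_comm, ← Ex_const_mul]
  refine Ex_congr p fun z => ?_
  rw [phi_merge]
  ring

/-- Conditioning bound. -/
lemma cond_bound {p : ℝ} (hp0 : 0 < p) (hp1 : p < 1) (F : (ι → Bool) → ℝ) (A : Finset ι)
    (𝒮 : Finset (Finset ι)) :
    ∑ T ∈ (univ : Finset (Finset ι)).filter (fun T => T ∩ A ∈ 𝒮), coeff p F T ^ 2 ≤
      Ex p (fun x => ∑ S ∈ 𝒮, coeff p (fun z => F (merge A x z)) S ^ 2) := by
  rw [Ex_sum]
  rw [← sum_fiberwise_of_maps_to (t := 𝒮) (g := fun T => T ∩ A)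
    (fun T hT => (mem_filter.mp hT).2)]
  refine sum_le_sum fun S hS => ?_
  set FS : (ι → Bool) → ℝ := fun x => coeff p (fun z => F (merge A x z)) S with hFS
  rw [show (fun x => coeff p (fun z => F (merge A x z)) S ^ 2) = fun x => FS x ^ 2 from rfl,
    parseval_sq hp0 hp1]
  -- the fibre maps injectively
  have h1 : ∀ T ∈ ((univ : Finset (Finset ι)).filter (fun T => T ∩ A ∈ 𝒮)).filter
      (fun T => T ∩ A = S), coeff p F T ^ 2 = coeff p FS (T \ A) ^ 2 := by
    intro T hT
    have hTS : T ∩ A = S := (mem_filter.mp hT).2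
    rw [← coeff_cond hp0 hp1 F A T, hTS]
  rw [sum_congr rfl h1]
  have hinj : Set.InjOn (fun T : Finset ι => T \ A)
      (((univ : Finset (Finset ι)).filter (fun T => T ∩ A ∈ 𝒮)).filter
        (fun T => T ∩ A = S) : Finset (Finset ι)) := by
    intro T hT T' hT' hEq
    have h2 : T ∩ A = S := (mem_filter.mp (mem_coe.mp hT)).2
    have h3 : T' ∩ A = S := (mem_filter.mp (mem_coe.mp hT')).2
    have hEq' : T \ A = T' \ A := hEq
    rw [← sdiff_union_inter T A, ← sdiff_union_inter T' A, hEq', h2, h3]
  rw [← sum_image (f := fun T' => coeff p FS T' ^ 2) hinj]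
  exact sum_le_sum_of_subset_of_nonneg (subset_univ _) (fun _ _ _ => sq_nonneg _)

/-- conditioned influences average to the influence. -/
lemma Ex_Inf_cond {p : ℝ} (hp0 : 0 < p) (hp1 : p < 1) (F : (ι → Bool) → ℝ) (A : Finset ι) {e : ι}
    (he : e ∈ A) :
    Ex p (fun x => Inf p (fun z => F (merge A x z)) e) = Inf p F e := by
  unfold Inf
  rw [← Ex_merge hp0 hp1 A (fun y => |dd e F y|)]
  refine Ex_congr p fun x => ?_
  refine Ex_congr p fun z => ?_
  have hb : ∀ b, merge A x (Function.update z e b) = Function.update (merge A x z) e b := by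
    intro b
    funext i
    by_cases hi : i = e
    · subst hi; simp [merge, he]
    · simp [merge, Function.update_of_ne hi]
  simp only [dd, hb]

section Hyper

variable {n : ℕ} (vert : ι → Finset (Fin n))

/-- coordinates touching `U`. -/
def touchSet (U : Finset (Fin n)) : Finset ι :=
  (univ : Finset ι).filter (fun e => (vert e ∩ U).Nonempty)

/-- coordinates touching `U` in exactly `u`. -/
def pureSet (U : Finset (Fin n)) (u : Fin n) : Finset ι :=
  (univ : Finset ι).filter (fun e => vert e ∩ U = {u})

/-- invariance under swapping two vertices. -/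
def SwapSym (F : (ι → Bool) → ℝ) : Prop :=
  ∀ u u' : Fin n, ∃ τ : Equiv.Perm ι,
    (∀ e, vert (τ e) = (vert e).image (Equiv.swap u u')) ∧ ∀ x, F (x ∘ τ) = F x

lemma image_swap_inter {U : Finset (Fin n)} {u u' : Fin n} (hu : u ∈ U) (hu' : u' ∈ U)
    (s : Finset (Fin n)) :
    s.image (Equiv.swap u u') ∩ U = (s ∩ U).image (Equiv.swap u u') := by
  ext a
  simp only [mem_inter, mem_image]
  constructor
  · rintro ⟨⟨b, hb, rfl⟩, hU⟩
    refine ⟨b, ⟨hb, ?_⟩, rfl⟩
    by_cases h1 : b = u
    · rwa [h1]
    by_cases h2 : b = u'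
    · rwa [h2]
    rwa [Equiv.swap_apply_of_ne_of_ne h1 h2] at hU
  · rintro ⟨b, ⟨hb, hbU⟩, rfl⟩
    refine ⟨⟨b, hb, rfl⟩, ?_⟩
    by_cases h1 : b = u
    · rw [h1, Equiv.swap_apply_left]; exact hu'
    by_cases h2 : b = u'
    · rw [h2, Equiv.swap_apply_right]; exact hu
    rwa [Equiv.swap_apply_of_ne_of_ne h1 h2]

lemma pureSet_disjoint (U : Finset (Fin n)) {u u' : Fin n} (hne : u ≠ u') :
    Disjoint (pureSet vert U u) (pureSet vert U u') := by
  rw [Finset.disjoint_left]
  intro e h1 h2
  have h1' := (mem_filter.mp h1).2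
  have h2' := (mem_filter.mp h2).2
  rw [h1'] at h2'
  exact hne (singleton_injective h2')

lemma pureSet_subset_touch (U : Finset (Fin n)) (u : Fin n) :
    pureSet vert U u ⊆ touchSet vert U := by
  intro e he
  have h1 := (mem_filter.mp he).2
  refine mem_filter.mpr ⟨mem_univ _, ?_⟩
  rw [h1]; simp

/-- The family of sets of coordinates attached to `U`. -/
def attached (U : Finset (Fin n)) (t : ℕ) : Finset (Finset ι) :=
  U.biUnion (fun u => lowSets (pureSet vert U u) t)

/-- The per-`U` estimate. -/
theorem per_U (hinj : Function.Injective vert) {p : ℝ} (hp0 : 0 < p) (hp1 : p < 1)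
    (F : (ι → Bool) → ℝ) (hF : IsBool F) (hsym : SwapSym vert F)
    (U : Finset (Fin n)) (hU : U.Nonempty) (t : ℕ)
    (c : ℝ) (hc0 : 0 ≤ c) (hc3 : (p * (1 - p)) ^ 2 * bK p ^ t / U.card ≤ c ^ 3) :
    ∑ T ∈ (univ : Finset (Finset ι)).filter (fun T => T ∩ touchSet vert U ∈ attached vert U t),
        coeff p F T ^ 2 ≤ c * ∑ e ∈ touchSet vert U, Inf p F e := by
  set A := touchSet vert U with hA
  refine le_trans (cond_bound hp0 hp1 F A (attached vert U t)) ?_
  -- the pointwise bound
  have hpt : ∀ x : ι → Bool,
      ∑ S ∈ attached vert U t, coeff p (fun z => F (merge A x z)) S ^ 2 ≤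
        c * ∑ e ∈ A, Inf p (fun z => F (merge A x z)) e := by
    intro x
    set h : (ι → Bool) → ℝ := fun z => F (merge A x z) with hh
    have hb : IsBool h := fun z => hF _
    unfold attached
    rw [sum_biUnion]
    · have hsym' : ∀ u ∈ U, ∀ u' ∈ U, ∃ τ : Equiv.Perm ι,
          (∀ e ∈ pureSet vert U u, τ e ∈ pureSet vert U u') ∧ ∀ z, h (z ∘ τ) = h z := by
        intro u hu u' hu'
        obtain ⟨τ, hτ1, hτ2⟩ := hsym u u'
        refine ⟨τ, ?_, ?_⟩
        · intro e he
          have he' := (mem_filter.mp he).2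
          refine mem_filter.mpr ⟨mem_univ _, ?_⟩
          rw [hτ1, image_swap_inter hu hu', he']
          simp
        · intro z
          have hmerge : merge A x (z ∘ τ) = (merge A x z) ∘ τ := by
            funext e
            by_cases he : e ∈ A
            · have hτe : τ e ∈ A := by
                refine mem_filter.mpr ⟨mem_univ _, ?_⟩
                rw [hτ1, image_swap_inter hu hu']
                have := (mem_filter.mp he).2
                exact this.image _
              simp [merge, he, hτe]
            · have hemp : vert e ∩ U = ∅ := by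
                by_contra hne
                exact he (mem_filter.mpr ⟨mem_univ _, nonempty_iff_ne_empty.mpr hne⟩)
              have hτe : τ e = e := by
                apply hinj
                rw [hτ1]
                have hu1 : u ∉ vert e := fun h' => by
                  have : u ∈ vert e ∩ U := mem_inter.mpr ⟨h', hu⟩
                  rw [hemp] at this; simp at this
                have hu2 : u' ∉ vert e := fun h' => by
                  have : u' ∈ vert e ∩ U := mem_inter.mpr ⟨h', hu'⟩
                  rw [hemp] at this; simp at this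
                ext a
                simp only [mem_image]
                constructor
                · rintro ⟨b, hb, rfl⟩
                  have h1 : b ≠ u := fun h' => hu1 (h' ▸ hb)
                  have h2 : b ≠ u' := fun h' => hu2 (h' ▸ hb)
                  rwa [Equiv.swap_apply_of_ne_of_ne h1 h2]
                · intro ha
                  have h1 : a ≠ u := fun h' => hu1 (h' ▸ ha)
                  have h2 : a ≠ u' := fun h' => hu2 (h' ▸ ha)
                  exact ⟨a, ha, Equiv.swap_apply_of_ne_of_ne h1 h2⟩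
              simp [merge, he, hτe]
          simp only [hh, hmerge]
          exact hτ2 _
      have h1 : ∀ u ∈ U, ∑ S ∈ lowSets (pureSet vert U u) t, coeff p h S ^ 2 ≤
          c * ∑ e ∈ pureSet vert U u, Inf p h e := by
        intro u hu
        exact block_estimate hp0 hp1 h hb U hU (pureSet vert U) t
          (fun a _ b _ hne => pureSet_disjoint vert U hne) hsym' c hc0 hc3 u hu
      calc ∑ u ∈ U, ∑ S ∈ lowSets (pureSet vert U u) t, coeff p h S ^ 2
          ≤ ∑ u ∈ U, c * ∑ e ∈ pureSet vert U u, Inf p h e := sum_le_sum h1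
        _ = c * ∑ u ∈ U, ∑ e ∈ pureSet vert U u, Inf p h e := by rw [mul_sum]
        _ = c * ∑ e ∈ U.biUnion (pureSet vert U), Inf p h e := by
            rw [sum_biUnion]
            intro a _ b _ hne
            exact pureSet_disjoint vert U hne
        _ ≤ c * ∑ e ∈ A, Inf p h e := by
            apply mul_le_mul_of_nonneg_left _ hc0
            refine sum_le_sum_of_subset_of_nonneg ?_ (fun e _ _ => Inf_nonneg hp0 hp1 h e)
            intro e he
            obtain ⟨u, _, hu⟩ := mem_biUnion.mp he
            exact pureSet_subset_touch vert U u hu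
    · intro a _ b _ hne
      simp only [Function.onFun]
      rw [Finset.disjoint_left]
      intro S hS1 hS2
      obtain ⟨⟨e, he⟩, h1, -⟩ := mem_lowSets.mp hS1
      obtain ⟨-, h2, -⟩ := mem_lowSets.mp hS2
      exact (Finset.disjoint_left.mp (pureSet_disjoint vert U hne)) (h1 he) (h2 he)
  refine le_trans (Ex_mono hp0 hp1 hpt) ?_
  rw [Ex_const_mul, Ex_sum]
  apply le_of_eq
  congr 1
  refine sum_congr rfl fun e he => ?_
  exact Ex_Inf_cond hp0 hp1 F A he

variable {vert}

/-- A small set of hyperedges has a vertex of small degree. -/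
lemma exists_low_deg {r w : ℕ} (hr : 2 ≤ r) (hvert : ∀ e, (vert e).card = r)
    (hinj : Function.Injective vert) (T : Finset ι) (hT : T.Nonempty)
    (hsmall : r * T.card ≤ w ^ r) :
    ∃ u ∈ T.biUnion vert, (T.filter (fun e => u ∈ vert e)).card ≤ w ^ (r - 1) := by
  by_contra hcon
  push Not at hcon
  set W := T.biUnion vert with hW
  have hsum : ∑ u ∈ W, (T.filter (fun e => u ∈ vert e)).card = r * T.card := by
    have := sum_card_bipartiteAbove_eq_sum_card_bipartiteBelow (s := W) (t := T)
      (fun (u : Fin n) (e : ι) => u ∈ vert e)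
    simp only [bipartiteAbove, bipartiteBelow] at this
    rw [this]
    have h2 : ∀ e ∈ T, (W.filter (fun u => u ∈ vert e)).card = r := by
      intro e he
      have : W.filter (fun u => u ∈ vert e) = vert e := by
        ext a
        simp only [mem_filter]
        constructor
        · exact fun h => h.2
        · exact fun h => ⟨mem_biUnion.mpr ⟨e, he, h⟩, h⟩
      rw [this, hvert]
    rw [sum_congr rfl h2]
    simp [mul_comm]
  obtain ⟨e₀, he₀⟩ := hT
  have hWne : W.Nonempty := by
    have : 0 < (vert e₀).card := by rw [hvert]; omega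
    obtain ⟨a, ha⟩ := card_pos.mp this
    exact ⟨a, mem_biUnion.mpr ⟨e₀, he₀, ha⟩⟩
  have hdeg : ∀ u ∈ W, (T.filter (fun e => u ∈ vert e)).card ≤ W.card ^ (r - 1) := by
    intro u hu
    have hle : (T.filter (fun e => u ∈ vert e)).card ≤
        ((W.erase u).powersetCard (r - 1)).card := by
      refine card_le_card_of_injOn (fun e => (vert e).erase u) ?_ ?_
      · intro e he
        have he' := mem_filter.mp (mem_coe.mp he)
        refine mem_coe.mpr (mem_powersetCard.mpr ⟨?_, ?_⟩)
        · intro a ha
          have ha' := mem_erase.mp ha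
          exact mem_erase.mpr ⟨ha'.1, mem_biUnion.mpr ⟨e, he'.1, ha'.2⟩⟩
        · rw [card_erase_of_mem he'.2, hvert]
      · intro e he e' he' hEq
        have h1 := (mem_filter.mp (mem_coe.mp he)).2
        have h2 := (mem_filter.mp (mem_coe.mp he')).2
        apply hinj
        have hEq' : (vert e).erase u = (vert e').erase u := hEq
        rw [← insert_erase h1, ← insert_erase h2, hEq']
    refine le_trans hle ?_
    rw [card_powersetCard, card_erase_of_mem hu]
    refine le_trans (Nat.choose_le_pow _ _) ?_
    exact Nat.pow_le_pow_left (Nat.sub_le _ _) _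
  obtain ⟨u₀, hu₀⟩ := hWne
  have h1 : w ^ (r - 1) < W.card ^ (r - 1) :=
    lt_of_lt_of_le (hcon u₀ hu₀) (hdeg u₀ hu₀)
  have h2 : w < W.card := lt_of_pow_lt_pow_left₀ _ (Nat.zero_le _) h1
  have h3 : W.card * (w ^ (r - 1) + 1) ≤ r * T.card := by
    rw [← hsum, ← smul_eq_mul]
    rw [← sum_const]
    refine sum_le_sum fun u hu => ?_
    exact hcon u hu
  have h4 : w ^ r = w * w ^ (r - 1) := by
    obtain ⟨k, rfl⟩ : ∃ k, r = k + 1 := ⟨r - 1, by omega⟩
    simp [pow_succ, mul_comm]
  have h5 : w * w ^ (r - 1) < W.card * (w ^ (r - 1) + 1) := by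
    nlinarith [Nat.zero_le (w ^ (r - 1))]
  omega

/-- number of `m`-sets meeting `W` exactly at `u`. -/
lemma card_U_ge {m V : ℕ} (hm : 1 ≤ m) {W : Finset (Fin n)} {u : Fin n} (hu : u ∈ W)
    (hWV : W.card ≤ V) :
    (n - V).choose (m - 1) ≤
      (((univ : Finset (Fin n)).powersetCard m).filter (fun U => U ∩ W = {u})).card := by
  have h1 : (n - V).choose (m - 1) ≤ (n - W.card).choose (m - 1) :=
    Nat.choose_le_choose _ (by omega)
  have h2 : ((univ \ W).powersetCard (m - 1)).card = (n - W.card).choose (m - 1) := by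
    rw [card_powersetCard, card_sdiff_of_subset (subset_univ _), card_univ, Fintype.card_fin]
  refine le_trans h1 ?_
  rw [← h2]
  refine card_le_card_of_injOn (fun s => insert u s) ?_ ?_
  · intro s hs
    have hs' := mem_powersetCard.mp (mem_coe.mp hs)
    have hus : u ∉ s := fun h => (mem_sdiff.mp (hs'.1 h)).2 hu
    refine mem_coe.mpr (mem_filter.mpr ⟨mem_powersetCard.mpr ⟨subset_univ _, ?_⟩, ?_⟩)
    · rw [card_insert_of_notMem hus, hs'.2]; omega
    · ext a
      simp only [mem_inter, mem_insert, mem_singleton]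
      constructor
      · rintro ⟨h | h, ha⟩
        · exact h
        · exact absurd ha (mem_sdiff.mp (hs'.1 h)).2
      · rintro rfl
        exact ⟨Or.inl rfl, hu⟩
  · intro s hs s' hs' hEq
    have h3 := mem_powersetCard.mp (mem_coe.mp hs)
    have h4 := mem_powersetCard.mp (mem_coe.mp hs')
    have hus : u ∉ s := fun h => (mem_sdiff.mp (h3.1 h)).2 hu
    have hus' : u ∉ s' := fun h => (mem_sdiff.mp (h4.1 h)).2 hu
    have hEq' : insert u s = insert u s' := hEq
    have := congrArg (fun t => t.erase u) hEq'
    simpa [erase_insert hus, erase_insert hus'] using this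

/-- number of `m`-sets containing a vertex. -/
lemma card_U_mem_le {m : ℕ} (hm : 1 ≤ m) (v : Fin n) :
    (((univ : Finset (Fin n)).powersetCard m).filter (fun U => v ∈ U)).card ≤
      (n - 1).choose (m - 1) := by
  have h2 : ((univ.erase v).powersetCard (m - 1)).card = (n - 1).choose (m - 1) := by
    rw [card_powersetCard, card_erase_of_mem (mem_univ _), card_univ, Fintype.card_fin]
  rw [← h2]
  refine card_le_card_of_surjOn (fun s => insert v s) ?_
  intro U hU
  have hU' := mem_filter.mp (mem_coe.mp hU)
  have hU2 := mem_powersetCard.mp hU'.1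
  refine ⟨U.erase v, mem_coe.mpr (mem_powersetCard.mpr ⟨erase_subset_erase _ (subset_univ _), ?_⟩), ?_⟩
  · rw [card_erase_of_mem hU'.2, hU2.2]
  · exact insert_erase hU'.2

/-- number of `m`-sets meeting a hyperedge. -/
lemma card_U_touch_le {m r : ℕ} (hm : 1 ≤ m) (s : Finset (Fin n)) (hs : s.card = r) :
    (((univ : Finset (Fin n)).powersetCard m).filter (fun U => (s ∩ U).Nonempty)).card ≤
      r * (n - 1).choose (m - 1) := by
  have h1 : ((univ : Finset (Fin n)).powersetCard m).filter (fun U => (s ∩ U).Nonempty) ⊆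
      s.biUnion (fun v => ((univ : Finset (Fin n)).powersetCard m).filter (fun U => v ∈ U)) := by
    intro U hU
    have hU' := mem_filter.mp hU
    obtain ⟨v, hv⟩ := hU'.2
    have hv' := mem_inter.mp hv
    exact mem_biUnion.mpr ⟨v, hv'.1, mem_filter.mpr ⟨hU'.1, hv'.2⟩⟩
  refine le_trans (card_le_card h1) ?_
  refine le_trans card_biUnion_le ?_
  rw [← hs, ← smul_eq_mul, ← sum_const]
  exact sum_le_sum fun v _ => card_U_mem_le hm v

end Hyper

end Crest.Agent.Lib.SymThreshold
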