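import Crest.Agent.Lib.SymNumeric

set_option autoImplicit false
set_option linter.unusedSectionVars false
set_option linter.unusedSimpArgs false
set_option linter.unusedVariables false

/-!
Transfer between the Prelude's probabilities and the expectations of the library.
-/

namespace Crest.Agent.Lib.SymTransfer

open Finset Crest.Agent.Lib.BiasedCube Crest.Agent.Lib.BiasedBonami Crest.Agent.Lib.BlockSym
open Crest.Agent.Lib.SymThreshold Crest.Agent.Lib.SymMain Crest.Agent.Lib.SymNumeric

variable {ι : Type*} [Fintype ι] [DecidableEq ι]

/-- real valued version of a Boolean function. -/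
noncomputable def boolF (f : (ι → Bool) → Bool) (x : ι → Bool) : ℝ := if f x = true then 1 else 0

lemma boolF_isBool (f : (ι → Bool) → Bool) : IsBool (boolF f) := by
  intro x
  unfold boolF
  by_cases h : f x = true <;> simp [h]

lemma bernoulliProb_eq (p : ℝ) (E : Set (ι → Bool)) (F : (ι → Bool) → ℝ)
    (h1 : ∀ x, x ∈ E → F x = 1) (h0 : ∀ x, x ∉ E → F x = 0) :
    Crest.FinProb.bernoulliProb p E = Ex p F := by
  classical
  unfold Crest.FinProb.bernoulliProb Ex
  rw [Finset.sum_filter]
  refine sum_congr rfl fun x _ => ?_
  by_cases hx : x ∈ E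
  · simp [hx, h1 x hx]
  · simp [hx, h0 x hx]

lemma prob_eq_Ex (p : ℝ) (f : (ι → Bool) → Bool) :
    Crest.FinProb.bernoulliProb p {x | f x = true} = Ex p (boolF f) := by
  refine bernoulliProb_eq p _ _ (fun x hx => ?_) (fun x hx => ?_)
  · have : f x = true := hx
    simp [boolF, this]
  · have : ¬ f x = true := hx
    simp [boolF, this]

lemma pivotal_eq_Inf (p : ℝ) (f : (ι → Bool) → Bool) (e : ι) :
    Crest.FinProb.bernoulliProb p {x | f (Function.update x e true) ≠ f (Function.update x e false)} =
      Inf p (boolF f) e := by
  unfold Inf
  refine bernoulliProb_eq p _ _ (fun x hx => ?_) (fun x hx => ?_)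
  · have hx' : f (Function.update x e true) ≠ f (Function.update x e false) := hx
    unfold dd boolF
    cases h1 : f (Function.update x e true) <;> cases h2 : f (Function.update x e false) <;>
      simp_all
  · have hx' : ¬ f (Function.update x e true) ≠ f (Function.update x e false) := hx
    push Not at hx'
    unfold dd boolF
    rw [hx']
    simp

end Crest.Agent.Lib.SymTransfer
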