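import Mathlib
import Crest.Prelude.Def_TreePotentials
import Crest.Agent.Lib.AUC

/-!
Combinatorics of the tree potential tests: given two tests `f`, `g`, a finite ancestor-closed set `S` of
vertices and numbers `a, b ≥ 0` with `a² + b² ≤ 1`, there are two tests `h₊, h₋` agreeing with
`a f` on `S` and with `h₊ - h₋ = b g` off `S`. The potentials of `h₊, h₋` are obtained by clamping.
-/

set_option autoImplicit false

open Crest.AnalysisR.TreePotential

namespace Crest.Agent.Lib.TreeTest

/-- The increments of a potential function. -/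
def incr (Φ : List ℕ → ℝ) : List ℕ → ℝ
  | [] => Φ []
  | a :: v => Φ (a :: v) - Φ v

lemma pot_incr (Φ : List ℕ → ℝ) (s : List ℕ) : pathPotential (incr Φ) s = Φ s := by
  induction s with
  | nil => rfl
  | cons a v ih =>
    simp only [pathPotential, incr, ih]
    ring

/-- Ancestor-closed sets of vertices containing the root. -/
structure AncClosed (S : Set (List ℕ)) : Prop where
  root : [] ∈ S
  parent : ∀ a v, a :: v ∈ S → v ∈ S

section restrict

variable {S : Set (List ℕ)} (hS : AncClosed S)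
include hS

lemma pot_restr_mem (f : List ℕ → ℝ) {s : List ℕ} (hs : s ∈ S) :
    pathPotential (S.indicator f) s = pathPotential f s := by
  induction s with
  | nil => simp [pathPotential, Set.indicator_of_mem hs]
  | cons a v ih =>
    simp only [pathPotential]
    rw [ih (hS.parent a v hs), Set.indicator_of_mem hs]

lemma abs_pot_restr_le (f : List ℕ → ℝ) (hf : ∀ s, |pathPotential f s| ≤ 1) (s : List ℕ) :
    |pathPotential (S.indicator f) s| ≤ 1 := by
  induction s with
  | nil => rw [pot_restr_mem hS f hS.root]; exact hf _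
  | cons a v ih =>
    by_cases h : a :: v ∈ S
    · rw [pot_restr_mem hS f h]; exact hf _
    · simp only [pathPotential]
      rw [Set.indicator_of_notMem h, add_zero]
      exact ih

lemma pot_compl_mem (g : List ℕ → ℝ) {s : List ℕ} (hs : s ∈ S) :
    pathPotential (Sᶜ.indicator g) s = 0 := by
  induction s with
  | nil =>
    simp only [pathPotential]
    exact Set.indicator_of_notMem (by simpa using hs) _
  | cons a v ih =>
    simp only [pathPotential]
    rw [ih (hS.parent a v hs), Set.indicator_of_notMem (by simpa using hs), add_zero]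

lemma pot_compl_eq (g : List ℕ → ℝ) (s : List ℕ) :
    ∃ w, pathPotential (Sᶜ.indicator g) s = pathPotential g s - pathPotential g w := by
  induction s with
  | nil => exact ⟨[], by rw [pot_compl_mem hS g hS.root, sub_self]⟩
  | cons a v ih =>
    by_cases h : a :: v ∈ S
    · exact ⟨a :: v, by rw [pot_compl_mem hS g h, sub_self]⟩
    · obtain ⟨w, hw⟩ := ih
      refine ⟨w, ?_⟩
      simp only [pathPotential]
      rw [hw, Set.indicator_of_mem (by simpa using h)]
      ring

lemma abs_pot_compl_le (g : List ℕ → ℝ) (hg : ∀ s, |pathPotential g s| ≤ 1) (s : List ℕ) :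
    |pathPotential (Sᶜ.indicator g) s| ≤ 2 := by
  obtain ⟨w, hw⟩ := pot_compl_eq hS g s
  rw [hw]
  have h1 := hg s
  have h2 := hg w
  rw [abs_le] at h1 h2 ⊢
  constructor <;> linarith [h1.1, h1.2, h2.1, h2.2]

end restrict

/-- Clamping `p` to `[-r, r]`. -/
noncomputable def clamp (p r : ℝ) : ℝ := max (-r) (min p r)

lemma abs_clamp_le {p r : ℝ} (hr : 0 ≤ r) : |clamp p r| ≤ r := by
  rw [abs_le]
  constructor
  · exact le_max_left _ _
  · exact max_le (by linarith) (min_le_right _ _)

lemma clamp_eq {p r : ℝ} (h : |p| ≤ r) : clamp p r = p := by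
  rw [abs_le] at h
  rw [clamp, min_eq_left h.2, max_eq_right h.1]

lemma abs_clamp_sub_le (p r r' : ℝ) : |clamp p r - clamp p r'| ≤ |r - r'| := by
  have h1 := abs_max_sub_max_le_max (-r) (min p r) (-r') (min p r')
  have h2 := abs_min_sub_min_le_max p r p r'
  simp only [sub_self, abs_zero] at h2
  have h3 : max 0 |r - r'| = |r - r'| := max_eq_right (abs_nonneg _)
  rw [h3] at h2
  have h4 : |(-r) - (-r')| = |r - r'| := by
    rw [← abs_neg]; congr 1; ring
  rw [h4] at h1
  exact h1.trans (max_le le_rfl h2)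

section pair

variable {S : Set (List ℕ)} (f g : List ℕ → ℝ) (a b : ℝ)

/-- The base potential. -/
noncomputable def basePot (S : Set (List ℕ)) (f : List ℕ → ℝ) (a : ℝ) (s : List ℕ) : ℝ :=
  a * pathPotential (S.indicator f) s

/-- The perturbation potential. -/
noncomputable def pertPot (S : Set (List ℕ)) (g : List ℕ → ℝ) (b : ℝ) (s : List ℕ) : ℝ :=
  (b / 2) * pathPotential (Sᶜ.indicator g) s

/-- The clamped base potential. -/
noncomputable def clampPot (S : Set (List ℕ)) (f g : List ℕ → ℝ) (a b : ℝ) (s : List ℕ) : ℝ :=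
  clamp (basePot S f a s) (1 - |pertPot S g b s|)

/-- The test `h₊` (for `σ = 1`) and `h₋` (for `σ = -1`). -/
noncomputable def pairTest (S : Set (List ℕ)) (f g : List ℕ → ℝ) (a b σ : ℝ) : List ℕ → ℝ :=
  incr fun s => clampPot S f g a b s + σ * pertPot S g b s

variable (hS : AncClosed S) (hf : ∀ s, |pathPotential f s| ≤ 1) (hg : ∀ s, |pathPotential g s| ≤ 1)
  (ha : 0 ≤ a) (hb : 0 ≤ b) (hab : a ^ 2 + b ^ 2 ≤ 1)

include hS hf ha hb hab in
lemma abs_basePot_le (s : List ℕ) : |basePot S f a s| ≤ a := by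
  rw [basePot, abs_mul, abs_of_nonneg ha]
  have := abs_pot_restr_le hS f hf s
  nlinarith

include hS hg hb in
lemma abs_pertPot_le (s : List ℕ) : |pertPot S g b s| ≤ b := by
  rw [pertPot, abs_mul, abs_of_nonneg (by positivity : 0 ≤ b / 2)]
  have := abs_pot_compl_le hS g hg s
  nlinarith

include hab in
lemma a_le_one : a ≤ 1 := by nlinarith [sq_nonneg b, sq_nonneg (a - 1)]

include hab in
lemma b_le_one : b ≤ 1 := by nlinarith [sq_nonneg a, sq_nonneg (b - 1)]

include hS hg hb hab in
lemma abs_clampPot_le (s : List ℕ) : |clampPot S f g a b s| ≤ 1 - |pertPot S g b s| := by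
  apply abs_clamp_le
  have h1 := abs_pertPot_le g b hS hg hb s
  have h2 := b_le_one a b hab
  linarith

include hS hg hb hab in
lemma pot_pairTest (σ : ℝ) (hσ : |σ| = 1) (s : List ℕ) :
    |pathPotential (pairTest S f g a b σ) s| ≤ 1 := by
  rw [pairTest, pot_incr]
  have h1 := abs_clampPot_le f g a b hS hg hb hab s
  calc |clampPot S f g a b s + σ * pertPot S g b s|
      ≤ |clampPot S f g a b s| + |σ * pertPot S g b s| := abs_add_le _ _
    _ = |clampPot S f g a b s| + |pertPot S g b s| := by rw [abs_mul, hσ, one_mul]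
    _ ≤ 1 := by linarith

include hS in
lemma pertPot_mem {s : List ℕ} (hs : s ∈ S) : pertPot S g b s = 0 := by
  rw [pertPot, pot_compl_mem hS g hs, mul_zero]

include hS hf ha hb hab in
lemma clampPot_mem {s : List ℕ} (hs : s ∈ S) :
    clampPot S f g a b s = a * pathPotential f s := by
  have h1 : pertPot S g b s = 0 := pertPot_mem g b hS hs
  have h2 := abs_basePot_le f a b hS hf ha hb hab s
  have h3 := a_le_one a b hab
  rw [clampPot, h1, abs_zero, sub_zero, clamp_eq (h2.trans h3), basePot, pot_restr_mem hS f hs]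

include hS hf ha hb hab in
lemma pairTest_mem (σ : ℝ) {s : List ℕ} (hs : s ∈ S) : pairTest S f g a b σ s = a * f s := by
  cases s with
  | nil =>
    simp only [pairTest, incr]
    rw [clampPot_mem f g a b hS hf ha hb hab hs, pertPot_mem g b hS hs]
    simp [pathPotential]
  | cons c v =>
    have hv := hS.parent c v hs
    simp only [pairTest, incr]
    rw [clampPot_mem f g a b hS hf ha hb hab hs, pertPot_mem g b hS hs,
      clampPot_mem f g a b hS hf ha hb hab hv, pertPot_mem g b hS hv]
    simp only [pathPotential]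
    ring

lemma pertPot_step {c : ℕ} {v : List ℕ} (hs : c :: v ∉ S) :
    pertPot S g b (c :: v) = pertPot S g b v + (b / 2) * g (c :: v) := by
  simp only [pertPot, pathPotential]
  rw [Set.indicator_of_mem (by simpa using hs)]
  ring

lemma basePot_step {c : ℕ} {v : List ℕ} (hs : c :: v ∉ S) :
    basePot S f a (c :: v) = basePot S f a v := by
  simp only [basePot, pathPotential]
  rw [Set.indicator_of_notMem hs, add_zero]

include hb in
lemma abs_pairTest_notMem (σ : ℝ) (hσ : |σ| = 1) {c : ℕ} {v : List ℕ} (hs : c :: v ∉ S) :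
    |pairTest S f g a b σ (c :: v)| ≤ b * |g (c :: v)| := by
  simp only [pairTest, incr]
  have h1 : clampPot S f g a b (c :: v) - clampPot S f g a b v
      = clamp (basePot S f a v) (1 - |pertPot S g b (c :: v)|)
        - clamp (basePot S f a v) (1 - |pertPot S g b v|) := by
    rw [clampPot, clampPot, basePot_step f a hs]
  have h2 := abs_clamp_sub_le (basePot S f a v) (1 - |pertPot S g b (c :: v)|)
    (1 - |pertPot S g b v|)
  have h3 : |(1 - |pertPot S g b (c :: v)|) - (1 - |pertPot S g b v|)|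
      ≤ |pertPot S g b (c :: v) - pertPot S g b v| := by
    have : (1 - |pertPot S g b (c :: v)|) - (1 - |pertPot S g b v|)
        = |pertPot S g b v| - |pertPot S g b (c :: v)| := by ring
    rw [this, abs_sub_comm (pertPot S g b (c :: v))]
    exact abs_abs_sub_abs_le _ _
  have h4 : pertPot S g b (c :: v) - pertPot S g b v = (b / 2) * g (c :: v) := by
    rw [pertPot_step g b hs]; ring
  rw [h4, abs_mul, abs_of_nonneg (by positivity : 0 ≤ b / 2)] at h3
  have h5 : clampPot S f g a b (c :: v) + σ * pertPot S g b (c :: v)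
      - (clampPot S f g a b v + σ * pertPot S g b v)
      = (clampPot S f g a b (c :: v) - clampPot S f g a b v)
        + σ * (pertPot S g b (c :: v) - pertPot S g b v) := by ring
  rw [h5, h1, h4]
  calc _ ≤ |clamp (basePot S f a v) (1 - |pertPot S g b (c :: v)|)
        - clamp (basePot S f a v) (1 - |pertPot S g b v|)| + |σ * ((b / 2) * g (c :: v))| :=
        abs_add_le _ _
    _ ≤ (b / 2) * |g (c :: v)| + (b / 2) * |g (c :: v)| := by
        rw [abs_mul σ, hσ, one_mul, abs_mul, abs_of_nonneg (by positivity : 0 ≤ b / 2)]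
        linarith
    _ = b * |g (c :: v)| := by ring

include hS hf ha hb hab in
lemma pairTest_sq_le (σ : ℝ) (hσ : |σ| = 1) (u : List ℕ) :
    pairTest S f g a b σ u ^ 2 ≤ a ^ 2 * f u ^ 2 + b ^ 2 * g u ^ 2 := by
  by_cases hu : u ∈ S
  · rw [pairTest_mem f g a b hS hf ha hb hab σ hu, mul_pow]
    nlinarith [mul_nonneg (sq_nonneg b) (sq_nonneg (g u))]
  · cases u with
    | nil => exact absurd hS.root hu
    | cons c v =>
      have h1 := abs_pairTest_notMem f g a b hb σ hσ hu
      have h2 : pairTest S f g a b σ (c :: v) ^ 2 ≤ (b * |g (c :: v)|) ^ 2 := by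
        rw [← sq_abs]
        gcongr
      rw [mul_pow, sq_abs] at h2
      nlinarith [mul_nonneg (sq_nonneg a) (sq_nonneg (f (c :: v)))]

lemma pairTest_diff {c : ℕ} {v : List ℕ} (hs : c :: v ∉ S) :
    pairTest S f g a b 1 (c :: v) - pairTest S f g a b (-1) (c :: v) = b * g (c :: v) := by
  simp only [pairTest, incr]
  rw [pertPot_step g b hs]
  ring

end pair

/-- Square-sum domination. -/
lemma sum_sq_le {ι : Type*} (A : Finset ι) (u : ι → List ℕ) {f g h : List ℕ → ℝ} {a b : ℝ}
    (hab : a ^ 2 + b ^ 2 ≤ 1) (hpt : ∀ w, h w ^ 2 ≤ a ^ 2 * f w ^ 2 + b ^ 2 * g w ^ 2)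
    (hf : ∑ i ∈ A, f (u i) ^ 2 ≤ 1) (hg : ∑ i ∈ A, g (u i) ^ 2 ≤ 1) :
    ∑ i ∈ A, h (u i) ^ 2 ≤ 1 := by
  calc ∑ i ∈ A, h (u i) ^ 2 ≤ ∑ i ∈ A, (a ^ 2 * f (u i) ^ 2 + b ^ 2 * g (u i) ^ 2) :=
        Finset.sum_le_sum fun i _ => hpt _
    _ = a ^ 2 * ∑ i ∈ A, f (u i) ^ 2 + b ^ 2 * ∑ i ∈ A, g (u i) ^ 2 := by
        rw [Finset.sum_add_distrib, Finset.mul_sum, Finset.mul_sum]
    _ ≤ a ^ 2 * 1 + b ^ 2 * 1 := by gcongr
    _ ≤ 1 := by linarith

/-- The extra conditions pass to dominated families. -/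
lemma extra_of_dominated (m : PotentialModel) {f g h : List ℕ → ℝ} {a b : ℝ}
    (hab : a ^ 2 + b ^ 2 ≤ 1) (hpt : ∀ w, h w ^ 2 ≤ a ^ 2 * f w ^ 2 + b ^ 2 * g w ^ 2)
    (hroot : f [] = 0 → h [] = 0)
    (hf : ExtraCondition m f) (hg : ExtraCondition m g) : ExtraCondition m h := by
  cases m with
  | rootlessSibling =>
    exact ⟨hroot hf.1, fun r A => sum_sq_le A (fun n => n :: r) hab hpt (hf.2 r A) (hg.2 r A)⟩
  | rootedSibling =>
    exact fun r A => sum_sq_le A (fun n => n :: r) hab hpt (hf r A) (hg r A)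
  | antichain =>
    refine ⟨(hf.1.union hg.1).subset ?_, fun A hA =>
      sum_sq_le A (fun u => u) hab hpt (hf.2 A hA) (hg.2 A hA)⟩
    intro w hw
    by_contra hcon
    simp only [Set.mem_union, Function.mem_support, not_or, not_not] at hcon
    have h1 := hpt w
    rw [hcon.1, hcon.2] at h1
    have h2 : h w ^ 2 ≤ 0 := by simpa using h1
    exact hw (pow_eq_zero_iff (by norm_num) |>.mp (le_antisymm h2 (sq_nonneg _)))
  | global =>
    exact fun A => sum_sq_le A (fun u => u) hab hpt (hf A) (hg A)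

/-- The main combinatorial construction. -/
theorem exists_test_pair (m : PotentialModel) {S : Set (List ℕ)} (hS : AncClosed S)
    {f g : List ℕ → ℝ} (hf : IsTest m f) (hg : IsTest m g) {a b : ℝ} (ha : 0 ≤ a) (hb : 0 ≤ b)
    (hab : a ^ 2 + b ^ 2 ≤ 1) :
    ∃ hp hm : List ℕ → ℝ, IsTest m hp ∧ IsTest m hm ∧
      (∀ s ∈ S, hp s = a * f s ∧ hm s = a * f s) ∧
      (∀ s, s ∉ S → hp s - hm s = b * g s) := by
  have hm1 : |(-1 : ℝ)| = 1 := by simp
  have hp1 : |(1 : ℝ)| = 1 := by simp
  refine ⟨pairTest S f g a b 1, pairTest S f g a b (-1), ⟨?_, ?_⟩, ⟨?_, ?_⟩, ?_, ?_⟩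
  · exact pot_pairTest f g a b hS hg.1 hb hab 1 hp1
  · refine extra_of_dominated m hab (pairTest_sq_le f g a b hS hf.1 ha hb hab 1 hp1) ?_ hf.2 hg.2
    intro h0
    rw [pairTest_mem f g a b hS hf.1 ha hb hab 1 hS.root, h0, mul_zero]
  · exact pot_pairTest f g a b hS hg.1 hb hab (-1) hm1
  · refine extra_of_dominated m hab (pairTest_sq_le f g a b hS hf.1 ha hb hab (-1) hm1) ?_ hf.2 hg.2
    intro h0
    rw [pairTest_mem f g a b hS hf.1 ha hb hab (-1) hS.root, h0, mul_zero]
  · exact fun s hs => ⟨pairTest_mem f g a b hS hf.1 ha hb hab 1 hs,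
      pairTest_mem f g a b hS hf.1 ha hb hab (-1) hs⟩
  · intro s hs
    cases s with
    | nil => exact absurd hS.root hs
    | cons c v => exact pairTest_diff f g a b hs

end Crest.Agent.Lib.TreeTest
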