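import Mathlib
import Crest.Prelude.Def_TreePotentials
import Crest.Agent.Lib.AUC
import Crest.Agent.Lib.TreeTest

/-!
Banach-space level facts about the tree potential models: finite vectors, coordinates,
the midpoint inequality, weak-nullity of sibling coordinates, bounded path sums.
-/

set_option autoImplicit false

open Crest.AnalysisR.TreePotential Filter Topology
open scoped ENNReal

namespace Crest.Agent.Lib.TreeSpace

open Crest.Agent.Lib.TreeTest Crest.Agent.Lib.AUC

variable (m : PotentialModel)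

/-- The ambient space of bounded functions on tests. -/
abbrev Amb (m : PotentialModel) : Type := lp (fun _ : PotentialTest m => ℝ) ⊤

/-- Finitely supported coefficient vectors. -/
noncomputable def vec (c : List ℕ →₀ ℝ) : Amb m := c.sum fun s r => r • coordVector m s

lemma vec_apply (c : List ℕ →₀ ℝ) (τ : PotentialTest m) :
    (vec m c : PotentialTest m → ℝ) τ = c.sum fun s r => r * τ.1 s := by
  rw [vec, Finsupp.sum, lp.coeFn_sum, Finset.sum_apply, Finsupp.sum]
  rfl

lemma coordVector_apply (s : List ℕ) (τ : PotentialTest m) : coordVector m s τ = τ.1 s := rfl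

lemma vec_mem_span (c : List ℕ →₀ ℝ) : vec m c ∈ Submodule.span ℝ (Set.range (coordVector m)) :=
  Submodule.sum_mem _ fun s _ => Submodule.smul_mem _ _ (Submodule.subset_span ⟨s, rfl⟩)

lemma vec_mem (c : List ℕ →₀ ℝ) : vec m c ∈ modelSpace m :=
  Submodule.le_topologicalClosure _ (vec_mem_span m c)

lemma coord_mem (s : List ℕ) : coordVector m s ∈ modelSpace m :=
  Submodule.le_topologicalClosure _ (Submodule.subset_span ⟨s, rfl⟩)

variable {m}

lemma exists_vec_near {x : Amb m} (hx : x ∈ modelSpace m) {ε : ℝ} (hε : 0 < ε) :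
    ∃ c : List ℕ →₀ ℝ, ‖x - vec m c‖ < ε := by
  have hx' : x ∈ closure (Submodule.span ℝ (Set.range (coordVector m)) : Set (Amb m)) := by
    have h : x ∈ ((modelSpace m : Submodule ℝ (Amb m)) : Set (Amb m)) := hx
    rwa [modelSpace, Submodule.topologicalClosure_coe] at h
  obtain ⟨y, hy, hd⟩ := Metric.mem_closure_iff.mp hx' ε hε
  obtain ⟨c, rfl⟩ := (Finsupp.mem_span_range_iff_exists_finsupp).mp hy
  exact ⟨c, by rwa [dist_eq_norm] at hd⟩

/-! ### Delta tests -/

/-- The function equal to one at `s` and zero elsewhere. -/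
noncomputable def deltaFn (s : List ℕ) (u : List ℕ) : ℝ := if u = s then 1 else 0

lemma pot_delta (s u : List ℕ) : pathPotential (deltaFn s) u = if s <:+ u then 1 else 0 := by
  classical
  induction u with
  | nil =>
    simp only [pathPotential, deltaFn, List.suffix_nil]
    by_cases h : s = []
    · simp [h]
    · simp [h, Ne.symm h]
  | cons a v ih =>
    simp only [pathPotential, ih, deltaFn]
    by_cases h : a :: v = s
    · have hns : ¬ s <:+ v := by
        intro hsuf
        have := hsuf.length_le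
        rw [← h] at this
        simp at this
      have hs : s <:+ a :: v := by rw [h]
      simp [h, hns, hs]
    · have hiff : (s <:+ a :: v) ↔ (s <:+ v) := by
        rw [List.suffix_cons_iff]
        constructor
        · rintro (h1 | h1)
          · exact absurd h1.symm h
          · exact h1
        · exact fun h1 => Or.inr h1
      by_cases hs : s <:+ v
      · simp [h, hs, hiff]
      · simp [h, hs, hiff]

lemma abs_pot_delta (s u : List ℕ) : |pathPotential (deltaFn s) u| ≤ 1 := by
  rw [pot_delta]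
  split_ifs <;> simp

lemma sum_delta_sq_le {ι : Type*} (A : Finset ι) (u : ι → List ℕ) (hu : Function.Injective u)
    (s : List ℕ) : ∑ i ∈ A, deltaFn s (u i) ^ 2 ≤ 1 := by
  classical
  have h1 : ∀ i ∈ A, deltaFn s (u i) ^ 2 = if u i = s then (1 : ℝ) else 0 := by
    intro i _
    simp only [deltaFn]
    split_ifs <;> simp
  rw [Finset.sum_congr rfl h1, ← Finset.sum_filter, Finset.sum_const, nsmul_eq_mul, mul_one]
  have h2 : (A.filter fun i => u i = s).card ≤ 1 := by
    rw [Finset.card_le_one]
    intro a ha b hb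
    simp only [Finset.mem_filter] at ha hb
    exact hu (ha.2.trans hb.2.symm)
  exact_mod_cast h2

/-- The coordinate at `s` is available. -/
def Valid (m : PotentialModel) (s : List ℕ) : Prop := m = .rootlessSibling → s ≠ []

lemma valid_of_ne_nil {s : List ℕ} (hs : s ≠ []) : Valid m s := fun _ => hs

lemma cons_injective_right (r : List ℕ) : Function.Injective (fun n : ℕ => n :: r) := by
  intro a b h
  exact (List.cons.inj h).1

lemma isTest_delta {s : List ℕ} (hs : Valid m s) : IsTest m (deltaFn s) := by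
  refine ⟨abs_pot_delta s, ?_⟩
  cases m with
  | rootlessSibling =>
    refine ⟨?_, fun r A => sum_delta_sq_le A (fun n => n :: r) (cons_injective_right r) s⟩
    have := hs rfl
    simp [deltaFn, Ne.symm this]
  | rootedSibling =>
    exact fun r A => sum_delta_sq_le A (fun n => n :: r) (cons_injective_right r) s
  | antichain =>
    refine ⟨(Set.finite_singleton s).subset ?_, fun A _ => sum_delta_sq_le A (fun u => u) (fun _ _ h => h) s⟩
    intro u hu
    simp only [Function.mem_support, deltaFn, ne_eq, ite_eq_right_iff, one_ne_zero, imp_false,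
      not_not] at hu
    exact hu
  | global =>
    exact fun A => sum_delta_sq_le A (fun u => u) (fun _ _ h => h) s

/-- The delta test. -/
noncomputable def deltaTest {s : List ℕ} (hs : Valid m s) : PotentialTest m :=
  ⟨deltaFn s, isTest_delta hs⟩

lemma vec_delta (c : List ℕ →₀ ℝ) {s : List ℕ} (hs : Valid m s) :
    (vec m c : PotentialTest m → ℝ) (deltaTest hs) = c s := by
  classical
  rw [vec_apply]
  show (c.sum fun u r => r * deltaFn s u) = c s
  have h1 : (c.sum fun u r => r * deltaFn s u) = c.sum fun u r => if u = s then r else 0 := by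
    simp only [deltaFn, mul_ite, mul_one, mul_zero]
  rw [h1, Finsupp.sum_ite_self_eq']

lemma coordVector_root_zero : coordVector .rootlessSibling [] = 0 := by
  ext τ
  exact τ.2.2.1

lemma coordVector_invalid {s : List ℕ} (hs : ¬ Valid m s) : coordVector m s = 0 := by
  simp only [Valid, Classical.not_imp, not_not] at hs
  obtain ⟨rfl, rfl⟩ := hs
  exact coordVector_root_zero

lemma norm_apply_le (x : Amb m) (τ : PotentialTest m) : |(x : PotentialTest m → ℝ) τ| ≤ ‖x‖ :=
  lp.norm_apply_le_norm (by simp) x τ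

lemma norm_coord_le (s : List ℕ) : ‖coordVector m s‖ ≤ 2 := by
  refine lp.norm_le_of_forall_le (by norm_num) fun τ => ?_
  have := (coordVector m s).2
  rw [Real.norm_eq_abs, coordVector_apply]
  cases s with
  | nil =>
    have h0 := τ.2.1 []
    simp only [pathPotential] at h0
    linarith
  | cons a v =>
    have h1 := τ.2.1 (a :: v)
    have h2 := τ.2.1 v
    simp only [pathPotential] at h1
    rw [abs_le] at h1 h2 ⊢
    constructor <;> linarith [h1.1, h1.2, h2.1, h2.2]

/-- The value of a bounded function at the coordinate test at `s`, or zero when there is no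
such coordinate. -/
noncomputable def coordAt (m : PotentialModel) (y : Amb m) (s : List ℕ) : ℝ := by
  classical
  exact if h : Valid m s then (y : PotentialTest m → ℝ) (deltaTest h) else 0

lemma coordAt_valid (y : Amb m) {s : List ℕ} (h : Valid m s) :
    coordAt m y s = (y : PotentialTest m → ℝ) (deltaTest h) := by
  classical
  simp [coordAt, h]

/-- Vectors with vanishing coordinates on a finite set are limits of vectors supported off it. -/
lemma exists_vec_off {y : Amb m} (hy : y ∈ modelSpace m) (S : Finset (List ℕ))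
    (hS : ∀ s ∈ S, coordAt m y s = 0) {ε : ℝ} (hε : 0 < ε) :
    ∃ d : List ℕ →₀ ℝ, (∀ s ∈ d.support, s ∉ S) ∧ ‖y - vec m d‖ < ε := by
  classical
  set ε' : ℝ := ε / (1 + 2 * S.card) with hε'
  have hpos : (0 : ℝ) < 1 + 2 * S.card := by positivity
  have hε'pos : 0 < ε' := by positivity
  obtain ⟨d', hd'⟩ := exists_vec_near hy hε'pos
  refine ⟨d'.filter (· ∉ S), ?_, ?_⟩
  · intro s hs
    have := Finsupp.support_filter (· ∉ S) d' ▸ hs
    simpa using (Finset.mem_filter.mp this).2
  -- decomposition
  have hdec : vec m d' = vec m (d'.filter (· ∉ S)) + ∑ s ∈ S.filter (· ∈ d'.support), d' s • coordVector m s := by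
    have h1 : d' = d'.filter (· ∉ S) + d'.filter (· ∈ S) := by
      have := Finsupp.filter_pos_add_filter_neg d' (· ∉ S)
      simp only [not_not] at this
      exact this.symm
    have h2 : vec m d' = vec m (d'.filter (· ∉ S)) + vec m (d'.filter (· ∈ S)) := by
      conv_lhs => rw [h1]
      rw [vec, Finsupp.sum_add_index' (by simp) (by intros; rw [add_smul])]
      rfl
    rw [h2]
    congr 1
    rw [vec, Finsupp.sum, Finsupp.support_filter]
    have h3 : Finset.filter (· ∈ S) d'.support = S.filter (· ∈ d'.support) := by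
      ext s
      simp [and_comm]
    rw [h3]
    refine Finset.sum_congr rfl fun s hs => ?_
    rw [Finsupp.filter_apply_pos]
    exact (Finset.mem_filter.mp hs).1
  have hsmall : ∀ s ∈ S.filter (· ∈ d'.support), ‖d' s • coordVector m s‖ ≤ 2 * ε' := by
    intro s hs
    have hsS := (Finset.mem_filter.mp hs).1
    by_cases hv : Valid m s
    · have h1 : |d' s| ≤ ε' := by
        have h2 := vec_delta d' hv
        have h3 := hS s hsS
        rw [coordAt_valid y hv] at h3
        have h4 := norm_apply_le (y - vec m d') (deltaTest hv)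
        rw [lp.coeFn_sub, Pi.sub_apply, h3, h2, zero_sub, abs_neg] at h4
        linarith
      rw [norm_smul, Real.norm_eq_abs]
      have h5 := norm_coord_le (m := m) s
      nlinarith [abs_nonneg (d' s), norm_nonneg (coordVector m s)]
    · rw [coordVector_invalid hv, smul_zero, norm_zero]
      positivity
  have hsum : ‖∑ s ∈ S.filter (· ∈ d'.support), d' s • coordVector m s‖ ≤ S.card * (2 * ε') := by
    refine (norm_sum_le _ _).trans ?_
    refine (Finset.sum_le_card_nsmul _ _ _ hsmall).trans ?_
    rw [nsmul_eq_mul]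
    have : ((S.filter (· ∈ d'.support)).card : ℝ) ≤ S.card := by
      exact_mod_cast Finset.card_filter_le _ _
    gcongr
  have heq : y - vec m (d'.filter (· ∉ S))
      = (y - vec m d') + ∑ s ∈ S.filter (· ∈ d'.support), d' s • coordVector m s := by
    rw [hdec]; abel
  rw [heq]
  calc _ ≤ ‖y - vec m d'‖ + ‖∑ s ∈ S.filter (· ∈ d'.support), d' s • coordVector m s‖ :=
        norm_add_le _ _
    _ < ε' + S.card * (2 * ε') := by linarith
    _ = ε := by
      rw [hε']
      field_simp

/-! ### Norms of finite vectors -/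

lemma isTest_neg {f : List ℕ → ℝ} (hf : IsTest m f) : IsTest m (fun u => -f u) := by
  have hpot : ∀ s, pathPotential (fun u => -f u) s = -pathPotential f s := by
    intro s
    induction s with
    | nil => rfl
    | cons a v ih => simp only [pathPotential, ih]; ring
  refine ⟨fun s => by rw [hpot, abs_neg]; exact hf.1 s, ?_⟩
  have hsq : ∀ x : ℝ, (-x) ^ 2 = x ^ 2 := fun x => by ring
  cases m with
  | rootlessSibling =>
    refine ⟨by simp [hf.2.1], fun r A => ?_⟩
    simpa only [hsq] using hf.2.2 r A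
  | rootedSibling =>
    intro r A
    simpa only [hsq] using hf.2 r A
  | antichain =>
    refine ⟨by simpa [Function.support] using hf.2.1, fun A hA => ?_⟩
    simpa only [hsq] using hf.2.2 A hA
  | global =>
    intro A
    simpa only [hsq] using hf.2 A

lemma isTest_zero : IsTest m (fun _ => 0) := by
  have hpot : ∀ s, pathPotential (fun _ => (0 : ℝ)) s = 0 := by
    intro s
    induction s with
    | nil => rfl
    | cons a v ih => simp only [pathPotential, ih]; ring
  refine ⟨fun s => by rw [hpot]; simp, ?_⟩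
  cases m with
  | rootlessSibling => exact ⟨rfl, fun r A => by simp⟩
  | rootedSibling => exact fun r A => by simp
  | antichain => exact ⟨by simp, fun A _ => by simp⟩
  | global => exact fun A => by simp

instance : Nonempty (PotentialTest m) := ⟨⟨_, isTest_zero⟩⟩

/-- A finite vector is almost norming at some test. -/
lemma exists_test_norming (c : List ℕ →₀ ℝ) {ε : ℝ} (hε : 0 < ε) :
    ∃ τ : PotentialTest m, ‖vec m c‖ - ε ≤ (vec m c : PotentialTest m → ℝ) τ := by
  have hlub := lp.isLUB_norm (vec m c)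
  have hlt : ‖vec m c‖ - ε < ‖vec m c‖ := by linarith
  obtain ⟨_, ⟨τ, rfl⟩, h1, -⟩ := hlub.exists_between hlt
  simp only at h1
  rw [Real.norm_eq_abs] at h1
  rcases le_total 0 ((vec m c : PotentialTest m → ℝ) τ) with h | h
  · rw [abs_of_nonneg h] at h1
    exact ⟨τ, h1.le⟩
  · rw [abs_of_nonpos h] at h1
    refine ⟨⟨_, isTest_neg τ.2⟩, ?_⟩
    rw [vec_apply] at h1 ⊢
    have : (c.sum fun s r => r * (fun u => -τ.1 u) s) = -(c.sum fun s r => r * τ.1 s) := by
      simp only [Finsupp.sum, mul_neg, Finset.sum_neg_distrib]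
    show _ ≤ (c.sum fun s r => r * (fun u => -τ.1 u) s)
    rw [this]
    exact h1.le

/-- The midpoint inequality for finite vectors supported on and off an ancestor-closed set. -/
theorem midpoint_finite (c d : List ℕ →₀ ℝ) {S : Set (List ℕ)} (hS : AncClosed S)
    (hc : ∀ s ∈ c.support, s ∈ S) (hd : ∀ s ∈ d.support, s ∉ S) {t a b : ℝ} (ht : 0 ≤ t)
    (ha : 0 ≤ a) (hb : 0 ≤ b) (hab : a ^ 2 + b ^ 2 ≤ 1) :
    a * ‖vec m c‖ + (t * b / 2) * ‖vec m d‖
      ≤ (‖vec m c + t • vec m d‖ + ‖vec m c - t • vec m d‖) / 2 := by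
  refine le_of_forall_pos_le_add fun ε hε => ?_
  have hsum : 0 < 1 + t * b / 2 := by positivity
  set ε' : ℝ := ε / (1 + t * b / 2) with hε'
  have hε'pos : 0 < ε' := by positivity
  obtain ⟨f, hf⟩ := exists_test_norming (m := m) c hε'pos
  obtain ⟨g, hg⟩ := exists_test_norming (m := m) d hε'pos
  obtain ⟨hp, hm, hpT, hmT, hSeq, hSdiff⟩ := exists_test_pair m hS f.2 g.2 ha hb hab
  have h1 := norm_apply_le (vec m c + t • vec m d) ⟨hp, hpT⟩
  have h2 := norm_apply_le (vec m c - t • vec m d) ⟨hm, hmT⟩
  have hcp : (vec m c : PotentialTest m → ℝ) ⟨hp, hpT⟩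
      = a * (vec m c : PotentialTest m → ℝ) f := by
    rw [vec_apply, vec_apply, Finsupp.sum, Finsupp.sum, Finset.mul_sum]
    refine Finset.sum_congr rfl fun s hs => ?_
    show c s * hp s = a * (c s * f.1 s)
    rw [(hSeq s (hc s hs)).1]; ring
  have hcm : (vec m c : PotentialTest m → ℝ) ⟨hm, hmT⟩
      = a * (vec m c : PotentialTest m → ℝ) f := by
    rw [vec_apply, vec_apply, Finsupp.sum, Finsupp.sum, Finset.mul_sum]
    refine Finset.sum_congr rfl fun s hs => ?_
    show c s * hm s = a * (c s * f.1 s)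
    rw [(hSeq s (hc s hs)).2]; ring
  have hdd : (vec m d : PotentialTest m → ℝ) ⟨hp, hpT⟩ - (vec m d : PotentialTest m → ℝ) ⟨hm, hmT⟩
      = b * (vec m d : PotentialTest m → ℝ) g := by
    rw [vec_apply, vec_apply, vec_apply, Finsupp.sum, Finsupp.sum, Finsupp.sum, Finset.mul_sum,
      ← Finset.sum_sub_distrib]
    refine Finset.sum_congr rfl fun s hs => ?_
    show d s * hp s - d s * hm s = b * (d s * g.1 s)
    have := hSdiff s (hd s hs)
    calc d s * hp s - d s * hm s = d s * (hp s - hm s) := by ring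
      _ = b * (d s * g.1 s) := by rw [this]; ring
  have h3 : a * (vec m c : PotentialTest m → ℝ) f + t * (vec m d : PotentialTest m → ℝ) ⟨hp, hpT⟩
      ≤ ‖vec m c + t • vec m d‖ := by
    have := (le_abs_self _).trans h1
    rw [lp.coeFn_add, lp.coeFn_smul, Pi.add_apply, Pi.smul_apply, hcp, smul_eq_mul] at this
    exact this
  have h4 : a * (vec m c : PotentialTest m → ℝ) f - t * (vec m d : PotentialTest m → ℝ) ⟨hm, hmT⟩
      ≤ ‖vec m c - t • vec m d‖ := by
    have := (le_abs_self _).trans h2
    rw [lp.coeFn_sub, lp.coeFn_smul, Pi.sub_apply, Pi.smul_apply, hcm, smul_eq_mul] at this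
    exact this
  have h5 : a * (‖vec m c‖ - ε') ≤ a * (vec m c : PotentialTest m → ℝ) f := by gcongr
  have h6 : (t * b / 2) * (‖vec m d‖ - ε') ≤ (t * b / 2) * (vec m d : PotentialTest m → ℝ) g := by
    gcongr
  have h7 : a ≤ 1 := a_le_one a b hab
  have h8 : ε' * (1 + t * b / 2) = ε := by
    rw [hε']; field_simp
  have h9 : a * ε' ≤ 1 * ε' := by gcongr
  have h10 : t * ((vec m d : PotentialTest m → ℝ) ⟨hp, hpT⟩ - (vec m d : PotentialTest m → ℝ) ⟨hm, hmT⟩)
      = t * b * (vec m d : PotentialTest m → ℝ) g := by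
    rw [hdd]; ring
  nlinarith

/-- Finite ancestor-closed hull of the support of a finite vector. -/
noncomputable def hull (c : List ℕ →₀ ℝ) : Finset (List ℕ) := by
  classical
  exact insert [] (c.support.biUnion fun s => s.tails.toFinset)

lemma hull_anc (c : List ℕ →₀ ℝ) : AncClosed (hull c : Set (List ℕ)) := by
  classical
  refine ⟨by simp [hull], ?_⟩
  intro a v h
  simp only [hull, Finset.coe_insert, Finset.coe_biUnion, Set.mem_insert_iff, Set.mem_iUnion,
    Finset.mem_coe, List.mem_toFinset, List.mem_tails, exists_prop, List.cons_ne_nil, false_or] at h ⊢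
  obtain ⟨s, hs, hsuf⟩ := h
  right
  exact ⟨s, hs, (List.suffix_cons a v).trans hsuf⟩

lemma mem_hull (c : List ℕ →₀ ℝ) {s : List ℕ} (hs : s ∈ c.support) : s ∈ hull c := by
  classical
  simp only [hull, Finset.mem_insert, Finset.mem_biUnion, List.mem_toFinset, List.mem_tails]
  exact Or.inr ⟨s, hs, List.suffix_refl s⟩

/-- The midpoint inequality for general vectors: the finite set `S` only depends on `x` and `η`. -/
theorem midpoint_amb {x : Amb m} (hx : x ∈ modelSpace m) {η : ℝ} (hη : 0 < η) :
    ∃ S : Finset (List ℕ), ∀ y ∈ modelSpace m, (∀ s ∈ S, coordAt m y s = 0) →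
      ∀ t a b : ℝ, 0 ≤ t → 0 ≤ a → 0 ≤ b → a ^ 2 + b ^ 2 ≤ 1 →
        a * ‖x‖ + (t * b / 2) * ‖y‖ ≤ (‖x + t • y‖ + ‖x - t • y‖) / 2 + η := by
  obtain ⟨c, hc⟩ := exists_vec_near hx (show 0 < η / 2 by positivity)
  refine ⟨hull c, fun y hy hyS t a b ht ha hb hab => ?_⟩
  refine le_of_forall_pos_le_add fun ε hε => ?_
  have hsum : 0 < 1 + t + t * b / 2 := by positivity
  set ε' : ℝ := ε / (1 + t + t * b / 2) with hε'
  have hε'pos : 0 < ε' := by positivity
  obtain ⟨d, hd, hyd⟩ := exists_vec_off hy (hull c) hyS hε'pos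
  have hmid := midpoint_finite (m := m) c d (hull_anc c) (fun s hs => mem_hull c hs)
    (fun s hs => by simpa using hd s hs) ht ha hb hab
  have ha1 : a ≤ 1 := a_le_one a b hab
  -- comparisons
  have h1 : ‖x‖ ≤ ‖vec m c‖ + η / 2 := by
    have : x = vec m c + (x - vec m c) := by abel
    calc ‖x‖ = ‖vec m c + (x - vec m c)‖ := by rw [← this]
      _ ≤ ‖vec m c‖ + ‖x - vec m c‖ := norm_add_le _ _
      _ ≤ _ := by linarith
  have h2 : ‖y‖ ≤ ‖vec m d‖ + ε' := by
    have : y = vec m d + (y - vec m d) := by abel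
    calc ‖y‖ = ‖vec m d + (y - vec m d)‖ := by rw [← this]
      _ ≤ ‖vec m d‖ + ‖y - vec m d‖ := norm_add_le _ _
      _ ≤ _ := by linarith
  have hsm : ‖t • (y - vec m d)‖ ≤ t * ε' := by
    rw [norm_smul, Real.norm_eq_abs, abs_of_nonneg ht]
    gcongr
  have h3 : ‖vec m c + t • vec m d‖ ≤ ‖x + t • y‖ + η / 2 + t * ε' := by
    have : vec m c + t • vec m d = (x + t • y) - (x - vec m c) - t • (y - vec m d) := by
      rw [smul_sub]; abel
    rw [this]
    refine (norm_sub_le _ _).trans ?_
    have := norm_sub_le (x + t • y) (x - vec m c)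
    linarith
  have h4 : ‖vec m c - t • vec m d‖ ≤ ‖x - t • y‖ + η / 2 + t * ε' := by
    have : vec m c - t • vec m d = (x - t • y) - (x - vec m c) + t • (y - vec m d) := by
      rw [smul_sub]; abel
    rw [this]
    refine (norm_add_le _ _).trans ?_
    have := norm_sub_le (x - t • y) (x - vec m c)
    linarith
  have h5 : a * ‖x‖ ≤ a * ‖vec m c‖ + η / 2 := by
    have h6 : a * ‖x‖ ≤ a * (‖vec m c‖ + η / 2) := by gcongr
    have h7 : a * (η / 2) ≤ 1 * (η / 2) := by gcongr
    linarith
  have h8 : (t * b / 2) * ‖y‖ ≤ (t * b / 2) * ‖vec m d‖ + (t * b / 2) * ε' := by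
    have h6 : (t * b / 2) * ‖y‖ ≤ (t * b / 2) * (‖vec m d‖ + ε') := by gcongr
    linarith
  have h9 : ε' * (1 + t + t * b / 2) = ε := by
    rw [hε']; field_simp
  nlinarith

/-! ### Sibling sums and path sums -/

/-- Every test has square sum at most one over a set of siblings. -/
lemma sibling_sum_le (τ : PotentialTest m) (r : List ℕ) (A : Finset ℕ) :
    ∑ n ∈ A, τ.1 (n :: r) ^ 2 ≤ 1 := by
  classical
  obtain ⟨f, hf⟩ := τ
  cases m with
  | rootlessSibling => exact hf.2.2 r A
  | rootedSibling => exact hf.2 r A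
  | antichain =>
    have hanti : IsTreeAntichain (A.image fun n => n :: r) := by
      intro u hu v hv huv hsuf
      obtain ⟨a, -, rfl⟩ := Finset.mem_image.mp hu
      obtain ⟨b, -, rfl⟩ := Finset.mem_image.mp hv
      apply huv
      exact hsuf.eq_of_length (by simp)
    have := hf.2.2 _ hanti
    rwa [Finset.sum_image (fun a _ b _ h => (List.cons.inj h).1)] at this
  | global =>
    have := hf.2 (A.image fun n => n :: r)
    rwa [Finset.sum_image (fun a _ b _ h => (List.cons.inj h).1)] at this

/-- The Cesàro means of sibling coordinates tend to zero. -/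
lemma norm_avg_sibling_le (r : List ℕ) (φ : ℕ → ℕ) (hφ : StrictMono φ) (n : ℕ) :
    ‖(n : ℝ)⁻¹ • ∑ i ∈ Finset.range n, coordVector m (φ i :: r)‖ ≤ (Real.sqrt n)⁻¹ := by
  classical
  refine lp.norm_le_of_forall_le (by positivity) fun τ => ?_
  rw [lp.coeFn_smul, Pi.smul_apply, lp.coeFn_sum, Finset.sum_apply, Real.norm_eq_abs, smul_eq_mul]
  simp only [coordVector_apply]
  rcases Nat.eq_zero_or_pos n with rfl | hn
  · simp
  have hnpos : (0 : ℝ) < n := by exact_mod_cast hn
  have hsq : ∑ i ∈ Finset.range n, τ.1 (φ i :: r) ^ 2 ≤ 1 := by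
    have := sibling_sum_le τ r ((Finset.range n).image φ)
    rwa [Finset.sum_image (fun a _ b _ h => hφ.injective h)] at this
  have hcs : (∑ i ∈ Finset.range n, τ.1 (φ i :: r)) ^ 2 ≤ n * 1 := by
    have := sq_sum_le_card_mul_sum_sq (s := Finset.range n) (f := fun i => τ.1 (φ i :: r))
    rw [Finset.card_range] at this
    refine this.trans ?_
    gcongr
  have habs : |∑ i ∈ Finset.range n, τ.1 (φ i :: r)| ≤ Real.sqrt n := by
    rw [← Real.sqrt_sq_eq_abs]
    exact Real.sqrt_le_sqrt (by linarith)
  rw [abs_mul, abs_of_pos (inv_pos.mpr hnpos)]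
  have hs : Real.sqrt n * Real.sqrt n = n := Real.mul_self_sqrt hnpos.le
  have hspos : 0 < Real.sqrt n := Real.sqrt_pos.mpr hnpos
  calc (n : ℝ)⁻¹ * |∑ i ∈ Finset.range n, τ.1 (φ i :: r)| ≤ (n : ℝ)⁻¹ * Real.sqrt n := by gcongr
    _ = (Real.sqrt n)⁻¹ := by
      field_simp
      nlinarith

lemma tendsto_avg_sibling (r : List ℕ) (φ : ℕ → ℕ) (hφ : StrictMono φ) :
    Tendsto (fun n : ℕ => ‖(n : ℝ)⁻¹ • ∑ i ∈ Finset.range n, coordVector m (φ i :: r)‖)
      atTop (𝓝 0) := by
  have h1 : Tendsto (fun n : ℕ => (Real.sqrt n)⁻¹) atTop (𝓝 0) :=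
    tendsto_inv_atTop_zero.comp (Real.tendsto_sqrt_atTop.comp tendsto_natCast_atTop_atTop)
  exact squeeze_zero (fun _ => norm_nonneg _) (fun n => norm_avg_sibling_le r φ hφ n) h1

/-- The sum of coordinates along a root path. -/
noncomputable def pathVec (m : PotentialModel) : List ℕ → Amb m
  | [] => coordVector m []
  | a :: v => pathVec m v + coordVector m (a :: v)

lemma pathVec_apply (v : List ℕ) (τ : PotentialTest m) :
    (pathVec m v : PotentialTest m → ℝ) τ = pathPotential τ.1 v := by
  induction v with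
  | nil => rfl
  | cons a v ih =>
    simp only [pathVec, pathPotential, lp.coeFn_add, Pi.add_apply, ih, coordVector_apply]

lemma norm_pathVec_le (v : List ℕ) : ‖pathVec m v‖ ≤ 1 := by
  refine lp.norm_le_of_forall_le zero_le_one fun τ => ?_
  rw [pathVec_apply, Real.norm_eq_abs]
  exact τ.2.1 v

lemma one_le_norm_coord {s : List ℕ} (hs : s ≠ []) : 1 ≤ ‖coordVector m s‖ := by
  have h1 := norm_apply_le (coordVector m s) (deltaTest (valid_of_ne_nil hs))
  rw [coordVector_apply] at h1
  have h2 : (deltaTest (m := m) (valid_of_ne_nil hs)).1 s = 1 := by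
    simp [deltaTest, deltaFn]
  rw [h2] at h1
  simpa using h1

lemma one_le_norm_pathVec {v : List ℕ} (hv : v ≠ []) : 1 ≤ ‖pathVec m v‖ := by
  have h1 := norm_apply_le (pathVec m v) (deltaTest (valid_of_ne_nil hv))
  rw [pathVec_apply] at h1
  have h2 : pathPotential (deltaTest (m := m) (valid_of_ne_nil hv)).1 v = 1 := by
    show pathPotential (deltaFn v) v = 1
    rw [pot_delta]
    simp
  rw [h2] at h1
  simpa using h1

end Crest.Agent.Lib.TreeSpace
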