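import Mathlib
import Crest.Agent.Lib.TreeSpace
import Crest.Agent.Lib.L2Sum

/-!
The finite-depth blocks of the global tree model: each is isomorphic to a Hilbert space.
-/

set_option autoImplicit false

open Crest.AnalysisR.TreePotential Filter Topology
open scoped ENNReal NNReal

namespace Crest.Agent.Lib.TreeBlocks

open Crest.Agent.Lib.TreeSpace Crest.Agent.Lib.AUC Crest.Agent.Lib.L2Sum

/-- Vertices of depth at most `k`. -/
abbrev Node (k : ℕ) : Type := {s : List ℕ // s.length ≤ k}

/-- The Hilbert space on the vertices of depth at most `k`. -/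
abbrev HH (k : ℕ) : Type := lp (fun _ : Node k => ℝ) 2

/-- Ambient sup-norm space of the global model. -/
abbrev AG : Type := Amb PotentialModel.global

lemma sum_sq_node (k : ℕ) (τ : PotentialTest PotentialModel.global) (A : Finset (Node k)) :
    ∑ i ∈ A, τ.1 i.1 ^ 2 ≤ 1 := by
  classical
  have := τ.2.2 (A.map (Function.Embedding.subtype _))
  simpa using this

/-- Restriction of a global test to depth at most `k`. -/
noncomputable def rest (k : ℕ) (τ : PotentialTest PotentialModel.global) : HH k :=
  ⟨fun s => τ.1 s.1, memℓp_gen' (C := 1) (fun A => by simpa using sum_sq_node k τ A)⟩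

lemma rest_apply (k : ℕ) (τ : PotentialTest PotentialModel.global) (s : Node k) :
    rest k τ s = τ.1 s.1 := rfl

lemma norm_rest_le (k : ℕ) (τ : PotentialTest PotentialModel.global) : ‖rest k τ‖ ≤ 1 := by
  refine lp.norm_le_of_forall_sum_le (by norm_num) zero_le_one fun A => ?_
  simpa [rest_apply] using sum_sq_node k τ A

/-- The synthesis map: a coefficient vector, as a bounded function on tests. -/
noncomputable def T (k : ℕ) : HH k →L[ℝ] AG :=
  LinearMap.mkContinuous
    { toFun := fun c => ⟨fun τ => inner ℝ (rest k τ) c, memℓp_infty ⟨‖c‖, by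
        rintro _ ⟨τ, rfl⟩
        have h1 := abs_real_inner_le_norm (rest k τ) c
        have h2 := norm_rest_le k τ
        have h3 : ‖rest k τ‖ * ‖c‖ ≤ 1 * ‖c‖ := by gcongr
        simp only [Real.norm_eq_abs]
        linarith⟩⟩
      map_add' := fun a b => by
        ext τ
        exact inner_add_right _ _ _
      map_smul' := fun r a => by
        ext τ
        exact inner_smul_right _ _ _ } 1 (fun c => by
    refine lp.norm_le_of_forall_le (by positivity) fun τ => ?_
    have h1 := abs_real_inner_le_norm (rest k τ) c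
    have h2 := norm_rest_le k τ
    have h3 : ‖rest k τ‖ * ‖c‖ ≤ 1 * ‖c‖ := by gcongr
    exact h1.trans h3)

lemma T_apply (k : ℕ) (c : HH k) (τ : PotentialTest PotentialModel.global) :
    (T k c : PotentialTest PotentialModel.global → ℝ) τ = inner ℝ (rest k τ) c := rfl

/-! ### The lower bound -/

lemma pot_eq_sum (f : List ℕ → ℝ) (v : List ℕ) :
    pathPotential f v = ∑ u ∈ v.tails.toFinset, f u := by
  classical
  induction v with
  | nil => simp [pathPotential]
  | cons a v ih =>
    have hnot : (a :: v) ∉ v.tails.toFinset := by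
      simp only [List.mem_toFinset, List.mem_tails]
      intro h
      have := h.length_le
      simp at this
    rw [List.tails_cons, List.toFinset_cons, Finset.sum_insert hnot, pathPotential, ih]
    ring

lemma card_tails_le (k : ℕ) (v : List ℕ) :
    ((v.tails.toFinset).filter fun u => u.length ≤ k).card ≤ k + 1 := by
  classical
  have : ((v.tails.toFinset).filter fun u => u.length ≤ k).card ≤ (Finset.range (k + 1)).card := by
    refine Finset.card_le_card_of_injOn List.length ?_ ?_
    · intro u hu
      have := (Finset.mem_filter.mp (Finset.mem_coe.mp hu)).2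
      simp only [Finset.coe_range, Set.mem_Iio]
      omega
    · intro u hu w hw huw
      have hu' := (Finset.mem_filter.mp (Finset.mem_coe.mp hu)).1
      have hw' := (Finset.mem_filter.mp (Finset.mem_coe.mp hw)).1
      simp only [List.mem_toFinset, List.mem_tails] at hu' hw'
      have hl : u.length ≤ w.length := huw.le
      have hsuf : u <:+ w := List.suffix_of_suffix_length_le hu' hw' hl
      exact hsuf.eq_of_length huw
  simpa using this

/-- A function supported at depth at most `k` and of small square sum is a global test. -/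
lemma isTest_of_small {k : ℕ} {f : List ℕ → ℝ} (hf : ∀ s, k < s.length → f s = 0)
    (hA : ∀ A : Finset (List ℕ), ∑ u ∈ A, f u ^ 2 ≤ 1 / ((k : ℝ) + 1)) :
    IsTest PotentialModel.global f := by
  classical
  have hk : (0 : ℝ) < (k : ℝ) + 1 := by positivity
  have hone : 1 / ((k : ℝ) + 1) ≤ 1 := by
    rw [div_le_one hk]
    linarith [(Nat.cast_nonneg k : (0 : ℝ) ≤ k)]
  refine ⟨fun s => ?_, fun A => (hA A).trans hone⟩
  rw [pot_eq_sum]
  have h0 : ∑ u ∈ s.tails.toFinset, f u = ∑ u ∈ (s.tails.toFinset).filter (fun u => u.length ≤ k), f u := by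
    rw [Finset.sum_filter]
    refine Finset.sum_congr rfl fun u _ => ?_
    split_ifs with h
    · rfl
    · exact hf u (by omega)
  rw [h0]
  have h1 := sq_sum_le_card_mul_sum_sq (s := (s.tails.toFinset).filter (fun u => u.length ≤ k)) (f := f)
  have h2 : (((s.tails.toFinset).filter (fun u => u.length ≤ k)).card : ℝ) ≤ (k : ℝ) + 1 := by
    exact_mod_cast card_tails_le k s
  have h3 := hA ((s.tails.toFinset).filter (fun u => u.length ≤ k))
  have h4 : (∑ u ∈ (s.tails.toFinset).filter (fun u => u.length ≤ k), f u) ^ 2 ≤ 1 := by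
    refine h1.trans ?_
    calc _ ≤ ((k : ℝ) + 1) * (1 / ((k : ℝ) + 1)) := by
          gcongr
      _ = 1 := by field_simp
  exact abs_le_one_iff_mul_self_le_one.mpr (by nlinarith)

lemma sum_sq_le_norm (k : ℕ) (c : HH k) (A : Finset (List ℕ)) :
    ∑ u ∈ A, (if h : u.length ≤ k then c ⟨u, h⟩ else 0) ^ 2 ≤ ‖c‖ ^ 2 := by
  classical
  have h1 := lp.sum_rpow_le_norm_rpow (p := 2) (by norm_num) c (A.subtype fun u => u.length ≤ k)
  have h2 : ∑ i ∈ A.subtype (fun u => u.length ≤ k), ‖c i‖ ^ (2 : ℝ≥0∞).toReal
      = ∑ u ∈ A, (if h : u.length ≤ k then c ⟨u, h⟩ else 0) ^ 2 := by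
    have h3 : ∑ u ∈ A, (if h : u.length ≤ k then c ⟨u, h⟩ else 0) ^ 2
        = ∑ u ∈ A.filter (fun u => u.length ≤ k), (if h : u.length ≤ k then c ⟨u, h⟩ else 0) ^ 2 := by
      rw [Finset.sum_filter]
      refine Finset.sum_congr rfl fun u _ => ?_
      split_ifs with h
      · rfl
      · simp
    rw [h3, ← Finset.sum_subtype_eq_sum_filter]
    refine Finset.sum_congr rfl fun i _ => ?_
    rw [dif_pos i.2]
    simp
  rw [h2] at h1
  simpa using h1

/-- The lower bound for the synthesis map. -/
theorem norm_le_T (k : ℕ) (c : HH k) : ‖c‖ ≤ Real.sqrt ((k : ℝ) + 1) * ‖T k c‖ := by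
  classical
  rcases eq_or_ne c 0 with rfl | hc
  · simp
  have hcn : 0 < ‖c‖ := norm_pos_iff.mpr hc
  have hk : (0 : ℝ) < (k : ℝ) + 1 := by positivity
  set q : ℝ := Real.sqrt ((k : ℝ) + 1) with hq
  have hqpos : 0 < q := Real.sqrt_pos.mpr hk
  have hq2 : q ^ 2 = (k : ℝ) + 1 := Real.sq_sqrt hk.le
  set r : ℝ := (‖c‖ * q)⁻¹ with hr
  set f : List ℕ → ℝ := fun u => if h : u.length ≤ k then r * c ⟨u, h⟩ else 0 with hf
  have hf0 : ∀ s, k < s.length → f s = 0 := by
    intro s hs
    simp only [hf]
    rw [dif_neg (by omega)]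
  have hfsq : ∀ u, f u ^ 2 = r ^ 2 * (if h : u.length ≤ k then c ⟨u, h⟩ else 0) ^ 2 := by
    intro u
    simp only [hf]
    split_ifs with h
    · ring
    · ring
  have hA : ∀ A : Finset (List ℕ), ∑ u ∈ A, f u ^ 2 ≤ 1 / ((k : ℝ) + 1) := by
    intro A
    simp only [hfsq]
    rw [← Finset.mul_sum]
    have h1 := sum_sq_le_norm k c A
    have h2 : r ^ 2 * ‖c‖ ^ 2 = 1 / ((k : ℝ) + 1) := by
      rw [hr, ← hq2]
      field_simp
    rw [← h2]
    gcongr
  let τ : PotentialTest PotentialModel.global := ⟨f, isTest_of_small hf0 hA⟩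
  have hrest : rest k τ = r • c := by
    ext s
    show f s.1 = _
    simp only [hf]
    rw [dif_pos s.2]
    rfl
  have hval : (T k c : PotentialTest PotentialModel.global → ℝ) τ = ‖c‖ / q := by
    rw [T_apply, hrest, real_inner_smul_left, real_inner_self_eq_norm_sq, hr]
    field_simp
  have h1 := norm_apply_le (T k c) τ
  rw [hval, abs_of_pos (by positivity)] at h1
  rw [div_le_iff₀ hqpos] at h1
  linarith

lemma T_injective (k : ℕ) : Function.Injective (T k) := by
  refine (injective_iff_map_eq_zero (T k)).mpr fun c hc => ?_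
  have := norm_le_T k c
  rw [hc, norm_zero, mul_zero] at this
  exact norm_le_zero_iff.mp this

lemma T_closed (k : ℕ) : IsClosed (Set.range (T k)) := by
  have hanti : AntilipschitzWith (Real.toNNReal (Real.sqrt ((k : ℝ) + 1))) (T k) :=
    (T k).antilipschitz_of_bound fun c => by
      rw [Real.coe_toNNReal _ (Real.sqrt_nonneg _)]
      exact norm_le_T k c
  exact hanti.isClosed_range (T k).uniformContinuous

/-- The block of depth at most `k`. -/
noncomputable def XK (k : ℕ) : Submodule ℝ AG := (T k).range

instance (k : ℕ) : CompleteSpace (XK k) := (T_closed k).completeSpace_coe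

theorem reflexive_XK (k : ℕ) :
    Function.Surjective (NormedSpace.inclusionInDoubleDual ℝ (XK k)) :=
  reflexive_of_equiv ((T k).equivRange (T_injective k) (T_closed k)) reflexive_hilbert

lemma T_single (k : ℕ) (s : Node k) (a : ℝ) :
    T k (lp.single 2 s a) = a • coordVector PotentialModel.global s.1 := by
  classical
  ext τ
  rw [T_apply, lp.inner_single_right]
  simp only [lp.coeFn_smul, Pi.smul_apply, smul_eq_mul, rest_apply]
  show inner ℝ (τ.1 s.1) a = a * τ.1 s.1
  simp

lemma coord_mem_XK {k : ℕ} {s : List ℕ} (h : s.length ≤ k) :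
    coordVector PotentialModel.global s ∈ XK k := by
  refine ⟨lp.single 2 ⟨s, h⟩ 1, ?_⟩
  show T k _ = _
  rw [T_single, one_smul]

lemma pathVec_mem_XK {k : ℕ} : ∀ {v : List ℕ}, v.length ≤ k →
    pathVec PotentialModel.global v ∈ XK k
  | [], _ => coord_mem_XK (by simp)
  | a :: v, h => add_mem (pathVec_mem_XK (by simp at h; omega)) (coord_mem_XK h)

/-- The block lies in the model space. -/
theorem XK_le (k : ℕ) : XK k ≤ modelSpace PotentialModel.global := by
  rintro _ ⟨c, rfl⟩
  have hsum : HasSum (fun s : Node k => T k (lp.single 2 s (c s))) (T k c) :=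
    (lp.hasSum_single (p := 2) (by norm_num) c).mapL (T k)
  have hclosed : IsClosed ((modelSpace PotentialModel.global : Submodule ℝ AG) : Set AG) :=
    Submodule.isClosed_topologicalClosure _
  refine hclosed.mem_of_tendsto hsum (Eventually.of_forall fun A => ?_)
  refine Submodule.sum_mem _ fun s _ => ?_
  rw [T_single]
  exact Submodule.smul_mem _ _ (coord_mem _ _)

/-- Separability of blocks. -/
theorem separable_XK (k : ℕ) : TopologicalSpace.SeparableSpace (XK k) := by
  have h1 : TopologicalSpace.IsSeparable (Set.range (coordVector PotentialModel.global)) :=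
    (Set.countable_range _).isSeparable
  have h2 : TopologicalSpace.IsSeparable
      ((modelSpace PotentialModel.global : Submodule ℝ AG) : Set AG) := by
    rw [modelSpace, Submodule.topologicalClosure_coe]
    exact h1.span.closure
  have h3 : TopologicalSpace.IsSeparable ((XK k : Submodule ℝ AG) : Set AG) :=
    h2.mono (XK_le k)
  exact h3.separableSpace

end Crest.Agent.Lib.TreeBlocks
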